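import Vale.Agent.P199K.LSer

/-!
API for Laurent series `LS A` (helper27).
-/

namespace Vale.Agent.P199K

section Aux

variable {A : Type} [Ring A]

theorem hs_coeff_mul (f g : HahnSeries ℤ A) {a b : ℤ} (ha : ∀ n < a, f.coeff n = 0)
    (hb : ∀ n < b, g.coeff n = 0) (n : ℤ) :
    (f * g).coeff n = ∑ i ∈ Finset.Icc a (n - b), f.coeff i * g.coeff (n - i) := by
  classical
  rw [HahnSeries.coeff_mul]
  refine Finset.sum_bij_ne_zero (fun ij _ _ => ij.1) ?_ ?_ ?_ ?_
  · intro ij hij hne
    simp only [Finset.mem_antidiagonal, HahnSeries.mem_support] at hij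
    rw [Finset.mem_Icc]
    constructor
    · by_contra hlt
      exact hij.1 (ha _ (by omega))
    · by_contra hlt
      exact hij.2.1 (hb _ (by omega))
  · intro ij hij _ kl hkl _ h
    simp only [Finset.mem_antidiagonal, HahnSeries.mem_support] at hij hkl
    ext
    · exact h
    · omega
  · intro i hi hne
    refine ⟨(i, n - i), ?_, ?_, rfl⟩
    · simp only [Finset.mem_antidiagonal, HahnSeries.mem_support]
      refine ⟨fun h0 => hne ?_, fun h0 => hne ?_, by omega⟩
      · rw [h0, zero_mul]
      · rw [h0, mul_zero]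
    · exact hne
  · intro ij hij _
    simp only [Finset.mem_antidiagonal, HahnSeries.mem_support] at hij
    have : n - ij.1 = ij.2 := by omega
    rw [this]

theorem hs_coeff_single (k n : ℤ) (a : A) :
    (HahnSeries.single k a : HahnSeries ℤ A).coeff n = if n = k then a else 0 := by
  by_cases h : n = k
  · subst h; rw [if_pos rfl]; exact HahnSeries.coeff_single_same _ _
  · rw [if_neg h]; exact HahnSeries.coeff_single_of_ne h

theorem hs_coeff_one (n : ℤ) : (1 : HahnSeries ℤ A).coeff n = if n = 0 then 1 else 0 :=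
  hs_coeff_single 0 n 1

theorem hs_coeff_single_mul (k n : ℤ) (a : A) (f : HahnSeries ℤ A) :
    (HahnSeries.single k a * f).coeff n = a * f.coeff (n - k) := HahnSeries.coeff_single_mul

theorem hs_coeff_mul_single (k n : ℤ) (a : A) (f : HahnSeries ℤ A) :
    (f * HahnSeries.single k a).coeff n = f.coeff (n - k) * a := HahnSeries.coeff_mul_single

end Aux

namespace LS

section Basic

variable {A : Type} [Ring A]

@[simp] theorem coeff_neg (f : LS A) (n : ℤ) : (-f).coeff n = -f.coeff n := rfl

theorem coeff_sum {ι : Type} (s : Finset ι) (f : ι → LS A) (n : ℤ) :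
    (∑ i ∈ s, f i).coeff n = ∑ i ∈ s, (f i).coeff n := by
  classical
  induction s using Finset.induction_on with
  | empty => simp
  | insert a s ha ih => rw [Finset.sum_insert ha, Finset.sum_insert ha, coeff_add, ih]

theorem coeff_one (n : ℤ) : (1 : LS A).coeff n = if n = 0 then 1 else 0 := hs_coeff_one n

/-- every Laurent series is bounded below -/
theorem exists_bound (f : LS A) : ∃ N : ℤ, ∀ n < N, f.coeff n = 0 := by
  by_cases h : f = 0
  · exact ⟨0, fun n _ => by rw [h]; rfl⟩
  · refine ⟨HahnSeries.order (f : HahnSeries ℤ A), fun n hn => ?_⟩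
    exact HahnSeries.coeff_eq_zero_of_lt_order hn

/-- a Laurent series from its coefficients -/
noncomputable def mk (f : ℤ → A) (N : ℤ) (h : ∀ n < N, f n = 0) : LS A :=
  (HahnSeries.ofSuppBddBelow f
    ⟨N, fun n hn => by_contra fun hlt => hn (h n (not_le.1 hlt))⟩ : HahnSeries ℤ A)

@[simp] theorem coeff_mk (f : ℤ → A) (N : ℤ) (h : ∀ n < N, f n = 0) (n : ℤ) :
    (mk f N h).coeff n = f n := rfl

/-- product formula with explicit bounds -/
theorem coeff_mul_of_bound (f g : LS A) {a b : ℤ} (ha : ∀ n < a, f.coeff n = 0)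
    (hb : ∀ n < b, g.coeff n = 0) (n : ℤ) :
    (f * g).coeff n = ∑ i ∈ Finset.Icc a (n - b), f.coeff i * g.coeff (n - i) :=
  hs_coeff_mul f g ha hb n

theorem Intg.zero : Intg (0 : LS A) := fun _ _ => rfl

theorem Intg.one : Intg (1 : LS A) := fun n hn => by rw [coeff_one, if_neg (by omega)]

theorem Intg.add {f g : LS A} (hf : Intg f) (hg : Intg g) : Intg (f + g) := fun n hn => by
  rw [coeff_add, hf n hn, hg n hn, add_zero]

theorem Intg.neg {f : LS A} (hf : Intg f) : Intg (-f) := fun n hn => by
  rw [coeff_neg, hf n hn, neg_zero]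

theorem Intg.sub {f g : LS A} (hf : Intg f) (hg : Intg g) : Intg (f - g) := fun n hn => by
  rw [coeff_sub, hf n hn, hg n hn, sub_zero]

theorem Intg.sum {ι : Type} {s : Finset ι} {f : ι → LS A} (hf : ∀ i ∈ s, Intg (f i)) :
    Intg (∑ i ∈ s, f i) := fun n hn => by
  rw [coeff_sum]; exact Finset.sum_eq_zero fun i hi => hf i hi n hn

theorem Intg.mul {f g : LS A} (hf : Intg f) (hg : Intg g) : Intg (f * g) := fun n hn => by
  rw [coeff_mul_of_bound f g hf hg, Finset.Icc_eq_empty (by omega), Finset.sum_empty]

theorem Intg.pow {f : LS A} (hf : Intg f) (k : ℕ) : Intg (f ^ k) := by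
  induction k with
  | zero => rw [pow_zero]; exact Intg.one
  | succ k ih => rw [pow_succ]; exact ih.mul hf

theorem coeff_mul_zero {f g : LS A} (hf : Intg f) (hg : Intg g) :
    (f * g).coeff 0 = f.coeff 0 * g.coeff 0 := by
  rw [coeff_mul_of_bound f g hf hg]; simp

theorem coeff_pow_zero {f : LS A} (hf : Intg f) (k : ℕ) : (f ^ k).coeff 0 = f.coeff 0 ^ k := by
  induction k with
  | zero => rw [pow_zero, pow_zero, coeff_one, if_pos rfl]
  | succ k ih => rw [pow_succ, pow_succ, coeff_mul_zero (hf.pow k) hf, ih]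

/-- the coefficient of `t` in a product of integral elements -/
theorem coeff_mul_one {f g : LS A} (hf : Intg f) (hg : Intg g) :
    (f * g).coeff 1 = f.coeff 0 * g.coeff 1 + f.coeff 1 * g.coeff 0 := by
  rw [coeff_mul_of_bound f g hf hg]
  have : Finset.Icc (0 : ℤ) (1 - 0) = {0, 1} := by decide
  rw [this, Finset.sum_insert (by decide), Finset.sum_singleton]
  norm_num

@[simp] theorem coeff_C_zero (a : A) : (C a).coeff 0 = a := by rw [coeff_C, if_pos rfl]

theorem Intg.C (a : A) : Intg (C a) := fun n hn => by rw [coeff_C, if_neg (by omega)]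

theorem C_injective : Function.Injective (C : A →+* LS A) := fun a b h => by
  have := congrArg (fun f => coeff f 0) h
  simpa using this

@[simp] theorem coeff_C_mul (a : A) (f : LS A) (n : ℤ) : (C a * f).coeff n = a * f.coeff n := by
  have := hs_coeff_single_mul 0 n a f
  rw [sub_zero] at this
  exact this

@[simp] theorem coeff_mul_C (a : A) (f : LS A) (n : ℤ) : (f * C a).coeff n = f.coeff n * a := by
  have := hs_coeff_mul_single 0 n a f
  rw [sub_zero] at this
  exact this

/-- powers of the variable `t`, with integer exponents -/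
noncomputable def tp (n : ℤ) : LS A := mono n 1

@[simp] theorem coeff_tp_mul (k : ℤ) (f : LS A) (n : ℤ) :
    (tp k * f).coeff n = f.coeff (n - k) := by
  have := hs_coeff_single_mul k n 1 f
  rw [one_mul] at this
  exact this

@[simp] theorem coeff_mul_tp (k : ℤ) (f : LS A) (n : ℤ) :
    (f * tp k).coeff n = f.coeff (n - k) := by
  have := hs_coeff_mul_single k n 1 f
  rw [mul_one] at this
  exact this

theorem coeff_tp (k n : ℤ) : (tp k : LS A).coeff n = if n = k then 1 else 0 :=
  hs_coeff_single k n 1

theorem tp_comm (k : ℤ) (f : LS A) : tp k * f = f * tp k := by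
  ext n; simp

@[simp] theorem tp_zero : (tp 0 : LS A) = 1 := rfl

theorem tp_add (k l : ℤ) : (tp (k + l) : LS A) = tp k * tp l := by
  ext n
  rw [coeff_tp_mul, coeff_tp, coeff_tp]
  have : (n = k + l) ↔ (n - k = l) := by omega
  simp only [this]

theorem tp_mul_tp_neg (k : ℤ) : (tp k : LS A) * tp (-k) = 1 := by
  rw [← tp_add]; simp

theorem Intg.tp {k : ℤ} (hk : 0 ≤ k) : Intg (tp k : LS A) := fun n hn => by
  rw [coeff_tp, if_neg (by omega)]

/-- a nonzero Laurent series is `t ^ n` times an integral one with nonzero residue -/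
theorem exists_eq_tp_mul {f : LS A} (hf : f ≠ 0) :
    ∃ (n : ℤ) (g : LS A), f = tp n * g ∧ Intg g ∧ g.coeff 0 ≠ 0 := by
  obtain ⟨N, hN⟩ := exists_bound f
  have hex : ∃ n, f.coeff n ≠ 0 := by
    by_contra h
    push Not at h
    exact hf (ext h)
  have h2 : ∃ k : ℕ, f.coeff (N + k) ≠ 0 := by
    obtain ⟨n, hn⟩ := hex
    have : N ≤ n := by
      by_contra hlt
      exact hn (hN n (by omega))
    exact ⟨(n - N).toNat, by rwa [Int.toNat_of_nonneg (by omega), add_sub_cancel]⟩
  classical
  refine ⟨N + Nat.find h2, tp (-(N + Nat.find h2)) * f, ?_, ?_, ?_⟩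
  · rw [← mul_assoc, tp_mul_tp_neg, one_mul]
  · intro n hn
    rw [coeff_tp_mul]
    by_cases hlt : n - -(N + (Nat.find h2 : ℤ)) < N
    · exact hN _ hlt
    · have h3 := Nat.find_min h2 (m := (n + Nat.find h2).toNat) (by omega)
      push Not at h3
      have e : N + ((n + (Nat.find h2 : ℤ)).toNat : ℤ) = n - -(N + (Nat.find h2 : ℤ)) := by
        rw [Int.toNat_of_nonneg (by omega)]; ring
      rw [← e]; exact h3
  · rw [coeff_tp_mul]
    have := Nat.find_spec h2
    rwa [zero_sub, neg_neg]

/-- multiplying by a power of `t` makes any Laurent series integral -/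
theorem exists_tp_mul_int (f : LS A) : ∃ n : ℕ, Intg (tp (n : ℤ) * f) := by
  obtain ⟨N, hN⟩ := exists_bound f
  refine ⟨(-N).toNat, fun n hn => ?_⟩
  rw [coeff_tp_mul]
  refine hN _ ?_
  have := Int.self_le_toNat (-N)
  omega

end Basic

section Map

variable {A B D : Type} [Ring A] [Ring B] [Ring D]

theorem map_C (φ : A →+* B) (a : A) : map φ (C a) = C (φ a) := by
  ext n; rw [coeff_map, coeff_C, coeff_C]; split <;> simp

theorem map_tp (φ : A →+* B) (n : ℤ) : map φ (tp n) = tp n := by
  ext k; rw [coeff_map, coeff_tp, coeff_tp]; split <;> simp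

theorem map_injective {φ : A →+* B} (h : Function.Injective φ) :
    Function.Injective (map φ) := fun f g hfg => by
  ext n
  exact h (congrArg (fun u => coeff u n) hfg)

theorem map_comp (ψ : B →+* D) (φ : A →+* B) (f : LS A) :
    map ψ (map φ f) = map (ψ.comp φ) f := rfl

theorem Intg.map {φ : A →+* B} {f : LS A} (hf : Intg f) : Intg (LS.map φ f) := fun n hn => by
  rw [coeff_map, hf n hn, map_zero]

end Map

section Algebra

variable {K A : Type} [Field K] [Ring A] [Algebra K A]

theorem smul_def (c : LS K) (f : LS A) : c • f = map (algebraMap K A) c * f := rfl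

theorem algebraMap_C (c : K) : algebraMap (LS K) (LS A) (C c) = C (algebraMap K A c) :=
  map_C _ _

theorem algebraMap_tp (n : ℤ) : algebraMap (LS K) (LS A) (tp n) = tp n := map_tp _ _

theorem coeff_C_smul (c : K) (f : LS A) (n : ℤ) :
    ((C c : LS K) • f).coeff n = c • f.coeff n := by
  rw [smul_def, map_C, coeff_C_mul, Algebra.smul_def]

theorem coeff_tp_smul (k : ℤ) (f : LS A) (n : ℤ) :
    ((tp k : LS K) • f).coeff n = f.coeff (n - k) := by
  rw [smul_def, map_tp, coeff_tp_mul]

theorem coeff_smul_C (c : LS K) (a : A) (n : ℤ) :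
    (c • (C a : LS A)).coeff n = c.coeff n • a := by
  rw [smul_def, coeff_mul_C, coeff_map, Algebra.smul_def]

/-- a `K`-basis of `A` is an `LS K`-basis of `LS A` -/
noncomputable def basis {ι : Type} [Fintype ι] (b : Module.Basis ι K A) :
    Module.Basis ι (LS K) (LS A) := by
  classical
  refine Module.Basis.mk (v := fun i => (C (b i) : LS A)) ?_ ?_
  · rw [Fintype.linearIndependent_iff]
    intro g hg i
    ext n
    have h1 : ∑ i, (g i).coeff n • b i = 0 := by
      have := congrArg (fun u => coeff u n) hg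
      simpa only [coeff_sum, coeff_smul_C, coeff_zero] using this
    exact Fintype.linearIndependent_iff.1 b.linearIndependent _ h1 i
  · intro f _
    obtain ⟨N, hN⟩ := exists_bound f
    have : f = ∑ i, (mk (fun n => b.repr (f.coeff n) i) N
        (fun n hn => by rw [hN n hn]; simp) : LS K) • (C (b i) : LS A) := by
      ext n
      rw [coeff_sum]
      simp only [coeff_smul_C, coeff_mk]
      exact (b.sum_repr _).symm
    rw [this]
    exact Submodule.sum_mem _ fun i _ => Submodule.smul_mem _ _
      (Submodule.subset_span ⟨i, rfl⟩)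

@[simp] theorem basis_apply {ι : Type} [Fintype ι] (b : Module.Basis ι K A) (i : ι) :
    basis b i = C (b i) := by
  simp [basis]

instance instFinite [Module.Finite K A] : Module.Finite (LS K) (LS A) :=
  Module.Finite.of_basis (basis (Module.finBasis K A))

theorem finrank_eq [Module.Finite K A] :
    Module.finrank (LS K) (LS A) = Module.finrank K A := by
  rw [Module.finrank_eq_card_basis (basis (Module.finBasis K A)), Fintype.card_fin]

/-- centrality passes to Laurent series -/
theorem central (h : ∀ a : A, (∀ b, a * b = b * a) → ∃ c : K, a = algebraMap K A c)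
    (f : LS A) (hf : ∀ g : LS A, f * g = g * f) : ∃ c : LS K, f = algebraMap (LS K) (LS A) c := by
  have h1 : ∀ n, ∃ c : K, f.coeff n = algebraMap K A c := fun n => by
    refine h _ fun b => ?_
    have := congrArg (fun u => coeff u n) (hf (C b))
    simpa using this
  choose c hc using h1
  by_cases hA : Nontrivial A
  · obtain ⟨N, hN⟩ := exists_bound f
    refine ⟨mk c N fun n hn => ?_, ?_⟩
    · have := hc n
      rw [hN n hn] at this
      exact (map_eq_zero_iff _ (algebraMap K A).injective).1 this.symm
    · ext n; rw [coeff_algebraMap, coeff_mk, hc]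
  · rw [not_nontrivial_iff_subsingleton] at hA
    exact ⟨0, by ext n; exact Subsingleton.elim _ _⟩

end Algebra

end LS

end Vale.Agent.P199K
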