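import Vale.Agent.P199K.SymBasis
import Vale.Agent.P199K.LSApi

/-!
# P199: existence of symbol data, trivial data, Laurent extension (helper27)
-/

namespace Vale.Agent.P199K

section Facts

variable {K A K₁ E₁ A₁ : Type} [Field K] [Ring A] [Algebra K A] [Field K₁] [Ring E₁] [Ring A₁]
  [Algebra K₁ E₁] [Algebra K₁ A₁]

/-- the `K₁`-linear map `c ↦ ∑ ι (b i) * j (c i)` -/
noncomputable def admLin (ι : A →+* A₁) (j : E₁ →ₐ[K₁] A₁) {n : ℕ} (b : Fin n → A) :
    (Fin n → E₁) →ₗ[K₁] A₁ where
  toFun c := ∑ i, ι (b i) * j (c i)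
  map_add' c c' := by
    simp only [Pi.add_apply, map_add, mul_add, Finset.sum_add_distrib]
  map_smul' k c := by
    simp only [Pi.smul_apply, map_smul, mul_smul_comm, RingHom.id_apply, Finset.smul_sum]

theorem Adm.fdA_proved [FiniteDimensional K A] {κ : K →+* K₁} {ι : A →+* A₁} {j : E₁ →ₐ[K₁] A₁} {m : ℕ}
    (h : Adm κ ι j m) : FiniteDimensional K₁ A₁ := by
  have := h.fdE
  let b := Module.finBasis K A
  have hs : Function.Surjective (admLin (K₁ := K₁) ι j b) := (h.bas _ b).2
  exact Module.Finite.of_surjective _ hs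

end Facts

/-- existence of symbol data -/
theorem exists_symD_proved (K A : Type) [Field K] [CharZero K] [HasRoots K] [Ring A] [IsDomain A]
    [Algebra K A] [FiniteDimensional K A] (m : ℕ) (hm : 0 < m) : Nonempty (SymD K A m) := by
  have : NeZero m := ⟨hm.ne'⟩
  obtain ⟨ζ, hζ⟩ := HasRoots.out (K := K) m hm
  have h := Sym.symAdm (A := A) hζ
  have hfd : FiniteDimensional (Kxy K) (Sym (AddChar.zmodChar m hζ.pow_eq_one) A) := h.toAdm.fdA_proved
  exact ⟨{ K₁ := Kxy K
           E₁ := Sym (AddChar.zmodChar m hζ.pow_eq_one) K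
           A₁ := Sym (AddChar.zmodChar m hζ.pow_eq_one) A
           κ := _
           ι := _
           j := _
           X := _
           Y := _
           ζ := ζ
           x := _
           y := _
           sym := h }⟩

section Triv

variable {K A : Type} [Field K] [Ring A] [Algebra K A]

theorem Adm.triv_proved [FiniteDimensional K A] :
    Adm (RingHom.id K) (RingHom.id A) (Algebra.ofId K A) 1 where
  ι_alg c := rfl
  comm a e := by
    change a * algebraMap K A e = algebraMap K A e * a
    rw [Algebra.commutes]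
  bas n b := by
    have e : (fun c : Fin n → K => ∑ i, (RingHom.id A) (b i) * (Algebra.ofId K A) (c i))
        = fun c => b.equivFun.symm c := by
      funext c
      rw [Module.Basis.equivFun_symm_apply]
      refine Finset.sum_congr rfl fun i _ => ?_
      change b i * algebraMap K A (c i) = _
      rw [Algebra.smul_def, Algebra.commutes]
    rw [e]
    exact b.equivFun.symm.bijective
  finE := by rw [Module.finrank_self, one_pow]
  pos := one_pos
  fdE := inferInstance
  cenE := inferInstance
  gen2 := ⟨0, 0, by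
    rw [eq_top_iff]
    intro x _
    exact Subalgebra.algebraMap_mem _ x⟩

end Triv

section Laurent

variable {K A K₁ E₁ A₁ : Type} [Field K] [Ring A] [Algebra K A] [Field K₁] [Ring E₁] [Ring A₁]
  [Algebra K₁ E₁] [Algebra K₁ A₁]

theorem adjoin_C {x y : E₁} (hxy : Algebra.adjoin K₁ {x, y} = ⊤) (e : E₁) :
    LS.C e ∈ Algebra.adjoin (LS K₁) {(LS.C x : LS E₁), LS.C y} := by
  have he : e ∈ Algebra.adjoin K₁ {x, y} := by rw [hxy]; trivial
  induction he using Algebra.adjoin_induction with
  | mem z hz =>
    refine Algebra.subset_adjoin ?_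
    rcases hz with rfl | hz
    · simp
    · rw [Set.mem_singleton_iff] at hz; subst hz; simp
  | algebraMap r =>
    rw [← LS.algebraMap_C]
    exact Subalgebra.algebraMap_mem _ _
  | add a b _ _ ha hb => rw [map_add]; exact Subalgebra.add_mem _ ha hb
  | mul a b _ _ ha hb => rw [map_mul]; exact Subalgebra.mul_mem _ ha hb

/-- Laurent extension of admissible data -/
theorem Adm.laurent_proved (κ : K →+* K₁) (ι : A →+* A₁) (j : E₁ →ₐ[K₁] A₁) (m : ℕ)
    (h : Adm κ ι j m) (j' : LS E₁ →ₐ[LS K₁] LS A₁)
    (hj' : ∀ x n, LS.coeff (j' x) n = j (LS.coeff x n)) :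
    Adm (LS.C.comp κ) (LS.C.comp ι) j' m where
  ι_alg c := by
    rw [RingHom.comp_apply, RingHom.comp_apply, h.ι_alg, LS.algebraMap_C]
  comm a e := by
    ext n
    rw [RingHom.comp_apply, LS.coeff_C_mul, LS.coeff_mul_C, hj', h.comm]
  bas n b := by
    have key : ∀ (c : Fin n → LS E₁) (k : ℤ),
        LS.coeff (∑ i, (LS.C.comp ι) (b i) * j' (c i)) k = ∑ i, ι (b i) * j (LS.coeff (c i) k) := by
      intro c k
      rw [LS.coeff_sum]
      refine Finset.sum_congr rfl fun i _ => ?_
      rw [RingHom.comp_apply, LS.coeff_C_mul, hj']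
    constructor
    · intro c c' hc
      funext i
      ext k
      have h1 := congrArg (fun u => LS.coeff u k) hc
      simp only [key] at h1
      exact congrFun ((h.bas n b).1 h1) i
    · intro f
      choose c hc using fun k => (h.bas n b).2 (LS.coeff f k)
      obtain ⟨N, hN⟩ := LS.exists_bound f
      have h0 : ∀ k < N, c k = 0 := by
        intro k hk
        refine (h.bas n b).1 ?_
        simp only at hc ⊢
        rw [hc, hN k hk]
        simp
      refine ⟨fun i => LS.mk (fun k => c k i) N fun k hk => by rw [h0 k hk]; rfl, ?_⟩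
      ext k
      rw [key]
      simp only [LS.coeff_mk]
      exact hc k
  finE := by
    have := h.fdE
    rw [LS.finrank_eq, h.finE]
  pos := h.pos
  fdE := by
    have := h.fdE
    exact LS.instFinite
  cenE := by
    have := h.cenE
    refine ⟨fun f hf => ?_⟩
    rw [Subalgebra.mem_center_iff] at hf
    obtain ⟨c, hc⟩ := LS.central (K := K₁) (A := E₁) (fun a ha => by
      have : a ∈ Subalgebra.center K₁ E₁ := Subalgebra.mem_center_iff.2 fun b => (ha b).symm
      obtain ⟨c, hc⟩ := Algebra.mem_bot.1 (Algebra.IsCentral.out this)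
      exact ⟨c, hc.symm⟩) f (fun g => (hf g).symm)
    exact Algebra.mem_bot.2 ⟨c, hc.symm⟩
  gen2 := by
    have := h.fdE
    obtain ⟨x, y, hxy⟩ := h.gen2
    refine ⟨LS.C x, LS.C y, ?_⟩
    rw [eq_top_iff]
    intro f _
    rw [← (LS.basis (Module.finBasis K₁ E₁)).sum_repr f]
    refine Subalgebra.sum_mem _ fun i _ => Subalgebra.smul_mem _ ?_ _
    rw [LS.basis_apply]
    exact adjoin_C hxy _

end Laurent

end Vale.Agent.P199K
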