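import Vale.Agent.P199K.AdmD
import Vale.Agent.P199K.SymD

/-! # P199: existence of admissible data (definitions and first facts: AdmD.lean). Every theorem is
proved in its own file which imports AdmD.lean, the proofs are wired in here. -/

open scoped LaurentSeries
open PowerSeries

namespace Vale.Agent.P199K

section Adm
variable {K A K₁ E₁ A₁ : Type} [Field K] [Ring A] [Algebra K A] [Field K₁] [Ring E₁] [Ring A₁]
  [Algebra K₁ E₁] [Algebra K₁ A₁]

/-- the trivial admissible data -/
theorem Adm.triv [FiniteDimensional K A] :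
    Adm (RingHom.id K) (RingHom.id A) (Algebra.ofId K A) 1 := Adm.triv_proved

/-- Laurent extension of admissible data -/
theorem Adm.laurent (κ : K →+* K₁) (ι : A →+* A₁) (j : E₁ →ₐ[K₁] A₁) (m : ℕ) (h : Adm κ ι j m)
    (j' : LS E₁ →ₐ[LS K₁] LS A₁) (hj' : ∀ x n, LS.coeff (j' x) n = j (LS.coeff x n)) :
    Adm (LS.C.comp κ) (LS.C.comp ι) j' m := Adm.laurent_proved κ ι j m h j' hj'

theorem Adm.ls (κ : K →+* K₁) (ι : A →+* A₁) (j : E₁ →ₐ[K₁] A₁) (m : ℕ) (h : Adm κ ι j m) :
    Adm (LS.C.comp κ) (LS.C.comp ι) (lsj j) m := Adm.laurent κ ι j m h (lsj j) (fun _ _ => rfl)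

end Adm

/-- existence of symbol data -/
theorem exists_symD (K A : Type) [Field K] [CharZero K] [HasRoots K] [Ring A] [IsDomain A] [Algebra K A]
    [FiniteDimensional K A] (m : ℕ) (hm : 0 < m) : Nonempty (SymD K A m) :=
  exists_symD_proved K A m hm

end Vale.Agent.P199K
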