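import Vale.Agent.P199K.LSer

/-! # P199, module LSF: finite dimensional Laurent series algebras (helper42) -/

open scoped LaurentSeries
open PowerSeries
namespace Vale.Agent.P199K
section Lau
variable {K A : Type} [Field K] [Ring A] [Algebra K A]

private theorem lsf_coeff_mul_C (x : LS A) (a : A) (n : ℤ) :
    LS.coeff (x * LS.C a) n = LS.coeff x n * a :=
  HahnSeries.coeff_mul_single_zero (Γ := ℤ) (R := A)

private theorem lsf_coeff_C_mul (x : LS A) (a : A) (n : ℤ) :
    LS.coeff (LS.C a * x) n = a * LS.coeff x n :=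
  HahnSeries.coeff_single_zero_mul (Γ := ℤ) (R := A)

private theorem lsf_coeff_smul_C (c : LS K) (a : A) (n : ℤ) :
    LS.coeff (c • (LS.C a : LS A)) n = LS.coeff c n • a := by
  rw [Algebra.smul_def, lsf_coeff_mul_C, LS.coeff_algebraMap, Algebra.smul_def]

private theorem lsf_coeff_sum {ι : Type} (s : Finset ι) (f : ι → LS A) (n : ℤ) :
    LS.coeff (∑ i ∈ s, f i) n = ∑ i ∈ s, LS.coeff (f i) n := by
  classical
  induction s using Finset.induction_on with
  | empty => simp
  | insert a s ha ih => rw [Finset.sum_insert ha, Finset.sum_insert ha, LS.coeff_add, ih]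

private theorem lsf_exists_bound (f : LS A) : ∃ N : ℤ, ∀ n < N, LS.coeff f n = 0 := by
  by_cases h : f = 0
  · exact ⟨0, fun n _ => by rw [h]; rfl⟩
  · refine ⟨HahnSeries.order (f : HahnSeries ℤ A), fun n hn => ?_⟩
    exact HahnSeries.coeff_eq_zero_of_lt_order hn

private noncomputable def lsf_mk (f : ℤ → A) (N : ℤ) (h : ∀ n < N, f n = 0) : LS A :=
  (HahnSeries.ofSuppBddBelow f
    ⟨N, fun n hn => by_contra fun hlt => hn (h n (not_le.1 hlt))⟩ : HahnSeries ℤ A)

private theorem lsf_coeff_mk (f : ℤ → A) (N : ℤ) (h : ∀ n < N, f n = 0) (n : ℤ) :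
    LS.coeff (lsf_mk f N h) n = f n := rfl

/-- a `K`-basis of `A` is an `LS K`-basis of `LS A` -/
noncomputable def lsBasis {ι : Type} [Fintype ι] (b : Module.Basis ι K A) :
    Module.Basis ι (LS K) (LS A) := by
  classical
  refine Module.Basis.mk (v := fun i => (LS.C (b i) : LS A)) ?_ ?_
  · rw [Fintype.linearIndependent_iff]
    intro g hg i
    apply LS.ext
    intro n
    have h1 : ∑ i, LS.coeff (g i) n • b i = 0 := by
      have := congrArg (fun u => LS.coeff u n) hg
      simpa only [lsf_coeff_sum, lsf_coeff_smul_C, LS.coeff_zero] using this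
    exact Fintype.linearIndependent_iff.1 b.linearIndependent _ h1 i
  · intro f _
    obtain ⟨N, hN⟩ := lsf_exists_bound f
    have : f = ∑ i, (lsf_mk (fun n => b.repr (LS.coeff f n) i) N
        (fun n hn => by simp [hN n hn]) : LS K) • (LS.C (b i) : LS A) := by
      apply LS.ext
      intro n
      rw [lsf_coeff_sum]
      simp only [lsf_coeff_smul_C, lsf_coeff_mk]
      exact (b.sum_repr _).symm
    rw [this]
    exact Submodule.sum_mem _ fun i _ => Submodule.smul_mem _ _
      (Submodule.subset_span ⟨i, rfl⟩)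

@[simp] theorem lsBasis_apply {ι : Type} [Fintype ι] (b : Module.Basis ι K A) (i : ι) :
    lsBasis b i = LS.C (b i) := by
  simp [lsBasis]

theorem lsf_fd [FiniteDimensional K A] : FiniteDimensional (LS K) (LS A) :=
  Module.Finite.of_basis (lsBasis (Module.finBasis K A))

theorem lsf_finrank [FiniteDimensional K A] : Module.finrank (LS K) (LS A) = Module.finrank K A := by
  rw [Module.finrank_eq_card_basis (lsBasis (Module.finBasis K A)), Fintype.card_fin]

theorem lsf_central [FiniteDimensional K A] [Algebra.IsCentral K A] : Algebra.IsCentral (LS K) (LS A) := by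
  constructor
  intro f hf
  rw [Subalgebra.mem_center_iff] at hf
  have h1 : ∀ n, ∃ c : K, LS.coeff f n = algebraMap K A c := by
    intro n
    have h2 : LS.coeff f n ∈ Subalgebra.center K A := by
      rw [Subalgebra.mem_center_iff]
      intro b
      have := congrArg (fun u => LS.coeff u n) (hf (LS.C b))
      simpa only [lsf_coeff_mul_C, lsf_coeff_C_mul] using this
    obtain ⟨c, hc⟩ := Algebra.mem_bot.1 (Algebra.IsCentral.out h2)
    exact ⟨c, hc.symm⟩
  choose c hc using h1
  rw [Algebra.mem_bot]
  rcases subsingleton_or_nontrivial A with hA | hA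
  · exact ⟨0, LS.ext fun n => Subsingleton.elim _ _⟩
  · obtain ⟨N, hN⟩ := lsf_exists_bound f
    refine ⟨lsf_mk c N fun n hn => ?_, LS.ext fun n => ?_⟩
    · have := hc n
      rw [hN n hn] at this
      exact (map_eq_zero_iff _ (algebraMap K A).injective).1 this.symm
    · rw [LS.coeff_algebraMap, lsf_coeff_mk, hc]
end Lau
end Vale.Agent.P199K
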