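import Vale.Agent.P199K.LSer
import Vale.Agent.P199K.LSFin

/-! # P199: admissible data (internal tensor products), definitions and proved facts -/

open scoped LaurentSeries
open PowerSeries

namespace Vale.Agent.P199K

/-- the field contains primitive roots of unity of all orders -/
class HasRoots (K : Type) [Field K] : Prop where
  out : ∀ m : ℕ, 0 < m → ∃ ζ : K, IsPrimitiveRoot ζ m

section Adm
variable {K A K₁ E₁ A₁ : Type} [Field K] [Ring A] [Algebra K A] [Field K₁] [Ring E₁] [Ring A₁]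
  [Algebra K₁ E₁] [Algebra K₁ A₁]

/-- `A₁` is the internal tensor product of `A` (over `K`) and the central `K₁`-algebra `E₁` of degree `m`. -/
structure Adm (κ : K →+* K₁) (ι : A →+* A₁) (j : E₁ →ₐ[K₁] A₁) (m : ℕ) : Prop where
  ι_alg : ∀ c, ι (algebraMap K A c) = algebraMap K₁ A₁ (κ c)
  comm : ∀ a e, ι a * j e = j e * ι a
  bas : ∀ (n : ℕ) (b : Module.Basis (Fin n) K A),
    Function.Bijective (fun c : Fin n → E₁ => ∑ i, ι (b i) * j (c i))
  finE : Module.finrank K₁ E₁ = m ^ 2
  pos : 0 < m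
  fdE : FiniteDimensional K₁ E₁
  cenE : Algebra.IsCentral K₁ E₁
  gen2 : ∃ x y : E₁, Algebra.adjoin K₁ {x, y} = ⊤

/-- symbol algebra: `X^m = x`, `Y^m = y`, `YX = ζ XY`, basis `X^i Y^j` -/
structure SymAdm (κ : K →+* K₁) (ι : A →+* A₁) (j : E₁ →ₐ[K₁] A₁) (m : ℕ) (X Y : E₁) (ζ : K) (x y : K₁) :
    Prop extends Adm κ ι j m where
  prim : IsPrimitiveRoot ζ m
  x0 : x ≠ 0
  y0 : y ≠ 0
  Xm : X ^ m = algebraMap K₁ E₁ x
  Ym : Y ^ m = algebraMap K₁ E₁ y
  YX : Y * X = (κ ζ) • (X * Y)
  indep : LinearIndependent K₁ (fun p : Fin m × Fin m => X ^ (p.1 : ℕ) * Y ^ (p.2 : ℕ))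

/-- `U ⊠ E₁` -/
def bx (ι : A →+* A₁) (j : E₁ →ₐ[K₁] A₁) (U : Submodule K A) : Submodule K₁ A₁ :=
  Submodule.span K₁ {x | ∃ e : E₁, ∃ u ∈ U, x = ι u * j e}

/-- `U ⊠ K₁` -/
def bx1 (K₁ : Type) {A₁ : Type} [Field K₁] [Ring A₁] [Algebra K₁ A₁] (ι : A →+* A₁) (U : Submodule K A) :
    Submodule K₁ A₁ :=
  Submodule.span K₁ {x | ∃ u ∈ U, x = ι u}

/-- `L₁[G]`, the `K₁`-algebra generated by `ι L` and `G` -/
def LG (K₁ : Type) {A₁ : Type} [Field K₁] [Ring A₁] [Algebra K₁ A₁] (ι : A →+* A₁) (L : Subalgebra K A)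
    (G : A₁) : Subalgebra K₁ A₁ :=
  Algebra.adjoin K₁ ({x | ∃ l ∈ L, x = ι l} ∪ {G})

/-- the map `LS E₁ → LS A₁` -/
noncomputable def lsj (j : E₁ →ₐ[K₁] A₁) : LS E₁ →ₐ[LS K₁] LS A₁ :=
  { LS.map (j : E₁ →+* A₁) with
    commutes' := by
      intro c
      apply LS.ext
      intro n
      show j (algebraMap K₁ E₁ (LS.coeff c n)) = algebraMap K₁ A₁ (LS.coeff c n)
      exact j.commutes _ }

@[simp] theorem lsj_coeff (j : E₁ →ₐ[K₁] A₁) (x : LS E₁) (n : ℤ) :
    LS.coeff (lsj j x) n = j (LS.coeff x n) := rfl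

end Adm

/-- bundled symbol data -/
structure SymD (K A : Type) [Field K] [Ring A] [Algebra K A] (m : ℕ) where
  K₁ : Type
  E₁ : Type
  A₁ : Type
  [fK₁ : Field K₁]
  [rE₁ : Ring E₁]
  [rA₁ : Ring A₁]
  [algE : Algebra K₁ E₁]
  [algA : Algebra K₁ A₁]
  [domA : IsDomain A₁]
  [fdA : FiniteDimensional K₁ A₁]
  κ : K →+* K₁
  ι : A →+* A₁
  j : E₁ →ₐ[K₁] A₁
  X : E₁
  Y : E₁
  ζ : K
  x : K₁
  y : K₁
  sym : SymAdm κ ι j m X Y ζ x y

attribute [instance] SymD.fK₁ SymD.rE₁ SymD.rA₁ SymD.algE SymD.algA SymD.domA SymD.fdA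

/-! ### facts about Laurent series algebras -/
section Lau
variable {K A : Type} [Field K] [Ring A] [Algebra K A]

theorem fd_ls [FiniteDimensional K A] : FiniteDimensional (LS K) (LS A) :=
  lsf_fd

theorem finrank_ls [FiniteDimensional K A] : Module.finrank (LS K) (LS A) = Module.finrank K A :=
  lsf_finrank

theorem central_ls [FiniteDimensional K A] [Algebra.IsCentral K A] : Algebra.IsCentral (LS K) (LS A) :=
  lsf_central

instance charZero_ls [CharZero K] : CharZero (LS K) :=
  charZero_of_injective_ringHom (f := (HahnSeries.C : K →+* HahnSeries ℤ K)) HahnSeries.C_injective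

theorem roots_of_hom {K K' : Type} [Field K] [Field K'] (i : K →+* K') [h : HasRoots K] : HasRoots K' :=
  ⟨fun m hm => by
    obtain ⟨ζ, hζ⟩ := h.out m hm
    exact ⟨i ζ, hζ.map_of_injective i.injective⟩⟩

end Lau

section AdmFacts
variable {K A K₁ E₁ A₁ : Type} [Field K] [Ring A] [Algebra K A] [FiniteDimensional K A] [Field K₁] [Ring E₁]
  [Ring A₁] [Algebra K₁ E₁] [Algebra K₁ A₁]

omit [FiniteDimensional K A] in
theorem Adm.admf_smul {κ : K →+* K₁} {ι : A →+* A₁} {j : E₁ →ₐ[K₁] A₁} {m : ℕ} (h : Adm κ ι j m)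
    (c : K) (a : A) : ι (c • a) = κ c • ι a := by
  rw [Algebra.smul_def, map_mul, h.ι_alg, ← Algebra.smul_def]

/-- the linear equivalence given by a basis of `A` -/
noncomputable def Adm.admfEquiv {κ : K →+* K₁} {ι : A →+* A₁} {j : E₁ →ₐ[K₁] A₁} {m : ℕ}
    (h : Adm κ ι j m) : (Fin (Module.finrank K A) → E₁) ≃ₗ[K₁] A₁ :=
  LinearEquiv.ofBijective
    { toFun := fun c => ∑ i, ι (Module.finBasis K A i) * j (c i)
      map_add' := by
        intro x y
        rw [← Finset.sum_add_distrib]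
        refine Finset.sum_congr rfl (fun i _ => ?_)
        rw [Pi.add_apply, map_add, mul_add]
      map_smul' := by
        intro k x
        rw [RingHom.id_apply, Finset.smul_sum]
        refine Finset.sum_congr rfl (fun i _ => ?_)
        rw [Pi.smul_apply, map_smul, mul_smul_comm] }
    (h.bas _ (Module.finBasis K A))

theorem Adm.admfEquiv_apply {κ : K →+* K₁} {ι : A →+* A₁} {j : E₁ →ₐ[K₁] A₁} {m : ℕ}
    (h : Adm κ ι j m) (c : Fin (Module.finrank K A) → E₁) :
    h.admfEquiv c = ∑ i, ι (Module.finBasis K A i) * j (c i) := rfl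

theorem Adm.fdA {κ : K →+* K₁} {ι : A →+* A₁} {j : E₁ →ₐ[K₁] A₁} {m : ℕ} (h : Adm κ ι j m) :
    FiniteDimensional K₁ A₁ := by
  have := h.fdE
  exact Module.Finite.equiv h.admfEquiv

theorem Adm.finrankA {κ : K →+* K₁} {ι : A →+* A₁} {j : E₁ →ₐ[K₁] A₁} {m : ℕ} (h : Adm κ ι j m) :
    Module.finrank K₁ A₁ = m ^ 2 * Module.finrank K A := by
  have := h.fdE
  rw [← h.admfEquiv.finrank_eq, Module.finrank_pi_fintype]
  rw [Finset.sum_const, h.finE, Finset.card_univ, Fintype.card_fin, smul_eq_mul, mul_comm]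

theorem Adm.cenA {κ : K →+* K₁} {ι : A →+* A₁} {j : E₁ →ₐ[K₁] A₁} {m : ℕ} (h : Adm κ ι j m)
    [Algebra.IsCentral K A] : Algebra.IsCentral K₁ A₁ := by
  have := h.cenE
  set b := Module.finBasis K A with hb
  refine ⟨fun z hz => ?_⟩
  rw [Subalgebra.mem_center_iff] at hz
  obtain ⟨c, hc⟩ := h.admfEquiv.surjective z
  -- the coefficients are central
  have hcen : ∀ i, ∃ k : K₁, c i = algebraMap K₁ E₁ k := by
    have h1 : ∀ e : E₁, (fun i => c i * e) = fun i => e * c i := by
      intro e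
      refine h.admfEquiv.injective ?_
      rw [h.admfEquiv_apply, h.admfEquiv_apply]
      have h2 := hz (j e)
      rw [← hc, h.admfEquiv_apply, Finset.mul_sum, Finset.sum_mul] at h2
      calc ∑ i, ι (Module.finBasis K A i) * j (c i * e)
          = ∑ i, ι (Module.finBasis K A i) * j (c i) * j e :=
            Finset.sum_congr rfl (fun i _ => by rw [map_mul, mul_assoc])
        _ = ∑ i, j e * (ι (Module.finBasis K A i) * j (c i)) := h2.symm
        _ = ∑ i, ι (Module.finBasis K A i) * j (e * c i) :=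
            Finset.sum_congr rfl (fun i _ => by
              rw [map_mul, ← mul_assoc, ← mul_assoc, h.comm])
    intro i
    have h3 : c i ∈ Subalgebra.center K₁ E₁ := by
      rw [Subalgebra.mem_center_iff]
      intro e
      exact (congrFun (h1 e) i).symm
    have h4 := Algebra.IsCentral.out (K := K₁) (D := E₁) h3
    obtain ⟨k, hk⟩ := Algebra.mem_bot.1 h4
    exact ⟨k, hk.symm⟩
  choose k hk using hcen
  have hz2 : z = ∑ i, k i • ι (b i) := by
    rw [← hc, h.admfEquiv_apply]
    refine Finset.sum_congr rfl (fun i _ => ?_)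
    rw [hk i, AlgHom.commutes, ← Algebra.commutes, ← Algebra.smul_def]
  -- independence of the `ι (b p)` over `K₁`
  have hind : ∀ r : Fin (Module.finrank K A) → K₁, ∑ p, r p • ι (b p) = 0 → ∀ p, r p = 0 := by
    intro r hr p
    have h1 : (fun p => algebraMap K₁ E₁ (r p)) = 0 := by
      refine h.admfEquiv.injective ?_
      rw [map_zero, h.admfEquiv_apply, ← hr]
      refine Finset.sum_congr rfl (fun i _ => ?_)
      rw [AlgHom.commutes, ← Algebra.commutes, ← Algebra.smul_def]
    have h2 := congrFun h1 p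
    have hE : Nontrivial E₁ := by
      by_contra hne
      rw [not_nontrivial_iff_subsingleton] at hne
      have h5 : Module.finrank K₁ E₁ = 0 := Module.finrank_zero_of_subsingleton
      rw [h.finE] at h5
      have := h.pos
      exact absurd h5 (by positivity)
    exact (map_eq_zero_iff _ (algebraMap K₁ E₁).injective).1 h2
  -- the commutator map
  let T : A →ₗ[K] (Fin (Module.finrank K A) → A) :=
    LinearMap.pi (fun l => LinearMap.mulLeft K (b l) - LinearMap.mulRight K (b l))
  have hT : ∀ a l, T a l = b l * a - a * b l := fun a l => rfl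
  obtain ⟨Cc, hCc⟩ := Submodule.exists_isCompl (LinearMap.ker T)
  have hTC : LinearMap.ker (T ∘ₗ Cc.subtype) = ⊥ := by
    rw [LinearMap.ker_eq_bot']
    intro x hx
    have h1 : (x : A) ∈ LinearMap.ker T := hx
    have h2 : (x : A) ∈ LinearMap.ker T ⊓ Cc := ⟨h1, x.2⟩
    rw [hCc.inf_eq_bot] at h2
    exact Subtype.ext ((Submodule.mem_bot K).1 h2)
  obtain ⟨S, hS⟩ := LinearMap.exists_leftInverse_of_injective _ hTC
  have hST : ∀ a : A, ∃ lam : K, (S (T a) : A) = a - algebraMap K A lam := by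
    intro a
    have h1 : a ∈ LinearMap.ker T ⊔ Cc := by rw [hCc.sup_eq_top]; trivial
    obtain ⟨x, hx, y, hy, hxy⟩ := Submodule.mem_sup.1 h1
    have h2 : T a = T y := by
      rw [← hxy, map_add, LinearMap.mem_ker.1 hx, zero_add]
    have h3 : S (T y) = ⟨y, hy⟩ := by
      have := LinearMap.congr_fun hS ⟨y, hy⟩
      exact this
    have h4 : x ∈ Subalgebra.center K A := by
      rw [Subalgebra.mem_center_iff]
      intro w
      have h5 : ∀ l, b l * x = x * b l := by
        intro l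
        have h6 := congrFun (LinearMap.mem_ker.1 hx) l
        rw [hT] at h6
        exact sub_eq_zero.1 h6
      have h7 : (LinearMap.mulRight K x : A →ₗ[K] A) = LinearMap.mulLeft K x :=
        b.ext (fun l => h5 l)
      exact LinearMap.congr_fun h7 w
    obtain ⟨lam, hlam⟩ := Algebra.mem_bot.1 (Algebra.IsCentral.out (K := K) (D := A) h4)
    refine ⟨lam, ?_⟩
    rw [h2, h3, hlam, ← hxy]
    simp
  choose lam hlam using fun i => hST (b i)
  -- structure constants
  have hexp : ∀ i l, T (b i) l = ∑ p, b.repr (T (b i) l) p • b p := fun i l => (b.sum_repr _).symm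
  have hstar : ∀ l p, ∑ i, k i * κ (b.repr (T (b i) l) p) = 0 := by
    intro l
    refine hind (fun p => ∑ i, k i * κ (b.repr (T (b i) l) p)) ?_
    have h1 := hz (ι (b l))
    rw [hz2, Finset.mul_sum, Finset.sum_mul] at h1
    have h2 : ∑ i, k i • ι (T (b i) l) = 0 := by
      rw [← sub_eq_zero, ← Finset.sum_sub_distrib] at h1
      rw [← h1]
      refine Finset.sum_congr rfl (fun i _ => ?_)
      rw [hT, map_sub, map_mul, map_mul, smul_sub, mul_smul_comm, smul_mul_assoc]
    rw [← h2]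
    calc ∑ p, (∑ i, k i * κ (b.repr (T (b i) l) p)) • ι (b p)
        = ∑ p, ∑ i, (k i * κ (b.repr (T (b i) l) p)) • ι (b p) :=
          Finset.sum_congr rfl (fun p _ => Finset.sum_smul)
      _ = ∑ i, ∑ p, (k i * κ (b.repr (T (b i) l) p)) • ι (b p) := Finset.sum_comm
      _ = ∑ i, k i • ι (T (b i) l) := by
          refine Finset.sum_congr rfl (fun i _ => ?_)
          conv_rhs => rw [hexp i l, map_sum, Finset.smul_sum]
          refine Finset.sum_congr rfl (fun p _ => ?_)
          rw [h.admf_smul, smul_smul]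
  -- expand `S (T (b i))`
  have hST2 : ∀ i, (S (T (b i)) : A) = ∑ l, ∑ p, b.repr (T (b i) l) p •
      (S (Pi.single l (b p)) : A) := by
    intro i
    have h1 : T (b i) = ∑ l, ∑ p, b.repr (T (b i) l) p • (Pi.single l (b p) :
        Fin (Module.finrank K A) → A) := by
      have h2 : ∀ l, (∑ p, b.repr (T (b i) l) p • (Pi.single l (b p) :
          Fin (Module.finrank K A) → A)) = Pi.single l (T (b i) l) := by
        intro l
        conv_rhs => rw [hexp i l]
        rw [← LinearMap.coe_single K (fun _ : Fin (Module.finrank K A) => A) l, map_sum]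
        refine Finset.sum_congr rfl (fun p _ => ?_)
        rw [map_smul]
      rw [Finset.sum_congr rfl (fun l _ => h2 l)]
      exact (Finset.univ_sum_single (T (b i))).symm
    conv_lhs => rw [h1]
    rw [map_sum, Submodule.coe_sum]
    refine Finset.sum_congr rfl (fun l _ => ?_)
    rw [map_sum, Submodule.coe_sum]
    refine Finset.sum_congr rfl (fun p _ => ?_)
    rw [map_smul, Submodule.coe_smul]
  -- conclusion
  rw [Algebra.mem_bot]
  refine ⟨∑ i, k i * κ (lam i), ?_⟩
  have hfin : z - algebraMap K₁ A₁ (∑ i, k i * κ (lam i)) = 0 := by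
    have h1 : z - algebraMap K₁ A₁ (∑ i, k i * κ (lam i))
        = ∑ i, k i • ι (S (T (b i)) : A) := by
      rw [hz2, map_sum, ← Finset.sum_sub_distrib]
      refine Finset.sum_congr rfl (fun i _ => ?_)
      rw [hlam i, map_sub, h.ι_alg, smul_sub, map_mul, ← Algebra.smul_def]
    rw [h1]
    calc ∑ i, k i • ι (S (T (b i)) : A)
        = ∑ i, ∑ l, ∑ p, (k i * κ (b.repr (T (b i) l) p)) • ι (S (Pi.single l (b p)) : A) := by
          refine Finset.sum_congr rfl (fun i _ => ?_)
          rw [hST2 i, map_sum, Finset.smul_sum]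
          refine Finset.sum_congr rfl (fun l _ => ?_)
          rw [map_sum, Finset.smul_sum]
          refine Finset.sum_congr rfl (fun p _ => ?_)
          rw [h.admf_smul, smul_smul]
      _ = ∑ l, ∑ i, ∑ p, (k i * κ (b.repr (T (b i) l) p)) • ι (S (Pi.single l (b p)) : A) :=
          Finset.sum_comm
      _ = ∑ l, ∑ p, ∑ i, (k i * κ (b.repr (T (b i) l) p)) • ι (S (Pi.single l (b p)) : A) :=
          Finset.sum_congr rfl (fun l _ => Finset.sum_comm)
      _ = ∑ l, ∑ p, (∑ i, k i * κ (b.repr (T (b i) l) p)) • ι (S (Pi.single l (b p)) : A) :=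
          Finset.sum_congr rfl (fun l _ => Finset.sum_congr rfl (fun p _ =>
            Finset.sum_smul.symm))
      _ = 0 := by
          refine Finset.sum_eq_zero (fun l _ => Finset.sum_eq_zero (fun p _ => ?_))
          rw [hstar l p, zero_smul]
  exact (sub_eq_zero.1 hfin).symm

end AdmFacts

end Vale.Agent.P199K
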