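import Vale.Agent.P199K.LimMain

/-!
# P199: the negative answer from the extension property of stages
-/

namespace P199K

open Polynomial

/-- a finite set of central algebraic elements generates a finite-dimensional algebra -/
theorem fg_adjoin_central {k D : Type*} [Field k] [Ring D] [Algebra k D]
    [Algebra.IsAlgebraic k D] {T : Set D} (hTf : T.Finite) (hTc : ∀ t ∈ T, t ∈ Subring.center D) :
    Module.Finite k (Algebra.adjoin k T) := by
  obtain ⟨T', hT'⟩ : ∃ T' : Set (Subalgebra.center k D), T' = Subtype.val ⁻¹' T := ⟨_, rfl⟩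
  have h1 : T = (Subalgebra.center k D).val '' T' := by
    ext t
    constructor
    · intro ht
      exact ⟨⟨t, hTc t ht⟩, by rw [hT']; exact ht, rfl⟩
    · rintro ⟨t', ht', rfl⟩
      rw [hT'] at ht'
      exact ht'
  have h2 : T'.Finite := by
    rw [hT']; exact hTf.preimage Subtype.val_injective.injOn
  have h3 : (Subalgebra.toSubmodule (Algebra.adjoin k T')).FG := by
    refine fg_adjoin_of_finite h2 fun t _ => ?_
    have h4 : IsAlgebraic k (t : D) := Algebra.IsAlgebraic.isAlgebraic _
    have h5 : IsAlgebraic k t :=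
      (isAlgebraic_algHom_iff (Subalgebra.center k D).val Subtype.val_injective).1 h4
    exact h5.isIntegral
  have h6 : Algebra.adjoin k T = (Algebra.adjoin k T').map (Subalgebra.center k D).val := by
    rw [AlgHom.map_adjoin, ← h1]
  have h7 : (Subalgebra.toSubmodule (Algebra.adjoin k T)).FG := by
    rw [h6]
    exact h3.map (Subalgebra.center k D).val.toLinearMap
  exact Module.Finite.iff_fg.2 h7

/-- a division ring which is finitely generated and algebraic over a central subfield `k` and
finite-dimensional over its centre is finite-dimensional over `k` -/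
theorem finite_of_center {k D : Type*} [Field k] [DivisionRing D] [Algebra k D]
    [Algebra.IsAlgebraic k D] {x y : D} (hxy : Algebra.adjoin k {x, y} = ⊤)
    (hZ : Module.Finite (Subring.center D) D) : Module.Finite k D := by
  classical
  obtain ⟨n, b, hb⟩ := Module.Finite.exists_fin (R := Subring.center D) (M := D)
  -- coordinates
  have hco : ∀ z : D, ∃ c : Fin n → Subring.center D, z = ∑ i, (c i : D) * b i := by
    intro z
    have hz : z ∈ Submodule.span (Subring.center D) (Set.range b) := by rw [hb]; trivial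
    obtain ⟨c, hc⟩ := (Submodule.mem_span_range_iff_exists_fun _).1 hz
    exact ⟨c, by rw [← hc]; rfl⟩
  choose co hco using hco
  -- the finite set of all coordinates of `1`, `x`, `y`, `b i * b j`
  obtain ⟨T, hT⟩ : ∃ T : Set D, T = Set.range (fun p : (Option Bool) × Fin n =>
      (co (match p.1 with
        | none => 1
        | some true => x
        | some false => y) p.2 : D)) ∪
      Set.range (fun p : (Fin n × Fin n) × Fin n => (co (b p.1.1 * b p.1.2) p.2 : D)) := ⟨_, rfl⟩
  have hTf : T.Finite := by
    rw [hT]; exact (Set.finite_range _).union (Set.finite_range _)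
  have hTc : ∀ t ∈ T, t ∈ Subring.center D := by
    intro t ht
    rw [hT] at ht
    rcases ht with ⟨p, rfl⟩ | ⟨p, rfl⟩ <;> exact Subtype.property _
  -- the commutative algebra generated by them
  obtain ⟨A, hA⟩ : ∃ A : Subalgebra k D, A = Algebra.adjoin k T := ⟨_, rfl⟩
  have hAc : ∀ a ∈ A, ∀ z : D, a * z = z * a := by
    intro a ha z
    rw [hA] at ha
    induction ha using Algebra.adjoin_induction with
    | mem t ht => exact ((Subring.mem_center_iff.1 (hTc t ht)) z).symm
    | algebraMap c => exact Algebra.commutes c z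
    | add a b _ _ ha hb => rw [add_mul, mul_add, ha, hb]
    | mul a b _ _ ha hb => rw [mul_assoc, hb, ← mul_assoc, ha, mul_assoc]
  have hAfin : Module.Finite k A := by
    rw [hA]; exact fg_adjoin_central hTf hTc
  have hm1 : ∀ p i, (co (match p with
        | none => 1
        | some true => x
        | some false => y) i : D) ∈ A := fun p i => by
    rw [hA, hT]
    exact Algebra.subset_adjoin (Or.inl ⟨(p, i), rfl⟩)
  have hm2 : ∀ i j l, (co (b i * b j) l : D) ∈ A := fun i j l => by
    rw [hA, hT]
    exact Algebra.subset_adjoin (Or.inr ⟨((i, j), l), rfl⟩)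
  obtain ⟨g, hg⟩ : ∃ g : (Fin n → A) →ₗ[k] D, ∀ c, g c = ∑ i, (c i : D) * b i := by
    refine ⟨{ toFun := fun c => ∑ i, (c i : D) * b i, map_add' := fun c d => ?_,
              map_smul' := fun r c => ?_ }, fun c => rfl⟩
    · rw [← Finset.sum_add_distrib]
      refine Finset.sum_congr rfl fun i _ => ?_
      rw [← add_mul]; rfl
    · rw [RingHom.id_apply, Finset.smul_sum]
      refine Finset.sum_congr rfl fun i _ => ?_
      rw [← smul_mul_assoc]; rfl
  have hrange : ∀ z : D, z ∈ LinearMap.range g := by
    intro z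
    have hz : z ∈ Algebra.adjoin k ({x, y} : Set D) := by rw [hxy]; trivial
    have hone : (1 : D) ∈ LinearMap.range g :=
      ⟨fun i => ⟨_, hm1 none i⟩, by rw [hg]; exact (hco 1).symm⟩
    have hmulA : ∀ a ∈ A, ∀ u ∈ LinearMap.range g, a * u ∈ LinearMap.range g := by
      rintro a ha _ ⟨c, rfl⟩
      refine ⟨fun i => ⟨a, ha⟩ * c i, ?_⟩
      rw [hg, hg, Finset.mul_sum]
      refine Finset.sum_congr rfl fun i _ => ?_
      rw [← mul_assoc]; rfl
    have hbb : ∀ i j, b i * b j ∈ LinearMap.range g := fun i j =>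
      ⟨fun l => ⟨_, hm2 i j l⟩, by rw [hg]; exact (hco (b i * b j)).symm⟩
    have hmul : ∀ u ∈ LinearMap.range g, ∀ v ∈ LinearMap.range g, u * v ∈ LinearMap.range g := by
      rintro _ ⟨c, rfl⟩ _ ⟨d, rfl⟩
      rw [hg, hg, Finset.sum_mul]
      refine Submodule.sum_mem _ fun i _ => ?_
      rw [Finset.mul_sum]
      refine Submodule.sum_mem _ fun j _ => ?_
      have h1 : (c i : D) * b i * ((d j : D) * b j) = (c i : D) * ((d j : D) * (b i * b j)) := by
        rw [mul_assoc, ← mul_assoc (b i), ← hAc _ (d j).2 (b i), mul_assoc]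
      rw [h1]
      exact hmulA _ (c i).2 _ (hmulA _ (d j).2 _ (hbb i j))
    induction hz using Algebra.adjoin_induction with
    | mem a ha =>
      rcases ha with rfl | ha
      · exact ⟨fun i => ⟨_, hm1 (some true) i⟩, by rw [hg]; exact (hco _).symm⟩
      · rw [Set.mem_singleton_iff.1 ha]
        exact ⟨fun i => ⟨_, hm1 (some false) i⟩, by rw [hg]; exact (hco _).symm⟩
    | algebraMap c =>
      rw [Algebra.algebraMap_eq_smul_one]
      exact Submodule.smul_mem _ _ hone
    | add a b _ _ ha hb => exact add_mem ha hb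
    | mul a b _ _ ha hb => exact hmul _ ha _ hb
  exact Module.Finite.of_surjective g (fun z => hrange z)

/-- **The counterexample from the extension property of stages.** -/
theorem main (P : Stage → Prop) (h0 : ∃ s, P s)
    (h1 : ∀ s, P s → ∀ w ∈ s.gen, ∃ t, P t ∧ ∃ f : s.Hom t, IsAlgebraic t.K (f.φ w))
    (h2 : ∀ s, P s → ∀ m, ∃ t, P t ∧ Nonempty (s.Hom t) ∧ t.Large m) :
    KuroshCounterexample := by
  obtain ⟨S, f, halg, hlar⟩ := exists_chain h0 h1 h2
  have hA : ∀ z : LD f, IsAlgebraic (LK f) z := isAlgebraic_LD f halg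
  have hdiv : ∀ a : LD f, IsUnit a ∨ a = 0 := fun a => by
    rcases eq_or_ne a 0 with h | h
    · exact Or.inr h
    · exact Or.inl (isUnit_of_isAlgebraic (hA a) h)
  have hnf : ¬ Module.Finite (LK f) (LD f) := by
    intro hf
    obtain ⟨N, m, h⟩ := not_large f hf
    refine h (max N m + 1) (by omega) ?_
    obtain ⟨v, hv, hli⟩ := hlar (max N m)
    exact ⟨fun i => v (Fin.castLE (le_max_right N m) i), fun i => hv _,
      hli.comp _ (Fin.castLE_injective _)⟩
  let inst : DivisionRing (LD f) := DivisionRing.ofIsUnitOrEqZero hdiv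
  have hgen : ∃ x y : LD f, Algebra.adjoin (LK f) {x, y} = ⊤ := by
    refine ⟨⟨oR f 0 (S 0).x, Algebra.subset_adjoin (by simp)⟩,
      ⟨oR f 0 (S 0).y, Algebra.subset_adjoin (by simp)⟩, ?_⟩
    have h1 := Algebra.adjoin_adjoin_coe_preimage (R := LK f)
      (s := ({oR f 0 (S 0).x, oR f 0 (S 0).y} : Set (LR f)))
    rw [← h1]
    congr 1
    ext z
    simp [Subtype.ext_iff]
  have halg' : Algebra.IsAlgebraic (LK f) (LD f) := ⟨hA⟩
  obtain ⟨x, y, hxy⟩ := hgen
  exact ⟨LK f, LD f, inferInstance, inst, inferInstance, ⟨x, y, hxy⟩, halg', hnf,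
    fun h => hnf (@finite_of_center (LK f) (LD f) _ inst _ halg' x y hxy h)⟩

end P199K
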