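import Vale.Agent.P199K.Main
import Vale.Agent.P199K.Kurosh

/-!
# P199: from the main step to the negative answer
-/

namespace Vale.Agent.P199K

namespace NPS

variable {σ A : Type}

theorem mul_apply_length [Ring A] {f g : NPS σ A} {n m : ℕ} (hf : Ord n f) (hg : Ord m g)
    (u v : List σ) (hu : u.length = n) (hv : v.length = m) :
    (f * g) (u ++ v) = f u * g v := by
  induction u generalizing f n with
  | nil =>
    subst hu
    rw [List.nil_append]
    cases v with
    | nil => exact mul_nil f g
    | cons x v =>
      rw [mul_cons]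
      have h : ∀ w : List σ, w.length < m → ∀ h : NPS σ A, (h * g) w = 0 := by
        intro w
        induction w with
        | nil => intro hw h; rw [mul_nil, hg [] hw, mul_zero]
        | cons y w ih =>
          intro hw h
          rw [mul_cons, hg _ hw, mul_zero, zero_add]
          exact ih (by simp only [List.length_cons] at hw; omega) _
      rw [h v (by simp only [List.length_cons] at hv; omega), add_zero]
  | cons x u ih =>
    rw [List.cons_append, mul_cons]
    have h1 : f [] = 0 := hf [] (by simp only [List.length_cons] at hu; simp; omega)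
    rw [h1, zero_mul, zero_add]
    exact ih (f := dl x f) (n := n - 1)
      (fun w hw => hf (x :: w) (by simp only [List.length_cons]; omega))
      (by simp only [List.length_cons] at hu; omega)

theorem exists_ord [Ring A] {f : NPS σ A} (hf : f ≠ 0) : ∃ n u, Ord n f ∧ u.length = n ∧ f u ≠ 0 := by
  classical
  have h : ∃ n, ∃ u : List σ, u.length = n ∧ f u ≠ 0 := by
    by_contra hc
    push Not at hc
    exact hf (ext fun u => hc u.length u rfl)
  obtain ⟨u, hu, hfu⟩ := Nat.find_spec h
  refine ⟨Nat.find h, u, fun v hv => ?_, hu, hfu⟩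
  by_contra hc
  exact Nat.find_min h hv ⟨v, rfl, hc⟩

instance [Ring A] [IsDomain A] : NoZeroDivisors (NPS σ A) where
  eq_zero_or_eq_zero_of_mul_eq_zero := by
    intro f g hfg
    by_contra hc
    push Not at hc
    obtain ⟨n, u, hf, hu, hfu⟩ := exists_ord hc.1
    obtain ⟨m, v, hg, hv, hgv⟩ := exists_ord hc.2
    have h := mul_apply_length hf hg u v hu hv
    rw [hfg] at h
    exact mul_ne_zero hfu hgv h.symm

instance [Ring A] [IsDomain A] : Nontrivial (NPS σ A) :=
  ⟨⟨0, 1, fun h => zero_ne_one (congrFun h [] : (0 : A) = 1)⟩⟩

instance [Ring A] [IsDomain A] : IsDomain (NPS σ A) := NoZeroDivisors.to_isDomain _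

theorem X_pow_apply [Ring A] [DecidableEq σ] (x : σ) (n : ℕ) (u : List σ) :
    (X x ^ n : NPS σ A) u = if u = List.replicate n x then 1 else 0 := by
  induction n generalizing u with
  | zero =>
    rw [pow_zero, one_def]
    cases u <;> simp
  | succ n ih =>
    rw [pow_succ']
    cases u with
    | nil => rw [mul_nil]; simp [X]
    | cons y u =>
      rw [mul_cons]
      by_cases hy : y = x
      · subst hy
        have h : dl y (X y : NPS σ A) = 1 := by
          ext w
          cases w <;> simp [X, one_def]
        rw [h, one_mul]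
        simp only [X, List.replicate_succ, List.cons.injEq, true_and]
        rw [if_neg (by simp), zero_mul, zero_add]
        exact ih u
      · have h : dl y (X x : NPS σ A) = 0 := by
          ext w
          simp [X, hy]
        rw [h, zero_mul_apply]
        simp [X, List.replicate_succ, hy]

end NPS

/-- the stage of the limit theorem which belongs to a stage -/
noncomputable def Stg.toStage (S : Stg) : _root_.P199K.Stage where
  K := S.K
  R := NPS (Fin 2) S.A
  x := S.x
  y := S.y

theorem large_of_dense {K A : Type} [Field K] [Ring A] [IsDomain A] [Algebra K A]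
    {x y : NPS (Fin 2) A} (h : DenseXY K x y) (m : ℕ) :
    ∃ v : Fin m → NPS (Fin 2) A, (∀ i, v i ∈ Submonoid.closure {x, y}) ∧
      LinearIndependent K v := by
  classical
  -- independent elements of the algebra
  choose g hg hg' using fun i : Fin m => h m ((NPS.X 0 : NPS (Fin 2) A) ^ (i : ℕ))
  have hval : ∀ i j : Fin m, g i (List.replicate j 0) = if i = j then 1 else 0 := by
    intro i j
    have h1 := hg' i (List.replicate j 0) (by simp)
    rw [NPS.sub_apply, NPS.X_pow_apply, sub_eq_zero] at h1
    rw [← h1]
    have h2 : (List.replicate (j : ℕ) (0 : Fin 2) = List.replicate (i : ℕ) 0) ↔ i = j := by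
      constructor
      · intro h3
        have h4 := congrArg List.length h3
        rw [List.length_replicate, List.length_replicate] at h4
        exact Fin.ext h4.symm
      · rintro rfl; rfl
    simp only [h2]
  have hli : LinearIndependent K g := by
    rw [Fintype.linearIndependent_iff]
    intro c hc j
    have h1 := congrFun hc (List.replicate j 0)
    have h2 : (∑ i, c i • g i : NPS (Fin 2) A) (List.replicate j 0) =
        ∑ i, c i • (g i (List.replicate j 0)) := by
      have h3 : ∀ s : Finset (Fin m), (∑ i ∈ s, c i • g i : NPS (Fin 2) A) (List.replicate j 0) =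
          ∑ i ∈ s, c i • (g i (List.replicate j 0)) := by
        intro s
        induction s using Finset.induction_on with
        | empty => rfl
        | insert a s ha ih => rw [Finset.sum_insert ha, Finset.sum_insert ha, NPS.add_apply, ih]; rfl
      exact h3 _
    rw [h2] at h1
    simp only [hval, smul_ite, smul_zero, Finset.sum_ite_eq', Finset.mem_univ, if_true] at h1
    have h4 : algebraMap K A (c j) = 0 := by
      rw [Algebra.algebraMap_eq_smul_one]; exact h1
    exact (algebraMap K A).injective (h4.trans (map_zero _).symm)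
  -- words
  obtain ⟨b, hb1, hb2, hb3⟩ := exists_linearIndependent K
    ((Submonoid.closure ({x, y} : Set (NPS (Fin 2) A)) : Set (NPS (Fin 2) A)))
  have hspan : Submodule.span K b = Subalgebra.toSubmodule (Algebra.adjoin K {x, y}) := by
    rw [hb2, Algebra.adjoin_eq_span]
  have hcard : (m : Cardinal) ≤ Cardinal.mk b := by
    have h1 : Module.rank K (Submodule.span K (Set.range g)) = m := by
      rw [rank_span hli, Cardinal.mk_range_eq g hli.injective, Cardinal.mk_fin]
    have h2 : Submodule.span K (Set.range g) ≤ Submodule.span K b := by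
      rw [hspan, Submodule.span_le]
      rintro _ ⟨i, rfl⟩
      exact hg i
    rw [← h1, ← rank_span_set hb3]
    exact Submodule.rank_mono h2
  rw [← Cardinal.mk_fin, Cardinal.le_def] at hcard
  obtain ⟨e⟩ := hcard
  exact ⟨fun i => (e i : NPS (Fin 2) A), fun i => hb1 (e i).2, hb3.comp e e.injective⟩

theorem large_toStage (S : Stg) (m : ℕ) : S.toStage.Large m := by
  obtain ⟨v, hv, hli⟩ := large_of_dense S.dense m
  exact ⟨v, hv, hli⟩

/-- the first stage -/
theorem exists_stg : Nonempty Stg := by
  have hroots : HasRoots ℂ := ⟨fun m hm => ⟨_, Complex.isPrimitiveRoot_exp m (by omega)⟩⟩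
  have hdense : DenseXY ℂ (NPS.X 0 : NPS (Fin 2) ℂ) (NPS.X 1) := by
    intro n r
    obtain ⟨g, hg, hg'⟩ := NPS.exists_poly n r
    refine ⟨g, ?_, hg'⟩
    clear hg'
    induction hg using Subring.closure_induction with
    | mem z hz =>
      rcases hz with ⟨c, rfl⟩ | ⟨i, rfl⟩
      · exact Subalgebra.algebraMap_mem _ c
      · refine Algebra.subset_adjoin ?_
        fin_cases i <;> simp
    | zero => exact zero_mem _
    | one => exact one_mem _
    | add a b _ _ ha hb => exact add_mem ha hb
    | mul a b _ _ ha hb => exact mul_mem ha hb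
    | neg a _ ha => exact neg_mem ha
  exact ⟨{ K := ℂ, A := ℂ, x := NPS.X 0, y := NPS.X 1, dense := hdense }⟩

/-- **negative answer to Kurosh's problem for division rings** -/
theorem kurosh : _root_.P199K.KuroshCounterexample := by
  refine _root_.P199K.main (fun s => ∃ S : Stg, s = S.toStage) ?_ ?_ ?_
  · obtain ⟨S⟩ := exists_stg
    exact ⟨_, S, rfl⟩
  · rintro _ ⟨S, rfl⟩ w hw
    obtain ⟨S', iK, Φ, h1, h2, h3, h4⟩ := main_step S w
    exact ⟨S'.toStage, ⟨S', rfl⟩, ⟨iK, Φ, h1, h2, h3⟩, h4⟩
  · rintro _ ⟨S, rfl⟩ m
    exact ⟨S.toStage, ⟨S, rfl⟩, ⟨_root_.P199K.Stage.Hom.id _⟩, large_toStage S m⟩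

end Vale.Agent.P199K
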