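import Vale.Agent.P199K.Tr

/-!
# P199: section 0, the double centraliser formula and inner derivations (helper82)
-/

namespace Vale.Agent.P199K

open Module Polynomial

section dc

variable {K A : Type} [Field K] [Ring A] [IsDomain A] [Algebra K A] [Module.Finite K A]
  [CharZero K]

/-- the orthogonal complement of the centre is spanned by the commutators -/
theorem perp_center : perp (Subalgebra.toSubmodule (Subalgebra.center K A)) =
    Submodule.span K {z : A | ∃ x y : A, z = x * y - y * x} := by
  have h1 : perp (Submodule.span K {z : A | ∃ x y : A, z = x * y - y * x}) =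
      Subalgebra.toSubmodule (Subalgebra.center K A) := by
    ext c
    rw [mem_perp, Subalgebra.mem_toSubmodule, Subalgebra.mem_center_iff]
    constructor
    · intro h y
      have h2 : y * c - c * y = 0 := by
        refine tr_nondeg (⊤ : Subalgebra K A) trivial fun x _ => ?_
        have h3 := h (x * y - y * x) (Submodule.subset_span ⟨x, y, rfl⟩)
        rw [sub_mul, map_sub, sub_eq_zero] at h3
        rw [mul_sub, map_sub, sub_eq_zero, ← mul_assoc, h3, mul_assoc, tr_mul_comm, mul_assoc]
      exact sub_eq_zero.1 h2
    · intro h v hv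
      induction hv using Submodule.span_induction with
      | mem z hz =>
        obtain ⟨x, y, rfl⟩ := hz
        rw [sub_mul, map_sub, sub_eq_zero, mul_assoc, h y, tr_mul_comm, mul_assoc, ← tr_mul_comm,
          mul_assoc]
      | zero => rw [zero_mul, map_zero]
      | add x y _ _ hx hy => rw [add_mul, map_add, hx, hy, add_zero]
      | smul c x _ hx => rw [smul_mul_assoc, map_smul, hx, smul_zero]
  rw [← h1, perp_perp]

/-- a trace function factors through the centre -/
theorem eq_pr_center (φ : A →ₗ[K] K) (hφ : ∀ x y, φ (x * y) = φ (y * x)) (a : A) :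
    φ a = φ (pr (Subalgebra.center K A) a) := by
  have h1 : a - pr (Subalgebra.center K A) a ∈
      Submodule.span K {z : A | ∃ x y : A, z = x * y - y * x} := by
    rw [← perp_center]
    exact sub_pr_mem _ a
  have h2 : ∀ v ∈ Submodule.span K {z : A | ∃ x y : A, z = x * y - y * x}, φ v = 0 := by
    intro v hv
    induction hv using Submodule.span_induction with
    | mem z hz =>
      obtain ⟨x, y, rfl⟩ := hz
      rw [map_sub, hφ, sub_self]
    | zero => rw [map_zero]
    | add x y _ _ hx hy => rw [map_add, hx, hy, add_zero]
    | smul c x _ hx => rw [map_smul, hx, smul_zero]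
  have h3 := h2 _ h1
  rw [map_sub, sub_eq_zero] at h3
  exact h3

omit [IsDomain A] [Module.Finite K A] [CharZero K] in
theorem left_right_comm (a b : A) :
    LinearMap.mulLeft K a * LinearMap.mulRight K b = LinearMap.mulRight K b * LinearMap.mulLeft K a := by
  refine LinearMap.ext fun x => ?_
  show a * (x * b) = (a * x) * b
  rw [mul_assoc]

/-- the trace of `x ↦ a x b` -/
theorem trace_left_right (a b : A) :
    LinearMap.trace K A (LinearMap.mulLeft K a * LinearMap.mulRight K b) =
      trc K (pr (Subalgebra.center K A) a * pr (Subalgebra.center K A) b) := by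
  -- as functions of `a` and `b`
  let φ : A → A →ₗ[K] K := fun b =>
    { toFun := fun a => LinearMap.trace K A (LinearMap.mulLeft K a * LinearMap.mulRight K b)
      map_add' := fun x y => by
        rw [← map_add, ← add_mul]
        congr 2
        exact LinearMap.ext fun z => add_mul x y z
      map_smul' := fun c x => by
        rw [RingHom.id_apply, ← map_smul, ← smul_mul_assoc]
        congr 2
        exact LinearMap.ext fun z => smul_mul_assoc c x z }
  let ψ : A → A →ₗ[K] K := fun a =>
    { toFun := fun b => LinearMap.trace K A (LinearMap.mulLeft K a * LinearMap.mulRight K b)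
      map_add' := fun x y => by
        rw [← map_add, ← mul_add]
        congr 2
        exact LinearMap.ext fun z => mul_add z x y
      map_smul' := fun c x => by
        rw [RingHom.id_apply, ← map_smul, ← mul_smul_comm]
        congr 2
        exact LinearMap.ext fun z => mul_smul_comm c z x }
  have hφ : ∀ b x y, φ b (x * y) = φ b (y * x) := by
    intro b x y
    show LinearMap.trace K A (LinearMap.mulLeft K (x * y) * LinearMap.mulRight K b) =
      LinearMap.trace K A (LinearMap.mulLeft K (y * x) * LinearMap.mulRight K b)
    have e1 : LinearMap.mulLeft K (x * y) = LinearMap.mulLeft K x * LinearMap.mulLeft K y :=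
      LinearMap.ext fun z => mul_assoc x y z
    have e2 : LinearMap.mulLeft K (y * x) = LinearMap.mulLeft K y * LinearMap.mulLeft K x :=
      LinearMap.ext fun z => mul_assoc y x z
    rw [e1, e2, mul_assoc, LinearMap.trace_mul_comm, mul_assoc, ← left_right_comm, ← mul_assoc]
  have hψ : ∀ a x y, ψ a (x * y) = ψ a (y * x) := by
    intro a x y
    show LinearMap.trace K A (LinearMap.mulLeft K a * LinearMap.mulRight K (x * y)) =
      LinearMap.trace K A (LinearMap.mulLeft K a * LinearMap.mulRight K (y * x))
    have e1 : LinearMap.mulRight K (x * y) = LinearMap.mulRight K y * LinearMap.mulRight K x :=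
      LinearMap.ext fun z => (mul_assoc z x y).symm
    have e2 : LinearMap.mulRight K (y * x) = LinearMap.mulRight K x * LinearMap.mulRight K y :=
      LinearMap.ext fun z => (mul_assoc z y x).symm
    rw [e1, e2, ← mul_assoc, LinearMap.trace_mul_comm, ← mul_assoc, ← left_right_comm, mul_assoc]
  have h1 : φ b a = φ b (pr (Subalgebra.center K A) a) := eq_pr_center (φ b) (hφ b) a
  have h2 : ψ (pr (Subalgebra.center K A) a) b =
      ψ (pr (Subalgebra.center K A) a) (pr (Subalgebra.center K A) b) :=
    eq_pr_center _ (hψ _) b
  have h3 : LinearMap.mulRight K (pr (Subalgebra.center K A) b) =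
      LinearMap.mulLeft K (pr (Subalgebra.center K A) b) :=
    LinearMap.ext fun z => Subalgebra.mem_center_iff.1 (pr_mem (Subalgebra.center K A) b) z
  calc LinearMap.trace K A (LinearMap.mulLeft K a * LinearMap.mulRight K b)
      = φ b a := rfl
    _ = φ b (pr (Subalgebra.center K A) a) := h1
    _ = ψ (pr (Subalgebra.center K A) a) b := rfl
    _ = ψ (pr (Subalgebra.center K A) a) (pr (Subalgebra.center K A) b) := h2
    _ = LinearMap.trace K A (LinearMap.mulLeft K (pr (Subalgebra.center K A) a) *
          LinearMap.mulRight K (pr (Subalgebra.center K A) b)) := rfl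
    _ = LinearMap.trace K A (LinearMap.mulLeft K (pr (Subalgebra.center K A) a *
          pr (Subalgebra.center K A) b)) := by
        rw [h3]
        congr 1
        exact LinearMap.ext fun z => (mul_assoc _ _ z).symm
    _ = _ := rfl

/-- the Casimir element of a commutative subalgebra -/
theorem casimir_elt (L : Subalgebra K A) {ι : Type} [Fintype ι] [DecidableEq ι]
    (b b' : Basis ι K L)
    (h1 : ∀ (x : L) i, b.repr x i = trc K ((x : A) * (b' i : A))) :
    (finrank K A : K) • ∑ i, (b i : A) * (b' i : A) = (finrank K L : K) • (1 : A) := by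
  have hmem : (finrank K A : K) • ∑ i, (b i : A) * (b' i : A) - (finrank K L : K) • (1 : A) ∈ L :=
    L.sub_mem (L.smul_mem (L.sum_mem fun i _ => L.mul_mem (b i).2 (b' i).2) _)
      (L.smul_mem L.one_mem _)
  refine sub_eq_zero.1 (tr_nondeg L hmem fun l hl => ?_)
  have h2 : trc K (l * ∑ i, (b i : A) * (b' i : A)) = trc K (⟨l, hl⟩ : L) := by
    have h3 := trace_eq_sum_dual L b b' h1 (LinearMap.mulLeft K (⟨l, hl⟩ : L))
    rw [← tr_apply] at h3
    rw [h3, Finset.mul_sum, map_sum]
    refine Finset.sum_congr rfl fun i _ => ?_
    rw [← mul_assoc]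
    rfl
  rw [mul_sub, map_sub, mul_smul_comm, map_smul, mul_smul_comm, map_smul, h2, mul_one,
    smul_eq_mul, smul_eq_mul, sub_eq_zero]
  exact (tr_subalgebra L ⟨l, hl⟩).symm

/-- the double centraliser formula for a commutative subalgebra containing the centre -/
theorem dc_general (L : Subalgebra K A) (hLc : ∀ x ∈ L, ∀ y ∈ L, x * y = y * x)
    (hZ : Subalgebra.center K A ≤ L) :
    finrank K L * finrank K (Subalgebra.centralizer K (L : Set A)) =
      finrank K A * finrank K (Subalgebra.center K A) := by
  obtain ⟨b, b', _, h1, h2⟩ := exists_dual L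
  set Z := Subalgebra.center K A with hZdef
  set M := Subalgebra.centralizer K (L : Set A) with hM
  set Pi0 : A →ₗ[K] A := ∑ i, LinearMap.mulLeft K (b i : A) * LinearMap.mulRight K (b' i : A) with hPi
  have hPia : ∀ x, Pi0 x = ∑ i, (b i : A) * x * (b' i : A) := by
    intro x
    rw [hPi, LinearMap.sum_apply]
    exact Finset.sum_congr rfl fun i _ => (mul_assoc _ _ _).symm
  have hL0 : (finrank K L : K) ≠ 0 := Nat.cast_ne_zero.2 (finrank_pos_dom K L).ne'
  have hA0 : (finrank K A : K) ≠ 0 := Nat.cast_ne_zero.2 (finrank_pos_dom K A).ne'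
  have hcas := casimir_elt L b b' h1
  -- the trace of `Pi0`
  have htr : LinearMap.trace K A Pi0 = (finrank K Z : K) := by
    rw [hPi, map_sum]
    have e1 : ∀ i, LinearMap.trace K A (LinearMap.mulLeft K (b i : A) *
        LinearMap.mulRight K (b' i : A)) = trc K (pr Z (b i : A) * (b' i : A)) := by
      intro i
      rw [trace_left_right, tr_mul_pr Z (pr_mem Z _)]
    rw [Finset.sum_congr rfl fun i _ => e1 i]
    let f : L →ₗ[K] L :=
      { toFun := fun x => ⟨pr Z (x : A), hZ (pr_mem Z _)⟩
        map_add' := fun x y => Subtype.ext (map_add (pr Z) (x : A) (y : A))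
        map_smul' := fun c x => Subtype.ext (map_smul (pr Z) c (x : A)) }
    have hf := trace_eq_sum_dual L b b' h1 f
    have e2 : LinearMap.trace K L f = (finrank K Z : K) := by
      have hp : LinearMap.IsProj ((Subalgebra.toSubmodule Z).comap L.val.toLinearMap) f := by
        constructor
        · intro x
          exact pr_mem Z _
        · intro x hx
          exact Subtype.ext (pr_of_mem Z hx)
      rw [hp.trace]
      congr 1
      have := (Submodule.comapSubtypeEquivOfLe
        (show Subalgebra.toSubmodule Z ≤ Subalgebra.toSubmodule L from hZ)).finrank_eq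
      exact this
    rw [← e2, hf]
    rfl
  -- the projection onto `M`
  have hproj : LinearMap.IsProj (Subalgebra.toSubmodule M)
      (((finrank K A : K) / (finrank K L : K)) • Pi0) := by
    constructor
    · intro x
      refine M.smul_mem ?_ _
      rw [hPia, hM]
      refine Subalgebra.mem_centralizer_iff K |>.2 ?_
      intro l hl
      have h3 := casimir L b b' h1 h2 ⟨l, hl⟩ x
      rw [Finset.mul_sum, Finset.sum_mul]
      calc ∑ i, l * ((b i : A) * x * (b' i : A)) = ∑ i, (l * (b i : A)) * x * (b' i : A) :=
            Finset.sum_congr rfl fun i _ => by simp only [mul_assoc]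
        _ = ∑ i, (b i : A) * x * ((b' i : A) * l) := h3
        _ = _ := Finset.sum_congr rfl fun i _ => by simp only [mul_assoc]
    · intro x hx
      rw [LinearMap.smul_apply, hPia]
      have h4 : ∀ i, (b i : A) * x * (b' i : A) = ((b i : A) * (b' i : A)) * x := by
        intro i
        have := (Subalgebra.mem_centralizer_iff K).1 hx (b' i : A) (b' i).2
        rw [mul_assoc, ← this, mul_assoc]
      rw [Finset.sum_congr rfl fun i _ => h4 i, ← Finset.sum_mul, div_eq_inv_mul, mul_smul,
        ← smul_mul_assoc, hcas, ← smul_mul_assoc, smul_smul, inv_mul_cancel₀ hL0, one_smul,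
        one_mul]
  have h5 := hproj.trace
  rw [map_smul, htr, smul_eq_mul] at h5
  have h6 : (finrank K A : K) * (finrank K Z : K) = (finrank K L : K) * (finrank K M : K) := by
    have h7 : (finrank K M : K) = (finrank K A : K) / (finrank K L : K) * (finrank K Z : K) :=
      h5.symm
    rw [h7]
    field_simp
  exact_mod_cast h6.symm

theorem finrank_center [Algebra.IsCentral K A] : finrank K (Subalgebra.center K A) = 1 := by
  have h : Subalgebra.center K A = ⊥ := Algebra.IsCentral.center_eq_bot K A
  rw [h]
  exact Subalgebra.finrank_bot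

/-- DC for central algebras -/
theorem dc_central [Algebra.IsCentral K A] (L : Subalgebra K A)
    (hLc : ∀ x ∈ L, ∀ y ∈ L, x * y = y * x) :
    finrank K L * finrank K (Subalgebra.centralizer K (L : Set A)) = finrank K A := by
  have h := dc_general L hLc (by
    rw [Algebra.IsCentral.center_eq_bot K A]
    exact bot_le)
  rw [finrank_center, mul_one] at h
  exact h

theorem centralizer_Lf (W : A) : Subalgebra.centralizer K (Lf K W : Set A) = Mf K W := by
  refine le_antisymm ?_ ?_
  · intro x hx
    exact mem_centralizer_singleton.2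
      ((Subalgebra.mem_centralizer_iff K).1 hx W (Algebra.subset_adjoin rfl))
  · intro x hx
    refine (Subalgebra.mem_centralizer_iff K).2 fun y hy => ?_
    have h1 : Lf K W ≤ Subalgebra.centralizer K {x} := by
      refine Algebra.adjoin_le ?_
      intro z hz
      rw [Set.mem_singleton_iff] at hz
      subst hz
      exact mem_centralizer_singleton.2 (mem_centralizer_singleton.1 hx).symm
    exact (mem_centralizer_singleton.1 (h1 hy)).symm

/-- DC: `[L:K] * dim M = dim A` -/
theorem dc_W [Algebra.IsCentral K A] (W : A) :
    finrank K (Lf K W) * finrank K (Mf K W) = finrank K A := by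
  have h := dc_central (Lf K W) (fun x hx y hy => Lf_comm W hx hy)
  rw [centralizer_Lf] at h
  exact h

/-- every derivation of a finite-dimensional domain is inner -/
theorem derivation_inner' (d : A →ₗ[K] A) (hd : ∀ a b, d (a * b) = d a * b + a * d b) :
    ∃ ε, ∀ a, d a = ε * a - a * ε := by
  obtain ⟨b, b', _, h1, h2⟩ := exists_dual (⊤ : Subalgebra K A)
  have hfr : finrank K (⊤ : Subalgebra K A) = finrank K A :=
    (Subalgebra.topEquiv : (⊤ : Subalgebra K A) ≃ₐ[K] A).toLinearEquiv.finrank_eq
  have hA0 : (finrank K A : K) ≠ 0 := Nat.cast_ne_zero.2 (finrank_pos_dom K A).ne'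
  have hcas := casimir_elt (⊤ : Subalgebra K A) b b' h1
  have hc0 : ∑ i, (b i : A) * (b' i : A) = 1 := by
    refine smul_right_injective A hA0 (hcas.trans ?_)
    show (finrank K (⊤ : Subalgebra K A) : K) • (1 : A) = (finrank K A : K) • (1 : A)
    rw [hfr]
  refine ⟨∑ i, d (b i : A) * (b' i : A), fun a => ?_⟩
  -- a linear functional in the first tensor factor: use coordinates
  have e1 : ∀ i, a * (b i : A) = ∑ j, trc K (a * (b i : A) * (b' j : A)) • (b j : A) := by
    intro i
    have := b.sum_repr (⟨a, trivial⟩ * b i)
    have h3 := congrArg (Subtype.val) this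
    push_cast at h3
    refine h3.symm.trans (Finset.sum_congr rfl fun j _ => ?_)
    rw [h1]
    rfl
  have e2 : ∀ j, (b' j : A) * a = ∑ i, trc K ((b i : A) * ((b' j : A) * a)) • (b' i : A) := by
    intro j
    have := b'.sum_repr (b' j * ⟨a, trivial⟩)
    have h3 := congrArg (Subtype.val) this
    push_cast at h3
    refine h3.symm.trans (Finset.sum_congr rfl fun i _ => ?_)
    rw [h2]
    rfl
  have key : ∑ i, d (a * (b i : A)) * (b' i : A) = ∑ i, d (b i : A) * ((b' i : A) * a) := by
    calc ∑ i, d (a * (b i : A)) * (b' i : A)
        = ∑ i, ∑ j, trc K (a * (b i : A) * (b' j : A)) • (d (b j : A) * (b' i : A)) := by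
          refine Finset.sum_congr rfl fun i _ => ?_
          conv_lhs => rw [e1 i]
          rw [map_sum, Finset.sum_mul]
          exact Finset.sum_congr rfl fun j _ => by rw [map_smul, smul_mul_assoc]
      _ = ∑ j, ∑ i, trc K (a * (b i : A) * (b' j : A)) • (d (b j : A) * (b' i : A)) :=
          Finset.sum_comm
      _ = ∑ j, d (b j : A) * ((b' j : A) * a) := by
          refine Finset.sum_congr rfl fun j _ => ?_
          conv_rhs => rw [e2 j]
          rw [Finset.mul_sum]
          refine Finset.sum_congr rfl fun i _ => ?_
          rw [mul_smul_comm, mul_assoc a, tr_mul_comm a, mul_assoc (b i : A)]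
  have h5 : ∑ i, d (a * (b i : A)) * (b' i : A) = d a + a * ∑ i, d (b i : A) * (b' i : A) := by
    calc ∑ i, d (a * (b i : A)) * (b' i : A)
        = ∑ i, (d a * ((b i : A) * (b' i : A)) + a * (d (b i : A) * (b' i : A))) := by
          refine Finset.sum_congr rfl fun i _ => ?_
          rw [hd, add_mul, mul_assoc, mul_assoc]
      _ = d a + a * ∑ i, d (b i : A) * (b' i : A) := by
          rw [Finset.sum_add_distrib, ← Finset.mul_sum, ← Finset.mul_sum, hc0, mul_one]
  have h6 : ∑ i, d (b i : A) * ((b' i : A) * a) = (∑ i, d (b i : A) * (b' i : A)) * a := by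
    rw [Finset.sum_mul]
    exact Finset.sum_congr rfl fun i _ => (mul_assoc _ _ _).symm
  rw [h5, h6] at key
  rw [← key]
  abel

end dc

end Vale.Agent.P199K
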