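import Vale.Agent.P199K.SymD2
import Vale.Agent.P199K.TrDC

/-!
# P199: boxes of subalgebras, projections onto them (helper95)
-/

namespace Vale.Agent.P199K

open Module

section BxA

variable {K A K₁ E₁ A₁ : Type} [Field K] [Ring A] [Algebra K A] [Field K₁] [Ring E₁]
  [Ring A₁] [Algebra K₁ E₁] [Algebra K₁ A₁]
  {κ : K →+* K₁} {ι : A →+* A₁} {j : E₁ →ₐ[K₁] A₁} {m : ℕ}

/-- `V ⊠ E₁` as a subalgebra -/
abbrev bxA (h : Adm κ ι j m) (V : Subalgebra K A) : Subalgebra K₁ A₁ := h.bxA V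

theorem toSubmodule_bxA (h : Adm κ ι j m) (V : Subalgebra K A) :
    Subalgebra.toSubmodule (bxA h V) = bx ι j (Subalgebra.toSubmodule V) := h.bxA_toSubmodule V

theorem mem_bxA {h : Adm κ ι j m} {V : Subalgebra K A} {x : A₁} :
    x ∈ bxA h V ↔ x ∈ bx ι j (Subalgebra.toSubmodule V) := Iff.rfl

theorem toSubmodule_bx1A (V : Subalgebra K A) :
    Subalgebra.toSubmodule (bx1A K₁ ι V) = bx1 K₁ ι (Subalgebra.toSubmodule V) :=
  bx1A_toSubmodule V

theorem bx1A_le_bxA (h : Adm κ ι j m) (V : Subalgebra K A) : bx1A K₁ ι V ≤ bxA h V :=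
  fun _ hx => bx1_le_bx _ hx

theorem bx1A_mono {V W : Subalgebra K A} (hVW : V ≤ W) : bx1A K₁ ι V ≤ bx1A K₁ ι W :=
  fun _ hx => bx1_mono hVW hx

theorem bxA_mono (h : Adm κ ι j m) {V W : Subalgebra K A} (hVW : V ≤ W) : bxA h V ≤ bxA h W :=
  fun _ hx => bx_mono hVW hx

theorem bx1A_comm {V : Subalgebra K A} (hV : ∀ x ∈ V, ∀ y ∈ V, x * y = y * x) :
    ∀ x ∈ bx1A K₁ ι V, ∀ y ∈ bx1A K₁ ι V, x * y = y * x := by
  intro x hx y hy
  refine Submodule.span_induction (p := fun x _ => x * y = y * x) ?_ ?_ ?_ ?_ (mem_bx1A.1 hx)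
  · rintro _ ⟨u, hu, rfl⟩
    refine Submodule.span_induction (p := fun y _ => ι u * y = y * ι u) ?_ ?_ ?_ ?_ (mem_bx1A.1 hy)
    · rintro _ ⟨v, hv, rfl⟩
      rw [← map_mul, ← map_mul, hV u hu v hv]
    · rw [zero_mul, mul_zero]
    · intro a b _ _ ha hb
      rw [mul_add, add_mul, ha, hb]
    · intro c a _ ha
      rw [mul_smul_comm, smul_mul_assoc, ha]
  · rw [zero_mul, mul_zero]
  · intro a b _ _ ha hb
    rw [mul_add, add_mul, ha, hb]
  · intro c a _ ha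
    rw [mul_smul_comm, smul_mul_assoc, ha]

/-- `V ⊠ K₁` commutes with `V ⊠ E₁` for commutative `V` -/
theorem bx1A_comm_bxA (h : Adm κ ι j m) {V : Subalgebra K A} (hV : ∀ x ∈ V, ∀ y ∈ V, x * y = y * x) :
    ∀ x ∈ bx1A K₁ ι V, ∀ y ∈ bxA h V, x * y = y * x := by
  intro x hx y hy
  refine Submodule.span_induction (p := fun y _ => x * y = y * x) ?_ ?_ ?_ ?_ (mem_bxA.1 hy)
  · rintro _ ⟨e, v, hv, rfl⟩
    rw [← mul_assoc, bx1A_comm hV x hx (ι v) (ι_mem_bx1 hv), mul_assoc, h.bx1_comm hx, mul_assoc]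
  · rw [zero_mul, mul_zero]
  · intro a b _ _ ha hb
    rw [mul_add, add_mul, ha, hb]
  · intro c a _ ha
    rw [mul_smul_comm, smul_mul_assoc, ha]

section pr

variable [FiniteDimensional K A] [CharZero K] [IsDomain A] [FiniteDimensional K₁ A₁] [CharZero K₁]
  [IsDomain A₁]

/-- the projection onto `V ⊠ E₁` -/
theorem Adm.pr_bxA (h : Adm κ ι j m) (V : Subalgebra K A) (a : A) (e : E₁) :
    pr (bxA h V) (ι a * j e) = ι (pr V a) * j e := by
  refine pr_unique _ (mul_mem_bx (pr_mem V a) e) fun u hu => ?_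
  refine Submodule.span_induction (p := fun u _ => trc K₁ (u * (ι (pr V a) * j e))
    = trc K₁ (u * (ι a * j e))) ?_ ?_ ?_ ?_ (show u ∈ bx ι j (Subalgebra.toSubmodule V) from hu)
  · rintro _ ⟨f, v, hv, rfl⟩
    have h1 : ∀ b : A, ι v * j f * (ι b * j e) = ι (v * b) * j (f * e) := fun b => by
      rw [mul_assoc, ← mul_assoc (j f), ← h.comm, mul_assoc, ← map_mul, ← mul_assoc, ← map_mul]
    rw [h1, h1, h.trc_mul, h.trc_mul, tr_mul_pr V hv]
  · rw [zero_mul, zero_mul]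
  · intro x y _ _ hx hy
    rw [add_mul, add_mul, map_add, map_add, hx, hy]
  · intro c x _ hx
    rw [smul_mul_assoc, smul_mul_assoc, map_smul, map_smul, hx]

/-- the projection onto `V ⊠ K₁` -/
theorem Adm.pr_bx1A (h : Adm κ ι j m) (V : Subalgebra K A) (a : A) :
    pr (bx1A K₁ ι V) (ι a) = ι (pr V a) := by
  refine pr_unique _ (ι_mem_bx1 (pr_mem V a)) fun u hu => ?_
  refine Submodule.span_induction (p := fun u _ => trc K₁ (u * (ι (pr V a)))
    = trc K₁ (u * (ι a))) ?_ ?_ ?_ ?_ (mem_bx1A.1 hu)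
  · rintro _ ⟨v, hv, rfl⟩
    have h1 : ∀ b : A, ι v * ι b = ι (v * b) * j 1 := fun b => by
      rw [map_one, mul_one, map_mul]
    rw [h1, h1, h.trc_mul, h.trc_mul, tr_mul_pr V hv]
  · rw [zero_mul, zero_mul]
  · intro x y _ _ hx hy
    rw [add_mul, add_mul, map_add, map_add, hx, hy]
  · intro c x _ hx
    rw [smul_mul_assoc, smul_mul_assoc, map_smul, map_smul, hx]

theorem Adm.pr_bxA_ι (h : Adm κ ι j m) (V : Subalgebra K A) (a : A) :
    pr (bxA h V) (ι a) = ι (pr V a) := by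
  have h1 := h.pr_bxA V a 1
  rwa [map_one, mul_one, mul_one] at h1

end pr

end BxA

end Vale.Agent.P199K
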