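import Vale.Agent.P199K.BxA

/-!
# P199: (S5) maximal subfields of `L ⊠ E₁` are their own centralizers
-/

namespace Vale.Agent.P199K

open Module

section

variable {K A K₁ E₁ A₁ : Type} [Field K] [Ring A] [Algebra K A] [Field K₁] [Ring E₁]
  [Ring A₁] [Algebra K₁ E₁] [Algebra K₁ A₁]
  {κ : K →+* K₁} {ι : A →+* A₁} {j : E₁ →ₐ[K₁] A₁} {m : ℕ}

/-- coordinates of an element given by its `E₁`-coordinates -/
theorem Adm.bxc_repr (h : Adm κ ι j m) {I B : Type} [Fintype I] [Fintype B] (b : Basis I K A)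
    (e : Basis B K₁ E₁) (c : I → E₁) (i : I) (β : B) :
    (h.bs b e).repr (∑ k, ι (b k) * j (c k)) (i, β) = e.repr (c i) β := by
  classical
  rw [map_sum, Finsupp.coe_finsetSum, Finset.sum_apply, Finset.sum_eq_single i]
  · rw [h.bs_repr, b.repr_self, Finsupp.single_eq_same, map_one, one_mul]
  · intro k _ hk
    rw [h.bs_repr, b.repr_self, Finsupp.single_eq_of_ne (Ne.symm hk), map_zero, zero_mul]
  · intro hi
    exact absurd (Finset.mem_univ _) hi

variable [FiniteDimensional K A] [CharZero K] [IsDomain A] [FiniteDimensional K₁ A₁] [CharZero K₁]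
  [IsDomain A₁]

/-- (S5a) elements of `U ⊠ E₁` commuting with `E₁` are in `U ⊠ K₁` -/
theorem Adm.mem_bx1_of_comm (h : Adm κ ι j m) {U : Submodule K A} {y : A₁} (hy : y ∈ bx ι j U)
    (hc : ∀ e : E₁, y * j e = j e * y) : y ∈ bx1 K₁ ι U := by
  classical
  have := h.fdE
  have := h.cenE
  obtain ⟨s, b, hb, hb'⟩ := exists_adapted U
  let e := finBasis K₁ E₁
  obtain ⟨c, hcy⟩ := (h.bas' b).2 y
  have hcy' : ∑ k, ι (b k) * j (c k) = y := hcy
  have hcen : ∀ i, ∃ k : K₁, c i = algebraMap K₁ E₁ k := by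
    intro i
    have h1 : c i ∈ Subalgebra.center K₁ E₁ := by
      rw [Subalgebra.mem_center_iff]
      intro x
      have h2 : (fun i => x * c i) = (fun i => c i * x) := by
        refine (h.bas' b).1 ?_
        show ∑ k, ι (b k) * j (x * c k) = ∑ k, ι (b k) * j (c k * x)
        have h3 := hc x
        rw [← hcy', Finset.sum_mul, Finset.mul_sum] at h3
        calc ∑ k, ι (b k) * j (x * c k) = ∑ k, j x * (ι (b k) * j (c k)) :=
              Finset.sum_congr rfl fun k _ => by
                rw [map_mul, ← mul_assoc, h.comm, mul_assoc]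
          _ = ∑ k, ι (b k) * j (c k) * j x := h3.symm
          _ = _ := Finset.sum_congr rfl fun k _ => by rw [map_mul, mul_assoc]
      exact congrFun h2 i
    rw [Algebra.IsCentral.center_eq_bot K₁ E₁, Algebra.mem_bot] at h1
    obtain ⟨k, hk⟩ := h1
    exact ⟨k, hk.symm⟩
  have h0 : ∀ i, c (Sum.inr i) = 0 := by
    intro i
    rw [← e.repr.map_eq_zero_iff]
    ext β
    have h4 := (h.mem_bx_iff b hb hb' e y).1 hy i β
    rw [← hcy', h.bxc_repr] at h4
    exact h4
  rw [← hcy', Fintype.sum_sum_type]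
  refine Submodule.add_mem _ (Submodule.sum_mem _ fun i _ => ?_) (Submodule.sum_mem _ fun i _ => ?_)
  · obtain ⟨k, hk⟩ := hcen (Sum.inl i)
    rw [hk, AlgHom.commutes, ← Algebra.commutes, ← Algebra.smul_def]
    exact Submodule.smul_mem _ _ (ι_mem_bx1 (hb i))
  · rw [h0, map_zero, mul_zero]
    exact Submodule.zero_mem _

/-- (S5b) a commutative subalgebra of `L ⊠ E₁` containing `L ⊠ K₁`, of dimension `[L:K] m`, is its
own centralizer in `L ⊠ E₁` (apply `dc_general` to the algebra `↥(bxA h L)`, whose centre is `L ⊠ K₁`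
by (S5a)) -/
theorem Adm.mem_of_comm (h : Adm κ ι j m) (L : Subalgebra K A) (hL : ∀ x ∈ L, ∀ y ∈ L, x * y = y * x)
    (Λ : Subalgebra K₁ A₁) (hΛ : Λ ≤ bxA h L) (hLΛ : bx1A K₁ ι L ≤ Λ)
    (hc : ∀ x ∈ Λ, ∀ y ∈ Λ, x * y = y * x) (hd : finrank K₁ Λ = finrank K L * m) {y : A₁}
    (hy : y ∈ bx ι j (Subalgebra.toSubmodule L)) (hcy : ∀ x ∈ Λ, y * x = x * y) : y ∈ Λ := by
  classical
  let D := bxA h L
  -- the centre of `D`
  have hZ : Subalgebra.center K₁ D = (bx1A K₁ ι L).comap D.val := by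
    apply le_antisymm
    · intro z hz
      rw [Subalgebra.mem_center_iff] at hz
      show (z : A₁) ∈ bx1 K₁ ι (Subalgebra.toSubmodule L)
      refine h.mem_bx1_of_comm z.2 fun x => ?_
      have hx : j x ∈ bx ι j (Subalgebra.toSubmodule L) := by
        have := mul_mem_bx (ι := ι) (j := j) (U := Subalgebra.toSubmodule L) L.one_mem x
        rwa [map_one, one_mul] at this
      exact (congrArg Subtype.val (hz ⟨j x, hx⟩)).symm
    · intro z hz
      rw [Subalgebra.mem_center_iff]
      intro x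
      exact Subtype.ext (bx1A_comm_bxA h hL z hz x x.2).symm
  have hfc : ∀ V : Subalgebra K₁ A₁, V ≤ D → finrank K₁ (V.comap D.val) = finrank K₁ V := by
    intro V hV
    exact (Submodule.comapSubtypeEquivOfLe
        (show Subalgebra.toSubmodule V ≤ Subalgebra.toSubmodule D from hV)).finrank_eq
  have h1 := dc_general (K := K₁) (A := D) (Λ.comap D.val)
    (fun x hx z hz => Subtype.ext (hc x hx z hz))
    (by rw [hZ]; exact fun z hz => hLΛ hz)
  have h2 : finrank K₁ (bx1A K₁ ι L) = finrank K L := h.finrank_bx1 (Subalgebra.toSubmodule L)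
  have h3 : finrank K₁ D = m ^ 2 * finrank K L := h.finrank_bx (Subalgebra.toSubmodule L)
  rw [hZ, hfc _ hΛ, hfc _ (hLΛ.trans hΛ), hd, h2, h3] at h1
  have hn : 0 < finrank K L := finrank_pos_dom K L
  have hm := h.pos
  have h4 : finrank K₁ (Subalgebra.centralizer K₁ ((Λ.comap D.val : Subalgebra K₁ D) : Set D))
      = finrank K L * m := by
    have h5 : finrank K L * m * finrank K₁ (Subalgebra.centralizer K₁
        ((Λ.comap D.val : Subalgebra K₁ D) : Set D)) = finrank K L * m * (finrank K L * m) := by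
      rw [h1]; ring
    exact Nat.eq_of_mul_eq_mul_left (by positivity) h5
  have h6 : Λ.comap D.val ≤ Subalgebra.centralizer K₁ ((Λ.comap D.val : Subalgebra K₁ D) : Set D) := by
    intro x hx
    rw [Subalgebra.mem_centralizer_iff]
    intro z hz
    exact Subtype.ext (hc z hz x hx)
  have h7 : Subalgebra.toSubmodule (Λ.comap D.val) = Subalgebra.toSubmodule
      (Subalgebra.centralizer K₁ ((Λ.comap D.val : Subalgebra K₁ D) : Set D)) := by
    refine Submodule.eq_of_le_of_finrank_eq h6 ?_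
    show finrank K₁ (Λ.comap D.val) = finrank K₁ (Subalgebra.centralizer K₁ _)
    rw [h4, hfc _ hΛ, hd]
  have h8 : (⟨y, hy⟩ : D) ∈ Subalgebra.centralizer K₁ ((Λ.comap D.val : Subalgebra K₁ D) : Set D) := by
    rw [Subalgebra.mem_centralizer_iff]
    intro z hz
    exact Subtype.ext (hcy z hz).symm
  have h9 : (⟨y, hy⟩ : D) ∈ Subalgebra.toSubmodule (Λ.comap D.val) := by
    rw [h7]
    exact h8
  exact h9

end

end Vale.Agent.P199K
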