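import Vale.Agent.P199K.Subst
import Vale.Agent.P199K.LSApi

/-! # P199, module EXPF: coefficients of the expansion homomorphism

`W' = expHom f []` is integral with residue `ι W`; the coefficients of words of length `n` are
divisible by `t^n`; the linear coefficients are `t (ι (f [γ]) j (ε β) + O(t))`.
All from `expHom_spec`, `NPS.exists_poly` (or `eq_C_add_sum`), `LSApi`. -/

namespace Vale.Agent.P199K

theorem expF_mono_mul {A : Type} [Ring A] (k n : ℤ) (a : A) (f : LS A) :
    LS.coeff (LS.mono k a * f) n = a * LS.coeff f (n - k) :=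
  hs_coeff_single_mul k n a f

theorem expF_X_nil {τ R : Type} [Ring R] [DecidableEq τ] (x : τ) :
    (NPS.X x : NPS τ R) [] = 0 := by
  show (if ([] : List τ) = [x] then (1 : R) else 0) = 0
  rw [if_neg (by simp)]

theorem expF_X_cons {τ R : Type} [Ring R] [DecidableEq τ] (x y : τ) (u : List τ) :
    (NPS.X x : NPS τ R) (y :: u) = if y = x ∧ u = [] then 1 else 0 := by
  show (if (y :: u : List τ) = [x] then (1 : R) else 0) = _
  simp

theorem expF_coeff_ofPS_ord {A : Type} [Ring A] (k : ℕ) (q : PowerSeries A) (n : ℤ)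
    (hn : n < k) : LS.coeff (LS.ofPS (PowerSeries.X ^ k * q)) n = 0 := by
  rcases lt_or_ge n 0 with h | h
  · exact LS.coeff_ofPS_neg _ _ h
  · obtain ⟨n, rfl⟩ := Int.eq_ofNat_of_zero_le h
    rw [LS.coeff_ofPS]
    exact PowerSeries.X_pow_dvd_iff.1 (Dvd.intro _ rfl) n (by exact_mod_cast hn)

section ExpF
variable {A σ E₁ A₁ B : Type} [Ring A] [Fintype σ] [DecidableEq σ] [Ring E₁] [Ring A₁]
  [Fintype B] [DecidableEq B]
  (ι : A →+* A₁) (j : E₁ →+* A₁) (hc : ∀ a e, ι a * j e = j e * ι a)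
  (ε : B → E₁) (p : σ → PowerSeries E₁) (hp : ∀ γ, PowerSeries.constantCoeff (p γ) = 0)

/-- words of length `n` have coefficients divisible by `t ^ n` -/
theorem exp_ord (f : NPS σ A) (u : List (σ × B)) (n : ℤ) (hn : n < u.length) :
    LS.coeff (expHom ι j hc ε p hp f u) n = 0 := by
  obtain ⟨q, hq⟩ := (expHom_spec ι j hc ε p hp).2.2.2 f u
  rw [hq]
  exact expF_coeff_ofPS_ord _ _ _ hn

/-- series of order `k` are mapped to series with coefficients divisible by `t ^ k` -/
theorem exp_ord' (k : ℕ) (f : NPS σ A) (hf : NPS.Ord k f) (u : List (σ × B)) (n : ℤ) (hn : n < k) :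
    LS.coeff (expHom ι j hc ε p hp f u) n = 0 := by
  obtain ⟨q, hq⟩ := (expHom_spec ι j hc ε p hp).2.2.1 k f hf u
  rw [hq]
  exact expF_coeff_ofPS_ord _ _ _ hn

theorem exp_int (f : NPS σ A) (u : List (σ × B)) : LS.Intg (expHom ι j hc ε p hp f u) := by
  intro n hn
  exact exp_ord ι j hc ε p hp f u n (lt_of_lt_of_le hn (Int.natCast_nonneg _))

theorem expF_X_apply_nil (γ : σ) : expHom ι j hc ε p hp (NPS.X γ) [] =
    LS.ofPS (PowerSeries.map j (p γ)) := by
  rw [(expHom_spec ι j hc ε p hp).2.1, NPS.add_apply, NPS.C_nil, NPS.sg_sum_apply]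
  rw [Finset.sum_eq_zero, add_zero]
  intro β _
  rw [NPS.C_mul_apply, expF_X_nil, mul_zero]

theorem expF_X_dl (γ γ' : σ) (β' : B) : NPS.dl (γ', β') (expHom ι j hc ε p hp (NPS.X γ)) =
    if γ' = γ then NPS.C (LS.mono 1 (j (ε β'))) else 0 := by
  ext u
  rw [NPS.dl_apply, (expHom_spec ι j hc ε p hp).2.1, NPS.add_apply, NPS.C_cons, zero_add,
    NPS.sg_sum_apply]
  have h1 : ∀ β : B, (NPS.C (LS.mono 1 (j (ε β))) * NPS.X (γ, β) : NPS (σ × B) (LS A₁))
      ((γ', β') :: u) = if β = β' then (if γ' = γ ∧ u = [] then LS.mono 1 (j (ε β')) else 0)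
        else 0 := by
    intro β
    rw [NPS.C_mul_apply, expF_X_cons]
    by_cases hβ : β = β'
    · subst hβ
      by_cases hγ : γ' = γ ∧ u = []
      · rw [if_pos rfl, if_pos hγ, if_pos ⟨by rw [hγ.1], hγ.2⟩, mul_one]
      · rw [if_pos rfl, if_neg hγ, if_neg (fun h => hγ ⟨(Prod.mk.inj h.1).1, h.2⟩), mul_zero]
    · rw [if_neg hβ, if_neg (fun h => hβ (Prod.mk.inj h.1).2.symm), mul_zero]
  rw [Finset.sum_congr rfl fun β _ => h1 β, Finset.sum_ite_eq' Finset.univ β',
    if_pos (Finset.mem_univ β')]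
  by_cases hγ : γ' = γ
  · rw [if_pos hγ]
    cases u with
    | nil => rw [if_pos ⟨hγ, rfl⟩, NPS.C_nil]
    | cons x u => rw [if_neg (fun h => by simp at h), NPS.C_cons]
  · rw [if_neg hγ, if_neg (fun h => hγ h.1)]
    rfl

/-- recursion for the constant term -/
theorem expF_nil (f : NPS σ A) : expHom ι j hc ε p hp f [] = LS.C (ι (f [])) +
    ∑ γ, LS.ofPS (PowerSeries.map j (p γ)) * expHom ι j hc ε p hp (NPS.dl γ f) [] := by
  have h := congrArg (fun g => expHom ι j hc ε p hp g []) (NPS.eq_C_add_sum f)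
  simp only [map_add, map_sum, map_mul] at h
  rw [h, NPS.add_apply, (expHom_spec ι j hc ε p hp).1, NPS.C_nil, NPS.sg_sum_apply]
  congr 1
  refine Finset.sum_congr rfl fun γ _ => ?_
  rw [NPS.mul_nil, expF_X_apply_nil]

/-- recursion for the other coefficients -/
theorem expF_cons (f : NPS σ A) (γ' : σ) (β' : B) (u : List (σ × B)) :
    expHom ι j hc ε p hp f ((γ', β') :: u) =
    ∑ γ, LS.ofPS (PowerSeries.map j (p γ)) *
      expHom ι j hc ε p hp (NPS.dl γ f) ((γ', β') :: u) +
    LS.mono 1 (j (ε β')) * expHom ι j hc ε p hp (NPS.dl γ' f) u := by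
  have h := congrArg (fun g => expHom ι j hc ε p hp g ((γ', β') :: u)) (NPS.eq_C_add_sum f)
  simp only [map_add, map_sum, map_mul] at h
  rw [h, NPS.add_apply, (expHom_spec ι j hc ε p hp).1, NPS.C_cons, zero_add, NPS.sg_sum_apply]
  have h1 : ∀ γ, (expHom ι j hc ε p hp (NPS.X γ) * expHom ι j hc ε p hp (NPS.dl γ f))
      ((γ', β') :: u) = LS.ofPS (PowerSeries.map j (p γ)) *
        expHom ι j hc ε p hp (NPS.dl γ f) ((γ', β') :: u) +
      if γ' = γ then LS.mono 1 (j (ε β')) * expHom ι j hc ε p hp (NPS.dl γ' f) u else 0 := by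
    intro γ
    rw [NPS.mul_cons, expF_X_apply_nil, expF_X_dl]
    congr 1
    by_cases hγ : γ' = γ
    · subst hγ
      rw [if_pos rfl, if_pos rfl, NPS.C_mul_apply]
    · rw [if_neg hγ, if_neg hγ, NPS.zero_mul_apply]
  rw [Finset.sum_congr rfl fun γ _ => h1 γ, Finset.sum_add_distrib, Finset.sum_ite_eq Finset.univ γ',
    if_pos (Finset.mem_univ γ')]

theorem expF_coeff_p_zero (γ : σ) : LS.coeff (LS.ofPS (PowerSeries.map j (p γ))) 0 =
    j (PowerSeries.constantCoeff (p γ)) := by
  have h := LS.coeff_ofPS (PowerSeries.map j (p γ)) 0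
  rw [PowerSeries.coeff_map, PowerSeries.coeff_zero_eq_constantCoeff_apply] at h
  exact h

theorem expF_coeff_p_one (γ : σ) : LS.coeff (LS.ofPS (PowerSeries.map j (p γ))) 1 =
    j (PowerSeries.coeff 1 (p γ)) := by
  have h := LS.coeff_ofPS (PowerSeries.map j (p γ)) 1
  rw [PowerSeries.coeff_map] at h
  exact h

theorem expF_intg_p (γ : σ) : LS.Intg (LS.ofPS (PowerSeries.map j (p γ))) :=
  fun n hn => LS.coeff_ofPS_neg _ n hn

/-- residue of the constant term -/
theorem exp_nil_zero (f : NPS σ A) : LS.coeff (expHom ι j hc ε p hp f []) 0 = ι (f []) := by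
  rw [expF_nil, LS.coeff_add, LS.coeff_C_zero, LS.coeff_sum, Finset.sum_eq_zero, add_zero]
  intro γ _
  rw [LS.coeff_mul_zero (expF_intg_p j p γ) (exp_int ι j hc ε p hp _ _), expF_coeff_p_zero, hp,
    map_zero, zero_mul]

/-- coefficient of `t` in the constant term -/
theorem exp_nil_one (f : NPS σ A) : LS.coeff (expHom ι j hc ε p hp f []) 1 =
    ∑ γ, ι (f [γ]) * j (PowerSeries.coeff 1 (p γ)) := by
  rw [expF_nil, LS.coeff_add, LS.coeff_C, if_neg one_ne_zero, zero_add, LS.coeff_sum]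
  refine Finset.sum_congr rfl fun γ _ => ?_
  rw [LS.coeff_mul_one (expF_intg_p j p γ) (exp_int ι j hc ε p hp _ _), expF_coeff_p_zero, hp,
    map_zero, zero_mul, zero_add, expF_coeff_p_one, exp_nil_zero, hc]
  rfl

/-- leading coefficient of the linear part -/
theorem exp_single_one (f : NPS σ A) (γ : σ) (β : B) :
    LS.coeff (expHom ι j hc ε p hp f [(γ, β)]) 1 = ι (f [γ]) * j (ε β) := by
  rw [expF_cons, LS.coeff_add, LS.coeff_sum, Finset.sum_eq_zero, zero_add, expF_mono_mul, sub_self,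
    exp_nil_zero, hc]
  · rfl
  · intro γ' _
    rw [LS.coeff_mul_one (expF_intg_p j p γ') (exp_int ι j hc ε p hp _ _), expF_coeff_p_zero, hp,
      map_zero, zero_mul, zero_add, exp_ord ι j hc ε p hp _ [(γ, β)] 0 (by simp), mul_zero]

/-- sums over words of length `k + 1` -/
theorem expF_sum_words {R : Type} [AddCommMonoid R] (k : ℕ) (F : List σ → R) :
    ∑ u : Fin (k + 1) → σ, F (List.ofFn u) = ∑ γ : σ, ∑ u : Fin k → σ, F (γ :: List.ofFn u) := by
  rw [← (Fin.consEquiv fun _ : Fin (k + 1) => σ).sum_comp, Fintype.sum_prod_type]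
  refine Finset.sum_congr rfl fun γ _ => Finset.sum_congr rfl fun u _ => ?_
  show F (List.ofFn (Fin.cons γ u)) = _
  rw [List.ofFn_cons]

/-- lowest coefficient of the constant term for a series of order `k` -/
theorem exp_nil_low (k : ℕ) (f : NPS σ A) (hf : NPS.Ord k f) :
    LS.coeff (expHom ι j hc ε p hp f []) k =
      ∑ u : Fin k → σ, ι (f (List.ofFn u)) *
        j ((List.ofFn u).map (fun γ => PowerSeries.coeff 1 (p γ))).prod := by
  induction k generalizing f with
  | zero =>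
    rw [Nat.cast_zero, exp_nil_zero]
    simp
  | succ k ih =>
    have hf0 : f [] = 0 := hf [] (by simp)
    have hfd : ∀ γ, NPS.Ord k (NPS.dl γ f) := fun γ u hu => hf (γ :: u) (by simpa using hu)
    rw [expF_nil, hf0, map_zero, map_zero, zero_add, LS.coeff_sum,
      expF_sum_words k fun l => ι (f l) * j ((l.map fun γ => PowerSeries.coeff 1 (p γ))).prod]
    refine Finset.sum_congr rfl fun γ _ => ?_
    have hb1 : ∀ n < (1 : ℤ), LS.coeff (LS.ofPS (PowerSeries.map j (p γ))) n = 0 := by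
      intro n hn
      rcases lt_or_ge n 0 with h | h
      · exact LS.coeff_ofPS_neg _ _ h
      · have h0 : n = 0 := by omega
        rw [h0, expF_coeff_p_zero, hp, map_zero]
    have hb2 : ∀ n < (k : ℤ), LS.coeff (expHom ι j hc ε p hp (NPS.dl γ f) []) n = 0 := fun n hn =>
      exp_ord' ι j hc ε p hp k _ (hfd γ) [] n hn
    rw [LS.coeff_mul_of_bound _ _ hb1 hb2]
    have hI : Finset.Icc (1 : ℤ) (((k + 1 : ℕ) : ℤ) - k) = {1} := by
      rw [show ((k + 1 : ℕ) : ℤ) - k = 1 by push_cast; ring]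
      exact Finset.Icc_self 1
    rw [hI, Finset.sum_singleton, expF_coeff_p_one,
      show ((k + 1 : ℕ) : ℤ) - 1 = k by push_cast; ring, ih _ (hfd γ), Finset.mul_sum]
    refine Finset.sum_congr rfl fun u _ => ?_
    rw [List.map_cons, List.prod_cons, map_mul, ← mul_assoc, ← mul_assoc, ← hc]
    rfl

/-- all coefficients of the constant term for `p = t θ` -/
theorem exp_nil_hom (θ : σ → E₁) (hθ : ∀ γ, p γ = PowerSeries.C (θ γ) * PowerSeries.X)
    (f : NPS σ A) (n : ℕ) :
    LS.coeff (expHom ι j hc ε p hp f []) n =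
      ∑ u : Fin n → σ, ι (f (List.ofFn u)) * j ((List.ofFn u).map θ).prod := by
  have hmono : ∀ γ, LS.ofPS (PowerSeries.map j (p γ)) = LS.mono 1 (j (θ γ)) := by
    intro γ
    ext n
    rw [LS.coeff_mono, hθ]
    rcases lt_or_ge n 0 with h | h
    · rw [LS.coeff_ofPS_neg _ _ h, if_neg (by omega)]
    · obtain ⟨n, rfl⟩ := Int.eq_ofNat_of_zero_le h
      rw [LS.coeff_ofPS, PowerSeries.coeff_map, PowerSeries.coeff_C_mul, PowerSeries.coeff_X]
      by_cases hn : n = 1
      · subst hn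
        rw [if_pos rfl, if_pos Nat.cast_one, mul_one]
      · rw [if_neg hn, if_neg (by exact_mod_cast hn), mul_zero, map_zero]
  induction n generalizing f with
  | zero =>
    rw [Nat.cast_zero, exp_nil_zero]
    simp
  | succ n ih =>
    rw [expF_nil, LS.coeff_add, LS.coeff_C, if_neg (by omega), zero_add, LS.coeff_sum,
      expF_sum_words n fun l => ι (f l) * j (l.map θ).prod]
    refine Finset.sum_congr rfl fun γ _ => ?_
    rw [hmono, expF_mono_mul, show ((n + 1 : ℕ) : ℤ) - 1 = n by push_cast; ring, ih,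
      Finset.mul_sum]
    refine Finset.sum_congr rfl fun u _ => ?_
    rw [List.map_cons, List.prod_cons, map_mul, ← mul_assoc, ← mul_assoc, ← hc]
    rfl

end ExpF

end Vale.Agent.P199K
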