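import Vale.Agent.P199K.Defs

/-!
# P199: section 0, the trace form of a finite-dimensional domain (helper82)

`A` is a domain, finite-dimensional over the field `K` of characteristic zero (so it is a division ring).
`trc K : A →ₗ[K] K` is the trace of left multiplication.
-/

namespace Vale.Agent.P199K

open Module Polynomial

section basic

variable {K A : Type} [Field K] [Ring A] [Algebra K A]

theorem tr_apply (x : A) : trc K x = LinearMap.trace K A (LinearMap.mulLeft K x) := rfl

theorem tr_mul_comm (x y : A) : trc K (x * y) = trc K (y * x) := by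
  unfold trc
  simp only [LinearMap.comp_apply, AlgHom.toLinearMap_apply, map_mul]
  exact LinearMap.trace_mul_comm K _ _

theorem tr_one [Module.Finite K A] : trc K (1 : A) = (finrank K A : K) := by
  unfold trc
  simp only [LinearMap.comp_apply, AlgHom.toLinearMap_apply, map_one]
  exact LinearMap.trace_one K A

/-- `tr (x * y * z) = tr (y * z * x)` -/
theorem tr_rotate (x y z : A) : trc K (x * y * z) = trc K (y * z * x) := by
  rw [mul_assoc, tr_mul_comm]

/-- the trace form -/
noncomputable def tf (K A : Type) [Field K] [Ring A] [Algebra K A] : LinearMap.BilinForm K A :=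
  LinearMap.mk₂ K (fun x y => trc K (x * y))
    (fun x y z => by rw [add_mul, map_add]) (fun c x y => by rw [smul_mul_assoc, map_smul])
    (fun x y z => by rw [mul_add, map_add]) (fun c x y => by rw [mul_smul_comm, map_smul])

theorem tf_apply (x y : A) : tf K A x y = trc K (x * y) := rfl

theorem tf_isSymm : (tf K A).IsSymm := ⟨fun x y => tr_mul_comm x y⟩

theorem tf_isRefl : (tf K A).IsRefl := tf_isSymm.isRefl

/-- the orthogonal complement for the trace form -/
noncomputable def perp (V : Submodule K A) : Submodule K A := (tf K A).orthogonal V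

theorem mem_perp {V : Submodule K A} {x : A} : x ∈ perp V ↔ ∀ v ∈ V, trc K (v * x) = 0 := Iff.rfl

theorem perp_anti {V W : Submodule K A} (h : V ≤ W) : perp W ≤ perp V :=
  fun _ hx v hv => hx v (h hv)

end basic

section dom

variable {K A : Type} [Field K] [Ring A] [IsDomain A] [Algebra K A] [Module.Finite K A]

/-- nonzero elements of a subalgebra are invertible in it -/
theorem exists_inv_mem (U : Subalgebra K A) {x : A} (hx : x ∈ U) (h0 : x ≠ 0) :
    ∃ y ∈ U, x * y = 1 ∧ y * x = 1 := by
  have h0' : (⟨x, hx⟩ : U) ≠ 0 := fun h => h0 (congrArg Subtype.val h)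
  obtain ⟨u, hu⟩ := FiniteDimensional.isUnit K h0'
  refine ⟨(↑u⁻¹ : U), (↑u⁻¹ : U).2, ?_, ?_⟩
  · have := congrArg Subtype.val u.mul_inv
    rw [hu] at this
    exact this
  · have := congrArg Subtype.val u.inv_mul
    rw [hu] at this
    exact this

theorem exists_inv (K : Type) {A : Type} [Field K] [Ring A] [IsDomain A] [Algebra K A]
    [Module.Finite K A] {x : A} (h0 : x ≠ 0) : ∃ y : A, x * y = 1 ∧ y * x = 1 := by
  obtain ⟨y, _, h⟩ := exists_inv_mem (⊤ : Subalgebra K A) (x := x) trivial h0
  exact ⟨y, h⟩

theorem finrank_pos_dom (K A : Type) [Field K] [Ring A] [IsDomain A] [Algebra K A]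
    [Module.Finite K A] : 0 < finrank K A := finrank_pos

variable [CharZero K]

theorem tr_one_ne_zero : trc K (1 : A) ≠ 0 := by
  rw [tr_one]
  exact Nat.cast_ne_zero.2 (finrank_pos_dom K A).ne'

/-- the trace form is nondegenerate on subalgebras -/
theorem tr_nondeg (U : Subalgebra K A) {x : A} (hx : x ∈ U)
    (h : ∀ y ∈ U, trc K (y * x) = 0) : x = 0 := by
  by_contra h0
  obtain ⟨y, hy, _, h2⟩ := exists_inv_mem U hx h0
  have := h y hy
  rw [h2] at this
  exact tr_one_ne_zero this

theorem tf_nondeg : (tf K A).Nondegenerate := by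
  refine (LinearMap.IsRefl.nondegenerate_iff_separatingLeft (tf_isRefl (K := K) (A := A))).2 ?_
  intro x hx
  exact tr_nondeg (⊤ : Subalgebra K A) trivial fun y _ => by rw [tr_mul_comm]; exact hx y

theorem perp_perp (V : Submodule K A) : perp (perp V) = V :=
  LinearMap.BilinForm.orthogonal_orthogonal tf_nondeg tf_isRefl V

theorem finrank_perp (V : Submodule K A) : finrank K V + finrank K (perp V) = finrank K A := by
  have h1 := LinearMap.BilinForm.finrank_orthogonal (tf_nondeg (K := K) (A := A)) V
  have h2 := Submodule.finrank_le V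
  have h3 : finrank K (perp V) = finrank K A - finrank K V := h1
  omega

theorem isCompl_perp (U : Subalgebra K A) :
    IsCompl (Subalgebra.toSubmodule U) (perp (Subalgebra.toSubmodule U)) := by
  refine (LinearMap.BilinForm.isCompl_orthogonal_iff_disjoint tf_isRefl).2 ?_
  rw [Submodule.disjoint_def]
  intro x hx hx'
  exact tr_nondeg U hx hx'

/-- the orthogonal projection onto a subalgebra -/
noncomputable def pr (U : Subalgebra K A) : A →ₗ[K] A :=
  Submodule.projection (Subalgebra.toSubmodule U) (perp (Subalgebra.toSubmodule U))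
    (isCompl_perp U)

theorem pr_mem (U : Subalgebra K A) (x : A) : pr U x ∈ U := by
  have := Submodule.projection_apply_mem (isCompl_perp U) x
  exact this

theorem sub_pr_mem (U : Subalgebra K A) (x : A) :
    x - pr U x ∈ perp (Subalgebra.toSubmodule U) := by
  obtain ⟨y, hy, z, hz, rfl⟩ := Submodule.mem_sup.1
    ((isCompl_perp U).codisjoint.eq_top ▸ Submodule.mem_top (x := x))
  have h1 : pr U (y + z) = y := by
    unfold pr
    rw [map_add]
    have e1 : (Submodule.projection (Subalgebra.toSubmodule U)
      (perp (Subalgebra.toSubmodule U)) (isCompl_perp U)) y = y :=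
      Submodule.projection_apply_of_mem_left _ hy
    have e2 : (Submodule.projection (Subalgebra.toSubmodule U)
      (perp (Subalgebra.toSubmodule U)) (isCompl_perp U)) z = 0 := by
      rw [Submodule.projection_apply, Submodule.projectionOnto_apply_of_mem_right _ hz]
      rfl
    rw [e1, e2, add_zero]
  rw [h1, add_sub_cancel_left]
  exact hz

theorem tr_mul_pr (U : Subalgebra K A) {u : A} (hu : u ∈ U) (x : A) :
    trc K (u * pr U x) = trc K (u * x) := by
  have h : trc K (u * (x - pr U x)) = 0 := sub_pr_mem U x u hu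
  rw [mul_sub, map_sub, sub_eq_zero] at h
  exact h.symm

theorem pr_unique (U : Subalgebra K A) {x y : A} (hy : y ∈ U)
    (h : ∀ u ∈ U, trc K (u * y) = trc K (u * x)) : pr U x = y := by
  have h1 : pr U x - y = 0 := by
    refine tr_nondeg U (U.sub_mem (pr_mem U x) hy) fun u hu => ?_
    rw [mul_sub, map_sub, tr_mul_pr U hu, h u hu, sub_self]
  exact sub_eq_zero.1 h1

theorem pr_of_mem (U : Subalgebra K A) {x : A} (hx : x ∈ U) : pr U x = x :=
  pr_unique U hx fun _ _ => rfl

theorem pr_mul_left (U : Subalgebra K A) {u : A} (hu : u ∈ U) (x : A) :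
    pr U (u * x) = u * pr U x := by
  refine pr_unique U (U.mul_mem hu (pr_mem U x)) fun v hv => ?_
  rw [← mul_assoc, tr_mul_pr U (U.mul_mem hv hu), mul_assoc]

theorem pr_mul_right (U : Subalgebra K A) {u : A} (hu : u ∈ U) (x : A) :
    pr U (x * u) = pr U x * u := by
  refine pr_unique U (U.mul_mem (pr_mem U x) hu) fun v hv => ?_
  have h1 : trc K (v * (pr U x * u)) = trc K ((u * v) * pr U x) := by
    rw [← mul_assoc, tr_mul_comm, ← mul_assoc]
  have h2 : trc K (v * (x * u)) = trc K ((u * v) * x) := by
    rw [← mul_assoc, tr_mul_comm, ← mul_assoc]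
  rw [h1, h2, tr_mul_pr U (U.mul_mem hu hv)]

theorem pr_pr {U V : Subalgebra K A} (h : U ≤ V) (x : A) : pr U (pr V x) = pr U x := by
  refine (pr_unique U (pr_mem U (pr V x)) fun u hu => ?_).symm
  rw [tr_mul_pr U hu, tr_mul_pr V (h hu)]

theorem pr_eq_zero_iff (U : Subalgebra K A) {x : A} :
    pr U x = 0 ↔ ∀ u ∈ U, trc K (u * x) = 0 := by
  constructor
  · intro h u hu
    rw [← tr_mul_pr U hu, h, mul_zero, map_zero]
  · intro h
    refine pr_unique U U.zero_mem fun u hu => ?_
    rw [mul_zero, map_zero, h u hu]

/-- dual bases of a subalgebra for the trace form -/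
theorem exists_dual (U : Subalgebra K A) :
    ∃ b b' : Basis (Fin (finrank K U)) K U,
      (∀ i j, trc K ((b i : A) * (b' j : A)) = if i = j then 1 else 0) ∧
      (∀ (x : U) i, b.repr x i = trc K ((x : A) * (b' i : A))) ∧
      (∀ (x : U) i, b'.repr x i = trc K ((b i : A) * (x : A))) := by
  set B : LinearMap.BilinForm K U := (tf K A).restrict (Subalgebra.toSubmodule U) with hB
  have hBa : ∀ x y : U, B x y = trc K ((x : A) * (y : A)) := fun _ _ => rfl
  have hsymm : B.IsSymm := ⟨fun x y => tr_mul_comm _ _⟩
  have hnd : B.Nondegenerate := by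
    refine (LinearMap.IsRefl.nondegenerate_iff_separatingLeft hsymm.isRefl).2 ?_
    intro x hx
    refine Subtype.ext (tr_nondeg U x.2 fun y hy => ?_)
    rw [tr_mul_comm]
    exact hx ⟨y, hy⟩
  set b := Module.finBasis K U
  set b' := B.dualBasis hnd b
  have h1 : ∀ i j, trc K ((b i : A) * (b' j : A)) = if i = j then 1 else 0 := fun i j =>
    LinearMap.BilinForm.apply_dualBasis_right hnd hsymm b i j
  refine ⟨b, b', h1, fun x i => ?_, fun x i => ?_⟩
  · have h2 : (x : A) = ∑ j, b.repr x j • (b j : A) := by
      conv_lhs => rw [← b.sum_repr x]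
      push_cast
      rfl
    conv_rhs => rw [h2]
    rw [Finset.sum_mul, map_sum]
    simp only [smul_mul_assoc, map_smul, h1, smul_eq_mul, mul_ite, mul_one, mul_zero,
      Finset.sum_ite_eq', Finset.mem_univ, if_true]
  · have h2 : (x : A) = ∑ j, b'.repr x j • (b' j : A) := by
      conv_lhs => rw [← b'.sum_repr x]
      push_cast
      rfl
    conv_rhs => rw [h2]
    rw [Finset.mul_sum, map_sum]
    simp only [mul_smul_comm, map_smul, h1, smul_eq_mul, mul_ite, mul_one, mul_zero,
      Finset.sum_ite_eq, Finset.mem_univ, if_true]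

omit [IsDomain A] [Module.Finite K A] [CharZero K] in
/-- Casimir identity -/
theorem casimir (U : Subalgebra K A) {ι : Type} [Fintype ι] [DecidableEq ι]
    (b b' : Basis ι K U)
    (h1 : ∀ (x : U) i, b.repr x i = trc K ((x : A) * (b' i : A)))
    (h2 : ∀ (x : U) i, b'.repr x i = trc K ((b i : A) * (x : A))) (u : U) (x : A) :
    ∑ i, ((u : A) * (b i : A)) * x * (b' i : A) = ∑ i, (b i : A) * x * ((b' i : A) * (u : A)) := by
  have e1 : ∀ i, (u : A) * (b i : A) = ∑ j, trc K ((u : A) * (b i : A) * (b' j : A)) • (b j : A) := by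
    intro i
    have := b.sum_repr (u * b i)
    have h3 := congrArg (Subtype.val) this
    push_cast at h3
    refine h3.symm.trans (Finset.sum_congr rfl fun j _ => ?_)
    rw [h1]
    rfl
  have e2 : ∀ j, (b' j : A) * (u : A) = ∑ i, trc K ((b i : A) * ((b' j : A) * (u : A))) • (b' i : A) := by
    intro j
    have := b'.sum_repr (b' j * u)
    have h3 := congrArg (Subtype.val) this
    push_cast at h3
    refine h3.symm.trans (Finset.sum_congr rfl fun i _ => ?_)
    rw [h2]
    rfl
  calc ∑ i, ((u : A) * (b i : A)) * x * (b' i : A)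
      = ∑ i, ∑ j, trc K ((u : A) * (b i : A) * (b' j : A)) • ((b j : A) * x * (b' i : A)) := by
        refine Finset.sum_congr rfl fun i _ => ?_
        conv_lhs => rw [e1 i]
        rw [Finset.sum_mul, Finset.sum_mul]
        exact Finset.sum_congr rfl fun j _ => by rw [smul_mul_assoc, smul_mul_assoc]
    _ = ∑ j, ∑ i, trc K ((u : A) * (b i : A) * (b' j : A)) • ((b j : A) * x * (b' i : A)) :=
        Finset.sum_comm
    _ = ∑ j, (b j : A) * x * ((b' j : A) * (u : A)) := by
        refine Finset.sum_congr rfl fun j _ => ?_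
        conv_rhs => rw [e2 j]
        rw [Finset.mul_sum]
        refine Finset.sum_congr rfl fun i _ => ?_
        rw [mul_smul_comm, mul_assoc (u : A), tr_mul_comm (u : A), mul_assoc (b i : A)]

omit [IsDomain A] [Module.Finite K A] [CharZero K] in
/-- the trace of an operator on a subalgebra -/
theorem trace_eq_sum_dual (U : Subalgebra K A) {ι : Type} [Fintype ι] [DecidableEq ι]
    (b b' : Basis ι K U)
    (h1 : ∀ (x : U) i, b.repr x i = trc K ((x : A) * (b' i : A))) (f : U →ₗ[K] U) :
    LinearMap.trace K U f = ∑ i, trc K ((f (b i) : A) * (b' i : A)) := by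
  rw [LinearMap.trace_eq_matrix_trace K b, Matrix.trace]
  refine Finset.sum_congr rfl fun i _ => ?_
  rw [Matrix.diag_apply, LinearMap.toMatrix_apply, h1]

omit [CharZero K] in
/-- the trace of `A` restricted to a subalgebra -/
theorem tr_subalgebra (U : Subalgebra K A) (u : U) :
    (finrank K U : K) * trc K (u : A) = (finrank K A : K) * trc K u := by
  let _ : DivisionRing U := divisionRingOfFiniteDimensional K U
  have : Module.Finite U A := Module.Finite.of_restrictScalars_finite K U A
  set b := Module.finBasis K U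
  set c := Module.finBasis U A
  have e1 : trc K (u : A) = (finrank U A : K) * trc K u := by
    have h1 : trc K (u : A) = ∑ p : Fin (finrank K U) × Fin (finrank U A),
        (b.smulTower c).repr ((u : A) * (b.smulTower c) p) p := by
      rw [tr_apply, LinearMap.trace_eq_matrix_trace K (b.smulTower c), Matrix.trace]
      refine Finset.sum_congr rfl fun p _ => ?_
      rw [Matrix.diag_apply, LinearMap.toMatrix_apply]
      rfl
    have h2 : trc K u = ∑ i, b.repr (u * b i) i := by
      rw [tr_apply, LinearMap.trace_eq_matrix_trace K b, Matrix.trace]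
      refine Finset.sum_congr rfl fun p _ => ?_
      rw [Matrix.diag_apply, LinearMap.toMatrix_apply]
      rfl
    rw [h1, h2, Fintype.sum_prod_type, Finset.sum_comm]
    have h3 : ∀ j : Fin (finrank U A), ∑ i, (b.smulTower c).repr
        ((u : A) * (b.smulTower c) (i, j)) (i, j) = ∑ i, b.repr (u * b i) i := by
      intro j
      refine Finset.sum_congr rfl fun i _ => ?_
      rw [Basis.smulTower_apply, Basis.smulTower_repr]
      have e : (u : A) * (b i • c j) = (u * b i) • c j := by
        rw [mul_smul]
        rfl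
      rw [e, map_smul]
      simp
    rw [Finset.sum_congr rfl fun j _ => h3 j, Finset.sum_const, Finset.card_univ,
      Fintype.card_fin, nsmul_eq_mul]
  have e2 : (finrank K A : K) = (finrank K U : K) * (finrank U A : K) := by
    rw [← Nat.cast_mul, Module.finrank_mul_finrank K U A]
  rw [e1, e2]
  ring

/-- `[W, ·]` -/
def ad (K : Type) {A : Type} [Field K] [Ring A] [Algebra K A] (W : A) : A →ₗ[K] A :=
  LinearMap.mulLeft K W - LinearMap.mulRight K W

omit [IsDomain A] [Module.Finite K A] [CharZero K] in
theorem ad_apply (W y : A) : ad K W y = W * y - y * W := rfl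

omit [IsDomain A] [Module.Finite K A] [CharZero K] in
theorem tr_ad (W x y : A) : trc K (ad K W y * x) = - trc K (y * ad K W x) := by
  rw [ad_apply, ad_apply, sub_mul, mul_sub, map_sub, map_sub, neg_sub]
  congr 1
  · rw [mul_assoc, tr_mul_comm, mul_assoc]
  · rw [mul_assoc]

/-- the complement of the centraliser is the image of `ad` -/
theorem perp_centralizer (W : A) :
    perp (Subalgebra.toSubmodule (Subalgebra.centralizer K {W})) = LinearMap.range (ad K W) := by
  have h1 : perp (LinearMap.range (ad K W)) =
      Subalgebra.toSubmodule (Subalgebra.centralizer K {W}) := by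
    ext x
    rw [mem_perp, Subalgebra.mem_toSubmodule, Subalgebra.mem_centralizer_iff]
    constructor
    · intro h g hg
      rw [Set.mem_singleton_iff] at hg
      subst hg
      have h2 : ad K g x = 0 := by
        refine tr_nondeg (⊤ : Subalgebra K A) trivial fun y _ => ?_
        have := h (ad K g y) ⟨y, rfl⟩
        rw [tr_ad, neg_eq_zero] at this
        exact this
      rw [ad_apply, sub_eq_zero] at h2
      exact h2
    · rintro h _ ⟨y, rfl⟩
      rw [tr_ad, ad_apply, h W rfl, sub_self, mul_zero, map_zero, neg_zero]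
  rw [← h1, perp_perp]

omit [IsDomain A] [Module.Finite K A] [CharZero K] in
theorem mem_centralizer_singleton {W x : A} :
    x ∈ Subalgebra.centralizer K ({W} : Set A) ↔ W * x = x * W := by
  rw [Subalgebra.mem_centralizer_iff]
  simp

/-- if the projection to the centraliser vanishes, it is a commutator -/
theorem exists_ad_of_pr_eq_zero {W x : A} (h : pr (Subalgebra.centralizer K {W}) x = 0) :
    ∃ y, ad K W y = x := by
  have h1 : x ∈ perp (Subalgebra.toSubmodule (Subalgebra.centralizer K {W})) :=
    fun u hu => (pr_eq_zero_iff _).1 h u hu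
  rw [perp_centralizer] at h1
  exact h1

theorem pr_ad (W y : A) : pr (Subalgebra.centralizer K {W}) (ad K W y) = 0 := by
  rw [pr_eq_zero_iff]
  intro u hu
  rw [tr_mul_comm, tr_ad, ad_apply, mem_centralizer_singleton.1 hu, sub_self, mul_zero, map_zero,
    neg_zero]

end dom

section gs

variable {A : Type} [Ring A]

/-- `∑_{i<j} W^i y W^(j-1-i)` -/
def gs (W y : A) : ℕ → A
  | 0 => 0
  | j + 1 => gs W y j * W + W ^ j * y

theorem gs_zero_right (W : A) (j : ℕ) : gs W 0 j = 0 := by
  induction j with
  | zero => rfl
  | succ j ih => simp [gs, ih]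

theorem gs_add (W y z : A) (j : ℕ) : gs W (y + z) j = gs W y j + gs W z j := by
  induction j with
  | zero => simp [gs]
  | succ j ih => simp only [gs, ih, add_mul, mul_add]; abel

theorem gs_mul_right (W y z : A) (h : W * z = z * W) (j : ℕ) : gs W (y * z) j = gs W y j * z := by
  induction j with
  | zero => simp [gs]
  | succ j ih => simp only [gs, ih, add_mul]; rw [mul_assoc, ← h, mul_assoc, mul_assoc]

theorem gs_mul_left (W y z : A) (h : W * z = z * W) (j : ℕ) : gs W (z * y) j = z * gs W y j := by
  have hc : ∀ k : ℕ, W ^ k * z = z * W ^ k := fun k => (Commute.pow_left h k).eq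
  induction j with
  | zero => simp [gs]
  | succ j ih =>
    simp only [gs, ih, mul_add]
    rw [mul_assoc, ← mul_assoc (W ^ j), hc j, mul_assoc]

theorem gs_eq_sum (W y : A) (j : ℕ) :
    gs W y j = ∑ i ∈ Finset.range j, W ^ i * y * W ^ (j - 1 - i) := by
  induction j with
  | zero => simp [gs]
  | succ j ih =>
    rw [gs, ih, Finset.sum_range_succ, Finset.sum_mul]
    congr 1
    · refine Finset.sum_congr rfl fun i hi => ?_
      rw [Finset.mem_range] at hi
      rw [mul_assoc, ← pow_succ]
      congr 2
      omega
    · simp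

theorem gs_bracket (W y : A) (j : ℕ) : gs W (W * y - y * W) j = W ^ j * y - y * W ^ j := by
  induction j with
  | zero => simp [gs]
  | succ j ih =>
    simp only [gs, ih, pow_succ, sub_mul, mul_sub]
    simp only [← mul_assoc]
    abel

theorem gs_comm (W y : A) (h : W * y = y * W) (j : ℕ) :
    gs W y (j + 1) = (j + 1 : ℕ) • (W ^ j * y) := by
  have hc : ∀ k : ℕ, W ^ k * y = y * W ^ k := fun k => (Commute.pow_left h k).eq
  induction j with
  | zero => simp [gs]
  | succ j ih =>
    rw [gs, ih, smul_mul_assoc, mul_assoc, ← h, ← mul_assoc, ← pow_succ, succ_nsmul _ (j + 1)]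

end gs

section Dp

variable {K A : Type} [Field K] [Ring A] [Algebra K A]

/-- the derivative of `p` at `W` in the direction `y` -/
noncomputable def Dp (p : K[X]) (W y : A) : A := p.sum fun j c => c • gs W y j

theorem Dp_add (p q : K[X]) (W y : A) : Dp (p + q) W y = Dp p W y + Dp q W y := by
  unfold Dp
  exact Polynomial.sum_add_index _ _ _ (fun _ => zero_smul _ _) (fun _ _ _ => add_smul _ _ _)

theorem Dp_monomial (n : ℕ) (c : K) (W y : A) : Dp (monomial n c) W y = c • gs W y n := by
  unfold Dp
  exact Polynomial.sum_monomial_index _ _ (zero_smul _ _)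

theorem Dp_add_right (p : K[X]) (W y z : A) : Dp p W (y + z) = Dp p W y + Dp p W z := by
  induction p using Polynomial.induction_on' with
  | add p q hp hq => rw [Dp_add, Dp_add, Dp_add, hp, hq]; abel
  | monomial n c => rw [Dp_monomial, Dp_monomial, Dp_monomial, gs_add, smul_add]

theorem Dp_zero_right (p : K[X]) (W : A) : Dp p W 0 = 0 := by
  have := Dp_add_right p W 0 0
  rw [add_zero] at this
  exact left_eq_add.1 this

theorem Dp_mul_right (p : K[X]) (W y z : A) (h : W * z = z * W) :
    Dp p W (y * z) = Dp p W y * z := by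
  induction p using Polynomial.induction_on' with
  | add p q hp hq => rw [Dp_add, Dp_add, hp, hq, add_mul]
  | monomial n c => rw [Dp_monomial, Dp_monomial, gs_mul_right W y z h, smul_mul_assoc]

theorem Dp_mul_left (p : K[X]) (W y z : A) (h : W * z = z * W) :
    Dp p W (z * y) = z * Dp p W y := by
  induction p using Polynomial.induction_on' with
  | add p q hp hq => rw [Dp_add, Dp_add, hp, hq, mul_add]
  | monomial n c => rw [Dp_monomial, Dp_monomial, gs_mul_left W y z h, mul_smul_comm]

theorem Dp_ad (p : K[X]) (W y : A) :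
    Dp p W (ad K W y) = aeval W p * y - y * aeval W p := by
  rw [ad_apply]
  induction p using Polynomial.induction_on' with
  | add p q hp hq => rw [Dp_add, hp, hq, map_add]; simp only [add_mul, mul_add]; abel
  | monomial n c =>
    rw [Dp_monomial, gs_bracket, aeval_monomial, smul_sub, Algebra.smul_def, Algebra.smul_def,
      ← mul_assoc, ← mul_assoc, ← mul_assoc, Algebra.commutes c y]

theorem Dp_comm (p : K[X]) (W y : A) (h : W * y = y * W) :
    Dp p W y = aeval W (derivative p) * y := by
  induction p using Polynomial.induction_on' with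
  | add p q hp hq => rw [Dp_add, hp, hq, map_add, map_add, add_mul]
  | monomial n c =>
    rw [Dp_monomial, derivative_monomial, aeval_monomial]
    cases n with
    | zero => simp [gs]
    | succ n =>
      rw [gs_comm W y h n, Nat.add_sub_cancel, map_mul, map_natCast, Algebra.smul_def,
        nsmul_eq_mul]
      simp only [mul_assoc]

end Dp

section Dp2

variable {K A : Type} [Field K] [Ring A] [IsDomain A] [Algebra K A] [Module.Finite K A]
  [CharZero K]

/-- `D_p = p'(W) π_{C(W)}` if `p(W) = 0` -/
theorem Dp_eq (p : K[X]) (W y : A) (hp : aeval W p = 0) :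
    Dp p W y = aeval W (derivative p) * pr (Subalgebra.centralizer K {W}) y := by
  set y₀ := pr (Subalgebra.centralizer K {W}) y with hy₀
  have h1 : pr (Subalgebra.centralizer K {W}) (y - y₀) = 0 := by
    rw [map_sub, pr_of_mem _ (pr_mem _ y), sub_self]
  obtain ⟨z, hz⟩ := exists_ad_of_pr_eq_zero h1
  have h2 : y = y₀ + ad K W z := by rw [hz]; abel
  have h3 : W * y₀ = y₀ * W := mem_centralizer_singleton.1 (pr_mem _ y)
  rw [h2, Dp_add_right, Dp_comm p W y₀ h3, Dp_ad, hp, zero_mul, mul_zero, sub_self, add_zero]

/-- `m'(W) ≠ 0` for the minimal polynomial -/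
theorem aeval_derivative_minpoly_ne_zero (W : A) :
    aeval W (derivative (minpoly K W)) ≠ 0 := by
  intro h
  have hint : IsIntegral K W := Algebra.IsIntegral.isIntegral W
  have h1 : derivative (minpoly K W) ≠ 0 := by
    intro h0
    have h2 := derivative_eq_zero.1 h0
    exact (minpoly.natDegree_pos hint).ne' h2
  have h2 := minpoly.degree_le_of_ne_zero K W h1 h
  have h3 := degree_derivative_lt (minpoly.ne_zero hint)
  exact absurd h2 (not_le.2 h3)

/-- `pr U` is the orthogonal projection -/
theorem isProj_pr (U : Subalgebra K A) : IsProj (Subalgebra.toSubmodule U) (pr U) := by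
  refine ⟨fun a => pr_mem U a, fun a u hu => ?_⟩
  rw [tr_mul_comm, tr_mul_pr U hu, tr_mul_comm]

/-- `proj = pr` on subalgebras -/
theorem proj_eq_pr (U : Subalgebra K A) : proj (Subalgebra.toSubmodule U) = pr U := by
  have h : ∃ π, IsProj (Subalgebra.toSubmodule U) π := ⟨_, isProj_pr U⟩
  unfold proj
  rw [dif_pos h]
  refine LinearMap.ext fun a => ?_
  refine (pr_unique U (h.choose_spec.1 a) fun u hu => ?_).symm
  rw [tr_mul_comm, h.choose_spec.2 a u hu, tr_mul_comm]

theorem proj_Lf (W : A) : proj (Subalgebra.toSubmodule (Lf K W)) = pr (Lf K W) := proj_eq_pr _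

theorem proj_Mf (W : A) : proj (Subalgebra.toSubmodule (Mf K W)) = pr (Mf K W) := proj_eq_pr _

/-- `L ≤ M` -/
theorem Lf_le_Mf (W : A) : Lf K W ≤ Mf K W := by
  refine Algebra.adjoin_le ?_
  intro x hx
  rw [Set.mem_singleton_iff] at hx
  subst hx
  exact mem_centralizer_singleton.2 rfl

theorem Lf_comm (W : A) {x y : A} (hx : x ∈ Lf K W) (hy : y ∈ Lf K W) : x * y = y * x := by
  have h1 : Lf K W ≤ Subalgebra.centralizer K {x} := by
    refine Algebra.adjoin_le ?_
    intro z hz
    rw [Set.mem_singleton_iff] at hz
    subst hz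
    exact mem_centralizer_singleton.2 (mem_centralizer_singleton.1 (Lf_le_Mf z hx)).symm
  exact mem_centralizer_singleton.1 (h1 hy)

end Dp2

end Vale.Agent.P199K
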