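import Vale.Agent.P199K.ResLS
import Vale.Agent.P199K.Tr

/-!
# P199, section 3: residues of products, subalgebras, traces and projections (helper95)
-/

namespace Vale.Agent.P199K

variable {K A : Type} [Field K] [Ring A] [Algebra K A]

/-- (r2) -/
theorem res_mul_le (U V : Submodule (LS K) (LS A)) : res U * res V ≤ res (U * V) := by
  rw [Submodule.mul_le]
  intro a ha b hb
  obtain ⟨x, hx, hxi, rfl⟩ := (mem_res _ _).1 ha
  obtain ⟨y, hy, hyi, rfl⟩ := (mem_res _ _).1 hb
  exact (mem_res _ _).2 ⟨x * y, Submodule.mul_mem_mul hx hy, LS.Intg.mul hxi hyi,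
    LS.coeff_mul_zero hxi hyi⟩

theorem res_pow_le (U : Submodule (LS K) (LS A)) (k : ℕ) : res U ^ k ≤ res (U ^ k) := by
  induction k with
  | zero =>
    rw [pow_zero, pow_zero, Submodule.one_le]
    exact (mem_res _ _).2 ⟨1, Submodule.one_le.1 le_rfl, LS.Intg.one, by rw [LS.coeff_one, if_pos rfl]⟩
  | succ k ih =>
    rw [pow_succ, pow_succ]
    exact (mul_le_mul' ih le_rfl).trans (res_mul_le _ _)

/-- the residue algebra of a subalgebra -/
noncomputable def resA (U : Subalgebra (LS K) (LS A)) : Subalgebra K A where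
  carrier := res (Subalgebra.toSubmodule U)
  mul_mem' := fun {a b} ha hb => by
    obtain ⟨x, hx, hxi, rfl⟩ := (mem_res _ _).1 ha
    obtain ⟨y, hy, hyi, rfl⟩ := (mem_res _ _).1 hb
    exact (mem_res _ _).2 ⟨x * y, U.mul_mem hx hy, LS.Intg.mul hxi hyi, LS.coeff_mul_zero hxi hyi⟩
  add_mem' := fun ha hb => Submodule.add_mem _ ha hb
  algebraMap_mem' := fun c => (mem_res _ _).2 ⟨algebraMap (LS K) (LS A) (LS.C c), U.algebraMap_mem _,
    by rw [LS.algebraMap_C]; exact LS.Intg.C _, by rw [LS.algebraMap_C]; exact LS.coeff_C_zero _⟩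

theorem toSubmodule_resA (U : Subalgebra (LS K) (LS A)) :
    Subalgebra.toSubmodule (resA U) = res (Subalgebra.toSubmodule U) := rfl

theorem mem_resA {U : Subalgebra (LS K) (LS A)} {a : A} :
    a ∈ resA U ↔ ∃ x ∈ U, LS.Intg x ∧ LS.coeff x 0 = a := mem_res _ _

theorem coeff_mem_resA {U : Subalgebra (LS K) (LS A)} {x : LS A} (hx : x ∈ U) (hi : LS.Intg x) :
    LS.coeff x 0 ∈ resA U := mem_resA.2 ⟨x, hx, hi, rfl⟩

/-- the trace is coefficientwise -/
theorem coeff_basis_repr {ι : Type} [Fintype ι] (b : Module.Basis ι K A) (x : LS A) (i : ι)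
    (n : ℤ) : LS.coeff ((LS.basis b).repr x i) n = b.repr (LS.coeff x n) i := by
  have h1 : LS.coeff x n = ∑ i, LS.coeff ((LS.basis b).repr x i) n • b i := by
    conv_lhs => rw [← (LS.basis b).sum_repr x]
    rw [LS.coeff_sum]
    refine Finset.sum_congr rfl fun i _ => ?_
    rw [LS.basis_apply, LS.coeff_smul_C]
  rw [h1, b.repr_sum_self]

theorem coeff_trc [Module.Finite K A] (x : LS A) (n : ℤ) :
    LS.coeff (trc (LS K) x) n = trc K (LS.coeff x n) := by
  set b := Module.finBasis K A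
  rw [tr_apply, tr_apply, LinearMap.trace_eq_matrix_trace (LS K) (LS.basis b),
    LinearMap.trace_eq_matrix_trace K b, Matrix.trace, Matrix.trace, LS.coeff_sum]
  refine Finset.sum_congr rfl fun i _ => ?_
  rw [Matrix.diag_apply, Matrix.diag_apply, LinearMap.toMatrix_apply, LinearMap.toMatrix_apply,
    coeff_basis_repr, LS.basis_apply, LinearMap.mulLeft_apply, LinearMap.mulLeft_apply,
    LS.coeff_mul_C]

variable [IsDomain A] [Module.Finite K A] [CharZero K]

/-- (r3) the projection onto a subalgebra preserves integrality -/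
theorem intg_pr [Module.Finite (LS K) (LS A)] [CharZero (LS K)] (U : Subalgebra (LS K) (LS A))
    {x : LS A} (hx : LS.Intg x) : LS.Intg (pr U x) := by
  by_cases h0 : pr U x = 0
  · rw [h0]; exact LS.Intg.zero
  obtain ⟨n, g, hg, hgi, hg0⟩ := LS.exists_eq_tp_mul h0
  have hgU : g ∈ U := by
    have h1 : g = algebraMap (LS K) (LS A) (LS.tp (-n)) * pr U x := by
      rw [hg, LS.algebraMap_tp (K := K) (A := A), ← mul_assoc, ← LS.tp_add, neg_add_cancel, LS.tp_zero, one_mul]
    rw [h1]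
    exact U.mul_mem (U.algebraMap_mem _) (pr_mem U x)
  rcases le_or_gt 0 n with hn | hn
  · rw [hg]
    exact LS.Intg.mul (LS.Intg.tp hn) hgi
  exfalso
  apply hg0
  refine tr_nondeg (resA U) (coeff_mem_resA hgU hgi) fun v hv => ?_
  obtain ⟨u, hu, hui, rfl⟩ := mem_resA.1 hv
  rw [← LS.coeff_mul_zero hui hgi, ← coeff_trc]
  have h1 : trc (LS K) (u * g) = LS.tp (-n) * trc (LS K) (u * x) := by
    have h2 : u * g = (LS.tp (-n) : LS K) • (u * pr U x) := by
      have h3 : g = (LS.tp (-n) : LS A) * pr U x := by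
        rw [hg, ← mul_assoc, ← LS.tp_add, neg_add_cancel, LS.tp_zero, one_mul]
      rw [LS.smul_def, LS.map_tp, ← mul_assoc, LS.tp_comm, mul_assoc, ← h3]
    rw [h2, map_smul, tr_mul_pr U hu, smul_eq_mul]
  rw [h1, LS.coeff_tp_mul, coeff_trc]
  have h3 : LS.coeff (u * x) (0 - -n) = 0 := LS.Intg.mul hui hx _ (by omega)
  rw [h3, map_zero]

/-- (r3) the residue of the projection is the projection of the residue -/
theorem coeff_pr [Module.Finite (LS K) (LS A)] [CharZero (LS K)] (U : Subalgebra (LS K) (LS A))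
    {x : LS A} (hx : LS.Intg x) : LS.coeff (pr U x) 0 = pr (resA U) (LS.coeff x 0) := by
  refine (pr_unique (resA U) (coeff_mem_resA (pr_mem U x) (intg_pr U hx)) fun v hv => ?_).symm
  obtain ⟨u, hu, hui, rfl⟩ := mem_resA.1 hv
  rw [← LS.coeff_mul_zero hui (intg_pr U hx), ← LS.coeff_mul_zero hui hx, ← coeff_trc, ← coeff_trc,
    tr_mul_pr U hu]

end Vale.Agent.P199K
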