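import Vale.Agent.P199K.ResStmt
import Vale.Agent.P199K.ResPr
import Vale.Agent.P199K.ExpF

/-!
# P199, module CN_reach (helper88): expansions of `N`-triples are `N`-triples

`Adm.trc_mul`: the trace of `ι a * j e` is `κ (T a) * T e`.
-/

open scoped TensorProduct LaurentSeries
open PowerSeries

namespace Vale.Agent.P199K

theorem trc_eq_sum {K A ι' : Type} [Field K] [Ring A] [Algebra K A] [Fintype ι'] [DecidableEq ι']
    (b : Module.Basis ι' K A) (x : A) : trc K x = ∑ i, b.repr (x * b i) i := by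
  rw [tr_apply, LinearMap.trace_eq_matrix_trace K b, Matrix.trace]
  refine Finset.sum_congr rfl (fun i _ => ?_)
  rw [Matrix.diag_apply, LinearMap.toMatrix_apply, LinearMap.mulLeft_apply]

section AdmTr
variable {K A K₁ E₁ A₁ : Type} [Field K] [Ring A] [Algebra K A] [FiniteDimensional K A] [Field K₁] [Ring E₁]
  [Ring A₁] [Algebra K₁ E₁] [Algebra K₁ A₁]

/-- the trace of `ι a * j e` -/
theorem Adm.trc_mul_cn {κ : K →+* K₁} {ι : A →+* A₁} {j : E₁ →ₐ[K₁] A₁} {m : ℕ} (h : Adm κ ι j m)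
    (a : A) (e : E₁) : trc K₁ (ι a * j e) = κ (trc K a) * trc K₁ e := by
  classical
  have := h.fdE
  set b := Module.finBasis K A with hb
  set f := Module.finBasis K₁ E₁ with hf
  set B := (Pi.basis (fun _ : Fin (Module.finrank K A) => f)).map h.admfEquiv with hB
  have hBapp : ∀ s : (Σ _ : Fin (Module.finrank K A), Fin (Module.finrank K₁ E₁)),
      B s = ι (b s.1) * j (f s.2) := by
    intro s
    rw [hB, Module.Basis.map_apply, Pi.basis_apply, h.admfEquiv_apply,
      Finset.sum_eq_single s.1]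
    · rw [Pi.single_eq_same]
    · intro i _ hi
      rw [Pi.single_eq_of_ne hi, map_zero, mul_zero]
    · intro hi
      exact absurd (Finset.mem_univ _) hi
  have hmul : ∀ s : (Σ _ : Fin (Module.finrank K A), Fin (Module.finrank K₁ E₁)),
      ι a * j e * B s = h.admfEquiv (fun p => κ (b.repr (a * b s.1) p) • (e * f s.2)) := by
    intro s
    rw [h.admfEquiv_apply, hBapp]
    have e1 : ι a * j e * (ι (b s.1) * j (f s.2)) = ι (a * b s.1) * j (e * f s.2) := by
      rw [map_mul, map_mul, mul_assoc, ← mul_assoc (j e), ← h.comm (b s.1) e]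
      simp only [mul_assoc]
    rw [e1]
    conv_lhs => rw [← b.sum_repr (a * b s.1), map_sum, Finset.sum_mul]
    refine Finset.sum_congr rfl (fun p _ => ?_)
    rw [h.admf_smul, smul_mul_assoc, map_smul, mul_smul_comm]
  rw [trc_eq_sum B, trc_eq_sum b, trc_eq_sum f, map_sum, Finset.sum_mul_sum,
    Fintype.sum_sigma]
  refine Finset.sum_congr rfl (fun i _ => Finset.sum_congr rfl (fun l _ => ?_))
  rw [hmul, hB, Module.Basis.map_repr, LinearEquiv.trans_apply, LinearEquiv.symm_apply_apply,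
    Pi.basis_repr, map_smul, Finsupp.smul_apply, smul_eq_mul]

theorem Adm.trc_ι {κ : K →+* K₁} {ι : A →+* A₁} {j : E₁ →ₐ[K₁] A₁} {m : ℕ} (h : Adm κ ι j m)
    (a : A) : trc K₁ (ι a) = κ (trc K a) * (m ^ 2 : ℕ) := by
  have := h.fdE
  have h1 := h.trc_mul_cn a 1
  rw [map_one, mul_one, tr_one, h.finE] at h1
  exact h1

end AdmTr

namespace Trip
variable {S : Stg} (w₀ : NPS (Fin 2) S.A)

theorem CN_expand_of (P : Trip S) (d : ExpD P.K P.A P.σ) (h : P.CN w₀) :
    (P.expand d).CN w₀ := by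
  classical
  have hfd : FiniteDimensional d.K₁ d.A₁ := d.adm.fdA
  have hcz : CharZero d.K₁ := charZero_of_injective_ringHom d.κ.injective
  have hfd2 : FiniteDimensional (LS d.K₁) (LS d.A₁) := fd_ls
  have hcz2 : CharZero (LS d.K₁) := charZero_ls
  rw [CN_expand]
  -- a nonzero trace downstairs
  obtain ⟨δ, u, hu, hne⟩ : ∃ (δ : P.σ → P.K) (u : P.A), u ∈ Lf P.K ((P.Psi w₀) []) ∧
      trc P.K (u * lin P.K (P.Psi w₀) δ) ≠ 0 := by
    by_contra hcon
    push Not at hcon
    refine h ?_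
    unfold calL
    rw [LinearMap.range_eq_bot]
    refine LinearMap.ext (fun δ => ?_)
    rw [LinearMap.comp_apply, LinearMap.zero_apply, proj_eq_pr, pr_eq_zero_iff]
    exact fun u hu => hcon δ u hu
  -- lift of `u`
  obtain ⟨u', hu', hui, hu0⟩ := (mem_res _ _).1 (ι_mem_res w₀ P d u hu)
  -- the direction upstairs
  set c := d.ε.repr (1 : d.E₁) with hc
  set δ' : P.σ × d.B → LS d.K₁ := fun s => LS.C (d.κ (δ s.1) * c s.2) with hδ'
  set y := lin (LS d.K₁) (wx w₀ P d) δ' with hy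
  have hycoeff : ∀ n : ℤ, LS.coeff y n = ∑ s : P.σ × d.B,
      (d.κ (δ s.1) * c s.2) • LS.coeff ((wx w₀ P d) [s]) n := by
    intro n
    rw [hy]
    show LS.coeff (∑ s, δ' s • (wx w₀ P d) [s]) n = _
    rw [LS.coeff_sum]
    refine Finset.sum_congr rfl (fun s _ => ?_)
    rw [hδ', LS.coeff_C_smul]
  have hy0 : ∀ n : ℤ, n < 1 → LS.coeff y n = 0 := by
    intro n hn
    rw [hycoeff]
    refine Finset.sum_eq_zero (fun s _ => ?_)
    have := exp_ord d.ι (d.j : d.E₁ →+* d.A₁) (P.d_comm d) d.ε d.p d.hp (P.Psi w₀) [s] n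
      (by simpa using hn)
    have h2 : LS.coeff ((wx w₀ P d) [s]) n = 0 := this
    rw [h2, smul_zero]
  have hyi : LS.Intg y := fun n hn => hy0 n (by omega)
  have hy1 : LS.coeff y 1 = d.ι (lin P.K (P.Psi w₀) δ) := by
    rw [hycoeff]
    have h1 : ∀ s : P.σ × d.B, LS.coeff ((wx w₀ P d) [s]) 1
        = d.ι ((P.Psi w₀) [s.1]) * d.j (d.ε s.2) := fun s =>
      exp_single_one d.ι (d.j : d.E₁ →+* d.A₁) (P.d_comm d) d.ε d.p d.hp (P.Psi w₀) s.1 s.2
    rw [Fintype.sum_prod_type]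
    show _ = d.ι (∑ γ, δ γ • (P.Psi w₀) [γ])
    rw [map_sum]
    refine Finset.sum_congr rfl (fun γ _ => ?_)
    have h2 : ∑ β, c β • d.ε β = (1 : d.E₁) := d.ε.sum_repr 1
    rw [d.adm.admf_smul]
    calc ∑ β, (d.κ (δ (γ, β).1) * c (γ, β).2) • LS.coeff ((wx w₀ P d) [(γ, β)]) 1
        = ∑ β, (d.κ (δ γ)) • (d.ι ((P.Psi w₀) [γ]) * d.j (c β • d.ε β)) := by
          refine Finset.sum_congr rfl (fun β _ => ?_)
          rw [h1, map_smul, mul_smul_comm, smul_smul]
      _ = (d.κ (δ γ)) • (d.ι ((P.Psi w₀) [γ]) * d.j (∑ β, c β • d.ε β)) := by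
          rw [map_sum, Finset.mul_sum, Finset.smul_sum]
      _ = (d.κ (δ γ)) • d.ι ((P.Psi w₀) [γ]) := by
          rw [h2, map_one, mul_one]
  -- the trace upstairs
  have htr : LS.coeff (trc (LS d.K₁) (u' * y)) 1 ≠ 0 := by
    rw [coeff_trc, LS.coeff_mul_one hui hyi, hy0 0 (by norm_num), mul_zero, add_zero, hu0, hy1,
      ← map_mul, d.adm.trc_ι]
    refine mul_ne_zero ?_ ?_
    · exact (map_ne_zero_iff _ d.κ.injective).2 hne
    · have hm := d.adm.pos
      exact_mod_cast (pow_pos hm 2).ne'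
  intro hbot
  apply htr
  have h3 : pr (Lf (LS d.K₁) ((wx w₀ P d) [])) y = 0 := by
    have h4 : proj (Subalgebra.toSubmodule (Lf (LS d.K₁) ((wx w₀ P d) []))) y
        ∈ calL (LS d.K₁) (wx w₀ P d) := ⟨δ', rfl⟩
    rw [hbot, Submodule.mem_bot, proj_eq_pr] at h4
    exact h4
  have h5 := (pr_eq_zero_iff _).1 h3 u' hu'
  rw [h5]
  exact LS.coeff_zero 1

theorem CN_reach_proved (P Q : Trip S) (h : P.CN w₀) (hr : Reach P Q) : Q.CN w₀ := by
  induction hr with
  | refl => exact h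
  | step Q' d _ ih => exact CN_expand_of w₀ Q' d ih

end Trip

end Vale.Agent.P199K
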