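import Vale.Agent.P199K.Limit

/-!
# P199: a chain of countable stages in which everything becomes algebraic
-/

namespace P199K

variable {P : Stage → Prop}

/-- transition maps of a chain -/
def tr {S : ℕ → Stage} (f : ∀ n, (S n).Hom (S (n + 1))) {n m : ℕ} (h : n ≤ m) :
    (S n).Hom (S m) :=
  Nat.leRec (motive := fun m _ => (S n).Hom (S m)) (Stage.Hom.id _) (fun k _ g => (f k).comp g) h

theorem tr_self {S : ℕ → Stage} (f : ∀ n, (S n).Hom (S (n + 1))) (n : ℕ) :
    tr f (le_refl n) = Stage.Hom.id _ := by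
  unfold tr
  rw [Nat.leRec_self]

theorem tr_succ {S : ℕ → Stage} (f : ∀ n, (S n).Hom (S (n + 1))) {n m : ℕ} (h : n ≤ m)
    (h' : n ≤ m + 1) : tr f h' = (f m).comp (tr f h) := by
  unfold tr
  rw [Nat.leRec_succ]

theorem tr_tr {S : ℕ → Stage} (f : ∀ n, (S n).Hom (S (n + 1))) {n m k : ℕ} (h : n ≤ m)
    (h' : m ≤ k) : (tr f h').comp (tr f h) = tr f (h.trans h') := by
  induction k, h' using Nat.le_induction with
  | base => rw [tr_self]; rfl
  | succ k hk ih =>
    rw [tr_succ f hk, tr_succ f (h.trans hk), ← ih]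
    rfl

/-- a stage with a list of tasks -/
structure State (P : Stage → Prop) where
  s : Stage
  hs : CStage P s
  e : ℕ → ℕ → s.gen

theorem exists_chain (h0 : ∃ s, P s)
    (h1 : ∀ s, P s → ∀ w ∈ s.gen, ∃ t, P t ∧ ∃ f : s.Hom t, IsAlgebraic t.K (f.φ w))
    (h2 : ∀ s, P s → ∀ m, ∃ t, P t ∧ Nonempty (s.Hom t) ∧ t.Large m) :
    ∃ (S : ℕ → Stage) (f : ∀ n, (S n).Hom (S (n + 1))),
      (∀ n, ∀ w ∈ (S n).gen, ∃ m, ∃ h : n ≤ m, IsAlgebraic (S m).K ((tr f h).φ w)) ∧
      ∀ n, (S (n + 1)).Large n := by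
  classical
  obtain ⟨s0, hs0⟩ := exists_cstage h0
  have hex : ∀ s, CStage P s → ∃ e : ℕ → s.gen, Function.Surjective e := fun s hs => by
    have := hs.countable_gen
    exact exists_surjective_nat _
  choose enum henum using hex
  choose nx hnx fx hfx hLx using step h1 h2
  -- the successor of a state
  let w : ℕ → ∀ σ : State P, σ.s.gen := fun n σ => σ.e n.unpair.1 n.unpair.2
  let suc : ℕ → State P → State P := fun n σ =>
    ⟨nx σ.s σ.hs (w n σ) (w n σ).2 n, hnx _ _ _ _ _, fun i j =>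
      if i = n + 1 then enum _ (hnx σ.s σ.hs (w n σ) (w n σ).2 n) j
      else ⟨(fx σ.s σ.hs (w n σ) (w n σ).2 n).φ (σ.e i j),
        (fx σ.s σ.hs (w n σ) (w n σ).2 n).gen_mem (σ.e i j).2⟩⟩
  let σ : ℕ → State P := fun n => Nat.rec (⟨s0, hs0, fun _ j => enum s0 hs0 j⟩ : State P) suc n
  let f : ∀ n, (σ n).s.Hom (σ (n + 1)).s := fun n => fx _ (σ n).hs (w n (σ n)) (w n (σ n)).2 n
  have halg : ∀ n, IsAlgebraic (σ (n + 1)).s.K ((f n).φ (w n (σ n))) := fun n =>
    hfx _ (σ n).hs (w n (σ n)) (w n (σ n)).2 n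
  have hlar : ∀ n, (σ (n + 1)).s.Large n := fun n => hLx _ (σ n).hs (w n (σ n)) (w n (σ n)).2 n
  have he1 : ∀ n, Function.Surjective ((σ n).e n) := by
    intro n
    cases n with
    | zero => exact henum s0 hs0
    | succ n =>
      have h3 : (σ (n + 1)).e (n + 1) = enum _ (σ (n + 1)).hs := by
        funext j
        exact if_pos rfl
      rw [h3]
      exact henum _ _
  have he2 : ∀ n i j, i ≤ n → ((σ (n + 1)).e i j : (σ (n + 1)).s.R) = (f n).φ ((σ n).e i j) := by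
    intro n i j hi
    have h3 : (σ (n + 1)).e i j = ⟨(f n).φ ((σ n).e i j), (f n).gen_mem ((σ n).e i j).2⟩ :=
      if_neg (by omega)
    rw [h3]
  have he3 : ∀ n m (h : n ≤ m) j, ((σ m).e n j : (σ m).s.R) =
      (tr (S := fun n => (σ n).s) f h).φ ((σ n).e n j) := by
    intro n m h j
    induction m, h using Nat.le_induction with
    | base => rw [tr_self]; rfl
    | succ m hm ih =>
      rw [tr_succ (S := fun n => (σ n).s) f hm, he2 m n j hm, ih]
      rfl
  refine ⟨fun n => (σ n).s, f, ?_, hlar⟩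
  intro n v hv
  obtain ⟨j, hj⟩ := he1 n ⟨v, hv⟩
  have hnm : n ≤ Nat.pair n j := Nat.left_le_pair n j
  refine ⟨Nat.pair n j + 1, hnm.trans (Nat.le_succ _), ?_⟩
  have h3 := halg (Nat.pair n j)
  have h4 : (w (Nat.pair n j) (σ (Nat.pair n j)) : (σ (Nat.pair n j)).s.R) =
      (tr (S := fun n => (σ n).s) f hnm).φ v := by
    have h5 : w (Nat.pair n j) (σ (Nat.pair n j)) = (σ (Nat.pair n j)).e n j := by
      show (σ (Nat.pair n j)).e (Nat.pair n j).unpair.1 (Nat.pair n j).unpair.2 = _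
      rw [Nat.unpair_pair]
    rw [h5, he3 n _ hnm, hj]
  rw [h4] at h3
  rw [tr_succ (S := fun n => (σ n).s) f hnm]
  exact h3

end P199K
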