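import Vale.Agent.P199K.ResDefs
import Vale.Agent.P199K.ExpF

/-! # P199: the chain rule (helper82) -/

open scoped TensorProduct LaurentSeries
open PowerSeries

namespace Vale.Agent.P199K

section Ld
variable {A : Type} [Ring A]

theorem chr_ld_add (x y : LS A) : LS.ld (x + y) = LS.ld x + LS.ld y := by
  ext n
  rw [LS.coeff_ld, LS.coeff_add, LS.coeff_add, LS.coeff_ld, LS.coeff_ld, smul_add]

theorem chr_ld_zero : LS.ld (0 : LS A) = 0 := by
  ext n
  rw [LS.coeff_ld, LS.coeff_zero, LS.coeff_zero, smul_zero]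

theorem chr_ld_sum {ι : Type} (s : Finset ι) (f : ι → LS A) :
    LS.ld (∑ i ∈ s, f i) = ∑ i ∈ s, LS.ld (f i) := by
  classical
  induction s using Finset.induction_on with
  | empty => simp [chr_ld_zero]
  | insert a s ha ih => rw [Finset.sum_insert ha, Finset.sum_insert ha, chr_ld_add, ih]

theorem chr_ld_C (a : A) : LS.ld (LS.C a) = 0 := by
  ext n
  rw [LS.coeff_ld, LS.coeff_C, LS.coeff_zero]
  split_ifs with h
  · rw [h, zero_smul]
  · rw [smul_zero]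

/-- Leibniz rule -/
theorem chr_ld_mul (x y : LS A) : LS.ld (x * y) = LS.ld x * y + x * LS.ld y := by
  obtain ⟨a, ha⟩ := LS.exists_bound x
  obtain ⟨b, hb⟩ := LS.exists_bound y
  ext n
  have ha' : ∀ n < a - 1, (LS.ld x).coeff n = 0 := fun n hn => by
    rw [LS.coeff_ld, ha _ (by omega), smul_zero]
  have hb' : ∀ n < b - 1, (LS.ld y).coeff n = 0 := fun n hn => by
    rw [LS.coeff_ld, hb _ (by omega), smul_zero]
  rw [LS.coeff_ld, LS.coeff_add, LS.coeff_mul_of_bound _ _ ha hb, LS.coeff_mul_of_bound _ _ ha' hb,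
    LS.coeff_mul_of_bound _ _ ha hb']
  have e1 : ∑ i ∈ Finset.Icc (a - 1) (n - b), (LS.ld x).coeff i * y.coeff (n - i)
      = ∑ i ∈ Finset.Icc a (n + 1 - b), i • (x.coeff i * y.coeff (n + 1 - i)) := by
    refine Finset.sum_bij (fun i _ => i + 1) ?_ ?_ ?_ ?_
    · intro i hi
      rw [Finset.mem_Icc] at hi ⊢
      omega
    · intro i _ k _ h
      omega
    · intro i hi
      rw [Finset.mem_Icc] at hi
      exact ⟨i - 1, by rw [Finset.mem_Icc]; omega, by omega⟩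
    · intro i _
      rw [LS.coeff_ld, smul_mul_assoc, show n + 1 - (i + 1) = n - i by omega]
  have e2 : ∑ i ∈ Finset.Icc a (n - (b - 1)), x.coeff i * (LS.ld y).coeff (n - i)
      = ∑ i ∈ Finset.Icc a (n + 1 - b), (n + 1 - i) • (x.coeff i * y.coeff (n + 1 - i)) := by
    rw [show n - (b - 1) = n + 1 - b by omega]
    refine Finset.sum_congr rfl fun i _ => ?_
    rw [LS.coeff_ld, mul_smul_comm, show n - i + 1 = n + 1 - i by omega]
  rw [e1, e2, Finset.smul_sum, ← Finset.sum_add_distrib]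
  refine Finset.sum_congr rfl fun i _ => ?_
  rw [← add_smul]
  congr 1
  omega

theorem chr_mul_bound {x y : LS A} {a b : ℤ} (ha : ∀ n < a, x.coeff n = 0)
    (hb : ∀ n < b, y.coeff n = 0) : ∀ n < a + b, (x * y).coeff n = 0 := by
  intro n hn
  rw [LS.coeff_mul_of_bound _ _ ha hb, Finset.Icc_eq_empty (by omega), Finset.sum_empty]

end Ld

section Core
variable {A σ K₁ E₁ A₁ B : Type} [Ring A] [Fintype σ] [DecidableEq σ] [Field K₁] [Ring E₁] [Ring A₁]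
  [Algebra K₁ E₁] [Algebra K₁ A₁] [Fintype B] [DecidableEq B]

/-- the coordinates of `t⁻¹ dp/dt` -/
noncomputable def chrδ (ε : Module.Basis B K₁ E₁) (p : σ → PowerSeries E₁) (γβ : σ × B) : LS K₁ :=
  LS.mk (fun n => (n + 2) • ε.repr (LS.coeff (LS.ofPS (p γβ.1)) (n + 2)) γβ.2) (-1) (fun n hn => by
    by_cases h : n + 2 = 0
    · rw [h, zero_smul]
    · rw [LS.coeff_ofPS_neg _ _ (by omega), map_zero, Finsupp.zero_apply, smul_zero])

theorem chrδ_coeff (ε : Module.Basis B K₁ E₁) (p : σ → PowerSeries E₁) (γβ : σ × B) (n : ℤ) :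
    (chrδ ε p γβ).coeff n = (n + 2) • ε.repr (LS.coeff (LS.ofPS (p γβ.1)) (n + 2)) γβ.2 := rfl

theorem chrδ_bound (ε : Module.Basis B K₁ E₁) (p : σ → PowerSeries E₁) (γβ : σ × B) (n : ℤ)
    (hn : n < -1) : (chrδ ε p γβ).coeff n = 0 := by
  rw [chrδ_coeff]
  by_cases h : n + 2 = 0
  · rw [h, zero_smul]
  · rw [LS.coeff_ofPS_neg _ _ (by omega), map_zero, Finsupp.zero_apply, smul_zero]

theorem chr_coeff_map_ofPS (j : E₁ →+* A₁) (q : PowerSeries E₁) (n : ℤ) :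
    LS.coeff (LS.ofPS (PowerSeries.map j q)) n = j (LS.coeff (LS.ofPS q) n) := by
  rcases lt_or_ge n 0 with h | h
  · rw [LS.coeff_ofPS_neg _ _ h, LS.coeff_ofPS_neg _ _ h, map_zero]
  · obtain ⟨n, rfl⟩ := Int.eq_ofNat_of_zero_le h
    rw [LS.coeff_ofPS, LS.coeff_ofPS, PowerSeries.coeff_map]

theorem chr_sum_δ (j : E₁ →ₐ[K₁] A₁) (ε : Module.Basis B K₁ E₁) (p : σ → PowerSeries E₁) (γ : σ) :
    ∑ β, chrδ ε p (γ, β) • LS.mono 1 (j (ε β))
      = LS.ld (LS.ofPS (PowerSeries.map (j : E₁ →+* A₁) (p γ))) := by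
  ext n
  rw [LS.coeff_sum, LS.coeff_ld, chr_coeff_map_ofPS]
  have h1 : ∀ β, (chrδ ε p (γ, β) • LS.mono 1 (j (ε β))).coeff n
      = (n + 1) • (ε.repr (LS.coeff (LS.ofPS (p γ)) (n + 1)) β • j (ε β)) := by
    intro β
    rw [LS.smul_def]
    have h2 : (LS.map (algebraMap K₁ A₁) (chrδ ε p (γ, β)) * LS.mono 1 (j (ε β))).coeff n
        = (LS.map (algebraMap K₁ A₁) (chrδ ε p (γ, β))).coeff (n - 1) * j (ε β) :=
      hs_coeff_mul_single 1 n _ _
    rw [h2, LS.coeff_map, chrδ_coeff, show n - 1 + 2 = n + 1 by omega, ← Algebra.smul_def,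
      smul_assoc]
  rw [Finset.sum_congr rfl fun β _ => h1 β, ← Finset.smul_sum]
  congr 1
  conv_rhs => rw [← ε.sum_repr (LS.coeff (LS.ofPS (p γ)) (n + 1))]
  rw [map_sum]
  refine Finset.sum_congr rfl fun β _ => ?_
  exact (map_smul j _ _).symm

/-- the chain rule, general form -/
theorem chr_core (ι : A →+* A₁) (j : E₁ →ₐ[K₁] A₁)
    (hc : ∀ a e, ι a * (j : E₁ →+* A₁) e = (j : E₁ →+* A₁) e * ι a)
    (ε : Module.Basis B K₁ E₁) (p : σ → PowerSeries E₁)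
    (hp : ∀ γ, PowerSeries.constantCoeff (p γ) = 0) (f : NPS σ A) :
    LS.ld (expHom ι (j : E₁ →+* A₁) hc ε p hp f [])
      = ∑ γβ, chrδ ε p γβ • expHom ι (j : E₁ →+* A₁) hc ε p hp f [γβ] := by
  obtain ⟨Φ, hΦ⟩ : ∃ Φ : NPS σ A →+* NPS (σ × B) (LS A₁), Φ = expHom ι (j : E₁ →+* A₁) hc ε p hp :=
    ⟨_, rfl⟩
  obtain ⟨P, hP⟩ : ∃ P : σ → LS A₁, P = fun γ => LS.ofPS (PowerSeries.map (j : E₁ →+* A₁) (p γ)) :=
    ⟨_, rfl⟩
  have e0 : ∀ f, Φ f [] = LS.C (ι (f [])) + ∑ γ, P γ * Φ (NPS.dl γ f) [] := by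
    intro f; rw [hΦ, hP]; exact expF_nil ι _ hc ε p hp f
  have e1 : ∀ f (γβ : σ × B), Φ f [γβ] = ∑ γ, P γ * Φ (NPS.dl γ f) [γβ]
      + LS.mono 1 (j (ε γβ.2)) * Φ (NPS.dl γβ.1 f) [] := by
    intro f γβ; rw [hΦ, hP]; exact expF_cons ι _ hc ε p hp f γβ.1 γβ.2 []
  have i0 : ∀ f, LS.Intg (Φ f []) := by rw [hΦ]; exact fun f => exp_int ι _ hc ε p hp f []
  have i1 : ∀ f (γβ : σ × B), ∀ n < (1 : ℤ), (Φ f [γβ]).coeff n = 0 := by
    rw [hΦ]
    intro f γβ n hn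
    exact exp_ord ι _ hc ε p hp f [γβ] n (by simpa using hn)
  have iP : ∀ γ, ∀ n < (1 : ℤ), (P γ).coeff n = 0 := by
    intro γ n hn
    rw [hP]
    show LS.coeff (LS.ofPS (PowerSeries.map (j : E₁ →+* A₁) (p γ))) n = 0
    rcases lt_or_ge n 0 with h | h
    · exact LS.coeff_ofPS_neg _ _ h
    · have : n = 0 := by omega
      rw [this, expF_coeff_p_zero, hp, map_zero]
  rw [← hΦ]
  -- the recursion for the difference
  obtain ⟨Δ, hΔ⟩ : ∃ Δ : NPS σ A → LS A₁, Δ = fun f => LS.ld (Φ f []) - ∑ γβ, chrδ ε p γβ • Φ f [γβ] :=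
    ⟨_, rfl⟩
  have hΔ' : ∀ f, Δ f = LS.ld (Φ f []) - ∑ γβ, chrδ ε p γβ • Φ f [γβ] := fun f => by rw [hΔ]
  have hrec : ∀ f, Δ f = ∑ γ, P γ * Δ (NPS.dl γ f) := by
    intro f
    have h1 : LS.ld (Φ f []) = ∑ γ, (LS.ld (P γ) * Φ (NPS.dl γ f) [] + P γ * LS.ld (Φ (NPS.dl γ f) [])) := by
      rw [e0 f, chr_ld_add, chr_ld_C, zero_add, chr_ld_sum]
      exact Finset.sum_congr rfl fun γ _ => chr_ld_mul _ _
    have h2 : ∑ γβ, chrδ ε p γβ • Φ f [γβ]
        = ∑ γ, (P γ * ∑ γβ, chrδ ε p γβ • Φ (NPS.dl γ f) [γβ])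
          + ∑ γ, LS.ld (P γ) * Φ (NPS.dl γ f) [] := by
      have h3 : ∀ γβ : σ × B, chrδ ε p γβ • Φ f [γβ]
          = ∑ γ, P γ * (chrδ ε p γβ • Φ (NPS.dl γ f) [γβ])
            + (chrδ ε p γβ • LS.mono 1 (j (ε γβ.2))) * Φ (NPS.dl γβ.1 f) [] := by
        intro γβ
        rw [e1 f γβ, smul_add, Finset.smul_sum, smul_mul_assoc]
        congr 1
        exact Finset.sum_congr rfl fun γ _ => (mul_smul_comm _ _ _).symm
      rw [Finset.sum_congr rfl fun γβ _ => h3 γβ, Finset.sum_add_distrib, Finset.sum_comm]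
      congr 1
      · exact Finset.sum_congr rfl fun γ _ => (Finset.mul_sum _ _ _).symm
      · rw [Fintype.sum_prod_type]
        refine Finset.sum_congr rfl fun γ _ => ?_
        have h5 : ∑ y, (chrδ ε p (γ, y) • LS.mono 1 (j (ε y))) * Φ (NPS.dl γ f) []
            = LS.ld (P γ) * Φ (NPS.dl γ f) [] := by
          rw [← Finset.sum_mul, chr_sum_δ, hP]
        exact h5
    rw [hΔ', h1, h2, Finset.sum_add_distrib]
    have h4 : ∑ γ, P γ * Δ (NPS.dl γ f) = ∑ γ, P γ * LS.ld (Φ (NPS.dl γ f) [])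
        - ∑ γ, (P γ * ∑ γβ, chrδ ε p γβ • Φ (NPS.dl γ f) [γβ]) := by
      rw [← Finset.sum_sub_distrib]
      refine Finset.sum_congr rfl fun γ _ => ?_
      rw [hΔ', mul_sub]
    rw [h4]
    abel
  have hz : ∀ (k : ℕ) (f : NPS σ A), ∀ n < (k : ℤ), (Δ f).coeff n = 0 := by
    intro k
    induction k with
    | zero =>
      intro f n hn
      rw [hΔ', LS.coeff_sub, LS.coeff_sum, LS.coeff_ld]
      have h1 : (n + 1) • (Φ f []).coeff (n + 1) = 0 := by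
        by_cases h : n + 1 = 0
        · rw [h, zero_smul]
        · rw [i0 f (n + 1) (by omega), smul_zero]
      rw [h1, Finset.sum_eq_zero, sub_zero]
      intro γβ _
      rw [LS.smul_def]
      refine chr_mul_bound (a := -1) (b := 1) (fun m hm => ?_) (i1 f γβ) n (by simpa using hn)
      rw [LS.coeff_map, chrδ_bound _ _ _ _ hm, map_zero]
    | succ k ih =>
      intro f n hn
      rw [hrec, LS.coeff_sum]
      refine Finset.sum_eq_zero fun γ _ => ?_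
      exact chr_mul_bound (a := 1) (b := k) (iP γ) (ih (NPS.dl γ f)) n (by push_cast at hn; omega)
  have : Δ f = 0 := by
    ext n
    rw [LS.coeff_zero]
    exact hz (n.toNat + 1) f n (by omega)
  rw [hΔ'] at this
  exact sub_eq_zero.1 this

end Core

namespace Trip
variable {S : Stg}

/-- **chain rule**: `d/dt f(p) = f^{(1)}_p(dp/dt)`; `δ` contains the coordinates of `t⁻¹ dp/dt` -/
theorem chain_rule_proved (P : Trip S) (d : ExpD P.K P.A P.σ) :
    ∃ δ : P.σ × d.B → LS d.K₁, ∀ f : NPS P.σ P.A,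
      LS.ld (P.eh d f []) = lin (LS d.K₁) (P.eh d f) δ :=
  ⟨chrδ d.ε d.p, fun f => chr_core d.ι d.j (P.d_comm d) d.ε d.p d.hp f⟩

end Trip

end Vale.Agent.P199K
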