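import Mathlib

/-!
# P199 (Kurosh problem for division rings): definitions
Paper proof: notes/P199_proof.md.
-/

open scoped TensorProduct LaurentSeries
open PowerSeries

namespace Vale.Agent.P199K

/-! ## Noncommutative power series -/

/-- Noncommutative formal power series in the variables `σ` (which commute with the coefficients):
`f u` is the coefficient of the word `u`. -/
def NPS (σ A : Type) : Type := List σ → A

namespace NPS

variable {σ A : Type}

@[ext] theorem ext {f g : NPS σ A} (h : ∀ u, f u = g u) : f = g := funext h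

instance [AddCommGroup A] : AddCommGroup (NPS σ A) := inferInstanceAs (AddCommGroup (List σ → A))

@[simp] theorem add_apply [AddCommGroup A] (f g : NPS σ A) (u : List σ) : (f + g) u = f u + g u := rfl
@[simp] theorem sub_apply [AddCommGroup A] (f g : NPS σ A) (u : List σ) : (f - g) u = f u - g u := rfl
@[simp] theorem neg_apply [AddCommGroup A] (f : NPS σ A) (u : List σ) : (-f) u = - f u := rfl
@[simp] theorem zero_apply [AddCommGroup A] (u : List σ) : (0 : NPS σ A) u = 0 := rfl

/-- left derivative: remove the first letter -/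
def dl (x : σ) (f : NPS σ A) : NPS σ A := fun u => f (x :: u)

@[simp] theorem dl_apply (x : σ) (f : NPS σ A) (u : List σ) : dl x f u = f (x :: u) := rfl

/-- multiplication, by recursion on the word -/
def mulAux [Ring A] : List σ → NPS σ A → NPS σ A → A
  | [], f, g => f [] * g []
  | (x :: u), f, g => f [] * g (x :: u) + mulAux u (dl x f) g

instance [Ring A] : Mul (NPS σ A) := ⟨fun f g u => mulAux u f g⟩

theorem mul_nil [Ring A] (f g : NPS σ A) : (f * g) [] = f [] * g [] := rfl
theorem mul_cons [Ring A] (f g : NPS σ A) (x : σ) (u : List σ) :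
    (f * g) (x :: u) = f [] * g (x :: u) + (dl x f * g) u := rfl

/-- constants -/
def Cf [Ring A] (a : A) : NPS σ A := fun u => match u with
  | [] => a
  | _ :: _ => 0

@[simp] theorem Cf_nil [Ring A] (a : A) : (Cf a : NPS σ A) [] = a := rfl
@[simp] theorem Cf_cons [Ring A] (a : A) (x : σ) (u : List σ) : (Cf a : NPS σ A) (x :: u) = 0 := rfl

instance [Ring A] : One (NPS σ A) := ⟨Cf 1⟩

theorem one_def [Ring A] : (1 : NPS σ A) = Cf 1 := rfl

theorem zero_mul_apply [Ring A] (g : NPS σ A) (u : List σ) : ((0 : NPS σ A) * g : NPS σ A) u = 0 := by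
  induction u with
  | nil => simp [mul_nil]
  | cons x u ih =>
    rw [mul_cons]
    have : dl x (0 : NPS σ A) = 0 := rfl
    rw [this, ih]; simp

theorem Cf_mul_apply [Ring A] (a : A) (g : NPS σ A) (u : List σ) : (Cf a * g : NPS σ A) u = a * g u := by
  cases u with
  | nil => rfl
  | cons x u =>
    rw [mul_cons]
    have : dl x (Cf a : NPS σ A) = 0 := rfl
    rw [this, zero_mul_apply]; simp

theorem add_mul_apply [Ring A] (f f' g : NPS σ A) (u : List σ) :
    ((f + f') * g) u = (f * g) u + (f' * g) u := by
  induction u generalizing f f' with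
  | nil => simp [mul_nil, add_mul]
  | cons x u ih =>
    rw [mul_cons, mul_cons, mul_cons]
    have : dl x (f + f') = dl x f + dl x f' := rfl
    rw [this, ih]; simp [add_mul]; abel

theorem mul_add_apply [Ring A] (f g g' : NPS σ A) (u : List σ) :
    (f * (g + g')) u = (f * g) u + (f * g') u := by
  induction u generalizing f with
  | nil => simp [mul_nil, mul_add]
  | cons x u ih =>
    rw [mul_cons, mul_cons, mul_cons, ih]; simp [mul_add]; abel

theorem mul_assoc_apply [Ring A] (f g h : NPS σ A) (u : List σ) :
    (f * g * h) u = (f * (g * h)) u := by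
  induction u generalizing f g with
  | nil => simp [mul_nil, mul_assoc]
  | cons x u ih =>
    rw [mul_cons, mul_cons, mul_nil, mul_cons]
    have h1 : dl x (f * g) = Cf (f []) * dl x g + dl x f * g := by
      ext v
      rw [add_apply, Cf_mul_apply]; rfl
    rw [h1, add_mul_apply, ih, ih, Cf_mul_apply, mul_add, mul_assoc, add_assoc]

instance [Ring A] : Ring (NPS σ A) := { (inferInstance : AddCommGroup (NPS σ A)) with
  zero_mul f := by ext u; exact zero_mul_apply f u
  mul_zero f := by
    ext u
    induction u generalizing f with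
    | nil => simp [mul_nil]
    | cons x u ih => rw [mul_cons, ih]; simp
  left_distrib f g h := by ext u; exact mul_add_apply f g h u
  right_distrib f g h := by ext u; exact add_mul_apply f g h u
  mul_assoc f g h := by ext u; exact mul_assoc_apply f g h u
  one_mul f := by ext u; rw [one_def, Cf_mul_apply, one_mul]
  mul_one f := by
    ext u
    induction u generalizing f with
    | nil => simp [mul_nil, one_def]
    | cons x u ih => rw [mul_cons, ih]; simp [one_def]
  neg_add_cancel f := by ext u; simp
  sub_eq_add_neg f g := by ext u; simp [sub_eq_add_neg] }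

/-- constants as a ring hom -/
def C [Ring A] : A →+* NPS σ A where
  toFun := Cf
  map_one' := rfl
  map_zero' := by ext u; cases u <;> rfl
  map_add' a b := by ext u; cases u <;> simp
  map_mul' a b := by
    ext u
    rw [Cf_mul_apply a (Cf b) u]
    cases u <;> simp

@[simp] theorem C_nil [Ring A] (a : A) : (C a : NPS σ A) [] = a := rfl
@[simp] theorem C_cons [Ring A] (a : A) (x : σ) (u : List σ) : (C a : NPS σ A) (x :: u) = 0 := rfl
theorem C_mul_apply [Ring A] (a : A) (g : NPS σ A) (u : List σ) : (C a * g : NPS σ A) u = a * g u :=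
  Cf_mul_apply a g u

/-- the variable `x` -/
def X [Ring A] [DecidableEq σ] (x : σ) : NPS σ A := fun u => if u = [x] then 1 else 0

/-- `f` has order at least `n` -/
def Ord [Ring A] (n : ℕ) (f : NPS σ A) : Prop := ∀ u : List σ, u.length < n → f u = 0

instance instAlgebra {K : Type} [Field K] [Ring A] [Algebra K A] : Algebra K (NPS σ A) where
  smul c f := fun u => c • f u
  algebraMap := C.comp (algebraMap K A)
  commutes' c f := by
    ext u
    show (C (algebraMap K A c) * f : NPS σ A) u = (f * C (algebraMap K A c) : NPS σ A) u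
    rw [C_mul_apply]
    induction u generalizing f with
    | nil => simp [mul_nil, Algebra.commutes]
    | cons x u ih =>
      rw [mul_cons, ← ih]; simp
  smul_def' c f := by
    ext u
    show c • f u = (C (algebraMap K A c) * f : NPS σ A) u
    rw [C_mul_apply, Algebra.smul_def]

@[simp] theorem smul_apply {K : Type} [Field K] [Ring A] [Algebra K A] (c : K) (f : NPS σ A) (u : List σ) :
    (c • f) u = c • f u := rfl

theorem algebraMap_apply {K : Type} [Field K] [Ring A] [Algebra K A] (c : K) :
    algebraMap K (NPS σ A) c = C (algebraMap K A c) := rfl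

/-- coefficientwise image under a ring hom -/
def mapF {A B : Type} [Ring A] [Ring B] (j : A →+* B) (f : NPS σ A) : NPS σ B := fun u => j (f u)

/-- coefficientwise image under a ring hom -/
def map {A B : Type} [Ring A] [Ring B] (j : A →+* B) : NPS σ A →+* NPS σ B where
  toFun := mapF j
  map_one' := by
    ext u; cases u
    · exact j.map_one
    · exact j.map_zero
  map_zero' := by ext u; exact j.map_zero
  map_add' f g := by ext u; exact j.map_add _ _
  map_mul' f g := by
    ext u
    induction u generalizing f with
    | nil => show j _ = _; simp [mul_nil, mapF]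
    | cons x u ih =>
      show j _ = _
      rw [mul_cons, mul_cons, map_add, map_mul]
      have := ih (dl x f)
      rw [show j ((dl x f * g : NPS σ A) u) = mapF j (dl x f * g) u from rfl, this]; rfl

@[simp] theorem map_apply {A B : Type} [Ring A] [Ring B] (j : A →+* B) (f : NPS σ A) (u : List σ) :
    map j f u = j (f u) := rfl

end NPS

/-! ## Laurent series over an algebra -/

/-- coefficientwise image of Laurent series under a ring hom -/
noncomputable def lauHom {R S : Type} [Ring R] [Ring S] (f : R →+* S) : R⸨X⸩ →+* S⸨X⸩ where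
  toFun x := x.map f
  map_one' := by
    ext n; simp [HahnSeries.coeff_one, apply_ite f]
  map_zero' := by ext n; simp
  map_add' x y := by ext n; simp
  map_mul' x y := by exact HahnSeries.map_mul (f : R →ₙ+* S)

@[simp] theorem lauHom_coeff {R S : Type} [Ring R] [Ring S] (f : R →+* S) (x : R⸨X⸩) (n : ℤ) :
    (lauHom f x).coeff n = f (x.coeff n) := rfl

/-- `A((t))` as an algebra over `K((t))`. -/
noncomputable instance (priority := 50) lauAlgebra {K A : Type} [Field K] [Ring A] [Algebra K A] :
    Algebra K⸨X⸩ A⸨X⸩ :=
  RingHom.toAlgebra' (lauHom (algebraMap K A)) (by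
    intro c x
    ext n
    rw [HahnSeries.coeff_mul, HahnSeries.coeff_mul]
    refine Finset.sum_bij (fun ij _ => ij.swap) ?_ ?_ ?_ ?_
    · intro ij h
      simp only [Finset.mem_antidiagonal, Prod.fst_swap, Prod.snd_swap] at h ⊢
      exact ⟨h.2.1, h.1, by rw [add_comm]; exact h.2.2⟩
    · intro a _ b _ h
      exact Prod.swap_injective h
    · intro b h
      refine ⟨b.swap, ?_, Prod.swap_swap b⟩
      simp only [Finset.mem_antidiagonal, Prod.fst_swap, Prod.snd_swap] at h ⊢
      exact ⟨h.2.1, h.1, by rw [add_comm]; exact h.2.2⟩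
    · intro ij _
      simp only [lauHom_coeff, Prod.fst_swap, Prod.snd_swap]
      exact Algebra.commutes _ _)

theorem lau_algebraMap_coeff {K A : Type} [Field K] [Ring A] [Algebra K A] (c : K⸨X⸩) (n : ℤ) :
    (algebraMap K⸨X⸩ A⸨X⸩ c).coeff n = algebraMap K A (c.coeff n) := rfl

/-- the canonical map `A[[t]] → A((t))` -/
noncomputable abbrev ofPS {A : Type} [Ring A] : PowerSeries A →+* A⸨X⸩ := HahnSeries.ofPowerSeries ℤ A

/-- residue (reduction mod `t` of the integral elements) of a `K((t))`-subspace of `A((t))` -/
noncomputable def resid {K A : Type} [Field K] [Ring A] [Algebra K A]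
    (U : Submodule K⸨X⸩ A⸨X⸩) : Submodule K A where
  carrier := {a | ∃ f : PowerSeries A, ofPS f ∈ U ∧ PowerSeries.constantCoeff f = a}
  add_mem' := by
    rintro a b ⟨f, hf, rfl⟩ ⟨g, hg, rfl⟩
    exact ⟨f + g, by rw [map_add]; exact U.add_mem hf hg, map_add _ _ _⟩
  zero_mem' := ⟨0, by rw [map_zero]; exact U.zero_mem, map_zero _⟩
  smul_mem' := by
    rintro c a ⟨f, hf, rfl⟩
    refine ⟨PowerSeries.C (algebraMap K A c) * f, ?_, ?_⟩
    · rw [map_mul]
      have h := U.smul_mem (HahnSeries.C c : K⸨X⸩) hf
      rw [Algebra.smul_def] at h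
      have e : algebraMap K⸨X⸩ A⸨X⸩ (HahnSeries.C c) = ofPS (PowerSeries.C (algebraMap K A c)) := by
        rw [show (ofPS (PowerSeries.C (algebraMap K A c)) : A⸨X⸩) = HahnSeries.C (algebraMap K A c) from
          HahnSeries.ofPowerSeries_C _]
        ext n
        rw [lau_algebraMap_coeff]
        by_cases hn : n = 0
        · subst hn; simp
        · simp [HahnSeries.C_apply, HahnSeries.coeff_single_of_ne hn]
      rwa [e] at h
    · rw [map_mul, PowerSeries.constantCoeff_C, Algebra.smul_def]

/-! ## Trace form, projections, invariants -/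

section Inv
variable {K A : Type} [Field K] [Ring A] [Algebra K A]

/-- trace of the left multiplication by `a` -/
noncomputable def trc (K : Type) {A : Type} [Field K] [Ring A] [Algebra K A] : A →ₗ[K] K :=
  (LinearMap.trace K A).comp (Algebra.lmul K A).toLinearMap

/-- `π` is the orthogonal projection onto `U` for the trace form -/
def IsProj (U : Submodule K A) (π : A →ₗ[K] A) : Prop :=
  (∀ a, π a ∈ U) ∧ ∀ a, ∀ u ∈ U, trc K (π a * u) = trc K (a * u)

open Classical in
/-- the orthogonal projection onto `U` for the trace form (junk value `0` if there is none) -/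
noncomputable def proj (U : Submodule K A) : A →ₗ[K] A :=
  if h : ∃ π, IsProj U π then h.choose else 0

/-- `L = K[W]` -/
noncomputable def Lf (K : Type) {A : Type} [Field K] [Ring A] [Algebra K A] (W : A) : Subalgebra K A :=
  Algebra.adjoin K {W}

/-- `M = C_A(W)` -/
noncomputable def Mf (K : Type) {A : Type} [Field K] [Ring A] [Algebra K A] (W : A) : Subalgebra K A :=
  Subalgebra.centralizer K {W}

variable {σ : Type} [Fintype σ]

/-- linear part of a power series, as a linear map on `K^σ` -/
noncomputable def lin (K : Type) {A σ : Type} [Field K] [Ring A] [Algebra K A] [Fintype σ] (w : NPS σ A) :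
    (σ → K) →ₗ[K] A where
  toFun δ := ∑ γ, δ γ • w [γ]
  map_add' a b := by simp [add_smul, Finset.sum_add_distrib]
  map_smul' c a := by simp [mul_smul, Finset.smul_sum]

/-- quadratic part of a power series -/
noncomputable def quad {K A σ : Type} [Field K] [Ring A] [Algebra K A] [Fintype σ] (w : NPS σ A)
    (δ δ' : σ → K) : A := ∑ γ, ∑ γ', (δ γ * δ' γ') • w [γ, γ']

/-- `ℓ(K^σ)`, `ℓ = π_L ∘ w₁` -/
noncomputable def calL (K : Type) {A σ : Type} [Field K] [Ring A] [Algebra K A] [Fintype σ] (w : NPS σ A) :
    Submodule K A :=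
  LinearMap.range ((proj (Subalgebra.toSubmodule (Lf K (w [])))).comp (lin K w))

/-- the field `F` generated by the quotients of elements of `calL` -/
noncomputable def Ff (K : Type) {A σ : Type} [Field K] [Ring A] [Algebra K A] [Fintype σ] (w : NPS σ A) :
    Subalgebra K A :=
  Algebra.adjoin K {x | x ∈ Lf K (w []) ∧ ∃ a ∈ calL K w, ∃ b ∈ calL K w, b ≠ 0 ∧ x * b = a}

/-- `f = p_W(w)` -/
noncomputable def ff (K : Type) {A σ : Type} [Field K] [Ring A] [Algebra K A] (w : NPS σ A) : NPS σ A :=
  Polynomial.aeval w (minpoly K (w []))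

end Inv

end Vale.Agent.P199K
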