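import Vale.Agent.P199K.DensA

/-! # P199, section 10: density -/

open scoped TensorProduct LaurentSeries
open PowerSeries

namespace Vale.Agent.P199K

/-- `Vf = f₁(K^σ)` -/
noncomputable def VfU (K : Type) {A σ : Type} [Field K] [Ring A] [Algebra K A] [Fintype σ] (w : NPS σ A) :
    Submodule K A := LinearMap.range (lin K (ff K w))

/-- `Ce = p_W'(W) · F · calL = λ_f F` -/
noncomputable def CeU (K : Type) {A σ : Type} [Field K] [Ring A] [Algebra K A] [Fintype σ] (w : NPS σ A) :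
    Submodule K A :=
  Submodule.span K {Polynomial.aeval (w []) (Polynomial.derivative (minpoly K (w [])))}
    * (Subalgebra.toSubmodule (Ff K w) * calL K w)

namespace Trip
variable {S : Stg}

/-- `δ ∈ Inn`: the direction `L(δ)` is an inner derivation of `E` applied to `(Θ₁, Θ₂)` -/
def Inn (Q : Trip S) (δ : Q.σ → Q.K) : Prop :=
  ∃ ε : Q.A, (∀ a, ε * Q.iA a = Q.iA a * ε) ∧ ∀ k, ∑ γ, δ γ • Q.Lc k γ = ε * Q.Θ k - Q.Θ k * ε

/-- property (CL) in terms of subspaces -/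
theorem dens_CL (Q : Trip S) (G : Set (NPS (Fin 2) S.A))
    (hG : ∀ (n : ℕ) (r : NPS (Fin 2) S.A), ∃ g ∈ G, NPS.Ord n (r - g))
    (n : ℕ) (N : Submodule Q.K (NPS Q.σ Q.A)) (h1 : ∀ f, NPS.Ord n f → f ∈ N)
    (h2 : ∀ g ∈ G, Q.Psi g ∈ N) (r : NPS (Fin 2) S.A) : Q.Psi r ∈ N := by
  by_contra hr
  obtain ⟨φ, hφ1, hφ2⟩ := Submodule.exists_le_ker_of_notMem hr
  exact hφ1 (Q.CL G hG n φ (fun f hf => hφ2 (h1 f hf)) (fun g hg => hφ2 (h2 g hg)) r)

/-- two homs which are intertwined on constants and variables are intertwined -/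
theorem dens_intertwine (Q : Trip S) (F₁ F₂ : NPS Q.σ Q.A →+* NPS (Fin 2) Q.A)
    (hF₁ : ∀ a, F₁ (NPS.C a) = NPS.C a) (hF₂ : ∀ a, F₂ (NPS.C a) = NPS.C a)
    (hO₁ : ∀ n f, NPS.Ord n f → NPS.Ord n (F₁ f)) (hO₂ : ∀ n f, NPS.Ord n f → NPS.Ord n (F₂ f))
    (u : NPS (Fin 2) Q.A) (hu : ∀ a, u * NPS.C (Q.iA a) = NPS.C (Q.iA a) * u)
    (hX : ∀ k, u * F₁ (Q.Psi (NPS.X k)) = F₂ (Q.Psi (NPS.X k)) * u) (r : NPS (Fin 2) S.A) :
    u * F₁ (Q.Psi r) = F₂ (Q.Psi r) * u := by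
  let G : Subring (NPS (Fin 2) S.A) :=
    { carrier := {r | u * F₁ (Q.Psi r) = F₂ (Q.Psi r) * u}
      mul_mem' := by
        intro r s hr hs
        show u * F₁ (Q.Psi (r * s)) = F₂ (Q.Psi (r * s)) * u
        have hr' : u * F₁ (Q.Psi r) = F₂ (Q.Psi r) * u := hr
        have hs' : u * F₁ (Q.Psi s) = F₂ (Q.Psi s) * u := hs
        rw [map_mul, map_mul, map_mul, ← mul_assoc, hr', mul_assoc, hs', mul_assoc]
      one_mem' := by
        show u * F₁ (Q.Psi 1) = F₂ (Q.Psi 1) * u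
        rw [map_one, map_one, map_one, mul_one, one_mul]
      add_mem' := by
        intro r s hr hs
        show u * F₁ (Q.Psi (r + s)) = F₂ (Q.Psi (r + s)) * u
        have hr' : u * F₁ (Q.Psi r) = F₂ (Q.Psi r) * u := hr
        have hs' : u * F₁ (Q.Psi s) = F₂ (Q.Psi s) * u := hs
        rw [map_add, map_add, map_add, mul_add, add_mul, hr', hs']
      zero_mem' := by
        show u * F₁ (Q.Psi 0) = F₂ (Q.Psi 0) * u
        rw [map_zero, map_zero, map_zero, mul_zero, zero_mul]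
      neg_mem' := by
        intro r hr
        show u * F₁ (Q.Psi (-r)) = F₂ (Q.Psi (-r)) * u
        have hr' : u * F₁ (Q.Psi r) = F₂ (Q.Psi r) * u := hr
        rw [map_neg, map_neg, map_neg, mul_neg, neg_mul, hr'] }
  have hG : ∀ (n : ℕ) (r : NPS (Fin 2) S.A), ∃ g ∈ (G : Set (NPS (Fin 2) S.A)), NPS.Ord n (r - g) := by
    intro n r
    obtain ⟨g, hg, hgo⟩ := NPS.exists_poly n r
    refine ⟨g, ?_, hgo⟩
    have : Subring.closure (Set.range (NPS.C : S.A → NPS (Fin 2) S.A) ∪ Set.range NPS.X) ≤ G := by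
      rw [Subring.closure_le]
      rintro x (⟨a, rfl⟩ | ⟨k, rfl⟩)
      · show u * F₁ (Q.Psi (NPS.C a)) = F₂ (Q.Psi (NPS.C a)) * u
        rw [Q.Psi_C, hF₁, hF₂, hu]
      · exact hX k
    exact this hg
  have hs₁ : ∀ (c : Q.K) f, F₁ (c • f) = c • F₁ f := fun c f =>
    map_smul (densAlg (K := Q.K) F₁ hF₁) c f
  have hs₂ : ∀ (c : Q.K) f, F₂ (c • f) = c • F₂ f := fun c f =>
    map_smul (densAlg (K := Q.K) F₂ hF₂) c f
  ext v
  let N : Submodule Q.K (NPS Q.σ Q.A) :=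
    { carrier := {f | (u * F₁ f) v = (F₂ f * u) v}
      add_mem' := by
        intro f g hf hg
        show (u * F₁ (f + g)) v = (F₂ (f + g) * u) v
        have hf' : (u * F₁ f) v = (F₂ f * u) v := hf
        have hg' : (u * F₁ g) v = (F₂ g * u) v := hg
        rw [map_add, map_add, mul_add, add_mul, NPS.add_apply, NPS.add_apply, hf', hg']
      zero_mem' := by
        show (u * F₁ 0) v = (F₂ 0 * u) v
        rw [map_zero, map_zero, mul_zero, zero_mul]
      smul_mem' := by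
        intro c f hf
        show (u * F₁ (c • f)) v = (F₂ (c • f) * u) v
        have hf' : (u * F₁ f) v = (F₂ f * u) v := hf
        rw [hs₁, hs₂, mul_smul_comm, smul_mul_assoc, NPS.smul_apply, NPS.smul_apply, hf'] }
  refine Q.dens_CL G hG (v.length + 1) N ?_ ?_ r
  · intro f hf
    show (u * F₁ f) v = (F₂ f * u) v
    rw [dens_Ord_mul_left u (hO₁ _ f hf) v (Nat.lt_succ_self _),
      dens_Ord_mul_right u (hO₂ _ f hf) v (Nat.lt_succ_self _)]
  · intro g hg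
    have hg' : u * F₁ (Q.Psi g) = F₂ (Q.Psi g) * u := hg
    show (u * F₁ (Q.Psi g)) v = (F₂ (Q.Psi g) * u) v
    rw [hg']

/-- substitution of `L`-coordinates -/
theorem dens_subst_X (Q : Trip S) (b : Q.σ → NPS (Fin 2) Q.K) (hb : ∀ γ, b γ [] = 0) (k : Fin 2)
    (v : List (Fin 2)) : (substHom b hb (Q.Psi (NPS.X k))) v
      = (NPS.C (Q.Θ k) : NPS (Fin 2) Q.A) v + ∑ γ, b γ v • Q.Lc k γ := by
  rw [Q.Psi_X, map_add, (substHom_spec b hb).1, map_sum, NPS.add_apply, NPS.sg_sum_apply]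
  congr 1
  refine Finset.sum_congr rfl fun γ _ => ?_
  rw [map_mul, (substHom_spec b hb).1, (substHom_spec b hb).2.1, NPS.C_mul_apply, NPS.map_apply,
    ← Algebra.commutes, Algebra.smul_def]

theorem dens_inn_core (Q : Trip S) (w₀ : NPS (Fin 2) S.A) (δ : Q.σ → Q.K) (hδ : Q.Inn δ)
    (η : Q.σ → Q.K) :
    lin Q.K (ff Q.K (Q.Psi w₀)) δ = 0 ∧
    (lin Q.K (ff Q.K (Q.Psi w₀)) η = 0 → quad (ff Q.K (Q.Psi w₀)) δ η ∈ VfU Q.K (Q.Psi w₀)) := by
  obtain ⟨ε, hε, hδ⟩ := hδ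
  obtain ⟨c, hc⟩ : ∃ c : Q.σ → NPS (Fin 2) Q.K, c = fun γ v => if v = [1] then η γ else 0 := ⟨_, rfl⟩
  have hc0 : ∀ γ, c γ [] = 0 := fun γ => by rw [hc]; rfl
  have hcz : (fun γ => c γ [0]) = 0 := by rw [hc]; rfl
  have hco : (fun γ => c γ [1]) = η := by rw [hc]; rfl
  have hct : ∀ x y, (fun γ => c γ [x, y]) = 0 := by
    intro x y
    rw [hc]
    funext γ
    simp
  obtain ⟨u, hu⟩ : ∃ u : NPS (Fin 2) Q.A, u = 1 - NPS.X 0 * NPS.C ε := ⟨_, rfl⟩
  obtain ⟨g, hg⟩ : ∃ g : NPS (Fin 2) Q.A, g = densInv ε := ⟨_, rfl⟩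
  have hug : u * g = 1 := by rw [hu, hg]; exact densInv_mul ε
  have u0 : u [] = 1 := by rw [hu]; exact dens_u_nil ε
  have uz : u [0] = -ε := by rw [hu]; exact dens_u_zero ε
  have uo : u [1] = 0 := by rw [hu]; exact dens_u_one ε
  have ut : ∀ x y, u [x, y] = 0 := by rw [hu]; exact dens_u_two ε
  have g0 : g [] = 1 := by rw [hg]; exact densInv_nil ε
  have gz : g [0] = ε := by rw [hg]; exact densInv_zero ε
  have go : g [1] = 0 := by rw [hg]; exact densInv_one ε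
  have uC : ∀ a, u * NPS.C (Q.iA a) = NPS.C (Q.iA a) * u := fun a => by
    rw [hu]; exact dens_u_comm ε _ (hε a)
  have gC : ∀ a, g * NPS.C (Q.iA a) = NPS.C (Q.iA a) * g := fun a => by
    rw [hg]; exact densInv_comm ε _ (hε a)
  obtain ⟨R, hR⟩ : ∃ R : Fin 2 → NPS (Fin 2) Q.A, R = fun k => substHom c hc0 (Q.Psi (NPS.X k)) :=
    ⟨_, rfl⟩
  have RC : ∀ k a, R k * NPS.C (Q.iA a) = NPS.C (Q.iA a) * R k := by
    intro k a
    rw [hR]
    ext v
    rw [NPS.sg_mul_C_apply, NPS.C_mul_apply]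
    show (substHom c hc0 (Q.Psi (NPS.X k))) v * _ = _ * (substHom c hc0 (Q.Psi (NPS.X k))) v
    rw [Q.dens_subst_X, add_mul, mul_add, Finset.sum_mul, Finset.mul_sum]
    congr 1
    · cases v with
      | nil => rw [NPS.C_nil]; exact Q.comm_Θ k a
      | cons x v => rw [NPS.C_cons, zero_mul, mul_zero]
    · refine Finset.sum_congr rfl fun γ _ => ?_
      rw [smul_mul_assoc, mul_smul_comm, Q.comm_Lc]
  have R0 : ∀ k, R k [] = Q.Θ k := by
    intro k
    rw [hR]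
    show (substHom c hc0 (Q.Psi (NPS.X k))) [] = _
    rw [Q.dens_subst_X, NPS.C_nil]
    simp [hc0]
  have Rz : ∀ k, R k [0] = 0 := by
    intro k
    rw [hR]
    show (substHom c hc0 (Q.Psi (NPS.X k))) [0] = _
    rw [Q.dens_subst_X, NPS.C_cons, zero_add]
    refine Finset.sum_eq_zero fun γ _ => ?_
    rw [show c γ [0] = 0 from congrFun hcz γ, zero_smul]
  have Ro : ∀ k, R k [1] = ∑ γ, η γ • Q.Lc k γ := by
    intro k
    rw [hR]
    show (substHom c hc0 (Q.Psi (NPS.X k))) [1] = _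
    rw [Q.dens_subst_X, NPS.C_cons, zero_add]
    refine Finset.sum_congr rfl fun γ _ => ?_
    rw [show c γ [1] = η γ from congrFun hco γ]
  obtain ⟨T, hT⟩ : ∃ T : Fin 2 → NPS (Fin 2) Q.A, T = fun k => g * R k * u := ⟨_, rfl⟩
  have hTu : ∀ k, u * T k = R k * u := by
    intro k
    rw [hT]
    show u * (g * R k * u) = _
    rw [← mul_assoc, ← mul_assoc, hug, one_mul]
  have TC : ∀ k a, T k * NPS.C (Q.iA a) = NPS.C (Q.iA a) * T k := by
    intro k a
    rw [hT]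
    show g * R k * u * _ = _ * (g * R k * u)
    rw [mul_assoc, uC, ← mul_assoc, mul_assoc g, RC, ← mul_assoc, gC]
    simp only [mul_assoc]
  have T0 : ∀ k, T k [] = Q.Θ k := by
    intro k
    rw [hT]
    show (g * R k * u) [] = _
    rw [NPS.mul_nil, NPS.mul_nil, g0, R0, u0, one_mul, mul_one]
  have Tz : ∀ k, T k [0] = ε * Q.Θ k - Q.Θ k * ε := by
    intro k
    rw [hT]
    show (g * R k * u) [0] = _
    rw [dens_mul_one, dens_mul_one, NPS.mul_nil, g0, R0, u0, gz, Rz, uz]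
    noncomm_ring
  have To : ∀ k, T k [1] = ∑ γ, η γ • Q.Lc k γ := by
    intro k
    rw [hT]
    show (g * R k * u) [1] = _
    rw [dens_mul_one, dens_mul_one, NPS.mul_nil, g0, R0, u0, go, Ro, uo]
    simp
  have Tcomm : ∀ v k a, T k v * Q.iA a = Q.iA a * T k v := by
    intro v k a
    have := congrFun (TC k a) v
    rwa [NPS.sg_mul_C_apply, NPS.C_mul_apply] at this
  choose β hβ1 hβ2 using fun v => Q.L_bij (fun k => T k v) (Tcomm v)
  have βz : β [0] = δ := (hβ2 [0] δ (fun k => by rw [Tz, hδ])).symm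
  have βo : β [1] = η := (hβ2 [1] η (fun k => by rw [To])).symm
  obtain ⟨b, hb⟩ : ∃ b : Q.σ → NPS (Fin 2) Q.K, b = fun γ v => if v = [] then 0 else β v γ :=
    ⟨_, rfl⟩
  have hb0 : ∀ γ, b γ [] = 0 := fun γ => by rw [hb]; rfl
  have hbz : (fun γ => b γ [0]) = δ := by rw [← βz, hb]; rfl
  have hbo : (fun γ => b γ [1]) = η := by rw [← βo, hb]; rfl
  have hbT : ∀ k, substHom b hb0 (Q.Psi (NPS.X k)) = T k := by
    intro k
    ext v
    rw [Q.dens_subst_X]
    cases v with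
    | nil =>
      rw [NPS.C_nil, T0]
      simp [hb0]
    | cons x v =>
      rw [NPS.C_cons, zero_add, ← hβ1 (x :: v) k]
      refine Finset.sum_congr rfl fun γ _ => ?_
      rw [hb]
      rfl
  have hw := Q.dens_intertwine (substHom b hb0) (substHom c hc0) (substHom_spec b hb0).1
    (substHom_spec c hc0).1 (substHom_spec b hb0).2.2 (substHom_spec c hc0).2.2 u uC
    (fun k => by rw [hbT, hTu, hR]) w₀
  have hf := dens_semiconj_aeval u _ _ hw (minpoly Q.K ((Q.Psi w₀) []))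
  rw [← dens_hom_aeval _ (substHom_spec b hb0).1, ← dens_hom_aeval _ (substHom_spec c hc0).1] at hf
  change u * substHom b hb0 (ff Q.K (Q.Psi w₀)) = substHom c hc0 (ff Q.K (Q.Psi w₀)) * u at hf
  obtain ⟨f, hff⟩ : ∃ f, f = ff Q.K (Q.Psi w₀) := ⟨_, rfl⟩
  have hf0 : f [] = 0 := by
    rw [hff]
    exact dens_ff_nil _
  rw [← hff] at hf ⊢
  obtain ⟨F₁, hF₁⟩ : ∃ F₁, F₁ = substHom (A := Q.A) b hb0 f := ⟨_, rfl⟩
  obtain ⟨F₂, hF₂⟩ : ∃ F₂, F₂ = substHom (A := Q.A) c hc0 f := ⟨_, rfl⟩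
  rw [← hF₁, ← hF₂] at hf
  have e0 : F₁ [] = 0 := by rw [hF₁, lagr_subst_nil, hf0]
  have e0' : F₂ [] = 0 := by rw [hF₂, lagr_subst_nil, hf0]
  have ez : F₁ [0] = lin Q.K f δ := by rw [hF₁, lagr_subst_one, hbz]
  have ez' : F₂ [0] = 0 := by rw [hF₂, lagr_subst_one, hcz, map_zero]
  have eo : F₁ [1] = lin Q.K f η := by rw [hF₁, lagr_subst_one, hbo]
  have eo' : F₂ [1] = lin Q.K f η := by rw [hF₂, lagr_subst_one, hco]
  have et : F₁ [0, 1] = lin Q.K f (fun γ => b γ [0, 1]) + quad f δ η := by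
    rw [hF₁, lagr_subst_two, hbz, hbo]
  have et' : F₂ [0, 1] = 0 := by
    rw [hF₂, lagr_subst_two, hcz, hco, hct, map_zero, zero_add]
    simp [quad]
  have c1 := congrFun hf [0]
  rw [dens_mul_one, dens_mul_one, u0, uz, e0, e0', ez', mul_zero, zero_mul, add_zero, zero_mul,
    add_zero, one_mul] at c1
  refine ⟨by rw [← ez, c1], fun hη => ?_⟩
  have c2 := congrFun hf [0, 1]
  rw [dens_mul_two, dens_mul_two, u0, uz, ut, uo, e0, e0', ez', eo, et', hη, et] at c2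
  simp only [mul_zero, zero_mul, add_zero, one_mul] at c2
  have c3 : quad f δ η = - lin Q.K f (fun γ => b γ [0, 1]) := eq_neg_of_add_eq_zero_right c2
  rw [c3, hff]
  exact Submodule.neg_mem _ ⟨_, rfl⟩

/-- the conjugation trick: inner directions are in the radical -/
theorem inn_rad (Q : Trip S) (w₀ : NPS (Fin 2) S.A) (δ : Q.σ → Q.K) (hδ : Q.Inn δ) :
    lin Q.K (ff Q.K (Q.Psi w₀)) δ = 0 ∧
    ∀ η, lin Q.K (ff Q.K (Q.Psi w₀)) η = 0 → quad (ff Q.K (Q.Psi w₀)) δ η ∈ VfU Q.K (Q.Psi w₀) :=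
  ⟨(Q.dens_inn_core w₀ δ hδ 0).1, fun η hη => (Q.dens_inn_core w₀ δ hδ η).2 hη⟩

/-- `Θ` generates `E` together with `A₀` -/
def GenΘ (Q : Trip S) : Prop :=
  Algebra.adjoin Q.K (Set.range Q.iA ∪ {Q.Θ 0, Q.Θ 1}) = ⊤

/-- every `K`-derivation of a central division algebra is inner (dual bases of the trace form) -/
theorem derivation_inner {K A : Type} [Field K] [CharZero K] [Ring A] [IsDomain A] [Algebra K A]
    [FiniteDimensional K A] [Algebra.IsCentral K A] (d : A →ₗ[K] A)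
    (hd : ∀ a b, d (a * b) = d a * b + a * d b) : ∃ ε, ∀ a, d a = ε * a - a * ε :=
  derivation_inner' d hd

/-- derivations killing a subring are given by elements of the centraliser -/
theorem density (Q : Trip S) (e₁ e₂ : Q.σ → Q.K) (b : Q.σ → NPS (Fin 2) Q.K) (hb : ∀ γ, b γ [] = 0)
    (h1 : ∀ γ, b γ [0] = e₁ γ) (h2 : ∀ γ, b γ [1] = e₂ γ) (hgen : Q.GenΘ)
    (hind : ∀ c₁ c₂ : Q.K, Q.Inn (c₁ • e₁ + c₂ • e₂) → c₁ = 0 ∧ c₂ = 0) :
    DenseXY Q.K (substHom b hb (Q.Psi S.x)) (substHom b hb (Q.Psi S.y)) := by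
  obtain ⟨φ, hφ⟩ : ∃ φ : NPS Q.σ Q.A →+* NPS (Fin 2) Q.A, φ = substHom b hb := ⟨_, rfl⟩
  have hφC : ∀ a, φ (NPS.C a) = NPS.C a := by rw [hφ]; exact (substHom_spec b hb).1
  have hφO : ∀ n f, NPS.Ord n f → NPS.Ord n (φ f) := by rw [hφ]; exact (substHom_spec b hb).2.2
  have hφs : ∀ (c : Q.K) f, φ (c • f) = c • φ f := fun c f =>
    map_smul (densAlg (K := Q.K) φ hφC) c f
  rw [← hφ]
  obtain ⟨B, hB⟩ : ∃ B : Subalgebra Q.K (NPS (Fin 2) Q.A),
    B = Algebra.adjoin Q.K {φ (Q.Psi S.x), φ (Q.Psi S.y)} := ⟨_, rfl⟩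
  have hG : ∀ g ∈ Algebra.adjoin S.K {S.x, S.y}, φ (Q.Psi g) ∈ B := by
    intro g hg
    induction hg using Algebra.adjoin_induction with
    | mem x hx =>
      rw [hB]
      rcases hx with rfl | rfl
      · exact Algebra.subset_adjoin (Or.inl rfl)
      · exact Algebra.subset_adjoin (Or.inr rfl)
    | algebraMap c =>
      rw [NPS.algebraMap_apply, Q.Psi_C, hφC, Q.compat, ← NPS.algebraMap_apply]
      exact B.algebraMap_mem _
    | add x y _ _ hx hy =>
      rw [map_add, map_add]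
      exact B.add_mem hx hy
    | mul x y _ _ hx hy =>
      rw [map_mul, map_mul]
      exact B.mul_mem hx hy
  have hcl : ∀ r, φ (Q.Psi r) ∈ densCl B := by
    intro r n
    let N : Submodule Q.K (NPS Q.σ Q.A) :=
      { carrier := {f | ∃ g ∈ B, NPS.Ord n (φ f - g)}
        add_mem' := by
          rintro f f' ⟨g, hg, hgo⟩ ⟨g', hg', hgo'⟩
          refine ⟨g + g', B.add_mem hg hg', ?_⟩
          rw [map_add, add_sub_add_comm]
          exact dens_Ord_add hgo hgo'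
        zero_mem' := ⟨0, B.zero_mem, by rw [map_zero, sub_zero]; exact dens_Ord_self n⟩
        smul_mem' := by
          rintro c f ⟨g, hg, hgo⟩
          refine ⟨c • g, B.smul_mem hg c, ?_⟩
          rw [hφs, ← smul_sub]
          intro u hu
          rw [NPS.smul_apply, hgo u hu, smul_zero] }
    refine Q.dens_CL (Algebra.adjoin S.K {S.x, S.y} : Subalgebra S.K (NPS (Fin 2) S.A)) S.dense n N
      ?_ ?_ r
    · intro f hf
      exact ⟨0, B.zero_mem, by rw [sub_zero]; exact hφO n f hf⟩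
    · intro g hg
      exact ⟨_, hG g hg, by rw [sub_self]; exact dens_Ord_self n⟩
  have hCmem : ∀ a, (NPS.C (Q.iA a) : NPS (Fin 2) Q.A) ∈ densCl B := by
    intro a
    have := hcl (NPS.C a)
    rwa [Q.Psi_C, hφC] at this
  obtain ⟨T, hT⟩ : ∃ T : Fin 2 → NPS (Fin 2) Q.A, T = fun k => φ (Q.Psi (NPS.X k)) := ⟨_, rfl⟩
  have hTmem : ∀ k, T k ∈ densCl B := fun k => by rw [hT]; exact hcl _
  have T0 : ∀ k, T k [] = Q.Θ k := by
    intro k
    rw [hT]
    show (φ (Q.Psi (NPS.X k))) [] = _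
    rw [hφ, Q.dens_subst_X, NPS.C_nil]
    simp [hb]
  have Tz : ∀ k, T k [0] = ∑ γ, e₁ γ • Q.Lc k γ := by
    intro k
    rw [hT]
    show (φ (Q.Psi (NPS.X k))) [0] = _
    rw [hφ, Q.dens_subst_X, NPS.C_cons, zero_add]
    simp only [h1]
  have To : ∀ k, T k [1] = ∑ γ, e₂ γ • Q.Lc k γ := by
    intro k
    rw [hT]
    show (φ (Q.Psi (NPS.X k))) [1] = _
    rw [hφ, Q.dens_subst_X, NPS.C_cons, zero_add]
    simp only [h2]
  -- degree zero
  have d0 : ∀ a, ∃ g ∈ densCl B, g [] = a := by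
    have hle : Algebra.adjoin Q.K (Set.range Q.iA ∪ {Q.Θ 0, Q.Θ 1}) ≤
        (densCl B).map (densCst (K := Q.K)) := by
      rw [Algebra.adjoin_le_iff]
      rintro x (⟨a, rfl⟩ | rfl | rfl)
      · exact ⟨_, hCmem a, rfl⟩
      · exact ⟨_, hTmem 0, T0 0⟩
      · exact ⟨_, hTmem 1, T0 1⟩
    rw [show Algebra.adjoin Q.K (Set.range Q.iA ∪ {Q.Θ 0, Q.Θ 1}) = ⊤ from hgen] at hle
    intro a
    obtain ⟨g, hg, hga⟩ := hle (Algebra.mem_top : a ∈ ⊤)
    exact ⟨g, hg, hga⟩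
  -- degree one
  have d1 : ∀ a₁ a₂ : Q.A, ∃ g ∈ densCl B, g [] = 0 ∧ g [0] = a₁ ∧ g [1] = a₂ := by
    let N : Submodule Q.K (Q.A × Q.A) :=
      { carrier := {n | ∃ g ∈ densCl B, g [] = 0 ∧ g [0] = n.1 ∧ g [1] = n.2}
        add_mem' := by
          rintro n m ⟨g, hg, g0, gz, go⟩ ⟨h, hh, h0, hz, ho⟩
          exact ⟨g + h, (densCl B).add_mem hg hh, by rw [NPS.add_apply, g0, h0, add_zero],
            by rw [NPS.add_apply, gz, hz]; rfl, by rw [NPS.add_apply, go, ho]; rfl⟩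
        zero_mem' := ⟨0, (densCl B).zero_mem, rfl, rfl, rfl⟩
        smul_mem' := by
          rintro c n ⟨g, hg, g0, gz, go⟩
          exact ⟨c • g, (densCl B).smul_mem hg c, by rw [NPS.smul_apply, g0, smul_zero],
            by rw [NPS.smul_apply, gz]; rfl, by rw [NPS.smul_apply, go]; rfl⟩ }
    suffices hN : N = ⊤ by
      intro a₁ a₂
      have : ((a₁, a₂) : Q.A × Q.A) ∈ N := by rw [hN]; trivial
      exact this
    by_contra hN
    choose s hs hs0 using d0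
    obtain ⟨c₁, c₂, hc, hcN⟩ := dens_bimod N (by
        rintro a n ⟨g, hg, g0, gz, go⟩
        refine ⟨s a * g, (densCl B).mul_mem (hs a) hg, ?_, ?_, ?_⟩
        · rw [NPS.mul_nil, g0, mul_zero]
        · rw [dens_mul_one, g0, mul_zero, add_zero, hs0, gz]
        · rw [dens_mul_one, g0, mul_zero, add_zero, hs0, go]) (by
        rintro a n ⟨g, hg, g0, gz, go⟩
        refine ⟨g * s a, (densCl B).mul_mem hg (hs a), ?_, ?_, ?_⟩
        · rw [NPS.mul_nil, g0, zero_mul]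
        · rw [dens_mul_one, g0, zero_mul, zero_add, hs0, gz]
        · rw [dens_mul_one, g0, zero_mul, zero_add, hs0, go]) hN
    have key : ∀ g ∈ densCl B, c₁ • g [0] + c₂ • g [1] = c₁ • (s (g [])) [0] + c₂ • (s (g [])) [1] := by
      intro g hg
      have := hcN ((g - s (g [])) [0], (g - s (g [])) [1])
        ⟨g - s (g []), (densCl B).sub_mem hg (hs _), by rw [NPS.sub_apply, hs0, sub_self], rfl, rfl⟩
      simp only [NPS.sub_apply, smul_sub] at this
      rw [← sub_eq_zero, ← this]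
      abel
    let d : Q.A →ₗ[Q.K] Q.A :=
      { toFun := fun a => c₁ • (s a) [0] + c₂ • (s a) [1]
        map_add' := by
          intro x y
          have := key (s x + s y) ((densCl B).add_mem (hs x) (hs y))
          rw [NPS.add_apply, NPS.add_apply, NPS.add_apply, hs0, hs0] at this
          rw [← this]
          simp only [smul_add]
          abel
        map_smul' := by
          intro c x
          have := key (c • s x) ((densCl B).smul_mem (hs x) c)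
          rw [NPS.smul_apply, NPS.smul_apply, NPS.smul_apply, hs0] at this
          rw [RingHom.id_apply, ← this, smul_add, smul_comm c c₁, smul_comm c c₂] }
    have dval : ∀ g ∈ densCl B, d (g []) = c₁ • g [0] + c₂ • g [1] := fun g hg => (key g hg).symm
    obtain ⟨ε, hε⟩ := derivation_inner d (by
      intro x y
      have := dval (s x * s y) ((densCl B).mul_mem (hs x) (hs y))
      rw [NPS.mul_nil, hs0, hs0, dens_mul_one, dens_mul_one, hs0, hs0] at this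
      rw [this]
      show _ = (c₁ • (s x) [0] + c₂ • (s x) [1]) * y + x * (c₁ • (s y) [0] + c₂ • (s y) [1])
      simp only [smul_add, mul_add, add_mul, smul_mul_assoc, mul_smul_comm]
      abel)
    refine hc (hind c₁ c₂ ⟨ε, fun a => ?_, fun k => ?_⟩)
    · have e1 := dval _ (hCmem a)
      rw [NPS.C_nil, NPS.C_cons, NPS.C_cons, smul_zero, smul_zero, add_zero, hε] at e1
      exact sub_eq_zero.1 e1
    · have e1 := dval _ (hTmem k)
      rw [T0, Tz, To, hε] at e1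
      rw [e1, Finset.smul_sum, Finset.smul_sum, ← Finset.sum_add_distrib]
      refine Finset.sum_congr rfl fun γ _ => ?_
      rw [Pi.add_apply, Pi.smul_apply, Pi.smul_apply, add_smul, smul_assoc, smul_assoc]
  intro n r
  rw [← hB]
  obtain ⟨g, hg, hgo⟩ := dens_dense (densCl B) d0 d1 n r
  obtain ⟨g', hg', hgo'⟩ := hg n
  refine ⟨g', hg', ?_⟩
  have := dens_Ord_add hgo hgo'
  rwa [sub_add_sub_cancel] at this

/-- `E = C_A(A₀)` -/
def EE (Q : Trip S) : Subalgebra Q.K Q.A := Subalgebra.centralizer Q.K (Set.range Q.iA)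

theorem mem_EE (Q : Trip S) (ε : Q.A) : ε ∈ Q.EE ↔ ∀ a, ε * Q.iA a = Q.iA a * ε := by
  unfold EE
  rw [Subalgebra.mem_centralizer_iff]
  constructor
  · intro h a
    exact (h _ ⟨a, rfl⟩).symm
  · rintro h _ ⟨a, rfl⟩
    exact (h a).symm

/-- `δ ↦ L(δ)` -/
noncomputable def LL (Q : Trip S) : (Q.σ → Q.K) →ₗ[Q.K] (Fin 2 → Q.EE) where
  toFun δ k := ⟨∑ γ, δ γ • Q.Lc k γ, Q.EE.sum_mem fun γ _ => Q.EE.smul_mem
    ((Q.mem_EE _).2 (Q.comm_Lc k γ)) _⟩
  map_add' a b := by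
    funext k
    apply Subtype.ext
    simp [add_smul, Finset.sum_add_distrib]
  map_smul' c a := by
    funext k
    apply Subtype.ext
    simp [mul_smul, Finset.smul_sum]

theorem LL_apply (Q : Trip S) (δ : Q.σ → Q.K) (k : Fin 2) :
    ((Q.LL δ k : Q.EE) : Q.A) = ∑ γ, δ γ • Q.Lc k γ := rfl

theorem LL_bijective (Q : Trip S) : Function.Bijective Q.LL := by
  constructor
  · intro δ δ' h
    obtain ⟨β, -, hβ⟩ := Q.L_bij (fun k => (Q.LL δ k : Q.A)) (fun k => (Q.mem_EE _).1 (Q.LL δ k).2)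
    rw [hβ δ (fun k => (Q.LL_apply δ k).symm), hβ δ' (fun k => by rw [h]; exact (Q.LL_apply δ' k).symm)]
  · intro e
    obtain ⟨β, hβ, -⟩ := Q.L_bij (fun k => (e k : Q.A)) (fun k => (Q.mem_EE _).1 (e k).2)
    refine ⟨β, ?_⟩
    funext k
    exact Subtype.ext (hβ k)

theorem card_EE (Q : Trip S) : Fintype.card Q.σ = 2 * Module.finrank Q.K Q.EE := by
  have := (LinearEquiv.ofBijective Q.LL Q.LL_bijective).finrank_eq
  rw [Module.finrank_fintype_fun_eq_card, Module.finrank_pi_fintype] at this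
  simpa using this

theorem finrank_EE (Q : Trip S) :
    Module.finrank Q.K Q.EE * Module.finrank S.K S.A = Module.finrank Q.K Q.A := by
  have := Q.card_σ
  rw [Q.card_EE, mul_assoc] at this
  exact Nat.eq_of_mul_eq_mul_left (by norm_num) this

/-- `ε ↦ ([ε, Θ₁], [ε, Θ₂])` on `E` -/
noncomputable def adΘ (Q : Trip S) : Q.EE →ₗ[Q.K] (Fin 2 → Q.EE) where
  toFun ε k := ε * ⟨Q.Θ k, (Q.mem_EE _).2 (Q.comm_Θ k)⟩ - ⟨Q.Θ k, (Q.mem_EE _).2 (Q.comm_Θ k)⟩ * ε
  map_add' a b := by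
    funext k
    rw [Pi.add_apply, add_mul, mul_add]
    abel
  map_smul' c a := by
    funext k
    rw [Pi.smul_apply, smul_mul_assoc, mul_smul_comm, RingHom.id_apply, smul_sub]

theorem finrank_adΘ (Q : Trip S) :
    Module.finrank Q.K (LinearMap.range Q.adΘ) + 1 ≤ Module.finrank Q.K Q.EE := by
  rw [← LinearMap.finrank_range_add_finrank_ker Q.adΘ]
  have h1 : (1 : Q.EE) ∈ LinearMap.ker Q.adΘ := by
    rw [LinearMap.mem_ker]
    funext k
    show (1 : Q.EE) * _ - _ * 1 = 0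
    rw [one_mul, mul_one, sub_self]
  have : 0 < Module.finrank Q.K (LinearMap.ker Q.adΘ) := by
    refine Module.finrank_pos_iff_exists_ne_zero.2 ⟨⟨1, h1⟩, fun h => ?_⟩
    have h2 : (1 : Q.EE) = 0 := congrArg Subtype.val h
    exact one_ne_zero h2
  omega

/-- the submodule of inner directions -/
noncomputable def InnS (Q : Trip S) : Submodule Q.K (Q.σ → Q.K) := (LinearMap.range Q.adΘ).comap Q.LL

theorem mem_InnS (Q : Trip S) (δ : Q.σ → Q.K) (h : Q.Inn δ) : δ ∈ Q.InnS := by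
  obtain ⟨ε, h1, h2⟩ := h
  refine ⟨⟨ε, (Q.mem_EE _).2 h1⟩, ?_⟩
  funext k
  exact Subtype.ext (h2 k).symm

theorem finrank_InnS (Q : Trip S) : Module.finrank Q.K Q.InnS + 1 ≤ Module.finrank Q.K Q.EE := by
  refine le_trans (Nat.add_le_add_right ?_ 1) Q.finrank_adΘ
  have h : Submodule.map Q.LL Q.InnS = LinearMap.range Q.adΘ := by
    unfold InnS
    rw [Submodule.map_comap_eq, LinearMap.range_eq_top.2 Q.LL_bijective.2, top_inf_eq]
  rw [← h, (Submodule.equivMapOfInjective Q.LL Q.LL_bijective.1 Q.InnS).finrank_eq]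

/-- choice of the pair -/
theorem exists_pair (Q : Trip S) (w₀ : NPS (Fin 2) S.A)
    (hVC : VfU Q.K (Q.Psi w₀) ≤ CeU Q.K (Q.Psi w₀))
    (hC : PropC (ff Q.K (Q.Psi w₀)) (VfU Q.K (Q.Psi w₀)) (CeU Q.K (Q.Psi w₀)))
    (hg : ∃ e₁ e₂, GoodPair (ff Q.K (Q.Psi w₀)) (VfU Q.K (Q.Psi w₀)) (CeU Q.K (Q.Psi w₀)) e₁ e₂)
    (hgen : Q.GenΘ)
    (hdim : Module.finrank Q.K (VfU Q.K (Q.Psi w₀)) * Module.finrank S.K S.A < Module.finrank Q.K Q.A) :
    ∃ e₁ e₂, GoodPair (ff Q.K (Q.Psi w₀)) (VfU Q.K (Q.Psi w₀)) (CeU Q.K (Q.Psi w₀)) e₁ e₂ ∧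
      ∀ c₁ c₂ : Q.K, Q.Inn (c₁ • e₁ + c₂ • e₂) → c₁ = 0 ∧ c₂ = 0 := by
  have hrad := fun δ hδ => Q.inn_rad w₀ δ hδ
  have hf0 : ff Q.K (Q.Psi w₀) [] = 0 := dens_ff_nil _
  have hVf : VfU Q.K (Q.Psi w₀) = LinearMap.range (lin Q.K (ff Q.K (Q.Psi w₀))) := rfl
  generalize VfU Q.K (Q.Psi w₀) = Vf at *
  generalize CeU Q.K (Q.Psi w₀) = Ce at *
  generalize ff Q.K (Q.Psi w₀) = f at *
  by_cases hCV : Ce ≤ Vf
  · have hker : 2 + Module.finrank Q.K Q.InnS ≤ Module.finrank Q.K (LinearMap.ker (lin Q.K f)) := by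
      have h1 := LinearMap.finrank_range_add_finrank_ker (lin Q.K f)
      rw [← hVf, Module.finrank_fintype_fun_eq_card, Q.card_EE] at h1
      have h2 := Q.finrank_InnS
      rw [← Q.finrank_EE] at hdim
      have h3 := lt_of_mul_lt_mul_right hdim (Nat.zero_le _)
      omega
    obtain ⟨q, hq⟩ : ∃ q : LinearMap.ker (lin Q.K f) →ₗ[Q.K] ((Q.σ → Q.K) ⧸ Q.InnS),
      q = Q.InnS.mkQ.comp (LinearMap.ker (lin Q.K f)).subtype := ⟨_, rfl⟩
    have hqa : ∀ x, q x = 0 → (x : Q.σ → Q.K) ∈ Q.InnS := by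
      intro x hx
      rw [hq, LinearMap.comp_apply, Submodule.mkQ_apply, Submodule.Quotient.mk_eq_zero] at hx
      exact hx
    have hqr : 2 ≤ Module.finrank Q.K (LinearMap.range q) := by
      have h1 := LinearMap.finrank_range_add_finrank_ker q
      have h2 : Module.finrank Q.K (LinearMap.ker q) ≤ Module.finrank Q.K Q.InnS := by
        have hmem : ∀ x : LinearMap.ker q, ((x : LinearMap.ker (lin Q.K f)) : Q.σ → Q.K) ∈ Q.InnS := by
          intro x
          exact hqa _ (LinearMap.mem_ker.1 x.2)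
        refine LinearMap.finrank_le_finrank_of_injective
          (f := ((LinearMap.ker (lin Q.K f)).subtype.comp (LinearMap.ker q).subtype).codRestrict
            Q.InnS hmem) ?_
        intro x y h
        exact Subtype.ext (Subtype.ext (congrArg (fun z : Q.InnS => (z : Q.σ → Q.K)) h))
      omega
    obtain ⟨v, hv⟩ := exists_linearIndependent_of_le_finrank hqr
    have hv' : LinearIndependent Q.K (fun i => ((v i : LinearMap.range q) : (Q.σ → Q.K) ⧸ Q.InnS)) :=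
      hv.map' (LinearMap.range q).subtype (Submodule.ker_subtype _)
    obtain ⟨e₁, he₁⟩ := (v 0).2
    obtain ⟨e₂, he₂⟩ := (v 1).2
    refine ⟨e₁, e₂, ⟨e₁.2, e₂.2, hCV (propC_two f hf0 Vf Ce hVC hC _ _ e₁.2 e₂.2).1,
      fun c₁ hc₁ c₂ hc₂ => ⟨0, map_zero _, ?_, ?_⟩⟩, fun c₁ c₂ h => ?_⟩
    · rw [show quad f (e₁ : Q.σ → Q.K) 0 = 0 by simp [quad], zero_sub]
      exact Vf.neg_mem (hCV hc₁)
    · rw [show quad f (e₂ : Q.σ → Q.K) 0 = 0 by simp [quad], zero_sub]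
      exact Vf.neg_mem (hCV hc₂)
    · have h1 : q (c₁ • e₁ + c₂ • e₂) = 0 := by
        rw [hq, LinearMap.comp_apply, Submodule.mkQ_apply, Submodule.Quotient.mk_eq_zero]
        exact Q.mem_InnS _ h
      rw [map_add, map_smul, map_smul, he₁, he₂] at h1
      have := Fintype.linearIndependent_iff.1 hv' ![c₁, c₂] (by
        rw [Fin.sum_univ_two]
        exact h1)
      exact ⟨this 0, this 1⟩
  · obtain ⟨c, hc, hcV⟩ := Set.not_subset.1 hCV
    obtain ⟨e₁, e₂, hg⟩ := hg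
    refine ⟨e₁, e₂, hg, fun c₁ c₂ h => ?_⟩
    obtain ⟨-, hr⟩ := hrad _ h
    have key : ∀ x ∈ Ce, ∀ y ∈ Ce, c₁ • x + c₂ • y ∈ Vf := by
      intro x hx y hy
      obtain ⟨η, hη, h1, h2⟩ := hg.onto x hx y hy
      have h3 := hr η hη
      have h4 : quad f (c₁ • e₁ + c₂ • e₂) η = c₁ • quad f e₁ η + c₂ • quad f e₂ η := by
        unfold quad
        simp only [Finset.smul_sum, ← Finset.sum_add_distrib, Pi.add_apply, Pi.smul_apply, smul_smul,
          smul_eq_mul, add_mul, add_smul, mul_assoc]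
      rw [h4] at h3
      have h5 := Vf.sub_mem h3 (Vf.add_mem (Vf.smul_mem c₁ h1) (Vf.smul_mem c₂ h2))
      convert h5 using 1
      simp only [smul_sub]
      abel
    constructor
    · by_contra h0
      have := key c hc 0 Ce.zero_mem
      rw [smul_zero, add_zero] at this
      exact hcV ((Vf.smul_mem_iff h0).1 this)
    · by_contra h0
      have := key 0 Ce.zero_mem c hc
      rw [smul_zero, zero_add] at this
      exact hcV ((Vf.smul_mem_iff h0).1 this)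

end Trip

end Vale.Agent.P199K
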