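import Vale.Agent.P199K.Lagr
import Vale.Agent.P199K.TrDC

/-! # P199, section 10: general lemmas for density -/

open scoped TensorProduct LaurentSeries
open PowerSeries

namespace Vale.Agent.P199K

section Ord
variable {τ R : Type} [Ring R]

theorem dens_Ord_add {n : ℕ} {f g : NPS τ R} (hf : NPS.Ord n f) (hg : NPS.Ord n g) :
    NPS.Ord n (f + g) := fun u hu => by rw [NPS.add_apply, hf u hu, hg u hu, add_zero]

theorem dens_Ord_sub {n : ℕ} {f g : NPS τ R} (hf : NPS.Ord n f) (hg : NPS.Ord n g) :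
    NPS.Ord n (f - g) := fun u hu => by rw [NPS.sub_apply, hf u hu, hg u hu, sub_zero]

theorem dens_Ord_neg {n : ℕ} {f : NPS τ R} (hf : NPS.Ord n f) :
    NPS.Ord n (-f) := fun u hu => by rw [NPS.neg_apply, hf u hu, neg_zero]

theorem dens_Ord_0 (f : NPS τ R) : NPS.Ord 0 f := fun u hu => absurd hu (by simp)

theorem dens_Ord_self (n : ℕ) : NPS.Ord n (0 : NPS τ R) := fun _ _ => rfl

theorem dens_Ord_mul {m n : ℕ} {f g : NPS τ R} (hf : NPS.Ord m f) (hg : NPS.Ord n g) :
    NPS.Ord (m + n) (f * g) := fun u hu => NPS.sg_Ord_mul u m n f g hf hg hu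

theorem dens_Ord_mul_left {n : ℕ} (f : NPS τ R) {g : NPS τ R} (hg : NPS.Ord n g) :
    NPS.Ord n (f * g) := by
  have := dens_Ord_mul (dens_Ord_0 f) hg
  rwa [zero_add] at this

theorem dens_Ord_mul_right {n : ℕ} {f : NPS τ R} (g : NPS τ R) (hf : NPS.Ord n f) :
    NPS.Ord n (f * g) := by
  have := dens_Ord_mul hf (dens_Ord_0 g)
  rwa [add_zero] at this

theorem dens_Ord_mono {m n : ℕ} (h : m ≤ n) {f : NPS τ R} (hf : NPS.Ord n f) : NPS.Ord m f :=
  fun u hu => hf u (by omega)

theorem dens_Ord_one {f : NPS τ R} (h : f [] = 0) : NPS.Ord 1 f := by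
  intro u hu
  have : u = [] := by
    rw [← List.length_eq_zero_iff]; omega
  rw [this, h]

theorem dens_Ord_two {f : NPS τ R} (h : f [] = 0) (h1 : ∀ x, f [x] = 0) : NPS.Ord 2 f := by
  intro u hu
  match u, hu with
  | [], _ => exact h
  | [x], _ => exact h1 x
  | x :: y :: v, hu => simp at hu

theorem dens_mul_one (f g : NPS τ R) (x : τ) : (f * g) [x] = f [] * g [x] + f [x] * g [] := by
  rw [NPS.mul_cons, NPS.mul_nil]; rfl

theorem dens_mul_two (f g : NPS τ R) (x y : τ) :
    (f * g) [x, y] = f [] * g [x, y] + (f [x] * g [y] + f [x, y] * g []) := by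
  rw [NPS.mul_cons, dens_mul_one]; rfl

end Ord

section Hom
variable {K A σ : Type} [Field K] [Ring A] [Algebra K A]

/-- a ring hom of series rings over `A` fixing the constants, as an algebra hom -/
def densAlg {τ : Type} (F : NPS σ A →+* NPS τ A) (hF : ∀ a, F (NPS.C a) = NPS.C a) :
    NPS σ A →ₐ[K] NPS τ A where
  toRingHom := F
  commutes' c := by
    show F (algebraMap K (NPS σ A) c) = _
    rw [NPS.algebraMap_apply, hF, NPS.algebraMap_apply]

theorem densAlg_apply {τ : Type} (F : NPS σ A →+* NPS τ A) (hF : ∀ a, F (NPS.C a) = NPS.C a)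
    (f : NPS σ A) : densAlg (K := K) F hF f = F f := rfl

theorem dens_hom_aeval {τ : Type} (F : NPS σ A →+* NPS τ A) (hF : ∀ a, F (NPS.C a) = NPS.C a)
    (w : NPS σ A) (p : Polynomial K) : F (Polynomial.aeval w p) = Polynomial.aeval (F w) p := by
  rw [← densAlg_apply (K := K) F hF, ← densAlg_apply (K := K) F hF, Polynomial.aeval_algHom_apply]

/-- the constant coefficient as an algebra hom -/
def densCst : NPS σ A →ₐ[K] A where
  toFun f := f []
  map_one' := rfl
  map_mul' _ _ := rfl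
  map_zero' := rfl
  map_add' _ _ := rfl
  commutes' _ := rfl

theorem dens_aeval_nil (w : NPS σ A) (p : Polynomial K) :
    (Polynomial.aeval w p) [] = Polynomial.aeval (w []) p :=
  (Polynomial.aeval_algHom_apply (densCst (K := K)) w p).symm

theorem dens_ff_nil (w : NPS σ A) : ff K w [] = 0 := by
  unfold ff
  rw [dens_aeval_nil, minpoly.aeval]

theorem dens_semiconj_aeval {R : Type} [Ring R] [Algebra K R] (u v₁ v₂ : R)
    (h : u * v₁ = v₂ * u) (p : Polynomial K) :
    u * Polynomial.aeval v₁ p = Polynomial.aeval v₂ p * u := by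
  induction p using Polynomial.induction_on' with
  | add p q hp hq => rw [map_add, map_add, mul_add, add_mul, hp, hq]
  | monomial n c =>
    rw [Polynomial.aeval_monomial, Polynomial.aeval_monomial]
    have h1 : u * v₁ ^ n = v₂ ^ n * u := (show SemiconjBy u v₁ v₂ from h).pow_right n
    rw [mul_assoc, ← h1, ← mul_assoc, ← mul_assoc, Algebra.commutes c u]

end Hom

/-! ### the conjugating series `1 - ε s₁` -/

section Conj
variable {A : Type} [Ring A]

/-- `(1 - ε s₁)⁻¹` -/
noncomputable def densInv (ε : A) : NPS (Fin 2) A :=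
  fun v => if ∀ x ∈ v, x = 0 then ε ^ v.length else 0

theorem densInv_nil (ε : A) : densInv ε [] = 1 := by
  simp [densInv]

theorem densInv_zero (ε : A) : densInv ε [0] = ε := by
  simp [densInv]

theorem densInv_one (ε : A) : densInv ε [1] = 0 := by
  simp [densInv]

theorem densInv_dl0 (ε : A) : NPS.dl 0 (densInv ε) = NPS.C ε * densInv ε := by
  ext v
  rw [NPS.C_mul_apply, NPS.dl_apply]
  unfold densInv
  by_cases h : ∀ x ∈ v, x = 0
  · rw [if_pos h, if_pos (by simpa using h), List.length_cons, pow_succ']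
  · rw [if_neg h, if_neg (by simpa using h), mul_zero]

theorem densInv_dl1 (ε : A) : NPS.dl 1 (densInv ε) = 0 := by
  ext v
  rw [NPS.dl_apply]
  unfold densInv
  rw [if_neg (by simp)]
  rfl

theorem densInv_mul (ε : A) : (1 - NPS.X 0 * NPS.C ε) * densInv ε = 1 := by
  rw [sub_mul, one_mul]
  conv_lhs => enter [1]; rw [NPS.eq_C_add_sum (densInv ε)]
  rw [Fin.sum_univ_two, densInv_dl0, densInv_dl1, mul_zero, add_zero, densInv_nil, map_one,
    mul_assoc, add_sub_cancel_right]

theorem dens_X_comm_C {τ : Type} [DecidableEq τ] (x : τ) (a : A) :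
    (NPS.X x * NPS.C a : NPS τ A) = NPS.C a * NPS.X x := by
  ext u
  rw [NPS.sg_mul_C_apply, NPS.C_mul_apply]
  unfold NPS.X
  split_ifs <;> simp

theorem dens_u_nil (ε : A) : (1 - NPS.X 0 * NPS.C ε : NPS (Fin 2) A) [] = 1 := by
  rw [NPS.sub_apply, NPS.sg_mul_C_apply, NPS.sg_X_nil, zero_mul, sub_zero]; rfl

theorem dens_u_zero (ε : A) : (1 - NPS.X 0 * NPS.C ε : NPS (Fin 2) A) [0] = -ε := by
  rw [NPS.sub_apply, NPS.sg_mul_C_apply]
  simp [NPS.X, NPS.one_def]

theorem dens_u_one (ε : A) : (1 - NPS.X 0 * NPS.C ε : NPS (Fin 2) A) [1] = 0 := by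
  rw [NPS.sub_apply, NPS.sg_mul_C_apply]
  simp [NPS.X, NPS.one_def]

theorem dens_u_two (ε : A) (x y : Fin 2) : (1 - NPS.X 0 * NPS.C ε : NPS (Fin 2) A) [x, y] = 0 := by
  rw [NPS.sub_apply, NPS.sg_mul_C_apply]
  simp [NPS.X, NPS.one_def]

theorem dens_u_comm (ε a : A) (h : ε * a = a * ε) :
    (1 - NPS.X 0 * NPS.C ε : NPS (Fin 2) A) * NPS.C a = NPS.C a * (1 - NPS.X 0 * NPS.C ε) := by
  rw [sub_mul, mul_sub, one_mul, mul_one, mul_assoc, ← map_mul, h, map_mul, ← mul_assoc, ← mul_assoc,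
    dens_X_comm_C]

theorem densInv_comm (ε a : A) (h : ε * a = a * ε) :
    densInv ε * NPS.C a = NPS.C a * densInv ε := by
  ext v
  rw [NPS.sg_mul_C_apply, NPS.C_mul_apply]
  unfold densInv
  split_ifs
  · exact ((show Commute ε a from h).pow_left _).eq
  · rw [zero_mul, mul_zero]

end Conj

/-! ### sub-bimodules of `A × A` -/

section Bimod
variable {K A : Type} [Field K] [Ring A] [IsDomain A] [Algebra K A] [FiniteDimensional K A]
  [Algebra.IsCentral K A]

/-- a proper `A`-`A`-sub-bimodule of `A × A` is killed by some `(c₁, c₂) ∈ K²`, not zero -/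
theorem dens_bimod (N : Submodule K (A × A)) (hl : ∀ (a : A) (n : A × A), n ∈ N → (a * n.1, a * n.2) ∈ N)
    (hr : ∀ (a : A) (n : A × A), n ∈ N → (n.1 * a, n.2 * a) ∈ N) (hN : N ≠ ⊤) :
    ∃ c₁ c₂ : K, ¬ (c₁ = 0 ∧ c₂ = 0) ∧ ∀ n ∈ N, c₁ • n.1 + c₂ • n.2 = 0 := by
  have hinv : ∀ a : A, a ≠ 0 → ∃ b, a * b = 1 ∧ b * a = 1 := fun a ha => by
    obtain ⟨b, hb⟩ := exists_inv K ha
    exact ⟨b, hb⟩
  by_cases h2 : ∀ n ∈ N, n.2 = 0
  · exact ⟨0, 1, by simp, fun n hn => by rw [h2 n hn]; simp⟩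
  · push Not at h2
    obtain ⟨n, hn, hn2⟩ := h2
    obtain ⟨b, hb1, -⟩ := hinv _ hn2
    have h1 : ((n.1 * b, 1) : A × A) ∈ N := by
      have := hr b n hn
      rwa [hb1] at this
    obtain ⟨c, hc⟩ : ∃ c, c = n.1 * b := ⟨_, rfl⟩
    rw [← hc] at h1
    by_cases h0 : ∀ x : A, ((x, 0) : A × A) ∈ N → x = 0
    · have hcc : c ∈ Subalgebra.center K A := by
        rw [Subalgebra.mem_center_iff]
        intro a
        have e := N.sub_mem (hl a _ h1) (hr a _ h1)
        simp only [mul_one, one_mul, Prod.mk_sub_mk, sub_self] at e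
        exact sub_eq_zero.1 (h0 _ e)
      have := (Algebra.IsCentral.center_eq_bot K A) ▸ hcc
      rw [Algebra.mem_bot] at this
      obtain ⟨k, hk⟩ := this
      refine ⟨1, -k, by simp, fun m hm => ?_⟩
      have e := N.sub_mem hm (hl m.2 _ h1)
      have e' : m - (m.2 * c, m.2 * 1) = (m.1 - m.2 * c, 0) := by
        ext <;> simp
      rw [e'] at e
      have := h0 _ e
      rw [one_smul, neg_smul, ← sub_eq_add_neg, Algebra.smul_def, hk, ← this]
      congr 1
      have := (Subalgebra.mem_center_iff.1 hcc) m.2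
      exact this.symm
    · push Not at h0
      obtain ⟨x, hx, hx0⟩ := h0
      obtain ⟨y, hy1, hy2⟩ := hinv _ hx0
      refine absurd ?_ hN
      rw [eq_top_iff]
      rintro ⟨p, q⟩ -
      have e1 : ((p, 0) : A × A) ∈ N := by
        have := hl (p * y) _ hx
        simp only [mul_zero] at this
        rwa [mul_assoc, hy2, mul_one] at this
      have e2 : ((q * c, q) : A × A) ∈ N := by
        have := hl q _ h1
        rwa [mul_one] at this
      have e3 : ((q * c, 0) : A × A) ∈ N := by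
        have := hl (q * c * y) _ hx
        simp only [mul_zero] at this
        rwa [mul_assoc, hy2, mul_one] at this
      have := N.add_mem (N.sub_mem e2 e3) e1
      simpa using this

end Bimod

/-! ### closed subalgebras of `A<<s₁,s₂>>` -/

section Closure
variable {K A : Type} [Field K] [Ring A] [Algebra K A]

/-- the closure of a subalgebra -/
def densCl (B : Subalgebra K (NPS (Fin 2) A)) : Subalgebra K (NPS (Fin 2) A) where
  carrier := {r | ∀ n, ∃ g ∈ B, NPS.Ord n (r - g)}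
  mul_mem' := by
    intro r s hr hs n
    obtain ⟨g, hg, hgo⟩ := hr n
    obtain ⟨h, hh, hho⟩ := hs n
    refine ⟨g * h, B.mul_mem hg hh, ?_⟩
    have : r * s - g * h = (r - g) * s + g * (s - h) := by noncomm_ring
    rw [this]
    exact dens_Ord_add (dens_Ord_mul_right _ hgo) (dens_Ord_mul_left _ hho)
  add_mem' := by
    intro r s hr hs n
    obtain ⟨g, hg, hgo⟩ := hr n
    obtain ⟨h, hh, hho⟩ := hs n
    refine ⟨g + h, B.add_mem hg hh, ?_⟩
    have : r + s - (g + h) = (r - g) + (s - h) := by abel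
    rw [this]
    exact dens_Ord_add hgo hho
  algebraMap_mem' := by
    intro c n
    exact ⟨_, B.algebraMap_mem c, by rw [sub_self]; exact dens_Ord_self n⟩

theorem mem_densCl {B : Subalgebra K (NPS (Fin 2) A)} {r : NPS (Fin 2) A} :
    r ∈ densCl B ↔ ∀ n, ∃ g ∈ B, NPS.Ord n (r - g) := Iff.rfl

/-- a subalgebra which is onto in degrees `0` and `1` is dense -/
theorem dens_dense (B : Subalgebra K (NPS (Fin 2) A)) (h0 : ∀ a, ∃ g ∈ B, g [] = a)
    (h1 : ∀ a₁ a₂ : A, ∃ g ∈ B, g [] = 0 ∧ g [0] = a₁ ∧ g [1] = a₂) (n : ℕ) (r : NPS (Fin 2) A) :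
    ∃ g ∈ B, NPS.Ord n (r - g) := by
  have hX : ∀ x : Fin 2, ∃ g ∈ B, NPS.Ord 1 g ∧ NPS.Ord 2 (NPS.X x - g) := by
    intro x
    obtain ⟨g, hg, hg0, hg1, hg2⟩ := h1 (NPS.X x [0]) (NPS.X x [1])
    refine ⟨g, hg, dens_Ord_one hg0, dens_Ord_two ?_ ?_⟩
    · rw [NPS.sub_apply, NPS.sg_X_nil, hg0, sub_zero]
    · intro y
      rw [NPS.sub_apply]
      match y with
      | 0 => rw [hg1, sub_self]
      | 1 => rw [hg2, sub_self]
  have hQ : ∀ n (r : NPS (Fin 2) A), NPS.Ord n r → ∃ g ∈ B, NPS.Ord n g ∧ NPS.Ord (n + 1) (r - g) := by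
    intro n
    induction n with
    | zero =>
      intro r _
      obtain ⟨g, hg, hg0⟩ := h0 (r [])
      exact ⟨g, hg, dens_Ord_0 g, dens_Ord_one (by rw [NPS.sub_apply, hg0, sub_self])⟩
    | succ n ih =>
      intro r hr
      have hdl : ∀ x, NPS.Ord n (NPS.dl x r) := fun x u hu => hr (x :: u) (by simp; omega)
      choose g hg hgo hgo' using fun x => ih (NPS.dl x r) (hdl x)
      choose y hy hyo hyo' using hX
      refine ⟨∑ x, y x * g x, B.sum_mem fun x _ => B.mul_mem (hy x) (hg x), ?_, ?_⟩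
      · rw [Fin.sum_univ_two]
        refine dens_Ord_add ?_ ?_
        · rw [add_comm]; exact dens_Ord_mul (hyo _) (hgo _)
        · rw [add_comm]; exact dens_Ord_mul (hyo _) (hgo _)
      · have e : r - ∑ x, y x * g x = ∑ x, (NPS.X x * (NPS.dl x r - g x) + (NPS.X x - y x) * g x) := by
          conv_lhs => enter [1]; rw [NPS.eq_C_add_sum r, hr [] (by simp), map_zero, zero_add]
          rw [← Finset.sum_sub_distrib]
          refine Finset.sum_congr rfl fun x _ => ?_
          noncomm_ring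
        rw [e, Fin.sum_univ_two]
        have hXo : ∀ x : Fin 2, NPS.Ord 1 (NPS.X x : NPS (Fin 2) A) := fun x =>
          dens_Ord_one (NPS.sg_X_nil x)
        have key : ∀ x, NPS.Ord (n + 1 + 1) (NPS.X x * (NPS.dl x r - g x) + (NPS.X x - y x) * g x) := by
          intro x
          refine dens_Ord_add ?_ ?_
          · rw [add_comm]; exact dens_Ord_mul (hXo _) (hgo' _)
          · rw [show n + 1 + 1 = 2 + n by omega]; exact dens_Ord_mul (hyo' _) (hgo _)
        exact dens_Ord_add (key 0) (key 1)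
  induction n with
  | zero => exact ⟨0, B.zero_mem, dens_Ord_0 _⟩
  | succ n ih =>
    obtain ⟨g, hg, hgo⟩ := ih
    obtain ⟨h, hh, -, hho⟩ := hQ n (r - g) hgo
    exact ⟨g + h, B.add_mem hg hh, by rwa [← sub_sub]⟩

end Closure

end Vale.Agent.P199K
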