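import Vale.Agent.P199K.Adm
import Vale.Agent.P199K.Tr

/-!
# P199: PI lemmas for symbol algebras (section 5), proofs

Notation: `g : List σ → A` (only the words of length `n` matter), `β : σ → E₁`,
`evh ι j g β n = ∑_{|u| = n} ι (g u) * j (β_u)`, `β_u` the product of the `β` along the word `u`.

PROOFS (all from `SymAdm`, no matrices):
(a) `polar`: if `evh ι j g β n ∈ W` for all `β` (`W` an additive subgroup of `A₁`) then for every
`w : Fin n → σ` and `β' : Fin n → E₁`:
`∑_{π : Perm (Fin n)} ι (g (ofFn (w ∘ π))) * j (∏_i β' (π i)) ∈ W`.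
Inclusion-exclusion: for `S ⊆ Fin n` put `β^S_γ = ∑_{i ∈ S, w i = γ} β' i`; then
`evh g β^S n = ∑_{f : Fin n → Fin n, range f ⊆ S} ι (g (w ∘ f)) * j (∏ β' (f i))`, and
`∑_S (-1)^{n-|S|}` of this keeps only the bijective `f` (`Finset.sum_powerset_neg_one_pow_card`
applied to the complements).
(b) `mono_prod`: `∏_{t<n} (X^{a (π t)} Y) = ζ^{∑_t t * a (π t)} X^{∑ a} Y^n`.
(c) `kernel`: if `∑_π ι (G π) * j (∏ β' (π i)) = 0` for all `β' : Fin n → E₁` and `n ≤ m` then `G 1 = 0`.
Take `β' i = X^{a i} Y`, `a : Fin n → Fin m`; by (b) and invertibility of `X, Y`: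
`∑_π ζ^{∑_t t a(π t)} G π = 0` for all `a`; multiply by `ζ^{-∑_t t a t}` and sum over `a`: the inner sum over
`a l` is `m` if `π⁻¹ l = l` and `0` otherwise (`t < n ≤ m`, ζ primitive). So `m^n G 1 = 0`.
The same argument shows it if the sums only commute with `j X` and `1 ≤ n < m` (`Y^n X = ζ^n X Y^n`).
(d) `PI1`: (a) with `W = 0` and (c). `PI3`: (a) with `W` the centralizer of `j X`.
(e) `PI2`: by (a) (with `W` the kernel of the trace; scalar coefficients) for all `w, β'`:
`∑_π g (w ∘ π) tr (∏ β' (π i)) = 0`. The trace is invariant under rotation, every `π` has exactly one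
rotation `s` with `π (last + s) = last`; so the sum is
`∑_{π last = last} (∑_s g (w ∘ π ∘ rot^s)) tr (β'(π 0) ⋯ β'(π (n-2)) β' last)`; the trace form of `E₁` is
nondegenerate, so `∑_{π' : Perm (Fin (n-1))} G(π') β'(π' 0) ⋯ β'(π' (n-2)) = 0`, and (c) gives `G 1 = 0`.
-/

namespace Vale.Agent.P199K

section PIaux

open Finset

/-- inversion over the image -/
theorem pi_moebius {n : ℕ} {M : Type} [AddCommGroup M] (W : AddSubgroup M)
    (F : (Fin n → Fin n) → M)
    (h : ∀ S : Finset (Fin n),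
      (∑ f ∈ univ.filter (fun f : Fin n → Fin n => ∀ t, f t ∈ S), F f) ∈ W) :
    ∑ π : Equiv.Perm (Fin n), F π ∈ W := by
  classical
  have key : ∀ S : Finset (Fin n),
      (∑ f ∈ univ.filter (fun f : Fin n → Fin n => univ.image f = S), F f) ∈ W := by
    intro S
    induction S using Finset.strongInduction with
    | _ S ih =>
      have h1 : (∑ f ∈ univ.filter (fun f : Fin n → Fin n => ∀ t, f t ∈ S), F f)
          = ∑ T ∈ S.powerset,
            ∑ f ∈ univ.filter (fun f : Fin n → Fin n => univ.image f = T), F f := by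
        rw [← Finset.sum_fiberwise_of_maps_to
          (g := fun f : Fin n → Fin n => univ.image f) (t := S.powerset)]
        · apply sum_congr rfl
          intro T hT
          apply sum_congr _ (fun _ _ => rfl)
          ext f
          simp only [mem_filter, mem_univ, true_and]
          constructor
          · exact fun h => h.2
          · intro hf
            refine ⟨fun t => ?_, hf⟩
            exact (mem_powerset.1 hT) (hf ▸ mem_image_of_mem f (mem_univ t))
        · intro f hf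
          rw [mem_powerset]
          intro x hx
          obtain ⟨t, _, rfl⟩ := mem_image.1 hx
          exact (mem_filter.1 hf).2 t
      have h2 : S ∈ S.powerset := mem_powerset_self S
      have h3 := Finset.add_sum_erase S.powerset (fun T =>
        ∑ f ∈ univ.filter (fun f : Fin n → Fin n => univ.image f = T), F f) h2
      have h4 := h S
      rw [h1, ← h3] at h4
      have h5 : (∑ T ∈ S.powerset.erase S,
          ∑ f ∈ univ.filter (fun f : Fin n → Fin n => univ.image f = T), F f) ∈ W := by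
        apply W.sum_mem
        intro T hT
        apply ih
        rw [mem_erase, mem_powerset] at hT
        exact (Finset.ssubset_iff_subset_ne).2 ⟨hT.2, hT.1⟩
      exact (W.add_mem_cancel_right h5).1 h4
  have h1 := key univ
  have h2 : ∑ π : Equiv.Perm (Fin n), F π
      = ∑ f ∈ univ.filter (fun f : Fin n → Fin n => univ.image f = univ), F f := by
    refine Finset.sum_bij (fun π _ => (π : Fin n → Fin n)) ?_ ?_ ?_ ?_
    · intro π _
      rw [mem_filter]
      refine ⟨mem_univ _, ?_⟩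
      exact Finset.image_univ_of_surjective π.surjective
    · intro π _ π' _ hh
      exact DFunLike.coe_injective hh
    · intro f hf
      have hs : Function.Surjective f := by
        intro y
        have : y ∈ univ.image f := by rw [(mem_filter.1 hf).2]; exact mem_univ y
        obtain ⟨x, _, hx⟩ := mem_image.1 this
        exact ⟨x, hx⟩
      have hb : Function.Bijective f := ⟨Finite.injective_iff_surjective.2 hs, hs⟩
      exact ⟨Equiv.ofBijective f hb, mem_univ _, rfl⟩
    · intro π _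
      rfl
  rw [h2]
  exact h1

/-- polarisation -/
theorem pi_polar {n : ℕ} {σ E M : Type} [Fintype σ] [Ring E] [AddCommGroup M] (W : AddSubgroup M)
    (L : (Fin n → σ) → E →+ M)
    (h : ∀ β : σ → E, ∑ u : Fin n → σ, L u (List.ofFn (fun t => β (u t))).prod ∈ W)
    (w : Fin n → σ) (b : Fin n → E) :
    ∑ π : Equiv.Perm (Fin n), L (fun t => w (π t)) (List.ofFn (fun t => b (π t))).prod ∈ W := by
  classical
  refine pi_moebius W (fun f => L (fun t => w (f t)) (List.ofFn (fun t => b (f t))).prod) ?_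
  intro S
  have h1 := h (fun γ => ∑ i ∈ S.filter (fun i => w i = γ), b i)
  have h2 : ∀ u : Fin n → σ,
      (List.ofFn (fun t => ∑ i ∈ S.filter (fun i => w i = u t), b i)).prod
      = ∑ f ∈ Fintype.piFinset (fun t => S.filter (fun i => w i = u t)),
        (List.ofFn (fun t => b (f t))).prod := by
    intro u
    have := (MultilinearMap.mkPiAlgebraFin ℤ n E).map_sum_finset (fun _ i => b i)
      (fun t => S.filter (fun i => w i = u t))
    simpa only [MultilinearMap.mkPiAlgebraFin_apply] using this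
  have h3 : ∑ u : Fin n → σ,
      L u (List.ofFn (fun t => ∑ i ∈ S.filter (fun i => w i = u t), b i)).prod
      = ∑ f ∈ univ.filter (fun f : Fin n → Fin n => ∀ t, f t ∈ S),
        L (fun t => w (f t)) (List.ofFn (fun t => b (f t))).prod := by
    simp only [h2, map_sum]
    rw [Finset.sum_comm' (t' := univ.filter (fun f : Fin n → Fin n => ∀ t, f t ∈ S))
      (s' := fun f => {fun t => w (f t)})]
    · simp only [sum_singleton]
    · intro u f
      simp only [mem_univ, true_and, Fintype.mem_piFinset, mem_filter, mem_singleton]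
      constructor
      · intro hh
        exact ⟨funext fun t => ((hh t).2).symm, fun t => (hh t).1⟩
      · rintro ⟨rfl, hh⟩ t
        exact ⟨hh t, rfl⟩
  rw [h3] at h1
  exact h1

section mono

variable {K₁ E : Type} [Field K₁] [Ring E] [Algebra K₁ E] {X Y : E} {q : K₁}

theorem pi_YX (h : Y * X = q • (X * Y)) (c : ℕ) : Y * X ^ c = q ^ c • (X ^ c * Y) := by
  induction c with
  | zero => simp
  | succ c ih =>
    rw [pow_succ, ← mul_assoc, ih, smul_mul_assoc, mul_assoc, h, mul_smul_comm, smul_smul,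
      ← mul_assoc, ← pow_succ, pow_succ]

theorem pi_YXn (h : Y * X = q • (X * Y)) (n c : ℕ) :
    Y ^ n * X ^ c = q ^ (n * c) • (X ^ c * Y ^ n) := by
  induction n with
  | zero => simp
  | succ n ih =>
    rw [pow_succ, mul_assoc, pi_YX h, mul_smul_comm, ← mul_assoc, ih, smul_mul_assoc, smul_smul,
      mul_assoc, ← pow_succ, ← pow_add]
    congr 2
    ring

theorem pi_mono (h : Y * X = q • (X * Y)) (n : ℕ) (c : Fin n → ℕ) :
    (List.ofFn (fun t => X ^ c t * Y)).prod
      = q ^ (∑ t : Fin n, (t : ℕ) * c t) • (X ^ (∑ t, c t) * Y ^ n) := by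
  induction n with
  | zero => simp
  | succ n ih =>
    rw [List.ofFn_succ', List.concat_eq_append, List.prod_append, List.prod_singleton,
      ih (fun t => c (Fin.castSucc t)), Fin.sum_univ_castSucc, Fin.sum_univ_castSucc]
    rw [smul_mul_assoc, mul_assoc, ← mul_assoc (Y ^ n), pi_YXn h, smul_mul_assoc, mul_smul_comm,
      smul_smul, ← pow_add, mul_assoc (X ^ _), ← mul_assoc (X ^ _) (X ^ _), ← pow_add,
      ← pow_succ]
    simp only [Fin.val_castSucc, Fin.val_last]

end mono

/-- characters -/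
theorem pi_kernel {K : Type} [Field K] {n m : ℕ} {ζ : K} (hζ : IsPrimitiveRoot ζ m) (hn : n ≤ m)
    {V : Type} [AddCommGroup V] [Module K V] (G : Equiv.Perm (Fin n) → V)
    (h : ∀ a : Fin n → ℕ,
      ∑ π : Equiv.Perm (Fin n), ζ ^ (∑ t : Fin n, (t : ℕ) * a (π t)) • G π = 0)
    (π : Equiv.Perm (Fin n)) : G π = 0 := by
  classical
  let χ : Equiv.Perm (Fin n) → (Multiplicative (Fin n → ℕ) →* K) := fun π =>
    { toFun := fun a => ζ ^ (∑ t : Fin n, (t : ℕ) * (Multiplicative.toAdd a) (π t))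
      map_one' := by simp
      map_mul' := fun a b => by
        rw [← pow_add, ← Finset.sum_add_distrib]
        congr 1
        apply Finset.sum_congr rfl
        intro t _
        rw [toAdd_mul, Pi.add_apply, mul_add] }
  have hχ : ∀ π a, χ π a = ζ ^ (∑ t : Fin n, (t : ℕ) * (Multiplicative.toAdd a) (π t)) :=
    fun _ _ => rfl
  have hval : ∀ (π : Equiv.Perm (Fin n)) (s : Fin n),
      χ π (Multiplicative.ofAdd (Pi.single s 1)) = ζ ^ ((π.symm s : Fin n) : ℕ) := by
    intro π s
    rw [hχ, toAdd_ofAdd, Finset.sum_eq_single (π.symm s)]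
    · rw [Equiv.apply_symm_apply, Pi.single_eq_same, mul_one]
    · intro t _ ht
      rw [Pi.single_eq_of_ne, mul_zero]
      intro hts
      apply ht
      rw [← hts, Equiv.symm_apply_apply]
    · intro hh
      exact absurd (mem_univ _) hh
  have hinj : Function.Injective χ := by
    intro π π' hh
    have h1 : ∀ s, π.symm s = π'.symm s := by
      intro s
      have h2 := DFunLike.congr_fun hh (Multiplicative.ofAdd (Pi.single s 1))
      rw [hval, hval] at h2
      have h3 := hζ.pow_inj (lt_of_lt_of_le (π.symm s).2 hn)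
        (lt_of_lt_of_le (π'.symm s).2 hn) h2
      exact Fin.ext h3
    have h4 : π.symm = π'.symm := Equiv.ext h1
    exact Equiv.symm_bijective.injective h4
  have hli := (linearIndependent_monoidHom (Multiplicative (Fin n → ℕ)) K).comp χ hinj
  rw [Fintype.linearIndependent_iff] at hli
  rw [← Module.forall_dual_apply_eq_zero_iff K]
  intro φ
  refine hli (fun π => φ (G π)) ?_ π
  funext a
  have h1 := congrArg φ (h (Multiplicative.toAdd a))
  rw [map_sum, map_zero] at h1
  rw [Finset.sum_apply, Pi.zero_apply, ← h1]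
  apply Finset.sum_congr rfl
  intro π _
  rw [map_smul, Pi.smul_apply, smul_eq_mul, smul_eq_mul, mul_comm]
  rfl


theorem pi_rot {α : Type} {N : ℕ} (f : Fin (N + 1) → α) (s : Fin (N + 1)) :
    List.ofFn (fun t => f (t + s)) = (List.ofFn f).rotate s := by
  apply List.ext_getElem
  · simp
  · intro i h1 h2
    rw [List.getElem_rotate, List.getElem_ofFn, List.getElem_ofFn]
    refine congrArg f (Fin.ext ?_)
    rw [Fin.val_add]
    simp only [List.length_ofFn]

theorem pi_trc_rotate {K A : Type} [Field K] [Ring A] [Algebra K A] (l : List A) (s : ℕ)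
    (hs : s ≤ l.length) : trc K (l.rotate s).prod = trc K l.prod := by
  rw [List.rotate_eq_drop_append_take hs, List.prod_append, tr_mul_comm,
    List.prod_take_mul_prod_drop]

/-- permutations of `Fin (N + 1)` as rotations followed by permutations fixing `0` -/
noncomputable def piExt {N : ℕ} (p : Fin (N + 1) × Equiv.Perm (Fin N)) :
    Equiv.Perm (Fin (N + 1)) :=
  (Equiv.addRight p.1).trans (Equiv.Perm.decomposeFin.symm (0, p.2))

theorem piExt_apply {N : ℕ} (p : Fin (N + 1) × Equiv.Perm (Fin N)) (t : Fin (N + 1)) :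
    piExt p t = Equiv.Perm.decomposeFin.symm (0, p.2) (t + p.1) := rfl

theorem pi_bij (N : ℕ) : Function.Bijective (piExt (N := N)) := by
  rw [Fintype.bijective_iff_injective_and_card]
  constructor
  · rintro ⟨s, τ⟩ ⟨s', τ'⟩ hh
    have h1 := DFunLike.congr_fun hh (-s)
    rw [piExt_apply, piExt_apply] at h1
    simp only [neg_add_cancel, Equiv.Perm.decomposeFin_symm_apply_zero] at h1
    have h2 : Equiv.Perm.decomposeFin.symm ((0 : Fin (N + 1)), τ') 0
        = Equiv.Perm.decomposeFin.symm (0, τ') (-s + s') := by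
      rw [← h1, Equiv.Perm.decomposeFin_symm_apply_zero]
    have h3 := (Equiv.Perm.decomposeFin.symm ((0 : Fin (N + 1)), τ')).injective h2
    have h4 : s = s' := by
      have := congrArg (fun z => s + z) h3
      simpa using this
    subst h4
    have h5 : Equiv.Perm.decomposeFin.symm ((0 : Fin (N + 1)), τ)
        = Equiv.Perm.decomposeFin.symm (0, τ') := by
      apply Equiv.ext
      intro t
      have h6 := DFunLike.congr_fun hh (t - s)
      rw [piExt_apply, piExt_apply] at h6
      simpa using h6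
    have h7 := Equiv.Perm.decomposeFin.symm.injective h5
    exact Prod.ext rfl (Prod.ext_iff.1 h7).2
  · rw [Fintype.card_prod, Fintype.card_perm, Fintype.card_perm, Fintype.card_fin,
      Fintype.card_fin, Nat.factorial_succ]

theorem pi_ext_succ {N : ℕ} (τ : Equiv.Perm (Fin N)) (t : Fin N) :
    Equiv.Perm.decomposeFin.symm ((0 : Fin (N + 1)), τ) t.succ = (τ t).succ := by
  rw [Equiv.Perm.decomposeFin_symm_apply_succ, Equiv.swap_self]
  rfl

end PIaux

section PI

variable {K A K₁ E₁ A₁ : Type} [Field K] [Ring A] [Algebra K A] [Field K₁] [Ring E₁] [Ring A₁]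
  [Algebra K₁ E₁] [Algebra K₁ A₁]

theorem pi_inj [FiniteDimensional K A] {κ : K →+* K₁} {ι : A →+* A₁} {j : E₁ →ₐ[K₁] A₁} {m : ℕ}
    (h : Adm κ ι j m) : Function.Injective ι := by
  rw [injective_iff_map_eq_zero]
  intro a ha
  set b := Module.finBasis K A with hb
  have hE : Nontrivial E₁ := by
    by_contra hne
    rw [not_nontrivial_iff_subsingleton] at hne
    have h5 : Module.finrank K₁ E₁ = 0 := Module.finrank_zero_of_subsingleton
    rw [h.finE] at h5
    have := h.pos
    exact absurd h5 (by positivity)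
  have h1 : h.admfEquiv (fun i => algebraMap K₁ E₁ (κ (b.repr a i))) = 0 := by
    rw [h.admfEquiv_apply]
    have h2 : ∀ i, ι (Module.finBasis K A i) * j (algebraMap K₁ E₁ (κ (b.repr a i)))
        = ι (b.repr a i • b i) := by
      intro i
      rw [AlgHom.commutes, ← Algebra.commutes, ← Algebra.smul_def, h.admf_smul]
    rw [Finset.sum_congr rfl (fun i _ => h2 i), ← map_sum, b.sum_repr, ha]
  have h2 : (fun i => algebraMap K₁ E₁ (κ (b.repr a i))) = 0 :=
    h.admfEquiv.injective (by rw [h1, map_zero])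
  have h3 : ∀ i, b.repr a i = 0 := by
    intro i
    have h4 := congrFun h2 i
    have h5 : κ (b.repr a i) = 0 := (map_eq_zero_iff _ (algebraMap K₁ E₁).injective).1 h4
    exact (map_eq_zero_iff _ κ.injective).1 h5
  rw [← b.sum_repr a]
  exact Finset.sum_eq_zero (fun i _ => by rw [h3 i, zero_smul])

theorem pi_unitX {κ : K →+* K₁} {ι : A →+* A₁} {j : E₁ →ₐ[K₁] A₁} {m : ℕ}
    {X Y : E₁} {ζ : K} {x y : K₁} (h : SymAdm κ ι j m X Y ζ x y) : IsUnit X := by
  rw [← isUnit_pow_iff h.pos.ne', h.Xm]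
  exact (isUnit_iff_ne_zero.2 h.x0).map (algebraMap K₁ E₁)

theorem pi_unitY {κ : K →+* K₁} {ι : A →+* A₁} {j : E₁ →ₐ[K₁] A₁} {m : ℕ}
    {X Y : E₁} {ζ : K} {x y : K₁} (h : SymAdm κ ι j m X Y ζ x y) : IsUnit Y := by
  rw [← isUnit_pow_iff h.pos.ne', h.Ym]
  exact (isUnit_iff_ne_zero.2 h.y0).map (algebraMap K₁ E₁)

theorem pi_word {κ : K →+* K₁} {ι : A →+* A₁} {j : E₁ →ₐ[K₁] A₁} {m : ℕ}
    {X Y : E₁} {ζ : K} {x y : K₁} (h : SymAdm κ ι j m X Y ζ x y) {n : ℕ}
    (G : Equiv.Perm (Fin n) → A) (a : Fin n → ℕ) :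
    ∑ π : Equiv.Perm (Fin n), ι (G π) * j (List.ofFn (fun t => X ^ a (π t) * Y)).prod
      = ι (∑ π : Equiv.Perm (Fin n), ζ ^ (∑ t : Fin n, (t : ℕ) * a (π t)) • G π)
        * j (X ^ (∑ t, a t) * Y ^ n) := by
  rw [map_sum, Finset.sum_mul]
  apply Finset.sum_congr rfl
  intro π _
  rw [pi_mono h.YX n (fun t => a (π t)), Equiv.sum_comp π a, h.toAdm.admf_smul, map_pow,
    map_smul, mul_smul_comm, smul_mul_assoc]

theorem pi_list {σ : Type} {n : ℕ} (u : List σ) (hu : u.length = n) :
    ∃ w : Fin n → σ, u = List.ofFn w := by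
  subst hu
  exact ⟨u.get, (List.ofFn_get u).symm⟩

/-- value of the degree `n` part of `g` at `β` -/
noncomputable def evh {σ : Type} [Fintype σ] (ι : A →+* A₁) (j : E₁ →ₐ[K₁] A₁) (g : List σ → A) (β : σ → E₁)
    (n : ℕ) : A₁ :=
  ∑ u : Fin n → σ, ι (g (List.ofFn u)) * j ((List.ofFn u).map β).prod

theorem pi_evh_polar {σ : Type} [Fintype σ] {ι : A →+* A₁} {j : E₁ →ₐ[K₁] A₁} (g : List σ → A)
    (n : ℕ) (W : AddSubgroup A₁) (hz : ∀ β : σ → E₁, evh ι j g β n ∈ W) (w : Fin n → σ)
    (b : Fin n → E₁) :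
    ∑ π : Equiv.Perm (Fin n), ι (g (List.ofFn (fun t => w (π t))))
      * j (List.ofFn (fun t => b (π t))).prod ∈ W := by
  have h1 := pi_polar W (fun u => (AddMonoidHom.mulLeft (ι (g (List.ofFn u)))).comp
    (j : E₁ →+* A₁).toAddMonoidHom) (fun β => ?_) w b
  · exact h1
  · have h2 := hz β
    unfold evh at h2
    simp only [List.map_ofFn] at h2
    exact h2

/-- **PI1** -/
theorem PI1 {σ : Type} [Fintype σ] [CharZero K] [IsDomain A₁] [Nontrivial A]
    [FiniteDimensional K A]
    {κ : K →+* K₁} {ι : A →+* A₁} {j : E₁ →ₐ[K₁] A₁} {m : ℕ}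
    {X Y : E₁} {ζ : K} {x y : K₁} (h : SymAdm κ ι j m X Y ζ x y) (g : List σ → A) (n : ℕ) (hn : n ≤ m)
    (hz : ∀ β : σ → E₁, evh ι j g β n = 0) (u : List σ) (hu : u.length = n) : g u = 0 := by
  obtain ⟨w, rfl⟩ := pi_list u hu
  have h1 := pi_evh_polar g n (⊥ : AddSubgroup A₁) (fun β => by rw [hz β]; exact zero_mem _) w
  have h2 : ∀ a : Fin n → ℕ, ∑ π : Equiv.Perm (Fin n),
      ζ ^ (∑ t : Fin n, (t : ℕ) * a (π t)) • g (List.ofFn (fun t => w (π t))) = 0 := by
    intro a
    have h3 := (AddSubgroup.mem_bot).1 (h1 (fun i => X ^ a i * Y))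
    rw [pi_word h (fun π => g (List.ofFn (fun t => w (π t)))) a] at h3
    have hu : IsUnit (j (X ^ (∑ t, a t) * Y ^ n)) :=
      (((pi_unitX h).pow _).mul ((pi_unitY h).pow _)).map j
    rw [hu.mul_left_eq_zero] at h3
    exact (injective_iff_map_eq_zero ι).1 (pi_inj h.toAdm) _ h3
  exact pi_kernel h.prim hn (fun π => g (List.ofFn (fun t => w (π t)))) h2 1

/-- **PI3** -/
theorem PI3 {σ : Type} [Fintype σ] [CharZero K] [IsDomain A₁] [Nontrivial A]
    [FiniteDimensional K A]
    {κ : K →+* K₁} {ι : A →+* A₁} {j : E₁ →ₐ[K₁] A₁} {m : ℕ}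
    {X Y : E₁} {ζ : K} {x y : K₁} (h : SymAdm κ ι j m X Y ζ x y) (g : List σ → A) (n : ℕ) (hn : 1 ≤ n) (hnm : n < m)
    (hz : ∀ β : σ → E₁, evh ι j g β n * j X = j X * evh ι j g β n) (u : List σ) (hu : u.length = n) :
    g u = 0 := by
  obtain ⟨w, rfl⟩ := pi_list u hu
  have hmem : ∀ z : A₁, z ∈ (AddMonoidHom.mulRight (j X) - AddMonoidHom.mulLeft (j X)).ker
      ↔ z * j X = j X * z := by
    intro z
    rw [AddMonoidHom.mem_ker, AddMonoidHom.sub_apply, AddMonoidHom.coe_mulRight,
      AddMonoidHom.coe_mulLeft, sub_eq_zero]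
  have h1 := pi_evh_polar g n (AddMonoidHom.mulRight (j X) - AddMonoidHom.mulLeft (j X)).ker
    (fun β => (hmem _).2 (hz β)) w
  have hne : (κ ζ) ^ n ≠ 1 := by
    intro hh
    rw [← map_pow, ← map_one κ] at hh
    exact h.prim.pow_ne_one_of_pos_of_lt (by omega) hnm (κ.injective hh)
  have h2 : ∀ a : Fin n → ℕ, ∑ π : Equiv.Perm (Fin n),
      ζ ^ (∑ t : Fin n, (t : ℕ) * a (π t)) • g (List.ofFn (fun t => w (π t))) = 0 := by
    intro a
    have h3 := (hmem _).1 (h1 (fun i => X ^ a i * Y))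
    rw [pi_word h (fun π => g (List.ofFn (fun t => w (π t)))) a] at h3
    set z := ∑ π : Equiv.Perm (Fin n),
      ζ ^ (∑ t : Fin n, (t : ℕ) * a (π t)) • g (List.ofFn (fun t => w (π t))) with hzdef
    set N := ∑ t, a t with hN
    have e1 : ι z * j (X ^ N * Y ^ n) * j X = (κ ζ) ^ n • (ι z * j (X ^ (N + 1) * Y ^ n)) := by
      rw [mul_assoc, ← map_mul, mul_assoc, show Y ^ n * X = Y ^ n * X ^ 1 by rw [pow_one],
        pi_YXn h.YX, mul_one, mul_smul_comm, ← mul_assoc, pow_one, ← pow_succ, map_smul,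
        mul_smul_comm]
    have e2 : j X * (ι z * j (X ^ N * Y ^ n)) = ι z * j (X ^ (N + 1) * Y ^ n) := by
      rw [← mul_assoc, ← h.comm, mul_assoc, ← map_mul, ← mul_assoc, ← pow_succ']
    rw [e1, e2] at h3
    have h4 : ((κ ζ) ^ n - 1) • (ι z * j (X ^ (N + 1) * Y ^ n)) = 0 := by
      rw [sub_smul, one_smul, h3, sub_self]
    have h5 : ι z * j (X ^ (N + 1) * Y ^ n) = 0 := by
      have h6 := congrArg (fun v => ((κ ζ) ^ n - 1)⁻¹ • v) h4
      simpa only [smul_smul, inv_mul_cancel₀ (sub_ne_zero.2 hne), one_smul, smul_zero] using h6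
    have hu : IsUnit (j (X ^ (N + 1) * Y ^ n)) :=
      (((pi_unitX h).pow _).mul ((pi_unitY h).pow _)).map j
    rw [hu.mul_left_eq_zero] at h5
    exact (injective_iff_map_eq_zero ι).1 (pi_inj h.toAdm) _ h5
  exact pi_kernel h.prim hnm.le (fun π => g (List.ofFn (fun t => w (π t)))) h2 1

/-- **PI2** -/
theorem PI2 {σ : Type} [Fintype σ] [CharZero K] [IsDomain E₁]
    {κ : K →+* K₁} {ι : A →+* A₁} {j : E₁ →ₐ[K₁] A₁} {m : ℕ}
    {X Y : E₁} {ζ : K} {x y : K₁} (h : SymAdm κ ι j m X Y ζ x y) (g : List σ → K) (n : ℕ) (hn : 1 ≤ n) (hnm : n ≤ m)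
    (hz : ∀ β : σ → E₁, ∑ u : Fin n → σ, κ (g (List.ofFn u)) * trc K₁ ((List.ofFn u).map β).prod = 0)
    (u : List σ) (hu : u.length = n) : ∑ s ∈ Finset.range n, g (u.rotate s) = 0 := by
  obtain ⟨w, rfl⟩ := pi_list u hu
  obtain ⟨N, rfl⟩ : ∃ N, n = N + 1 := ⟨n - 1, by omega⟩
  have hfd := h.fdE
  have hc0 : CharZero K₁ := charZero_of_injective_ringHom κ.injective
  have h1 : ∀ b : Fin (N + 1) → E₁, ∑ π : Equiv.Perm (Fin (N + 1)),
      κ (g (List.ofFn (fun t => w (π t)))) * trc K₁ (List.ofFn (fun t => b (π t))).prod = 0 := by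
    intro b
    have h2 := pi_polar (⊥ : AddSubgroup K₁)
      (fun u => (AddMonoidHom.mulLeft (κ (g (List.ofFn u)))).comp
        (trc K₁ (A := E₁)).toAddMonoidHom) (fun β => ?_) w b
    · exact (AddSubgroup.mem_bot).1 h2
    · have h3 := hz β
      simp only [List.map_ofFn] at h3
      exact (AddSubgroup.mem_bot).2 h3
  set G : Equiv.Perm (Fin N) → K := fun τ => ∑ s : Fin (N + 1),
    g ((List.ofFn (fun t => w (Equiv.Perm.decomposeFin.symm ((0 : Fin (N + 1)), τ) t))).rotate s)
    with hG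
  have h2 : ∀ b : Fin (N + 1) → E₁, ∑ τ : Equiv.Perm (Fin N), κ (G τ)
      * trc K₁ (b 0 * (List.ofFn (fun t => b (Fin.succ (τ t)))).prod) = 0 := by
    intro b
    rw [← h1 b, ← (pi_bij N).sum_comp, Fintype.sum_prod_type_right]
    apply Finset.sum_congr rfl
    intro τ _
    rw [hG, map_sum, Finset.sum_mul]
    apply Finset.sum_congr rfl
    intro s _
    simp only [piExt_apply]
    rw [pi_rot (fun t => w (Equiv.Perm.decomposeFin.symm ((0 : Fin (N + 1)), τ) t)) s,
      pi_rot (fun t => b (Equiv.Perm.decomposeFin.symm ((0 : Fin (N + 1)), τ) t)) s,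
      pi_trc_rotate _ _ (by rw [List.length_ofFn]; exact s.2.le)]
    rw [List.ofFn_succ (f := fun t => b (Equiv.Perm.decomposeFin.symm ((0 : Fin (N + 1)), τ) t)),
      List.prod_cons, Equiv.Perm.decomposeFin_symm_apply_zero]
    simp only [pi_ext_succ]
  have h3 : ∀ b : Fin N → E₁, ∑ τ : Equiv.Perm (Fin N), κ (G τ)
      • (List.ofFn (fun t => b (τ t))).prod = 0 := by
    intro b
    refine tr_nondeg (⊤ : Subalgebra K₁ E₁) trivial ?_
    intro e _
    have h4 := h2 (Fin.cons e b)
    simp only [Fin.cons_zero, Fin.cons_succ] at h4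
    rw [Finset.mul_sum, map_sum, ← h4]
    apply Finset.sum_congr rfl
    intro τ _
    rw [mul_smul_comm, map_smul, smul_eq_mul]
  have h4 : ∀ a : Fin N → ℕ, ∑ τ : Equiv.Perm (Fin N),
      ζ ^ (∑ t : Fin N, (t : ℕ) * a (τ t)) • G τ = 0 := by
    intro a
    have h5 := h3 (fun i => X ^ a i * Y)
    have h6 : ∑ τ : Equiv.Perm (Fin N), κ (G τ) • (List.ofFn (fun t => X ^ a (τ t) * Y)).prod
        = κ (∑ τ : Equiv.Perm (Fin N), ζ ^ (∑ t : Fin N, (t : ℕ) * a (τ t)) • G τ)
          • (X ^ (∑ t, a t) * Y ^ N) := by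
      rw [map_sum, Finset.sum_smul]
      apply Finset.sum_congr rfl
      intro τ _
      rw [pi_mono h.YX N (fun t => a (τ t)), Equiv.sum_comp τ a, smul_smul, smul_eq_mul, map_mul,
        map_pow, mul_comm]
    rw [h6] at h5
    have hne : X ^ (∑ t, a t) * Y ^ N ≠ 0 :=
      (((pi_unitX h).pow _).mul ((pi_unitY h).pow _)).ne_zero
    rcases smul_eq_zero.1 h5 with h7 | h7
    · exact (map_eq_zero_iff _ κ.injective).1 h7
    · exact absurd h7 hne
  have h5 := pi_kernel h.prim (by omega) G h4 1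
  rw [Finset.sum_range, ← h5, hG]
  apply Finset.sum_congr rfl
  intro s _
  rw [Equiv.Perm.decomposeFin_symm_of_one, Equiv.swap_self]
  rfl

end PI

end Vale.Agent.P199K
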