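import Vale.Agent.P199K.ResStmt
import Vale.Agent.P199K.PI

/-!
# P199, section 7: the value of `f` at `p = b(tβ) + t^ν η` (helper2)
-/

open scoped TensorProduct LaurentSeries
open PowerSeries

namespace Vale.Agent.P199K

/-! ### uniqueness of continuous ring homs -/
section Uniq
variable {σ A R : Type} [Fintype σ] [DecidableEq σ] [Ring A] [Ring R]

theorem evp_hom_ext (I : ℕ → AddSubgroup R) (hsep : ∀ r, (∀ n, r ∈ I n) → r = 0)
    (ψ₁ ψ₂ : NPS σ A →+* R) (hC : ∀ a, ψ₁ (NPS.C a) = ψ₂ (NPS.C a)) (hX : ∀ γ, ψ₁ (NPS.X γ) = ψ₂ (NPS.X γ))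
    (h1 : ∀ n f, NPS.Ord n f → ψ₁ f ∈ I n) (h2 : ∀ n f, NPS.Ord n f → ψ₂ f ∈ I n) (f : NPS σ A) :
    ψ₁ f = ψ₂ f := by
  have hcl : ∀ g ∈ Subring.closure (Set.range (NPS.C : A → NPS σ A) ∪ Set.range (NPS.X : σ → NPS σ A)),
      ψ₁ g = ψ₂ g := by
    intro g hg
    induction hg using Subring.closure_induction with
    | mem x hx =>
      rcases hx with ⟨a, rfl⟩ | ⟨γ, rfl⟩
      · exact hC a
      · exact hX γ
    | zero => rw [map_zero, map_zero]
    | one => rw [map_one, map_one]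
    | add x y _ _ hx hy => rw [map_add, map_add, hx, hy]
    | neg x _ hx => rw [map_neg, map_neg, hx]
    | mul x y _ _ hx hy => rw [map_mul, map_mul, hx, hy]
  rw [← sub_eq_zero]
  refine hsep _ (fun n => ?_)
  obtain ⟨g, hg, hgo⟩ := NPS.exists_poly n f
  have : ψ₁ f - ψ₂ f = ψ₁ (f - g) - ψ₂ (f - g) := by
    rw [map_sub, map_sub, hcl g hg]; abel
  rw [this]
  exact (I n).sub_mem (h1 n _ hgo) (h2 n _ hgo)

/-- constant term as a ring hom -/
def evp_nil {τ : Type} : NPS τ R →+* R where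
  toFun f := f []
  map_one' := rfl
  map_zero' := rfl
  map_add' _ _ := rfl
  map_mul' f g := NPS.mul_nil f g

@[simp] theorem evp_nil_apply {τ : Type} (f : NPS τ R) : evp_nil f = f [] := rfl

/-- Laurent series of order `≥ n` -/
def evp_LI (R : Type) [Ring R] (n : ℕ) : AddSubgroup (LS R) where
  carrier := {x | ∀ k : ℤ, k < n → LS.coeff x k = 0}
  add_mem' := by
    intro a b ha hb k hk
    rw [LS.coeff_add, ha k hk, hb k hk, add_zero]
  zero_mem' := fun k _ => LS.coeff_zero k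
  neg_mem' := by
    intro a ha k hk
    rw [LS.coeff_neg, ha k hk, neg_zero]

theorem evp_LI_sep (r : LS R) (h : ∀ n, r ∈ evp_LI R n) : r = 0 := by
  ext k
  rw [LS.coeff_zero]
  exact h (k.toNat + 1) k (by
    have := Int.self_le_toNat k
    push_cast
    omega)

theorem evp_ofPS_pow (n : ℕ) (q : PowerSeries R) : LS.ofPS (PowerSeries.X ^ n * q) ∈ evp_LI R n := by
  intro k hk
  by_cases h0 : k < 0
  · exact LS.coeff_ofPS_neg _ _ h0
  · obtain ⟨m, rfl⟩ : ∃ m : ℕ, k = m := ⟨k.toNat, by omega⟩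
    rw [LS.coeff_ofPS, PowerSeries.coeff_X_pow_mul', if_neg (by omega)]

end Uniq

section Ev
variable {σ A E₁ A₁ : Type} [Fintype σ] [DecidableEq σ] [Ring A] [Ring E₁] [Ring A₁]

/-- evaluation at `p` -/
theorem evp_exists (ι : A →+* A₁) (j : E₁ →+* A₁) (hc : ∀ a e, ι a * j e = j e * ι a)
    (p : σ → PowerSeries E₁) (hp : ∀ γ, PowerSeries.constantCoeff (p γ) = 0) :
    ∃ ψ : NPS σ A →+* PowerSeries A₁,
      (∀ a, ψ (NPS.C a) = PowerSeries.C (ι a)) ∧ (∀ γ, ψ (NPS.X γ) = PowerSeries.map j (p γ)) ∧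
      (∀ n f, NPS.Ord n f → ψ f ∈ NPS.sg_ZP A₁ n) ∧
      (∀ f, ψ f = PowerSeries.C (ι (f [])) + ∑ γ, PowerSeries.map j (p γ) * ψ (NPS.dl γ f)) := by
  obtain ⟨ψ, h1, h2, h3, h4⟩ := NPS.exists_sub ι (fun γ => PowerSeries.map j (p γ))
    (fun γ => by
      rw [← PowerSeries.coeff_zero_eq_constantCoeff_apply, PowerSeries.coeff_map,
        PowerSeries.coeff_zero_eq_constantCoeff_apply, hp, map_zero])
    (fun γ a => by
      ext n
      rw [PowerSeries.coeff_mul_C, PowerSeries.coeff_C_mul, PowerSeries.coeff_map, hc])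
  exact ⟨ψ, h1, h2, fun n f hf => fun k hk => PowerSeries.X_pow_dvd_iff.1 (h3 n f hf) k hk, h4⟩

/-- the constant term of the expansion is the value at `p` -/
theorem evp_exp {B : Type} [Fintype B] [DecidableEq B]
    (ι : A →+* A₁) (j : E₁ →+* A₁) (hc : ∀ a e, ι a * j e = j e * ι a) (ε : B → E₁)
    (p : σ → PowerSeries E₁) (hp : ∀ γ, PowerSeries.constantCoeff (p γ) = 0)
    (ψ : NPS σ A →+* PowerSeries A₁)
    (h1 : ∀ a, ψ (NPS.C a) = PowerSeries.C (ι a)) (h2 : ∀ γ, ψ (NPS.X γ) = PowerSeries.map j (p γ))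
    (h3 : ∀ n f, NPS.Ord n f → ψ f ∈ NPS.sg_ZP A₁ n) (f : NPS σ A) :
    expHom ι j hc ε p hp f [] = LS.ofPS (ψ f) := by
  obtain ⟨e1, e2, e3, e4⟩ := expHom_spec ι j hc ε p hp
  have := evp_hom_ext (evp_LI A₁) evp_LI_sep (evp_nil.comp (expHom ι j hc ε p hp)) (LS.ofPS.comp ψ)
    ?_ ?_ ?_ ?_ f
  · exact this
  · intro a
    rw [RingHom.comp_apply, RingHom.comp_apply, e1, h1, evp_nil_apply, NPS.C_nil]
    ext k
    by_cases hk : k < 0
    · rw [LS.coeff_ofPS_neg _ _ hk, LS.coeff_C, if_neg (by omega)]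
    · obtain ⟨m, rfl⟩ : ∃ m : ℕ, k = m := ⟨k.toNat, by omega⟩
      rw [LS.coeff_ofPS, LS.coeff_C, PowerSeries.coeff_C]
      simp
  · intro γ
    rw [RingHom.comp_apply, RingHom.comp_apply, e2, h2, evp_nil_apply, NPS.add_apply, NPS.C_nil]
    have : evp_nil (∑ β, NPS.C (LS.mono 1 (j (ε β))) * NPS.X (γ, β) : NPS (σ × B) (LS A₁)) = 0 := by
      rw [map_sum]
      refine Finset.sum_eq_zero (fun β _ => ?_)
      rw [evp_nil_apply, NPS.mul_nil]
      have : (NPS.X (γ, β) : NPS (σ × B) (LS A₁)) [] = 0 := if_neg (by simp)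
      rw [this, mul_zero]
    rw [evp_nil_apply] at this
    rw [this, add_zero]
  · intro n f hf
    obtain ⟨q, hq⟩ := e3 n f hf []
    rw [RingHom.comp_apply, evp_nil_apply, hq]
    exact evp_ofPS_pow n q
  · intro n f hf
    obtain ⟨q, hq⟩ := PowerSeries.X_pow_dvd_iff.2 (h3 n f hf)
    rw [RingHom.comp_apply, hq]
    exact evp_ofPS_pow n q

end Ev

section Hom
variable {K₁ A E₁ A₁ : Type} [Field K₁] [Ring A] [Ring E₁] [Ring A₁] [Algebra K₁ E₁] [Algebra K₁ A₁]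

/-- splitting the first letter -/
theorem evp_evh_succ (ι : A →+* A₁) (j : E₁ →ₐ[K₁] A₁) (hc : ∀ a e, ι a * (j : E₁ →+* A₁) e = (j : E₁ →+* A₁) e * ι a)
    {τ : Type} [Fintype τ] (g : List τ → A) (β : τ → E₁) (n : ℕ) :
    evh ι j g β (n + 1) = ∑ x, j (β x) * evh ι j (fun u => g (x :: u)) β n := by
  unfold evh
  rw [← (Fin.consEquiv (fun _ => τ)).sum_comp, Fintype.sum_prod_type]
  refine Finset.sum_congr rfl (fun x _ => ?_)
  rw [Finset.mul_sum]
  refine Finset.sum_congr rfl (fun u _ => ?_)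
  have : List.ofFn ((Fin.consEquiv (fun _ => τ)) (x, u)) = x :: List.ofFn u := by
    rw [List.ofFn_succ]
    simp [Fin.consEquiv]
  rw [this, List.map_cons, List.prod_cons, map_mul, ← mul_assoc, ← mul_assoc]
  congr 1
  exact hc _ _

/-- coefficients of the value at `tβ` -/
theorem evp_coeff_hom (ι : A →+* A₁) (j : E₁ →ₐ[K₁] A₁)
    (hc : ∀ a e, ι a * (j : E₁ →+* A₁) e = (j : E₁ →+* A₁) e * ι a) {τ : Type} [Fintype τ]
    (β : τ → E₁) (ψ : NPS τ A →+* PowerSeries A₁)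
    (h4 : ∀ f, ψ f = PowerSeries.C (ι (f [])) + ∑ γ, PowerSeries.map (j : E₁ →+* A₁)
      (PowerSeries.C (β γ) * PowerSeries.X) * ψ (NPS.dl γ f)) (n : ℕ) (g : NPS τ A) :
    PowerSeries.coeff n (ψ g) = evh ι j (fun u => g u) β n := by
  induction n generalizing g with
  | zero =>
    rw [h4, map_add, map_sum, PowerSeries.coeff_C, if_pos rfl]
    rw [Finset.sum_eq_zero]
    · simp [evh]
    · intro x _
      rw [map_mul (PowerSeries.map (j : E₁ →+* A₁)), PowerSeries.map_X, mul_assoc, PowerSeries.map_C,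
        PowerSeries.coeff_C_mul, PowerSeries.coeff_zero_X_mul, mul_zero]
  | succ n ih =>
    rw [h4, map_add, map_sum, PowerSeries.coeff_C, if_neg (Nat.succ_ne_zero n), zero_add,
      evp_evh_succ ι j hc]
    refine Finset.sum_congr rfl (fun x _ => ?_)
    rw [map_mul (PowerSeries.map (j : E₁ →+* A₁)), PowerSeries.map_X, mul_assoc, PowerSeries.map_C,
      PowerSeries.coeff_C_mul, PowerSeries.coeff_succ_X_mul, ih]
    rfl

end Hom

/-! ### the substitution `p = b(tβ) + t^ν η` -/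
section Pbe
variable {K K₁ A A₁ E₁ σ : Type} [Field K] [Field K₁] [Ring A] [Algebra K A] [Ring A₁] [Algebra K₁ A₁]
  [Ring E₁] [Algebra K₁ E₁]

/-- `b(tβ) + t^ν η` -/
noncomputable def pbe (κ : K →+* K₁) (b : σ → NPS (Fin 2) K) (β : Fin 2 → E₁) (ν : ℕ) (η : σ → E₁)
    (γ : σ) : PowerSeries E₁ :=
  PowerSeries.mk (fun n => (∑ u : Fin n → Fin 2, κ (b γ (List.ofFn u)) • ((List.ofFn u).map β).prod)
    + if n = ν then η γ else 0)

theorem pbe_zero (κ : K →+* K₁) (b : σ → NPS (Fin 2) K) (hb : ∀ γ, b γ [] = 0) (β : Fin 2 → E₁) (ν : ℕ)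
    (hν : 1 ≤ ν) (η : σ → E₁) (γ : σ) : PowerSeries.constantCoeff (pbe κ b β ν η γ) = 0 := by
  rw [← PowerSeries.coeff_zero_eq_constantCoeff_apply, pbe, PowerSeries.coeff_mk, if_neg (by omega)]
  simp [hb]

/-- perturbation of the evaluation point -/
theorem evp_perturb [Fintype σ] (ι : A →+* A₁) (j : E₁ →ₐ[K₁] A₁)
    (hc : ∀ a e, ι a * (j : E₁ →+* A₁) e = (j : E₁ →+* A₁) e * ι a)
    (p p' : σ → PowerSeries E₁) (hp : ∀ γ, PowerSeries.constantCoeff (p γ) = 0) (ν : ℕ) (hν : 1 ≤ ν)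
    (η : σ → E₁) (hpp : ∀ γ, p' γ = p γ + PowerSeries.X ^ ν * PowerSeries.C (η γ))
    (ψ ψ' : NPS σ A →+* PowerSeries A₁)
    (h4 : ∀ f, ψ f = PowerSeries.C (ι (f [])) + ∑ γ, PowerSeries.map (j : E₁ →+* A₁) (p γ) * ψ (NPS.dl γ f))
    (h4' : ∀ f, ψ' f = PowerSeries.C (ι (f [])) + ∑ γ, PowerSeries.map (j : E₁ →+* A₁) (p' γ) * ψ' (NPS.dl γ f))
    (f : NPS σ A) :
    (∀ k < ν, PowerSeries.coeff k (ψ' f) = PowerSeries.coeff k (ψ f)) ∧
      PowerSeries.coeff ν (ψ' f) = PowerSeries.coeff ν (ψ f) + lin1 ι j f η := by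
  have hp0 : ∀ γ, PowerSeries.constantCoeff (p' γ) = 0 := by
    intro γ
    rw [hpp, map_add, hp, map_mul, map_pow, PowerSeries.constantCoeff_X, zero_pow (by omega), zero_mul,
      add_zero]
  have hrec : ∀ g, ψ' g - ψ g = ∑ γ, (PowerSeries.X ^ ν * PowerSeries.C (j (η γ)) * ψ' (NPS.dl γ g)
      + PowerSeries.map (j : E₁ →+* A₁) (p γ) * (ψ' (NPS.dl γ g) - ψ (NPS.dl γ g))) := by
    intro g
    rw [h4 g, h4' g, add_sub_add_left_eq_sub, ← Finset.sum_sub_distrib]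
    refine Finset.sum_congr rfl (fun γ _ => ?_)
    rw [hpp, map_add, map_mul, map_pow, PowerSeries.map_X, PowerSeries.map_C]
    simp only [mul_sub, add_mul, RingHom.coe_coe]
    abel
  -- order of `map j (p γ)`
  have hpX : ∀ γ, ∃ q, PowerSeries.map (j : E₁ →+* A₁) (p γ) = PowerSeries.X * q := by
    intro γ
    obtain ⟨q, hq⟩ := PowerSeries.X_dvd_iff.2 (hp γ)
    exact ⟨PowerSeries.map (j : E₁ →+* A₁) q, by rw [hq, map_mul, PowerSeries.map_X]⟩
  have hdiv : ∀ k, k ≤ ν → ∀ g, ∀ i < k, PowerSeries.coeff i (ψ' g - ψ g) = 0 := by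
    intro k
    induction k with
    | zero => intro _ g i hi; omega
    | succ k ih =>
      intro hk g i hi
      rw [hrec, map_sum]
      refine Finset.sum_eq_zero (fun γ _ => ?_)
      obtain ⟨q, hq⟩ := hpX γ
      have hd := PowerSeries.X_pow_dvd_iff.2 (ih (by omega) (NPS.dl γ g))
      obtain ⟨r, hr⟩ := hd
      rw [map_add, hq, hr, mul_assoc, PowerSeries.coeff_X_pow_mul', if_neg (by omega), zero_add]
      have : PowerSeries.X * q * (PowerSeries.X ^ k * r) = PowerSeries.X ^ (k + 1) * (q * r) := by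
        rw [pow_succ', mul_assoc, mul_assoc]
        congr 1
        rw [← mul_assoc, ← mul_assoc]
        congr 1
        exact (PowerSeries.commute_X_pow q k)
      rw [this, PowerSeries.coeff_X_pow_mul', if_neg (by omega)]
  constructor
  · intro k hk
    have := hdiv ν le_rfl f k hk
    rw [map_sub, sub_eq_zero] at this
    exact this
  · have h0 : PowerSeries.coeff ν (ψ' f - ψ f) = lin1 ι j f η := by
      rw [hrec, map_sum]
      show _ = ∑ γ, ι (f [γ]) * j (η γ)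
      refine Finset.sum_congr rfl (fun γ _ => ?_)
      obtain ⟨q, hq⟩ := hpX γ
      obtain ⟨r, hr⟩ := PowerSeries.X_pow_dvd_iff.2 (hdiv ν le_rfl (NPS.dl γ f))
      rw [map_add, hq, hr, mul_assoc, PowerSeries.coeff_X_pow_mul', if_pos le_rfl, Nat.sub_self,
        PowerSeries.coeff_C_mul]
      have : PowerSeries.X * q * (PowerSeries.X ^ ν * r) = PowerSeries.X ^ (ν + 1) * (q * r) := by
        rw [pow_succ', mul_assoc, mul_assoc]
        congr 1
        rw [← mul_assoc, ← mul_assoc]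
        congr 1
        exact (PowerSeries.commute_X_pow q ν)
      rw [this, PowerSeries.coeff_X_pow_mul', if_neg (by omega), add_zero]
      have h5 : PowerSeries.coeff 0 (ψ' (NPS.dl γ f)) = ι (f [γ]) := by
        rw [h4', map_add, map_sum, PowerSeries.coeff_C, if_pos rfl, NPS.dl_apply]
        rw [Finset.sum_eq_zero, add_zero]
        intro x _
        rw [PowerSeries.coeff_zero_eq_constantCoeff_apply, map_mul]
        have : PowerSeries.constantCoeff (PowerSeries.map (j : E₁ →+* A₁) (p' x)) = 0 := by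
          rw [← PowerSeries.coeff_zero_eq_constantCoeff_apply, PowerSeries.coeff_map,
            PowerSeries.coeff_zero_eq_constantCoeff_apply, hp0, map_zero]
        rw [this, zero_mul]
      rw [h5]
      exact (hc _ _).symm
    rw [← h0, map_sub]; abel

/-- **evalP** (helper2, EvalP.lean) -/
theorem evalP [Fintype σ] [DecidableEq σ] {B : Type} [Fintype B] [DecidableEq B]
    (κ : K →+* K₁) (ι : A →+* A₁) (j : E₁ →ₐ[K₁] A₁) (hι : ∀ c, ι (algebraMap K A c) = algebraMap K₁ A₁ (κ c))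
    (hc : ∀ a e, ι a * (j : E₁ →+* A₁) e = (j : E₁ →+* A₁) e * ι a) (ε : B → E₁)
    (b : σ → NPS (Fin 2) K) (hb : ∀ γ, b γ [] = 0) (β : Fin 2 → E₁) (ν : ℕ) (hν : 1 ≤ ν) (η : σ → E₁)
    (hp : ∀ γ, PowerSeries.constantCoeff (pbe κ b β ν η γ) = 0)
    (f : NPS σ A) (hf : NPS.Ord ν (substHom b hb f)) :
    ∃ x : LS A₁, LS.Intg x ∧
      expHom ι (j : E₁ →+* A₁) hc ε (pbe κ b β ν η) hp f [] = LS.tp (ν : ℤ) * x ∧
      LS.coeff x 0 = evh ι j (fun u => substHom b hb f u) β ν + lin1 ι j f η := by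
  classical
  -- evaluation at `p`
  obtain ⟨ψ, a1, a2, a3, a4⟩ := evp_exists ι (j : E₁ →+* A₁) hc (pbe κ b β ν η) hp
  -- evaluation at `b(tβ)`
  have hp0 : ∀ γ, PowerSeries.constantCoeff (pbe κ b β ν (fun _ => 0) γ) = 0 :=
    pbe_zero κ b hb β ν hν _
  obtain ⟨ψ0, b1, b2, b3, b4⟩ := evp_exists ι (j : E₁ →+* A₁) hc (pbe κ b β ν (fun _ => 0)) hp0
  -- evaluation at `tβ`
  obtain ⟨ψβ, c1, c2, c3, c4⟩ := evp_exists (σ := Fin 2) ι (j : E₁ →+* A₁) hc
    (fun x => PowerSeries.C (β x) * PowerSeries.X) (fun x => by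
      rw [map_mul, PowerSeries.constantCoeff_X, mul_zero])
  obtain ⟨s1, s2, s3⟩ := substHom_spec (A := A) b hb
  have hβ := evp_coeff_hom ι j hc β ψβ c4
  have hcomp : ∀ g, ψ0 g = ψβ (substHom b hb g) := by
    intro g
    refine evp_hom_ext (NPS.sg_ZP A₁) (NPS.sg_ZP_sep A₁) ψ0 (ψβ.comp (substHom b hb)) ?_ ?_ b3 ?_ g
    · intro a
      rw [RingHom.comp_apply, s1, b1, c1]
    · intro γ
      rw [RingHom.comp_apply, s2, b2]
      ext n
      rw [hβ, PowerSeries.coeff_map, pbe, PowerSeries.coeff_mk, ite_self, add_zero, map_sum]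
      refine Finset.sum_congr rfl (fun u _ => ?_)
      show j (κ (b γ (List.ofFn u)) • ((List.ofFn u).map β).prod)
        = ι (algebraMap K A (b γ (List.ofFn u))) * j ((List.ofFn u).map β).prod
      rw [hι, map_smul, Algebra.smul_def]
    · intro n g hg
      exact c3 n _ (s3 n g hg)
  have hpert := evp_perturb ι j hc (pbe κ b β ν (fun _ => 0)) (pbe κ b β ν η) hp0 ν hν η (fun γ => by
    ext n
    rw [map_add, pbe, pbe, PowerSeries.coeff_mk, PowerSeries.coeff_mk, ite_self, add_zero,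
      PowerSeries.coeff_X_pow_mul']
    congr 1
    by_cases hn : n = ν
    · subst hn
      simp
    · rw [if_neg hn]
      by_cases h : ν ≤ n
      · rw [if_pos h, PowerSeries.coeff_C, if_neg (by omega)]
      · rw [if_neg h]) ψ0 ψ b4 a4 f
  have hlow : ∀ k < ν, PowerSeries.coeff k (ψ f) = 0 := by
    intro k hk
    rw [hpert.1 k hk, hcomp, hβ]
    unfold evh
    refine Finset.sum_eq_zero (fun u _ => ?_)
    show ι (substHom b hb f (List.ofFn u)) * _ = 0
    rw [hf (List.ofFn u) (by rw [List.length_ofFn]; exact hk), map_zero, zero_mul]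
  obtain ⟨r, hr⟩ := PowerSeries.X_pow_dvd_iff.2 hlow
  refine ⟨LS.ofPS r, (LS.intg_iff _).2 ⟨r, rfl⟩, ?_, ?_⟩
  · rw [evp_exp ι (j : E₁ →+* A₁) hc ε _ hp ψ a1 a2 a3, hr, map_mul]
    congr 1
    ext k
    rw [LS.coeff_tp]
    by_cases hk : k < 0
    · rw [LS.coeff_ofPS_neg _ _ hk, if_neg (by omega)]
    · obtain ⟨m, rfl⟩ : ∃ m : ℕ, k = m := ⟨k.toNat, by omega⟩
      rw [LS.coeff_ofPS, PowerSeries.coeff_X_pow]
      simp
  · have h0 : LS.coeff (LS.ofPS r) 0 = PowerSeries.coeff 0 r := LS.coeff_ofPS r 0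
    rw [h0]
    have h1 : PowerSeries.coeff ν (ψ f) = PowerSeries.coeff 0 r := by
      rw [hr, PowerSeries.coeff_X_pow_mul', if_pos le_rfl, Nat.sub_self]
    rw [← h1, hpert.2, hcomp, hβ]

end Pbe

namespace Trip
variable {S : Stg} (w₀ : NPS (Fin 2) S.A)

/-- M1 (helper2): evaluation of `f` at `b(tβ) + t^ν η` -/
theorem s7_eval_proved (P : Trip S) (d : ExpD P.K P.A P.σ) (ν : ℕ) (hν : 1 ≤ ν) (b : P.σ → NPS (Fin 2) P.K)
    (hb : ∀ γ, b γ [] = 0) (β : Fin 2 → d.E₁) (η : P.σ → d.E₁)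
    (hp : ∀ γ, d.p γ = PowerSeries.mk (fun n => ∑ u : Fin n → Fin 2,
      d.κ (b γ (List.ofFn u)) • ((List.ofFn u).map β).prod) + PowerSeries.C (η γ) * PowerSeries.X ^ ν)
    (f : NPS P.σ P.A) (hf : NPS.Ord ν (substHom b hb f)) :
    ∃ x : LS d.A₁, P.eh d f [] = LS.tp (ν : ℤ) * x ∧ LS.Intg x ∧
      LS.coeff x 0 = evh d.ι d.j (substHom b hb f) β ν + lin1 d.ι d.j f η := by
  have hpe : d.p = pbe d.κ b β ν η := by
    funext γ
    rw [hp]
    ext n
    rw [map_add, pbe, PowerSeries.coeff_mk, PowerSeries.coeff_mk, PowerSeries.coeff_C_mul,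
      PowerSeries.coeff_X_pow]
    congr 1
    by_cases hn : n = ν
    · rw [if_pos hn, if_pos hn, mul_one]
    · rw [if_neg hn, if_neg hn, mul_zero]
  have key : ∀ (p : P.σ → PowerSeries d.E₁) (hp : ∀ γ, PowerSeries.constantCoeff (p γ) = 0),
      p = pbe d.κ b β ν η → ∃ x : LS d.A₁, LS.Intg x ∧
      expHom d.ι (d.j : d.E₁ →+* d.A₁) (P.d_comm d) d.ε p hp f [] = LS.tp (ν : ℤ) * x ∧
      LS.coeff x 0 = evh d.ι d.j (fun u => substHom b hb f u) β ν + lin1 d.ι d.j f η := by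
    rintro p hp rfl
    exact evalP d.κ d.ι d.j d.adm.ι_alg (P.d_comm d) d.ε b hb β ν hν η hp f hf
  obtain ⟨x, h1, h2, h3⟩ := key d.p d.hp hpe
  exact ⟨x, h2, h1, h3⟩

end Trip

end Vale.Agent.P199K
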