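import Vale.Agent.P199K.Trip

/-! # P199: invariants of triples and the minimality conditions -/

open scoped TensorProduct LaurentSeries
open PowerSeries

namespace Vale.Agent.P199K

section U
variable (K : Type) {A σ : Type} [Field K] [Ring A] [Algebra K A] [Fintype σ] (w : NPS σ A)

/-- `n = [L:K]` -/
noncomputable def nnU {A σ : Type} [Ring A] [Algebra K A] (w : NPS σ A) : ℕ :=
  Module.finrank K (Lf K (w []))
/-- `ρ = [M:L]` -/
noncomputable def rhoU {A σ : Type} [Ring A] [Algebra K A] (w : NPS σ A) : ℕ :=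
  Module.finrank K (Mf K (w [])) / nnU K w
/-- `n₁ = [F:K]` -/
noncomputable def n1U : ℕ := Module.finrank K (Ff K w)
/-- `dim calL = dim V` -/
noncomputable def dLU : ℕ := Module.finrank K (calL K w)
/-- `V^k = F` -/
def VpU (k : ℕ) : Prop := Module.finrank K ((calL K w) ^ k : Submodule K A) = n1U K w
/-- class `N` -/
def CNU : Prop := calL K w ≠ ⊥
/-- conclusion of R1 -/
def R1U : Prop := ∀ δ : σ → K, proj (Subalgebra.toSubmodule (Mf K (w []))) (lin K w δ)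
  = proj (Subalgebra.toSubmodule (Lf K (w []))) (lin K w δ)

end U

namespace Trip
variable {S : Stg} (w₀ : NPS (Fin 2) S.A)

noncomputable def nn (P : Trip S) : ℕ := nnU P.K (P.Psi w₀)
noncomputable def rho (P : Trip S) : ℕ := rhoU P.K (P.Psi w₀)
noncomputable def n1 (P : Trip S) : ℕ := n1U P.K (P.Psi w₀)
noncomputable def dL (P : Trip S) : ℕ := dLU P.K (P.Psi w₀)
noncomputable def kap (P : Trip S) : ℕ := P.n1 w₀ - P.dL w₀
def Vp (P : Trip S) (k : ℕ) : Prop := VpU P.K (P.Psi w₀) k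
def CN (P : Trip S) : Prop := CNU P.K (P.Psi w₀)
/-- condition (R) -/
def CR (P : Trip S) : Prop := P.CN w₀ ∧ ∀ Q, Reach P Q → P.rho w₀ ≤ Q.rho w₀
/-- condition (E) -/
def CE (P : Trip S) : Prop :=
  P.CR w₀ ∧ ∀ Q, Reach P Q → Q.CR w₀ → P.nn w₀ / P.n1 w₀ ≤ Q.nn w₀ / Q.n1 w₀
/-- condition (κ) -/
def CK (P : Trip S) : Prop :=
  P.CE w₀ ∧ P.Vp w₀ 2 ∧ ∀ Q, Reach P Q → Q.CE w₀ → Q.Vp w₀ 2 → P.kap w₀ ≤ Q.kap w₀

/-- the power series of the expansion -/
noncomputable abbrev wx (P : Trip S) (d : ExpD P.K P.A P.σ) : NPS (P.σ × d.B) (LS d.A₁) :=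
  P.eh d (P.Psi w₀)

theorem nn_expand (P : Trip S) (d : ExpD P.K P.A P.σ) :
    (P.expand d).nn w₀ = nnU (LS d.K₁) (wx w₀ P d) := rfl
theorem rho_expand (P : Trip S) (d : ExpD P.K P.A P.σ) :
    (P.expand d).rho w₀ = rhoU (LS d.K₁) (wx w₀ P d) := rfl
theorem n1_expand (P : Trip S) (d : ExpD P.K P.A P.σ) :
    (P.expand d).n1 w₀ = n1U (LS d.K₁) (wx w₀ P d) := rfl
theorem dL_expand (P : Trip S) (d : ExpD P.K P.A P.σ) :
    (P.expand d).dL w₀ = dLU (LS d.K₁) (wx w₀ P d) := rfl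
theorem Vp_expand (P : Trip S) (d : ExpD P.K P.A P.σ) (k : ℕ) :
    (P.expand d).Vp w₀ k = VpU (LS d.K₁) (wx w₀ P d) k := rfl
theorem CN_expand (P : Trip S) (d : ExpD P.K P.A P.σ) :
    (P.expand d).CN w₀ = CNU (LS d.K₁) (wx w₀ P d) := rfl

end Trip

end Vale.Agent.P199K
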