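import Vale.Agent.P199K.SymC
import Vale.Agent.P199K.LSApi

/-! # P199: boxes, perps and the symbol basis (helper59) -/

namespace Vale.Agent.P199K

open Module

section Perp

variable {K A : Type} [Field K] [CharZero K] [Ring A] [IsDomain A] [Algebra K A]
  [FiniteDimensional K A]

/-- dimension of the orthogonal complement inside a subalgebra -/
theorem finrank_inf_perp (F : Subalgebra K A) (W : Submodule K A)
    (hW : W ≤ Subalgebra.toSubmodule F) :
    finrank K (Subalgebra.toSubmodule F ⊓ perp W : Submodule K A) + finrank K W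
      = finrank K (Subalgebra.toSubmodule F) := by
  have h0 : perp (Subalgebra.toSubmodule F) ⊓ W = ⊥ := by
    rw [eq_bot_iff]
    intro x hx
    have hxF : x ∈ Subalgebra.toSubmodule F := hW hx.2
    have := tr_nondeg F hxF (fun u hu => mem_perp.1 hx.1 u hu)
    rw [this]
    exact Submodule.zero_mem _
  have h1 : Subalgebra.toSubmodule F ⊓ perp W
      = perp (perp (Subalgebra.toSubmodule F) ⊔ W) := by
    apply le_antisymm
    · intro x hx
      rw [mem_perp]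
      intro v hv
      obtain ⟨a, ha, b, hb, rfl⟩ := Submodule.mem_sup.1 hv
      rw [add_mul, map_add, mem_perp.1 hx.2 b hb, add_zero, tr_mul_comm]
      exact mem_perp.1 ha x hx.1
    · refine le_inf ?_ (perp_anti le_sup_right)
      have := perp_anti (K := K) (A := A)
        (le_sup_left : perp (Subalgebra.toSubmodule F) ≤ perp (Subalgebra.toSubmodule F) ⊔ W)
      rwa [perp_perp] at this
  have h2 := finrank_perp (K := K) (A := A) (perp (Subalgebra.toSubmodule F) ⊔ W)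
  have h3 := finrank_perp (K := K) (A := A) (Subalgebra.toSubmodule F)
  have h4 := Submodule.finrank_sup_add_finrank_inf_eq (perp (Subalgebra.toSubmodule F)) W
  rw [h0, finrank_bot] at h4
  rw [h1]
  omega

end Perp

section Box

variable {K A K₁ E₁ A₁ : Type} [Field K] [Ring A] [Algebra K A] [Field K₁] [Ring E₁]
  [Ring A₁] [Algebra K₁ E₁] [Algebra K₁ A₁]
  {κ : K →+* K₁} {ι : A →+* A₁} {j : E₁ →ₐ[K₁] A₁} {m : ℕ}

/-- `F ⊠ K₁` as a subalgebra -/
def bx1A (K₁ : Type) {A₁ : Type} [Field K₁] [Ring A₁] [Algebra K₁ A₁] (ι : A →+* A₁)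
    (F : Subalgebra K A) : Subalgebra K₁ A₁ :=
  (bx1 K₁ ι (Subalgebra.toSubmodule F)).toSubalgebra
    (by
      rw [← map_one ι]
      exact ι_mem_bx1 F.one_mem)
    (fun a b ha hb => bx1_mono (Subalgebra.mul_toSubmodule_le F F |>.trans_eq (by
      rw [sup_idem])) (bx1_mul ha hb))

theorem bx1A_toSubmodule (F : Subalgebra K A) :
    Subalgebra.toSubmodule (bx1A K₁ ι F) = bx1 K₁ ι (Subalgebra.toSubmodule F) :=
  Submodule.toSubalgebra_toSubmodule _ _ _

theorem mem_bx1A {F : Subalgebra K A} {x : A₁} :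
    x ∈ bx1A K₁ ι F ↔ x ∈ bx1 K₁ ι (Subalgebra.toSubmodule F) := Iff.rfl

/-- `F ⊠ E₁` as a subalgebra -/
def Adm.bxA (h : Adm κ ι j m) (F : Subalgebra K A) : Subalgebra K₁ A₁ :=
  (bx ι j (Subalgebra.toSubmodule F)).toSubalgebra
    (bx1_le_bx _ (by
      rw [← map_one ι]
      exact ι_mem_bx1 F.one_mem))
    (fun a b ha hb => bx_mono (Subalgebra.mul_toSubmodule_le F F |>.trans_eq (by
      rw [sup_idem])) (h.bx_mul ha hb))

theorem Adm.bxA_toSubmodule (h : Adm κ ι j m) (F : Subalgebra K A) :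
    Subalgebra.toSubmodule (h.bxA F) = bx ι j (Subalgebra.toSubmodule F) :=
  Submodule.toSubalgebra_toSubmodule _ _ _

theorem Adm.mem_bxA (h : Adm κ ι j m) {F : Subalgebra K A} {x : A₁} :
    x ∈ h.bxA F ↔ x ∈ bx ι j (Subalgebra.toSubmodule F) := Iff.rfl

theorem bx1_comm_of {U V : Submodule K A} (hUV : ∀ a ∈ U, ∀ b ∈ V, a * b = b * a) {u v : A₁}
    (hu : u ∈ bx1 K₁ ι U) (hv : v ∈ bx1 K₁ ι V) : u * v = v * u := by
  refine Submodule.span_induction (p := fun u _ => u * v = v * u) ?_ ?_ ?_ ?_ hu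
  · rintro x ⟨a, ha, rfl⟩
    refine Submodule.span_induction (p := fun v _ => ι a * v = v * ι a) ?_ ?_ ?_ ?_ hv
    · rintro x ⟨b, hb, rfl⟩
      rw [← map_mul, ← map_mul, hUV a ha b hb]
    · rw [zero_mul, mul_zero]
    · intro x y _ _ hx hy
      rw [add_mul, mul_add, hx, hy]
    · intro c x _ hx
      rw [smul_mul_assoc, mul_smul_comm, hx]
  · rw [zero_mul, mul_zero]
  · intro x y _ _ hx hy
    rw [add_mul, mul_add, hx, hy]
  · intro c x _ hx
    rw [smul_mul_assoc, mul_smul_comm, hx]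

/-- boxes of orthogonal spaces are orthogonal -/
theorem Adm.trc_bx_zero [FiniteDimensional K A] (h : Adm κ ι j m) {U V : Submodule K A}
    (hUV : ∀ a ∈ U, ∀ b ∈ V, trc K (a * b) = 0) {u v : A₁}
    (hu : u ∈ bx ι j U) (hv : v ∈ bx ι j V) : trc K₁ (u * v) = 0 := by
  refine Submodule.span_induction (p := fun u _ => trc K₁ (u * v) = 0) ?_ ?_ ?_ ?_ hu
  · rintro x ⟨e, a, ha, rfl⟩
    refine Submodule.span_induction (p := fun v _ => trc K₁ (ι a * j e * v) = 0) ?_ ?_ ?_ ?_ hv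
    · rintro x ⟨e', b, hb, rfl⟩
      rw [mul_assoc, ← mul_assoc (j e), ← h.comm, mul_assoc, ← map_mul, ← mul_assoc, ← map_mul,
        h.trc_mul, hUV a ha b hb, map_zero, zero_mul]
    · rw [mul_zero, map_zero]
    · intro x y _ _ hx hy
      rw [mul_add, map_add, hx, hy, add_zero]
    · intro c x _ hx
      rw [mul_smul_comm, map_smul, hx, smul_zero]
  · rw [zero_mul, map_zero]
  · intro x y _ _ hx hy
    rw [add_mul, map_add, hx, hy, add_zero]
  · intro c x _ hx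
    rw [smul_mul_assoc, map_smul, hx, smul_zero]

end Box

section BoxPerp

variable {K A K₁ E₁ A₁ : Type} [Field K] [CharZero K] [Ring A] [IsDomain A] [Algebra K A]
  [FiniteDimensional K A] [Field K₁] [CharZero K₁] [Ring E₁] [Ring A₁] [IsDomain A₁]
  [Algebra K₁ E₁] [Algebra K₁ A₁] [FiniteDimensional K₁ A₁]
  {κ : K →+* K₁} {ι : A →+* A₁} {j : E₁ →ₐ[K₁] A₁} {m : ℕ}

/-- orthogonal complement of `U ⊠ K₁` in `F ⊠ K₁` -/
theorem Adm.bx1_inf_perp (h : Adm κ ι j m) (F : Subalgebra K A) (U : Submodule K A)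
    (hU : U ≤ Subalgebra.toSubmodule F) :
    bx1 K₁ ι (Subalgebra.toSubmodule F) ⊓ perp (bx1 K₁ ι U)
      = bx1 K₁ ι (Subalgebra.toSubmodule F ⊓ perp U) := by
  symm
  apply Submodule.eq_of_le_of_finrank_eq
  · refine le_inf (bx1_mono inf_le_left) ?_
    intro x hx
    rw [mem_perp]
    intro v hv
    exact h.trc_bx_zero (U := U) (V := Subalgebra.toSubmodule F ⊓ perp U)
      (fun a ha b hb => mem_perp.1 (Submodule.mem_inf.1 hb).2 a ha) (bx1_le_bx _ hv) (bx1_le_bx _ hx)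
  · have h1 := finrank_inf_perp (bx1A K₁ ι F) (bx1 K₁ ι U) (by
      rw [bx1A_toSubmodule]; exact bx1_mono hU)
    rw [bx1A_toSubmodule, h.finrank_bx1, h.finrank_bx1] at h1
    have h2 := finrank_inf_perp F U hU
    rw [h.finrank_bx1]
    omega

/-- orthogonal complement of `U ⊠ E₁` in `F ⊠ E₁` -/
theorem Adm.bx_inf_perp (h : Adm κ ι j m) (F : Subalgebra K A) (U : Submodule K A)
    (hU : U ≤ Subalgebra.toSubmodule F) :
    bx ι j (Subalgebra.toSubmodule F) ⊓ perp (bx ι j U)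
      = bx ι j (Subalgebra.toSubmodule F ⊓ perp U) := by
  symm
  apply Submodule.eq_of_le_of_finrank_eq
  · refine le_inf (bx_mono inf_le_left) ?_
    intro x hx
    rw [mem_perp]
    intro v hv
    exact h.trc_bx_zero (U := U) (V := Subalgebra.toSubmodule F ⊓ perp U)
      (fun a ha b hb => mem_perp.1 (Submodule.mem_inf.1 hb).2 a ha) hv hx
  · have h1 := finrank_inf_perp (h.bxA F) (bx ι j U) (by
      rw [h.bxA_toSubmodule]; exact bx_mono hU)
    rw [h.bxA_toSubmodule, h.finrank_bx, h.finrank_bx] at h1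
    have h2 := finrank_inf_perp F U hU
    rw [h.finrank_bx]
    rw [← h2, mul_add] at h1
    omega

/-- criterion: `y ∈ F ⊠ K₁` orthogonal to `ι U` is in `(F ∩ U^⊥) ⊠ K₁` -/
theorem Adm.mem_bx1_perp (h : Adm κ ι j m) (F : Subalgebra K A) (U : Submodule K A)
    (hU : U ≤ Subalgebra.toSubmodule F) {y : A₁} (hy : y ∈ bx1 K₁ ι (Subalgebra.toSubmodule F))
    (h0 : ∀ u ∈ U, trc K₁ (y * ι u) = 0) : y ∈ bx1 K₁ ι (Subalgebra.toSubmodule F ⊓ perp U) := by
  rw [← h.bx1_inf_perp F U hU]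
  refine Submodule.mem_inf.2 ⟨hy, mem_perp.2 ?_⟩
  intro v hv
  rw [tr_mul_comm]
  refine Submodule.span_induction (p := fun v _ => trc K₁ (y * v) = 0) ?_ ?_ ?_ ?_ hv
  · rintro x ⟨u, hu, rfl⟩
    exact h0 u hu
  · rw [mul_zero, map_zero]
  · intro x y _ _ hx hy
    rw [mul_add, map_add, hx, hy, add_zero]
  · intro c x _ hx
    rw [mul_smul_comm, map_smul, hx, smul_zero]

end BoxPerp

section Sym

variable {K A K₁ E₁ A₁ : Type} [Field K] [Ring A] [Algebra K A] [Field K₁] [Ring E₁]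
  [Ring A₁] [Algebra K₁ E₁] [Algebra K₁ A₁]
  {κ : K →+* K₁} {ι : A →+* A₁} {j : E₁ →ₐ[K₁] A₁} {m : ℕ} {X Y : E₁} {ζ : K} {x y : K₁}

theorem SymAdm.span_top (h : SymAdm κ ι j m X Y ζ x y) :
    ⊤ ≤ Submodule.span K₁ (Set.range (fun p : Fin m × Fin m => X ^ (p.1 : ℕ) * Y ^ (p.2 : ℕ))) := by
  have := h.fdE
  rw [top_le_iff]
  apply Submodule.eq_top_of_finrank_eq
  rw [finrank_span_eq_card h.indep, Fintype.card_prod, Fintype.card_fin, h.finE, sq]

/-- the basis `X^k Y^l` of the symbol algebra -/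
noncomputable def SymAdm.eb (h : SymAdm κ ι j m X Y ζ x y) : Basis (Fin m × Fin m) K₁ E₁ :=
  Basis.mk h.indep h.span_top

theorem SymAdm.eb_apply (h : SymAdm κ ι j m X Y ζ x y) (p : Fin m × Fin m) :
    h.eb p = X ^ (p.1 : ℕ) * Y ^ (p.2 : ℕ) := by
  rw [SymAdm.eb, Basis.mk_apply]

theorem SymAdm.Y_X_pow (h : SymAdm κ ι j m X Y ζ x y) (k : ℕ) :
    Y * X ^ k = κ ζ ^ k • (X ^ k * Y) := by
  induction k with
  | zero => simp
  | succ k ih =>
    rw [pow_succ, ← mul_assoc, ih, smul_mul_assoc, mul_assoc, h.YX, mul_smul_comm, smul_smul,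
      ← mul_assoc, ← pow_succ]

theorem SymAdm.Y_pow_X_pow (h : SymAdm κ ι j m X Y ζ x y) (l k : ℕ) :
    Y ^ l * X ^ k = κ ζ ^ (k * l) • (X ^ k * Y ^ l) := by
  induction l with
  | zero => simp
  | succ l ih =>
    rw [pow_succ, mul_assoc, h.Y_X_pow, mul_smul_comm, ← mul_assoc, ih, smul_mul_assoc, smul_smul,
      mul_assoc, ← pow_add, mul_add, mul_one, add_comm]

theorem SymAdm.κζ (h : SymAdm κ ι j m X Y ζ x y) : IsPrimitiveRoot (κ ζ) m :=
  h.prim.map_of_injective κ.injective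

theorem SymAdm.isUnit_X (h : SymAdm κ ι j m X Y ζ x y) : IsUnit X := by
  have h1 : IsUnit (X ^ m) := by
    rw [h.Xm]
    exact (IsUnit.mk0 x h.x0).map (algebraMap K₁ E₁)
  exact (isUnit_pow_iff h.pos.ne').1 h1

theorem SymAdm.isUnit_Y (h : SymAdm κ ι j m X Y ζ x y) : IsUnit Y := by
  have h1 : IsUnit (Y ^ m) := by
    rw [h.Ym]
    exact (IsUnit.mk0 y h.y0).map (algebraMap K₁ E₁)
  exact (isUnit_pow_iff h.pos.ne').1 h1

/-- coordinates: `w = ∑ w_{kl} X^k Y^l` -/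
theorem SymAdm.sum_cd [FiniteDimensional K A] (h : SymAdm κ ι j m X Y ζ x y) (w : A₁) :
    ∑ p : Fin m × Fin m, h.cd h.eb p w * j (X ^ (p.1 : ℕ) * Y ^ (p.2 : ℕ)) = w := by
  conv_rhs => rw [← h.toAdm.sum_cd h.eb w]
  refine Finset.sum_congr rfl fun p _ => ?_
  rw [h.eb_apply]

theorem SymAdm.cd_sum [FiniteDimensional K A] (h : SymAdm κ ι j m X Y ζ x y)
    (u : Fin m × Fin m → A₁) (hu : ∀ p, u p ∈ bx1 K₁ ι (⊤ : Submodule K A)) (p : Fin m × Fin m) :
    h.cd h.eb p (∑ p : Fin m × Fin m, u p * j (X ^ (p.1 : ℕ) * Y ^ (p.2 : ℕ))) = u p := by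
  rw [← h.toAdm.cd_sum h.eb p u hu]
  congr 1
  refine Finset.sum_congr rfl fun p _ => ?_
  rw [h.eb_apply]

/-- centralizer of `X` -/
theorem SymAdm.cd_zero_of_comm [FiniteDimensional K A] (h : SymAdm κ ι j m X Y ζ x y) {w : A₁}
    (hw : w * j X = j X * w) (p : Fin m × Fin m) (hp : (p.2 : ℕ) ≠ 0) : h.cd h.eb p w = 0 := by
  have h1 : w * j X = j X * ∑ p : Fin m × Fin m, (κ ζ ^ (p.2 : ℕ) • h.cd h.eb p w)
      * j (X ^ (p.1 : ℕ) * Y ^ (p.2 : ℕ)) := by
    conv_lhs => rw [← h.sum_cd w]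
    rw [Finset.sum_mul, Finset.mul_sum]
    refine Finset.sum_congr rfl fun p _ => ?_
    have h2 : X ^ (p.1 : ℕ) * Y ^ (p.2 : ℕ) * X
        = κ ζ ^ (p.2 : ℕ) • (X * (X ^ (p.1 : ℕ) * Y ^ (p.2 : ℕ))) := by
      have := h.Y_pow_X_pow (p.2 : ℕ) 1
      rw [pow_one, one_mul] at this
      rw [mul_assoc, this, mul_smul_comm, ← mul_assoc, ← mul_assoc, ← pow_succ, ← pow_succ']
    rw [mul_assoc, ← map_mul, h2, map_smul, mul_smul_comm, smul_mul_assoc, mul_smul_comm, map_mul,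
      ← mul_assoc, h.bx1_comm (h.cd_mem_top h.eb p w), mul_assoc]
  rw [hw] at h1
  have h3 := (h.isUnit_X.map j).mul_left_cancel h1
  have h4 := congrArg (h.cd h.eb p) h3
  rw [h.cd_sum _ (fun p => Submodule.smul_mem _ _ (h.cd_mem_top h.eb p w)) p] at h4
  have h5 : (1 - κ ζ ^ (p.2 : ℕ)) • h.cd h.eb p w = 0 := by
    rw [sub_smul, one_smul, ← h4, sub_self]
  rcases smul_eq_zero.1 h5 with h6 | h6
  · exfalso
    have h7 : κ ζ ^ (p.2 : ℕ) = 1 := (sub_eq_zero.1 h6).symm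
    have h8 := (h.κζ.pow_eq_one_iff_dvd _).1 h7
    exact hp (Nat.eq_zero_of_dvd_of_lt h8 p.2.2)
  · exact h6

theorem SymAdm.eq_sum_of_comm [FiniteDimensional K A] (h : SymAdm κ ι j m X Y ζ x y) {w : A₁}
    (hw : w * j X = j X * w) :
    w = ∑ k : Fin m, h.cd h.eb (k, ⟨0, h.pos⟩) w * j (X ^ (k : ℕ)) := by
  conv_lhs => rw [← h.sum_cd w, Fintype.sum_prod_type]
  refine Finset.sum_congr rfl fun k _ => ?_
  rw [Finset.sum_eq_single ⟨0, h.pos⟩]
  · simp
  · intro l _ hl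
    have : ((k, l) : Fin m × Fin m).2.1 ≠ 0 := fun h0 => hl (Fin.ext h0)
    rw [h.cd_zero_of_comm hw (k, l) this, zero_mul]
  · intro hn
    exact absurd (Finset.mem_univ _) hn

end Sym

end Vale.Agent.P199K
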