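import Vale.Agent.P199K.LMDefs
import Vale.Agent.P199K.SymD2

/-! # P199, section 6: proof of LM0 (helper59) -/

namespace Vale.Agent.P199K

open Module

section Coef

variable {K A K₁ E₁ A₁ : Type} [Field K] [Ring A] [Algebra K A] [Field K₁] [Ring E₁]
  [Ring A₁] [Algebra K₁ E₁] [Algebra K₁ A₁]
  {κ : K →+* K₁} {ι : A →+* A₁} {j : E₁ →ₐ[K₁] A₁} {m : ℕ}

/-- elements of a box as sums over a basis of `U` -/
theorem mem_bx_exists (hι : ∀ c a, ι (c • a) = κ c • ι a) {U : Submodule K A} {r : ℕ}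
    (u : Basis (Fin r) K U) {y : A₁} (hy : y ∈ bx ι j U) :
    ∃ c : Fin r → E₁, y = ∑ i, ι (u i) * j (c i) := by
  classical
  refine Submodule.span_induction (p := fun y _ => ∃ c : Fin r → E₁, y = ∑ i, ι (u i) * j (c i))
    ?_ ?_ ?_ ?_ hy
  · rintro x ⟨e, a, ha, rfl⟩
    refine ⟨fun i => κ (u.repr ⟨a, ha⟩ i) • e, ?_⟩
    have h1 : a = ∑ i, u.repr ⟨a, ha⟩ i • (u i : A) := by
      have := congrArg (Submodule.subtype U) (u.sum_repr ⟨a, ha⟩)
      rw [map_sum] at this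
      exact this.symm
    conv_lhs => rw [h1, map_sum, Finset.sum_mul]
    refine Finset.sum_congr rfl fun i _ => ?_
    rw [hι, map_smul, smul_mul_assoc, mul_smul_comm]
  · exact ⟨0, by simp⟩
  · rintro x y _ _ ⟨c, rfl⟩ ⟨d, rfl⟩
    refine ⟨c + d, ?_⟩
    rw [← Finset.sum_add_distrib]
    refine Finset.sum_congr rfl fun i _ => ?_
    rw [Pi.add_apply, map_add, mul_add]
  · rintro a x _ ⟨c, rfl⟩
    refine ⟨a • c, ?_⟩
    rw [Finset.smul_sum]
    refine Finset.sum_congr rfl fun i _ => ?_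
    rw [Pi.smul_apply, map_smul, mul_smul_comm]

/-- coefficients of elements of a box over Laurent series -/
theorem Adm.coeff_mem_bx [FiniteDimensional K A] (h : Adm κ ι j m) {U : Submodule K A} {z : LS A₁}
    (hz : z ∈ bx (LS.C.comp ι) (lsj j) U) (n : ℤ) : LS.coeff z n ∈ bx ι j U := by
  have hι : ∀ c a, (LS.C.comp ι) (c • a) = (LS.C.comp κ) c • (LS.C.comp ι) a := by
    intro c a
    rw [RingHom.comp_apply, h.ι_smul, RingHom.comp_apply, RingHom.comp_apply]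
    apply LS.ext
    intro k
    rw [LS.coeff_C_smul, LS.coeff_C, LS.coeff_C]
    split_ifs
    · rfl
    · rw [smul_zero]
  obtain ⟨c, rfl⟩ := mem_bx_exists hι (finBasis K U) hz
  rw [LS.coeff_sum]
  refine Submodule.sum_mem _ fun i _ => ?_
  rw [RingHom.comp_apply, LS.coeff_C_mul, lsj_coeff]
  exact mul_mem_bx (Subtype.coe_prop _) _

end Coef

section Core

variable {K A K₁ E₁ A₁ : Type} [Field K] [CharZero K] [Ring A] [IsDomain A] [Algebra K A]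
  [FiniteDimensional K A] [Field K₁] [CharZero K₁] [Ring E₁] [Ring A₁] [IsDomain A₁]
  [Algebra K₁ E₁] [Algebra K₁ A₁] [FiniteDimensional K₁ A₁]
  {κ : K →+* K₁} {ι : A →+* A₁} {j : E₁ →ₐ[K₁] A₁} {m : ℕ} {X Y : E₁} {ζ : K} {x y : K₁}

theorem LM0_core (h : SymAdm κ ι j m X Y ζ x y) (hp : m.Prime) (F : Subalgebra K A)
    (hF : ∀ a ∈ F, ∀ b ∈ F, a * b = b * a)
    (V : Submodule K A) (hVF : V ≤ Subalgebra.toSubmodule F) {q : ℕ}
    (v : Module.Basis (Fin q) K V) (hm : q < m) (z0 z1 : A₁) (h0 : z0 ∈ bx ι j (Zs F V))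
    (h1 : z1 ∈ bx ι j (Zs F V)) (c0 : z0 * j X = j X * z0)
    (c1 : z1 * j X + z0 * (∑ l, ι (v l) * j (Y ^ ((l : ℕ) + 1)))
      = j X * z1 + (∑ l, ι (v l) * j (Y ^ ((l : ℕ) + 1))) * z0) :
    ∃ y : Fin m → A₁, z0 = ∑ k, y k * j (X ^ (k : ℕ)) ∧ (∀ k, y k ∈ bx1 K₁ ι (Zs F V)) ∧
      ∀ k : Fin m, (k : ℕ) ≠ 0 → y k ∈ bx1 K₁ ι (Subalgebra.toSubmodule F ⊓ perp (V * V)) := by
  classical
  have hZF : Zs F V ≤ Subalgebra.toSubmodule F := inf_le_left
  let yy : Fin m → A₁ := fun k => h.cd h.eb (k, ⟨0, h.pos⟩) z0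
  have hyy : ∀ k, yy k ∈ bx1 K₁ ι (Zs F V) := fun k => h.cd_mem h.eb _ h0
  have hyF : ∀ k, yy k ∈ bx1 K₁ ι (Subalgebra.toSubmodule F) := fun k => bx1_mono hZF (hyy k)
  have hyT : ∀ k, yy k ∈ bx1 K₁ ι (⊤ : Submodule K A) := fun k => bx1_mono le_top (hyy k)
  have hz0 : z0 = ∑ k, yy k * j (X ^ (k : ℕ)) := h.eq_sum_of_comm c0
  have hvF : ∀ l, ι (v l) ∈ bx1 K₁ ι (Subalgebra.toSubmodule F) := fun l =>
    ι_mem_bx1 (hVF (v l).2)
  have hvcomm : ∀ k l, yy k * ι (v l) = ι (v l) * yy k := fun k l =>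
    bx1_comm_of (fun a ha b hb => hF a ha b hb) (hyF k) (hvF l)
  -- the commutator of `z0` with `∑ v_l Y^(l+1)`
  have hbr : z0 * (∑ l, ι (v l) * j (Y ^ ((l : ℕ) + 1)))
      - (∑ l, ι (v l) * j (Y ^ ((l : ℕ) + 1))) * z0
      = ∑ k : Fin m, ∑ l : Fin q, ((1 - κ ζ ^ ((k : ℕ) * ((l : ℕ) + 1))) • (yy k * ι (v l)))
        * j (X ^ (k : ℕ) * Y ^ ((l : ℕ) + 1)) := by
    rw [hz0, Finset.sum_mul_sum, Finset.sum_mul_sum, Finset.sum_comm (s := Finset.univ (α := Fin q)),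
      ← Finset.sum_sub_distrib]
    refine Finset.sum_congr rfl fun k _ => ?_
    rw [← Finset.sum_sub_distrib]
    refine Finset.sum_congr rfl fun l _ => ?_
    have e1 : yy k * j (X ^ (k : ℕ)) * (ι (v l) * j (Y ^ ((l : ℕ) + 1)))
        = yy k * ι (v l) * j (X ^ (k : ℕ) * Y ^ ((l : ℕ) + 1)) := by
      rw [map_mul, mul_assoc, ← mul_assoc (j (X ^ (k : ℕ))), ← h.comm, mul_assoc, mul_assoc]
    have e2 : ι (v l) * j (Y ^ ((l : ℕ) + 1)) * (yy k * j (X ^ (k : ℕ)))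
        = κ ζ ^ ((k : ℕ) * ((l : ℕ) + 1)) • (yy k * ι (v l) * j (X ^ (k : ℕ) * Y ^ ((l : ℕ) + 1))) := by
      rw [mul_assoc, ← mul_assoc (j (Y ^ ((l : ℕ) + 1))), ← h.bx1_comm (hyT k), mul_assoc, ← map_mul,
        h.Y_pow_X_pow, map_smul, mul_smul_comm, mul_smul_comm, ← mul_assoc, ← hvcomm]
    rw [e1, e2, smul_mul_assoc, sub_smul, one_smul]
  have hmem : z0 * (∑ l, ι (v l) * j (Y ^ ((l : ℕ) + 1)))
      - (∑ l, ι (v l) * j (Y ^ ((l : ℕ) + 1))) * z0 ∈ bx ι j (Zs F V) := by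
    have e1 : z0 * (∑ l, ι (v l) * j (Y ^ ((l : ℕ) + 1)))
      - (∑ l, ι (v l) * j (Y ^ ((l : ℕ) + 1))) * z0 = j X * z1 - z1 * j X := by
      rw [sub_eq_sub_iff_add_eq_add, add_comm, c1, add_comm]
    rw [e1]
    exact Submodule.sub_mem _ (h.j_mul_bx_mem h1 X) (bx_mul_j_mem h1 X)
  -- the coordinates of the commutator
  have hcoord : ∀ (k : Fin m) (l : Fin q), (k : ℕ) ≠ 0 → yy k * ι (v l) ∈ bx1 K₁ ι (Zs F V) := by
    intro k l hk
    have hl : (l : ℕ) + 1 < m := by have := l.2; omega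
    have e1 := h.cd_mem h.eb (k, ⟨(l : ℕ) + 1, hl⟩) hmem
    have e2 : h.cd h.eb (k, ⟨(l : ℕ) + 1, hl⟩) (z0 * (∑ l, ι (v l) * j (Y ^ ((l : ℕ) + 1)))
      - (∑ l, ι (v l) * j (Y ^ ((l : ℕ) + 1))) * z0)
      = (1 - κ ζ ^ ((k : ℕ) * ((l : ℕ) + 1))) • (yy k * ι (v l)) := by
      have hterm : ∀ (k' : Fin m) (l' : Fin q), h.cd h.eb (k, ⟨(l : ℕ) + 1, hl⟩)
          (((1 - κ ζ ^ ((k' : ℕ) * ((l' : ℕ) + 1))) • (yy k' * ι (v l')))
          * j (X ^ (k' : ℕ) * Y ^ ((l' : ℕ) + 1)))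
          = if k' = k ∧ l' = l then (1 - κ ζ ^ ((k' : ℕ) * ((l' : ℕ) + 1))) • (yy k' * ι (v l'))
            else 0 := by
        intro k' l'
        have hl' : (l' : ℕ) + 1 < m := by have := l'.2; omega
        have e3 : X ^ (k' : ℕ) * Y ^ ((l' : ℕ) + 1) = h.eb (k', ⟨(l' : ℕ) + 1, hl'⟩) := by
          rw [h.eb_apply]
        rw [e3, h.cd_mul h.eb _ (Submodule.smul_mem _ _ (bx1_mono le_top
          (bx1_mul (hyT k') (bx1_mono le_top (hvF l'))))), h.eb.repr_self]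
        by_cases hkl : k' = k ∧ l' = l
        · obtain ⟨rfl, rfl⟩ := hkl
          rw [if_pos ⟨rfl, rfl⟩, Finsupp.single_eq_same, one_smul]
        · rw [if_neg hkl, Finsupp.single_eq_of_ne, zero_smul]
          intro hh
          apply hkl
          have hh1 : (k : ℕ) = (k' : ℕ) := congrArg (fun p : Fin m × Fin m => (p.1 : ℕ)) hh
          have hh2 : (l : ℕ) + 1 = (l' : ℕ) + 1 :=
            congrArg (fun p : Fin m × Fin m => (p.2 : ℕ)) hh
          exact ⟨Fin.ext hh1.symm, Fin.ext (by omega)⟩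
      rw [hbr, map_sum, Finset.sum_eq_single k]
      · rw [map_sum, Finset.sum_eq_single l]
        · rw [hterm, if_pos ⟨rfl, rfl⟩]
        · intro l' _ hl'
          rw [hterm, if_neg (fun hh => hl' hh.2)]
        · intro hh
          exact absurd (Finset.mem_univ _) hh
      · intro k' _ hk'
        rw [map_sum]
        refine Finset.sum_eq_zero fun l' _ => ?_
        rw [hterm, if_neg (fun hh => hk' hh.1)]
      · intro hh
        exact absurd (Finset.mem_univ _) hh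
    rw [e2] at e1
    have hne : (1 - κ ζ ^ ((k : ℕ) * ((l : ℕ) + 1))) ≠ 0 := by
      intro h0
      have h7 : κ ζ ^ ((k : ℕ) * ((l : ℕ) + 1)) = 1 := (sub_eq_zero.1 h0).symm
      have h8 := (h.κζ.pow_eq_one_iff_dvd _).1 h7
      rcases (Nat.Prime.dvd_mul hp).1 h8 with h9 | h9
      · exact hk (Nat.eq_zero_of_dvd_of_lt h9 k.2)
      · exact absurd (Nat.eq_zero_of_dvd_of_lt h9 hl) (by omega)
    exact (Submodule.smul_mem_iff _ hne).1 e1
  refine ⟨yy, hz0, hyy, fun k hk => ?_⟩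
  have hVV : V * V ≤ Subalgebra.toSubmodule F := by
    refine (Submodule.mul_le).2 fun a ha b hb => F.mul_mem (hVF ha) (hVF hb)
  refine h.mem_bx1_perp F (V * V) hVV (hyF k) ?_
  have hv : ∀ a ∈ V, yy k * ι a ∈ bx1 K₁ ι (Zs F V) := by
    intro a ha
    have e1 : a = ∑ i, v.repr ⟨a, ha⟩ i • (v i : A) := by
      have := congrArg (Submodule.subtype V) (v.sum_repr ⟨a, ha⟩)
      rw [map_sum] at this
      exact this.symm
    rw [e1, map_sum, Finset.mul_sum]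
    refine Submodule.sum_mem _ fun i _ => ?_
    rw [h.ι_smul, mul_smul_comm]
    exact Submodule.smul_mem _ _ (hcoord k i hk)
  intro u hu
  refine Submodule.mul_induction_on hu ?_ ?_
  · intro a ha b hb
    rw [RingHom.map_mul, ← mul_assoc]
    exact h.trc_bx_zero (U := Zs F V) (V := V) (fun a ha b hb => by
      rw [tr_mul_comm]
      exact mem_perp.1 (Submodule.mem_inf.1 ha).2 b hb) (bx1_le_bx _ (hv a ha))
      (bx1_le_bx _ (ι_mem_bx1 hb))
  · intro a b ha hb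
    rw [map_add, mul_add, map_add, ha, hb, add_zero]

/-- **LM0** -/
theorem LM0_proved {κ : K →+* K₁} {ι : A →+* A₁} {j : E₁ →ₐ[K₁] A₁} {m : ℕ} {X Y : E₁} {ζ : K}
    {x y : K₁}
    (h : SymAdm κ ι j m X Y ζ x y) (hp : m.Prime) (F : Subalgebra K A)
    (hF : ∀ a ∈ F, ∀ b ∈ F, a * b = b * a)
    (V : Submodule K A) (_h1 : (1 : A) ∈ V) (hVF : V ≤ Subalgebra.toSubmodule F) {q : ℕ}
    (v : Module.Basis (Fin q) K V) (hm : q < m)
    (z : LS A₁) (hz : z ∈ bx (LS.C.comp ι) (lsj j) (Zs F V)) (hi : LS.Intg z)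
    (hcomm : z * vv ι j X Y (fun l => (v l : A)) = vv ι j X Y (fun l => (v l : A)) * z) :
    ∃ y : Fin m → A₁, LS.coeff z 0 = ∑ k, y k * j (X ^ (k : ℕ)) ∧
      (∀ k, y k ∈ bx1 K₁ ι (Zs F V)) ∧
      ∀ k : Fin m, (k : ℕ) ≠ 0 →
        y k ∈ bx1 K₁ ι (Subalgebra.toSubmodule F ⊓ perp (V * V)) := by
  classical
  set W : A₁ := ∑ l, ι (v l) * j (Y ^ ((l : ℕ) + 1)) with hW
  have hv : vv ι j X Y (fun l => (v l : A)) = LS.C (j X) + LS.mono 1 W := rfl
  have hvI : LS.Intg (vv ι j X Y (fun l => (v l : A))) := by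
    rw [hv]
    refine LS.Intg.add (LS.Intg.C _) ?_
    intro n hn
    rw [LS.coeff_mono, if_neg (by omega)]
  have hv0 : LS.coeff (vv ι j X Y (fun l => (v l : A))) 0 = j X := by
    rw [hv, LS.coeff_add, LS.coeff_C_zero, LS.coeff_mono, if_neg (by norm_num), add_zero]
  have hv1 : LS.coeff (vv ι j X Y (fun l => (v l : A))) 1 = W := by
    rw [hv, LS.coeff_add, LS.coeff_C, if_neg (by norm_num), LS.coeff_mono, if_pos rfl, zero_add]
  have c0 : LS.coeff (z * vv ι j X Y (fun l => (v l : A))) 0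
      = LS.coeff (vv ι j X Y (fun l => (v l : A)) * z) 0 := congrArg (fun w => LS.coeff w 0) hcomm
  have c1 : LS.coeff (z * vv ι j X Y (fun l => (v l : A))) 1
      = LS.coeff (vv ι j X Y (fun l => (v l : A)) * z) 1 := congrArg (fun w => LS.coeff w 1) hcomm
  rw [LS.coeff_mul_zero hi hvI, LS.coeff_mul_zero hvI hi, hv0] at c0
  rw [LS.coeff_mul_one hi hvI, LS.coeff_mul_one hvI hi, hv0, hv1] at c1
  refine LM0_core h hp F hF V hVF v hm (LS.coeff z 0) (LS.coeff z 1) (h.coeff_mem_bx hz 0)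
    (h.coeff_mem_bx hz 1) c0 ?_
  rw [← hW]
  rw [add_comm, c1, add_comm]

end Core

end Vale.Agent.P199K
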