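import Vale.Agent.P199K.SymC
import Vale.Agent.P199K.ResPr

/-! # P199, section 6: LM1 (helper36) -/

open scoped LaurentSeries
open PowerSeries

namespace Vale.Agent.P199K

open Module

section Gen

variable {K A : Type} [Field K] [Ring A] [IsDomain A] [Algebra K A] [Module.Finite K A] [CharZero K]

omit [IsDomain A] [Module.Finite K A] [CharZero K] in
theorem lm1_perp_sup (V W : Submodule K A) : perp (V ⊔ W) = perp V ⊓ perp W := by
  apply le_antisymm
  · exact le_inf (perp_anti le_sup_left) (perp_anti le_sup_right)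
  · intro x hx
    rw [mem_perp]
    intro v hv
    obtain ⟨a, ha, b, hb, rfl⟩ := Submodule.mem_sup.1 hv
    have h1 : trc K (a * x) = 0 := hx.1 a ha
    have h2 : trc K (b * x) = 0 := hx.2 b hb
    rw [add_mul, map_add, h1, h2, add_zero]

/-- dimension of the orthogonal complement inside a subalgebra -/
theorem lm1_rank (L : Subalgebra K A) {U : Submodule K A} (hU : U ≤ Subalgebra.toSubmodule L) :
    finrank K U + finrank K (Subalgebra.toSubmodule L ⊓ perp U : Submodule K A)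
      = finrank K L := by
  have hd : Disjoint (perp (Subalgebra.toSubmodule L)) U :=
    (isCompl_perp L).disjoint.symm.mono_right hU
  have h1 : perp (perp (Subalgebra.toSubmodule L) ⊔ U) = Subalgebra.toSubmodule L ⊓ perp U := by
    rw [lm1_perp_sup, perp_perp]
  have h2 := finrank_perp (perp (Subalgebra.toSubmodule L) ⊔ U)
  have h3 := Submodule.finrank_sup_add_finrank_inf_eq (perp (Subalgebra.toSubmodule L)) U
  rw [hd.eq_bot, finrank_bot, add_zero] at h3
  have h4 := finrank_perp (Subalgebra.toSubmodule L)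
  rw [h1, h3] at h2
  have h5 : finrank K (Subalgebra.toSubmodule L) = finrank K L := rfl
  omega

/-- double orthogonal inside a subalgebra -/
theorem lm1_le_of_perp (L : Subalgebra K A) {U W : Submodule K A}
    (hU : U ≤ Subalgebra.toSubmodule L) (hW : W ≤ Subalgebra.toSubmodule L)
    (h : ∀ a ∈ L, a ∈ perp U → ∀ w ∈ W, trc K (a * w) = 0) : W ≤ U := by
  intro w hw
  have h1 : w ∈ U ⊔ perp (Subalgebra.toSubmodule L) := by
    rw [← perp_perp (U ⊔ perp (Subalgebra.toSubmodule L)), lm1_perp_sup, perp_perp]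
    rw [mem_perp]
    intro a ha
    exact h a ha.2 ha.1 w hw
  obtain ⟨u, hu, p, hp, hup⟩ := Submodule.mem_sup.1 h1
  have h2 : p ∈ Subalgebra.toSubmodule L := by
    have h3 : p = w - u := by rw [← hup, add_sub_cancel_left]
    rw [h3]
    exact Submodule.sub_mem _ (hW hw) (hU hu)
  have h4 : p = 0 := by
    have := (isCompl_perp L).disjoint
    rw [Submodule.disjoint_def] at this
    exact this p h2 hp
  rw [← hup, h4, add_zero]
  exact hu

end Gen

section Box

variable {K A K₁ E₁ A₁ : Type} [Field K] [CharZero K] [Ring A] [IsDomain A] [Algebra K A]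
  [FiniteDimensional K A] [Field K₁] [CharZero K₁] [Ring E₁] [Ring A₁] [IsDomain A₁]
  [Algebra K₁ E₁] [Algebra K₁ A₁] [FiniteDimensional K₁ A₁]
  {κ : K →+* K₁} {ι : A →+* A₁} {j : E₁ →ₐ[K₁] A₁} {m : ℕ}

omit [CharZero K] [IsDomain A] [CharZero K₁] [IsDomain A₁] [FiniteDimensional K₁ A₁]
  [FiniteDimensional K A] in
theorem lm1_bx_mul (h : Adm κ ι j m) (F : Subalgebra K A) {u v : A₁}
    (hu : u ∈ bx ι j (Subalgebra.toSubmodule F)) (hv : v ∈ bx ι j (Subalgebra.toSubmodule F)) :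
    u * v ∈ bx ι j (Subalgebra.toSubmodule F) := by
  have h1 := h.bx_mul hu hv
  have h2 : Subalgebra.toSubmodule F * Subalgebra.toSubmodule F ≤ Subalgebra.toSubmodule F := by
    rw [Submodule.mul_le]
    intro a ha b hb
    exact F.mul_mem ha hb
  exact bx_mono h2 h1

/-- `F ⊠ E₁` as a subalgebra -/
noncomputable def lm1_alg (h : Adm κ ι j m) (F : Subalgebra K A) : Subalgebra K₁ A₁ where
  carrier := bx ι j (Subalgebra.toSubmodule F)
  mul_mem' := fun ha hb => lm1_bx_mul h F ha hb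
  add_mem' := fun ha hb => Submodule.add_mem _ ha hb
  algebraMap_mem' := fun c => by
    have h1 : (1 : A₁) ∈ bx ι j (Subalgebra.toSubmodule F) := by
      have := mul_mem_bx (ι := ι) (j := j) (U := Subalgebra.toSubmodule F) F.one_mem (1 : E₁)
      rwa [map_one, map_one, mul_one] at this
    rw [Algebra.algebraMap_eq_smul_one]
    exact Submodule.smul_mem _ _ h1

omit [CharZero K] [IsDomain A] [CharZero K₁] [IsDomain A₁] [FiniteDimensional K₁ A₁]
  [FiniteDimensional K A] in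
theorem lm1_alg_toSubmodule (h : Adm κ ι j m) (F : Subalgebra K A) :
    Subalgebra.toSubmodule (lm1_alg h F) = bx ι j (Subalgebra.toSubmodule F) := rfl

omit [CharZero K] [IsDomain A] [CharZero K₁] [IsDomain A₁] [FiniteDimensional K₁ A₁] in
theorem lm1_bx_perp (h : Adm κ ι j m) {V Z : Submodule K A} (hVZ : ∀ v ∈ V, ∀ z ∈ Z, trc K (v * z) = 0)
    {a b : A₁} (ha : a ∈ bx ι j V) (hb : b ∈ bx ι j Z) : trc K₁ (a * b) = 0 := by
  refine Submodule.span_induction (p := fun a _ => trc K₁ (a * b) = 0) ?_ ?_ ?_ ?_ ha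
  · rintro _ ⟨e, v, hv, rfl⟩
    refine Submodule.span_induction (p := fun b _ => trc K₁ (ι v * j e * b) = 0) ?_ ?_ ?_ ?_ hb
    · rintro _ ⟨e', z, hz, rfl⟩
      have h1 : ι v * j e * (ι z * j e') = ι (v * z) * j (e * e') := by
        rw [map_mul, map_mul, mul_assoc, ← mul_assoc (j e), ← h.comm, mul_assoc, mul_assoc]
      rw [h1, h.trc_mul, hVZ v hv z hz, map_zero, zero_mul]
    · rw [mul_zero, map_zero]
    · intro x y _ _ hx hy
      rw [mul_add, map_add, hx, hy, add_zero]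
    · intro c x _ hx
      rw [mul_smul_comm, map_smul, hx, smul_zero]
  · rw [zero_mul, map_zero]
  · intro x y _ _ hx hy
    rw [add_mul, map_add, hx, hy, add_zero]
  · intro c x _ hx
    rw [smul_mul_assoc, map_smul, hx, smul_zero]

/-- the orthogonal complement of a box in a box -/
theorem lm1_bx_inf_perp (h : Adm κ ι j m) (F : Subalgebra K A) {V : Submodule K A}
    (hV : V ≤ Subalgebra.toSubmodule F) :
    bx ι j (Subalgebra.toSubmodule F) ⊓ perp (bx ι j V)
      = bx ι j (Subalgebra.toSubmodule F ⊓ perp V) := by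
  symm
  apply Submodule.eq_of_le_of_finrank_eq
  · refine le_inf (bx_mono inf_le_left) ?_
    intro x hx
    rw [mem_perp]
    intro v hv
    exact lm1_bx_perp h (V := V) (Z := Subalgebra.toSubmodule F ⊓ perp V)
      (fun v hv z hz => (Submodule.mem_inf.1 hz).2 v hv) hv hx
  · have h1 := lm1_rank (lm1_alg h F) (U := bx ι j V) (by
      rw [lm1_alg_toSubmodule]; exact bx_mono hV)
    rw [lm1_alg_toSubmodule] at h1
    have h2 := lm1_rank F hV
    have h3 : finrank K₁ (lm1_alg h F) = finrank K₁ (bx ι j (Subalgebra.toSubmodule F)) := rfl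
    rw [h3, h.finrank_bx, h.finrank_bx] at h1
    have h4 : finrank K (Subalgebra.toSubmodule F) = finrank K F := rfl
    rw [h4, ← h2, mul_add] at h1
    rw [h.finrank_bx]
    omega

omit [CharZero K] [IsDomain A] [CharZero K₁] [IsDomain A₁] [FiniteDimensional K₁ A₁]
  [FiniteDimensional K A] [Algebra K A] [Ring A] [Algebra K₁ A₁] [Ring A₁] in
theorem lm1_X_comm {X Y : E₁} {z : K₁} (hYX : Y * X = z • (X * Y)) (n : ℕ) :
    Y * X ^ n = z ^ n • (X ^ n * Y) := by
  induction n with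
  | zero => simp
  | succ n ih =>
    rw [pow_succ, ← mul_assoc, ih, smul_mul_assoc, mul_assoc, hYX, mul_smul_comm, smul_smul,
      ← mul_assoc, ← pow_succ]

omit [CharZero K] [IsDomain A] [CharZero K₁] [IsDomain A₁] [FiniteDimensional K₁ A₁]
  [FiniteDimensional K A] in
/-- the trace of `X ^ n` -/
theorem lm1_trc_X {X Y : E₁} {ζ : K} {x y : K₁} (h : SymAdm κ ι j m X Y ζ x y) (n : ℕ)
    (hn : ¬ m ∣ n) : trc K₁ (X ^ n) = 0 := by
  obtain ⟨m', rfl⟩ : ∃ m', m = m' + 1 := ⟨m - 1, by have := h.pos; omega⟩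
  have h1 : trc K₁ (X ^ n * Y ^ (m' + 1)) = κ ζ ^ n * trc K₁ (X ^ n * Y ^ (m' + 1)) := by
    conv_lhs => rw [pow_succ, ← mul_assoc, tr_mul_comm, ← mul_assoc, lm1_X_comm h.YX n]
    rw [smul_mul_assoc, map_smul, smul_eq_mul, mul_assoc, ← pow_succ']
  rw [h.Ym, ← Algebra.commutes, ← Algebra.smul_def, map_smul, smul_eq_mul] at h1
  have h2 : (1 - κ ζ ^ n) * (y * trc K₁ (X ^ n)) = 0 := by
    rw [sub_mul, one_mul, ← h1, sub_self]
  rcases mul_eq_zero.1 h2 with h3 | h3
  · exfalso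
    apply hn
    rw [← h.prim.pow_eq_one_iff_dvd]
    apply κ.injective
    rw [map_pow, map_one]
    exact (sub_eq_zero.1 h3).symm
  · rcases mul_eq_zero.1 h3 with h4 | h4
    · exact absurd h4 h.y0
    · exact h4

omit [CharZero K] [IsDomain A] [CharZero K₁] [IsDomain A₁] [FiniteDimensional K₁ A₁] in
theorem lm1_pair {X Y : E₁} {ζ : K} {x y : K₁} (h : SymAdm κ ι j m X Y ζ x y) {Z : Submodule K A}
    (f : A) (k l : ℕ) (hz : m ∣ k + l → ∀ u ∈ Z, trc K (u * f) = 0) {u : A₁}
    (hu : u ∈ bx1 K₁ ι Z) : trc K₁ (u * j (X ^ k) * (ι f * j (X ^ l))) = 0 := by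
  refine Submodule.span_induction (p := fun u _ => trc K₁ (u * j (X ^ k) * (ι f * j (X ^ l))) = 0)
    ?_ ?_ ?_ ?_ hu
  · rintro _ ⟨a, ha, rfl⟩
    have h1 : ι a * j (X ^ k) * (ι f * j (X ^ l)) = ι (a * f) * j (X ^ (k + l)) := by
      rw [map_mul, pow_add, map_mul, mul_assoc, ← mul_assoc (j (X ^ k)), ← h.comm, mul_assoc,
        mul_assoc]
    rw [h1, h.toAdm.trc_mul]
    by_cases hd : m ∣ k + l
    · rw [hz hd a ha, map_zero, zero_mul]
    · rw [lm1_trc_X h _ hd, mul_zero]
  · rw [zero_mul, zero_mul, map_zero]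
  · intro x y _ _ hx hy
    rw [add_mul, add_mul, map_add, hx, hy, add_zero]
  · intro c x _ hx
    rw [smul_mul_assoc, smul_mul_assoc, map_smul, hx, smul_zero]

omit [CharZero K] [IsDomain A] [CharZero K₁] [IsDomain A₁] [FiniteDimensional K₁ A₁]
  [FiniteDimensional K A] in
/-- powers of a space containing the `V² X^l`, `0 < l < m` -/
theorem lm1_pow (h : Adm κ ι j m) (X : E₁) (V : Submodule K A) (R : Submodule K₁ A₁)
    (hR : ∀ f ∈ V * V, ∀ l : ℕ, 0 < l → l < m → ι f * j (X ^ l) ∈ R) (i : ℕ) :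
    ∀ s : ℕ, i ≤ s → s ≤ i * (m - 1) → ∀ f ∈ (V * V) ^ i, ι f * j (X ^ s) ∈ R ^ i := by
  induction i with
  | zero =>
    intro s _ hs f hf
    have hs0 : s = 0 := by omega
    subst hs0
    rw [pow_zero, Submodule.mem_one] at hf ⊢
    obtain ⟨c, rfl⟩ := hf
    exact ⟨κ c, by rw [pow_zero, map_one, mul_one, h.ι_alg]⟩
  | succ i ih =>
    intro s hs1 hs2 f hf
    -- split `s = s' + l`
    obtain ⟨s', l, hsl, hl0, hlm, hs'1, hs'2⟩ :
        ∃ s' l, s = s' + l ∧ 0 < l ∧ l < m ∧ i ≤ s' ∧ s' ≤ i * (m - 1) := by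
      have h5 : (i + 1) * (m - 1) = i * (m - 1) + (m - 1) := by ring
      rw [h5] at hs2
      have hm1 : 0 < m - 1 := by
        rcases Nat.eq_zero_or_pos (m - 1) with h6 | h6
        · rw [h6] at hs2
          simp only [mul_zero, add_zero] at hs2
          omega
        · exact h6
      have h7 : i ≤ i * (m - 1) := Nat.le_mul_of_pos_right i hm1
      rcases le_total (s - 1) (i * (m - 1)) with h6 | h6
      · exact ⟨s - 1, 1, by omega, by omega, by omega, by omega, h6⟩
      · exact ⟨i * (m - 1), s - i * (m - 1), by omega, by omega, by omega, h7, le_rfl⟩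
    rw [pow_succ] at hf ⊢
    refine Submodule.mul_induction_on hf ?_ ?_
    · intro a ha b hb
      have h1 : ι (a * b) * j (X ^ s) = (ι a * j (X ^ s')) * (ι b * j (X ^ l)) := by
        rw [hsl, map_mul, pow_add, map_mul, mul_assoc, mul_assoc (ι a), ← mul_assoc (j (X ^ s')),
          ← h.comm, mul_assoc]
      rw [h1]
      exact Submodule.mul_mem_mul (ih s' hs'1 hs'2 a ha) (hR b hb l hl0 hlm)
    · intro a b ha hb
      rw [map_add, add_mul]
      exact Submodule.add_mem _ ha hb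

end Box

section Main

variable {K A K₁ E₁ A₁ : Type} [Field K] [CharZero K] [Ring A] [IsDomain A] [Algebra K A]
  [FiniteDimensional K A] [Field K₁] [CharZero K₁] [Ring E₁] [Ring A₁] [IsDomain A₁]
  [Algebra K₁ E₁] [Algebra K₁ A₁] [FiniteDimensional K₁ A₁]
  {κ : K →+* K₁} {ι : A →+* A₁} {j : E₁ →ₐ[K₁] A₁} {m : ℕ}

omit [CharZero K₁] [IsDomain A₁] [FiniteDimensional K₁ A₁] [CharZero K] [IsDomain A]
  [FiniteDimensional K A] in
theorem lm1_LG_le (h : Adm κ ι j m) (F : Subalgebra K A) {G : A₁}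
    (hG : G ∈ bx ι j (Subalgebra.toSubmodule F)) : LG K₁ ι F G ≤ lm1_alg h F := by
  refine Algebra.adjoin_le ?_
  rintro x (⟨l, hl, rfl⟩ | hx)
  · exact bx1_le_bx _ (ι_mem_bx1 hl)
  · rw [Set.mem_singleton_iff] at hx
    rw [hx]
    exact hG

omit [CharZero K₁] [IsDomain A₁] [FiniteDimensional K₁ A₁] [CharZero K] [IsDomain A]
  [FiniteDimensional K A] in
theorem lm1_LG_comm (h : Adm κ ι j m) (F : Subalgebra K A) (hF : ∀ a ∈ F, ∀ b ∈ F, a * b = b * a)
    {G : A₁} (hG : G ∈ bx ι j (Subalgebra.toSubmodule F)) {x : A₁} (hx : x ∈ LG K₁ ι F G) :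
    x * G = G * x := by
  have h1 : LG K₁ ι F G ≤ Subalgebra.centralizer K₁ {G} := by
    refine Algebra.adjoin_le ?_
    rintro x (⟨l, hl, rfl⟩ | hx)
    · rw [SetLike.mem_coe, Subalgebra.mem_centralizer_iff]
      intro g hg
      rw [Set.mem_singleton_iff] at hg
      rw [hg]
      refine Submodule.span_induction (p := fun g _ => g * ι l = ι l * g) ?_ ?_ ?_ ?_ hG
      · rintro _ ⟨e, u, hu, rfl⟩
        rw [mul_assoc, ← h.comm, ← mul_assoc, ← map_mul, ← mul_assoc, ← map_mul, hF u hu l hl]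
      · rw [zero_mul, mul_zero]
      · intro x y _ _ hx hy
        rw [add_mul, mul_add, hx, hy]
      · intro c x _ hx
        rw [smul_mul_assoc, mul_smul_comm, hx]
    · rw [Set.mem_singleton_iff] at hx
      rw [SetLike.mem_coe, Subalgebra.mem_centralizer_iff]
      intro g hg
      rw [Set.mem_singleton_iff] at hg
      rw [hg, hx]
  have h2 := h1 hx
  rw [Subalgebra.mem_centralizer_iff] at h2
  exact (h2 G rfl).symm

/-- core of LM1 -/
theorem lm1_core {X Y : E₁} {ζ : K} {x y : K₁} (h : SymAdm κ ι j m X Y ζ x y)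
    (hls : Adm ((LS.C : K₁ →+* LS K₁).comp κ) ((LS.C : A₁ →+* LS A₁).comp ι) (lsj j) m)
    (F : Subalgebra K A) (hF : ∀ a ∈ F, ∀ b ∈ F, a * b = b * a)
    (V : Submodule K A) (hVF : V ≤ Subalgebra.toSubmodule F) (G : LS A₁)
    (hG : G ∈ bx ((LS.C : A₁ →+* LS A₁).comp ι) (lsj j) (Subalgebra.toSubmodule F))
    (hGi : LS.Intg G) (hG0 : LS.coeff G 0 = j X)
    (hdeg : finrank (LS K₁) (LG (LS K₁) ((LS.C : A₁ →+* LS A₁).comp ι) F G) = finrank K F * m)
    (hT : ∀ z ∈ bx ((LS.C : A₁ →+* LS A₁).comp ι) (lsj j) (Subalgebra.toSubmodule F ⊓ perp V),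
      LS.Intg z → z * G = G * z →
      ∃ y : Fin m → A₁, LS.coeff z 0 = ∑ k, y k * j (X ^ (k : ℕ)) ∧
        (∀ k, y k ∈ bx1 K₁ ι (Subalgebra.toSubmodule F ⊓ perp V)) ∧
        ∀ k : Fin m, (k : ℕ) ≠ 0 → y k ∈ bx1 K₁ ι (Subalgebra.toSubmodule F ⊓ perp (V * V)))
    (hm3 : 3 ≤ m) (i : ℕ) (hi : 2 ≤ i) (hV : V ^ (2 * i) = Subalgebra.toSubmodule F) :
    (Submodule.map (pr (LG (LS K₁) ((LS.C : A₁ →+* LS A₁).comp ι) F G))
        (bx ((LS.C : A₁ →+* LS A₁).comp ι) (lsj j) V)) ^ i
      = Subalgebra.toSubmodule (LG (LS K₁) ((LS.C : A₁ →+* LS A₁).comp ι) F G) := by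
  classical
  set L := LG (LS K₁) ((LS.C : A₁ →+* LS A₁).comp ι) F G with hL
  set BV := bx ((LS.C : A₁ →+* LS A₁).comp ι) (lsj j) V with hBV
  set U := Submodule.map (pr L) BV with hU
  have hUL : U ≤ Subalgebra.toSubmodule L := by
    rintro _ ⟨b, _, rfl⟩
    exact pr_mem L b
  -- orthogonality to `U` and to `V ⊠ E₁` inside `L`
  have hperp : ∀ z ∈ L, z ∈ perp U → z ∈ perp BV := by
    intro z hz hzU
    rw [mem_perp] at hzU ⊢
    intro v hv
    have h1 := hzU (pr L v) ⟨v, hv, rfl⟩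
    rw [tr_mul_comm, tr_mul_pr L hz, tr_mul_comm] at h1
    exact h1
  have hbox : ∀ z ∈ L, z ∈ perp U → LS.Intg z →
      ∃ y : Fin m → A₁, LS.coeff z 0 = ∑ k, y k * j (X ^ (k : ℕ)) ∧
        (∀ k, y k ∈ bx1 K₁ ι (Subalgebra.toSubmodule F ⊓ perp V)) ∧
        ∀ k : Fin m, (k : ℕ) ≠ 0 → y k ∈ bx1 K₁ ι (Subalgebra.toSubmodule F ⊓ perp (V * V)) := by
    intro z hz hzU hzi
    refine hT z ?_ hzi (lm1_LG_comm hls F hF hG hz)
    rw [← lm1_bx_inf_perp hls F hVF]
    exact ⟨lm1_LG_le hls F hG hz, hperp z hz hzU⟩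
  -- residues
  set R := resA L with hRdef
  have hRs : Subalgebra.toSubmodule R = res (Subalgebra.toSubmodule L) := toSubmodule_resA L
  have hRfin : finrank K₁ R = finrank K F * m := by
    have h1 : finrank K₁ R = finrank K₁ (res (Subalgebra.toSubmodule L)) := rfl
    rw [h1, finrank_res]
    exact hdeg
  have hresU : res U ≤ Subalgebra.toSubmodule R := by
    rw [hRs]
    exact res_mono hUL
  have hresperp : res (Subalgebra.toSubmodule L ⊓ perp U) = Subalgebra.toSubmodule R ⊓ perp (res U) := by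
    apply Submodule.eq_of_le_of_finrank_eq
    · refine le_inf ?_ ?_
      · rw [hRs]; exact res_mono inf_le_left
      · intro a ha
        obtain ⟨z, hz, hzi, rfl⟩ := (mem_res _ _).1 ha
        rw [mem_perp]
        intro b hb
        obtain ⟨u, hu, hui, rfl⟩ := (mem_res _ _).1 hb
        rw [← LS.coeff_mul_zero hui hzi, ← coeff_trc]
        have h1 : trc (LS K₁) (u * z) = 0 := (Submodule.mem_inf.1 hz).2 u hu
        rw [h1]
        rfl
    · have h1 := lm1_rank L hUL
      have h2 := lm1_rank R hresU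
      have h3 : finrank (LS K₁) L = finrank K₁ R := by rw [hRfin, hdeg]
      rw [finrank_res] at h2 ⊢
      omega
  -- the elements `V² X^l`
  have hιR : ∀ f ∈ F, ι f ∈ R := by
    intro f hf
    refine mem_resA.2 ⟨(LS.C : A₁ →+* LS A₁) (ι f), ?_, LS.Intg.C _, LS.coeff_C_zero _⟩
    exact Algebra.subset_adjoin (Or.inl ⟨f, hf, rfl⟩)
  have hXR : j X ∈ R :=
    mem_resA.2 ⟨G, Algebra.subset_adjoin (Or.inr rfl), hGi, hG0⟩
  have hV2F : V * V ≤ Subalgebra.toSubmodule F := by
    rw [Submodule.mul_le]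
    intro a ha b hb
    exact F.mul_mem (hVF ha) (hVF hb)
  have hkey : ∀ f ∈ V * V, ∀ l : ℕ, 0 < l → l < m → ι f * j (X ^ l) ∈ res U := by
    intro f hf l hl0 hlm
    have h1 : Submodule.span K₁ {ι f * j (X ^ l)} ≤ res U := by
      refine lm1_le_of_perp R hresU ?_ ?_
      · rw [Submodule.span_singleton_le_iff_mem]
        show ι f * j (X ^ l) ∈ R
        rw [map_pow]
        exact R.mul_mem (hιR f (hV2F hf)) (R.pow_mem hXR l)
      · intro a ha haU w hw
        have h2 : a ∈ res (Subalgebra.toSubmodule L ⊓ perp U) := by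
          rw [hresperp]
          exact ⟨ha, haU⟩
        obtain ⟨z, hz, hzi, rfl⟩ := (mem_res _ _).1 h2
        obtain ⟨yk, hy0, hy1, hy2⟩ := hbox z (Submodule.mem_inf.1 hz).1 (Submodule.mem_inf.1 hz).2 hzi
        obtain ⟨c, rfl⟩ := Submodule.mem_span_singleton.1 hw
        rw [mul_smul_comm, map_smul, hy0, Finset.sum_mul, map_sum]
        have h3 : ∑ k : Fin m, trc K₁ (yk k * j (X ^ (k : ℕ)) * (ι f * j (X ^ l))) = 0 := by
          refine Finset.sum_eq_zero fun k _ => ?_
          by_cases hk : (k : ℕ) = 0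
          · refine lm1_pair h f k l (fun hd => ?_) (hy1 k)
            rw [hk, zero_add] at hd
            exact absurd (Nat.le_of_dvd hl0 hd) (by omega)
          · refine lm1_pair h f k l (fun _ u hu => ?_) (hy2 k hk)
            rw [tr_mul_comm]
            exact (Submodule.mem_inf.1 hu).2 f hf
        rw [h3, smul_zero]
    exact h1 (Submodule.mem_span_singleton_self _)
  have hpow := lm1_pow h.toAdm X V (res U) hkey i
  -- all of `F X^k`
  have hx0 : x ≠ 0 := h.x0
  have hFX : ∀ f ∈ F, ∀ k : ℕ, k < m → ι f * j (X ^ k) ∈ (res U) ^ i := by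
    intro f hf k hk
    have hfV : f ∈ (V * V) ^ i := by
      have h1 : (V * V) ^ i = V ^ (2 * i) := by rw [← pow_two, ← pow_mul]
      rw [h1, hV]
      exact hf
    -- an exponent in the range
    obtain ⟨s, t, hs1, hs2, hst⟩ : ∃ s t, i ≤ s ∧ s ≤ i * (m - 1) ∧ s = m * t + k := by
      have hm0 : 0 < m := by omega
      set r := (k + m * i - i) % m with hr
      have hr1 : r < m := Nat.mod_lt _ hm0
      have him : i ≤ m * i := Nat.le_mul_of_pos_left i hm0
      have h1 : (i + r) % m = k := by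
        have h2 : (i + (k + m * i - i)) % m = k := by
          have h3 : i + (k + m * i - i) = k + m * i := by omega
          rw [h3, Nat.add_mul_mod_self_left, Nat.mod_eq_of_lt hk]
        rw [hr, Nat.add_mod_mod, h2]
      refine ⟨i + r, (i + r) / m, by omega, ?_, ?_⟩
      · obtain ⟨m', rfl⟩ : ∃ m', m = m' + 3 := ⟨m - 3, by omega⟩
        obtain ⟨i', rfl⟩ : ∃ i', i = i' + 2 := ⟨i - 2, by omega⟩
        have h4 : (i' + 2) * (m' + 3 - 1) = i' * m' + 2 * i' + 2 * m' + 4 := by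
          have : m' + 3 - 1 = m' + 2 := by omega
          rw [this]
          ring
        rw [h4]
        have h5 : 0 ≤ i' * m' := Nat.zero_le _
        omega
      · conv_lhs => rw [← Nat.div_add_mod (i + r) m, h1]
    have h2 := hpow s hs1 hs2 f hfV
    have h3 : ι f * j (X ^ s) = x ^ t • (ι f * j (X ^ k)) := by
      rw [hst, pow_add, pow_mul, h.Xm, ← map_pow, ← Algebra.smul_def, map_smul, mul_smul_comm]
    rw [h3] at h2
    have h4 := Submodule.smul_mem _ (x ^ t)⁻¹ h2
    rwa [smul_smul, inv_mul_cancel₀ (pow_ne_zero t hx0), one_smul] at h4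
  -- dimension
  obtain ⟨s, b, hb, hb'⟩ := exists_adapted (Subalgebra.toSubmodule F)
  have hcard : Fintype.card (Fin m × Fin m) = finrank K₁ E₁ := by
    rw [h.finE, Fintype.card_prod, Fintype.card_fin, pow_two]
  have := h.fdE
  have hm0 : 0 < m := by omega
  haveI : Nonempty (Fin m × Fin m) := ⟨(⟨0, hm0⟩, ⟨0, hm0⟩)⟩
  let e : Basis (Fin m × Fin m) K₁ E₁ := basisOfLinearIndependentOfCardEqFinrank h.indep hcard
  have he : ∀ p : Fin m × Fin m, e p = X ^ (p.1 : ℕ) * Y ^ (p.2 : ℕ) := fun p => by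
    rw [coe_basisOfLinearIndependentOfCardEqFinrank]
  let fam : Fin (finrank K (Subalgebra.toSubmodule F)) × Fin m → A₁ := fun p =>
    h.toAdm.bs b e (Sum.inl p.1, (p.2, ⟨0, hm0⟩))
  have hfam : ∀ p, fam p = ι (b (Sum.inl p.1)) * j (X ^ (p.2 : ℕ)) := by
    intro p
    show h.toAdm.bs b e (Sum.inl p.1, (p.2, ⟨0, hm0⟩)) = _
    rw [h.toAdm.bs_apply, he]
    simp
  have hind : LinearIndependent K₁ fam := by
    refine (h.toAdm.bs b e).linearIndependent.comp
      (fun p : Fin (finrank K (Subalgebra.toSubmodule F)) × Fin m =>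
        ((Sum.inl p.1 : Fin (finrank K (Subalgebra.toSubmodule F)) ⊕ Fin s),
          ((p.2, ⟨0, hm0⟩) : Fin m × Fin m))) ?_
    rintro ⟨a, β⟩ ⟨a', β'⟩ hh
    simp only [Prod.mk.injEq, Sum.inl.injEq] at hh
    exact Prod.ext hh.1 hh.2.1
  set Q := Submodule.span K₁ (Set.range fam) with hQ
  have hQfin : finrank K₁ Q = finrank K F * m := by
    rw [hQ, finrank_span_eq_card hind, Fintype.card_prod, Fintype.card_fin, Fintype.card_fin]
    rfl
  have hQU : Q ≤ (res U) ^ i := by
    rw [hQ, Submodule.span_le]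
    rintro _ ⟨p, rfl⟩
    rw [SetLike.mem_coe, hfam]
    exact hFX _ (hb p.1) _ p.2.2
  have hQR : Q = Subalgebra.toSubmodule R := by
    apply Submodule.eq_of_le_of_finrank_eq
    · rw [hQ, Submodule.span_le]
      rintro _ ⟨p, rfl⟩
      rw [SetLike.mem_coe, hfam]
      show _ ∈ R
      rw [map_pow]
      exact R.mul_mem (hιR _ (hb p.1)) (R.pow_mem hXR _)
    · rw [hQfin]
      exact hRfin.symm
  -- conclusion
  apply eq_of_res_le
  · have h1 : ∀ k : ℕ, U ^ k ≤ Subalgebra.toSubmodule L := by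
      intro k
      induction k with
      | zero =>
        rw [pow_zero, Submodule.one_le]
        exact L.one_mem
      | succ k ih =>
        rw [pow_succ, Submodule.mul_le]
        intro a ha b hb
        exact L.mul_mem (ih ha) (hUL hb)
    exact h1 i
  · rw [← hRs, ← hQR]
    exact hQU.trans (res_pow_le U i)

end Main

end Vale.Agent.P199K
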