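import Vale.Agent.P199K.Res
import Vale.Agent.P199K.LSApi

/-!
# P199, section 3: the residue calculus for `LS A` and for `σ → LS K` (helper95)
-/

namespace Vale.Agent.P199K



theorem tp_one_pow {A : Type} [Ring A] (n : ℕ) : (LS.tp 1 : LS A) ^ n = LS.tp n := by
  induction n with
  | zero => rw [pow_zero]; exact (LS.tp_zero).symm
  | succ n ih =>
    rw [pow_succ, ih, ← LS.tp_add]
    congr 1

section field

variable (K : Type) [Field K]

/-- `LS K` as a discretely valued field. -/
noncomputable def rfLS : RF K (LS K) where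
  C := LS.C
  t := LS.tp 1
  t_ne := fun h => by
    have := LS.tp_mul_tp_neg (A := K) 1
    rw [h, zero_mul] at this
    exact zero_ne_one this
  int :=
    { carrier := {x | LS.Intg x}
      mul_mem' := fun ha hb => LS.Intg.mul ha hb
      one_mem' := LS.Intg.one
      add_mem' := fun ha hb => LS.Intg.add ha hb
      zero_mem' := LS.Intg.zero
      neg_mem' := fun ha => LS.Intg.neg ha }
  C_mem := fun a => LS.Intg.C a
  t_mem := LS.Intg.tp (by norm_num)
  res := fun x => x.coeff 0
  res_add := fun x _ y _ => LS.coeff_add x y 0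
  res_mul := fun x hx y hy => LS.coeff_mul_zero hx hy
  res_C := fun a => LS.coeff_C_zero a
  res_t := by rw [LS.coeff_tp, if_neg (by norm_num)]
  div := fun x hx h0 => by
    refine ⟨LS.tp (-1) * x, ?_, ?_⟩
    · intro n hn
      rw [LS.coeff_tp_mul]
      rcases eq_or_lt_of_le (show n + 1 ≤ 0 by omega) with h | h
      · have : n - -1 = 0 := by omega
        rw [this]
        exact h0
      · exact hx _ (by omega)
    · rw [← mul_assoc, LS.tp_mul_tp_neg, one_mul]
  exh := fun x => by
    obtain ⟨n, hn⟩ := LS.exists_tp_mul_int x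
    refine ⟨n, ?_⟩
    rw [tp_one_pow]
    exact hn
  complete := fun a => by
    refine ⟨fun k => LS.mk (fun n => if 0 ≤ n then a (k + n.toNat) else 0) 0
      (fun n hn => if_neg (by omega)), fun k => ⟨fun n hn => ?_, ?_⟩⟩
    · rw [LS.coeff_mk, if_neg (by omega)]
    · ext n
      rw [LS.coeff_add, LS.coeff_C, LS.coeff_tp_mul, LS.coeff_mk, LS.coeff_mk]
      by_cases h0 : n = 0
      · subst h0
        rw [if_pos le_rfl, if_pos rfl, if_neg (by norm_num), add_zero]
        simp
      · rw [if_neg h0, zero_add]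
        by_cases hn : 0 ≤ n
        · rw [if_pos hn, if_pos (by omega)]
          congr 1
          omega
        · rw [if_neg hn, if_neg (by omega)]

end field

section alg

variable {K A : Type} [Field K] [Ring A] [Algebra K A]

/-- `LS A` as a residue space, with residue space `A`. -/
noncomputable def rsLS (K A : Type) [Field K] [Ring A] [Algebra K A] :
    RS (rfLS K) (LS A) A where
  int :=
    { carrier := {x | LS.Intg x}
      add_mem' := fun ha hb => LS.Intg.add ha hb
      zero_mem' := LS.Intg.zero
      neg_mem' := fun ha => LS.Intg.neg ha }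
  smul_mem := fun c hc x hx => by
    show LS.Intg (c • x)
    rw [LS.smul_def]
    exact LS.Intg.mul (LS.Intg.map hc) hx
  res := fun x => x.coeff 0
  res_add := fun x _ y _ => LS.coeff_add x y 0
  res_smul := fun c hc x hx => by
    show (c • x).coeff 0 = c.coeff 0 • x.coeff 0
    rw [LS.smul_def, LS.coeff_mul_zero (LS.Intg.map hc) hx, LS.coeff_map, Algebra.smul_def]
  div := fun x hx h0 => by
    refine ⟨(LS.tp (-1) : LS K) • x, ?_, ?_⟩
    · intro n hn
      rw [LS.coeff_tp_smul]
      rcases eq_or_lt_of_le (show n + 1 ≤ 0 by omega) with h | h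
      · have : n - -1 = 0 := by omega
        rw [this]
        exact h0
      · exact hx _ (by omega)
    · show x = (LS.tp 1 : LS K) • (LS.tp (-1) : LS K) • x
      rw [smul_smul, LS.tp_mul_tp_neg, one_smul]
  exh := fun x => by
    obtain ⟨n, hn⟩ := LS.exists_tp_mul_int x
    refine ⟨n, ?_⟩
    show LS.Intg ((LS.tp 1 : LS K) ^ n • x)
    rw [tp_one_pow, LS.smul_def, LS.map_tp]
    exact hn
  sep := fun x h => by
    ext k
    obtain ⟨y, hy, hxy⟩ := h (k.toNat + 1)
    have hxy : x = (LS.tp 1 : LS K) ^ (k.toNat + 1) • y := hxy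
    rw [hxy, tp_one_pow, LS.coeff_tp_smul, LS.coeff_zero]
    exact hy _ (by push_cast; omega)
  surj := fun y => ⟨LS.C y, LS.Intg.C y, LS.coeff_C_zero y⟩

theorem mem_rsLS_int {x : LS A} : x ∈ (rsLS K A).int ↔ LS.Intg x := Iff.rfl

theorem rsLS_res (x : LS A) : (rsLS K A).res x = x.coeff 0 := rfl

theorem mem_rfLS_int {x : LS K} : x ∈ (rfLS K).int ↔ LS.Intg x := Iff.rfl

theorem rfLS_res (x : LS K) : (rfLS K).res x = x.coeff 0 := rfl

/-- the two definitions of the residue space agree -/
theorem rs_eq_res (U : Submodule (LS K) (LS A)) : (rsLS K A).rs U = res U := by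
  ext a
  rw [mem_res]
  rfl

/-- (r1) -/
theorem finrank_res [Module.Finite K A] (U : Submodule (LS K) (LS A)) :
    Module.finrank K (res U) = Module.finrank (LS K) U := by
  rw [← rs_eq_res]
  exact (rsLS K A).finrank_rs U

theorem res_mono {U V : Submodule (LS K) (LS A)} (h : U ≤ V) : res U ≤ res V := by
  rw [← rs_eq_res, ← rs_eq_res]
  exact (rsLS K A).rs_mono h

/-- if the residue spaces agree, the spaces agree -/
theorem eq_of_res_le [Module.Finite K A] {U V : Submodule (LS K) (LS A)} (h : U ≤ V)
    (h' : res V ≤ res U) : U = V :=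
  (rsLS K A).eq_of_rs_le h (by rw [rs_eq_res, rs_eq_res]; exact h')

end alg

end Vale.Agent.P199K
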