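import Vale.Agent.P199K.AdmD
import Vale.Agent.P199K.LSApi
import Vale.Agent.P199K.ResLS
import Vale.Agent.P199K.TrDC

/-! # P199, section 6: tools for box products `U ⊠ E₁` (helper12)

`bx_exists`, `bx_unique`: coordinates; `slice φ`: the map `A₁ → E₁` extending a functional `φ` of `A`;
`coeff_mem_bx`: coefficients of elements of `U ⊠ LS E₁`; `sym_comm_X`: the centraliser of `X`;
`deg_of_res'`: degree of elements with residue `X`. -/

open scoped LaurentSeries
open PowerSeries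

namespace Vale.Agent.P199K

section Gen

variable {K A K₁ E₁ A₁ : Type} [Field K] [Ring A] [Algebra K A] [Field K₁] [Ring E₁] [Ring A₁]
  [Algebra K₁ E₁] [Algebra K₁ A₁]

theorem mem_bx_of (ι : A →+* A₁) (j : E₁ →ₐ[K₁] A₁) {U : Submodule K A} {u : A} (hu : u ∈ U) (e : E₁) :
    ι u * j e ∈ bx ι j U := Submodule.subset_span ⟨e, u, hu, rfl⟩

theorem mem_bx1_of (ι : A →+* A₁) {U : Submodule K A} {u : A} (hu : u ∈ U) :
    ι u ∈ bx1 K₁ ι U := Submodule.subset_span ⟨u, hu, rfl⟩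

theorem bx_mono_l (ι : A →+* A₁) (j : E₁ →ₐ[K₁] A₁) {U V : Submodule K A} (h : U ≤ V) :
    bx ι j U ≤ bx ι j V := by
  refine Submodule.span_mono ?_
  rintro _ ⟨e, u, hu, rfl⟩
  exact ⟨e, u, h hu, rfl⟩

theorem bx1_mono_l (ι : A →+* A₁) {U V : Submodule K A} (h : U ≤ V) :
    bx1 K₁ ι U ≤ bx1 K₁ ι V := by
  refine Submodule.span_mono ?_
  rintro _ ⟨u, hu, rfl⟩
  exact ⟨u, h hu, rfl⟩

theorem bx1_le_bx_l (ι : A →+* A₁) (j : E₁ →ₐ[K₁] A₁) (U : Submodule K A) :
    bx1 K₁ ι U ≤ bx ι j U := by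
  refine Submodule.span_le.2 ?_
  rintro _ ⟨u, hu, rfl⟩
  have := mem_bx_of ι j hu 1
  rwa [map_one, mul_one] at this

theorem bx_mul_j (ι : A →+* A₁) (j : E₁ →ₐ[K₁] A₁) {U : Submodule K A} {z : A₁} (hz : z ∈ bx ι j U)
    (e : E₁) : z * j e ∈ bx ι j U := by
  refine Submodule.span_induction (p := fun z _ => z * j e ∈ bx ι j U) ?_ ?_ ?_ ?_ hz
  · rintro _ ⟨e', u, hu, rfl⟩
    rw [mul_assoc, ← map_mul]
    exact mem_bx_of ι j hu _
  · rw [zero_mul]
    exact Submodule.zero_mem _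
  · intro x y _ _ hx hy
    rw [add_mul]
    exact Submodule.add_mem _ hx hy
  · intro c x _ hx
    rw [smul_mul_assoc]
    exact Submodule.smul_mem _ _ hx

theorem j_mul_bx (ι : A →+* A₁) (j : E₁ →ₐ[K₁] A₁) (hc : ∀ a e, ι a * j e = j e * ι a)
    {U : Submodule K A} {z : A₁} (hz : z ∈ bx ι j U) (e : E₁) : j e * z ∈ bx ι j U := by
  refine Submodule.span_induction (p := fun z _ => j e * z ∈ bx ι j U) ?_ ?_ ?_ ?_ hz
  · rintro _ ⟨e', u, hu, rfl⟩
    rw [← mul_assoc, ← hc, mul_assoc, ← map_mul]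
    exact mem_bx_of ι j hu _
  · rw [mul_zero]
    exact Submodule.zero_mem _
  · intro x y _ _ hx hy
    rw [mul_add]
    exact Submodule.add_mem _ hx hy
  · intro c x _ hx
    rw [mul_smul_comm]
    exact Submodule.smul_mem _ _ hx

/-- products of box spaces -/
theorem mul_mem_bx_l (ι : A →+* A₁) (j : E₁ →ₐ[K₁] A₁) (hc : ∀ a e, ι a * j e = j e * ι a)
    {U V W : Submodule K A} (h : ∀ u ∈ U, ∀ v ∈ V, u * v ∈ W) {z z' : A₁} (hz : z ∈ bx ι j U)
    (hz' : z' ∈ bx ι j V) : z * z' ∈ bx ι j W := by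
  refine Submodule.span_induction (p := fun z _ => z * z' ∈ bx ι j W) ?_ ?_ ?_ ?_ hz
  · rintro _ ⟨e, u, hu, rfl⟩
    refine Submodule.span_induction (p := fun z' _ => ι u * j e * z' ∈ bx ι j W) ?_ ?_ ?_ ?_ hz'
    · rintro _ ⟨e', v, hv, rfl⟩
      have : ι u * j e * (ι v * j e') = ι (u * v) * j (e * e') := by
        rw [map_mul, map_mul, mul_assoc, ← mul_assoc (j e), ← hc]
        simp only [mul_assoc]
      rw [this]
      exact mem_bx_of ι j (h u hu v hv) _
    · rw [mul_zero]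
      exact Submodule.zero_mem _
    · intro x y _ _ hx hy
      rw [mul_add]
      exact Submodule.add_mem _ hx hy
    · intro c x _ hx
      rw [mul_smul_comm]
      exact Submodule.smul_mem _ _ hx
  · rw [zero_mul]
    exact Submodule.zero_mem _
  · intro x y _ _ hx hy
    rw [add_mul]
    exact Submodule.add_mem _ hx hy
  · intro c x _ hx
    rw [smul_mul_assoc]
    exact Submodule.smul_mem _ _ hx

/-- `ι a` commutes with `U ⊠ E₁` if `a` commutes with `U` -/
theorem bx_comm_ι (ι : A →+* A₁) (j : E₁ →ₐ[K₁] A₁) (hc : ∀ a e, ι a * j e = j e * ι a)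
    {U : Submodule K A} {a : A} (h : ∀ u ∈ U, a * u = u * a) {z : A₁} (hz : z ∈ bx ι j U) :
    ι a * z = z * ι a := by
  refine Submodule.span_induction (p := fun z _ => ι a * z = z * ι a) ?_ ?_ ?_ ?_ hz
  · rintro _ ⟨e, u, hu, rfl⟩
    rw [← mul_assoc, ← map_mul, h u hu, map_mul, mul_assoc, mul_assoc, hc]
  · rw [mul_zero, zero_mul]
  · intro x y _ _ hx hy
    rw [mul_add, add_mul, hx, hy]
  · intro c x _ hx
    rw [mul_smul_comm, smul_mul_assoc, hx]

/-- coordinates of elements of `U ⊠ E₁` -/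
theorem bx_exists (κ : K →+* K₁) (ι : A →+* A₁) (j : E₁ →ₐ[K₁] A₁)
    (hι : ∀ c, ι (algebraMap K A c) = algebraMap K₁ A₁ (κ c))
    {U : Submodule K A} {r : ℕ} (b : Module.Basis (Fin r) K U) {z : A₁} (hz : z ∈ bx ι j U) :
    ∃ e : Fin r → E₁, z = ∑ i, ι (b i : A) * j (e i) := by
  refine Submodule.span_induction (p := fun z _ => ∃ e : Fin r → E₁, z = ∑ i, ι (b i : A) * j (e i))
    ?_ ?_ ?_ ?_ hz
  · rintro _ ⟨e, u, hu, rfl⟩
    refine ⟨fun i => κ (b.repr ⟨u, hu⟩ i) • e, ?_⟩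
    have h1 : u = ∑ i, b.repr ⟨u, hu⟩ i • (b i : A) := by
      have := congrArg (fun x : U => (x : A)) (b.sum_repr ⟨u, hu⟩)
      simp only [Submodule.coe_sum, Submodule.coe_smul] at this
      exact this.symm
    conv_lhs => rw [h1]
    rw [map_sum, Finset.sum_mul]
    refine Finset.sum_congr rfl fun i _ => ?_
    rw [Algebra.smul_def, map_mul, hι, map_smul, mul_smul_comm, ← Algebra.smul_def,
      smul_mul_assoc]
  · exact ⟨0, by simp⟩
  · rintro x y _ _ ⟨e, rfl⟩ ⟨e', rfl⟩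
    refine ⟨fun i => e i + e' i, ?_⟩
    rw [← Finset.sum_add_distrib]
    refine Finset.sum_congr rfl fun i _ => ?_
    rw [map_add, mul_add]
  · rintro c x _ ⟨e, rfl⟩
    refine ⟨fun i => c • e i, ?_⟩
    rw [Finset.smul_sum]
    refine Finset.sum_congr rfl fun i _ => ?_
    rw [map_smul, mul_smul_comm]

/-- coordinates of elements of `U ⊠ K₁` -/
theorem bx1_exists (κ : K →+* K₁) (ι : A →+* A₁)
    (hι : ∀ c, ι (algebraMap K A c) = algebraMap K₁ A₁ (κ c))
    {U : Submodule K A} {r : ℕ} (b : Module.Basis (Fin r) K U) {z : A₁} (hz : z ∈ bx1 K₁ ι U) :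
    ∃ e : Fin r → K₁, z = ∑ i, e i • ι (b i : A) := by
  refine Submodule.span_induction (p := fun z _ => ∃ e : Fin r → K₁, z = ∑ i, e i • ι (b i : A))
    ?_ ?_ ?_ ?_ hz
  · rintro _ ⟨u, hu, rfl⟩
    refine ⟨fun i => κ (b.repr ⟨u, hu⟩ i), ?_⟩
    have h1 : u = ∑ i, b.repr ⟨u, hu⟩ i • (b i : A) := by
      have := congrArg (fun x : U => (x : A)) (b.sum_repr ⟨u, hu⟩)
      simp only [Submodule.coe_sum, Submodule.coe_smul] at this
      exact this.symm
    conv_lhs => rw [h1]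
    rw [map_sum]
    refine Finset.sum_congr rfl fun i _ => ?_
    rw [Algebra.smul_def, map_mul, hι, ← Algebra.smul_def]
  · exact ⟨0, by simp⟩
  · rintro x y _ _ ⟨e, rfl⟩ ⟨e', rfl⟩
    refine ⟨fun i => e i + e' i, ?_⟩
    rw [← Finset.sum_add_distrib]
    refine Finset.sum_congr rfl fun i _ => ?_
    rw [add_smul]
  · rintro c x _ ⟨e, rfl⟩
    refine ⟨fun i => c * e i, ?_⟩
    rw [Finset.smul_sum]
    refine Finset.sum_congr rfl fun i _ => ?_
    rw [smul_smul]

end Gen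

section Slice

variable {K A K₁ E₁ A₁ : Type} [Field K] [Ring A] [Algebra K A] [FiniteDimensional K A] [Field K₁]
  [Ring E₁] [Ring A₁] [Algebra K₁ E₁] [Algebra K₁ A₁] {κ : K →+* K₁} {ι : A →+* A₁}
  {j : E₁ →ₐ[K₁] A₁} {m : ℕ}

/-- the slice map `A₁ → E₁` extending a functional of `A` -/
noncomputable def Adm.slice (h : Adm κ ι j m) (φ : A →ₗ[K] K) : A₁ →ₗ[K₁] E₁ :=
  (∑ p, κ (φ (Module.finBasis K A p)) • LinearMap.proj (R := K₁) p) ∘ₗ
    (h.admfEquiv.symm : A₁ →ₗ[K₁] (Fin (Module.finrank K A) → E₁))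

theorem Adm.slice_apply (h : Adm κ ι j m) (φ : A →ₗ[K] K) (a : A) (e : E₁) :
    h.slice φ (ι a * j e) = κ (φ a) • e := by
  have h1 : ι a * j e = h.admfEquiv (fun p => κ ((Module.finBasis K A).repr a p) • e) := by
    rw [h.admfEquiv_apply]
    conv_lhs => rw [← (Module.finBasis K A).sum_repr a]
    rw [map_sum, Finset.sum_mul]
    refine Finset.sum_congr rfl fun p _ => ?_
    rw [h.admf_smul, smul_mul_assoc, map_smul, mul_smul_comm]
  rw [Adm.slice, LinearMap.comp_apply, h1, LinearEquiv.coe_coe, LinearEquiv.symm_apply_apply,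
    LinearMap.sum_apply]
  simp only [LinearMap.smul_apply, LinearMap.proj_apply, smul_smul]
  rw [← Finset.sum_smul]
  congr 1
  conv_rhs => rw [← (Module.finBasis K A).sum_repr a]
  rw [map_sum, map_sum]
  refine Finset.sum_congr rfl fun p _ => ?_
  rw [map_smul, smul_eq_mul, map_mul, mul_comm]

theorem Adm.slice_ι (h : Adm κ ι j m) (φ : A →ₗ[K] K) (a : A) :
    h.slice φ (ι a) = algebraMap K₁ E₁ (κ (φ a)) := by
  have := h.slice_apply φ a 1
  rwa [map_one, mul_one, ← Algebra.algebraMap_eq_smul_one] at this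

/-- every element of `A₁` is a sum of products -/
theorem Adm.mem_bx_top (h : Adm κ ι j m) (z : A₁) : z ∈ bx ι j (⊤ : Submodule K A) := by
  obtain ⟨c, rfl⟩ := h.admfEquiv.surjective z
  rw [h.admfEquiv_apply]
  exact Submodule.sum_mem _ fun i _ => mem_bx_of ι j Submodule.mem_top _

theorem Adm.slice_mul_j (h : Adm κ ι j m) (φ : A →ₗ[K] K) (z : A₁) (e : E₁) :
    h.slice φ (z * j e) = h.slice φ z * e := by
  refine Submodule.span_induction (p := fun z _ => h.slice φ (z * j e) = h.slice φ z * e)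
    ?_ ?_ ?_ ?_ (h.mem_bx_top z)
  · rintro _ ⟨e', u, _, rfl⟩
    rw [mul_assoc, ← map_mul, h.slice_apply, h.slice_apply, smul_mul_assoc]
  · rw [zero_mul, map_zero, zero_mul]
  · intro x y _ _ hx hy
    rw [add_mul, map_add, map_add, add_mul, hx, hy]
  · intro c x _ hx
    rw [smul_mul_assoc, map_smul, map_smul, smul_mul_assoc, hx]

theorem Adm.slice_j_mul (h : Adm κ ι j m) (φ : A →ₗ[K] K) (z : A₁) (e : E₁) :
    h.slice φ (j e * z) = e * h.slice φ z := by
  refine Submodule.span_induction (p := fun z _ => h.slice φ (j e * z) = e * h.slice φ z)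
    ?_ ?_ ?_ ?_ (h.mem_bx_top z)
  · rintro _ ⟨e', u, _, rfl⟩
    rw [← mul_assoc, ← h.comm, mul_assoc, ← map_mul, h.slice_apply, h.slice_apply, mul_smul_comm]
  · rw [mul_zero, map_zero, mul_zero]
  · intro x y _ _ hx hy
    rw [mul_add, map_add, map_add, mul_add, hx, hy]
  · intro c x _ hx
    rw [mul_smul_comm, map_smul, map_smul, mul_smul_comm, hx]

omit [FiniteDimensional K A] in
/-- dual functionals of an independent family -/
theorem exists_dual_fn {r : ℕ} (u : Fin r → A) (hu : LinearIndependent K u) :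
    ∃ φ : Fin r → (A →ₗ[K] K), ∀ k i, φ k (u i) = if i = k then 1 else 0 := by
  have h1 : LinearMap.ker (Fintype.linearCombination K u) = ⊥ :=
    LinearMap.ker_eq_bot.2 (linearIndependent_iff_injective_fintypeLinearCombination.1 hu)
  obtain ⟨g, hg⟩ := LinearMap.exists_leftInverse_of_injective _ h1
  refine ⟨fun k => LinearMap.proj k ∘ₗ g, fun k i => ?_⟩
  have h2 : g (u i) = Pi.single i 1 := by
    have := LinearMap.congr_fun hg (Pi.single i 1)
    rwa [LinearMap.comp_apply, Fintype.linearCombination_apply_single, one_smul,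
      LinearMap.id_apply] at this
  rw [LinearMap.comp_apply, h2, LinearMap.proj_apply]
  by_cases hik : i = k
  · subst hik
    rw [Pi.single_eq_same, if_pos rfl]
  · rw [Pi.single_eq_of_ne (fun h => hik h.symm), if_neg hik]

/-- uniqueness of coordinates -/
theorem Adm.bx_unique (h : Adm κ ι j m) {r : ℕ} (u : Fin r → A) (hu : LinearIndependent K u)
    (e : Fin r → E₁) (h0 : ∑ i, ι (u i) * j (e i) = 0) (i : Fin r) : e i = 0 := by
  obtain ⟨φ, hφ⟩ := exists_dual_fn u hu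
  have h1 := congrArg (h.slice (φ i)) h0
  rw [map_sum, map_zero] at h1
  rw [← h1, Finset.sum_eq_single i]
  · rw [h.slice_apply, hφ, if_pos rfl, map_one, one_smul]
  · intro k _ hk
    rw [h.slice_apply, hφ, if_neg hk, map_zero, zero_smul]
  · intro hi
    exact absurd (Finset.mem_univ _) hi

/-- membership in `U ⊠ E₁` by slices -/
theorem Adm.mem_bx_iff_l (h : Adm κ ι j m) (U : Submodule K A) (z : A₁) :
    z ∈ bx ι j U ↔ ∀ φ : A →ₗ[K] K, (∀ u ∈ U, φ u = 0) → h.slice φ z = 0 := by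
  constructor
  · intro hz φ hφ
    refine Submodule.span_induction (p := fun z _ => h.slice φ z = 0) ?_ ?_ ?_ ?_ hz
    · rintro _ ⟨e, u, hu, rfl⟩
      rw [h.slice_apply, hφ u hu, map_zero, zero_smul]
    · exact map_zero _
    · intro x y _ _ hx hy
      rw [map_add, hx, hy, add_zero]
    · intro c x _ hx
      rw [map_smul, hx, smul_zero]
  · intro hz
    obtain ⟨C, hC⟩ := Submodule.exists_isCompl U
    -- a basis of the complement
    have hsplit : z ∈ bx ι j U ⊔ bx ι j C := by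
      refine Submodule.span_induction (p := fun z _ => z ∈ bx ι j U ⊔ bx ι j C) ?_ ?_ ?_ ?_
        (h.mem_bx_top z)
      · rintro _ ⟨e, u, _, rfl⟩
        have hu : u ∈ U ⊔ C := by rw [hC.sup_eq_top]; trivial
        obtain ⟨a, ha, c, hc, rfl⟩ := Submodule.mem_sup.1 hu
        rw [map_add, add_mul]
        exact Submodule.add_mem _ (Submodule.mem_sup_left (mem_bx_of ι j ha _))
          (Submodule.mem_sup_right (mem_bx_of ι j hc _))
      · exact Submodule.zero_mem _
      · intro x y _ _ hx hy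
        exact Submodule.add_mem _ hx hy
      · intro c x _ hx
        exact Submodule.smul_mem _ _ hx
    obtain ⟨a, ha, c, hc, rfl⟩ := Submodule.mem_sup.1 hsplit
    have hc0 : c = 0 := by
      let b := Module.finBasis K C
      obtain ⟨e, he⟩ := bx_exists κ ι j h.ι_alg b hc
      rw [he]
      refine Finset.sum_eq_zero fun k _ => ?_
      -- functional vanishing on `U` and dual to the basis of `C`
      let φ : A →ₗ[K] K := (b.coord k) ∘ₗ (Submodule.projectionOnto C U hC.symm)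
      have hφU : ∀ u ∈ U, φ u = 0 := by
        intro u hu
        show (b.coord k) (Submodule.projectionOnto C U hC.symm u) = 0
        rw [(Submodule.projectionOnto_apply_eq_zero_iff hC.symm).2 hu, map_zero]
      have hφC : ∀ i, φ (b i : A) = if i = k then 1 else 0 := by
        intro i
        show (b.coord k) (Submodule.projectionOnto C U hC.symm (b i : A)) = _
        rw [Submodule.projectionOnto_apply_left, Module.Basis.coord_apply,
          Module.Basis.repr_self, Finsupp.single_apply]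
      have h1 := hz φ hφU
      rw [map_add] at h1
      have h2 : h.slice φ a = 0 := by
        refine Submodule.span_induction (p := fun z _ => h.slice φ z = 0) ?_ ?_ ?_ ?_ ha
        · rintro _ ⟨e, u, hu, rfl⟩
          rw [h.slice_apply, hφU u hu, map_zero, zero_smul]
        · exact map_zero _
        · intro x y _ _ hx hy
          rw [map_add, hx, hy, add_zero]
        · intro c x _ hx
          rw [map_smul, hx, smul_zero]
      rw [h2, zero_add, he, map_sum, Finset.sum_eq_single k] at h1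
      · rw [h.slice_apply, hφC, if_pos rfl, map_one, one_smul] at h1
        rw [h1, map_zero, mul_zero]
      · intro i _ hi
        rw [h.slice_apply, hφC, if_neg hi, map_zero, zero_smul]
      · intro hk
        exact absurd (Finset.mem_univ _) hk
    rw [hc0, add_zero]
    exact ha

end Slice

section Lau

variable {K A K₁ E₁ A₁ : Type} [Field K] [Ring A] [Algebra K A] [Field K₁] [Ring E₁] [Ring A₁]
  [Algebra K₁ E₁] [Algebra K₁ A₁]

theorem coeff_smul_mem (S : Submodule K₁ A₁) (c : LS K₁) {z : LS A₁} (hz : ∀ n, LS.coeff z n ∈ S)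
    (n : ℤ) : LS.coeff (c • z) n ∈ S := by
  obtain ⟨N, hN⟩ := LS.exists_bound c
  obtain ⟨M, hM⟩ := LS.exists_bound z
  rw [LS.smul_def, LS.coeff_mul_of_bound (a := N) (b := M) _ _
    (fun n hn => by rw [LS.coeff_map, hN n hn, map_zero]) hM]
  refine Submodule.sum_mem _ fun i _ => ?_
  rw [LS.coeff_map, ← Algebra.smul_def]
  exact Submodule.smul_mem _ _ (hz _)

/-- coefficients of elements of `U ⊠ LS E₁` -/
theorem coeff_mem_bx (ι : A →+* A₁) (j : E₁ →ₐ[K₁] A₁) {U : Submodule K A} {z : LS A₁}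
    (hz : z ∈ bx (LS.C.comp ι) (lsj j) U) (n : ℤ) : LS.coeff z n ∈ bx ι j U := by
  have key : ∀ n, LS.coeff z n ∈ bx ι j U := by
    refine Submodule.span_induction (p := fun z _ => ∀ n, LS.coeff z n ∈ bx ι j U) ?_ ?_ ?_ ?_ hz
    · rintro _ ⟨e, u, hu, rfl⟩ n
      rw [RingHom.comp_apply, LS.coeff_C_mul, lsj_coeff]
      exact mem_bx_of ι j hu _
    · intro n
      rw [LS.coeff_zero]
      exact Submodule.zero_mem _
    · intro x y _ _ hx hy n
      rw [LS.coeff_add]
      exact Submodule.add_mem _ (hx n) (hy n)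
    · intro c x _ hx n
      exact coeff_smul_mem _ c hx n
  exact key n

/-- coefficients of elements of `U ⊠ LS K₁` -/
theorem coeff_mem_bx1 (ι : A →+* A₁) {U : Submodule K A} {z : LS A₁}
    (hz : z ∈ bx1 (LS K₁) ((LS.C : A₁ →+* LS A₁).comp ι) U) (n : ℤ) :
    LS.coeff z n ∈ bx1 K₁ ι U := by
  have key : ∀ n, LS.coeff z n ∈ bx1 K₁ ι U := by
    refine Submodule.span_induction (p := fun z _ => ∀ n, LS.coeff z n ∈ bx1 K₁ ι U) ?_ ?_ ?_ ?_ hz
    · rintro _ ⟨u, hu, rfl⟩ n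
      rw [RingHom.comp_apply, LS.coeff_C]
      split_ifs
      · exact mem_bx1_of ι hu
      · exact Submodule.zero_mem _
    · intro n
      rw [LS.coeff_zero]
      exact Submodule.zero_mem _
    · intro x y _ _ hx hy n
      rw [LS.coeff_add]
      exact Submodule.add_mem _ (hx n) (hy n)
    · intro c x _ hx n
      exact coeff_smul_mem _ c hx n
  exact key n

theorem lsj_comm (ι : A →+* A₁) (j : E₁ →ₐ[K₁] A₁) (hc : ∀ a e, ι a * j e = j e * ι a) (a : A)
    (e : LS E₁) : ((LS.C : A₁ →+* LS A₁).comp ι) a * lsj j e = lsj j e * (LS.C.comp ι) a := by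
  apply LS.ext
  intro n
  rw [RingHom.comp_apply, LS.coeff_C_mul, LS.coeff_mul_C, lsj_coeff, hc]

theorem lsj_C (j : E₁ →ₐ[K₁] A₁) (e : E₁) : lsj j (LS.C e) = LS.C (j e) := by
  apply LS.ext
  intro n
  rw [lsj_coeff, LS.coeff_C, LS.coeff_C]
  split_ifs
  · rfl
  · exact map_zero _

theorem lsj_mono (j : E₁ →ₐ[K₁] A₁) (k : ℤ) (e : E₁) : lsj j (LS.mono k e) = LS.mono k (j e) := by
  apply LS.ext
  intro n
  rw [lsj_coeff, LS.coeff_mono, LS.coeff_mono]
  split_ifs
  · rfl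
  · exact map_zero _

theorem C_mul_mono (a b : A₁) (k : ℤ) : LS.C a * LS.mono k b = LS.mono k (a * b) := by
  apply LS.ext
  intro n
  rw [LS.coeff_C_mul, LS.coeff_mono, LS.coeff_mono]
  split_ifs
  · rfl
  · exact mul_zero _

theorem mono_sum {T : Type} (s : Finset T) (f : T → A₁) (k : ℤ) :
    LS.mono k (∑ i ∈ s, f i) = ∑ i ∈ s, LS.mono k (f i) := by
  apply LS.ext
  intro n
  rw [LS.coeff_sum, LS.coeff_mono]
  split_ifs with h
  · refine Finset.sum_congr rfl fun i _ => ?_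
    rw [LS.coeff_mono, if_pos h]
  · symm
    refine Finset.sum_eq_zero fun i _ => ?_
    rw [LS.coeff_mono, if_neg h]

end Lau

section Sym

variable {K A K₁ E₁ A₁ : Type} [Field K] [Ring A] [Algebra K A] [Field K₁] [Ring E₁] [Ring A₁]
  [Algebra K₁ E₁] [Algebra K₁ A₁] {κ : K →+* K₁} {ι : A →+* A₁} {j : E₁ →ₐ[K₁] A₁} {m : ℕ}
  {X Y : E₁} {ζ : K} {x y : K₁}

theorem SymAdm.YbX (h : SymAdm κ ι j m X Y ζ x y) (b : ℕ) :
    Y ^ b * X = (κ ζ) ^ b • (X * Y ^ b) := by
  induction b with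
  | zero => rw [pow_zero, one_mul, pow_zero, one_smul, mul_one]
  | succ b ih =>
    rw [pow_succ', mul_assoc, ih, mul_smul_comm, ← mul_assoc, h.YX, smul_mul_assoc, smul_smul,
      mul_assoc, ← pow_succ', ← pow_succ]

/-- the basis of a symbol algebra -/
noncomputable def SymAdm.sbasis (h : SymAdm κ ι j m X Y ζ x y) :
    Module.Basis (Fin m × Fin m) K₁ E₁ :=
  haveI : Nonempty (Fin m × Fin m) := ⟨(⟨0, h.pos⟩, ⟨0, h.pos⟩)⟩
  basisOfLinearIndependentOfCardEqFinrank h.indep (by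
    rw [h.finE, Fintype.card_prod, Fintype.card_fin, sq])

theorem SymAdm.sbasis_apply (h : SymAdm κ ι j m X Y ζ x y) (p : Fin m × Fin m) :
    h.sbasis p = X ^ (p.1 : ℕ) * Y ^ (p.2 : ℕ) := by
  have : Nonempty (Fin m × Fin m) := ⟨(⟨0, h.pos⟩, ⟨0, h.pos⟩)⟩
  rw [SymAdm.sbasis, coe_basisOfLinearIndependentOfCardEqFinrank]

theorem SymAdm.zeta_pow_ne (h : SymAdm κ ι j m X Y ζ x y) {b : ℕ} (h0 : 0 < b) (hb : b < m) :
    (κ ζ) ^ b ≠ 1 := by
  intro h1
  have h2 : ζ ^ b = 1 := by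
    apply κ.injective
    rw [map_pow, h1, map_one]
  exact absurd (Nat.le_of_dvd h0 (h.prim.dvd_of_pow_eq_one b h2)) (by omega)

/-- left multiplication by `X` is injective -/
theorem SymAdm.X_cancel (h : SymAdm κ ι j m X Y ζ x y) {e : E₁} (h0 : X * e = 0) : e = 0 := by
  have h1 : X ^ m * e = 0 := by
    obtain ⟨k, rfl⟩ : ∃ k, m = k + 1 := ⟨m - 1, by have := h.pos; omega⟩
    rw [pow_succ, mul_assoc, h0, mul_zero]
  rw [h.Xm, ← Algebra.smul_def] at h1
  exact (smul_eq_zero.1 h1).resolve_left h.x0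

/-- the centraliser of `X` -/
theorem SymAdm.comm_X (h : SymAdm κ ι j m X Y ζ x y) (e : E₁) (he : X * e = e * X) :
    ∃ c : Fin m → K₁, e = ∑ a, c a • X ^ (a : ℕ) := by
  set c : Fin m × Fin m → K₁ := fun p => h.sbasis.repr e p with hc
  have h1 : e = ∑ p : Fin m × Fin m, c p • (X ^ (p.1 : ℕ) * Y ^ (p.2 : ℕ)) := by
    conv_lhs => rw [← h.sbasis.sum_repr e]
    refine Finset.sum_congr rfl fun p _ => ?_
    rw [h.sbasis_apply]
  have h2 : X * (∑ p : Fin m × Fin m, (c p * ((κ ζ) ^ (p.2 : ℕ) - 1)) •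
      (X ^ (p.1 : ℕ) * Y ^ (p.2 : ℕ))) = 0 := by
    have h3 : e * X = X * ∑ p : Fin m × Fin m, (c p * (κ ζ) ^ (p.2 : ℕ)) •
        (X ^ (p.1 : ℕ) * Y ^ (p.2 : ℕ)) := by
      conv_lhs => rw [h1]
      rw [Finset.sum_mul, Finset.mul_sum]
      refine Finset.sum_congr rfl fun p _ => ?_
      rw [smul_mul_assoc, mul_assoc, h.YbX, mul_smul_comm, smul_smul, mul_smul_comm,
        ← mul_assoc, ← mul_assoc, ← pow_succ, ← pow_succ']
    have h4 : X * e = X * ∑ p : Fin m × Fin m, c p • (X ^ (p.1 : ℕ) * Y ^ (p.2 : ℕ)) := by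
      conv_lhs => rw [h1]
    have h5 := he
    rw [h3, h4] at h5
    rw [← sub_eq_zero, ← mul_sub, ← Finset.sum_sub_distrib] at h5
    have h6 : X * ∑ p : Fin m × Fin m, (c p * ((κ ζ) ^ (p.2 : ℕ) - 1)) •
        (X ^ (p.1 : ℕ) * Y ^ (p.2 : ℕ)) = -(X * ∑ p : Fin m × Fin m,
          (c p • (X ^ (p.1 : ℕ) * Y ^ (p.2 : ℕ)) - (c p * (κ ζ) ^ (p.2 : ℕ)) •
            (X ^ (p.1 : ℕ) * Y ^ (p.2 : ℕ)))) := by
      rw [← mul_neg, ← Finset.sum_neg_distrib]
      congr 1
      refine Finset.sum_congr rfl fun p _ => ?_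
      rw [neg_sub, ← sub_smul]
      congr 1
      ring
    rw [h6, h5, neg_zero]
  have h7 := h.X_cancel h2
  have h8 := Fintype.linearIndependent_iff.1 h.indep _ h7
  have h9 : ∀ p : Fin m × Fin m, (p.2 : ℕ) ≠ 0 → c p = 0 := by
    intro p hp
    rcases mul_eq_zero.1 (h8 p) with h | h'
    · exact h
    · exact absurd (sub_eq_zero.1 h') (h.zeta_pow_ne (Nat.pos_of_ne_zero hp) p.2.2)
  refine ⟨fun a => c (a, ⟨0, h.pos⟩), ?_⟩
  rw [h1, Fintype.sum_prod_type]
  refine Finset.sum_congr rfl fun a _ => ?_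
  rw [Finset.sum_eq_single (⟨0, h.pos⟩ : Fin m)]
  · rw [pow_zero, mul_one]
  · intro b _ hb
    rw [h9 (a, b) (fun h0 => hb (Fin.ext h0)), zero_smul]
  · intro h0
    exact absurd (Finset.mem_univ _) h0

theorem SymAdm.indep_X (h : SymAdm κ ι j m X Y ζ x y) :
    LinearIndependent K₁ (fun a : Fin m => X ^ (a : ℕ)) := by
  have h1 := h.indep.comp (fun a : Fin m => (a, (⟨0, h.pos⟩ : Fin m)))
    (fun a b hab => (Prod.ext_iff.1 hab).1)
  have h2 : ((fun p : Fin m × Fin m => X ^ (p.1 : ℕ) * Y ^ (p.2 : ℕ)) ∘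
      fun a : Fin m => (a, (⟨0, h.pos⟩ : Fin m))) = fun a : Fin m => X ^ (a : ℕ) := by
    funext a
    simp
  rwa [h2] at h1

end Sym

section Deg

variable {K A K₁ E₁ A₁ : Type} [Field K] [Ring A] [Algebra K A]
  [FiniteDimensional K A] [Field K₁] [Ring E₁] [Ring A₁] [Algebra K₁ E₁] [Algebra K₁ A₁]
  {κ : K →+* K₁} {ι : A →+* A₁} {j : E₁ →ₐ[K₁] A₁} {m : ℕ} {X Y : E₁} {ζ : K} {x y : K₁}

/-- the elements `ι(b_i) j(X^a)` are independent -/
theorem SymAdm.li_bX (h : SymAdm κ ι j m X Y ζ x y) {r : ℕ} (u : Fin r → A)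
    (hu : LinearIndependent K u) :
    LinearIndependent K₁ (fun p : Fin r × Fin m => ι (u p.1) * j (X ^ (p.2 : ℕ))) := by
  rw [Fintype.linearIndependent_iff]
  intro g hg
  have h1 : ∑ i, ι (u i) * j (∑ a : Fin m, g (i, a) • X ^ (a : ℕ)) = 0 := by
    rw [← hg, Fintype.sum_prod_type]
    refine Finset.sum_congr rfl fun i _ => ?_
    rw [map_sum, Finset.mul_sum]
    refine Finset.sum_congr rfl fun a _ => ?_
    rw [map_smul, mul_smul_comm]
  rintro ⟨i, a⟩
  have h2 := h.toAdm.bx_unique u hu _ h1 i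
  exact Fintype.linearIndependent_iff.1 h.indep_X _ h2 a

omit [FiniteDimensional K A] in
theorem le_LG_base (K₁ : Type) {A₁ : Type} [Field K₁] [Ring A₁] [Algebra K₁ A₁] (ι : A →+* A₁)
    (L : Subalgebra K A) (G : A₁) {l : A} (hl : l ∈ L) : ι l ∈ LG K₁ ι L G :=
  Algebra.subset_adjoin (Or.inl ⟨l, hl, rfl⟩)

omit [FiniteDimensional K A] in
theorem self_mem_LG (K₁ : Type) {A₁ : Type} [Field K₁] [Ring A₁] [Algebra K₁ A₁] (ι : A →+* A₁)
    (L : Subalgebra K A) (G : A₁) : G ∈ LG K₁ ι L G :=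
  Algebra.subset_adjoin (Or.inr rfl)

omit [FiniteDimensional K A] in
/-- `L₁[G]` is contained in `L ⊠ E₁` -/
theorem LG_le_bx (ι : A →+* A₁) (j : E₁ →ₐ[K₁] A₁) (hc : ∀ a e, ι a * j e = j e * ι a)
    (L : Subalgebra K A) (G : A₁) (hG : G ∈ bx ι j (Subalgebra.toSubmodule L)) :
    Subalgebra.toSubmodule (LG K₁ ι L G) ≤ bx ι j (Subalgebra.toSubmodule L) := by
  intro z hz
  refine Algebra.adjoin_induction (p := fun z _ => z ∈ bx ι j (Subalgebra.toSubmodule L))
    ?_ ?_ ?_ ?_ hz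
  · rintro z (⟨l, hl, rfl⟩ | hz)
    · have := mem_bx_of ι j (U := Subalgebra.toSubmodule L) hl 1
      rwa [map_one, mul_one] at this
    · rw [Set.mem_singleton_iff.1 hz]
      exact hG
  · intro c
    have := mem_bx_of ι j (U := Subalgebra.toSubmodule L) L.one_mem (algebraMap K₁ E₁ c)
    rwa [map_one, one_mul, AlgHom.commutes] at this
  · intro a b _ _ ha hb
    exact Submodule.add_mem _ ha hb
  · intro a b _ _ ha hb
    exact mul_mem_bx_l ι j hc (fun u hu v hv => L.mul_mem hu hv) ha hb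

omit [FiniteDimensional K A] in
/-- `L₁[G]` is commutative and commutes with `G` -/
theorem LG_comm_G (ι : A →+* A₁) (j : E₁ →ₐ[K₁] A₁) (hc : ∀ a e, ι a * j e = j e * ι a)
    (L : Subalgebra K A) (hL : ∀ a ∈ L, ∀ b ∈ L, a * b = b * a) (G : A₁)
    (hG : G ∈ bx ι j (Subalgebra.toSubmodule L)) {z : A₁} (hz : z ∈ LG K₁ ι L G) :
    z * G = G * z := by
  refine Algebra.adjoin_induction (p := fun z _ => z * G = G * z) ?_ ?_ ?_ ?_ hz
  · rintro z (⟨l, hl, rfl⟩ | hz)
    · exact bx_comm_ι ι j hc (fun u hu => hL l hl u hu) hG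
    · rw [Set.mem_singleton_iff.1 hz]
  · intro c
    exact Algebra.commutes c G
  · intro a b _ _ ha hb
    rw [add_mul, mul_add, ha, hb]
  · intro a b _ _ ha hb
    rw [mul_assoc, hb, ← mul_assoc, ha, mul_assoc]

/-- residue space of `L₁[G]` for `G` with residue `X` -/
theorem res_LG_of_X (h : SymAdm κ ι j m X Y ζ x y) (L : Subalgebra K A)
    (hL : ∀ a ∈ L, ∀ b ∈ L, a * b = b * a) (G : LS A₁)
    (hG : G ∈ bx (LS.C.comp ι) (lsj j) (Subalgebra.toSubmodule L)) (hi : LS.Intg G)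
    (h0 : LS.coeff G 0 = j X) {r : ℕ} (b : Module.Basis (Fin r) K (Subalgebra.toSubmodule L)) :
    res (Subalgebra.toSubmodule (LG (LS K₁) ((LS.C : A₁ →+* LS A₁).comp ι) L G)) =
      Submodule.span K₁ (Set.range fun p : Fin r × Fin m => ι (b p.1 : A) * j (X ^ (p.2 : ℕ))) := by
  apply le_antisymm
  · intro z hz
    obtain ⟨w, hw, hwi, rfl⟩ := (mem_res _ _).1 hz
    have h1 : LS.coeff w 0 ∈ bx ι j (Subalgebra.toSubmodule L) :=
      coeff_mem_bx ι j (LG_le_bx _ _ (lsj_comm ι j h.comm) L G hG hw) 0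
    have h2 : w * G = G * w := LG_comm_G _ _ (lsj_comm ι j h.comm) L hL G hG hw
    have h3 : LS.coeff w 0 * j X = j X * LS.coeff w 0 := by
      have h2' : LS.coeff (w * G) 0 = LS.coeff (G * w) 0 := by rw [h2]
      rwa [LS.coeff_mul_zero hwi hi, LS.coeff_mul_zero hi hwi, h0] at h2'
    obtain ⟨e, he⟩ := bx_exists κ ι j h.ι_alg b h1
    have hu : LinearIndependent K (fun i => (b i : A)) :=
      b.linearIndependent.map' (Subalgebra.toSubmodule L).subtype (Submodule.ker_subtype _)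
    have h4 : ∀ i, X * e i = e i * X := by
      intro i
      have h5 : ∑ i, ι (b i : A) * j (X * e i - e i * X) = 0 := by
        have h6 : ∑ i, ι (b i : A) * j (X * e i - e i * X)
            = j X * ∑ i, ι (b i : A) * j (e i) - (∑ i, ι (b i : A) * j (e i)) * j X := by
          rw [Finset.mul_sum, Finset.sum_mul, ← Finset.sum_sub_distrib]
          refine Finset.sum_congr rfl fun i _ => ?_
          rw [map_sub, map_mul, map_mul, mul_sub, ← mul_assoc, ← mul_assoc, ← mul_assoc, h.comm]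
        rw [h6, ← he, h3, sub_self]
      exact sub_eq_zero.1 (h.toAdm.bx_unique _ hu _ h5 i)
    choose c hc using fun i => h.comm_X (e i) (h4 i)
    rw [he]
    refine Submodule.sum_mem _ fun i _ => ?_
    rw [hc i, map_sum, Finset.mul_sum]
    refine Submodule.sum_mem _ fun a _ => ?_
    rw [map_smul, mul_smul_comm]
    exact Submodule.smul_mem _ _ (Submodule.subset_span ⟨(i, a), rfl⟩)
  · refine Submodule.span_le.2 ?_
    rintro _ ⟨p, rfl⟩
    refine (mem_res _ _).2 ⟨((LS.C : A₁ →+* LS A₁).comp ι) (b p.1 : A) * G ^ (p.2 : ℕ), ?_, ?_, ?_⟩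
    · exact Subalgebra.mul_mem _ (le_LG_base _ _ _ _ (b p.1).2)
        (Subalgebra.pow_mem _ (self_mem_LG _ _ _ _) _)
    · exact (LS.Intg.C _).mul (hi.pow _)
    · rw [RingHom.comp_apply, LS.coeff_C_mul, LS.coeff_pow_zero hi, h0, ← map_pow]

/-- degree of elements with residue `X` -/
theorem deg_of_res' (h : SymAdm κ ι j m X Y ζ x y) (L : Subalgebra K A)
    (hL : ∀ a ∈ L, ∀ b ∈ L, a * b = b * a) (G : LS A₁)
    (hG : G ∈ bx (LS.C.comp ι) (lsj j) (Subalgebra.toSubmodule L)) (hi : LS.Intg G)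
    (h0 : LS.coeff G 0 = j X) :
    Module.finrank (LS K₁) (LG (LS K₁) ((LS.C : A₁ →+* LS A₁).comp ι) L G) =
      Module.finrank K L * m := by
  have : FiniteDimensional K₁ A₁ := h.toAdm.fdA
  have h1 := finrank_res (Subalgebra.toSubmodule
    (LG (LS K₁) ((LS.C : A₁ →+* LS A₁).comp ι) L G))
  let b := Module.finBasis K (Subalgebra.toSubmodule L)
  have hu : LinearIndependent K (fun i => (b i : A)) :=
    b.linearIndependent.map' (Subalgebra.toSubmodule L).subtype (Submodule.ker_subtype _)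
  rw [res_LG_of_X h L hL G hG hi h0 b, finrank_span_eq_card (h.li_bX _ hu), Fintype.card_prod,
    Fintype.card_fin, Fintype.card_fin] at h1
  exact h1.symm

end Deg

end Vale.Agent.P199K
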