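import Vale.Agent.P199K.LMDefs
import Vale.Agent.P199K.Adm
import Vale.Agent.P199K.LM0P
import Vale.Agent.P199K.LM1P
import Vale.Agent.P199K.LMApi

/-! # P199, section 6: the linear model (LM0, LM1, LM3; LM2 is in LM2P.lean)

Setting: symbol data `(K₁, E₁, A₁, κ, ι, j, X, Y)` of degree `m` over `A/K`; `F ≤ A` a commutative subalgebra,
`V ≤ F` a `K`-subspace with `1 ∈ V`, `Z = F ∩ V^⊥`; `v` a basis of `V` indexed by `Fin q`.
Everything takes place in `LS A₁ = A₁((τ))`, `ι' = LS.C ∘ ι`, `j' = lsj j`.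
helper59's simplification: `m` PRIME and `vv v = X + τ ∑_l v_l Y^(l+1)` (`l : Fin q`).
Order `τ¹` of `[z, v] = 0`, component `Y^i`, `1 ≤ i ≤ q`: `(ζ^(-ik) - 1) y_k v_i ∈ Z₁` for all `k`, and `m ∤ ik` for `k ≠ 0`. -/

open scoped LaurentSeries
open PowerSeries

namespace Vale.Agent.P199K

section LM

variable {K A K₁ E₁ A₁ : Type} [Field K] [CharZero K] [Ring A] [IsDomain A] [Algebra K A]
  [FiniteDimensional K A] [Field K₁] [CharZero K₁] [Ring E₁] [Ring A₁] [IsDomain A₁] [Algebra K₁ E₁] [Algebra K₁ A₁]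
  [FiniteDimensional K₁ A₁]

theorem vv_mem (ι : A →+* A₁) (j : E₁ →ₐ[K₁] A₁) (hc : ∀ a e, ι a * j e = j e * ι a) (X Y : E₁) {q : ℕ}
    (V : Submodule K A) (h1 : (1 : A) ∈ V) (v : Module.Basis (Fin q) K V) :
    vv ι j X Y (fun l => (v l : A)) ∈ bx (LS.C.comp ι) (lsj j) V := by
  refine Submodule.add_mem _ ?_ ?_
  · have h2 := mem_bx_of (LS.C.comp ι) (lsj j) h1 (LS.C X)
    rwa [map_one, one_mul, lsj_C] at h2
  · rw [mono_sum]
    refine Submodule.sum_mem _ fun l _ => ?_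
    have h2 := mem_bx_of (LS.C.comp ι) (lsj j) (v l).2 (LS.mono 1 (Y ^ ((l : ℕ) + 1)))
    rwa [lsj_mono, RingHom.comp_apply, C_mul_mono] at h2

/-- degree of elements with residue `X` -/
theorem deg_of_res {κ : K →+* K₁} {ι : A →+* A₁} {j : E₁ →ₐ[K₁] A₁} {m : ℕ} {X Y : E₁} {ζ : K} {x y : K₁}
    (h : SymAdm κ ι j m X Y ζ x y) (L : Subalgebra K A) (hL : ∀ a ∈ L, ∀ b ∈ L, a * b = b * a)
    (G : LS A₁) (hG : G ∈ bx (LS.C.comp ι) (lsj j) (Subalgebra.toSubmodule L)) (hi : LS.Intg G)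
    (h0 : LS.coeff G 0 = j X) :
    Module.finrank (LS K₁) (LG (LS K₁) ((LS.C : A₁ →+* LS A₁).comp ι) L G) = Module.finrank K L * m :=
  deg_of_res' h L hL G hG hi h0

/-- **LM0** -/
theorem LM0 {κ : K →+* K₁} {ι : A →+* A₁} {j : E₁ →ₐ[K₁] A₁} {m : ℕ} {X Y : E₁} {ζ : K} {x y : K₁}
    (h : SymAdm κ ι j m X Y ζ x y) (hp : m.Prime) (F : Subalgebra K A) (hF : ∀ a ∈ F, ∀ b ∈ F, a * b = b * a)
    (V : Submodule K A) (h1 : (1 : A) ∈ V) (hVF : V ≤ Subalgebra.toSubmodule F) {q : ℕ}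
    (v : Module.Basis (Fin q) K V) (hm : q < m)
    (z : LS A₁) (hz : z ∈ bx (LS.C.comp ι) (lsj j) (Zs F V)) (hi : LS.Intg z)
    (hcomm : z * vv ι j X Y (fun l => (v l : A)) = vv ι j X Y (fun l => (v l : A)) * z) :
    ∃ y : Fin m → A₁, LS.coeff z 0 = ∑ k, y k * j (X ^ (k : ℕ)) ∧ (∀ k, y k ∈ bx1 K₁ ι (Zs F V)) ∧
      ∀ k : Fin m, (k : ℕ) ≠ 0 → y k ∈ bx1 K₁ ι (Subalgebra.toSubmodule F ⊓ perp (V * V)) :=
  LM0_proved h hp F hF V h1 hVF v hm z hz hi hcomm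

/-- **LM1**: `V^{2i} = F` implies that the projections of `V ⊠ E₁` to `F₁[v]` satisfy `(·)^i = F₁[v]`. -/
theorem LM1 {κ : K →+* K₁} {ι : A →+* A₁} {j : E₁ →ₐ[K₁] A₁} {m : ℕ} {X Y : E₁} {ζ : K} {x y : K₁}
    (h : SymAdm κ ι j m X Y ζ x y) (hp : m.Prime) (F : Subalgebra K A) (hF : ∀ a ∈ F, ∀ b ∈ F, a * b = b * a)
    (V : Submodule K A) (h1 : (1 : A) ∈ V) (hVF : V ≤ Subalgebra.toSubmodule F) {q : ℕ}
    (v : Module.Basis (Fin q) K V) (hm : q < m) (hm3 : 3 ≤ m) (i : ℕ) (hi : 2 ≤ i)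
    (hV : V ^ (2 * i) = Subalgebra.toSubmodule F) :
    (Submodule.map (pr (LG (LS K₁) ((LS.C : A₁ →+* LS A₁).comp ι) F (vv ι j X Y (fun l => (v l : A)))))
        (bx (LS.C.comp ι) (lsj j) V)) ^ i
      = Subalgebra.toSubmodule (LG (LS K₁) ((LS.C : A₁ →+* LS A₁).comp ι) F
          (vv ι j X Y (fun l => (v l : A)))) := by
  have hc : ∀ a e, ι a * j e = j e * ι a := h.comm
  have hG : vv ι j X Y (fun l => (v l : A)) ∈ bx ((LS.C : A₁ →+* LS A₁).comp ι) (lsj j)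
      (Subalgebra.toSubmodule F) := bx_mono hVF (vv_mem ι j hc X Y V h1 v)
  have hGi : LS.Intg (vv ι j X Y (fun l => (v l : A))) := by
    intro n hn
    rw [vv, LS.coeff_add, LS.coeff_C, LS.coeff_mono, if_neg (by omega), if_neg (by omega), add_zero]
  have hG0 : LS.coeff (vv ι j X Y (fun l => (v l : A))) 0 = j X := by
    rw [vv, LS.coeff_add, LS.coeff_C, LS.coeff_mono, if_pos rfl, if_neg (by omega), add_zero]
  exact lm1_core h (Adm.ls κ ι j m h.toAdm) F hF V hVF _ hG hGi hG0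
    (deg_of_res h F hF _ hG hGi hG0)
    (fun z hz hzi hzc => LM0 h hp F hF V h1 hVF v hm z hz hzi hzc) hm3 i hi hV

/-- **LM3**: if `V² = F` then `T_lin(v) = Z ⊠ K₁`. -/
theorem LM3 {κ : K →+* K₁} {ι : A →+* A₁} {j : E₁ →ₐ[K₁] A₁} {m : ℕ} {X Y : E₁} {ζ : K} {x y : K₁}
    (h : SymAdm κ ι j m X Y ζ x y) (hp : m.Prime) (F : Subalgebra K A) (hF : ∀ a ∈ F, ∀ b ∈ F, a * b = b * a)
    (V : Submodule K A) (h1 : (1 : A) ∈ V) (hVF : V ≤ Subalgebra.toSubmodule F) {q : ℕ}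
    (v : Module.Basis (Fin q) K V) (hm : q < m) (hV : V * V = Subalgebra.toSubmodule F)
    (z : LS A₁) (hz : z ∈ bx (LS.C.comp ι) (lsj j) (Zs F V))
    (hcomm : z * vv ι j X Y (fun l => (v l : A)) = vv ι j X Y (fun l => (v l : A)) * z) :
    z ∈ bx1 (LS K₁) ((LS.C : A₁ →+* LS A₁).comp ι) (Zs F V) := by
  have hZ0 : Subalgebra.toSubmodule F ⊓ perp (V * V) = ⊥ := by
    rw [hV, eq_bot_iff]
    intro a ha
    rw [Submodule.mem_bot]
    refine tr_nondeg F ha.1 fun u hu => ?_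
    exact mem_perp.1 ha.2 u hu
  let T : Submodule (LS K₁) (LS A₁) :=
    bx (LS.C.comp ι) (lsj j) (Zs F V) ⊓ Subalgebra.toSubmodule
      (Subalgebra.centralizer (LS K₁) {vv ι j X Y (fun l => (v l : A))})
  have hmT : ∀ w, w ∈ T ↔ w ∈ bx (LS.C.comp ι) (lsj j) (Zs F V) ∧
      vv ι j X Y (fun l => (v l : A)) * w = w * vv ι j X Y (fun l => (v l : A)) := by
    intro w
    show w ∈ bx (LS.C.comp ι) (lsj j) (Zs F V) ∧ w ∈ Subalgebra.centralizer (LS K₁) _ ↔ _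
    rw [mem_centralizer_singleton]
  have h2 : bx1 (LS K₁) ((LS.C : A₁ →+* LS A₁).comp ι) (Zs F V) ≤ T := by
    refine Submodule.span_le.2 ?_
    rintro _ ⟨u, hu, rfl⟩
    refine (hmT _).2 ⟨bx1_le_bx_l _ _ _ (mem_bx1_of _ hu), ?_⟩
    exact (bx_comm_ι _ _ (lsj_comm ι j h.comm) (fun b hb => hF u hu.1 b (hVF hb))
      (vv_mem ι j h.comm X Y V h1 v)).symm
  have h3 : res T ≤ res (bx1 (LS K₁) ((LS.C : A₁ →+* LS A₁).comp ι) (Zs F V)) := by
    intro a ha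
    obtain ⟨w, hw, hwi, rfl⟩ := (mem_res _ _).1 ha
    obtain ⟨hw1, hw2⟩ := (hmT w).1 hw
    obtain ⟨y, hy0, hy1, hy2⟩ := LM0 h hp F hF V h1 hVF v hm w hw1 hwi hw2.symm
    rw [hy0]
    have h4 : ∑ k, y k * j (X ^ (k : ℕ)) = y ⟨0, h.pos⟩ := by
      rw [Finset.sum_eq_single (⟨0, h.pos⟩ : Fin m)]
      · rw [pow_zero, map_one, mul_one]
      · intro k _ hk
        have h5 := hy2 k (fun h0 => hk (Fin.ext h0))
        rw [hZ0] at h5
        have h6 : y k = 0 := by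
          obtain ⟨e, he⟩ := bx1_exists κ ι h.ι_alg (Module.finBasis K (⊥ : Submodule K A)) h5
          rw [he]
          refine Finset.sum_eq_zero fun i _ => ?_
          have h7 : ((Module.finBasis K (⊥ : Submodule K A)) i : A) = 0 :=
            (Submodule.mem_bot K).1 (Module.finBasis K (⊥ : Submodule K A) i).2
          rw [h7, map_zero, smul_zero]
        rw [h6, zero_mul]
      · intro h0
        exact absurd (Finset.mem_univ _) h0
    rw [h4]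
    refine Submodule.span_induction (p := fun a _ => a ∈ res (bx1 (LS K₁)
      ((LS.C : A₁ →+* LS A₁).comp ι) (Zs F V))) ?_ ?_ ?_ ?_ (hy1 ⟨0, h.pos⟩)
    · rintro _ ⟨u, hu, rfl⟩
      exact (mem_res _ _).2 ⟨LS.C (ι u), mem_bx1_of _ hu, LS.Intg.C _, LS.coeff_C_zero _⟩
    · exact Submodule.zero_mem _
    · intro x y _ _ hx hy
      exact Submodule.add_mem _ hx hy
    · intro c x _ hx
      exact Submodule.smul_mem _ _ hx
  rw [eq_of_res_le h2 h3]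
  exact (hmT z).2 ⟨hz, hcomm.symm⟩

end LM

end Vale.Agent.P199K
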