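import Vale.Agent.P199K.AdmD
import Vale.Agent.P199K.Tr

/-! # P199: coordinates in admissible data (helper59) -/

namespace Vale.Agent.P199K

open Module

section Coord

variable {K A K₁ E₁ A₁ : Type} [Field K] [Ring A] [Algebra K A] [Field K₁] [Ring E₁]
  [Ring A₁] [Algebra K₁ E₁] [Algebra K₁ A₁]
  {κ : K →+* K₁} {ι : A →+* A₁} {j : E₁ →ₐ[K₁] A₁} {m : ℕ}

theorem Adm.bas' (h : Adm κ ι j m) {I : Type} [Fintype I] (b : Basis I K A) :
    Function.Bijective (fun c : I → E₁ => ∑ i, ι (b i) * j (c i)) := by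
  classical
  let e := Fintype.equivFin I
  have h1 := h.bas _ (b.reindex e)
  have h2 : (fun c : I → E₁ => ∑ i, ι (b i) * j (c i))
      = (fun c : Fin (Fintype.card I) → E₁ => ∑ i, ι (b.reindex e i) * j (c i))
        ∘ (fun c : I → E₁ => c ∘ e.symm) := by
    funext c
    simp only [Function.comp_apply, Basis.reindex_apply]
    exact (Equiv.sum_comp e.symm (fun i => ι (b i) * j (c i))).symm
  rw [h2]
  refine h1.comp ?_
  exact (Equiv.arrowCongr e (Equiv.refl E₁)).bijective

/-- the linear equivalence attached to a basis of `A` -/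
noncomputable def Adm.beq (h : Adm κ ι j m) {I : Type} [Fintype I] (b : Basis I K A) :
    (I → E₁) ≃ₗ[K₁] A₁ :=
  LinearEquiv.ofBijective
    { toFun := fun c => ∑ i, ι (b i) * j (c i)
      map_add' := by
        intro x y
        rw [← Finset.sum_add_distrib]
        refine Finset.sum_congr rfl (fun i _ => ?_)
        rw [Pi.add_apply, map_add, mul_add]
      map_smul' := by
        intro k x
        rw [RingHom.id_apply, Finset.smul_sum]
        refine Finset.sum_congr rfl (fun i _ => ?_)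
        rw [Pi.smul_apply, map_smul, mul_smul_comm] }
    (h.bas' b)

theorem Adm.beq_apply (h : Adm κ ι j m) {I : Type} [Fintype I] (b : Basis I K A) (c : I → E₁) :
    h.beq b c = ∑ i, ι (b i) * j (c i) := rfl

/-- the product basis -/
noncomputable def Adm.bs (h : Adm κ ι j m) {I B : Type} [Fintype I] (b : Basis I K A)
    (e : Basis B K₁ E₁) : Basis (I × B) K₁ A₁ :=
  ((Pi.basis (fun _ : I => e)).map (h.beq b)).reindex (Equiv.sigmaEquivProd I B)

theorem Adm.bs_apply (h : Adm κ ι j m) {I B : Type} [Fintype I] (b : Basis I K A)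
    (e : Basis B K₁ E₁) (p : I × B) : h.bs b e p = ι (b p.1) * j (e p.2) := by
  classical
  obtain ⟨i, β⟩ := p
  rw [Adm.bs, Basis.reindex_apply, Basis.map_apply]
  simp only [Equiv.sigmaEquivProd_symm_apply, Pi.basis_apply]
  rw [Adm.beq_apply, Finset.sum_eq_single i]
  · rw [Pi.single_eq_same]
  · intro k _ hk
    rw [Pi.single_eq_of_ne hk, map_zero, mul_zero]
  · intro hi
    exact absurd (Finset.mem_univ _) hi

theorem Adm.ι_smul (h : Adm κ ι j m) (c : K) (a : A) : ι (c • a) = κ c • ι a := by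
  rw [Algebra.smul_def, map_mul, h.ι_alg, ← Algebra.smul_def]

theorem Adm.tmul_eq (h : Adm κ ι j m) {I B : Type} [Fintype I] [Fintype B] (b : Basis I K A)
    (e : Basis B K₁ E₁) (a : A) (x : E₁) :
    ι a * j x = ∑ p : I × B, (κ (b.repr a p.1) * e.repr x p.2) • h.bs b e p := by
  rw [Fintype.sum_prod_type]
  conv_lhs => rw [← b.sum_repr a, ← e.sum_repr x, map_sum, map_sum, Finset.sum_mul_sum]
  refine Finset.sum_congr rfl fun i _ => Finset.sum_congr rfl fun β _ => ?_
  rw [h.bs_apply, h.ι_smul, map_smul, smul_mul_assoc, mul_smul_comm, smul_smul]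

theorem Adm.bs_repr (h : Adm κ ι j m) {I B : Type} [Fintype I] [Fintype B] (b : Basis I K A)
    (e : Basis B K₁ E₁) (a : A) (x : E₁) (p : I × B) :
    (h.bs b e).repr (ι a * j x) p = κ (b.repr a p.1) * e.repr x p.2 := by
  rw [h.tmul_eq b e a x, Basis.repr_sum_self]

/-- induction principle -/
theorem Adm.ind [FiniteDimensional K A] (h : Adm κ ι j m) {P : A₁ → Prop} (h0 : P 0)
    (hadd : ∀ x y, P x → P y → P (x + y)) (ht : ∀ a x, P (ι a * j x)) (y : A₁) : P y := by
  classical
  obtain ⟨c, rfl⟩ := (h.bas' (finBasis K A)).2 y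
  exact Finset.sum_induction _ P hadd h0 (fun i _ => ht _ _)

/-- the tensor product of two linear maps -/
theorem Adm.exists_tm [FiniteDimensional K A] (h : Adm κ ι j m) (φ : A →ₗ[K] A)
    (ψ : E₁ →ₗ[K₁] E₁) :
    ∃ T : A₁ →ₗ[K₁] A₁, ∀ a x, T (ι a * j x) = ι (φ a) * j (ψ x) := by
  classical
  have := h.fdE
  let b := finBasis K A
  let e := finBasis K₁ E₁
  refine ⟨(h.bs b e).constr K₁ (fun p => ι (φ (b p.1)) * j (ψ (e p.2))), fun a x => ?_⟩
  conv_lhs => rw [h.tmul_eq b e a x, map_sum]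
  conv_rhs => rw [← b.sum_repr a, ← e.sum_repr x, map_sum, map_sum, map_sum, map_sum,
    Finset.sum_mul_sum]
  rw [Fintype.sum_prod_type]
  refine Finset.sum_congr rfl fun i _ => Finset.sum_congr rfl fun β _ => ?_
  rw [map_smul, Basis.constr_basis, map_smul, h.ι_smul, map_smul, map_smul, smul_mul_assoc,
    mul_smul_comm, smul_smul]

/-- trace of a tensor product -/
theorem Adm.trc_mul [FiniteDimensional K A] (h : Adm κ ι j m) (a : A) (x : E₁) :
    trc K₁ (ι a * j x) = κ (trc K a) * trc K₁ x := by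
  classical
  have := h.fdE
  let b := finBasis K A
  let e := finBasis K₁ E₁
  rw [tr_apply, tr_apply, tr_apply, LinearMap.trace_eq_matrix_trace K₁ (h.bs b e),
    LinearMap.trace_eq_matrix_trace K b, LinearMap.trace_eq_matrix_trace K₁ e, Matrix.trace,
    Matrix.trace, Matrix.trace, map_sum, Finset.sum_mul_sum, Fintype.sum_prod_type]
  refine Finset.sum_congr rfl fun i _ => Finset.sum_congr rfl fun β _ => ?_
  rw [Matrix.diag_apply, Matrix.diag_apply, Matrix.diag_apply, LinearMap.toMatrix_apply,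
    LinearMap.toMatrix_apply, LinearMap.toMatrix_apply, LinearMap.mulLeft_apply,
    LinearMap.mulLeft_apply, LinearMap.mulLeft_apply, h.bs_apply]
  have h1 : ι a * j x * (ι (b i) * j (e β)) = ι (a * b i) * j (x * e β) := by
    rw [map_mul, map_mul, mul_assoc, ← mul_assoc (j x), ← h.comm, mul_assoc, mul_assoc]
  rw [h1, h.bs_repr]

/-- a basis of `A` adapted to `U` -/
theorem exists_adapted [FiniteDimensional K A] (U : Submodule K A) :
    ∃ (s : ℕ) (b : Basis (Fin (finrank K U) ⊕ Fin s) K A), (∀ i, b (Sum.inl i) ∈ U) ∧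
      ∀ a, a ∈ U ↔ ∀ i, b.repr a (Sum.inr i) = 0 := by
  classical
  obtain ⟨U', hU'⟩ := Submodule.exists_isCompl U
  refine ⟨finrank K U', ((finBasis K U).prod (finBasis K U')).map
    (Submodule.prodEquivOfIsCompl U U' hU'), ?_, ?_⟩
  · intro i
    simp
  · intro a
    have h1 : (∀ i, (((finBasis K U).prod (finBasis K U')).map
        (Submodule.prodEquivOfIsCompl U U' hU')).repr a (Sum.inr i) = 0) ↔
        ((Submodule.prodEquivOfIsCompl U U' hU').symm a).2 = 0 := by
      rw [← (finBasis K U').repr.map_eq_zero_iff]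
      constructor
      · intro h
        ext i
        have := h i
        rw [Basis.map_repr] at this
        simpa using this
      · intro h i
        rw [Basis.map_repr]
        simpa using DFunLike.congr_fun h i
    rw [h1, Submodule.prodEquivOfIsCompl_symm_apply_snd_eq_zero]

theorem bx_mono {U V : Submodule K A} (hUV : U ≤ V) : bx ι j U ≤ bx ι j V := by
  refine Submodule.span_mono ?_
  rintro x ⟨e, u, hu, rfl⟩
  exact ⟨e, u, hUV hu, rfl⟩

theorem bx1_mono {U V : Submodule K A} (hUV : U ≤ V) : bx1 K₁ ι U ≤ bx1 K₁ ι V := by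
  refine Submodule.span_mono ?_
  rintro x ⟨u, hu, rfl⟩
  exact ⟨u, hUV hu, rfl⟩

theorem bx1_le_bx (U : Submodule K A) : bx1 K₁ ι U ≤ bx ι j U := by
  refine Submodule.span_le.2 ?_
  rintro x ⟨u, hu, rfl⟩
  exact Submodule.subset_span ⟨1, u, hu, by rw [map_one, mul_one]⟩

theorem ι_mem_bx1 {U : Submodule K A} {u : A} (hu : u ∈ U) : ι u ∈ bx1 K₁ ι U :=
  Submodule.subset_span ⟨u, hu, rfl⟩

theorem mul_mem_bx {U : Submodule K A} {u : A} (hu : u ∈ U) (e : E₁) : ι u * j e ∈ bx ι j U :=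
  Submodule.subset_span ⟨e, u, hu, rfl⟩

theorem Adm.bx_top [FiniteDimensional K A] (h : Adm κ ι j m) : bx ι j (⊤ : Submodule K A) = ⊤ := by
  rw [eq_top_iff]
  intro y _
  exact h.ind (P := fun y => y ∈ bx ι j (⊤ : Submodule K A)) (Submodule.zero_mem _)
    (fun x y hx hy => Submodule.add_mem _ hx hy) (fun a x => mul_mem_bx Submodule.mem_top x) y

/-- elements of `A ⊠ K₁` commute with `E₁` -/
theorem Adm.bx1_comm (h : Adm κ ι j m) {U : Submodule K A} {u : A₁} (hu : u ∈ bx1 K₁ ι U) (e : E₁) :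
    u * j e = j e * u := by
  refine Submodule.span_induction (p := fun u _ => u * j e = j e * u) ?_ ?_ ?_ ?_ hu
  · rintro x ⟨a, _, rfl⟩
    exact h.comm a e
  · rw [zero_mul, mul_zero]
  · intro x y _ _ hx hy
    rw [add_mul, mul_add, hx, hy]
  · intro c x _ hx
    rw [smul_mul_assoc, mul_smul_comm, hx]

theorem bx1_mul_mem_bx {U : Submodule K A} {u : A₁} (hu : u ∈ bx1 K₁ ι U) (e : E₁) :
    u * j e ∈ bx ι j U := by
  refine Submodule.span_induction (p := fun u _ => u * j e ∈ bx ι j U) ?_ ?_ ?_ ?_ hu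
  · rintro x ⟨a, ha, rfl⟩
    exact mul_mem_bx ha e
  · rw [zero_mul]; exact Submodule.zero_mem _
  · intro x y _ _ hx hy
    rw [add_mul]; exact Submodule.add_mem _ hx hy
  · intro c x _ hx
    rw [smul_mul_assoc]; exact Submodule.smul_mem _ _ hx

theorem bx_mul_j_mem {U : Submodule K A} {u : A₁} (hu : u ∈ bx ι j U) (e : E₁) :
    u * j e ∈ bx ι j U := by
  refine Submodule.span_induction (p := fun u _ => u * j e ∈ bx ι j U) ?_ ?_ ?_ ?_ hu
  · rintro x ⟨e', a, ha, rfl⟩
    rw [mul_assoc, ← map_mul]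
    exact mul_mem_bx ha _
  · rw [zero_mul]; exact Submodule.zero_mem _
  · intro x y _ _ hx hy
    rw [add_mul]; exact Submodule.add_mem _ hx hy
  · intro c x _ hx
    rw [smul_mul_assoc]; exact Submodule.smul_mem _ _ hx

theorem Adm.j_mul_bx_mem (h : Adm κ ι j m) {U : Submodule K A} {u : A₁} (hu : u ∈ bx ι j U)
    (e : E₁) : j e * u ∈ bx ι j U := by
  refine Submodule.span_induction (p := fun u _ => j e * u ∈ bx ι j U) ?_ ?_ ?_ ?_ hu
  · rintro x ⟨e', a, ha, rfl⟩
    rw [← mul_assoc, ← h.comm, mul_assoc, ← map_mul]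
    exact mul_mem_bx ha _
  · rw [mul_zero]; exact Submodule.zero_mem _
  · intro x y _ _ hx hy
    rw [mul_add]; exact Submodule.add_mem _ hx hy
  · intro c x _ hx
    rw [mul_smul_comm]; exact Submodule.smul_mem _ _ hx

/-- products of boxes -/
theorem Adm.bx_mul (h : Adm κ ι j m) {U V : Submodule K A} {u v : A₁} (hu : u ∈ bx ι j U)
    (hv : v ∈ bx ι j V) : u * v ∈ bx ι j (U * V) := by
  refine Submodule.span_induction (p := fun u _ => u * v ∈ bx ι j (U * V)) ?_ ?_ ?_ ?_ hu
  · rintro x ⟨e, a, ha, rfl⟩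
    refine Submodule.span_induction (p := fun v _ => ι a * j e * v ∈ bx ι j (U * V)) ?_ ?_ ?_ ?_ hv
    · rintro x ⟨e', b, hb, rfl⟩
      rw [mul_assoc, ← mul_assoc (j e), ← h.comm, mul_assoc, ← map_mul, ← mul_assoc, ← map_mul]
      exact mul_mem_bx (Submodule.mul_mem_mul ha hb) _
    · rw [mul_zero]; exact Submodule.zero_mem _
    · intro x y _ _ hx hy
      rw [mul_add]; exact Submodule.add_mem _ hx hy
    · intro c x _ hx
      rw [mul_smul_comm]; exact Submodule.smul_mem _ _ hx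
  · rw [zero_mul]; exact Submodule.zero_mem _
  · intro x y _ _ hx hy
    rw [add_mul]; exact Submodule.add_mem _ hx hy
  · intro c x _ hx
    rw [smul_mul_assoc]; exact Submodule.smul_mem _ _ hx

theorem bx1_mul {U V : Submodule K A} {u v : A₁} (hu : u ∈ bx1 K₁ ι U)
    (hv : v ∈ bx1 K₁ ι V) : u * v ∈ bx1 K₁ ι (U * V) := by
  refine Submodule.span_induction (p := fun u _ => u * v ∈ bx1 K₁ ι (U * V)) ?_ ?_ ?_ ?_ hu
  · rintro x ⟨a, ha, rfl⟩
    refine Submodule.span_induction (p := fun v _ => ι a * v ∈ bx1 K₁ ι (U * V)) ?_ ?_ ?_ ?_ hv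
    · rintro x ⟨b, hb, rfl⟩
      rw [← map_mul]
      exact ι_mem_bx1 (Submodule.mul_mem_mul ha hb)
    · rw [mul_zero]; exact Submodule.zero_mem _
    · intro x y _ _ hx hy
      rw [mul_add]; exact Submodule.add_mem _ hx hy
    · intro c x _ hx
      rw [mul_smul_comm]; exact Submodule.smul_mem _ _ hx
  · rw [zero_mul]; exact Submodule.zero_mem _
  · intro x y _ _ hx hy
    rw [add_mul]; exact Submodule.add_mem _ hx hy
  · intro c x _ hx
    rw [smul_mul_assoc]; exact Submodule.smul_mem _ _ hx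

/-- `U ⊠ E₁` in terms of an adapted basis -/
theorem Adm.mem_bx_iff (h : Adm κ ι j m) {U : Submodule K A} {r s : ℕ}
    (b : Basis (Fin r ⊕ Fin s) K A) (hb : ∀ i, b (Sum.inl i) ∈ U)
    (hb' : ∀ a, a ∈ U ↔ ∀ i, b.repr a (Sum.inr i) = 0) {B : Type} [Fintype B] (e : Basis B K₁ E₁)
    (y : A₁) : y ∈ bx ι j U ↔ ∀ i β, (h.bs b e).repr y (Sum.inr i, β) = 0 := by
  classical
  constructor
  · intro hy i β
    refine Submodule.span_induction (p := fun y _ => (h.bs b e).repr y (Sum.inr i, β) = 0)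
      ?_ ?_ ?_ ?_ hy
    · rintro x ⟨x', a, ha, rfl⟩
      rw [h.bs_repr, (hb' a).1 ha i, map_zero, zero_mul]
    · rw [map_zero]; rfl
    · intro x y _ _ hx hy
      rw [map_add, Finsupp.add_apply, hx, hy, add_zero]
    · intro c x _ hx
      rw [map_smul, Finsupp.smul_apply, hx, smul_zero]
  · intro hy
    rw [← (h.bs b e).sum_repr y]
    refine Submodule.sum_mem _ fun p _ => ?_
    obtain ⟨i | i, β⟩ := p
    · rw [h.bs_apply]
      exact Submodule.smul_mem _ _ (mul_mem_bx (hb i) _)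
    · rw [hy, zero_smul]
      exact Submodule.zero_mem _

theorem Adm.finrank_bx [FiniteDimensional K A] (h : Adm κ ι j m) (U : Submodule K A) :
    finrank K₁ (bx ι j U) = m ^ 2 * finrank K U := by
  classical
  have := h.fdE
  obtain ⟨s, b, hb, hb'⟩ := exists_adapted U
  let e := finBasis K₁ E₁
  have h1 : bx ι j U = Submodule.span K₁
      (Set.range (fun p : Fin (finrank K U) × Fin (finrank K₁ E₁) => h.bs b e (Sum.inl p.1, p.2))) := by
    apply le_antisymm
    · intro y hy
      rw [← (h.bs b e).sum_repr y]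
      refine Submodule.sum_mem _ fun p _ => ?_
      obtain ⟨i | i, β⟩ := p
      · exact Submodule.smul_mem _ _ (Submodule.subset_span ⟨(i, β), rfl⟩)
      · rw [(h.mem_bx_iff b hb hb' e y).1 hy, zero_smul]
        exact Submodule.zero_mem _
    · rw [Submodule.span_le]
      rintro _ ⟨p, rfl⟩
      simp only
      rw [h.bs_apply]
      exact mul_mem_bx (hb _) _
  have h2 : LinearIndependent K₁ (fun p : Fin (finrank K U) × Fin (finrank K₁ E₁) =>
      h.bs b e (Sum.inl p.1, p.2)) := by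
    refine (h.bs b e).linearIndependent.comp
      (fun p : Fin (finrank K U) × Fin (finrank K₁ E₁) => ((Sum.inl p.1 : Fin (finrank K U) ⊕ Fin s), p.2))
      ?_
    rintro ⟨i, β⟩ ⟨i', β'⟩ hh
    simp only [Prod.mk.injEq, Sum.inl.injEq] at hh
    exact Prod.ext hh.1 hh.2
  rw [h1, finrank_span_eq_card h2, Fintype.card_prod, Fintype.card_fin, Fintype.card_fin, h.finE,
    mul_comm]

/-- `ι` of a basis is independent over `K₁` -/
theorem Adm.indep_ι (h : Adm κ ι j m) {I : Type} [Fintype I] (b : Basis I K A) :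
    LinearIndependent K₁ (fun i => ι (b i)) := by
  classical
  have hE : Nontrivial E₁ := by
    by_contra hne
    rw [not_nontrivial_iff_subsingleton] at hne
    have h5 : finrank K₁ E₁ = 0 := finrank_zero_of_subsingleton
    rw [h.finE] at h5
    have := h.pos
    exact absurd h5 (by positivity)
  rw [Fintype.linearIndependent_iff]
  intro c hc i
  have h1 : (fun i => algebraMap K₁ E₁ (c i)) = 0 := by
    refine (h.bas' b).1 ?_
    simp only [Pi.zero_apply, map_zero, mul_zero, Finset.sum_const_zero]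
    rw [← hc]
    refine Finset.sum_congr rfl (fun i _ => ?_)
    rw [AlgHom.commutes, ← Algebra.commutes, ← Algebra.smul_def]
  exact (map_eq_zero_iff _ (algebraMap K₁ E₁).injective).1 (congrFun h1 i)

theorem bx1_eq_span (h : Adm κ ι j m) {U : Submodule K A} {r s : ℕ}
    (b : Basis (Fin r ⊕ Fin s) K A) (hb : ∀ i, b (Sum.inl i) ∈ U)
    (hb' : ∀ a, a ∈ U ↔ ∀ i, b.repr a (Sum.inr i) = 0) :
    bx1 K₁ ι U = Submodule.span K₁ (Set.range (fun i : Fin r => ι (b (Sum.inl i)))) := by
  apply le_antisymm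
  · rw [bx1, Submodule.span_le]
    rintro _ ⟨u, hu, rfl⟩
    rw [← b.sum_repr u, Fintype.sum_sum_type, map_add]
    have h1 : ∑ i, b.repr u (Sum.inr i) • b (Sum.inr i) = 0 := by
      refine Finset.sum_eq_zero fun i _ => ?_
      rw [(hb' u).1 hu i, zero_smul]
    rw [h1, map_zero, add_zero, map_sum]
    refine Submodule.sum_mem _ fun i _ => ?_
    rw [h.ι_smul]
    exact Submodule.smul_mem _ _ (Submodule.subset_span ⟨i, rfl⟩)
  · rw [Submodule.span_le]
    rintro _ ⟨i, rfl⟩
    exact ι_mem_bx1 (hb i)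

theorem Adm.finrank_bx1 [FiniteDimensional K A] (h : Adm κ ι j m) (U : Submodule K A) :
    finrank K₁ (bx1 K₁ ι U) = finrank K U := by
  classical
  obtain ⟨s, b, hb, hb'⟩ := exists_adapted U
  rw [bx1_eq_span h b hb hb', finrank_span_eq_card, Fintype.card_fin]
  exact (h.indep_ι b).comp _ Sum.inl_injective

/-- membership in a box in terms of coordinates in any basis of `E₁` -/
theorem mem_bx_of_sum {U : Submodule K A} {B : Type} [Fintype B]
    (u : B → A₁) (e : B → E₁) (hu : ∀ β, u β ∈ bx1 K₁ ι U) : ∑ β, u β * j (e β) ∈ bx ι j U :=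
  Submodule.sum_mem _ fun β _ => bx1_mul_mem_bx (hu β) _

end Coord

section CoordE

variable {K A K₁ E₁ A₁ : Type} [Field K] [Ring A] [Algebra K A] [Field K₁] [Ring E₁]
  [Ring A₁] [Algebra K₁ E₁] [Algebra K₁ A₁]
  {κ : K →+* K₁} {ι : A →+* A₁} {j : E₁ →ₐ[K₁] A₁} {m : ℕ}

/-- coordinates with respect to a basis of `E₁` -/
theorem Adm.exists_cd [FiniteDimensional K A] (h : Adm κ ι j m) {B : Type} [Fintype B]
    (e : Basis B K₁ E₁) :
    ∃ cd : B → A₁ →ₗ[K₁] A₁, ∀ β a x, cd β (ι a * j x) = e.repr x β • ι a := by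
  classical
  choose T hT using fun β : B => h.exists_tm LinearMap.id
    ((LinearMap.toSpanSingleton K₁ E₁ 1).comp (e.coord β))
  refine ⟨T, fun β a x => ?_⟩
  rw [hT]
  simp

/-- the coordinate maps -/
noncomputable def Adm.cd [FiniteDimensional K A] (h : Adm κ ι j m) {B : Type} [Fintype B]
    (e : Basis B K₁ E₁) : B → A₁ →ₗ[K₁] A₁ := (h.exists_cd e).choose

theorem Adm.cd_tmul [FiniteDimensional K A] (h : Adm κ ι j m) {B : Type} [Fintype B]
    (e : Basis B K₁ E₁) (β : B) (a : A) (x : E₁) :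
    h.cd e β (ι a * j x) = e.repr x β • ι a := (h.exists_cd e).choose_spec β a x

theorem Adm.sum_cd [FiniteDimensional K A] (h : Adm κ ι j m) {B : Type} [Fintype B]
    (e : Basis B K₁ E₁) (y : A₁) : ∑ β, h.cd e β y * j (e β) = y := by
  refine h.ind (P := fun y => ∑ β, h.cd e β y * j (e β) = y) ?_ ?_ ?_ y
  · simp
  · intro x y hx hy
    have h1 : ∑ β, h.cd e β (x + y) * j (e β)
        = ∑ β, h.cd e β x * j (e β) + ∑ β, h.cd e β y * j (e β) := by
      rw [← Finset.sum_add_distrib]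
      refine Finset.sum_congr rfl fun β _ => ?_
      rw [map_add, add_mul]
    rw [h1, hx, hy]
  · intro a x
    conv_rhs => rw [← e.sum_repr x, map_sum, Finset.mul_sum]
    refine Finset.sum_congr rfl fun β _ => ?_
    rw [h.cd_tmul, smul_mul_assoc, map_smul, mul_smul_comm]

theorem Adm.cd_mem [FiniteDimensional K A] (h : Adm κ ι j m) {B : Type} [Fintype B]
    (e : Basis B K₁ E₁) (β : B) {U : Submodule K A} {y : A₁} (hy : y ∈ bx ι j U) :
    h.cd e β y ∈ bx1 K₁ ι U := by
  refine Submodule.span_induction (p := fun y _ => h.cd e β y ∈ bx1 K₁ ι U) ?_ ?_ ?_ ?_ hy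
  · rintro x ⟨e', a, ha, rfl⟩
    rw [h.cd_tmul]
    exact Submodule.smul_mem _ _ (ι_mem_bx1 ha)
  · rw [map_zero]; exact Submodule.zero_mem _
  · intro x y _ _ hx hy
    rw [map_add]; exact Submodule.add_mem _ hx hy
  · intro c x _ hx
    rw [map_smul]; exact Submodule.smul_mem _ _ hx

theorem Adm.cd_mem_top [FiniteDimensional K A] (h : Adm κ ι j m) {B : Type} [Fintype B]
    (e : Basis B K₁ E₁) (β : B) (y : A₁) : h.cd e β y ∈ bx1 K₁ ι (⊤ : Submodule K A) :=
  h.cd_mem e β (by rw [h.bx_top]; trivial)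

/-- the coordinates of `u * j x` -/
theorem Adm.cd_mul [FiniteDimensional K A] (h : Adm κ ι j m) {B : Type} [Fintype B]
    (e : Basis B K₁ E₁) (β : B) {u : A₁} (hu : u ∈ bx1 K₁ ι (⊤ : Submodule K A)) (x : E₁) :
    h.cd e β (u * j x) = e.repr x β • u := by
  refine Submodule.span_induction (p := fun u _ => h.cd e β (u * j x) = e.repr x β • u)
    ?_ ?_ ?_ ?_ hu
  · rintro _ ⟨a, _, rfl⟩
    exact h.cd_tmul e β a x
  · rw [zero_mul, map_zero, smul_zero]
  · intro x y _ _ hx hy
    rw [add_mul, map_add, hx, hy, smul_add]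
  · intro c x _ hx
    rw [smul_mul_assoc, map_smul, hx, smul_comm]

theorem Adm.cd_sum [FiniteDimensional K A] (h : Adm κ ι j m) {B : Type} [Fintype B]
    (e : Basis B K₁ E₁) (β : B) (u : B → A₁) (hu : ∀ β, u β ∈ bx1 K₁ ι (⊤ : Submodule K A)) :
    h.cd e β (∑ β, u β * j (e β)) = u β := by
  classical
  rw [map_sum, Finset.sum_eq_single β]
  · rw [h.cd_mul e β (hu β), e.repr_self, Finsupp.single_eq_same, one_smul]
  · intro γ _ hγ
    rw [h.cd_mul e β (hu γ), e.repr_self, Finsupp.single_eq_of_ne (Ne.symm hγ), zero_smul]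
  · intro hβ
    exact absurd (Finset.mem_univ _) hβ

/-- `y ∈ U ⊠ E₁` iff all coordinates are in `U ⊠ K₁` -/
theorem Adm.mem_bx_cd [FiniteDimensional K A] (h : Adm κ ι j m) {B : Type} [Fintype B]
    (e : Basis B K₁ E₁) {U : Submodule K A} {y : A₁} :
    y ∈ bx ι j U ↔ ∀ β, h.cd e β y ∈ bx1 K₁ ι U := by
  constructor
  · intro hy β
    exact h.cd_mem e β hy
  · intro hy
    rw [← h.sum_cd e y]
    exact mem_bx_of_sum _ _ hy

end CoordE

end Vale.Agent.P199K
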