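import Vale.Agent.P199K.LM
import Vale.Agent.P199K.SymC
import Vale.Agent.P199K.SymD
import Vale.Agent.P199K.ResPr

/-! # P199, section 6: LM2 (good pair), preliminaries (helper78)

Everything is done by duality: `res (perp U) = perp (res U)` and `perp (U ⊓ V) = perp U ⊔ perp V`. -/

namespace Vale.Agent.P199K

open Module

set_option linter.unusedSectionVars false
set_option linter.style.haveILetI false

section Perp

variable {K A : Type} [Field K] [Ring A] [IsDomain A] [Algebra K A] [Module.Finite K A] [CharZero K]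

theorem lm2_perp_sup (U V : Submodule K A) : perp (U ⊔ V) = perp U ⊓ perp V := by
  apply le_antisymm
  · exact le_inf (perp_anti le_sup_left) (perp_anti le_sup_right)
  · rintro x ⟨h1, h2⟩
    rw [mem_perp]
    intro v hv
    obtain ⟨a, ha, b, hb, rfl⟩ := Submodule.mem_sup.1 hv
    rw [add_mul, map_add, mem_perp.1 h1 a ha, mem_perp.1 h2 b hb, add_zero]

theorem lm2_perp_inf (U V : Submodule K A) : perp (U ⊓ V) = perp U ⊔ perp V := by
  have h := lm2_perp_sup (perp U) (perp V)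
  rw [perp_perp, perp_perp] at h
  rw [← h, perp_perp]

theorem lm2_perp_sub (U : Subalgebra K A) {x : A} :
    x ∈ perp (Subalgebra.toSubmodule U) ↔ pr U x = 0 := (pr_eq_zero_iff U).symm

/-- a functional is given by an element -/
theorem lm2_exists_rep (ψ : A →ₗ[K] K) : ∃ b : A, ∀ x, trc K (x * b) = ψ x := by
  let T : A →ₗ[K] (A →ₗ[K] K) := (tf K A).flip
  have hT : ∀ b x, T b x = trc K (x * b) := fun b x => rfl
  have hinj : Function.Injective T := by
    rw [← LinearMap.ker_eq_bot, LinearMap.ker_eq_bot']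
    intro b hb
    refine tr_nondeg (⊤ : Subalgebra K A) trivial fun v _ => ?_
    rw [← hT, hb]; rfl
  have hsurj : Function.Surjective T :=
    (LinearMap.injective_iff_surjective_of_finrank_eq_finrank (by
      rw [Module.finrank_linearMap, Module.finrank_self, mul_one])).1 hinj
  obtain ⟨b, hb⟩ := hsurj ψ
  exact ⟨b, fun x => by rw [← hT, hb]⟩

end Perp

section ResPerp

variable {K A : Type} [Field K] [Ring A] [IsDomain A] [Algebra K A] [Module.Finite K A] [CharZero K]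

theorem lm2_res_perp (U : Submodule (LS K) (LS A)) : res (perp U) = perp (res U) := by
  refine Submodule.eq_of_le_of_finrank_eq ?_ ?_
  · intro a ha
    obtain ⟨x, hx, hxi, rfl⟩ := (mem_res _ _).1 ha
    rw [mem_perp]
    intro v hv
    obtain ⟨y, hy, hyi, rfl⟩ := (mem_res _ _).1 hv
    rw [← LS.coeff_mul_zero hyi hxi, ← coeff_trc, mem_perp.1 hx y hy]
    rfl
  · have h1 := finrank_perp U
    have h2 := finrank_perp (res U)
    have h3 := finrank_res U
    have h4 := finrank_res (perp U)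
    have h5 : finrank (LS K) (LS A) = finrank K A := LS.finrank_eq
    omega

end ResPerp

section Box

variable {K A K₁ E₁ A₁ : Type} [Field K] [CharZero K] [Ring A] [IsDomain A] [Algebra K A]
  [FiniteDimensional K A] [Field K₁] [CharZero K₁] [Ring E₁] [Ring A₁] [IsDomain A₁] [Algebra K₁ E₁] [Algebra K₁ A₁]
  [FiniteDimensional K₁ A₁] {κ : K →+* K₁} {ι : A →+* A₁} {j : E₁ →ₐ[K₁] A₁} {m : ℕ}

omit [CharZero K] [IsDomain A] [CharZero K₁] [IsDomain A₁] [FiniteDimensional K₁ A₁] in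
theorem lm2_trc_box (h : Adm κ ι j m) {U : Submodule K A} {a b : A₁} (ha : a ∈ bx ι j U)
    (hb : b ∈ bx ι j (perp U)) : trc K₁ (a * b) = 0 := by
  refine Submodule.span_induction (p := fun a _ => trc K₁ (a * b) = 0) ?_ ?_ ?_ ?_ ha
  · rintro x ⟨e, u, hu, rfl⟩
    refine Submodule.span_induction (p := fun b _ => trc K₁ (ι u * j e * b) = 0) ?_ ?_ ?_ ?_ hb
    · rintro x ⟨e', w, hw, rfl⟩
      have h1 : ι u * j e * (ι w * j e') = ι (u * w) * j (e * e') := by
        rw [map_mul, map_mul, mul_assoc, ← mul_assoc (j e), ← h.comm, mul_assoc, mul_assoc]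
      rw [h1, h.trc_mul, mem_perp.1 hw u hu, map_zero, zero_mul]
    · rw [mul_zero, map_zero]
    · intro x y _ _ hx hy
      rw [mul_add, map_add, hx, hy, add_zero]
    · intro c x _ hx
      rw [mul_smul_comm, map_smul, hx, smul_zero]
  · rw [zero_mul, map_zero]
  · intro x y _ _ hx hy
    rw [add_mul, map_add, hx, hy, add_zero]
  · intro c x _ hx
    rw [smul_mul_assoc, map_smul, hx, smul_zero]

theorem lm2_perp_bx (h : Adm κ ι j m) (U : Submodule K A) :
    perp (bx ι j U) = bx ι j (perp U) := by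
  symm
  refine Submodule.eq_of_le_of_finrank_eq ?_ ?_
  · intro b hb
    rw [mem_perp]
    intro a ha
    exact lm2_trc_box h ha hb
  · have h1 := finrank_perp (bx ι j U)
    have h2 := finrank_perp U
    rw [h.finrank_bx, h.finrankA] at h1
    rw [h.finrank_bx]
    have h3 : m ^ 2 * finrank K U + m ^ 2 * finrank K (perp U) = m ^ 2 * finrank K A := by
      rw [← mul_add, h2]
    omega

omit [CharZero K] [IsDomain A] [CharZero K₁] [IsDomain A₁] [FiniteDimensional K₁ A₁] in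
theorem lm2_bx_sup (U V : Submodule K A) : bx ι j (U ⊔ V) = bx ι j U ⊔ bx ι j V := by
  apply le_antisymm
  · rw [bx, Submodule.span_le]
    rintro x ⟨e, u, hu, rfl⟩
    obtain ⟨a, ha, b, hb, rfl⟩ := Submodule.mem_sup.1 hu
    rw [map_add, add_mul]
    exact Submodule.add_mem_sup (mul_mem_bx ha e) (mul_mem_bx hb e)
  · exact sup_le (bx_mono le_sup_left) (bx_mono le_sup_right)

theorem lm2_bx_inf (h : Adm κ ι j m) (U V : Submodule K A) :
    bx ι j U ⊓ bx ι j V = bx ι j (U ⊓ V) := by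
  have h1 : bx ι j U = perp (bx ι j (perp U)) := by rw [lm2_perp_bx h, perp_perp]
  have h2 : bx ι j V = perp (bx ι j (perp V)) := by rw [lm2_perp_bx h, perp_perp]
  rw [h1, h2, ← lm2_perp_sup, ← lm2_bx_sup, ← lm2_perp_inf, lm2_perp_bx h, perp_perp]

theorem lm2_bx_perp_F (h : Adm κ ι j m) (F : Subalgebra K A) {η : A₁}
    (h1 : η ∈ bx ι j (Subalgebra.toSubmodule F)) (h2 : η ∈ perp (bx ι j (Subalgebra.toSubmodule F))) :
    η = 0 := by
  have h3 : η ∈ bx ι j (Subalgebra.toSubmodule F) ⊓ bx ι j (perp (Subalgebra.toSubmodule F)) := by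
    refine ⟨h1, ?_⟩
    rwa [lm2_perp_bx h] at h2
  rw [lm2_bx_inf h, (isCompl_perp F).inf_eq_bot] at h3
  refine Submodule.span_induction (p := fun y _ => y = 0) ?_ rfl ?_ ?_ h3
  · rintro x ⟨e, u, hu, rfl⟩
    rw [(Submodule.mem_bot K).1 hu, map_zero, zero_mul]
  · intro x y _ _ hx hy
    rw [hx, hy, add_zero]
  · intro c x _ hx
    rw [hx, smul_zero]

theorem lm2_mem_Z (h : Adm κ ι j m) (F : Subalgebra K A) (V : Submodule K A) {a : A₁}
    (h1 : a ∈ bx ι j (Subalgebra.toSubmodule F)) (h2 : a ∈ perp (bx ι j V)) :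
    a ∈ bx ι j (Zs F V) := by
  rw [Zs, ← lm2_bx_inf h]
  refine ⟨h1, ?_⟩
  rwa [lm2_perp_bx h] at h2

/-- K5 -/
theorem lm2_zero (h : Adm κ ι j m) (F : Subalgebra K A) (V : Submodule K A)
    (hV : V * V = Subalgebra.toSubmodule F) {η : A₁} (h1 : η ∈ bx ι j (Subalgebra.toSubmodule F))
    (h2 : ∀ v ∈ V, ι v * η ∈ bx ι j (Zs F V)) : η = 0 := by
  refine lm2_bx_perp_F h F h1 ?_
  rw [mem_perp]
  intro b hb
  refine Submodule.span_induction (p := fun b _ => trc K₁ (b * η) = 0) ?_ ?_ ?_ ?_ hb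
  · rintro x ⟨e, w, hw, rfl⟩
    rw [← hV] at hw
    refine Submodule.mul_induction_on (C := fun w => trc K₁ (ι w * j e * η) = 0) hw ?_ ?_
    · intro v' hv' v hv
      have h3 : ι (v' * v) * j e * η = (ι v' * j e) * (ι v * η) := by
        rw [map_mul, mul_assoc, mul_assoc, mul_assoc, ← mul_assoc (ι v), h.comm, mul_assoc]
      rw [h3]
      refine lm2_trc_box h (mul_mem_bx hv' e) ?_
      exact bx_mono inf_le_right (h2 v hv)
    · intro x y hx hy
      rw [map_add, add_mul, add_mul, map_add, hx, hy, add_zero]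
  · rw [zero_mul, map_zero]
  · intro x y _ _ hx hy
    rw [add_mul, map_add, hx, hy, add_zero]
  · intro c x _ hx
    rw [smul_mul_assoc, map_smul, hx, smul_zero]

end Box

section Wt

variable {K A K₁ E₁ A₁ : Type} [Field K] [CharZero K] [Ring A] [IsDomain A] [Algebra K A]
  [FiniteDimensional K A] [Field K₁] [CharZero K₁] [Ring E₁] [Ring A₁] [IsDomain A₁] [Algebra K₁ E₁] [Algebra K₁ A₁]
  [FiniteDimensional K₁ A₁] {κ : K →+* K₁} {ι : A →+* A₁} {j : E₁ →ₐ[K₁] A₁} {m : ℕ} {X Y : E₁} {ζ : K} {x y : K₁}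

/-- the basis `X^i Y^k` of `E₁` -/
noncomputable def lm2_eB (h : SymAdm κ ι j m X Y ζ x y) : Basis (Fin m × Fin m) K₁ E₁ :=
  haveI : Nonempty (Fin m × Fin m) := ⟨(⟨0, h.pos⟩, ⟨0, h.pos⟩)⟩
  basisOfLinearIndependentOfCardEqFinrank h.indep (by
    rw [h.finE, Fintype.card_prod, Fintype.card_fin, sq])

omit [CharZero K] [IsDomain A] [FiniteDimensional K A] [CharZero K₁] [IsDomain A₁] [FiniteDimensional K₁ A₁] in
theorem lm2_eB_apply (h : SymAdm κ ι j m X Y ζ x y) (p : Fin m × Fin m) :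
    lm2_eB h p = X ^ (p.1 : ℕ) * Y ^ (p.2 : ℕ) := by
  haveI : Nonempty (Fin m × Fin m) := ⟨(⟨0, h.pos⟩, ⟨0, h.pos⟩)⟩
  rw [lm2_eB, coe_basisOfLinearIndependentOfCardEqFinrank]

/-- `u` has weight `k`: `u X = ζ^k X u` -/
def Wt (κ : K →+* K₁) (j : E₁ →ₐ[K₁] A₁) (X : E₁) (ζ : K) (k : ℕ) (u : A₁) : Prop :=
  u * j X = (κ ζ ^ k) • (j X * u)

/-- the component of weight `k` -/
noncomputable def lm2_pc (h : SymAdm κ ι j m X Y ζ x y) (k : Fin m) : A₁ →ₗ[K₁] A₁ :=
  ∑ i : Fin m, (LinearMap.mulRight K₁ (j (X ^ (i : ℕ) * Y ^ (k : ℕ)))).comp (h.cd (lm2_eB h) (i, k))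

theorem lm2_pc_apply (h : SymAdm κ ι j m X Y ζ x y) (k : Fin m) (u : A₁) :
    lm2_pc h k u = ∑ i : Fin m, h.cd (lm2_eB h) (i, k) u * j (X ^ (i : ℕ) * Y ^ (k : ℕ)) := by
  rw [lm2_pc, LinearMap.sum_apply]
  rfl

theorem lm2_sum_pc (h : SymAdm κ ι j m X Y ζ x y) (u : A₁) : ∑ k, lm2_pc h k u = u := by
  conv_rhs => rw [← h.toAdm.sum_cd (lm2_eB h) u, Fintype.sum_prod_type_right]
  refine Finset.sum_congr rfl fun k _ => ?_
  rw [lm2_pc_apply]
  refine Finset.sum_congr rfl fun i _ => ?_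
  rw [lm2_eB_apply]

theorem lm2_pc_mem (h : SymAdm κ ι j m X Y ζ x y) (k : Fin m) {U : Submodule K A} {u : A₁}
    (hu : u ∈ bx ι j U) : lm2_pc h k u ∈ bx ι j U := by
  rw [lm2_pc_apply]
  exact Submodule.sum_mem _ fun i _ => bx1_mul_mem_bx (h.cd_mem _ _ hu) _

omit [CharZero K] [IsDomain A] [FiniteDimensional K A] [CharZero K₁] [IsDomain A₁] [FiniteDimensional K₁ A₁] in
theorem lm2_YX (h : SymAdm κ ι j m X Y ζ x y) (k : ℕ) : Y ^ k * X = (κ ζ ^ k) • (X * Y ^ k) := by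
  induction k with
  | zero => simp
  | succ k ih =>
    rw [pow_succ, mul_assoc, h.YX, mul_smul_comm, ← mul_assoc, ih, smul_mul_assoc, smul_smul,
      pow_succ, mul_comm (κ ζ), mul_assoc]

theorem lm2_wt_Y (h : SymAdm κ ι j m X Y ζ x y) (k : ℕ) : Wt κ j X ζ k (j (Y ^ k)) := by
  rw [Wt, ← map_mul, lm2_YX h, map_smul, map_mul]

theorem Wt.mul {k l : ℕ} {u w : A₁} (hu : Wt κ j X ζ k u) (hw : Wt κ j X ζ l w) :
    Wt κ j X ζ (k + l) (u * w) := by
  rw [Wt] at *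
  rw [mul_assoc, hw, mul_smul_comm, ← mul_assoc, hu, smul_mul_assoc, smul_smul, pow_add, mul_assoc,
    mul_comm (κ ζ ^ l)]

theorem Wt.smul {k : ℕ} {u : A₁} (hu : Wt κ j X ζ k u) (c : K₁) : Wt κ j X ζ k (c • u) := by
  rw [Wt] at *
  rw [smul_mul_assoc, hu, mul_smul_comm, smul_comm]

theorem Wt.add {k : ℕ} {u w : A₁} (hu : Wt κ j X ζ k u) (hw : Wt κ j X ζ k w) :
    Wt κ j X ζ k (u + w) := by
  rw [Wt] at *
  rw [add_mul, hu, hw, mul_add, smul_add]

theorem Wt.sub {k : ℕ} {u w : A₁} (hu : Wt κ j X ζ k u) (hw : Wt κ j X ζ k w) :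
    Wt κ j X ζ k (u - w) := by
  rw [Wt] at *
  rw [sub_mul, hu, hw, mul_sub, smul_sub]

theorem Wt.zero {k : ℕ} : Wt κ j X ζ k (0 : A₁) := by
  rw [Wt, zero_mul, mul_zero, smul_zero]

theorem Wt.sum {I : Type} (s : Finset I) {k : ℕ} {u : I → A₁} (hu : ∀ i ∈ s, Wt κ j X ζ k (u i)) :
    Wt κ j X ζ k (∑ i ∈ s, u i) := by
  classical
  induction s using Finset.induction_on with
  | empty => rw [Finset.sum_empty]; exact Wt.zero
  | insert a s ha ih =>
    rw [Finset.sum_insert ha]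
    exact (hu a (Finset.mem_insert_self a s)).add (ih fun i hi => hu i (Finset.mem_insert_of_mem hi))

theorem wt_of_comm {u : A₁} (hu : u * j X = j X * u) : Wt κ j X ζ 0 u := by
  rw [Wt, hu, pow_zero, one_smul]

theorem Wt.comm {u : A₁} (hu : Wt κ j X ζ 0 u) : u * j X = j X * u := by
  rw [Wt, pow_zero, one_smul] at hu; exact hu

theorem lm2_wt_bx1 (h : SymAdm κ ι j m X Y ζ x y) {U : Submodule K A} {u : A₁}
    (hu : u ∈ bx1 K₁ ι U) : Wt κ j X ζ 0 u := wt_of_comm (h.bx1_comm hu X)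

theorem lm2_wt_ι (h : SymAdm κ ι j m X Y ζ x y) (a : A) : Wt κ j X ζ 0 (ι a) :=
  wt_of_comm (h.comm a X)

theorem lm2_wt_X (_h : SymAdm κ ι j m X Y ζ x y) (k : ℕ) : Wt κ j X ζ 0 (j (X ^ k)) :=
  wt_of_comm (by rw [← map_mul, ← map_mul, pow_mul_comm'])

theorem lm2_pc_wt (h : SymAdm κ ι j m X Y ζ x y) (k : Fin m) (u : A₁) :
    Wt κ j X ζ k (lm2_pc h k u) := by
  rw [lm2_pc_apply]
  refine Wt.sum _ fun i _ => ?_
  have h1 := ((lm2_wt_bx1 h (h.cd_mem_top (lm2_eB h) (i, k) u)).mul (lm2_wt_X h (i : ℕ))).mul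
    (lm2_wt_Y h (k : ℕ))
  rw [mul_assoc, ← map_mul, zero_add, zero_add] at h1
  exact h1

theorem lm2_pc_pc (h : SymAdm κ ι j m X Y ζ x y) (k k' : Fin m) (u : A₁) :
    lm2_pc h k (lm2_pc h k' u) = if k = k' then lm2_pc h k u else 0 := by
  classical
  have h1 : ∀ i, h.cd (lm2_eB h) (i, k) (lm2_pc h k' u)
      = if k = k' then h.cd (lm2_eB h) (i, k) u else 0 := by
    intro i
    rw [lm2_pc_apply, map_sum]
    have h2 : ∀ i', h.cd (lm2_eB h) (i, k)
        (h.cd (lm2_eB h) (i', k') u * j (X ^ (i' : ℕ) * Y ^ (k' : ℕ)))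
        = if (i', k') = (i, k) then h.cd (lm2_eB h) (i, k) u else 0 := by
      intro i'
      rw [← lm2_eB_apply h (i', k'), h.cd_mul _ _ (h.cd_mem_top _ _ u), (lm2_eB h).repr_self,
        Finsupp.single_apply]
      by_cases hh : (i', k') = (i, k)
      · rw [if_pos hh, if_pos hh, one_smul, hh]
      · rw [if_neg hh, if_neg hh, zero_smul]
    rw [Finset.sum_congr rfl fun i' _ => h2 i']
    by_cases hk : k = k'
    · subst hk
      rw [if_pos rfl, Finset.sum_eq_single i]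
      · rw [if_pos rfl]
      · intro b _ hb
        rw [if_neg]
        intro hh
        exact hb (Prod.mk.inj hh).1
      · intro hi
        exact absurd (Finset.mem_univ _) hi
    · rw [if_neg hk]
      refine Finset.sum_eq_zero fun i' _ => ?_
      rw [if_neg]
      intro hh
      exact hk (Prod.mk.inj hh).2.symm
  rw [lm2_pc_apply h k (lm2_pc h k' u)]
  by_cases hk : k = k'
  · rw [if_pos hk, lm2_pc_apply h k u]
    refine Finset.sum_congr rfl fun i _ => ?_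
    rw [h1, if_pos hk]
  · rw [if_neg hk]
    refine Finset.sum_eq_zero fun i _ => ?_
    rw [h1, if_neg hk, zero_mul]

theorem lm2_prim (h : SymAdm κ ι j m X Y ζ x y) : IsPrimitiveRoot (κ ζ) m :=
  h.prim.map_of_injective κ.injective

theorem lm2_Xinv (h : SymAdm κ ι j m X Y ζ x y) :
    j ((x⁻¹) • X ^ (m - 1)) * j X = 1 ∧ j X * j ((x⁻¹) • X ^ (m - 1)) = 1 := by
  have h1 : X ^ (m - 1) * X = algebraMap K₁ E₁ x := by
    rw [← pow_succ, Nat.sub_add_cancel h.pos, h.Xm]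
  have h2 : X * X ^ (m - 1) = algebraMap K₁ E₁ x := by
    rw [← pow_succ', Nat.sub_add_cancel h.pos, h.Xm]
  constructor
  · rw [← map_mul, smul_mul_assoc, h1, Algebra.smul_def, ← map_mul, inv_mul_cancel₀ h.x0, map_one, map_one]
  · rw [← map_mul, mul_smul_comm, h2, Algebra.smul_def, ← map_mul, inv_mul_cancel₀ h.x0, map_one, map_one]

theorem lm2_X_ne (h : SymAdm κ ι j m X Y ζ x y) : j X ≠ 0 := by
  intro h0
  have h1 := (lm2_Xinv h).1
  rw [h0, mul_zero] at h1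
  exact zero_ne_one h1

theorem Wt.trc (h : SymAdm κ ι j m X Y ζ x y) {n : ℕ} {u : A₁} (hu : Wt κ j X ζ n u)
    (hn : κ ζ ^ n ≠ 1) : trc K₁ u = 0 := by
  have h1 : Vale.Agent.P199K.trc K₁ u = κ ζ ^ n * Vale.Agent.P199K.trc K₁ u := by
    conv_lhs => rw [← mul_one u, ← (lm2_Xinv h).2, ← mul_assoc, hu, smul_mul_assoc, map_smul, smul_eq_mul,
      tr_mul_comm, ← mul_assoc, (lm2_Xinv h).1, one_mul]
  have h2 : (κ ζ ^ n - 1) * Vale.Agent.P199K.trc K₁ u = 0 := by
    rw [sub_mul, one_mul, ← h1, sub_self]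
  exact (mul_eq_zero.1 h2).resolve_left (sub_ne_zero.2 hn)

theorem lm2_pow_ne (h : SymAdm κ ι j m X Y ζ x y) {k l : ℕ} (hk : k < m) (hl : l < m) (hkl : k ≠ l) :
    κ ζ ^ k ≠ κ ζ ^ l := fun he => hkl ((lm2_prim h).pow_inj hk hl he)

theorem lm2_pow_ne_one (h : SymAdm κ ι j m X Y ζ x y) {k : ℕ} (hk : 0 < k) (hk' : k < m) :
    κ ζ ^ k ≠ 1 := by
  have h1 := lm2_pow_ne h hk' h.pos hk.ne'
  rwa [pow_zero] at h1

theorem Wt.pc_eq (h : SymAdm κ ι j m X Y ζ x y) {k : ℕ} (hk : k < m) {u : A₁}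
    (hu : Wt κ j X ζ k u) : lm2_pc h ⟨k, hk⟩ u = u := by
  classical
  have h1 : j X * ∑ l : Fin m, (κ ζ ^ (l : ℕ) - κ ζ ^ k) • lm2_pc h l u = 0 := by
    rw [Finset.mul_sum]
    have h2 : ∀ l ∈ (Finset.univ : Finset (Fin m)), j X * ((κ ζ ^ (l : ℕ) - κ ζ ^ k) • lm2_pc h l u)
        = lm2_pc h l u * j X - (κ ζ ^ k) • (j X * lm2_pc h l u) := by
      intro l _
      rw [mul_smul_comm, sub_smul, lm2_pc_wt h l u]
    rw [Finset.sum_congr rfl h2, Finset.sum_sub_distrib, ← Finset.sum_mul, ← Finset.smul_sum,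
      ← Finset.mul_sum, lm2_sum_pc, hu, sub_self]
  have h3 := (mul_eq_zero.1 h1).resolve_left (lm2_X_ne h)
  have h4 : ∀ l : Fin m, (l : ℕ) ≠ k → lm2_pc h l u = 0 := by
    intro l hl
    have h5 := congrArg (lm2_pc h l) h3
    rw [map_zero, map_sum, Finset.sum_eq_single l] at h5
    · rw [map_smul, lm2_pc_pc, if_pos rfl] at h5
      exact (smul_eq_zero.1 h5).resolve_left (sub_ne_zero.2 (lm2_pow_ne h l.2 hk hl))
    · intro b _ hb
      rw [map_smul, lm2_pc_pc, if_neg hb.symm, smul_zero]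
    · intro hb
      exact absurd (Finset.mem_univ _) hb
  conv_rhs => rw [← lm2_sum_pc h u]
  rw [Finset.sum_eq_single ⟨k, hk⟩]
  · intro b _ hb
    exact h4 b fun hbk => hb (Fin.ext hbk)
  · intro hb
    exact absurd (Finset.mem_univ _) hb

theorem Wt.pc_ne (h : SymAdm κ ι j m X Y ζ x y) {k : ℕ} (hk : k < m) {u : A₁}
    (hu : Wt κ j X ζ k u) {l : Fin m} (hl : (l : ℕ) ≠ k) : lm2_pc h l u = 0 := by
  rw [← hu.pc_eq h hk, lm2_pc_pc, if_neg]
  intro hh
  exact hl (by rw [hh])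

theorem lm2_pc_Xmul (h : SymAdm κ ι j m X Y ζ x y) (k : Fin m) (u : A₁) :
    lm2_pc h k (j X * u) = j X * lm2_pc h k u := by
  classical
  have hX : Wt κ j X ζ 0 (j X) := wt_of_comm rfl
  conv_lhs => rw [← lm2_sum_pc h u, Finset.mul_sum, map_sum]
  rw [Finset.sum_eq_single k]
  · have h1 := hX.mul (lm2_pc_wt h k u)
    rw [zero_add] at h1
    exact h1.pc_eq h k.2
  · intro b _ hb
    have h1 := hX.mul (lm2_pc_wt h b u)
    rw [zero_add] at h1
    exact h1.pc_ne h b.2 fun hh => hb (Fin.ext hh.symm)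
  · intro hb
    exact absurd (Finset.mem_univ _) hb

theorem lm2_pc_mulX (h : SymAdm κ ι j m X Y ζ x y) (k : Fin m) (u : A₁) :
    lm2_pc h k (u * j X) = (κ ζ ^ (k : ℕ)) • (j X * lm2_pc h k u) := by
  classical
  conv_lhs => rw [← lm2_sum_pc h u, Finset.sum_mul, map_sum]
  rw [Finset.sum_eq_single k]
  · rw [lm2_pc_wt h k u, map_smul, lm2_pc_Xmul, lm2_pc_pc, if_pos rfl]
  · intro b _ hb
    rw [lm2_pc_wt h b u, map_smul, lm2_pc_Xmul, lm2_pc_pc, if_neg hb.symm, mul_zero, smul_zero]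
  · intro hb
    exact absurd (Finset.mem_univ _) hb

/-- coordinates of an element of weight `0` -/
theorem Wt.sum0 (h : SymAdm κ ι j m X Y ζ x y) {u : A₁} (hu : Wt κ j X ζ 0 u) :
    u = ∑ i : Fin m, h.cd (lm2_eB h) (i, ⟨0, h.pos⟩) u * j (X ^ (i : ℕ)) := by
  conv_lhs => rw [← hu.pc_eq h h.pos, lm2_pc_apply]
  refine Finset.sum_congr rfl fun i _ => ?_
  rw [pow_zero, mul_one]

/-- traces of products -/
theorem lm2_trc_wt (h : SymAdm κ ι j m X Y ζ x y) {k l : ℕ} {u w : A₁} (hu : Wt κ j X ζ k u)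
    (hw : Wt κ j X ζ l w) (hkl : κ ζ ^ (k + l) ≠ 1) : trc K₁ (u * w) = 0 :=
  (hu.mul hw).trc h hkl

end Wt

end Vale.Agent.P199K
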