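import Vale.Agent.P199K.LM2A

/-! # P199, section 6: LM2 (good pair), the Laurent level (helper78) -/

namespace Vale.Agent.P199K

open Module

set_option linter.unusedSectionVars false
set_option linter.style.haveILetI false

section Lev

variable {K A K₁ E₁ A₁ : Type} [Field K] [CharZero K] [Ring A] [IsDomain A] [Algebra K A]
  [FiniteDimensional K A] [Field K₁] [CharZero K₁] [Ring E₁] [Ring A₁] [IsDomain A₁] [Algebra K₁ E₁] [Algebra K₁ A₁]
  [FiniteDimensional K₁ A₁] {κ : K →+* K₁} {ι : A →+* A₁} {j : E₁ →ₐ[K₁] A₁} {m : ℕ}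

theorem lm2_adm (h : Adm κ ι j m) :
    Adm ((LS.C : K₁ →+* LS K₁).comp κ) ((LS.C : A₁ →+* LS A₁).comp ι) (lsj j) m :=
  Adm.laurent_proved κ ι j m h (lsj j) (fun _ _ => rfl)

/-- Laurent series with coefficients in `W` -/
noncomputable def lm2_cf (W : Submodule K₁ A₁) : Submodule (LS K₁) (LS A₁) where
  carrier := {f | ∀ n, LS.coeff f n ∈ W}
  add_mem' := fun hf hg n => by
    rw [LS.coeff_add]; exact W.add_mem (hf n) (hg n)
  zero_mem' := fun n => by
    rw [LS.coeff_zero]; exact W.zero_mem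
  smul_mem' := fun c f hf n => by
    obtain ⟨N, hN⟩ := LS.exists_bound c
    obtain ⟨M, hM⟩ := LS.exists_bound f
    rw [LS.smul_def, LS.coeff_mul_of_bound (LS.map (algebraMap K₁ A₁) c) f (a := N) (b := M)
      (fun n hn => by rw [LS.coeff_map, hN n hn, map_zero]) hM]
    refine W.sum_mem fun i _ => ?_
    rw [LS.coeff_map, ← Algebra.smul_def]
    exact W.smul_mem _ (hf _)

theorem lm2_coeff_bx {U : Submodule K A} {f : LS A₁}
    (hf : f ∈ bx ((LS.C : A₁ →+* LS A₁).comp ι) (lsj j) U) (n : ℤ) : LS.coeff f n ∈ bx ι j U := by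
  have h1 : bx ((LS.C : A₁ →+* LS A₁).comp ι) (lsj j) U ≤ lm2_cf (bx ι j U) := by
    rw [bx, Submodule.span_le]
    rintro x ⟨e, u, hu, rfl⟩ n
    rw [RingHom.comp_apply, LS.coeff_C_mul, lsj_coeff]
    exact mul_mem_bx hu _
  exact h1 hf n

theorem lm2_C_smul (c : K₁) (a : A₁) : (LS.C (c • a) : LS A₁) = (LS.C c : LS K₁) • LS.C a := by
  rw [LS.smul_def, LS.map_C, ← map_mul, Algebra.smul_def]

theorem lm2_C_bx {U : Submodule K A} {a : A₁} (ha : a ∈ bx ι j U) :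
    (LS.C a : LS A₁) ∈ bx ((LS.C : A₁ →+* LS A₁).comp ι) (lsj j) U := by
  refine Submodule.span_induction
    (p := fun a _ => (LS.C a : LS A₁) ∈ bx ((LS.C : A₁ →+* LS A₁).comp ι) (lsj j) U) ?_ ?_ ?_ ?_ ha
  · rintro x ⟨e, u, hu, rfl⟩
    have h1 : (LS.C (ι u * j e) : LS A₁) = ((LS.C : A₁ →+* LS A₁).comp ι) u * lsj j (LS.C e) := by
      rw [map_mul, RingHom.comp_apply]
      congr 1
      exact (LS.map_C (j : E₁ →+* A₁) e).symm
    rw [h1]
    exact mul_mem_bx hu _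
  · rw [map_zero]; exact Submodule.zero_mem _
  · intro a b _ _ ha hb
    rw [map_add]; exact Submodule.add_mem _ ha hb
  · intro c a _ ha
    rw [lm2_C_smul]; exact Submodule.smul_mem _ _ ha

theorem lm2_coeff_perp {U : Submodule K A} {b : LS A₁}
    (hb : b ∈ perp (bx ((LS.C : A₁ →+* LS A₁).comp ι) (lsj j) U)) (n : ℤ) :
    LS.coeff b n ∈ perp (bx ι j U) := by
  rw [mem_perp]
  intro a ha
  rw [← LS.coeff_C_mul, ← coeff_trc, mem_perp.1 hb _ (lm2_C_bx ha), LS.coeff_zero]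

theorem lm2_comm_bx {F : Subalgebra K A} (hF : ∀ a ∈ F, ∀ b ∈ F, a * b = b * a) (h : Adm κ ι j m)
    {l : A} (hl : l ∈ F) {w : A₁} (hw : w ∈ bx ι j (Subalgebra.toSubmodule F)) :
    ι l * w = w * ι l := by
  refine Submodule.span_induction (p := fun w _ => ι l * w = w * ι l) ?_ ?_ ?_ ?_ hw
  · rintro x ⟨e, u, hu, rfl⟩
    rw [← mul_assoc, ← map_mul, hF l hl u hu, map_mul, mul_assoc, mul_assoc, h.comm]
  · rw [mul_zero, zero_mul]
  · intro a b _ _ ha hb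
    rw [mul_add, add_mul, ha, hb]
  · intro c a _ ha
    rw [mul_smul_comm, smul_mul_assoc, ha]

theorem lm2_comm_bx1 {F : Subalgebra K A} (hF : ∀ a ∈ F, ∀ b ∈ F, a * b = b * a) (h : Adm κ ι j m)
    {η : A₁} (hη : η ∈ bx1 K₁ ι (Subalgebra.toSubmodule F)) {w : A₁}
    (hw : w ∈ bx ι j (Subalgebra.toSubmodule F)) : η * w = w * η := by
  refine Submodule.span_induction (p := fun η _ => η * w = w * η) ?_ ?_ ?_ ?_ hη
  · rintro x ⟨u, hu, rfl⟩
    exact lm2_comm_bx hF h hu hw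
  · rw [mul_zero, zero_mul]
  · intro a b _ _ ha hb
    rw [mul_add, add_mul, ha, hb]
  · intro c a _ ha
    rw [mul_smul_comm, smul_mul_assoc, ha]

theorem lm2_bx_mul_F (h : Adm κ ι j m) (F : Subalgebra K A) {a b : A₁}
    (ha : a ∈ bx ι j (Subalgebra.toSubmodule F)) (hb : b ∈ bx ι j (Subalgebra.toSubmodule F)) :
    a * b ∈ bx ι j (Subalgebra.toSubmodule F) := by
  exact bx_mono (Submodule.mul_le.2 fun a ha b hb => F.mul_mem ha hb) (h.bx_mul ha hb)

theorem lm2_one_F (F : Subalgebra K A) : (1 : A₁) ∈ bx ι j (Subalgebra.toSubmodule F) := by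
  have h1 : (1 : A₁) = ι 1 * j 1 := by rw [map_one, map_one, mul_one]
  rw [h1]
  exact mul_mem_bx F.one_mem _

/-- `F₁[g]` is contained in `F ⊠ E₁` -/
theorem lm2_LG_le (h : Adm κ ι j m) (F : Subalgebra K A) {g : A₁}
    (hg : g ∈ bx ι j (Subalgebra.toSubmodule F)) {f : A₁} (hf : f ∈ LG K₁ ι F g) :
    f ∈ bx ι j (Subalgebra.toSubmodule F) := by
  induction hf using Algebra.adjoin_induction with
  | mem z hz =>
    rcases hz with ⟨l, hl, rfl⟩ | hz
    · have h1 : ι l = ι l * j 1 := by rw [map_one, mul_one]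
      rw [h1]
      exact mul_mem_bx hl _
    · rw [Set.mem_singleton_iff] at hz; subst hz; exact hg
  | algebraMap r =>
    rw [Algebra.algebraMap_eq_smul_one]
    exact Submodule.smul_mem _ _ (lm2_one_F F)
  | add a b _ _ ha hb => exact Submodule.add_mem _ ha hb
  | mul a b _ _ ha hb => exact lm2_bx_mul_F h F ha hb

theorem lm2_LG_comm (h : Adm κ ι j m) {F : Subalgebra K A} (hF : ∀ a ∈ F, ∀ b ∈ F, a * b = b * a)
    {g : A₁} (hg : g ∈ bx ι j (Subalgebra.toSubmodule F)) {f : A₁} (hf : f ∈ LG K₁ ι F g) :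
    f * g = g * f := by
  induction hf using Algebra.adjoin_induction with
  | mem z hz =>
    rcases hz with ⟨l, hl, rfl⟩ | hz
    · exact lm2_comm_bx hF h hl hg
    · rw [Set.mem_singleton_iff] at hz; subst hz; rfl
  | algebraMap r => exact Algebra.commutes _ _
  | add a b _ _ ha hb => rw [add_mul, mul_add, ha, hb]
  | mul a b _ _ ha hb => rw [mul_assoc, hb, ← mul_assoc, ha, mul_assoc]

theorem lm2_bx1_LG {F : Subalgebra K A} {U : Submodule K A} (hU : U ≤ Subalgebra.toSubmodule F) (g : A₁) {η : A₁}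
    (hη : η ∈ bx1 K₁ ι U) : η ∈ LG K₁ ι F g := by
  refine Submodule.span_induction (p := fun η _ => η ∈ LG K₁ ι F g) ?_ ?_ ?_ ?_ hη
  · rintro x ⟨u, hu, rfl⟩
    exact Algebra.subset_adjoin (Or.inl ⟨u, hU hu, rfl⟩)
  · exact Subalgebra.zero_mem _
  · intro a b _ _ ha hb
    exact Subalgebra.add_mem _ ha hb
  · intro c a _ ha
    exact Subalgebra.smul_mem _ ha c

theorem lm2_C_bx1 {U : Submodule K A} {a : A₁} (ha : a ∈ bx1 K₁ ι U) :
    (LS.C a : LS A₁) ∈ bx1 (LS K₁) ((LS.C : A₁ →+* LS A₁).comp ι) U := by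
  refine Submodule.span_induction
    (p := fun a _ => (LS.C a : LS A₁) ∈ bx1 (LS K₁) ((LS.C : A₁ →+* LS A₁).comp ι) U) ?_ ?_ ?_ ?_ ha
  · rintro x ⟨u, hu, rfl⟩
    exact ι_mem_bx1 (ι := (LS.C : A₁ →+* LS A₁).comp ι) hu
  · rw [map_zero]; exact Submodule.zero_mem _
  · intro a b _ _ ha hb
    rw [map_add]; exact Submodule.add_mem _ ha hb
  · intro c a _ ha
    rw [lm2_C_smul]; exact Submodule.smul_mem _ _ ha

/-! ### the element `v` -/

theorem lm2_vv_coeff0 (X Y : E₁) {q : ℕ} (v : Fin q → A) : LS.coeff (vv ι j X Y v) 0 = j X := by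
  rw [vv, LS.coeff_add, LS.coeff_C_zero, LS.coeff_mono, if_neg (by norm_num), add_zero]

theorem lm2_vv_coeff1 (X Y : E₁) {q : ℕ} (v : Fin q → A) :
    LS.coeff (vv ι j X Y v) 1 = ∑ l, ι (v l) * j (Y ^ ((l : ℕ) + 1)) := by
  rw [vv, LS.coeff_add, LS.coeff_C, if_neg (by norm_num), LS.coeff_mono, if_pos rfl, zero_add]

theorem lm2_vv_intg (X Y : E₁) {q : ℕ} (v : Fin q → A) : LS.Intg (vv ι j X Y v) := by
  intro n hn
  rw [vv, LS.coeff_add, LS.coeff_C, if_neg (by omega), LS.coeff_mono, if_neg (by omega), zero_add]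

theorem lm2_mono (a : A₁) : (LS.mono 1 a : LS A₁) = (LS.tp 1 : LS K₁) • LS.C a := by
  ext n
  rw [LS.coeff_mono, LS.coeff_tp_smul, LS.coeff_C]
  have : n = 1 ↔ n - 1 = 0 := by omega
  simp only [this]

theorem lm2_vv_mem (X Y : E₁) {q : ℕ} (V : Submodule K A) (h1 : (1 : A) ∈ V) (v : Fin q → A)
    (hv : ∀ l, v l ∈ V) : vv ι j X Y v ∈ bx ((LS.C : A₁ →+* LS A₁).comp ι) (lsj j) V := by
  rw [vv, lm2_mono (K₁ := K₁)]
  refine Submodule.add_mem _ (lm2_C_bx ?_) (Submodule.smul_mem _ _ (lm2_C_bx ?_))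
  · have h2 : j X = ι 1 * j X := by rw [map_one, one_mul]
    rw [h2]
    exact mul_mem_bx h1 _
  · exact Submodule.sum_mem _ fun l _ => mul_mem_bx (hv l) _

end Lev

section First

variable {K A K₁ E₁ A₁ : Type} [Field K] [CharZero K] [Ring A] [IsDomain A] [Algebra K A]
  [FiniteDimensional K A] [Field K₁] [CharZero K₁] [Ring E₁] [Ring A₁] [IsDomain A₁] [Algebra K₁ E₁] [Algebra K₁ A₁]
  [FiniteDimensional K₁ A₁] {κ : K →+* K₁} {ι : A →+* A₁} {j : E₁ →ₐ[K₁] A₁} {m : ℕ} {X Y : E₁} {ζ : K} {x y : K₁}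

theorem lm2_order0 {q : ℕ} {v : Fin q → A} {f : LS A₁} (hf : LS.Intg f)
    (hc : f * vv ι j X Y v = vv ι j X Y v * f) : Wt κ j X ζ 0 (LS.coeff f 0) := by
  refine wt_of_comm ?_
  have h1 : LS.coeff (f * vv ι j X Y v) 0 = LS.coeff (vv ι j X Y v * f) 0 := by rw [hc]
  rwa [LS.coeff_mul_zero hf (lm2_vv_intg X Y v), LS.coeff_mul_zero (lm2_vv_intg X Y v) hf,
    lm2_vv_coeff0] at h1

theorem lm2_order1 {q : ℕ} {v : Fin q → A} {f : LS A₁} (hf : LS.Intg f)
    (hc : f * vv ι j X Y v = vv ι j X Y v * f) :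
    ∑ l, (ι (v l) * j (Y ^ ((l : ℕ) + 1)) * LS.coeff f 0 - LS.coeff f 0 * (ι (v l) * j (Y ^ ((l : ℕ) + 1))))
      = LS.coeff f 1 * j X - j X * LS.coeff f 1 := by
  have h1 : LS.coeff (f * vv ι j X Y v) 1 = LS.coeff (vv ι j X Y v * f) 1 := by rw [hc]
  rw [LS.coeff_mul_one hf (lm2_vv_intg X Y v), LS.coeff_mul_one (lm2_vv_intg X Y v) hf,
    lm2_vv_coeff0, lm2_vv_coeff1, Finset.mul_sum, Finset.sum_mul] at h1
  rw [Finset.sum_sub_distrib, sub_eq_sub_iff_add_eq_add, add_comm, ← h1, add_comm]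

theorem lm2_tl_wt (h : SymAdm κ ι j m X Y ζ x y) {u : A₁} (hu : Wt κ j X ζ 0 u) (a : A) (k : ℕ) :
    Wt κ j X ζ k (ι a * j (Y ^ k) * u - u * (ι a * j (Y ^ k))) := by
  have h1 := (lm2_wt_ι h a).mul (lm2_wt_Y h k)
  rw [zero_add] at h1
  have h2 := h1.mul hu
  have h3 := hu.mul h1
  rw [add_zero] at h2
  rw [zero_add] at h3
  exact h2.sub h3

theorem lm2_first (h : SymAdm κ ι j m X Y ζ x y) {q : ℕ} (hq : q < m) {v : Fin q → A} {f : LS A₁}
    (hf : LS.Intg f) (hc : f * vv ι j X Y v = vv ι j X Y v * f) (k : Fin m) :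
    (κ ζ ^ (k : ℕ) - 1) • (j X * lm2_pc h k (LS.coeff f 1)) =
      ∑ l : Fin q, if (l : ℕ) + 1 = k then
        (ι (v l) * j (Y ^ ((l : ℕ) + 1)) * LS.coeff f 0 - LS.coeff f 0 * (ι (v l) * j (Y ^ ((l : ℕ) + 1))))
        else 0 := by
  have h1 := congrArg (lm2_pc h k) (lm2_order1 hf hc)
  rw [map_sub, lm2_pc_mulX, lm2_pc_Xmul, map_sum] at h1
  rw [sub_smul, one_smul, ← h1]
  refine Finset.sum_congr rfl fun l _ => ?_
  have h2 := lm2_tl_wt h (lm2_order0 (κ := κ) (ζ := ζ) hf hc) (v l) ((l : ℕ) + 1)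
  have h3 : (l : ℕ) + 1 < m := by have := l.2; omega
  by_cases hk : (l : ℕ) + 1 = k
  · rw [if_pos hk]
    have h4 : k = ⟨(l : ℕ) + 1, h3⟩ := Fin.ext hk.symm
    conv_lhs => rw [h4]
    exact h2.pc_eq h h3
  · rw [if_neg hk]
    exact h2.pc_ne h h3 (fun hh => hk hh.symm)

/-- support of the first order term -/
theorem lm2_supp (h : SymAdm κ ι j m X Y ζ x y) {q : ℕ} (hq : q < m) {v : Fin q → A} {f : LS A₁}
    (hf : LS.Intg f) (hc : f * vv ι j X Y v = vv ι j X Y v * f) (k : Fin m) (hk : q < (k : ℕ)) :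
    lm2_pc h k (LS.coeff f 1) = 0 := by
  have h1 := lm2_first h hq hf hc k
  rw [Finset.sum_eq_zero] at h1
  · have h2 := (smul_eq_zero.1 h1).resolve_left (sub_ne_zero.2 (lm2_pow_ne_one h (by omega) k.2))
    exact (mul_eq_zero.1 h2).resolve_left (lm2_X_ne h)
  · intro l _
    rw [if_neg]
    have := l.2
    omega

/-- LM0, the form needed here -/
theorem lm2_lm0 (h : SymAdm κ ι j m X Y ζ x y) (hp : m.Prime) {q : ℕ} (hq : q < m)
    {F : Subalgebra K A} (hF : ∀ a ∈ F, ∀ b ∈ F, a * b = b * a)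
    {V : Submodule K A} (hVF : V ≤ Subalgebra.toSubmodule F) (hV : V * V = Subalgebra.toSubmodule F)
    (v : Basis (Fin q) K V) {f : LS A₁}
    (hf : LS.Intg f) (hc : f * vv ι j X Y (fun l => (v l : A)) = vv ι j X Y (fun l => (v l : A)) * f)
    (h0 : LS.coeff f 0 ∈ bx ι j (Zs F V)) (h1 : LS.coeff f 1 ∈ bx ι j (Zs F V)) :
    LS.coeff f 0 ∈ bx1 K₁ ι (Zs F V) := by
  classical
  set u := LS.coeff f 0 with hu
  have hw := lm2_order0 (κ := κ) (ζ := ζ) hf hc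
  rw [← hu] at hw
  have hZF : Zs F V ≤ Subalgebra.toSubmodule F := inf_le_left
  -- the terms `t_l`
  have ht : ∀ l : Fin q, ι (v l) * j (Y ^ ((l : ℕ) + 1)) * u - u * (ι (v l) * j (Y ^ ((l : ℕ) + 1)))
      ∈ bx ι j (Zs F V) := by
    intro l
    have hl : (l : ℕ) + 1 < m := by have := l.2; omega
    have h2 := lm2_first h hq hf hc ⟨(l : ℕ) + 1, hl⟩
    rw [Finset.sum_eq_single l] at h2
    · rw [if_pos rfl] at h2
      rw [← h2]
      exact Submodule.smul_mem _ _ (h.j_mul_bx_mem (lm2_pc_mem h _ h1) X)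
    · intro b _ hb
      rw [if_neg]
      intro hh
      refine hb (Fin.ext ?_)
      have h3 : (b : ℕ) + 1 = (l : ℕ) + 1 := hh
      omega
    · intro hb
      exact absurd (Finset.mem_univ _) hb
  -- coordinates
  set η : Fin m → A₁ := fun i => h.cd (lm2_eB h) (i, ⟨0, h.pos⟩) u with hη
  have hηZ : ∀ i, η i ∈ bx1 K₁ ι (Zs F V) := fun i => h.cd_mem _ _ h0
  have hηF : ∀ i, η i ∈ bx1 K₁ ι (Subalgebra.toSubmodule F) := fun i => bx1_mono hZF (hηZ i)
  have hηT : ∀ i, η i ∈ bx1 K₁ ι (⊤ : Submodule K A) := fun i => bx1_mono le_top (hηZ i)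
  have hsum : u = ∑ i : Fin m, η i * j (X ^ (i : ℕ)) := hw.sum0 h
  have hcoord : ∀ (l : Fin q) (i : Fin m),
      (κ ζ ^ ((i : ℕ) * ((l : ℕ) + 1)) - 1) • (ι (v l) * η i) ∈ bx1 K₁ ι (Zs F V) := by
    intro l i
    have hl : (l : ℕ) + 1 < m := by have := l.2; omega
    have h2 : ι (v l) * j (Y ^ ((l : ℕ) + 1)) * u - u * (ι (v l) * j (Y ^ ((l : ℕ) + 1)))
        = ∑ i : Fin m, (κ ζ ^ ((i : ℕ) * ((l : ℕ) + 1)) - 1) •
          ((ι (v l) * η i) * j (X ^ (i : ℕ) * Y ^ ((l : ℕ) + 1))) := by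
      rw [hsum, Finset.mul_sum, Finset.sum_mul, ← Finset.sum_sub_distrib]
      refine Finset.sum_congr rfl fun i _ => ?_
      have e1 : ι (v l) * j (Y ^ ((l : ℕ) + 1)) * (η i * j (X ^ (i : ℕ)))
          = (ι (v l) * η i) * j (Y ^ ((l : ℕ) + 1) * X ^ (i : ℕ)) := by
        rw [map_mul, mul_assoc, ← mul_assoc (j _) (η i), ← h.bx1_comm (hηF i)]
        simp only [mul_assoc]
      have e2 : η i * j (X ^ (i : ℕ)) * (ι (v l) * j (Y ^ ((l : ℕ) + 1)))
          = (ι (v l) * η i) * j (X ^ (i : ℕ) * Y ^ ((l : ℕ) + 1)) := by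
        rw [map_mul, mul_assoc, ← mul_assoc (j _) (ι _), ← h.comm, lm2_comm_bx hF h.toAdm (hVF (v l).2)
          (bx1_le_bx _ (hηF i))]
        simp only [mul_assoc]
      have e3 : Y ^ ((l : ℕ) + 1) * X ^ (i : ℕ)
          = (κ ζ ^ ((i : ℕ) * ((l : ℕ) + 1))) • (X ^ (i : ℕ) * Y ^ ((l : ℕ) + 1)) := by
        induction (i : ℕ) with
        | zero => simp
        | succ i ih =>
          rw [pow_succ X i, ← mul_assoc, ih, smul_mul_assoc, mul_assoc, lm2_YX h, mul_smul_comm, smul_smul,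
            ← mul_assoc, ← pow_add, add_mul, one_mul]
      rw [e1, e2, e3, map_smul, mul_smul_comm, sub_smul, one_smul]
    have h3 := h.cd_mem (lm2_eB h) (i, ⟨(l : ℕ) + 1, hl⟩) (ht l)
    rw [h2, map_sum, Finset.sum_eq_single i] at h3
    · rw [map_smul, ← lm2_eB_apply h (i, ⟨(l : ℕ) + 1, hl⟩), h.cd_mul, (lm2_eB h).repr_self,
        Finsupp.single_eq_same, one_smul] at h3
      · exact h3
      · have h4 := bx1_mul (K₁ := K₁) (ι_mem_bx1 (K₁ := K₁) (ι := ι) (Submodule.mem_top (x := (v l : A)))) (hηT i)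
        exact bx1_mono le_top h4
    · intro b _ hb
      rw [map_smul, ← lm2_eB_apply h (b, ⟨(l : ℕ) + 1, hl⟩), h.cd_mul, (lm2_eB h).repr_self,
        Finsupp.single_apply, if_neg, zero_smul, smul_zero]
      · intro hh
        exact hb (Prod.mk.inj hh).1
      · have h4 := bx1_mul (K₁ := K₁) (ι_mem_bx1 (K₁ := K₁) (ι := ι) (Submodule.mem_top (x := (v l : A)))) (hηT b)
        exact bx1_mono le_top h4
    · intro hb
      exact absurd (Finset.mem_univ _) hb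
  have hzero : ∀ i : Fin m, (i : ℕ) ≠ 0 → η i = 0 := by
    intro i hi
    refine lm2_zero h.toAdm F V hV (bx1_le_bx _ (hηF i)) fun a ha => ?_
    have h2 : a = ∑ l, v.repr ⟨a, ha⟩ l • (v l : A) := by
      have h3 := congrArg (fun w : V => (w : A)) (v.sum_repr ⟨a, ha⟩)
      simp only [Submodule.coe_sum, Submodule.coe_smul] at h3
      exact h3.symm
    rw [h2, map_sum, Finset.sum_mul]
    refine Submodule.sum_mem _ fun l _ => ?_
    rw [h.admf_smul, smul_mul_assoc]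
    refine Submodule.smul_mem _ _ (bx1_le_bx _ ?_)
    have h4 := hcoord l i
    have h5 : κ ζ ^ ((i : ℕ) * ((l : ℕ) + 1)) - 1 ≠ 0 := by
      rw [sub_ne_zero]
      intro h6
      rw [(lm2_prim h).pow_eq_one_iff_dvd, hp.dvd_mul] at h6
      have hl : (l : ℕ) + 1 < m := by have := l.2; omega
      rcases h6 with h6 | h6
      · have := Nat.le_of_dvd (Nat.pos_of_ne_zero hi) h6
        have := i.2
        omega
      · have := Nat.le_of_dvd (by omega) h6
        omega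
    have h6 := Submodule.smul_mem _ (κ ζ ^ ((i : ℕ) * ((l : ℕ) + 1)) - 1)⁻¹ h4
    rwa [smul_smul, inv_mul_cancel₀ h5, one_smul] at h6
  rw [hsum, Finset.sum_eq_single ⟨0, h.pos⟩]
  · rw [pow_zero, map_one, mul_one]
    exact hηZ _
  · intro b _ hb
    rw [hzero b (fun hh => hb (Fin.ext hh)), zero_mul]
  · intro hb
    exact absurd (Finset.mem_univ _) hb

end First

end Vale.Agent.P199K
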