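import Vale.Agent.P199K.LM2B

/-! # P199, section 6: LM2 (good pair), duality (helper78) -/

namespace Vale.Agent.P199K

open Module

set_option linter.unusedSectionVars false
set_option linter.style.haveILetI false

section Dual

variable {K A K₁ E₁ A₁ : Type} [Field K] [CharZero K] [Ring A] [IsDomain A] [Algebra K A]
  [FiniteDimensional K A] [Field K₁] [CharZero K₁] [Ring E₁] [Ring A₁] [IsDomain A₁] [Algebra K₁ E₁] [Algebra K₁ A₁]
  [FiniteDimensional K₁ A₁] {κ : K →+* K₁} {ι : A →+* A₁} {j : E₁ →ₐ[K₁] A₁} {m : ℕ} {X Y : E₁} {ζ : K} {x y : K₁}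

theorem lm2_exists_lift (U : Submodule (LS K₁) (LS A₁)) {a₀ : A₁}
    (ha : ∀ u ∈ U, LS.Intg u → trc K₁ (LS.coeff u 0 * a₀) = 0) :
    ∃ a ∈ perp U, LS.Intg a ∧ LS.coeff a 0 = a₀ := by
  have h1 : a₀ ∈ res (perp U) := by
    rw [lm2_res_perp, mem_perp]
    intro w hw
    obtain ⟨u, hu, hui, rfl⟩ := (mem_res _ _).1 hw
    exact ha u hu hui
  exact (mem_res _ _).1 h1

/-- the algebra `F₁[v]` -/
noncomputable abbrev FF (ι : A →+* A₁) (j : E₁ →ₐ[K₁] A₁) (X Y : E₁) (F : Subalgebra K A) {q : ℕ} (v : Fin q → A) :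
    Subalgebra (LS K₁) (LS A₁) :=
  LG (LS K₁) ((LS.C : A₁ →+* LS A₁).comp ι) F (vv ι j X Y v)

/-- `U ⊠ E₁((τ))` -/
noncomputable abbrev BB (ι : A →+* A₁) (j : E₁ →ₐ[K₁] A₁) (U : Submodule K A) : Submodule (LS K₁) (LS A₁) :=
  bx ((LS.C : A₁ →+* LS A₁).comp ι) (lsj j) U

theorem lm2_K1 (h : SymAdm κ ι j m X Y ζ x y) (hp : m.Prime) {q : ℕ} (hq : q < m)
    {F : Subalgebra K A} (hF : ∀ a ∈ F, ∀ b ∈ F, a * b = b * a)
    {V : Submodule K A} (h1 : (1 : A) ∈ V) (hVF : V ≤ Subalgebra.toSubmodule F)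
    (hV : V * V = Subalgebra.toSubmodule F) (v : Basis (Fin q) K V)
    {k : ℕ} (hk1 : 0 < k) (hk : k + q < m) {a₀ : A₁} (ha : a₀ ∈ bx ι j V) (haw : Wt κ j X ζ k a₀) (N : ℕ) :
    ∀ b f : LS A₁, b ∈ perp (BB ι j V) → f ∈ FF ι j X Y F (fun l => (v l : A)) → LS.Intg (b + f) →
      LS.Intg (LS.tp (N : ℤ) * f) → trc K₁ (LS.coeff (b + f) 0 * a₀) = 0 := by
  classical
  have h' := lm2_adm h.toAdm
  have hgV : vv ι j X Y (fun l => (v l : A)) ∈ BB ι j V := lm2_vv_mem X Y V h1 _ fun l => (v l).2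
  have hgF : vv ι j X Y (fun l => (v l : A)) ∈ BB ι j (Subalgebra.toSubmodule F) := bx_mono hVF hgV
  have hb0 : ∀ b : LS A₁, b ∈ perp (BB ι j V) → trc K₁ (LS.coeff b 0 * a₀) = 0 := by
    intro b hb
    rw [tr_mul_comm]
    exact mem_perp.1 (lm2_coeff_perp hb 0) a₀ ha
  have htp : ∀ (n : ℤ) (f : LS A₁), f ∈ FF ι j X Y F (fun l => (v l : A)) →
      LS.tp n * f ∈ FF ι j X Y F (fun l => (v l : A)) := by
    intro n f hf
    have h2 := Subalgebra.smul_mem _ hf (LS.tp n : LS K₁)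
    rwa [LS.smul_def, LS.map_tp] at h2
  induction N with
  | zero =>
    intro b f hb hf hbf hfi
    rw [Nat.cast_zero, LS.tp_zero, one_mul] at hfi
    rw [LS.coeff_add, add_mul, map_add, hb0 b hb, zero_add]
    have h2 := lm2_order0 (κ := κ) (ζ := ζ) hfi (lm2_LG_comm h' hF hgF hf)
    exact lm2_trc_wt h h2 haw (by rw [zero_add]; exact lm2_pow_ne_one h hk1 (by omega))
  | succ N ih =>
    rcases Nat.eq_zero_or_pos N with rfl | hN
    · intro b f hb hf hbf hfi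
      rw [LS.coeff_add, add_mul, map_add, hb0 b hb, zero_add]
      have hfi : LS.Intg (LS.tp 1 * f) := by simpa using hfi
      have h2 : LS.coeff f 0 = LS.coeff (LS.tp 1 * f) 1 := by
        rw [LS.coeff_tp_mul, sub_self]
      have hc := lm2_LG_comm h' hF hgF (htp 1 f hf)
      rw [h2, ← lm2_sum_pc h (LS.coeff (LS.tp 1 * f) 1), Finset.sum_mul, map_sum]
      refine Finset.sum_eq_zero fun l _ => ?_
      by_cases hl : q < (l : ℕ)
      · rw [lm2_supp h hq hfi hc l hl, zero_mul, map_zero]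
      · refine lm2_trc_wt h (lm2_pc_wt h l _) haw (lm2_pow_ne_one h (by omega) (by omega))
    · intro b f hb hf hbf hfi
      have hfn : ∀ n : ℤ, LS.coeff f n = LS.coeff (LS.tp ((N + 1 : ℕ) : ℤ) * f) (n + (N + 1 : ℕ)) := by
        intro n
        rw [LS.coeff_tp_mul, add_sub_cancel_right]
      set f' := LS.tp ((N + 1 : ℕ) : ℤ) * f with hf'
      have hf'F := htp ((N + 1 : ℕ) : ℤ) f hf
      rw [← hf'] at hf'F
      have hc := lm2_LG_comm h' hF hgF hf'F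
      have hZ : ∀ n : ℤ, n < (N + 1 : ℕ) → LS.coeff f' n ∈ bx ι j (Zs F V) := by
        intro n hn
        refine lm2_mem_Z h.toAdm F V (lm2_coeff_bx (lm2_LG_le h' F hgF hf'F) n) ?_
        have h3 := hbf (n - (N + 1 : ℕ)) (by omega)
        rw [LS.coeff_add, hfn, sub_add_cancel] at h3
        rw [← neg_eq_of_add_eq_zero_right h3]
        exact Submodule.neg_mem _ (lm2_coeff_perp hb _)
      have h0 := lm2_lm0 h hp hq hF hVF hV v hfi hc (hZ 0 (by positivity)) (hZ 1 (by push_cast; omega))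
      set η := LS.coeff f' 0 with hη
      have hcF : (LS.C η : LS A₁) ∈ FF ι j X Y F (fun l => (v l : A)) :=
        lm2_bx1_LG (U := Zs F V) inf_le_left _ (lm2_C_bx1 h0)
      have hcV : (LS.C η : LS A₁) ∈ perp (BB ι j V) := by
        rw [lm2_perp_bx h']
        exact bx_mono (inf_le_right) (lm2_C_bx (bx1_le_bx _ h0))
      have h4 := ih (b + LS.tp (-((N + 1 : ℕ) : ℤ)) * LS.C η) (f - LS.tp (-((N + 1 : ℕ) : ℤ)) * LS.C η) ?_
        (Subalgebra.sub_mem _ hf (htp _ _ hcF)) (by rwa [add_add_sub_cancel]) ?_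
      · rwa [add_add_sub_cancel] at h4
      · refine Submodule.add_mem _ hb ?_
        have h2 := Submodule.smul_mem _ (LS.tp (-((N + 1 : ℕ) : ℤ)) : LS K₁) hcV
        rwa [LS.smul_def, LS.map_tp] at h2
      · intro n hn
        rw [LS.coeff_tp_mul, LS.coeff_sub, LS.coeff_tp_mul, hfn]
        have e1 : n - (N : ℤ) + (N + 1 : ℕ) = n + 1 := by push_cast; ring
        have e2 : n - (N : ℤ) - -((N + 1 : ℕ) : ℤ) = n + 1 := by push_cast; ring
        rw [e1, e2, LS.coeff_C]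
        by_cases hn1 : n + 1 = 0
        · rw [if_pos hn1, hn1, ← hη, sub_self]
        · rw [if_neg hn1, hfi _ (by omega), sub_zero]

/-- K2 with additional conditions: `a₀` lifts to `perp (perp BV ⊔ F₁[v])` -/
theorem lm2_K2 (h : SymAdm κ ι j m X Y ζ x y) (hp : m.Prime) {q : ℕ} (hq : q < m)
    {F : Subalgebra K A} (hF : ∀ a ∈ F, ∀ b ∈ F, a * b = b * a)
    {V : Submodule K A} (h1 : (1 : A) ∈ V) (hVF : V ≤ Subalgebra.toSubmodule F)
    (hV : V * V = Subalgebra.toSubmodule F) (v : Basis (Fin q) K V)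
    {k : ℕ} (hk1 : 0 < k) (hk : k + q < m) {a₀ : A₁} (ha : a₀ ∈ bx ι j V) (haw : Wt κ j X ζ k a₀) :
    ∃ a ∈ BB ι j V ⊓ perp (Subalgebra.toSubmodule (FF ι j X Y F (fun l => (v l : A)))),
      LS.Intg a ∧ LS.coeff a 0 = a₀ := by
  have hl : ∀ u ∈ perp (BB ι j V) ⊔ Subalgebra.toSubmodule (FF ι j X Y F (fun l => (v l : A))),
      LS.Intg u → trc K₁ (LS.coeff u 0 * a₀) = 0 := by
    intro u hu hui
    obtain ⟨b, hb, f, hf, rfl⟩ := Submodule.mem_sup.1 hu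
    obtain ⟨N, hN⟩ := LS.exists_tp_mul_int f
    exact lm2_K1 h hp hq hF h1 hVF hV v hk1 hk ha haw N b f hb hf hui hN
  obtain ⟨a, ha1, ha2, ha3⟩ := lm2_exists_lift _ hl
  refine ⟨a, ?_, ha2, ha3⟩
  rwa [lm2_perp_sup, perp_perp] at ha1

/-- residues of elements of `F₁[v] ⊓ perp (V ⊠ E₁)` -/
theorem lm2_resZ (h : SymAdm κ ι j m X Y ζ x y) (hp : m.Prime) {q : ℕ} (hq : q < m)
    {F : Subalgebra K A} (hF : ∀ a ∈ F, ∀ b ∈ F, a * b = b * a)
    {V : Submodule K A} (h1 : (1 : A) ∈ V) (hVF : V ≤ Subalgebra.toSubmodule F)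
    (hV : V * V = Subalgebra.toSubmodule F) (v : Basis (Fin q) K V) {z : LS A₁}
    (hz : z ∈ FF ι j X Y F (fun l => (v l : A))) (hzV : z ∈ perp (BB ι j V)) (hzi : LS.Intg z) :
    LS.coeff z 0 ∈ bx1 K₁ ι (Zs F V) := by
  have h' := lm2_adm h.toAdm
  have hgV : vv ι j X Y (fun l => (v l : A)) ∈ BB ι j V := lm2_vv_mem X Y V h1 _ fun l => (v l).2
  have hgF : vv ι j X Y (fun l => (v l : A)) ∈ BB ι j (Subalgebra.toSubmodule F) := bx_mono hVF hgV
  have hc := lm2_LG_comm h' hF hgF hz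
  have hZ : ∀ n : ℤ, LS.coeff z n ∈ bx ι j (Zs F V) := fun n =>
    lm2_mem_Z h.toAdm F V (lm2_coeff_bx (lm2_LG_le h' F hgF hz) n) (lm2_coeff_perp hzV n)
  exact lm2_lm0 h hp hq hF hVF hV v hzi hc (hZ 0) (hZ 1)

/-- an element of `F ⊠ E₁` orthogonal to `F ⊠ K(X)` is a commutator with `X` -/
theorem lm2_F6res (h : SymAdm κ ι j m X Y ζ x y) (F : Subalgebra K A) {d : A₁}
    (hd : d ∈ bx ι j (Subalgebra.toSubmodule F))
    (hdp : ∀ l ∈ F, ∀ i : ℕ, trc K₁ (ι l * j (X ^ i) * d) = 0) :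
    ∃ γ ∈ bx ι j (Subalgebra.toSubmodule F), d = γ * j X - j X * γ := by
  classical
  have h1 : ∀ η ∈ bx1 K₁ ι (Subalgebra.toSubmodule F), ∀ i : ℕ, trc K₁ (η * j (X ^ i) * d) = 0 := by
    intro η hη i
    refine Submodule.span_induction (p := fun η _ => trc K₁ (η * j (X ^ i) * d) = 0) ?_ ?_ ?_ ?_ hη
    · rintro _ ⟨u, hu, rfl⟩
      exact hdp u hu i
    · rw [zero_mul, zero_mul, map_zero]
    · intro a b _ _ ha hb
      rw [add_mul, add_mul, map_add, ha, hb, add_zero]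
    · intro c a _ ha
      rw [smul_mul_assoc, smul_mul_assoc, map_smul, ha, smul_zero]
  have h2 : lm2_pc h ⟨0, h.pos⟩ d = 0 := by
    refine lm2_bx_perp_F h.toAdm F (lm2_pc_mem h _ hd) ?_
    rw [mem_perp]
    intro w hw
    have e1 : trc K₁ (w * lm2_pc h ⟨0, h.pos⟩ d)
        = trc K₁ (lm2_pc h ⟨0, h.pos⟩ w * lm2_pc h ⟨0, h.pos⟩ d) := by
      conv_lhs => rw [← lm2_sum_pc h w, Finset.sum_mul, map_sum]
      refine Finset.sum_eq_single _ (fun k _ hk => ?_) (fun hk => absurd (Finset.mem_univ _) hk)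
      refine lm2_trc_wt h (lm2_pc_wt h k w) (lm2_pc_wt h ⟨0, h.pos⟩ d) ?_
      exact lm2_pow_ne_one h (Nat.pos_of_ne_zero fun hh => hk (Fin.ext (by simpa using hh))) (by simp)
    have e2 : trc K₁ (lm2_pc h ⟨0, h.pos⟩ w * d)
        = trc K₁ (lm2_pc h ⟨0, h.pos⟩ w * lm2_pc h ⟨0, h.pos⟩ d) := by
      conv_lhs => rw [← lm2_sum_pc h d, Finset.mul_sum, map_sum]
      refine Finset.sum_eq_single _ (fun k _ hk => ?_) (fun hk => absurd (Finset.mem_univ _) hk)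
      refine lm2_trc_wt h (lm2_pc_wt h ⟨0, h.pos⟩ w) (lm2_pc_wt h k d) ?_
      exact lm2_pow_ne_one h (Nat.pos_of_ne_zero fun hh => hk (Fin.ext (by simpa using hh))) (by simp)
    rw [e1, ← e2, lm2_pc_apply, Finset.sum_mul, map_sum]
    refine Finset.sum_eq_zero fun i _ => ?_
    rw [pow_zero, mul_one]
    exact h1 _ (h.cd_mem _ _ hw) _
  set X' := j ((x⁻¹) • X ^ (m - 1)) with hX'
  refine ⟨∑ k : Fin m, (κ ζ ^ (k : ℕ) - 1)⁻¹ • (X' * lm2_pc h k d), ?_, ?_⟩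
  · exact Submodule.sum_mem _ fun k _ => Submodule.smul_mem _ _ (h.j_mul_bx_mem (lm2_pc_mem h k hd) _)
  · rw [Finset.sum_mul, Finset.mul_sum, ← Finset.sum_sub_distrib]
    conv_lhs => rw [← lm2_sum_pc h d]
    refine Finset.sum_congr rfl fun k _ => ?_
    have e1 : (κ ζ ^ (k : ℕ) - 1)⁻¹ • (X' * lm2_pc h k d) * j X
        = ((κ ζ ^ (k : ℕ) - 1)⁻¹ * κ ζ ^ (k : ℕ)) • lm2_pc h k d := by
      rw [smul_mul_assoc, mul_assoc, lm2_pc_wt h k d, mul_smul_comm, ← mul_assoc, (lm2_Xinv h).1, one_mul,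
        smul_smul]
    have e2 : j X * ((κ ζ ^ (k : ℕ) - 1)⁻¹ • (X' * lm2_pc h k d))
        = ((κ ζ ^ (k : ℕ) - 1)⁻¹) • lm2_pc h k d := by
      rw [mul_smul_comm, ← mul_assoc, (lm2_Xinv h).2, one_mul]
    rw [e1, e2, ← sub_smul, ← mul_sub_one]
    by_cases hk : (k : ℕ) = 0
    · have h3 : k = ⟨0, h.pos⟩ := Fin.ext hk
      rw [h3, h2, smul_zero]
    · rw [inv_mul_cancel₀ (sub_ne_zero.2 (lm2_pow_ne_one h (Nat.pos_of_ne_zero hk) k.2)), one_smul]

theorem lm2_trc_comm {R : Type} {S : Type} [Field R] [Ring S] [Algebra R S] (f g γ : S) (hfg : f * g = g * f) :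
    trc R (f * (γ * g - g * γ)) = 0 := by
  rw [mul_sub, map_sub, ← mul_assoc, tr_mul_comm (f * γ) g, ← mul_assoc, ← mul_assoc, hfg, sub_self]

/-- F6 -/
theorem lm2_F6 (h : SymAdm κ ι j m X Y ζ x y) {q : ℕ}
    {F : Subalgebra K A} (hF : ∀ a ∈ F, ∀ b ∈ F, a * b = b * a)
    {V : Submodule K A} (h1 : (1 : A) ∈ V) (hVF : V ≤ Subalgebra.toSubmodule F)
    (v : Basis (Fin q) K V) {d : LS A₁} (hd : d ∈ BB ι j (Subalgebra.toSubmodule F))
    (hdp : d ∈ perp (Subalgebra.toSubmodule (FF ι j X Y F (fun l => (v l : A))))) (hdi : LS.Intg d) :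
    ∃ γ ∈ BB ι j (Subalgebra.toSubmodule F), LS.Intg γ ∧
      d = γ * vv ι j X Y (fun l => (v l : A)) - vv ι j X Y (fun l => (v l : A)) * γ := by
  classical
  have h' := lm2_adm h.toAdm
  set g := vv ι j X Y (fun l => (v l : A)) with hg
  have hgV : g ∈ BB ι j V := lm2_vv_mem X Y V h1 _ fun l => (v l).2
  have hgF : g ∈ BB ι j (Subalgebra.toSubmodule F) := bx_mono hVF hgV
  have hgi : LS.Intg g := lm2_vv_intg X Y _
  have hg0 : LS.coeff g 0 = j X := lm2_vv_coeff0 X Y _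
  let B := finBasis K₁ (bx ι j (Subalgebra.toSubmodule F))
  set u : Fin (finrank K₁ (bx ι j (Subalgebra.toSubmodule F))) → LS A₁ :=
    fun i => LS.C (B i : A₁) * g - g * LS.C (B i : A₁) with hu
  have hCB : ∀ i, (LS.C (B i : A₁) : LS A₁) ∈ BB ι j (Subalgebra.toSubmodule F) := fun i =>
    lm2_C_bx (B i).2
  obtain ⟨c, hc, hdc⟩ := (rsLS K₁ A₁).exists_sum
    (U := BB ι j (Subalgebra.toSubmodule F) ⊓ perp (Subalgebra.toSubmodule (FF ι j X Y F (fun l => (v l : A)))))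
    u (fun i => ⟨Submodule.sub_mem _ (lm2_bx_mul_F h' F (hCB i) hgF) (lm2_bx_mul_F h' F hgF (hCB i)), by
      show u i ∈ perp _
      rw [mem_perp]
      intro f hf
      exact lm2_trc_comm f g _ (lm2_LG_comm h' hF hgF hf)⟩)
    (fun i => LS.Intg.sub ((LS.Intg.C _).mul hgi) (hgi.mul (LS.Intg.C _)))
    (by
      rintro _ ⟨d', ⟨hd'F, hd'p⟩, hd'i, rfl⟩
      rw [rsLS_res]
      obtain ⟨γ, hγ, hdγ⟩ := lm2_F6res h F (lm2_coeff_bx hd'F 0) (by
        intro l hl i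
        have h2 : ((LS.C : A₁ →+* LS A₁).comp ι) l * g ^ i ∈ FF ι j X Y F (fun l => (v l : A)) :=
          Subalgebra.mul_mem _ (Algebra.subset_adjoin (Set.mem_union_left _ ⟨l, hl, rfl⟩))
            (Subalgebra.pow_mem _ (Algebra.subset_adjoin (Set.mem_union_right _ (Set.mem_singleton _))) _)
        have h3 : LS.coeff (trc (LS K₁) (((LS.C : A₁ →+* LS A₁).comp ι) l * g ^ i * d')) 0 = 0 := by
          rw [mem_perp.1 hd'p _ h2, LS.coeff_zero]
        rw [coeff_trc, RingHom.comp_apply, LS.coeff_mul_zero (((LS.Intg.C _).mul (hgi.pow i))) hd'i,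
          LS.coeff_C_mul, LS.coeff_pow_zero hgi, hg0, ← map_pow] at h3
        exact h3)
      have h4 : γ = ∑ i, B.repr ⟨γ, hγ⟩ i • (B i : A₁) := by
        have h5 := congrArg (fun w : bx ι j (Subalgebra.toSubmodule F) => (w : A₁)) (B.sum_repr ⟨γ, hγ⟩)
        simp only [Submodule.coe_sum, Submodule.coe_smul] at h5
        exact h5.symm
      rw [hdγ, h4, Finset.sum_mul, Finset.mul_sum, ← Finset.sum_sub_distrib]
      refine Submodule.sum_mem _ fun i _ => ?_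
      rw [smul_mul_assoc, mul_smul_comm, ← smul_sub]
      refine Submodule.smul_mem _ _ (Submodule.subset_span ⟨i, ?_⟩)
      simp only [hu]
      rw [rsLS_res, LS.coeff_sub, LS.coeff_C_mul, LS.coeff_mul_C, hg0])
    ⟨hd, hdp⟩ hdi
  refine ⟨∑ i, c i • LS.C (B i : A₁), Submodule.sum_mem _ fun i _ => Submodule.smul_mem _ _ (hCB i), ?_, ?_⟩
  · refine LS.Intg.sum fun i _ => ?_
    rw [LS.smul_def]
    exact (LS.Intg.map (hc i)).mul (LS.Intg.C _)
  · rw [hdc, Finset.sum_mul, Finset.mul_sum, ← Finset.sum_sub_distrib]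
    refine Finset.sum_congr rfl fun i _ => ?_
    rw [smul_mul_assoc, mul_smul_comm, ← smul_sub]

end Dual

end Vale.Agent.P199K
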