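import Vale.Agent.P199K.LM2C

/-! # P199, section 6: LM2 (good pair), the proof (helper78) -/

namespace Vale.Agent.P199K

open Module

set_option linter.unusedSectionVars false
set_option linter.style.haveILetI false

section Pair

variable {K A K₁ E₁ A₁ : Type} [Field K] [CharZero K] [Ring A] [IsDomain A] [Algebra K A]
  [FiniteDimensional K A] [Field K₁] [CharZero K₁] [Ring E₁] [Ring A₁] [IsDomain A₁] [Algebra K₁ E₁] [Algebra K₁ A₁]
  [FiniteDimensional K₁ A₁] {κ : K →+* K₁} {ι : A →+* A₁} {j : E₁ →ₐ[K₁] A₁} {m : ℕ} {X Y : E₁} {ζ : K} {x y : K₁}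

/-- `c = ∑ v_l X^l` -/
noncomputable def lm2_cc (ι : A →+* A₁) (j : E₁ →ₐ[K₁] A₁) (X : E₁) {q : ℕ} (v : Fin q → A) : A₁ :=
  ∑ l : Fin q, ι (v l) * j (X ^ (l : ℕ))

theorem lm2_cc_mem (X : E₁) {q : ℕ} {V : Submodule K A} {v : Fin q → A} (hv : ∀ l, v l ∈ V) :
    lm2_cc ι j X v ∈ bx ι j V :=
  Submodule.sum_mem _ fun l _ => mul_mem_bx (hv l) _

theorem lm2_cc_wt (h : SymAdm κ ι j m X Y ζ x y) {q : ℕ} (v : Fin q → A) :
    Wt κ j X ζ 0 (lm2_cc ι j X v) := by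
  refine Wt.sum _ fun l _ => ?_
  have h1 := (lm2_wt_ι h (v l)).mul (lm2_wt_X h (l : ℕ))
  rwa [zero_add] at h1

theorem lm2_gam_pc (h : SymAdm κ ι j m X Y ζ x y) {q : ℕ} {v : Fin q → A} {i : ℕ} (hi : i < m) {γ : A₁}
    (hγ : γ * j X - j X * γ = lm2_cc ι j X v * j (Y ^ i)) (k : Fin m) :
    (κ ζ ^ (k : ℕ) - 1) • (j X * lm2_pc h k γ) =
      if (k : ℕ) = i then lm2_cc ι j X v * j (Y ^ i) else 0 := by
  have h1 := congrArg (lm2_pc h k) hγ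
  rw [map_sub, lm2_pc_mulX, lm2_pc_Xmul] at h1
  rw [sub_smul, one_smul, h1]
  have h2 := (lm2_cc_wt h v).mul (lm2_wt_Y h i)
  rw [zero_add] at h2
  by_cases hk : (k : ℕ) = i
  · rw [if_pos hk]
    have h4 : k = ⟨i, hi⟩ := Fin.ext hk
    rw [h4]
    exact h2.pc_eq h hi
  · rw [if_neg hk]
    exact h2.pc_ne h hi hk

theorem lm2_gam_ne (h : SymAdm κ ι j m X Y ζ x y) {q : ℕ} {v : Fin q → A} {i : ℕ} (hi : i < m) {γ : A₁}
    (hγ : γ * j X - j X * γ = lm2_cc ι j X v * j (Y ^ i)) {k : Fin m} (hk : (k : ℕ) ≠ i) (hk0 : (k : ℕ) ≠ 0) :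
    lm2_pc h k γ = 0 := by
  have h1 := lm2_gam_pc h hi hγ k
  rw [if_neg hk] at h1
  have h2 := (smul_eq_zero.1 h1).resolve_left
    (sub_ne_zero.2 (lm2_pow_ne_one h (Nat.pos_of_ne_zero hk0) k.2))
  exact (mul_eq_zero.1 h2).resolve_left (lm2_X_ne h)

/-- K3 -/
theorem lm2_K3 (h : SymAdm κ ι j m X Y ζ x y) {q : ℕ} {v : Fin q → A} {i : ℕ} (hi : i < m) {γ : A₁}
    (hγ : γ * j X - j X * γ = lm2_cc ι j X v * j (Y ^ i)) {k : ℕ} (hk0 : 0 < k) (hk : k < m)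
    (hik : κ ζ ^ (i + k) ≠ 1) {z₀ a₀ : A₁} (hz : Wt κ j X ζ 0 z₀) (ha : Wt κ j X ζ k a₀) :
    trc K₁ (z₀ * γ * a₀) = 0 := by
  classical
  rw [← lm2_sum_pc h γ, Finset.mul_sum, Finset.sum_mul, map_sum]
  refine Finset.sum_eq_zero fun l _ => ?_
  have h1 := hz.mul (lm2_pc_wt h l γ)
  rw [zero_add] at h1
  by_cases hl : (l : ℕ) = i
  · exact lm2_trc_wt h h1 ha (by rw [hl]; exact hik)
  · by_cases hl0 : (l : ℕ) = 0
    · exact lm2_trc_wt h h1 ha (by rw [hl0, zero_add]; exact lm2_pow_ne_one h hk0 hk)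
    · rw [lm2_gam_ne h hi hγ hl hl0, mul_zero, zero_mul, map_zero]

/-- K4 -/
theorem lm2_K4 (h : SymAdm κ ι j m X Y ζ x y) {q : ℕ} (hq : q ≤ m)
    {F : Subalgebra K A} (hF : ∀ a ∈ F, ∀ b ∈ F, a * b = b * a)
    {V : Submodule K A} (hVF : V ≤ Subalgebra.toSubmodule F)
    (hV : V * V = Subalgebra.toSubmodule F) (v : Basis (Fin q) K V) {i : ℕ} (hi0 : 0 < i) (hi : i < m) {γ : A₁}
    (hγ : γ * j X - j X * γ = lm2_cc ι j X (fun l => (v l : A)) * j (Y ^ i)) {z₀ : A₁}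
    (hz : z₀ ∈ bx1 K₁ ι (Zs F V))
    (hT : ∀ a₀ ∈ bx ι j V, Wt κ j X ζ (m - i) a₀ → trc K₁ (z₀ * γ * a₀) = 0) : z₀ = 0 := by
  classical
  set c := lm2_cc ι j X (fun l => (v l : A)) with hc
  have hcV : c ∈ bx ι j V := lm2_cc_mem X fun l => (v l).2
  have hcw : Wt κ j X ζ 0 c := lm2_cc_wt h _
  have hz0 : Wt κ j X ζ 0 z₀ := lm2_wt_bx1 h hz
  have hzF : z₀ ∈ bx1 K₁ ι (Subalgebra.toSubmodule F) := bx1_mono inf_le_left hz
  have hzT : z₀ ∈ bx1 K₁ ι (⊤ : Submodule K A) := bx1_mono le_top hz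
  -- weight zero test elements
  have h1 : ∀ b ∈ bx ι j V, Wt κ j X ζ 0 b → trc K₁ (z₀ * c * b) = 0 := by
    intro b hb hbw
    have h2 := hT (j (Y ^ (m - i)) * (j X * b)) (h.j_mul_bx_mem (h.j_mul_bx_mem hb _) _) (by
      have h3 := (lm2_wt_Y h (m - i)).mul ((wt_of_comm (κ := κ) (ζ := ζ) (u := j X) rfl).mul hbw)
      simpa using h3)
    -- only the component of weight `i` matters
    set P := lm2_pc h ⟨i, hi⟩ γ with hP
    have h3 : trc K₁ (z₀ * γ * (j (Y ^ (m - i)) * (j X * b)))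
        = trc K₁ (z₀ * P * (j (Y ^ (m - i)) * (j X * b))) := by
      conv_lhs => rw [← lm2_sum_pc h γ, Finset.mul_sum, Finset.sum_mul, map_sum]
      refine Finset.sum_eq_single _ (fun k _ hk => ?_) (fun hk => absurd (Finset.mem_univ _) hk)
      have hki : (k : ℕ) ≠ i := fun hh => hk (Fin.ext hh)
      by_cases hk0 : (k : ℕ) = 0
      · have e1 := hz0.mul (lm2_pc_wt h k γ)
        have e2 := (lm2_wt_Y h (m - i)).mul ((wt_of_comm (κ := κ) (ζ := ζ) (u := j X) rfl).mul hbw)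
        refine lm2_trc_wt h e1 e2 ?_
        rw [hk0]
        simp only [zero_add, add_zero]
        exact lm2_pow_ne_one h (by omega) (by omega)
      · rw [lm2_gam_ne h hi hγ hki hk0, mul_zero, zero_mul, map_zero]
    rw [h3] at h2
    -- move `X` in front of `P`
    have hPw : Wt κ j X ζ i P := lm2_pc_wt h ⟨i, hi⟩ γ
    have hPY : P * j (Y ^ (m - i)) * j X = j X * (P * j (Y ^ (m - i))) := by
      have e1 := hPw.mul (lm2_wt_Y h (m - i))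
      have e2 : i + (m - i) = m := by omega
      rw [Wt, e2, (lm2_prim h).pow_eq_one, one_smul] at e1
      exact e1
    have h4 : z₀ * P * (j (Y ^ (m - i)) * (j X * b)) = z₀ * (j X * P) * j (Y ^ (m - i)) * b := by
      calc z₀ * P * (j (Y ^ (m - i)) * (j X * b)) = z₀ * (P * j (Y ^ (m - i)) * j X) * b := by
            simp only [mul_assoc]
        _ = z₀ * (j X * P) * j (Y ^ (m - i)) * b := by
            rw [hPY]; simp only [mul_assoc]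
    rw [h4] at h2
    have h5 := lm2_gam_pc h hi hγ ⟨i, hi⟩
    rw [if_pos rfl, ← hP] at h5
    have h6 : (κ ζ ^ i - 1) • (z₀ * (j X * P) * j (Y ^ (m - i)) * b) = y • (z₀ * c * b) := by
      have e1 : (κ ζ ^ i - 1) • (z₀ * (j X * P) * j (Y ^ (m - i)) * b)
          = z₀ * ((κ ζ ^ i - 1) • (j X * P)) * j (Y ^ (m - i)) * b := by
        rw [mul_smul_comm, smul_mul_assoc, smul_mul_assoc]
      have e2 : j (Y ^ i) * j (Y ^ (m - i)) = algebraMap K₁ A₁ y := by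
        rw [← map_mul, ← pow_add, show i + (m - i) = m by omega, h.Ym, AlgHom.commutes]
      rw [e1]
      have e3 : (κ ζ ^ i - 1) • (j X * P) = c * j (Y ^ i) := h5
      rw [e3, mul_assoc z₀ (c * j (Y ^ i)), mul_assoc c, e2, ← Algebra.commutes, ← Algebra.smul_def,
        mul_smul_comm, smul_mul_assoc]
    have h7 : y • trc K₁ (z₀ * c * b) = 0 := by
      rw [← map_smul, ← h6, map_smul, h2, smul_zero]
    exact (smul_eq_zero.1 h7).resolve_left h.y0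
  -- all test elements
  have h2 : z₀ * c ∈ perp (bx ι j V) := by
    rw [mem_perp]
    intro b hb
    rw [tr_mul_comm, ← lm2_sum_pc h b, Finset.mul_sum, map_sum]
    refine Finset.sum_eq_zero fun k _ => ?_
    by_cases hk0 : (k : ℕ) = 0
    · have e1 := lm2_pc_wt h k b
      rw [hk0] at e1
      exact h1 _ (lm2_pc_mem h k hb) e1
    · refine lm2_trc_wt h (hz0.mul hcw) (lm2_pc_wt h k b) ?_
      rw [zero_add, zero_add]
      exact lm2_pow_ne_one h (Nat.pos_of_ne_zero hk0) k.2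
  have h3 : z₀ * c ∈ bx ι j (Zs F V) :=
    lm2_mem_Z h.toAdm F V (lm2_bx_mul_F h.toAdm F (bx1_le_bx _ hzF) (bx_mono hVF hcV)) h2
  have h4 : ∀ l : Fin q, z₀ * ι (v l) ∈ bx1 K₁ ι (Zs F V) := by
    intro l
    have hl : (l : ℕ) < m := lt_of_lt_of_le l.2 hq
    have h5 := h.cd_mem (lm2_eB h) (⟨l, hl⟩, ⟨0, h.pos⟩) h3
    have hzv : ∀ l' : Fin q, z₀ * ι (v l') ∈ bx1 K₁ ι (⊤ : Submodule K A) := fun l' =>
      bx1_mono le_top (bx1_mul hzT (ι_mem_bx1 (K₁ := K₁) (ι := ι) (Submodule.mem_top (x := (v l' : A)))))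
    have e1 : z₀ * c = ∑ l' : Fin q, (z₀ * ι (v l')) * j (X ^ (l' : ℕ) * Y ^ 0) := by
      rw [hc, lm2_cc, Finset.mul_sum]
      refine Finset.sum_congr rfl fun l' _ => ?_
      rw [pow_zero, mul_one, mul_assoc]
    rw [e1, map_sum, Finset.sum_eq_single l] at h5
    · have e2 : X ^ (l : ℕ) * Y ^ 0 = lm2_eB h (⟨l, hl⟩, ⟨0, h.pos⟩) := by rw [lm2_eB_apply]
      rw [e2, h.cd_mul _ _ (hzv l), (lm2_eB h).repr_self, Finsupp.single_eq_same, one_smul] at h5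
      exact h5
    · intro b _ hb
      have hbm : (b : ℕ) < m := lt_of_lt_of_le b.2 hq
      have e2 : X ^ (b : ℕ) * Y ^ 0 = lm2_eB h (⟨b, hbm⟩, ⟨0, h.pos⟩) := by rw [lm2_eB_apply]
      rw [e2, h.cd_mul _ _ (hzv b), (lm2_eB h).repr_self, Finsupp.single_apply, if_neg, zero_smul]
      intro hh
      have e3 := (Prod.mk.inj hh).1
      exact hb (Fin.ext (by simpa using e3))
    · intro hb
      exact absurd (Finset.mem_univ _) hb
  refine lm2_zero h.toAdm F V hV (bx1_le_bx _ hzF) fun a ha => ?_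
  have h5 : a = ∑ l, v.repr ⟨a, ha⟩ l • (v l : A) := by
    have h6 := congrArg (fun w : V => (w : A)) (v.sum_repr ⟨a, ha⟩)
    simp only [Submodule.coe_sum, Submodule.coe_smul] at h6
    exact h6.symm
  rw [h5, map_sum, Finset.sum_mul]
  refine Submodule.sum_mem _ fun l _ => ?_
  rw [h.admf_smul, smul_mul_assoc, lm2_comm_bx hF h.toAdm (hVF (v l).2) (bx1_le_bx _ hzF)]
  exact Submodule.smul_mem _ _ (bx1_le_bx _ (h4 l))

end Pair

section Main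

variable {K A K₁ E₁ A₁ : Type} [Field K] [CharZero K] [Ring A] [IsDomain A] [Algebra K A]
  [FiniteDimensional K A] [Field K₁] [CharZero K₁] [Ring E₁] [Ring A₁] [IsDomain A₁] [Algebra K₁ E₁] [Algebra K₁ A₁]
  [FiniteDimensional K₁ A₁] {κ : K →+* K₁} {ι : A →+* A₁} {j : E₁ →ₐ[K₁] A₁} {m : ℕ} {X Y : E₁} {ζ : K} {x y : K₁}

theorem lm2_tp_mem (U : Submodule (LS K₁) (LS A₁)) (n : ℤ) {f : LS A₁} (hf : f ∈ U) : LS.tp n * f ∈ U := by
  have h2 := U.smul_mem (LS.tp n : LS K₁) hf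
  rwa [LS.smul_def, LS.map_tp] at h2

/-- the spaces `Z'` -/
noncomputable abbrev ZZ (ι : A →+* A₁) (j : E₁ →ₐ[K₁] A₁) (X Y : E₁) (F : Subalgebra K A) (V : Submodule K A)
    {q : ℕ} (v : Fin q → A) : Submodule (LS K₁) (LS A₁) :=
  Subalgebra.toSubmodule (FF ι j X Y F v) ⊓ perp (BB ι j V)

theorem lm2_zg (h : SymAdm κ ι j m X Y ζ x y) (hp : m.Prime) {q : ℕ} (hq : q < m)
    {F : Subalgebra K A} (hF : ∀ a ∈ F, ∀ b ∈ F, a * b = b * a)
    {V : Submodule K A} (h1 : (1 : A) ∈ V) (hVF : V ≤ Subalgebra.toSubmodule F)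
    (hV : V * V = Subalgebra.toSubmodule F) (v : Basis (Fin q) K V)
    {i : ℕ} (hi0 : q < i) (hi : i < m) {G : LS A₁} (hG : LS.Intg G)
    (hγ : LS.coeff G 0 * j X - j X * LS.coeff G 0 = lm2_cc ι j X (fun l => (v l : A)) * j (Y ^ i))
    {k : ℕ} (hk1 : 0 < k) (hk : k + q < m) (hik : κ ζ ^ (i + k) ≠ 1)
    {a₀ : A₁} (ha : a₀ ∈ bx ι j V) (haw : Wt κ j X ζ k a₀)
    {b f z : LS A₁} (hb : b ∈ perp (BB ι j V)) (hf : f ∈ FF ι j X Y F (fun l => (v l : A)))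
    (hz : z ∈ ZZ ι j X Y F V (fun l => (v l : A))) (hu : LS.Intg (b + f + z * G)) :
    trc K₁ (LS.coeff (b + f + z * G) 0 * a₀) = 0 := by
  -- K1 without the bound
  have hK1 : ∀ {k : ℕ}, 0 < k → k + q < m → ∀ {a₀ : A₁}, a₀ ∈ bx ι j V → Wt κ j X ζ k a₀ →
      ∀ b f : LS A₁, b ∈ perp (BB ι j V) → f ∈ FF ι j X Y F (fun l => (v l : A)) → LS.Intg (b + f) →
      trc K₁ (LS.coeff (b + f) 0 * a₀) = 0 := by
    intro k hk1 hk a₀ ha haw b f hb hf hbf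
    obtain ⟨N, hN⟩ := LS.exists_tp_mul_int f
    exact lm2_K1 h hp hq hF h1 hVF hV v hk1 hk ha haw N b f hb hf hbf hN
  by_cases hz0 : z = 0
  · rw [hz0, zero_mul, add_zero] at hu ⊢
    exact hK1 hk1 hk ha haw b f hb hf hu
  obtain ⟨n, z', hzz, hzi, hz'0⟩ := LS.exists_eq_tp_mul hz0
  have hz' : z' = LS.tp (-n) * z := by
    rw [hzz, ← mul_assoc, ← LS.tp_add, neg_add_cancel, LS.tp_zero, one_mul]
  have hz'Z : z' ∈ ZZ ι j X Y F V (fun l => (v l : A)) := by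
    rw [hz']; exact lm2_tp_mem _ _ hz
  rcases le_or_gt 0 n with hn | hn
  · have hzI : LS.Intg z := by rw [hzz]; exact (LS.Intg.tp hn).mul hzi
    have hzG := hzI.mul hG
    have hbf : LS.Intg (b + f) := by
      have h2 := hu.sub hzG
      rwa [add_sub_cancel_right] at h2
    rw [LS.coeff_add, add_mul, map_add, hK1 hk1 hk ha haw b f hb hf hbf, zero_add, LS.coeff_mul_zero hzI hG]
    exact lm2_K3 h hi hγ hk1 (by omega) hik (lm2_wt_bx1 h (lm2_resZ h hp hq hF h1 hVF hV v hz.1 hz.2 hzI)) haw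
  · exfalso
    apply hz'0
    have hu' : LS.Intg (LS.tp (-n) * (b + f + z * G)) := (LS.Intg.tp (by omega)).mul hu
    have hu0 : LS.coeff (LS.tp (-n) * (b + f + z * G)) 0 = 0 := by
      rw [LS.coeff_tp_mul]
      exact hu _ (by omega)
    have e1 : LS.tp (-n) * (b + f + z * G) = LS.tp (-n) * b + LS.tp (-n) * f + z' * G := by
      rw [hz', mul_add, mul_add, mul_assoc]
    rw [e1] at hu' hu0
    have hzG := hzi.mul hG
    have hbf : LS.Intg (LS.tp (-n) * b + LS.tp (-n) * f) := by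
      have h2 := hu'.sub hzG
      rwa [add_sub_cancel_right] at h2
    have h3 : LS.coeff (LS.tp (-n) * b + LS.tp (-n) * f) 0 = - (LS.coeff z' 0 * LS.coeff G 0) := by
      rw [LS.coeff_add _ (z' * G), LS.coeff_mul_zero hzi hG] at hu0
      exact eq_neg_of_add_eq_zero_left hu0
    refine lm2_K4 h hq.le hF hVF hV v (by omega) hi hγ (lm2_resZ h hp hq hF h1 hVF hV v hz'Z.1 hz'Z.2 hzi) ?_
    intro a ha' haw'
    have h4 := hK1 (k := m - i) (by omega) (by omega) ha' haw' (LS.tp (-n) * b) (LS.tp (-n) * f)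
      (lm2_tp_mem _ _ hb) (lm2_tp_mem (Subalgebra.toSubmodule (FF ι j X Y F (fun l => (v l : A)))) _ hf) hbf
    rw [h3, neg_mul, map_neg, neg_eq_zero] at h4
    exact h4

/-- projections of elements orthogonal to `Z'` -/
theorem lm2_M (F : Subalgebra K A) (V : Submodule K A) {q : ℕ} (v : Fin q → A) {w : LS A₁}
    (hw : ∀ z ∈ ZZ ι j X Y F V v, trc (LS K₁) (z * w) = 0) :
    pr (FF ι j X Y F v) w ∈ Submodule.map (pr (FF ι j X Y F v)) (BB ι j V) := by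
  have h1 : w ∈ perp (ZZ ι j X Y F V v) := mem_perp.2 hw
  rw [ZZ, lm2_perp_inf, perp_perp] at h1
  obtain ⟨p, hp, b, hb, rfl⟩ := Submodule.mem_sup.1 h1
  refine ⟨b, hb, ?_⟩
  rw [map_add, (pr_eq_zero_iff _).2 hp, zero_add]

/-- Lemma D -/
theorem lm2_D0 (h : SymAdm κ ι j m X Y ζ x y) (hp : m.Prime) {q : ℕ}
    {F : Subalgebra K A} (hF : ∀ a ∈ F, ∀ b ∈ F, a * b = b * a)
    {V : Submodule K A} (h1 : (1 : A) ∈ V) (hVF : V ≤ Subalgebra.toSubmodule F)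
    (hV : V * V = Subalgebra.toSubmodule F) (v : Basis (Fin q) K V) (hm : 2 * q + 7 ≤ m)
    {G₁ G₂ : LS A₁} (hG₁ : LS.Intg G₁) (hG₂ : LS.Intg G₂)
    (hγ₁ : LS.coeff G₁ 0 * j X - j X * LS.coeff G₁ 0 = lm2_cc ι j X (fun l => (v l : A)) * j (Y ^ (q + 1)))
    (hγ₂ : LS.coeff G₂ 0 * j X - j X * LS.coeff G₂ 0 = lm2_cc ι j X (fun l => (v l : A)) * j (Y ^ (q + 2)))
    {z₁ z₂ : LS A₁} (hz₁ : z₁ ∈ ZZ ι j X Y F V (fun l => (v l : A)))
    (hz₂ : z₂ ∈ ZZ ι j X Y F V (fun l => (v l : A))) (hi₁ : LS.Intg z₁) (hi₂ : LS.Intg z₂)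
    (hzz : z₁ * G₁ + z₂ * G₂ ∈ perp (BB ι j V ⊓ perp (Subalgebra.toSubmodule (FF ι j X Y F (fun l => (v l : A)))))) :
    LS.coeff z₁ 0 = 0 ∧ LS.coeff z₂ 0 = 0 := by
  have hq : q < m := by omega
  have hr₁ := lm2_resZ h hp hq hF h1 hVF hV v hz₁.1 hz₁.2 hi₁
  have hr₂ := lm2_resZ h hp hq hF h1 hVF hV v hz₂.1 hz₂.2 hi₂
  -- testing against residues
  have hT : ∀ {k : ℕ}, 0 < k → k + q < m → ∀ {a₀ : A₁}, a₀ ∈ bx ι j V → Wt κ j X ζ k a₀ →
      trc K₁ (LS.coeff z₁ 0 * LS.coeff G₁ 0 * a₀) + trc K₁ (LS.coeff z₂ 0 * LS.coeff G₂ 0 * a₀) = 0 := by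
    intro k hk1 hk a₀ ha haw
    obtain ⟨a, haU, hai, ha0⟩ := lm2_K2 h hp hq hF h1 hVF hV v hk1 hk ha haw
    have h2 := mem_perp.1 hzz a haU
    rw [tr_mul_comm] at h2
    have h3 : LS.coeff (trc (LS K₁) ((z₁ * G₁ + z₂ * G₂) * a)) 0 = 0 := by rw [h2, LS.coeff_zero]
    rw [coeff_trc, LS.coeff_mul_zero ((hi₁.mul hG₁).add (hi₂.mul hG₂)) hai, LS.coeff_add,
      LS.coeff_mul_zero hi₁ hG₁, LS.coeff_mul_zero hi₂ hG₂, ha0, add_mul, map_add] at h3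
    exact h3
  constructor
  · refine lm2_K4 h hq.le hF hVF hV v (by omega) (by omega) hγ₁ hr₁ fun a₀ ha haw => ?_
    have h2 := hT (k := m - (q + 1)) (by omega) (by omega) ha haw
    rw [lm2_K3 h (by omega) hγ₂ (k := m - (q + 1)) (by omega) (by omega) ?_ (lm2_wt_bx1 h hr₂) haw,
      add_zero] at h2
    · exact h2
    · rw [show q + 2 + (m - (q + 1)) = m + 1 by omega, pow_add, (lm2_prim h).pow_eq_one, one_mul]
      exact lm2_pow_ne_one h (by omega) (by omega)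
  · refine lm2_K4 h hq.le hF hVF hV v (by omega) (by omega) hγ₂ hr₂ fun a₀ ha haw => ?_
    have h2 := hT (k := m - (q + 2)) (by omega) (by omega) ha haw
    rw [lm2_K3 h (by omega) hγ₁ (k := m - (q + 2)) (by omega) (by omega) ?_ (lm2_wt_bx1 h hr₁) haw,
      zero_add] at h2
    · exact h2
    · exact lm2_pow_ne_one h (by omega) (by omega)

theorem lm2_D (h : SymAdm κ ι j m X Y ζ x y) (hp : m.Prime) {q : ℕ}
    {F : Subalgebra K A} (hF : ∀ a ∈ F, ∀ b ∈ F, a * b = b * a)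
    {V : Submodule K A} (h1 : (1 : A) ∈ V) (hVF : V ≤ Subalgebra.toSubmodule F)
    (hV : V * V = Subalgebra.toSubmodule F) (v : Basis (Fin q) K V) (hm : 2 * q + 7 ≤ m)
    {G₁ G₂ : LS A₁} (hG₁ : LS.Intg G₁) (hG₂ : LS.Intg G₂)
    (hγ₁ : LS.coeff G₁ 0 * j X - j X * LS.coeff G₁ 0 = lm2_cc ι j X (fun l => (v l : A)) * j (Y ^ (q + 1)))
    (hγ₂ : LS.coeff G₂ 0 * j X - j X * LS.coeff G₂ 0 = lm2_cc ι j X (fun l => (v l : A)) * j (Y ^ (q + 2)))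
    {z₁ z₂ : LS A₁} (hz₁ : z₁ ∈ ZZ ι j X Y F V (fun l => (v l : A)))
    (hz₂ : z₂ ∈ ZZ ι j X Y F V (fun l => (v l : A)))
    (hzz : z₁ * G₁ + z₂ * G₂ ∈ perp (BB ι j V ⊓ perp (Subalgebra.toSubmodule (FF ι j X Y F (fun l => (v l : A)))))) :
    z₁ = 0 ∧ z₂ = 0 := by
  -- all coefficients of integral solutions vanish
  have hn : ∀ (n : ℕ) (z₁ z₂ : LS A₁), z₁ ∈ ZZ ι j X Y F V (fun l => (v l : A)) →
      z₂ ∈ ZZ ι j X Y F V (fun l => (v l : A)) → LS.Intg z₁ → LS.Intg z₂ →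
      z₁ * G₁ + z₂ * G₂ ∈ perp (BB ι j V ⊓ perp (Subalgebra.toSubmodule (FF ι j X Y F (fun l => (v l : A))))) →
      LS.coeff z₁ n = 0 ∧ LS.coeff z₂ n = 0 := by
    intro n
    induction n with
    | zero =>
      intro z₁ z₂ hz₁ hz₂ hi₁ hi₂ hzz
      exact lm2_D0 h hp hF h1 hVF hV v hm hG₁ hG₂ hγ₁ hγ₂ hz₁ hz₂ hi₁ hi₂ hzz
    | succ n ih =>
      intro z₁ z₂ hz₁ hz₂ hi₁ hi₂ hzz
      obtain ⟨h01, h02⟩ := lm2_D0 h hp hF h1 hVF hV v hm hG₁ hG₂ hγ₁ hγ₂ hz₁ hz₂ hi₁ hi₂ hzz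
      have hi : ∀ z : LS A₁, LS.Intg z → LS.coeff z 0 = 0 → LS.Intg (LS.tp (-1) * z) := by
        intro z hz hz0 k hk
        rw [LS.coeff_tp_mul]
        rcases eq_or_lt_of_le (show k + 1 ≤ 0 by omega) with h2 | h2
        · rw [show k - -1 = 0 by omega, hz0]
        · exact hz _ (by omega)
      have h3 := ih (LS.tp (-1) * z₁) (LS.tp (-1) * z₂) (lm2_tp_mem _ _ hz₁) (lm2_tp_mem _ _ hz₂)
        (hi _ hi₁ h01) (hi _ hi₂ h02) (by
          rw [mul_assoc, mul_assoc, ← mul_add]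
          exact lm2_tp_mem _ _ hzz)
      rw [LS.coeff_tp_mul, LS.coeff_tp_mul, sub_neg_eq_add] at h3
      push_cast
      exact h3
  obtain ⟨N₁, hN₁⟩ := LS.exists_tp_mul_int z₁
  obtain ⟨N₂, hN₂⟩ := LS.exists_tp_mul_int z₂
  have e1 : LS.Intg (LS.tp ((N₁ : ℤ) + N₂) * z₁) := by
    rw [add_comm, LS.tp_add, mul_assoc]
    exact (LS.Intg.tp (by positivity)).mul hN₁
  have e2 : LS.Intg (LS.tp ((N₁ : ℤ) + N₂) * z₂) := by
    rw [LS.tp_add, mul_assoc]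
    exact (LS.Intg.tp (by positivity)).mul hN₂
  have hzero : ∀ z : LS A₁, (∀ n : ℤ, LS.coeff (LS.tp ((N₁ : ℤ) + N₂) * z) n = 0) → z = 0 := by
    intro z hz
    ext n
    have h2 := hz (n + (N₁ + N₂))
    rw [LS.coeff_tp_mul, add_sub_cancel_right] at h2
    rw [h2, LS.coeff_zero]
  have h3 : ∀ n : ℕ, _ := fun n => hn n (LS.tp ((N₁ : ℤ) + N₂) * z₁) (LS.tp ((N₁ : ℤ) + N₂) * z₂)
    (lm2_tp_mem _ _ hz₁) (lm2_tp_mem _ _ hz₂) e1 e2 (by
      rw [mul_assoc, mul_assoc, ← mul_add]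
      exact lm2_tp_mem _ _ hzz)
  constructor
  · refine hzero _ fun n => ?_
    rcases lt_or_ge n 0 with hn0 | hn0
    · exact e1 n hn0
    · obtain ⟨k, rfl⟩ := Int.eq_ofNat_of_zero_le hn0
      exact (h3 k).1
  · refine hzero _ fun n => ?_
    rcases lt_or_ge n 0 with hn0 | hn0
    · exact e2 n hn0
    · obtain ⟨k, rfl⟩ := Int.eq_ofNat_of_zero_le hn0
      exact (h3 k).2

/-- functional analysis of the pairing: given injectivity there is `b` -/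
theorem lm2_onto {R S : Type} [Field R] [CharZero R] [Ring S] [IsDomain S] [Algebra R S] [Module.Finite R S]
    (Z U : Submodule R S) (g₁ g₂ c₁ c₂ : S)
    (hinj : ∀ z₁ ∈ Z, ∀ z₂ ∈ Z, z₁ * g₁ + z₂ * g₂ ∈ perp U → z₁ = 0 ∧ z₂ = 0) :
    ∃ b ∈ U, (∀ z ∈ Z, trc R (z * (g₁ * b)) = trc R (z * c₁)) ∧
      (∀ z ∈ Z, trc R (z * (g₂ * b)) = trc R (z * c₂)) := by
  let Φ : (Z × Z) →ₗ[R] (S ⧸ perp U) :=
    (((perp U).mkQ).comp ((LinearMap.mulRight R g₁).comp Z.subtype)).coprod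
      (((perp U).mkQ).comp ((LinearMap.mulRight R g₂).comp Z.subtype))
  have hΦ : ∀ z₁ z₂ : Z, Φ (z₁, z₂) = (perp U).mkQ ((z₁ : S) * g₁ + (z₂ : S) * g₂) := by
    intro z₁ z₂
    rw [map_add]
    rfl
  have hker : LinearMap.ker Φ = ⊥ := by
    rw [LinearMap.ker_eq_bot']
    rintro ⟨z₁, z₂⟩ hz
    rw [hΦ, Submodule.mkQ_apply, Submodule.Quotient.mk_eq_zero] at hz
    obtain ⟨h1, h2⟩ := hinj z₁ z₁.2 z₂ z₂.2 hz
    exact Prod.ext (Subtype.ext h1) (Subtype.ext h2)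
  obtain ⟨L, hL⟩ := LinearMap.exists_leftInverse_of_injective Φ hker
  let ψ : (Z × Z) →ₗ[R] R :=
    ((trc R).comp ((LinearMap.mulRight R c₁).comp Z.subtype)).coprod
      ((trc R).comp ((LinearMap.mulRight R c₂).comp Z.subtype))
  have hψ : ∀ z₁ z₂ : Z, ψ (z₁, z₂) = trc R ((z₁ : S) * c₁) + trc R ((z₂ : S) * c₂) := fun _ _ => rfl
  obtain ⟨b, hb⟩ := lm2_exists_rep (ψ.comp (L.comp (perp U).mkQ))
  have hb2 : ∀ z₁ z₂ : Z, trc R (((z₁ : S) * g₁ + (z₂ : S) * g₂) * b) = ψ (z₁, z₂) := by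
    intro z₁ z₂
    rw [hb, LinearMap.comp_apply, LinearMap.comp_apply, ← hΦ]
    have h1 := LinearMap.congr_fun hL (z₁, z₂)
    rw [LinearMap.comp_apply, LinearMap.id_apply] at h1
    rw [h1]
  refine ⟨b, ?_, fun z hz => ?_, fun z hz => ?_⟩
  · rw [← perp_perp U, mem_perp]
    intro w hw
    rw [hb, LinearMap.comp_apply, LinearMap.comp_apply, Submodule.mkQ_apply,
      (Submodule.Quotient.mk_eq_zero _).2 hw, map_zero, map_zero]
  · have h1 := hb2 ⟨z, hz⟩ 0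
    rw [hψ, Submodule.coe_zero, zero_mul, zero_mul, add_zero, map_zero, add_zero] at h1
    rw [← mul_assoc]
    exact h1
  · have h1 := hb2 0 ⟨z, hz⟩
    rw [hψ, Submodule.coe_zero, zero_mul, zero_mul, zero_add, map_zero, zero_add] at h1
    rw [← mul_assoc]
    exact h1

/-- **LM2** -/
theorem LM2_proved (h : SymAdm κ ι j m X Y ζ x y) (hp : m.Prime) (F : Subalgebra K A)
    (hF : ∀ a ∈ F, ∀ b ∈ F, a * b = b * a)
    (V : Submodule K A) (h1 : (1 : A) ∈ V) (hVF : V ≤ Subalgebra.toSubmodule F) {q : ℕ}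
    (v : Module.Basis (Fin q) K V) (hm : 2 * q + 7 ≤ m) (hV : V * V = Subalgebra.toSubmodule F) :
    LinGood (LS K₁) ((LS.C : A₁ →+* LS A₁).comp ι) (lsj j) F V
      (vv ι j X Y (fun l => (v l : A))) := by
  classical
  have hq : q < m := by omega
  have h' := lm2_adm h.toAdm
  set g := vv ι j X Y (fun l => (v l : A)) with hg
  have hgV : g ∈ BB ι j V := lm2_vv_mem X Y V h1 _ fun l => (v l).2
  have hgF : g ∈ BB ι j (Subalgebra.toSubmodule F) := bx_mono hVF hgV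
  have hgi : LS.Intg g := lm2_vv_intg X Y _
  have hg0 : LS.coeff g 0 = j X := lm2_vv_coeff0 X Y _
  have hwV : ∀ i : ℕ, lm2_cc ι j X (fun l => (v l : A)) * j (Y ^ i) ∈ bx ι j V := fun i =>
    bx_mul_j_mem (lm2_cc_mem X fun l => (v l).2) _
  have hww : ∀ i : ℕ, Wt κ j X ζ i (lm2_cc ι j X (fun l => (v l : A)) * j (Y ^ i)) := fun i => by
    have h2 := (lm2_cc_wt h (fun l => (v l : A))).mul (lm2_wt_Y h i)
    rwa [zero_add] at h2
  -- residues of solutions of `[G, g] = a`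
  have hres : ∀ (i : ℕ) (a G : LS A₁), LS.Intg G → a = G * g - g * G →
      LS.coeff a 0 = lm2_cc ι j X (fun l => (v l : A)) * j (Y ^ i) →
      LS.coeff G 0 * j X - j X * LS.coeff G 0 = lm2_cc ι j X (fun l => (v l : A)) * j (Y ^ i) := by
    intro i a G hG haG ha
    rw [← ha, haG, LS.coeff_sub, LS.coeff_mul_zero hG hgi, LS.coeff_mul_zero hgi hG, hg0]
  -- the first element
  obtain ⟨a₁, ⟨ha₁V, ha₁p⟩, ha₁i, ha₁0⟩ := lm2_K2 h hp hq hF h1 hVF hV v (k := q + 1) (by omega) (by omega)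
    (hwV (q + 1)) (hww (q + 1))
  obtain ⟨g₁, hg₁F, hg₁i, hg₁⟩ := lm2_F6 h hF h1 hVF v (bx_mono hVF ha₁V) ha₁p ha₁i
  have hγ₁ := hres (q + 1) a₁ g₁ hg₁i hg₁ ha₁0
  -- the second element
  have hl : ∀ u ∈ perp (BB ι j V) ⊔ Subalgebra.toSubmodule (FF ι j X Y F (fun l => (v l : A))) ⊔
      Submodule.map (LinearMap.mulRight (LS K₁) g₁) (ZZ ι j X Y F V (fun l => (v l : A))),
      LS.Intg u → trc K₁ (LS.coeff u 0 * (lm2_cc ι j X (fun l => (v l : A)) * j (Y ^ (q + 2)))) = 0 := by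
    intro u hu hui
    obtain ⟨u', hu', w, hw, rfl⟩ := Submodule.mem_sup.1 hu
    obtain ⟨b, hb, f, hf, rfl⟩ := Submodule.mem_sup.1 hu'
    obtain ⟨z, hz, rfl⟩ := Submodule.mem_map.1 hw
    rw [LinearMap.mulRight_apply] at hui ⊢
    exact lm2_zg h hp hq hF h1 hVF hV v (by omega) (by omega) hg₁i hγ₁ (k := q + 2) (by omega) (by omega)
      (lm2_pow_ne_one h (by omega) (by omega)) (hwV (q + 2)) (hww (q + 2)) hb hf hz hui
  obtain ⟨a₂, ha₂, ha₂i, ha₂0⟩ := lm2_exists_lift _ hl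
  rw [lm2_perp_sup, lm2_perp_sup, perp_perp] at ha₂
  obtain ⟨⟨ha₂V, ha₂p⟩, ha₂W⟩ := ha₂
  obtain ⟨g₂, hg₂F, hg₂i, hg₂⟩ := lm2_F6 h hF h1 hVF v (bx_mono hVF ha₂V) ha₂p ha₂i
  have hγ₂ := hres (q + 2) a₂ g₂ hg₂i hg₂ ha₂0
  refine ⟨a₁, a₂, g₁, g₂, ha₁V, ha₂V, hg₁F, hg₂F, hg₁, hg₂, ?_, ?_⟩
  · refine lm2_M F V _ fun z hz => ?_
    rw [← mul_assoc]
    exact mem_perp.1 ha₂W _ (Submodule.mem_map.2 ⟨z, hz, rfl⟩)
  · intro c₁ hc₁ c₂ hc₂
    obtain ⟨b, ⟨hbV, hbp⟩, hb1, hb2⟩ := lm2_onto (ZZ ι j X Y F V (fun l => (v l : A)))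
      (BB ι j V ⊓ perp (Subalgebra.toSubmodule (FF ι j X Y F (fun l => (v l : A))))) g₁ g₂ c₁ c₂
      (fun z₁ hz₁ z₂ hz₂ hzz => lm2_D h hp hF h1 hVF hV v hm hg₁i hg₂i hγ₁ hγ₂ hz₁ hz₂ hzz)
    refine ⟨b, hbV, (pr_eq_zero_iff _).2 hbp, ?_, ?_⟩
    · have h2 : pr (FF ι j X Y F (fun l => (v l : A))) (g₁ * b) - c₁
          = pr (FF ι j X Y F (fun l => (v l : A))) (g₁ * b - c₁) := by
        rw [map_sub, pr_of_mem _ hc₁]
      rw [show pr (LG (LS K₁) ((LS.C : A₁ →+* LS A₁).comp ι) F g) (g₁ * b) - c₁ = _ from h2]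
      refine lm2_M F V _ fun z hz => ?_
      rw [mul_sub, map_sub, hb1 z hz, sub_self]
    · have h2 : pr (FF ι j X Y F (fun l => (v l : A))) (g₂ * b) - c₂
          = pr (FF ι j X Y F (fun l => (v l : A))) (g₂ * b - c₂) := by
        rw [map_sub, pr_of_mem _ hc₂]
      rw [show pr (LG (LS K₁) ((LS.C : A₁ →+* LS A₁).comp ι) F g) (g₂ * b) - c₂ = _ from h2]
      refine lm2_M F V _ fun z hz => ?_
      rw [mul_sub, map_sub, hb2 z hz, sub_self]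

end Main

end Vale.Agent.P199K
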