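import Vale.Agent.P199K.LSApi

/-! # P199, section 9: linear algebra over Laurent series (helper51)

Families of vectors `g j : k → LS B` (`k` finite index type of components). -/

namespace Vale.Agent.P199K

section P3A

variable {K₁ B J k : Type} [Field K₁] [Ring B] [Algebra K₁ B] [Fintype J]

/-- coefficient of a scalar multiple, lowest term -/
theorem p3_coeff_smul_low (c : LS K₁) (g : LS B) (n : ℤ) (hc : ∀ i < n, LS.coeff c i = 0)
    (hg : LS.Intg g) : LS.coeff (c • g) n = LS.coeff c n • LS.coeff g 0 := by
  rw [LS.smul_def, LS.coeff_mul_of_bound _ _ (a := n) (b := 0)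
    (fun i hi => by rw [LS.coeff_map, hc i hi, map_zero]) hg]
  rw [sub_zero, Finset.Icc_self, Finset.sum_singleton, LS.coeff_map, sub_self, Algebra.smul_def]

theorem p3_coeff_smul_lt (c : LS K₁) (g : LS B) (n : ℤ) (hc : ∀ i < n, LS.coeff c i = 0)
    (hg : LS.Intg g) (m : ℤ) (hm : m < n) : LS.coeff (c • g) m = 0 := by
  rw [LS.smul_def, LS.coeff_mul_of_bound _ _ (a := n) (b := 0)
    (fun i hi => by rw [LS.coeff_map, hc i hi, map_zero]) hg, Finset.Icc_eq_empty (by omega),
    Finset.sum_empty]

theorem p3_intg_smul {c : LS K₁} {g : LS B} (hc : LS.Intg c) (hg : LS.Intg g) : LS.Intg (c • g) :=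
  fun m hm => p3_coeff_smul_lt c g 0 hc hg m hm

/-- INTFAM: families with independent residues -/
theorem p3_intfam (g : J → k → LS B) (hg : ∀ j a, LS.Intg (g j a))
    (hind : LinearIndependent K₁ (fun j => fun a => LS.coeff (g j a) 0)) (c : J → LS K₁) (N : ℤ)
    (h : ∀ a, ∀ n < N, LS.coeff (∑ j, c j • g j a) n = 0) : ∀ j, ∀ n < N, LS.coeff (c j) n = 0 := by
  classical
  -- a common lower bound
  obtain ⟨M, hM⟩ : ∃ M : ℤ, ∀ j, ∀ n < M, LS.coeff (c j) n = 0 := by
    choose b hb using fun j => LS.exists_bound (c j)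
    by_cases hJ : Nonempty J
    · refine ⟨Finset.univ.inf' Finset.univ_nonempty b, fun j n hn => hb j n ?_⟩
      exact lt_of_lt_of_le hn (Finset.inf'_le _ (Finset.mem_univ j))
    · exact ⟨0, fun j => (hJ ⟨j⟩).elim⟩
  -- induction from the bound
  have key : ∀ d : ℕ, M + d ≤ N → ∀ j, ∀ n < M + d, LS.coeff (c j) n = 0 := by
    intro d
    induction d with
    | zero => intro _ j n hn; exact hM j n (by simpa using hn)
    | succ d ih =>
      intro hd j n hn
      have ih' := ih (by push_cast at hd; omega)
      by_cases hlt : n < M + d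
      · exact ih' j n hlt
      · have hn' : n = M + d := by push_cast at hn; omega
        subst hn'
        have h1 : ∀ a, ∑ j, LS.coeff (c j) (M + d) • LS.coeff (g j a) 0 = 0 := by
          intro a
          rw [← h a (M + d) (by push_cast at hd; omega), LS.coeff_sum]
          exact Finset.sum_congr rfl fun j _ =>
            (p3_coeff_smul_low _ _ _ (ih' j) (hg j a)).symm
        have h2 := Fintype.linearIndependent_iff.1 hind (fun j => LS.coeff (c j) (M + d)) (by
          funext a
          rw [Finset.sum_apply]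
          exact h1 a)
        exact h2 j
  intro j n hn
  by_cases hlt : n < M
  · exact hM j n hlt
  · exact key (n - M + 1).toNat (by
      rw [Int.toNat_of_nonneg (by omega)]; omega) j n (by
      rw [Int.toNat_of_nonneg (by omega)]; omega)

/-- independence of residues implies independence -/
theorem p3_indep (g : J → k → LS B) (hg : ∀ j a, LS.Intg (g j a))
    (hind : LinearIndependent K₁ (fun j => fun a => LS.coeff (g j a) 0)) :
    LinearIndependent (LS K₁) g := by
  rw [Fintype.linearIndependent_iff]
  intro c hc j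
  ext n
  refine p3_intfam g hg hind c (n + 1) (fun a m _ => ?_) j n (by omega)
  have := congrFun hc a
  rw [Finset.sum_apply] at this
  simp only [Pi.smul_apply, Pi.zero_apply] at this
  rw [this]
  rfl

/-- coefficient zero of an integral combination -/
theorem p3_coeff_zero_sum (g : J → k → LS B) (hg : ∀ j a, LS.Intg (g j a)) (x : J → LS K₁)
    (hx : ∀ j, LS.Intg (x j)) (a : k) :
    LS.coeff (∑ j, x j • g j a) 0 = ∑ j, LS.coeff (x j) 0 • LS.coeff (g j a) 0 := by
  rw [LS.coeff_sum]
  exact Finset.sum_congr rfl fun j _ => p3_coeff_smul_low _ _ _ (hx j) (hg j a)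

end P3A

section RK

variable {K₁ B I k : Type} [Field K₁] [Ring B] [Algebra K₁ B] [Fintype I]

/-- RANK: the rank over `LS K₁` is at least the rank of the residues -/
theorem p3_rank_le [Finite k] [FiniteDimensional K₁ B] (g : I → k → LS B) (hg : ∀ i a, LS.Intg (g i a)) :
    Module.finrank K₁ (Submodule.span K₁ (Set.range (fun i => fun a => LS.coeff (g i a) 0))) ≤
      Module.finrank (LS K₁) (Submodule.span (LS K₁) (Set.range g)) := by
  classical
  obtain ⟨b, hb1, hb2, hb3⟩ := exists_linearIndependent K₁
    (Set.range (fun i => fun a => LS.coeff (g i a) 0))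
  have hfin : b.Finite := hb3.setFinite
  haveI : Fintype b := hfin.fintype
  have hch : ∀ x : b, ∃ i, (fun a => LS.coeff (g i a) 0) = (x : k → B) := fun x => hb1 x.2
  choose s hs using hch
  have hind : LinearIndependent K₁ (fun x : b => fun a => LS.coeff (g (s x) a) 0) := by
    have : (fun x : b => fun a => LS.coeff (g (s x) a) 0) = fun x : b => (x : k → B) :=
      funext fun x => hs x
    rw [this]
    exact hb3
  have h1 := p3_indep (fun x : b => g (s x)) (fun x a => hg _ _) hind
  have h2 : Module.finrank K₁ (Submodule.span K₁ (Set.range (fun i => fun a => LS.coeff (g i a) 0)))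
      = Fintype.card b := by
    rw [← hb2]
    have := finrank_span_eq_card hb3
    rwa [Subtype.range_coe] at this
  rw [h2, ← finrank_span_eq_card h1]
  exact Submodule.finrank_mono (Submodule.span_mono (by
    rintro _ ⟨x, rfl⟩
    exact ⟨s x, rfl⟩))

/-- RK: if the ranks agree, residue kernel vectors lift to integral kernel vectors -/
theorem p3_lift_ker [Finite k] [FiniteDimensional K₁ B] (g : I → k → LS B)
    (hg : ∀ i a, LS.Intg (g i a))
    (hrk : Module.finrank (LS K₁) (Submodule.span (LS K₁) (Set.range g)) ≤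
      Module.finrank K₁ (Submodule.span K₁ (Set.range (fun i => fun a => LS.coeff (g i a) 0))))
    (x : I → K₁) (hx : ∀ a, ∑ i, x i • LS.coeff (g i a) 0 = 0) :
    ∃ y : I → LS K₁, (∀ i, LS.Intg (y i)) ∧ (∀ i, LS.coeff (y i) 0 = x i) ∧
      ∀ a, ∑ i, y i • g i a = 0 := by
  classical
  obtain ⟨b, hb1, hb2, hb3⟩ := exists_linearIndependent K₁
    (Set.range (fun i => fun a => LS.coeff (g i a) 0))
  have hfin : b.Finite := hb3.setFinite
  haveI : Fintype b := hfin.fintype
  have hch : ∀ x : b, ∃ i, (fun a => LS.coeff (g i a) 0) = (x : k → B) := fun x => hb1 x.2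
  choose s hs using hch
  have hind : LinearIndependent K₁ (fun x : b => fun a => LS.coeff (g (s x) a) 0) := by
    have : (fun x : b => fun a => LS.coeff (g (s x) a) 0) = fun x : b => (x : k → B) :=
      funext fun x => hs x
    rw [this]
    exact hb3
  have h1 := p3_indep (fun x : b => g (s x)) (fun x a => hg _ _) hind
  have h2 : Module.finrank K₁ (Submodule.span K₁ (Set.range (fun i => fun a => LS.coeff (g i a) 0)))
      = Fintype.card b := by
    rw [← hb2]
    have := finrank_span_eq_card hb3
    rwa [Subtype.range_coe] at this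
  have h3 : Submodule.span (LS K₁) (Set.range (fun x : b => g (s x)))
      = Submodule.span (LS K₁) (Set.range g) := by
    refine Submodule.eq_of_le_of_finrank_le (Submodule.span_mono ?_) ?_
    · rintro _ ⟨x, rfl⟩
      exact ⟨s x, rfl⟩
    · rw [finrank_span_eq_card h1, ← h2]
      exact hrk
  -- the constant lift
  obtain ⟨z, hz⟩ : ∃ z : k → LS B, z = ∑ i, (LS.C (x i) : LS K₁) • g i := ⟨_, rfl⟩
  have hz1 : z ∈ Submodule.span (LS K₁) (Set.range (fun x : b => g (s x))) := by
    rw [h3, hz]
    exact Submodule.sum_mem _ fun i _ => Submodule.smul_mem _ _ (Submodule.subset_span ⟨i, rfl⟩)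
  rw [Submodule.mem_span_range_iff_exists_fun] at hz1
  obtain ⟨c, hc⟩ := hz1
  have hza : ∀ a, z a = ∑ i, (LS.C (x i) : LS K₁) • g i a := fun a => by
    rw [hz, Finset.sum_apply]
    rfl
  have hca : ∀ a, ∑ j, c j • g (s j) a = z a := fun a => by
    rw [← hc, Finset.sum_apply]
    rfl
  have hc0 : ∀ j, ∀ n < (1 : ℤ), LS.coeff (c j) n = 0 := by
    refine p3_intfam (fun x : b => g (s x)) (fun x a => hg _ _) hind c 1 (fun a n hn => ?_)
    rw [hca a, hza a]
    rcases lt_or_eq_of_le (show n ≤ 0 by omega) with h | h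
    · rw [LS.coeff_sum]
      exact Finset.sum_eq_zero fun i _ => p3_intg_smul (LS.Intg.C _) (hg i a) n h
    · rw [h, p3_coeff_zero_sum g hg (fun i => LS.C (x i)) (fun i => LS.Intg.C _) a]
      simp only [LS.coeff_C_zero]
      exact hx a
  refine ⟨fun i => LS.C (x i) - ∑ j : b, if s j = i then c j else 0, fun i => ?_, fun i => ?_,
    fun a => ?_⟩
  · refine LS.Intg.sub (LS.Intg.C _) (LS.Intg.sum fun j _ => ?_)
    split_ifs
    · exact fun n hn => hc0 j n (by omega)
    · exact LS.Intg.zero
  · show LS.coeff (LS.C (x i) - ∑ j : b, if s j = i then c j else 0) 0 = x i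
    rw [LS.coeff_sub, LS.coeff_C_zero, LS.coeff_sum, Finset.sum_eq_zero, sub_zero]
    intro j _
    split_ifs
    · exact hc0 j 0 (by omega)
    · rfl
  · simp only [sub_smul, Finset.sum_smul, Finset.sum_sub_distrib]
    rw [Finset.sum_comm, ← hza a, ← hca a, sub_eq_zero]
    refine Finset.sum_congr rfl fun j _ => ?_
    rw [Finset.sum_eq_single (s j)]
    · rw [if_pos rfl]
    · intro i _ hi
      rw [if_neg (Ne.symm hi), zero_smul]
    · intro h
      exact absurd (Finset.mem_univ _) h

end RK

end Vale.Agent.P199K
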