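import Vale.Agent.P199K.LMDefs
import Vale.Agent.P199K.Adm
import Vale.Agent.P199K.LM0P
import Vale.Agent.P199K.LM1P
import Vale.Agent.P199K.LMApi
import Vale.Agent.P199K.P3A

/-! # P199, section 6: LM2, part 1: residue level traces (helper85) -/

open scoped LaurentSeries
open PowerSeries

namespace Vale.Agent.P199K

open Module

section Q

variable {K A K₁ E₁ A₁ : Type} [Field K] [CharZero K] [Ring A] [IsDomain A] [Algebra K A]
  [FiniteDimensional K A] [Field K₁] [CharZero K₁] [Ring E₁] [Ring A₁] [IsDomain A₁]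
  [Algebra K₁ E₁] [Algebra K₁ A₁] [FiniteDimensional K₁ A₁]
  {κ : K →+* K₁} {ι : A →+* A₁} {j : E₁ →ₐ[K₁] A₁} {m : ℕ} {X Y : E₁} {ζ : K} {x y : K₁}

/-- the trace of `X^a Y^b` -/
theorem lmq_trc_XY (h : SymAdm κ ι j m X Y ζ x y) (a b : ℕ) (hb : ¬ m ∣ b) :
    trc K₁ (X ^ a * Y ^ b) = 0 := by
  obtain ⟨m', rfl⟩ : ∃ m', m = m' + 1 := ⟨m - 1, by have := h.pos; omega⟩
  have h1 : trc K₁ (X ^ a * Y ^ b * X ^ (m' + 1))
      = κ ζ ^ b * trc K₁ (X ^ a * Y ^ b * X ^ (m' + 1)) := by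
    have e2 := h.Y_pow_X_pow b 1
    rw [pow_one, one_mul] at e2
    have e1 : X ^ a * Y ^ b * X ^ (m' + 1) = κ ζ ^ b • (X * (X ^ a * Y ^ b * X ^ m')) := by
      rw [pow_succ', ← mul_assoc, mul_assoc (X ^ a), e2, mul_smul_comm, smul_mul_assoc]
      rw [← mul_assoc (X ^ a) X, ← pow_succ, pow_succ', mul_assoc, mul_assoc, mul_assoc]
    conv_lhs => rw [e1]
    rw [map_smul, smul_eq_mul, tr_mul_comm, mul_assoc, ← pow_succ]
  rw [h.Xm, ← Algebra.commutes, ← Algebra.smul_def, map_smul, smul_eq_mul] at h1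
  have h2 : (1 - κ ζ ^ b) * (x * trc K₁ (X ^ a * Y ^ b)) = 0 := by
    rw [sub_mul, one_mul, ← h1, sub_self]
  rcases mul_eq_zero.1 h2 with h3 | h3
  · exfalso
    apply hb
    rw [← h.prim.pow_eq_one_iff_dvd]
    apply κ.injective
    rw [map_pow, map_one]
    exact (sub_eq_zero.1 h3).symm
  · rcases mul_eq_zero.1 h3 with h4 | h4
    · exact absurd h4 h.x0
    · exact h4

/-- `X^l Y^i X^a Y^b` -/
theorem lmq_mono (h : SymAdm κ ι j m X Y ζ x y) (l i a b : ℕ) :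
    X ^ l * Y ^ i * (X ^ a * Y ^ b) = κ ζ ^ (a * i) • (X ^ (l + a) * Y ^ (i + b)) := by
  rw [mul_assoc, ← mul_assoc (Y ^ i), h.Y_pow_X_pow, smul_mul_assoc, mul_smul_comm, pow_add,
    pow_add, mul_assoc (X ^ l), mul_assoc (X ^ a)]

/-- `T(u j(e)) = 0` if `T(e) = 0` -/
theorem lmq_trc_zero (h : Adm κ ι j m) {u : A₁} (hu : u ∈ bx1 K₁ ι (⊤ : Submodule K A)) {e : E₁}
    (he : trc K₁ e = 0) : trc K₁ (u * j e) = 0 := by
  refine Submodule.span_induction (p := fun u _ => trc K₁ (u * j e) = 0) ?_ ?_ ?_ ?_ hu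
  · rintro _ ⟨a, _, rfl⟩
    rw [h.trc_mul, he, mul_zero]
  · rw [zero_mul, map_zero]
  · intro x y _ _ hx hy
    rw [add_mul, map_add, hx, hy, add_zero]
  · intro c x _ hx
    rw [smul_mul_assoc, map_smul, hx, smul_zero]

/-- pulling the commuting parts to the left -/
theorem lmq_pull (h : Adm κ ι j m) {u w : A₁} (hu : u ∈ bx1 K₁ ι (⊤ : Submodule K A))
    (hw : w ∈ bx1 K₁ ι (⊤ : Submodule K A)) (e e' : E₁) :
    u * j e * (w * j e') = (u * w) * j (e * e') := by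
  rw [map_mul, mul_assoc, ← mul_assoc (j e), ← h.bx1_comm hw, mul_assoc, mul_assoc]

/-- trace of a product of two monomials with wrong `Y` degree -/
theorem lmq_pair1 (h : SymAdm κ ι j m X Y ζ x y) {u w : A₁}
    (hu : u ∈ bx1 K₁ ι (⊤ : Submodule K A)) (hw : w ∈ bx1 K₁ ι (⊤ : Submodule K A))
    (l i a b : ℕ) (hb : ¬ m ∣ i + b) :
    trc K₁ (u * j (X ^ l * Y ^ i) * (w * j (X ^ a * Y ^ b))) = 0 := by
  rw [lmq_pull h.toAdm hu hw, lmq_mono h, map_smul, mul_smul_comm, map_smul]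
  have h1 : u * w ∈ bx1 K₁ ι (⊤ : Submodule K A) := bx1_mono le_top (bx1_mul hu hw)
  rw [lmq_trc_zero h.toAdm h1 (lmq_trc_XY h _ _ hb), smul_zero]

/-- trace of a product of two monomials with wrong `X` degree -/
theorem lmq_pair2 (h : SymAdm κ ι j m X Y ζ x y) {u w : A₁}
    (hu : u ∈ bx1 K₁ ι (⊤ : Submodule K A)) (hw : w ∈ bx1 K₁ ι (⊤ : Submodule K A))
    (l i a b : ℕ) (hb : i + b = m) (ha : ¬ m ∣ l + a) :
    trc K₁ (u * j (X ^ l * Y ^ i) * (w * j (X ^ a * Y ^ b))) = 0 := by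
  rw [lmq_pull h.toAdm hu hw, lmq_mono h, map_smul, mul_smul_comm, map_smul, hb, h.Ym,
    ← Algebra.commutes, ← Algebra.smul_def, map_smul, mul_smul_comm, map_smul]
  have h1 : u * w ∈ bx1 K₁ ι (⊤ : Submodule K A) := bx1_mono le_top (bx1_mul hu hw)
  rw [lmq_trc_zero h.toAdm h1 (lm1_trc_X h _ ha), smul_zero, smul_zero]

/-- trace of a product of two monomials with good degrees -/
theorem lmq_pair3 (h : SymAdm κ ι j m X Y ζ x y) {u w : A₁}
    (hu : u ∈ bx1 K₁ ι (⊤ : Submodule K A)) (hw : w ∈ bx1 K₁ ι (⊤ : Submodule K A))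
    (l i a b : ℕ) (hb : i + b = m) (ha : l + a = m)
    (h0 : trc K₁ (u * j (X ^ l * Y ^ i) * (w * j (X ^ a * Y ^ b))) = 0) :
    trc K₁ (u * w) = 0 := by
  rw [lmq_pull h.toAdm hu hw, lmq_mono h, map_smul, mul_smul_comm, map_smul, hb, h.Ym,
    ← Algebra.commutes, ← Algebra.smul_def, map_smul, mul_smul_comm, map_smul, ha, h.Xm,
    Algebra.algebraMap_eq_smul_one, map_smul, mul_smul_comm, map_smul, map_one, mul_one] at h0
  have hζ : κ ζ ≠ 0 := h.κζ.ne_zero (by have := h.pos; omega)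
  rcases smul_eq_zero.1 h0 with h1 | h1
  · exact absurd h1 (pow_ne_zero _ hζ)
  · rcases smul_eq_zero.1 h1 with h2 | h2
    · exact absurd h2 h.y0
    · rcases smul_eq_zero.1 h2 with h3 | h3
      · exact absurd h3 h.x0
      · exact h3

end Q

end Vale.Agent.P199K
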