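import Vale.Agent.P199K.AdmD
import Vale.Agent.P199K.LSApi
import Vale.Agent.P199K.TrDC

/-! # P199, section 6: definitions `Zs`, `vv`, `LinGood` -/

open scoped LaurentSeries
open PowerSeries

namespace Vale.Agent.P199K

section LM

variable {K A K₁ E₁ A₁ : Type} [Field K] [CharZero K] [Ring A] [IsDomain A] [Algebra K A]
  [FiniteDimensional K A] [Field K₁] [CharZero K₁] [Ring E₁] [Ring A₁] [IsDomain A₁] [Algebra K₁ E₁] [Algebra K₁ A₁]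
  [FiniteDimensional K₁ A₁]

/-- `Z = F ∩ V^⊥` -/
noncomputable def Zs (F : Subalgebra K A) (V : Submodule K A) : Submodule K A :=
  Subalgebra.toSubmodule F ⊓ perp V

/-- `X + τ ∑_l v_l Y^(l+1)` in `LS A₁` -/
noncomputable def vv (ι : A →+* A₁) (j : E₁ →ₐ[K₁] A₁) (X Y : E₁) {q : ℕ} (v : Fin q → A) : LS A₁ :=
  LS.C (j X) + LS.mono 1 (∑ l, ι (v l) * j (Y ^ ((l : ℕ) + 1)))

/-- `v` has a good pair: `a₁, a₂ ∈ V ⊠ E₁` orthogonal to `F₁[v]`, `a_k = g_k v - v g_k`, and the form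
`B(a_k, b) = π_v (g_k b)` mod `π_v (V ⊠ E₁)` satisfies `B(a₁,a₂) = 0`, `b ↦ (B(a₁,b), B(a₂,b))` onto. -/
def LinGood (K₁ : Type) {K A E₁ A₁ : Type} [Field K] [Ring A] [Algebra K A] [Field K₁] [Ring E₁] [Ring A₁]
    [Algebra K₁ E₁] [Algebra K₁ A₁] [CharZero K₁] [IsDomain A₁] [FiniteDimensional K₁ A₁]
    (ι : A →+* A₁) (j : E₁ →ₐ[K₁] A₁) (F : Subalgebra K A) (V : Submodule K A) (v : A₁) : Prop :=
  ∃ a₁ a₂ g₁ g₂ : A₁, a₁ ∈ bx ι j V ∧ a₂ ∈ bx ι j V ∧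
    g₁ ∈ bx ι j (Subalgebra.toSubmodule F) ∧ g₂ ∈ bx ι j (Subalgebra.toSubmodule F) ∧
    a₁ = g₁ * v - v * g₁ ∧ a₂ = g₂ * v - v * g₂ ∧
    pr (LG K₁ ι F v) (g₁ * a₂) ∈ Submodule.map (pr (LG K₁ ι F v)) (bx ι j V) ∧
    ∀ c₁ ∈ LG K₁ ι F v, ∀ c₂ ∈ LG K₁ ι F v, ∃ b ∈ bx ι j V, pr (LG K₁ ι F v) b = 0 ∧
      pr (LG K₁ ι F v) (g₁ * b) - c₁ ∈ Submodule.map (pr (LG K₁ ι F v)) (bx ι j V) ∧
      pr (LG K₁ ι F v) (g₂ * b) - c₂ ∈ Submodule.map (pr (LG K₁ ι F v)) (bx ι j V)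

end LM

end Vale.Agent.P199K
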