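import Vale.Agent.P199K.LM2Q

/-! # P199, section 6: LM2, piece LMQ1 (helper85) -/

open scoped LaurentSeries
open PowerSeries

namespace Vale.Agent.P199K

open Module

section LMQ1

variable {K A K₁ E₁ A₁ : Type} [Field K] [CharZero K] [Ring A] [IsDomain A] [Algebra K A]
  [FiniteDimensional K A] [Field K₁] [CharZero K₁] [Ring E₁] [Ring A₁] [IsDomain A₁]
  [Algebra K₁ E₁] [Algebra K₁ A₁] [FiniteDimensional K₁ A₁]

theorem lmq_tp_smul (k : ℤ) (x : LS A₁) : LS.tp k * x = (LS.tp k : LS K₁) • x := by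
  rw [Algebra.smul_def, LS.algebraMap_tp]

/-- `C y ∈ Z ⊠ LS E` for `y ∈ Z ⊠ K₁` -/
theorem lmq_C_mem {κ : K →+* K₁} {ι : A →+* A₁} {j : E₁ →ₐ[K₁] A₁} {m : ℕ} (h : Adm κ ι j m)
    {U : Submodule K A} {y : A₁} (hy : y ∈ bx1 K₁ ι U) :
    (LS.C y : LS A₁) ∈ bx1 (LS K₁) ((LS.C : A₁ →+* LS A₁).comp ι) U := by
  refine Submodule.span_induction (p := fun y _ => (LS.C y : LS A₁) ∈
    bx1 (LS K₁) ((LS.C : A₁ →+* LS A₁).comp ι) U) ?_ ?_ ?_ ?_ hy
  · rintro _ ⟨u, hu, rfl⟩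
    exact Submodule.subset_span ⟨u, hu, rfl⟩
  · rw [map_zero]; exact Submodule.zero_mem _
  · intro x y _ _ hx hy
    rw [map_add]; exact Submodule.add_mem _ hx hy
  · intro c x _ hx
    have h1 : (LS.C (c • x) : LS A₁) = (LS.C c : LS K₁) • (LS.C x : LS A₁) := by
      rw [Algebra.smul_def, Algebra.smul_def, LS.algebraMap_C, map_mul]
    rw [h1]; exact Submodule.smul_mem _ _ hx

theorem lmq_vv_mem (ι : A →+* A₁) (j : E₁ →ₐ[K₁] A₁) (X Y : E₁)
    {q : ℕ} (V : Submodule K A) (h1 : (1 : A) ∈ V) (v : Module.Basis (Fin q) K V) :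
    vv ι j X Y (fun l => (v l : A)) ∈ bx (LS.C.comp ι) (lsj j) V := by
  refine Submodule.add_mem _ ?_ ?_
  · have h2 := mem_bx_of (LS.C.comp ι) (lsj j) h1 (LS.C X)
    rwa [map_one, one_mul, lsj_C] at h2
  · rw [mono_sum]
    refine Submodule.sum_mem _ fun l _ => ?_
    have h2 := mem_bx_of (LS.C.comp ι) (lsj j) (v l).2 (LS.mono 1 (Y ^ ((l : ℕ) + 1)))
    rwa [lsj_mono, RingHom.comp_apply, C_mul_mono] at h2

theorem lmq_triple {κ : K →+* K₁} {ι : A →+* A₁} {j : E₁ →ₐ[K₁] A₁} {m : ℕ} (h : Adm κ ι j m)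
    {u w z : A₁} (hu : u ∈ bx1 K₁ ι (⊤ : Submodule K A)) (hw : w ∈ bx1 K₁ ι (⊤ : Submodule K A))
    (hz : z ∈ bx1 K₁ ι (⊤ : Submodule K A)) (e₁ e₂ e₃ : E₁) (he : trc K₁ (e₁ * e₂ * e₃) = 0) :
    trc K₁ (u * j e₁ * (w * j e₂) * (z * j e₃)) = 0 := by
  rw [lmq_pull h hu hw, lmq_pull h (bx1_mono le_top (bx1_mul hu hw)) hz]
  exact lmq_trc_zero h (bx1_mono le_top (bx1_mul (bx1_mono le_top (bx1_mul hu hw)) hz)) he

/-- second order residue constraint -/
theorem lmq_R1 {κ : K →+* K₁} {ι : A →+* A₁} {j : E₁ →ₐ[K₁] A₁} {m : ℕ} {X Y : E₁} {ζ : K} {x y : K₁}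
    (h : SymAdm κ ι j m X Y ζ x y) (Z : Submodule K A) {q : ℕ} (v : Fin q → A)
    (f : A) (a b : ℕ) (hb : 1 ≤ b) (hbq : b + q < m) (p₀ : A₁) (hp : p₀ ∈ bx ι j Z)
    (hc : p₀ * j X = j X * p₀) :
    trc K₁ (ι f * j (X ^ a * Y ^ b) * ((∑ l, ι (v l) * j (Y ^ ((l : ℕ) + 1))) * p₀
      - p₀ * (∑ l, ι (v l) * j (Y ^ ((l : ℕ) + 1))))) = 0 := by
  classical
  have hι : ∀ a : A, ι a ∈ bx1 K₁ ι (⊤ : Submodule K A) := fun a => ι_mem_bx1 trivial
  have hy : ∀ k, h.cd h.eb (k, ⟨0, h.pos⟩) p₀ ∈ bx1 K₁ ι (⊤ : Submodule K A) := fun k =>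
    bx1_mono le_top (h.cd_mem h.eb _ hp)
  rw [h.eq_sum_of_comm hc, mul_sub, map_sub]
  have e1 : trc K₁ (ι f * j (X ^ a * Y ^ b) * ((∑ l, ι (v l) * j (Y ^ ((l : ℕ) + 1))) *
      ∑ k : Fin m, h.cd h.eb (k, ⟨0, h.pos⟩) p₀ * j (X ^ (k : ℕ)))) = 0 := by
    rw [Finset.sum_mul_sum, Finset.mul_sum, map_sum]
    refine Finset.sum_eq_zero fun l _ => ?_
    rw [Finset.mul_sum, map_sum]
    refine Finset.sum_eq_zero fun k _ => ?_
    rw [← mul_assoc]
    refine lmq_triple h.toAdm (hι f) (hι (v l)) (hy k) _ _ _ ?_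
    rw [tr_mul_comm, mul_assoc (X ^ a), ← pow_add, ← mul_assoc, ← pow_add]
    refine lmq_trc_XY h _ _ fun hd => ?_
    have := Nat.le_of_dvd (by omega) hd
    have := l.2
    omega
  have e2 : trc K₁ (ι f * j (X ^ a * Y ^ b) * ((∑ k : Fin m, h.cd h.eb (k, ⟨0, h.pos⟩) p₀ * j (X ^ (k : ℕ)))
      * ∑ l, ι (v l) * j (Y ^ ((l : ℕ) + 1)))) = 0 := by
    rw [Finset.sum_mul_sum, Finset.mul_sum, map_sum]
    refine Finset.sum_eq_zero fun k _ => ?_
    rw [Finset.mul_sum, map_sum]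
    refine Finset.sum_eq_zero fun l _ => ?_
    rw [← mul_assoc]
    refine lmq_triple h.toAdm (hι f) (hy k) (hι (v l)) _ _ _ ?_
    rw [mul_assoc, lmq_mono h, map_smul, lmq_trc_XY h, smul_zero]
    intro hd
    have := Nat.le_of_dvd (by omega) hd
    have := l.2
    omega
  rw [e1, e2, sub_zero]

/-- first order residue constraint -/
theorem lmq_R2 {κ : K →+* K₁} {ι : A →+* A₁} {j : E₁ →ₐ[K₁] A₁} {m : ℕ} (h : Adm κ ι j m)
    (F : Subalgebra K A) (V : Submodule K A) (f : A) (hf : f ∈ V) (e X : E₁) (p₀ : A₁)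
    (hp : p₀ ∈ bx ι j (Zs F V)) : trc K₁ (ι f * j e * (j X * p₀ - p₀ * j X)) = 0 := by
  have h1 : trc K₁ (ι f * j e * (p₀ * j X)) = trc K₁ (j X * (ι f * j e) * p₀) := by
    rw [← mul_assoc, tr_mul_comm, ← mul_assoc]
  rw [mul_sub, map_sub, h1, ← mul_assoc, ← map_sub, ← sub_mul]
  refine h.trc_bx_zero (U := V) (V := Zs F V) (fun a ha b hb => (Submodule.mem_inf.1 hb).2 a ha)
    (Submodule.sub_mem _ ?_ ?_) hp
  · exact bx_mul_j_mem (mul_mem_bx hf e) X
  · exact h.j_mul_bx_mem (mul_mem_bx hf e) X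

theorem lmq_N_proved {κ : K →+* K₁} {ι : A →+* A₁} {j : E₁ →ₐ[K₁] A₁} {m : ℕ} {X Y : E₁} {ζ : K}
    {x y : K₁}
    (h : SymAdm κ ι j m X Y ζ x y) (hp : m.Prime) (F : Subalgebra K A) (hF : ∀ a ∈ F, ∀ b ∈ F, a * b = b * a)
    (V : Submodule K A) (h1 : (1 : A) ∈ V) (hVF : V ≤ Subalgebra.toSubmodule F) {q : ℕ}
    (v : Module.Basis (Fin q) K V) (hV : V * V = Subalgebra.toSubmodule F)
    (f : A) (hf : f ∈ V) (a b : ℕ) (hb : 1 ≤ b) (hbq : b + q < m)
    (p : LS A₁) (hpZ : p ∈ bx (LS.C.comp ι) (lsj j) (Zs F V))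
    (hs : LS.Intg (vv ι j X Y (fun l => (v l : A)) * p - p * vv ι j X Y (fun l => (v l : A)))) :
    trc K₁ (ι f * j (X ^ a * Y ^ b)
      * LS.coeff (vv ι j X Y (fun l => (v l : A)) * p - p * vv ι j X Y (fun l => (v l : A))) 0) = 0 := by
  classical
  set vc := vv ι j X Y (fun l => (v l : A)) with hvc
  set W : A₁ := ∑ l, ι (v l) * j (Y ^ ((l : ℕ) + 1)) with hW
  have hv : vc = LS.C (j X) + LS.mono 1 W := rfl
  have hvI : LS.Intg vc := by
    rw [hv]
    refine LS.Intg.add (LS.Intg.C _) ?_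
    intro n hn
    rw [LS.coeff_mono, if_neg (by omega)]
  have hv0 : LS.coeff vc 0 = j X := by
    rw [hv, LS.coeff_add, LS.coeff_C_zero, LS.coeff_mono, if_neg (by norm_num), add_zero]
  have hv1 : LS.coeff vc 1 = W := by
    rw [hv, LS.coeff_add, LS.coeff_C, if_neg (by norm_num), LS.coeff_mono, if_pos rfl, zero_add]
  have hZ0 : Subalgebra.toSubmodule F ⊓ perp (V * V) = ⊥ := by
    rw [hV, eq_bot_iff]
    intro a ha
    rw [Submodule.mem_bot]
    refine tr_nondeg F ha.1 fun u hu => ?_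
    exact mem_perp.1 ha.2 u hu
  have hvmem : vc ∈ bx (LS.C.comp ι) (lsj j) V := lmq_vv_mem ι j X Y V h1 v
  obtain ⟨n, hn⟩ : ∃ n : ℕ, LS.Intg (LS.tp (n : ℤ) * p) := by
    obtain ⟨N, hN⟩ := LS.exists_bound p
    refine ⟨(-N).toNat, fun i hi => ?_⟩
    rw [LS.coeff_tp_mul]
    refine hN _ ?_
    have := Int.self_le_toNat (-N)
    omega
  induction n generalizing p with
  | zero =>
    have hpi : LS.Intg p := by
      intro i hi
      have := hn i hi
      rwa [Nat.cast_zero, LS.tp_zero, one_mul] at this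
    rw [LS.coeff_sub, LS.coeff_mul_zero hvI hpi, LS.coeff_mul_zero hpi hvI, hv0]
    exact lmq_R2 h.toAdm F V f hf _ X _ (h.coeff_mem_bx hpZ 0)
  | succ n ih =>
    set p' : LS A₁ := LS.tp ((n + 1 : ℕ) : ℤ) * p with hp'
    have hp'Z : p' ∈ bx (LS.C.comp ι) (lsj j) (Zs F V) := by
      rw [hp', lmq_tp_smul (K₁ := K₁)]
      exact Submodule.smul_mem _ _ hpZ
    have hcomm : vc * p' - p' * vc = LS.tp ((n + 1 : ℕ) : ℤ) * (vc * p - p * vc) := by
      rw [hp', mul_sub, ← mul_assoc vc, ← LS.tp_comm, mul_assoc, mul_assoc]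
    have hco : ∀ i, LS.coeff (vc * p' - p' * vc) i
        = LS.coeff (vc * p - p * vc) (i - ((n + 1 : ℕ) : ℤ)) := by
      intro i
      rw [hcomm, LS.coeff_tp_mul]
    have c0 : LS.coeff p' 0 * j X = j X * LS.coeff p' 0 := by
      have e1 := hco 0
      rw [hs _ (by push_cast; omega), LS.coeff_sub, LS.coeff_mul_zero hvI hn,
        LS.coeff_mul_zero hn hvI, hv0] at e1
      exact (sub_eq_zero.1 e1).symm
    have c1 : LS.coeff (vc * p' - p' * vc) 1
        = (j X * LS.coeff p' 1 - LS.coeff p' 1 * j X) + (W * LS.coeff p' 0 - LS.coeff p' 0 * W) := by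
      rw [LS.coeff_sub, LS.coeff_mul_one hvI hn, LS.coeff_mul_one hn hvI, hv0, hv1]
      abel
    rcases Nat.eq_zero_or_pos n with hn0 | hn0
    · subst hn0
      have e1 : LS.coeff (vc * p - p * vc) 0 = LS.coeff (vc * p' - p' * vc) 1 := by
        rw [hco]
        congr 1
      rw [e1, c1, mul_add, map_add]
      rw [lmq_R2 h.toAdm F V f hf _ X _ (h.coeff_mem_bx hp'Z 1), zero_add]
      exact lmq_R1 h (Zs F V) (fun l => (v l : A)) f a b hb hbq _ (h.coeff_mem_bx hp'Z 0) c0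
    · have e1 : LS.coeff (vc * p' - p' * vc) 1 = 0 := by
        rw [hco]
        exact hs _ (by push_cast; omega)
      rw [c1] at e1
      obtain ⟨yy, hy0, hy1, hy2⟩ := LM0_core h hp F hF V hVF v (by omega) (LS.coeff p' 0)
        (LS.coeff p' 1) (h.coeff_mem_bx hp'Z 0) (h.coeff_mem_bx hp'Z 1) c0 (by
          rw [← hW]
          have e2 : LS.coeff p' 1 * j X + LS.coeff p' 0 * W
              = j X * LS.coeff p' 1 + W * LS.coeff p' 0
                - ((j X * LS.coeff p' 1 - LS.coeff p' 1 * j X)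
                  + (W * LS.coeff p' 0 - LS.coeff p' 0 * W)) := by abel
          rw [e2, e1, sub_zero])
      have hy00 : LS.coeff p' 0 = yy ⟨0, h.pos⟩ := by
        rw [hy0, Finset.sum_eq_single (⟨0, h.pos⟩ : Fin m)]
        · rw [pow_zero, map_one, mul_one]
        · intro k _ hk
          have h5 := hy2 k (fun h0 => hk (Fin.ext h0))
          rw [hZ0] at h5
          have h6 : yy k = 0 := by
            have h7 : bx1 K₁ ι (⊥ : Submodule K A) ≤ ⊥ := by
              refine Submodule.span_le.2 ?_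
              rintro _ ⟨u, hu, rfl⟩
              rw [(Submodule.mem_bot K).1 hu, map_zero]
              exact Submodule.zero_mem _
            exact (Submodule.mem_bot K₁).1 (h7 h5)
          rw [h6, zero_mul]
        · intro h0
          exact absurd (Finset.mem_univ _) h0
      have hy0Z : LS.coeff p' 0 ∈ bx1 K₁ ι (Zs F V) := by rw [hy00]; exact hy1 _
      set c : LS A₁ := LS.C (LS.coeff p' 0) with hc
      have hcZ : c ∈ bx1 (LS K₁) ((LS.C : A₁ →+* LS A₁).comp ι) (Zs F V) := lmq_C_mem h.toAdm hy0Z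
      have hcv : vc * c = c * vc := by
        refine Submodule.span_induction (p := fun c _ => vc * c = c * vc) ?_ ?_ ?_ ?_ hcZ
        · rintro _ ⟨u, hu, rfl⟩
          exact (bx_comm_ι _ _ (lsj_comm ι j h.comm) (fun b hb => hF u hu.1 b (hVF hb)) hvmem).symm
        · rw [mul_zero, zero_mul]
        · intro x y _ _ hx hy
          rw [mul_add, add_mul, hx, hy]
        · intro c x _ hx
          rw [mul_smul_comm, smul_mul_assoc, hx]
      set p'' : LS A₁ := p - LS.tp (-((n + 1 : ℕ) : ℤ)) * c with hp''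
      have hp''Z : p'' ∈ bx (LS.C.comp ι) (lsj j) (Zs F V) := by
        refine Submodule.sub_mem _ hpZ ?_
        rw [lmq_tp_smul (K₁ := K₁)]
        exact Submodule.smul_mem _ _ (bx1_le_bx_l _ _ _ hcZ)
      have hb'' : vc * p'' - p'' * vc = vc * p - p * vc := by
        rw [hp'', mul_sub, sub_mul, ← mul_assoc vc, ← LS.tp_comm, mul_assoc, mul_assoc, hcv]
        abel
      have hn'' : LS.Intg (LS.tp (n : ℤ) * p'') := by
        intro i hi
        have e3 : LS.coeff p' (i + 1) = LS.coeff p (i - n) := by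
          rw [hp', LS.coeff_tp_mul]
          congr 1
          push_cast; ring
        rw [LS.coeff_tp_mul, hp'', LS.coeff_sub, LS.coeff_tp_mul, ← e3, hc, LS.coeff_C]
        by_cases hi1 : i + 1 = 0
        · rw [if_pos (by push_cast; omega), hi1, sub_self]
        · rw [if_neg (by push_cast; omega), hn _ (by omega), sub_zero]
      have := ih p'' hp''Z (by rw [hb'']; exact hs) hn''
      rwa [hb''] at this

end LMQ1

end Vale.Agent.P199K
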