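import Vale.Agent.P199K.LM2Q

/-! # P199, section 6: LM2, duality of residues (helper30) -/

open scoped LaurentSeries
open PowerSeries

namespace Vale.Agent.P199K

open Module

section LMQ2

variable {K₁ A₁ : Type} [Field K₁] [CharZero K₁] [Ring A₁] [IsDomain A₁]
  [Algebra K₁ A₁] [FiniteDimensional K₁ A₁]

/-- LMQ2 -/
theorem lmq_lift_proved (L : Subalgebra (LS K₁) (LS A₁)) (L₀ : Subalgebra K₁ A₁)
    (hfin : finrank (LS K₁) L = finrank K₁ L₀)
    (hres : res (Subalgebra.toSubmodule L) ≤ Subalgebra.toSubmodule L₀)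
    (N : Submodule (LS K₁) (LS A₁)) (hN : N ≤ Subalgebra.toSubmodule L) (g₀ : A₁) (hg : g₀ ∈ L₀)
    (h0 : ∀ s ∈ N, LS.Intg s → trc K₁ (g₀ * LS.coeff s 0) = 0) :
    ∃ g ∈ L, LS.Intg g ∧ LS.coeff g 0 = g₀ ∧ ∀ s ∈ N, trc (LS K₁) (g * s) = 0 := by
  have hresN : res N ≤ Subalgebra.toSubmodule L₀ := (res_mono hN).trans hres
  have hresperp : res (Subalgebra.toSubmodule L ⊓ perp N)
      = Subalgebra.toSubmodule L₀ ⊓ perp (res N) := by
    apply Submodule.eq_of_le_of_finrank_eq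
    · refine le_inf ?_ ?_
      · exact (res_mono inf_le_left).trans hres
      · intro a ha
        obtain ⟨z, hz, hzi, rfl⟩ := (mem_res _ _).1 ha
        rw [mem_perp]
        intro b hb
        obtain ⟨u, hu, hui, rfl⟩ := (mem_res _ _).1 hb
        rw [← LS.coeff_mul_zero hui hzi, ← coeff_trc]
        have h1 : trc (LS K₁) (u * z) = 0 := (Submodule.mem_inf.1 hz).2 u hu
        rw [h1]
        rfl
    · have h1 := lm1_rank L hN
      have h2 := lm1_rank L₀ hresN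
      rw [finrank_res] at h2 ⊢
      omega
  have h1 : g₀ ∈ res (Subalgebra.toSubmodule L ⊓ perp N) := by
    rw [hresperp]
    refine ⟨hg, ?_⟩
    intro b hb
    obtain ⟨u, hu, hui, rfl⟩ := (mem_res _ _).1 hb
    show trc K₁ (LS.coeff u 0 * g₀) = 0
    rw [tr_mul_comm]
    exact h0 u hu hui
  obtain ⟨g, hg1, hg2, hg3⟩ := (mem_res _ _).1 h1
  refine ⟨g, (Submodule.mem_inf.1 hg1).1, hg2, hg3, fun s hs => ?_⟩
  rw [tr_mul_comm]
  exact (Submodule.mem_inf.1 hg1).2 s hs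

end LMQ2

end Vale.Agent.P199K
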