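import Vale.Agent.P199K.LM2Q

/-! # P199, section 6: LM2, LMQ3 (helper53) -/

open scoped LaurentSeries
open PowerSeries

namespace Vale.Agent.P199K

open Module

section LMQ3

variable {K A K₁ E₁ A₁ : Type} [Field K] [CharZero K] [Ring A] [IsDomain A] [Algebra K A]
  [FiniteDimensional K A] [Field K₁] [CharZero K₁] [Ring E₁] [Ring A₁] [IsDomain A₁]
  [Algebra K₁ E₁] [Algebra K₁ A₁] [FiniteDimensional K₁ A₁]

/-- LMQ3 (use for `K₁ := LS K₁`). Proof: `[g,v] ∈ F ⊠ E`, `T([g,v] p) = T(g [v,p]) = 0` for `p ∈ Z ⊠ E`, so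
`[g,v] ∈ F ⊠ E ⊓ perp (Z ⊠ E) = (F ⊓ perp Z) ⊠ E` (`lm1_bx_inf_perp` with `V := Zs F V`) and `F ⊓ perp (Zs F V) ≤ V`
(`lm1_le_of_perp F`). -/
theorem lmq_V_proved {κ : K →+* K₁} {ι : A →+* A₁} {j : E₁ →ₐ[K₁] A₁} {m : ℕ} (h : Adm κ ι j m)
    (F : Subalgebra K A) (V : Submodule K A) (hVF : V ≤ Subalgebra.toSubmodule F) (v g : A₁)
    (hv : v ∈ bx ι j (Subalgebra.toSubmodule F)) (hg : g ∈ bx ι j (Subalgebra.toSubmodule F))
    (h0 : ∀ p ∈ bx ι j (Zs F V), trc K₁ (g * (v * p - p * v)) = 0) :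
    g * v - v * g ∈ bx ι j V := by
  have h1 : g * v - v * g ∈ bx ι j (Subalgebra.toSubmodule F) :=
    Submodule.sub_mem _ (lm1_bx_mul h F hg hv) (lm1_bx_mul h F hv hg)
  have h2 : g * v - v * g ∈ perp (bx ι j (Zs F V)) := by
    rw [mem_perp]
    intro p hp
    have h3 := h0 p hp
    have e1 : trc K₁ (p * (g * v - v * g)) = trc K₁ (g * v * p) - trc K₁ (g * p * v) := by
      rw [mul_sub, map_sub]
      congr 1
      · rw [tr_mul_comm]
      · rw [← mul_assoc, tr_mul_comm (p * v) g, mul_assoc]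
    rw [e1, ← map_sub]
    rw [mul_sub, ← mul_assoc, ← mul_assoc] at h3
    exact h3
  have h3 : g * v - v * g ∈ bx ι j (Subalgebra.toSubmodule F ⊓ perp (Zs F V)) := by
    rw [← lm1_bx_inf_perp h F (V := Zs F V) inf_le_left]
    exact ⟨h1, h2⟩
  refine bx_mono ?_ h3
  refine lm1_le_of_perp F hVF inf_le_left ?_
  intro a ha ha2 w hw
  exact mem_perp.1 hw.2 a ⟨ha, ha2⟩

end LMQ3

end Vale.Agent.P199K
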