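import Vale.Agent.P199K.Defs

/-! # P199: the type synonym `LS A = A((t))` -/

open scoped TensorProduct LaurentSeries
open PowerSeries

namespace Vale.Agent.P199K

/-- Laurent series `A((t))` -/
def LS (A : Type) [Ring A] : Type := HahnSeries ℤ A

namespace LS

noncomputable instance {A : Type} [Ring A] : Ring (LS A) := inferInstanceAs (Ring (HahnSeries ℤ A))
instance {A : Type} [Ring A] [IsDomain A] : IsDomain (LS A) := inferInstanceAs (IsDomain (HahnSeries ℤ A))
noncomputable instance {K : Type} [Field K] : Field (LS K) := inferInstanceAs (Field (HahnSeries ℤ K))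
noncomputable instance {K A : Type} [Field K] [Ring A] [Algebra K A] : Algebra (LS K) (LS A) :=
  inferInstanceAs (Algebra K⸨X⸩ A⸨X⸩)

/-- coefficient -/
def coeff {A : Type} [Ring A] (x : LS A) (n : ℤ) : A := HahnSeries.coeff (Γ := ℤ) x n

/-- constants -/
noncomputable def C {A : Type} [Ring A] : A →+* LS A := (HahnSeries.C : A →+* HahnSeries ℤ A)

/-- `a t^n` -/
noncomputable def mono {A : Type} [Ring A] (n : ℤ) (a : A) : LS A := (HahnSeries.single n a : HahnSeries ℤ A)

/-- power series as Laurent series -/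
noncomputable def ofPS {A : Type} [Ring A] : PowerSeries A →+* LS A := HahnSeries.ofPowerSeries ℤ A

/-- functoriality -/
noncomputable def map {A B : Type} [Ring A] [Ring B] (f : A →+* B) : LS A →+* LS B := lauHom f

variable {A B K : Type} [Ring A] [Ring B] [Field K]

@[ext] theorem ext {x y : LS A} (h : ∀ n, coeff x n = coeff y n) : x = y :=
  HahnSeries.ext (funext h)

@[simp] theorem coeff_add (x y : LS A) (n : ℤ) : coeff (x + y) n = coeff x n + coeff y n := rfl
@[simp] theorem coeff_sub (x y : LS A) (n : ℤ) : coeff (x - y) n = coeff x n - coeff y n :=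
  HahnSeries.coeff_sub (Γ := ℤ)
@[simp] theorem coeff_zero (n : ℤ) : coeff (0 : LS A) n = 0 := rfl
@[simp] theorem coeff_map (f : A →+* B) (x : LS A) (n : ℤ) : coeff (map f x) n = f (coeff x n) := rfl
@[simp] theorem coeff_algebraMap [Algebra K A] (c : LS K) (n : ℤ) :
    coeff (algebraMap (LS K) (LS A) c) n = algebraMap K A (coeff c n) := rfl
theorem coeff_C (a : A) (n : ℤ) : coeff (C a) n = if n = 0 then a else 0 := by
  classical
  show HahnSeries.coeff (HahnSeries.single (0 : ℤ) a) n = _
  rw [HahnSeries.coeff_single]; congr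
theorem coeff_mono (k : ℤ) (a : A) (n : ℤ) : coeff (mono k a) n = if n = k then a else 0 := by
  classical
  show HahnSeries.coeff (HahnSeries.single k a) n = _
  rw [HahnSeries.coeff_single]; congr
theorem coeff_ofPS (f : PowerSeries A) (n : ℕ) : coeff (ofPS f) n = PowerSeries.coeff n f :=
  HahnSeries.ofPowerSeries_apply_coeff f n
theorem coeff_ofPS_neg (f : PowerSeries A) (n : ℤ) (hn : n < 0) : coeff (ofPS f) n = 0 := by
  show HahnSeries.coeff (HahnSeries.ofPowerSeries ℤ A f) n = 0
  rw [HahnSeries.ofPowerSeries_apply]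
  apply HahnSeries.embDomain_of_notMem_range
  rintro ⟨m, rfl⟩
  simp only [Nat.castOrderEmbedding_apply] at hn
  omega

/-- integral element (power series) -/
def Intg (x : LS A) : Prop := ∀ n : ℤ, n < 0 → coeff x n = 0

theorem intg_iff (x : LS A) : Intg x ↔ ∃ f : PowerSeries A, ofPS f = x := by
  constructor
  · intro h
    refine ⟨PowerSeries.mk (fun n => coeff x n), ?_⟩
    ext n
    by_cases hn : n < 0
    · rw [coeff_ofPS_neg _ _ hn, h n hn]
    · obtain ⟨k, rfl⟩ : ∃ k : ℕ, n = k := ⟨n.toNat, by omega⟩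
      rw [coeff_ofPS, PowerSeries.coeff_mk]
  · rintro ⟨f, rfl⟩ n hn
    exact coeff_ofPS_neg f n hn

end LS

/-- residue (reduction mod `t` of the integral elements) of a `K((t))`-subspace of `A((t))` -/
noncomputable def res {K A : Type} [Field K] [Ring A] [Algebra K A]
    (U : Submodule (LS K) (LS A)) : Submodule K A := resid (K := K) (A := A) U

theorem mem_res {K A : Type} [Field K] [Ring A] [Algebra K A] (U : Submodule (LS K) (LS A)) (a : A) :
    a ∈ res U ↔ ∃ x ∈ U, LS.Intg x ∧ LS.coeff x 0 = a := by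
  constructor
  · rintro ⟨f, hf, rfl⟩
    refine ⟨LS.ofPS f, hf, (LS.intg_iff _).2 ⟨f, rfl⟩, ?_⟩
    have := LS.coeff_ofPS f 0
    simpa using this
  · rintro ⟨x, hx, hi, rfl⟩
    obtain ⟨f, rfl⟩ := (LS.intg_iff x).1 hi
    refine ⟨f, hx, ?_⟩
    have := LS.coeff_ofPS f 0
    simpa using this.symm

end Vale.Agent.P199K
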