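import Vale.Agent.P199K.Inv

/-! # P199, section 8: property (c), good pairs, Lagrange lemma -/

open scoped TensorProduct LaurentSeries
open PowerSeries

namespace Vale.Agent.P199K

variable {K A σ : Type} [Field K] [Ring A] [Algebra K A] [Fintype σ] [DecidableEq σ]

/-- Property (c): the lowest error of a partial solution lies in `Vf ⊗ S_ν + Ce ⊗ [S,S]_ν`
(`c u - c (u.rotate (ν-1))` is the coefficient of `u` in `∑ c_{k,h} (s_k h - h s_k)`). -/
def PropC (f : NPS σ A) (Vf Ce : Submodule K A) : Prop :=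
  ∀ (ν : ℕ) (b : σ → NPS (Fin 2) K) (hb : ∀ γ, b γ [] = 0), 1 ≤ ν → NPS.Ord ν (substHom b hb f) →
    ∃ c : List (Fin 2) → A, (∀ u, c u ∈ Ce) ∧
      ∀ u : List (Fin 2), u.length = ν → (substHom b hb f) u - (c u - c (u.rotate (ν - 1))) ∈ Vf

/-- good pair -/
structure GoodPair (f : NPS σ A) (Vf Ce : Submodule K A) (e₁ e₂ : σ → K) : Prop where
  ker1 : lin K f e₁ = 0
  ker2 : lin K f e₂ = 0
  iso : quad f e₁ e₂ ∈ Vf
  onto : ∀ c₁ ∈ Ce, ∀ c₂ ∈ Ce, ∃ η : σ → K, lin K f η = 0 ∧ quad f e₁ η - c₁ ∈ Vf ∧ quad f e₂ η - c₂ ∈ Vf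

/-! ### coefficients of products and substitutions -/

theorem lagr_mul_sum {τ : Type} (f g : NPS τ A) (u : List τ) :
    (f * g) u = ∑ i ∈ Finset.range (u.length + 1), f (u.take i) * g (u.drop i) := by
  induction u generalizing f with
  | nil => simp [NPS.mul_nil]
  | cons x u ih =>
    rw [NPS.mul_cons, ih, List.length_cons, Finset.sum_range_succ' _ (u.length + 1)]
    simp only [List.take_succ_cons, List.drop_succ_cons, List.take_zero, List.drop_zero, NPS.dl_apply]
    rw [add_comm]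

theorem lagr_sum_split (F : ℕ → A) (j : ℕ) : ∑ i ∈ Finset.range (j + 3), F i
    = F 0 + ∑ i ∈ Finset.range j, F (i + 1) + F (j + 1) + F (j + 2) := by
  rw [Finset.sum_range_succ, Finset.sum_range_succ, Finset.sum_range_succ']
  abel

/-- coefficient formula of the substitution -/
theorem lagr_subst_nil (b : σ → NPS (Fin 2) K) (hb : ∀ γ, b γ [] = 0) (f : NPS σ A) :
    (substHom b hb f) [] = f [] := by
  rw [NPS.eq_C_add_sum f, map_add, (substHom_spec b hb).1, map_sum]
  rw [NPS.add_apply, NPS.add_apply, NPS.C_nil, NPS.C_nil]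
  congr 1
  have e1 : ∀ (g : σ → NPS (Fin 2) A), (∀ γ, g γ [] = 0) → (∑ γ, g γ) [] = 0 := by
    intro g hg
    rw [show (∑ γ, g γ : NPS (Fin 2) A) [] = ∑ γ, g γ [] from Finset.sum_apply _ _ _]
    exact Finset.sum_eq_zero fun γ _ => hg γ
  have e2 : ∀ (g : σ → NPS σ A), (∀ γ, g γ [] = 0) → (∑ γ, g γ) [] = 0 := by
    intro g hg
    rw [show (∑ γ, g γ : NPS σ A) [] = ∑ γ, g γ [] from Finset.sum_apply _ _ _]
    exact Finset.sum_eq_zero fun γ _ => hg γ
  rw [e1, e2]
  · intro γ
    rw [NPS.mul_nil]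
    simp [NPS.X]
  · intro γ
    rw [map_mul, (substHom_spec b hb).2.1, NPS.mul_nil, NPS.map_apply, hb γ, map_zero, zero_mul]

theorem lagr_subst_sum (b : σ → NPS (Fin 2) K) (hb : ∀ γ, b γ [] = 0) (f : NPS σ A)
    (u : List (Fin 2)) (hu : u ≠ []) :
    (substHom b hb f) u = ∑ γ, ∑ i ∈ Finset.range u.length,
      b γ (u.take (i + 1)) • (substHom b hb (NPS.dl γ f)) (u.drop (i + 1)) := by
  conv_lhs => rw [NPS.eq_C_add_sum f]
  rw [map_add, (substHom_spec b hb).1, map_sum, NPS.add_apply]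
  obtain ⟨x, v, rfl⟩ := List.exists_cons_of_ne_nil hu
  rw [NPS.C_cons, zero_add,
    show (∑ γ, substHom b hb (NPS.X γ * NPS.dl γ f) : NPS (Fin 2) A) (x :: v)
      = ∑ γ, (substHom b hb (NPS.X γ * NPS.dl γ f)) (x :: v) from Finset.sum_apply _ _ _]
  refine Finset.sum_congr rfl fun γ _ => ?_
  rw [map_mul, (substHom_spec b hb).2.1, lagr_mul_sum, Finset.sum_range_succ']
  rw [List.take_zero, NPS.map_apply, hb γ, map_zero, zero_mul, add_zero]
  refine Finset.sum_congr rfl fun i _ => ?_
  rw [NPS.map_apply, Algebra.smul_def]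

/-- LAGR1: second order expansion of a substitution. If `b` has order `≥ 1` and `c` has order `≥ k ≥ 1`, the coefficients of
length `≤ k+1` of `f(b+c) - f(b)` are those of `f₁(c) + f₂(b,c) + f₂(c,b)` (for `k ≥ 2`), where the linear part of
`b` is `e₁ s₁ + e₂ s₂`. -/
theorem subst_perturb (f : NPS σ A) (b c : σ → NPS (Fin 2) K) (hb : ∀ γ, b γ [] = 0) (k : ℕ) (hk : 2 ≤ k)
    (hc : ∀ γ, NPS.Ord k (c γ)) (hbc : ∀ γ, (b + c) γ [] = 0) :
    (∀ u : List (Fin 2), u.length < k → (substHom (b + c) hbc f) u = (substHom b hb f) u) ∧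
    (∀ u : List (Fin 2), u.length = k →
      (substHom (b + c) hbc f) u = (substHom b hb f) u + lin K f (fun γ => c γ u)) ∧
    (∀ u : List (Fin 2), ∀ x y : Fin 2, (x :: (u ++ [y])).length = k + 1 →
      (substHom (b + c) hbc f) (x :: (u ++ [y])) = (substHom b hb f) (x :: (u ++ [y]))
        + lin K f (fun γ => c γ (x :: (u ++ [y])))
        + quad f (fun γ => b γ [x]) (fun γ => c γ (u ++ [y]))
        + quad f (fun γ => c γ (x :: u)) (fun γ => b γ [y])) := by
  have hbc' : ∀ γ u, (b + c) γ u = b γ u + c γ u := fun γ u => rfl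
  -- claim 1
  have h1 : ∀ (n : ℕ) (f : NPS σ A) (u : List (Fin 2)), u.length = n → n < k →
      (substHom (b + c) hbc f) u = (substHom b hb f) u := by
    intro n
    induction n using Nat.strong_induction_on with
    | _ n ih =>
      intro f u hu hn
      by_cases hu0 : u = []
      · rw [hu0, lagr_subst_nil, lagr_subst_nil]
      · rw [lagr_subst_sum _ _ _ _ hu0, lagr_subst_sum _ _ _ _ hu0]
        refine Finset.sum_congr rfl fun γ _ => Finset.sum_congr rfl fun i hi => ?_
        rw [Finset.mem_range] at hi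
        rw [ih (u.drop (i + 1)).length (by rw [List.length_drop]; omega) _ _ rfl
          (by rw [List.length_drop]; omega), hbc', hc γ (u.take (i + 1))
          (by rw [List.length_take]; omega), add_zero]
  -- claim 2
  have h2 : ∀ (f : NPS σ A) (u : List (Fin 2)), u.length = k →
      (substHom (b + c) hbc f) u = (substHom b hb f) u + lin K f (fun γ => c γ u) := by
    intro f u hu
    have hu0 : u ≠ [] := by
      rintro rfl
      simp at hu
      omega
    rw [lagr_subst_sum _ _ _ _ hu0, lagr_subst_sum _ _ _ _ hu0]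
    unfold lin
    simp only [LinearMap.coe_mk, AddHom.coe_mk]
    rw [← Finset.sum_add_distrib]
    refine Finset.sum_congr rfl fun γ _ => ?_
    obtain ⟨j, hj⟩ : ∃ j, k = j + 1 := ⟨k - 1, by omega⟩
    rw [hu, hj, Finset.sum_range_succ, Finset.sum_range_succ, add_assoc]
    congr 1
    · refine Finset.sum_congr rfl fun i hi => ?_
      rw [Finset.mem_range] at hi
      rw [h1 (u.drop (i + 1)).length _ _ rfl
          (by rw [List.length_drop]; omega), hbc', hc γ (u.take (i + 1))
          (by rw [List.length_take]; omega), add_zero]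
    · rw [List.take_of_length_le (by omega), List.drop_of_length_le (by omega), lagr_subst_nil,
        lagr_subst_nil, hbc', add_smul]
      rfl
  refine ⟨fun u hu => h1 _ f u rfl hu, fun u hu => h2 f u hu, fun u x y hu => ?_⟩
  have hu1 : u.length + 1 = k := by
    simp at hu
    omega
  rw [lagr_subst_sum _ _ _ _ (List.cons_ne_nil _ _), lagr_subst_sum _ _ _ _ (List.cons_ne_nil _ _)]
  unfold lin quad
  simp only [LinearMap.coe_mk, AddHom.coe_mk]
  rw [← Finset.sum_add_distrib, ← Finset.sum_add_distrib, ← Finset.sum_add_distrib]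
  refine Finset.sum_congr rfl fun γ _ => ?_
  obtain ⟨j, hj⟩ : ∃ j, k = j + 2 := ⟨k - 2, by omega⟩
  rw [hu, show k + 1 = j + 3 by omega, lagr_sum_split, lagr_sum_split]
  have e1 : ∀ i ∈ Finset.range j,
      (b + c) γ ((x :: (u ++ [y])).take (i + 1 + 1)) •
        (substHom (b + c) hbc (NPS.dl γ f)) ((x :: (u ++ [y])).drop (i + 1 + 1)) =
      b γ ((x :: (u ++ [y])).take (i + 1 + 1)) •
        (substHom b hb (NPS.dl γ f)) ((x :: (u ++ [y])).drop (i + 1 + 1)) := by
    intro i hi
    rw [Finset.mem_range] at hi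
    rw [h1 ((x :: (u ++ [y])).drop (i + 1 + 1)).length _ _ rfl
          (by rw [List.length_drop]; omega), hbc', hc γ ((x :: (u ++ [y])).take (i + 1 + 1))
          (by rw [List.length_take]; omega), add_zero]
  rw [Finset.sum_congr rfl e1]
  have e2 : (x :: (u ++ [y])).take (0 + 1) = [x] := by simp
  have e3 : (x :: (u ++ [y])).drop (0 + 1) = u ++ [y] := by simp
  have e4 : (x :: (u ++ [y])).take (j + 1 + 1) = x :: u := by
    rw [List.take_succ_cons, List.take_append_of_le_length (by omega),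
      List.take_of_length_le (by omega)]
  have e5 : (x :: (u ++ [y])).drop (j + 1 + 1) = [y] := by
    rw [List.drop_succ_cons, List.drop_append_of_le_length (by omega),
      List.drop_of_length_le (by omega), List.nil_append]
  have e6 : (x :: (u ++ [y])).take (j + 2 + 1) = x :: (u ++ [y]) :=
    List.take_of_length_le (by rw [hu]; omega)
  have e7 : (x :: (u ++ [y])).drop (j + 2 + 1) = [] :=
    List.drop_of_length_le (by rw [hu]; omega)
  rw [e2, e3, e4, e5, e6, e7, lagr_subst_nil, lagr_subst_nil, h1 1 _ [y] rfl (by omega),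
    h2 _ (u ++ [y]) (by simp; omega), hbc', hbc', hbc', hc γ [x] (by simp; omega)]
  have e8 : (substHom b hb (NPS.dl γ f)) [y] = ∑ γ', b γ' [y] • f [γ, γ'] := by
    rw [lagr_subst_sum _ _ _ _ (List.cons_ne_nil _ _)]
    refine Finset.sum_congr rfl fun γ' _ => ?_
    rw [show [y].length = 1 from rfl, Finset.sum_range_one]
    rw [show [y].take (0 + 1) = [y] from rfl, show [y].drop (0 + 1) = [] from rfl, lagr_subst_nil]
    rfl
  rw [e8]
  generalize (∑ i ∈ Finset.range j, b γ ((x :: (u ++ [y])).take (i + 1 + 1)) •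
        (substHom b hb (NPS.dl γ f)) ((x :: (u ++ [y])).drop (i + 1 + 1))) = R
  unfold lin
  simp only [LinearMap.coe_mk, AddHom.coe_mk, NPS.dl_apply, add_zero, smul_add, add_smul,
    Finset.smul_sum, smul_smul, add_mul, Finset.sum_add_distrib]
  abel

/-- first order coefficients of a substitution -/
theorem lagr_subst_one (b : σ → NPS (Fin 2) K) (hb : ∀ γ, b γ [] = 0) (f : NPS σ A) (x : Fin 2) :
    (substHom b hb f) [x] = lin K f (fun γ => b γ [x]) := by
  rw [lagr_subst_sum _ _ _ _ (List.cons_ne_nil _ _)]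
  unfold lin
  simp only [LinearMap.coe_mk, AddHom.coe_mk]
  refine Finset.sum_congr rfl fun γ' _ => ?_
  rw [show [x].length = 1 from rfl, Finset.sum_range_one]
  rw [show [x].take (0 + 1) = [x] from rfl, show [x].drop (0 + 1) = [] from rfl, lagr_subst_nil]
  rfl

/-- second order coefficients of a substitution -/
theorem lagr_subst_two (b : σ → NPS (Fin 2) K) (hb : ∀ γ, b γ [] = 0) (f : NPS σ A) (x y : Fin 2) :
    (substHom b hb f) [x, y] = lin K f (fun γ => b γ [x, y])
      + quad f (fun γ => b γ [x]) (fun γ => b γ [y]) := by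
  rw [lagr_subst_sum _ _ _ _ (List.cons_ne_nil _ _)]
  unfold quad
  rw [show lin K f (fun γ => b γ [x, y]) = ∑ γ, b γ [x, y] • f [γ] from rfl, ← Finset.sum_add_distrib]
  refine Finset.sum_congr rfl fun γ _ => ?_
  rw [show [x, y].length = 2 from rfl, Finset.sum_range_succ, Finset.sum_range_one]
  rw [show [x, y].take (0 + 1) = [x] from rfl, show [x, y].drop (0 + 1) = [y] from rfl,
    show [x, y].take (1 + 1) = [x, y] from rfl, show [x, y].drop (1 + 1) = [] from rfl,
    lagr_subst_nil, lagr_subst_one, add_comm]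
  congr 1
  rw [show lin K (NPS.dl γ f) (fun γ' => b γ' [y]) = ∑ γ', b γ' [y] • f [γ, γ'] from rfl,
    Finset.smul_sum]
  simp only [smul_smul]

/-- consequences of (c) at `ν = 2` -/
theorem propC_two (f : NPS σ A) (hf0 : f [] = 0) (Vf Ce : Submodule K A) (hVC : Vf ≤ Ce)
    (hC : PropC f Vf Ce) (η η' : σ → K) (h : lin K f η = 0) (h' : lin K f η' = 0) :
    quad f η η' ∈ Ce ∧ quad f η η ∈ Vf ∧ quad f η η' + quad f η' η ∈ Vf := by
  obtain ⟨b, hbdef⟩ : ∃ b : σ → NPS (Fin 2) K,
      b = fun γ u => if u = [0] then η γ else if u = [1] then η' γ else 0 := ⟨_, rfl⟩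
  have hb : ∀ γ, b γ [] = 0 := fun γ => by rw [hbdef]; rfl
  have b0 : (fun γ => b γ [0]) = η := by rw [hbdef]; rfl
  have b1 : (fun γ => b γ [1]) = η' := by rw [hbdef]; rfl
  have b2 : ∀ x y : Fin 2, (fun γ => b γ [x, y]) = 0 := by
    intro x y
    rw [hbdef]
    funext γ
    simp
  have hO : NPS.Ord 2 (substHom b hb f) := by
    intro u hu
    match u, hu with
    | [], _ => rw [lagr_subst_nil, hf0]
    | [x], _ =>
      rw [lagr_subst_one]
      match x with
      | 0 => rw [b0, h]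
      | 1 => rw [b1, h']
  obtain ⟨c, hc, H⟩ := hC 2 b hb (by norm_num) hO
  have H2 : ∀ x y : Fin 2, quad f (fun γ => b γ [x]) (fun γ => b γ [y])
      - (c [x, y] - c [y, x]) ∈ Vf := by
    intro x y
    have := H [x, y] rfl
    rw [lagr_subst_two, b2, map_zero, zero_add] at this
    exact this
  have h00 := H2 0 0
  have h01 := H2 0 1
  have h10 := H2 1 0
  rw [b0] at h00
  rw [b0, b1] at h01 h10
  rw [sub_self, sub_zero] at h00
  refine ⟨?_, h00, ?_⟩
  · have := Ce.add_mem (hVC h01) (Ce.sub_mem (hc [0, 1]) (hc [1, 0]))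
    rwa [sub_add_cancel] at this
  · have := Vf.add_mem h01 h10
    convert this using 1
    abel

/-- one step of the Lagrange lemma -/
theorem lagr_step (f : NPS σ A) (hf0 : f [] = 0) (Ce : Submodule K A)
    (hVC : LinearMap.range (lin K f) ≤ Ce)
    (hC : PropC f (LinearMap.range (lin K f)) Ce) (e₁ e₂ : σ → K)
    (hg : GoodPair f (LinearMap.range (lin K f)) Ce e₁ e₂) (k : ℕ) (hk : 2 ≤ k)
    (b : σ → NPS (Fin 2) K) (hb : ∀ γ, b γ [] = 0)
    (hb0 : (fun γ => b γ [0]) = e₁) (hb1 : (fun γ => b γ [1]) = e₂)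
    (hO : NPS.Ord (k + 1) (substHom b hb f)) :
    ∃ (b' : σ → NPS (Fin 2) K) (hb' : ∀ γ, b' γ [] = 0), (fun γ => b' γ [0]) = e₁ ∧
      (fun γ => b' γ [1]) = e₂ ∧ NPS.Ord (k + 2) (substHom b' hb' f) ∧
      ∀ γ u, u.length < k → b' γ u = b γ u := by
  obtain ⟨c, hc, H⟩ := hC (k + 1) b hb (by omega) hO
  -- choose the kernel vectors
  have hη : ∀ h : List (Fin 2), ∃ η : σ → K, lin K f η = 0 ∧
      quad f e₁ η - (- c (0 :: h)) ∈ LinearMap.range (lin K f) ∧
      quad f e₂ η - (- c (1 :: h)) ∈ LinearMap.range (lin K f) := fun h =>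
    hg.onto _ (Ce.neg_mem (hc _)) _ (Ce.neg_mem (hc _))
  choose η hη1 hη2 hη3 using hη
  have hker : ∀ x : Fin 2, lin K f (fun γ => b γ [x]) = 0 := by
    intro x
    match x with
    | 0 => rw [hb0]; exact hg.ker1
    | 1 => rw [hb1]; exact hg.ker2
  have hηx : ∀ (x : Fin 2) (h : List (Fin 2)),
      quad f (fun γ => b γ [x]) (η h) + c (x :: h) ∈ LinearMap.range (lin K f) := by
    intro x h
    match x with
    | 0 => rw [hb0]; have := hη2 h; rwa [sub_neg_eq_add] at this
    | 1 => rw [hb1]; have := hη3 h; rwa [sub_neg_eq_add] at this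
  -- choose the last components
  have hβ : ∀ u : List (Fin 2), ∀ x y : Fin 2, (x :: (u ++ [y])).length = k + 1 →
      (substHom b hb f) (x :: (u ++ [y])) + quad f (fun γ => b γ [x]) (η (u ++ [y]))
        + quad f (η (x :: u)) (fun γ => b γ [y]) ∈ LinearMap.range (lin K f) := by
    intro u x y hu
    have h1 := H (x :: (u ++ [y])) hu
    have hrot : (x :: (u ++ [y])).rotate (k + 1 - 1) = y :: (x :: u) := by
      have hl : (x :: u).length = k + 1 - 1 := by simp at hu ⊢; omega
      rw [show x :: (u ++ [y]) = (x :: u) ++ [y] from rfl, ← hl, List.rotate_append_length_eq]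
      rfl
    rw [hrot] at h1
    have h2 := hηx x (u ++ [y])
    have h3 := hηx y (x :: u)
    have h4 := (propC_two f hf0 _ Ce hVC hC (fun γ => b γ [y]) (η (x :: u)) (hker y) (hη1 _)).2.2
    have := Submodule.sub_mem _ (Submodule.add_mem _ (Submodule.add_mem _ h1 h2) h4) h3
    convert this using 1
    abel
  have hβ' : ∀ v : List (Fin 2), v.length = k + 1 → ∃ β : σ → K, ∀ u x y, v = x :: (u ++ [y]) →
      lin K f β = -((substHom b hb f) (x :: (u ++ [y])) + quad f (fun γ => b γ [x]) (η (u ++ [y]))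
        + quad f (η (x :: u)) (fun γ => b γ [y])) := by
    intro v hv
    by_cases hex : ∃ u x y, v = x :: (u ++ [y])
    · obtain ⟨u, x, y, rfl⟩ := hex
      obtain ⟨β, hβ1⟩ := Submodule.neg_mem _ (hβ u x y hv)
      refine ⟨β, fun u' x' y' h => ?_⟩
      rw [hβ1]
      rw [List.cons.injEq] at h
      obtain ⟨rfl, h⟩ := h
      have := List.append_inj' h rfl
      obtain ⟨rfl, h5⟩ := this
      rw [List.cons.injEq] at h5
      obtain ⟨rfl, -⟩ := h5
      rfl
    · exact ⟨0, fun u x y h => absurd ⟨u, x, y, h⟩ hex⟩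
  choose β hβ2 using hβ'
  obtain ⟨d, hd⟩ : ∃ d : σ → NPS (Fin 2) K, d = fun γ u => if u.length = k then η u γ else
      if h : u.length = k + 1 then β u h γ else 0 := ⟨_, rfl⟩
  have hdk : ∀ u, u.length = k → (fun γ => d γ u) = η u := by
    intro u hu
    rw [hd]
    funext γ
    simp [hu]
  have hdk1 : ∀ u, (h : u.length = k + 1) → (fun γ => d γ u) = β u h := by
    intro u hu
    rw [hd]
    funext γ
    simp [hu]
  have hdO : ∀ γ, NPS.Ord k (d γ) := by
    intro γ u hu
    rw [hd]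
    have h1 : ¬ u.length = k := by omega
    have h2 : ¬ u.length = k + 1 := by omega
    simp [h1, h2]
  have hbd : ∀ γ, (b + d) γ [] = 0 := fun γ => by
    rw [show (b + d) γ [] = b γ [] + d γ [] from rfl, hb γ, hdO γ [] (by simp; omega), add_zero]
  obtain ⟨p1, p2, p3⟩ := subst_perturb f b d hb k hk hdO hbd
  have hsm : ∀ γ u, u.length < k → (b + d) γ u = b γ u := fun γ u hu => by
    rw [show (b + d) γ u = b γ u + d γ u from rfl, hdO γ u hu, add_zero]
  refine ⟨b + d, hbd, ?_, ?_, ?_, hsm⟩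
  · rw [← hb0]
    funext γ
    exact hsm γ [0] (by simp; omega)
  · rw [← hb1]
    funext γ
    exact hsm γ [1] (by simp; omega)
  · intro u hu
    rcases Nat.lt_or_ge u.length k with h | h
    · rw [p1 u h]
      exact hO u (by omega)
    · rcases Nat.lt_or_ge u.length (k + 1) with h' | h'
      · rw [p2 u (by omega), hO u h', hdk u (by omega), hη1, add_zero]
      · have hlen : u.length = k + 1 := by omega
        obtain ⟨x, w, rfl⟩ := List.exists_cons_of_length_eq_add_one hlen
        have hw : w ≠ [] := by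
          rintro rfl
          simp at hlen
          omega
        obtain ⟨v, y, rfl⟩ : ∃ v y, w = v ++ [y] := by
          rcases List.eq_nil_or_concat w with h0 | ⟨v, y, hv⟩
          · exact absurd h0 hw
          · exact ⟨v, y, by rw [hv]; simp⟩
        rw [p3 v x y hlen, hdk1 _ hlen, hβ2 _ hlen v x y rfl,
          hdk (v ++ [y]) (by simp at hlen ⊢; omega), hdk (x :: v) (by simp at hlen ⊢; omega)]
        abel

/-- Lagrange lemma -/
theorem lagrange (f : NPS σ A) (hf0 : f [] = 0) (Ce : Submodule K A)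
    (hVC : LinearMap.range (lin K f) ≤ Ce)
    (hC : PropC f (LinearMap.range (lin K f)) Ce) (e₁ e₂ : σ → K)
    (hg : GoodPair f (LinearMap.range (lin K f)) Ce e₁ e₂) :
    ∃ (b : σ → NPS (Fin 2) K) (hb : ∀ γ, b γ [] = 0), (∀ γ, b γ [0] = e₁ γ) ∧ (∀ γ, b γ [1] = e₂ γ) ∧
      substHom b hb f = 0 := by
  -- quadratic start
  have hq : ∀ x y : Fin 2, quad f (fun γ => (if x = 0 then e₁ else e₂) γ)
      (fun γ => (if y = 0 then e₁ else e₂) γ) ∈ LinearMap.range (lin K f) := by
    have h11 := propC_two f hf0 _ Ce hVC hC e₁ e₂ hg.ker1 hg.ker2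
    have h22 := propC_two f hf0 _ Ce hVC hC e₂ e₁ hg.ker2 hg.ker1
    intro x y
    match x, y with
    | 0, 0 => exact h11.2.1
    | 0, 1 => exact hg.iso
    | 1, 0 =>
      have := Submodule.sub_mem _ h11.2.2 hg.iso
      rwa [add_sub_cancel_left] at this
    | 1, 1 => exact h22.2.1
  have hq' : ∀ x y : Fin 2, ∃ β : σ → K, lin K f β =
      - quad f (fun γ => (if x = 0 then e₁ else e₂) γ) (fun γ => (if y = 0 then e₁ else e₂) γ) :=
    fun x y => Submodule.neg_mem _ (hq x y)
  choose β hβ using hq'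
  obtain ⟨b0, hb0⟩ : ∃ b0 : σ → NPS (Fin 2) K, b0 = fun γ u => match u with
      | [x] => (if x = 0 then e₁ else e₂) γ
      | [x, y] => β x y γ
      | _ => 0 := ⟨_, rfl⟩
  have hb0n : ∀ γ, b0 γ [] = 0 := fun γ => by rw [hb0]
  have hb01 : ∀ x, (fun γ => b0 γ [x]) = if x = 0 then e₁ else e₂ := fun x => by rw [hb0]
  have hb02 : ∀ x y, (fun γ => b0 γ [x, y]) = β x y := fun x y => by rw [hb0]
  have hO0 : NPS.Ord 3 (substHom b0 hb0n f) := by
    intro u hu
    match u, hu with
    | [], _ => rw [lagr_subst_nil, hf0]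
    | [x], _ =>
      rw [lagr_subst_one, hb01]
      match x with
      | 0 => exact hg.ker1
      | 1 => exact hg.ker2
    | [x, y], _ =>
      rw [lagr_subst_two, hb02, hβ, hb01, hb01, neg_add_cancel]
  -- the sequence of partial solutions
  let T (k : ℕ) : Type := {b : σ → NPS (Fin 2) K // ∃ hb : ∀ γ, b γ [] = 0,
    (fun γ => b γ [0]) = e₁ ∧ (fun γ => b γ [1]) = e₂ ∧ NPS.Ord (k + 3) (substHom b hb f)}
  have hstep : ∀ (k : ℕ) (b : T k), ∃ b' : T (k + 1), ∀ γ u, u.length < k + 2 →
      b'.1 γ u = b.1 γ u := by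
    rintro k ⟨b, hb, h0, h1, hO⟩
    obtain ⟨b', hb', h0', h1', hO', h⟩ := lagr_step f hf0 Ce hVC hC e₁ e₂ hg (k + 2) (by omega)
      b hb h0 h1 hO
    exact ⟨⟨b', hb', h0', h1', hO'⟩, h⟩
  choose nx hnx using hstep
  let s : (k : ℕ) → T k := fun k => Nat.rec ⟨b0, hb0n, hb01 0, hb01 1, hO0⟩ (fun k b => nx k b) k
  have hs : ∀ k γ u, u.length < k + 2 → (s (k + 1)).1 γ u = (s k).1 γ u := fun k => hnx k (s k)
  have hs' : ∀ k l γ u, u.length < k + 2 → (s (k + l)).1 γ u = (s k).1 γ u := by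
    intro k l γ u hu
    induction l with
    | zero => rfl
    | succ l ih => rw [← add_assoc, hs _ _ _ (by omega), ih]
  obtain ⟨b, hb⟩ : ∃ b : σ → NPS (Fin 2) K, b = fun γ u => (s u.length).1 γ u := ⟨_, rfl⟩
  have hbs : ∀ k γ u, u.length < k + 2 → b γ u = (s k).1 γ u := by
    intro k γ u hu
    rw [hb]
    show (s u.length).1 γ u = _
    rcases Nat.le_total u.length k with h | h
    · obtain ⟨l, rfl⟩ := Nat.exists_eq_add_of_le h
      exact (hs' _ _ _ _ (by omega)).symm
    · obtain ⟨l, hl⟩ := Nat.exists_eq_add_of_le h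
      rw [hl]
      exact hs' _ _ _ _ hu
  have hbn : ∀ γ, b γ [] = 0 := fun γ => by
    rw [hbs 0 γ [] (by simp)]
    exact (s 0).2.choose γ
  refine ⟨b, hbn, fun γ => ?_, fun γ => ?_, ?_⟩
  · rw [hbs 0 γ [0] (by simp)]
    exact congrFun (s 0).2.choose_spec.1 γ
  · rw [hbs 0 γ [1] (by simp)]
    exact congrFun (s 0).2.choose_spec.2.1 γ
  · ext u
    obtain ⟨hsn, -, -, hsO⟩ := (s u.length).2
    have h1 := (subst_perturb f (s u.length).1 (b - (s u.length).1) hsn (u.length + 2) (by omega)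
      (by
        intro γ v hv
        show b γ v - (s u.length).1 γ v = 0
        rw [hbs u.length γ v hv, sub_self]) (by
        intro γ
        show (s u.length).1 γ [] + (b γ [] - (s u.length).1 γ []) = 0
        rw [add_sub_cancel, hbn])).1 u (by omega)
    have h2 : (s u.length).1 + (b - (s u.length).1) = b := add_sub_cancel _ _
    have h3 : ∀ (b' : σ → NPS (Fin 2) K) (hb' : ∀ γ, b' γ [] = 0), b' = b →
        (substHom (A := A) b' hb' f) u = (substHom b hbn f) u := by
      rintro b' hb' rfl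
      rfl
    rw [h3 _ _ h2] at h1
    rw [h1, hsO u (by omega)]
    rfl

end Vale.Agent.P199K
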