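import Vale.Agent.P199K.Subst

/-! # P199: small facts used in the main step -/

namespace Vale.Agent.P199K

open Polynomial

variable {K A σ τ : Type} [Field K] [Ring A] [Algebra K A]

/-- the constant term as an algebra hom -/
def nilHom (K : Type) {A σ : Type} [Field K] [Ring A] [Algebra K A] : NPS σ A →ₐ[K] A where
  toFun f := f []
  map_one' := rfl
  map_mul' f g := NPS.mul_nil f g
  map_zero' := rfl
  map_add' _ _ := rfl
  commutes' _ := rfl

theorem ff_nil [FiniteDimensional K A] (w : NPS σ A) : ff K w [] = 0 := by
  show nilHom K (aeval w (minpoly K (w []))) = 0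
  rw [← Polynomial.aeval_algHom_apply]
  exact minpoly.aeval K (w [])

theorem aeval_substHom [Fintype σ] [DecidableEq σ] [Fintype τ] [DecidableEq τ]
    (b : σ → NPS τ K) (hb : ∀ γ, b γ [] = 0) (w : NPS σ A) (p : K[X]) :
    aeval (substHom b hb w) p = substHom b hb (aeval w p) := by
  let φ : NPS σ A →ₐ[K] NPS τ A :=
    { substHom (A := A) b hb with
      commutes' := fun c => (substHom_spec (A := A) b hb).1 _ }
  exact Polynomial.aeval_algHom_apply φ w p

end Vale.Agent.P199K
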