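import Vale.Agent.P199K.ResStmt
import Vale.Agent.P199K.ExpF
import Vale.Agent.P199K.PI
import Vale.Agent.P199K.ResPr
import Vale.Agent.P199K.MainAux

/-! # P199, Lemma N (helper30) -/

open scoped TensorProduct LaurentSeries
open PowerSeries

namespace Vale.Agent.P199K

namespace LemN

variable {S : Stg} (w₀ : NPS (Fin 2) S.A)

/-- `eh` on scalars -/
theorem eh_C (P : Trip S) (d : ExpD P.K P.A P.σ) (a : P.A) :
    P.eh d (NPS.C a) = NPS.C (LS.C (d.ι a)) :=
  (expHom_spec d.ι (d.j : d.E₁ →+* d.A₁) (P.d_comm d) d.ε d.p d.hp).1 a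

/-- `eh` is semilinear -/
theorem eh_smul (P : Trip S) (d : ExpD P.K P.A P.σ) (c : P.K) (f : NPS P.σ P.A) :
    P.eh d (c • f) = (LS.C (d.κ c) : LS d.K₁) • P.eh d f := by
  have h1 : c • f = NPS.C (algebraMap P.K P.A c) * f := by
    rw [Algebra.smul_def]; rfl
  rw [h1, map_mul, eh_C, d.adm.ι_alg, Algebra.smul_def, NPS.algebraMap_apply, LS.algebraMap_C]

/-- the linear part of a product -/
theorem lin_mul {K A σ : Type} [Field K] [Ring A] [Algebra K A] [Fintype σ] (f g : NPS σ A)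
    (δ : σ → K) : lin K (f * g) δ = lin K f δ * g [] + f [] * lin K g δ := by
  show ∑ γ, δ γ • (f * g) [γ] = (∑ γ, δ γ • f [γ]) * g [] + f [] * ∑ γ, δ γ • g [γ]
  rw [Finset.sum_mul, Finset.mul_sum, ← Finset.sum_add_distrib]
  refine Finset.sum_congr rfl (fun γ _ => ?_)
  rw [NPS.mul_cons, NPS.mul_nil, NPS.dl_apply, smul_add, smul_mul_assoc, mul_smul_comm, add_comm]

theorem lin_smul {K A σ : Type} [Field K] [Ring A] [Algebra K A] [Fintype σ] (f : NPS σ A)
    (c : K) (δ : σ → K) : lin K (c • f) δ = c • lin K f δ := by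
  show ∑ γ, δ γ • (c • f) [γ] = c • ∑ γ, δ γ • f [γ]
  rw [Finset.smul_sum]
  refine Finset.sum_congr rfl (fun γ _ => ?_)
  rw [NPS.smul_apply, smul_comm]

theorem lin_add {K A σ : Type} [Field K] [Ring A] [Algebra K A] [Fintype σ] (f g : NPS σ A)
    (δ : σ → K) : lin K (f + g) δ = lin K f δ + lin K g δ := by
  show ∑ γ, δ γ • (f + g) [γ] = (∑ γ, δ γ • f [γ]) + ∑ γ, δ γ • g [γ]
  rw [← Finset.sum_add_distrib]
  refine Finset.sum_congr rfl (fun γ _ => ?_)
  rw [NPS.add_apply, smul_add]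

/-- if `T(w₁(δ) W^k) = 0` for all `k` then the same for the powers of `w` -/
theorem tr_lin_pow {K A σ : Type} [Field K] [Ring A] [Algebra K A] [Fintype σ] (w : NPS σ A)
    (δ : σ → K) (h : ∀ k : ℕ, trc K (lin K w δ * (w []) ^ k) = 0) (k : ℕ) :
    ∀ l : ℕ, trc K (lin K (w ^ k) δ * (w []) ^ l) = 0 := by
  induction k with
  | zero =>
    intro l
    have h1 : lin K (w ^ 0) δ = 0 := by
      show ∑ γ, δ γ • (w ^ 0) [γ] = 0
      refine Finset.sum_eq_zero (fun γ _ => ?_)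
      rw [pow_zero, NPS.one_def, NPS.Cf_cons, smul_zero]
    rw [h1, zero_mul, map_zero]
  | succ k ih =>
    intro l
    have hp : (w ^ k) [] = (w []) ^ k := by
      clear ih h
      induction k with
      | zero => rw [pow_zero, pow_zero]; rfl
      | succ k ih => rw [pow_succ, pow_succ, NPS.mul_nil, ih]
    rw [pow_succ, lin_mul, add_mul, map_add, hp, mul_assoc (lin K (w ^ k) δ), ← pow_succ', ih,
      zero_add, mul_assoc, tr_mul_comm, mul_assoc, ← pow_add]
    exact h (l + k)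

/-- the same for polynomials in `w` with coefficients in a subfield -/
theorem tr_lin_aeval (P : Trip S) (d : ExpD P.K P.A P.σ) (δ : P.σ × d.B → LS d.K₁)
    (h : ∀ k : ℕ, trc (LS d.K₁) (lin (LS d.K₁) (P.eh d (P.Psi w₀)) δ *
      (P.eh d (P.Psi w₀) []) ^ k) = 0)
    (q : Polynomial P.K) :
    trc (LS d.K₁) (lin (LS d.K₁) (P.eh d (Polynomial.aeval (P.Psi w₀) q)) δ) = 0 := by
  induction q using Polynomial.induction_on' with
  | add p q hp hq => rw [map_add, map_add, lin_add, map_add, hp, hq, add_zero]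
  | monomial n c =>
    rw [Polynomial.aeval_monomial, ← Algebra.smul_def, eh_smul, lin_smul, map_smul, map_pow]
    have h1 := tr_lin_pow (K := LS d.K₁) (P.eh d (P.Psi w₀)) δ h n 0
    rw [pow_zero, mul_one] at h1
    rw [h1, smul_zero]

theorem aeval_nil {K A σ : Type} [Field K] [Ring A] [Algebra K A] (w : NPS σ A)
    (q : Polynomial K) : (Polynomial.aeval w q) [] = Polynomial.aeval (w []) q := by
  show nilHom K (Polynomial.aeval w q) = Polynomial.aeval (nilHom K w) q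
  exact (Polynomial.aeval_algHom_apply (nilHom K) w q).symm

/-- if the expansion is not in `N` then `p_W(W') = 0` -/
theorem key (P : Trip S) (d : ExpD P.K P.A P.σ) (hN : ¬ (P.expand d).CN w₀) :
    P.eh d (ff P.K (P.Psi w₀)) [] = 0 := by
  have : FiniteDimensional d.K₁ d.A₁ := d.adm.fdA
  have : CharZero d.K₁ := charZero_of_injective_ringHom d.κ.injective
  have : Module.Finite (LS d.K₁) (LS d.A₁) := LS.instFinite
  have : CharZero (LS d.K₁) := charZero_ls
  have h0 : calL (LS d.K₁) (P.eh d (P.Psi w₀)) = ⊥ := by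
    by_contra h
    exact hN h
  obtain ⟨δ, hδ⟩ := P.chain_rule d
  have h1 : ∀ k : ℕ, trc (LS d.K₁) (lin (LS d.K₁) (P.eh d (P.Psi w₀)) δ *
      (P.eh d (P.Psi w₀) []) ^ k) = 0 := by
    intro k
    have h2 : proj (Subalgebra.toSubmodule (Lf (LS d.K₁) (P.eh d (P.Psi w₀) [])))
        (lin (LS d.K₁) (P.eh d (P.Psi w₀)) δ) = 0 := by
      have h3 : proj (Subalgebra.toSubmodule (Lf (LS d.K₁) (P.eh d (P.Psi w₀) [])))
          (lin (LS d.K₁) (P.eh d (P.Psi w₀)) δ) ∈ calL (LS d.K₁) (P.eh d (P.Psi w₀)) := ⟨δ, rfl⟩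
      rw [h0] at h3
      exact (Submodule.mem_bot _).1 h3
    rw [proj_Lf] at h2
    rw [tr_mul_comm]
    exact (pr_eq_zero_iff _).1 h2 _ (Subalgebra.pow_mem _ (Algebra.self_mem_adjoin_singleton _ _) k)
  have h2 : ∀ q : Polynomial P.K,
      trc (LS d.K₁) (LS.ld (P.eh d (Polynomial.aeval (P.Psi w₀) q) [])) = 0 := by
    intro q
    rw [hδ]
    exact tr_lin_aeval w₀ P d δ h1 q
  have h4 : ∀ q : Polynomial P.K, Polynomial.aeval ((P.Psi w₀) []) q = 0 →
      trc (LS d.K₁) (P.eh d (Polynomial.aeval (P.Psi w₀) q) []) = 0 := by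
    intro q hq
    apply LS.ext
    intro n
    rw [coeff_trc, LS.coeff_zero]
    by_cases hn : n = 0
    · subst hn
      have h5 : LS.coeff (P.eh d (Polynomial.aeval (P.Psi w₀) q) []) 0
          = d.ι ((Polynomial.aeval (P.Psi w₀) q) []) :=
        exp_nil_zero d.ι (d.j : d.E₁ →+* d.A₁) (P.d_comm d) d.ε d.p d.hp _
      rw [h5, aeval_nil, hq, map_zero, map_zero]
    · have h5 : LS.coeff (trc (LS d.K₁) (LS.ld (P.eh d (Polynomial.aeval (P.Psi w₀) q) []))) (n - 1)
          = LS.coeff (0 : LS d.K₁) (n - 1) := by rw [h2 q]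
      rw [coeff_trc, LS.coeff_ld, LS.coeff_zero, sub_add_cancel, map_zsmul] at h5
      exact (smul_eq_zero.1 h5).resolve_left hn
  have h6 : ∀ k : ℕ, trc (LS d.K₁) ((P.eh d (P.Psi w₀) []) ^ k *
      P.eh d (ff P.K (P.Psi w₀)) []) = 0 := by
    intro k
    have h7 := h4 (Polynomial.X ^ k * minpoly P.K ((P.Psi w₀) []))
      (by rw [map_mul, minpoly.aeval, mul_zero])
    have h8 : (P.eh d (P.Psi w₀ ^ k)) [] = (P.eh d (P.Psi w₀) []) ^ k := by
      rw [map_pow]
      have h9 : nilHom (LS d.K₁) ((P.eh d (P.Psi w₀)) ^ k) =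
        (nilHom (LS d.K₁) (P.eh d (P.Psi w₀))) ^ k := map_pow _ _ _
      exact h9
    rw [map_mul, map_mul, NPS.mul_nil, map_pow, Polynomial.aeval_X, h8] at h7
    exact h7
  refine tr_nondeg (Lf (LS d.K₁) (P.eh d (P.Psi w₀) [])) (P.eh_ff_mem w₀ d) ?_
  intro y hy
  rw [Lf, Algebra.adjoin_singleton_eq_range_aeval] at hy
  obtain ⟨r, hr⟩ := hy
  rw [← hr]
  show trc (LS d.K₁) (Polynomial.aeval (P.eh d (P.Psi w₀) []) r *
    P.eh d (ff P.K (P.Psi w₀)) []) = 0
  clear hr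
  induction r using Polynomial.induction_on' with
  | add p q hp hq => rw [map_add, add_mul, map_add, hp, hq, add_zero]
  | monomial n c =>
    rw [Polynomial.aeval_monomial, ← Algebra.smul_def, smul_mul_assoc, map_smul, h6, smul_zero]

end LemN

/-- **Lemma N** -/
theorem Trip.lemmaN_proved {S : Stg} (w₀ : NPS (Fin 2) S.A) (P : Trip S)
    (h : ∀ Q, Trip.Reach P Q → ¬ Q.CN w₀) : ff P.K (P.Psi w₀) = 0 := by
  ext u
  rw [NPS.zero_apply]
  obtain ⟨D⟩ := exists_symD P.K P.A (max u.length 1) (by omega)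
  have := D.sym.fdE
  refine PI1 D.sym (ff P.K (P.Psi w₀)) u.length (le_max_left _ _) ?_ u rfl
  intro θ
  let d : ExpD P.K P.A P.σ :=
    { m := max u.length 1
      K₁ := D.K₁
      E₁ := D.E₁
      A₁ := D.A₁
      B := Fin (Module.finrank D.K₁ D.E₁)
      κ := D.κ
      ι := D.ι
      j := D.j
      adm := D.sym.toAdm
      ε := Module.finBasis D.K₁ D.E₁
      p := fun γ => PowerSeries.C (θ γ) * PowerSeries.X
      hp := fun γ => by simp }
  have h1 := LemN.key w₀ P d (h _ (Trip.Reach.step P P d (Trip.Reach.refl P)))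
  have h2 := exp_nil_hom d.ι (d.j : d.E₁ →+* d.A₁) (P.d_comm d) d.ε d.p d.hp θ (fun γ => rfl)
    (ff P.K (P.Psi w₀)) u.length
  have h3 : LS.coeff (expHom d.ι (d.j : d.E₁ →+* d.A₁) (P.d_comm d) d.ε d.p d.hp
      (ff P.K (P.Psi w₀)) []) (u.length : ℤ) = 0 := by
    have h4 : expHom d.ι (d.j : d.E₁ →+* d.A₁) (P.d_comm d) d.ε d.p d.hp
      (ff P.K (P.Psi w₀)) [] = 0 := h1
    rw [h4, LS.coeff_zero]
  rw [h3] at h2
  exact h2.symm

end Vale.Agent.P199K
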