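import Vale.Agent.P199K.LimRing

/-!
# P199: the counterexample from the extension property of stages
-/

namespace P199K

open Polynomial

variable {S : ℕ → Stage} (f : ∀ n, (S n).Hom (S (n + 1)))

theorem oR_x (n : ℕ) : oR f n (S n).x = oR f 0 (S 0).x := by
  rw [← oR_tr f (Nat.zero_le n), (tr f (Nat.zero_le n)).hx]

theorem oR_y (n : ℕ) : oR f n (S n).y = oR f 0 (S 0).y := by
  rw [← oR_tr f (Nat.zero_le n), (tr f (Nat.zero_le n)).hy]

/-- the generated subalgebra of the limit -/
noncomputable abbrev LD : Subalgebra (LK f) (LR f) :=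
  Algebra.adjoin (LK f) {oR f 0 (S 0).x, oR f 0 (S 0).y}

theorem exists_gen {z : LR f} (hz : z ∈ LD f) : ∃ n, ∃ w ∈ (S n).gen, z = oR f n w := by
  induction hz using Algebra.adjoin_induction with
  | mem a ha =>
    rcases ha with rfl | ha
    · exact ⟨0, _, Algebra.subset_adjoin (by simp), rfl⟩
    · exact ⟨0, _, Algebra.subset_adjoin (by simp), Set.mem_singleton_iff.1 ha⟩
  | algebraMap c =>
    obtain ⟨n, c', rfl⟩ := exists_oK f c
    exact ⟨n, _, Subalgebra.algebraMap_mem _ c', algebraMap_oK f n c'⟩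
  | add a b _ _ ha hb =>
    obtain ⟨n, u, hu, rfl⟩ := ha
    obtain ⟨m, v, hv, rfl⟩ := hb
    refine ⟨max n m, (tr f (le_max_left n m)).φ u + (tr f (le_max_right n m)).φ v,
      add_mem (Stage.Hom.gen_mem _ hu) (Stage.Hom.gen_mem _ hv), ?_⟩
    rw [map_add, oR_tr, oR_tr]
  | mul a b _ _ ha hb =>
    obtain ⟨n, u, hu, rfl⟩ := ha
    obtain ⟨m, v, hv, rfl⟩ := hb
    refine ⟨max n m, (tr f (le_max_left n m)).φ u * (tr f (le_max_right n m)).φ v,
      mul_mem (Stage.Hom.gen_mem _ hu) (Stage.Hom.gen_mem _ hv), ?_⟩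
    rw [map_mul, oR_tr, oR_tr]

theorem isAlgebraic_oR {n : ℕ} {w : (S n).R} (hw : IsAlgebraic (S n).K w) :
    IsAlgebraic (LK f) (oR f n w) := by
  obtain ⟨p, hp, h⟩ := hw
  refine ⟨p.map (oK f n), (Polynomial.map_ne_zero_iff (oK f n).injective).2 hp, ?_⟩
  have h1 : (aeval (oR f n w)) (p.map (oK f n)) = oR f n (aeval w p) := by
    rw [aeval_def, aeval_def, eval₂_map, hom_eval₂]
    rfl
  rw [h1, h, map_zero]

theorem isAlgebraic_LD
    (halg : ∀ n, ∀ w ∈ (S n).gen, ∃ m, ∃ h : n ≤ m, IsAlgebraic (S m).K ((tr f h).φ w))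
    (z : LD f) : IsAlgebraic (LK f) z := by
  obtain ⟨n, w, hw, h⟩ := exists_gen f z.2
  obtain ⟨m, hm, h1⟩ := halg n w hw
  have h2 := isAlgebraic_oR f h1
  rw [oR_tr, ← h] at h2
  exact (isAlgebraic_algHom_iff (LD f).val Subtype.val_injective).1 h2

/-- if the limit is finite-dimensional then the stages are eventually small -/
theorem not_large (hfin : Module.Finite (LK f) (LD f)) : ∃ N m, ∀ n, N ≤ n → ¬ (S n).Large m := by
  classical
  obtain ⟨d, hd⟩ : ∃ d, d = Module.finrank (LK f) (LD f) := ⟨_, rfl⟩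
  let b : Module.Basis (Fin d) (LK f) (LD f) := hd ▸ Module.finBasis (LK f) (LD f)
  have hx : oR f 0 (S 0).x ∈ LD f := Algebra.subset_adjoin (by simp)
  have hy : oR f 0 (S 0).y ∈ LD f := Algebra.subset_adjoin (by simp)
  -- coordinates
  obtain ⟨X, hX⟩ : ∃ X : LD f, X = ⟨_, hx⟩ := ⟨_, rfl⟩
  obtain ⟨Y, hY⟩ : ∃ Y : LD f, Y = ⟨_, hy⟩ := ⟨_, rfl⟩
  have hrep : ∀ z : LD f, (z : LR f) = ∑ i, algebraMap (LK f) (LR f) (b.repr z i) * (b i : LR f) := by
    intro z
    have h1 := congrArg (Subtype.val : LD f → LR f) (b.sum_repr z)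
    rw [← h1]
    rw [AddSubmonoidClass.coe_finsetSum]
    refine Finset.sum_congr rfl fun i _ => ?_
    rw [← Algebra.smul_def]
    rfl
  obtain ⟨n, -, e, he⟩ := exists_oR_fam f (fun i => (b i : LR f)) 0
  obtain ⟨n1, hn1, c, hc⟩ := exists_oK_fam f
    (fun p : (Option (Bool × Fin d)) × Fin d => b.repr
      (match p.1 with
        | none => 1
        | some (true, i) => X * b i
        | some (false, i) => Y * b i) p.2) n
  obtain ⟨e1, he1⟩ : ∃ e1 : Fin d → (S n1).R, e1 = fun i => (tr f hn1).φ (e i) := ⟨_, rfl⟩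
  have hbe : ∀ i, (b i : LR f) = oR f n1 (e1 i) := fun i => by rw [he1, he i, oR_tr]
  obtain ⟨m, hm, hrel⟩ := oR_eq_fam f (n := n1) (ι := Option (Bool × Fin d))
    (a := fun p => match p with
        | none => 1
        | some (true, i) => (S n1).x * e1 i
        | some (false, i) => (S n1).y * e1 i)
    (b := fun p => ∑ j, algebraMap _ _ (c (p, j)) * e1 j) (by
      intro p
      have h1 : ∀ j, algebraMap (LK f) (LR f) (oK f n1 (c (p, j))) * (b j : LR f) =
          oR f n1 (algebraMap _ _ (c (p, j)) * e1 j) := fun j => by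
        rw [algebraMap_oK, hbe j, map_mul]
      rw [map_sum]
      simp only [← h1, ← hc]
      match p with
      | none =>
        rw [map_one]
        exact hrep 1
      | some (true, i) =>
        rw [map_mul, oR_x, ← hbe]
        have h2 := hrep (X * b i)
        rw [← h2, hX]
        rfl
      | some (false, i) =>
        rw [map_mul, oR_y, ← hbe]
        have h2 := hrep (Y * b i)
        rw [← h2, hY]
        rfl)
  refine ⟨m, d + 1, fun k hk hL => ?_⟩
  obtain ⟨v, hv, hli⟩ := hL
  obtain ⟨e2, he2⟩ : ∃ e2 : Fin d → (S k).R, e2 = fun i => (tr f (hm.trans hk)).φ (e1 i) :=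
    ⟨_, rfl⟩
  have he2' : ∀ i, e2 i = (tr f (hm.trans hk)).φ (e1 i) := fun i => by rw [he2]
  have hrel2 : ∀ p : Option (Bool × Fin d), (match p with
        | none => 1
        | some (true, i) => (S k).x * e2 i
        | some (false, i) => (S k).y * e2 i) ∈ Submodule.span (S k).K (Set.range e2) := by
    intro p
    have h1 := congrArg (tr f hk).φ (hrel p)
    have h2 : ∀ r, (tr f hk).φ ((tr f hm).φ r) = (tr f (hm.trans hk)).φ r := fun r => by
      rw [← tr_tr f hm hk]; rfl
    rw [h2, h2, map_sum] at h1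
    have h3 : ∑ j, (tr f (hm.trans hk)).φ (algebraMap _ _ (c (p, j)) * e1 j) ∈
        Submodule.span (S k).K (Set.range e2) := by
      refine Submodule.sum_mem _ fun j _ => ?_
      rw [map_mul, (tr f (hm.trans hk)).comm, ← Algebra.smul_def]
      refine Submodule.smul_mem _ _ (Submodule.subset_span ⟨j, ?_⟩)
      rw [he2]
    rw [← h1] at h3
    match p with
    | none => simpa using h3
    | some (true, i) =>
      rw [map_mul, (tr f (hm.trans hk)).hx, ← he2'] at h3
      exact h3
    | some (false, i) =>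
      rw [map_mul, (tr f (hm.trans hk)).hy, ← he2'] at h3
      exact h3
  have hstab : ∀ g ∈ ({(S k).x, (S k).y} : Set (S k).R), ∀ z ∈ Submodule.span (S k).K (Set.range e2),
      g * z ∈ Submodule.span (S k).K (Set.range e2) := by
    intro g hg z hz
    induction hz using Submodule.span_induction with
    | mem z hz =>
      obtain ⟨i, rfl⟩ := hz
      rcases hg with rfl | hg
      · exact hrel2 (some (true, i))
      · rw [Set.mem_singleton_iff.1 hg]
        exact hrel2 (some (false, i))
    | zero => rw [mul_zero]; exact Submodule.zero_mem _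
    | add a b _ _ ha hb => rw [mul_add]; exact add_mem ha hb
    | smul c a _ ha => rw [mul_smul_comm]; exact Submodule.smul_mem _ _ ha
  have hall : ∀ z ∈ Submonoid.closure ({(S k).x, (S k).y} : Set (S k).R),
      z ∈ Submodule.span (S k).K (Set.range e2) := by
    intro z hz
    induction hz using Submonoid.closure_induction_left with
    | one => exact hrel2 none
    | mul_left g hg z _ ih => exact hstab g hg z ih
  have h4 : Module.finrank (S k).K (Submodule.span (S k).K (Set.range v)) = d + 1 := by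
    rw [finrank_span_eq_card hli, Fintype.card_fin]
  have h5 : Submodule.span (S k).K (Set.range v) ≤ Submodule.span (S k).K (Set.range e2) := by
    rw [Submodule.span_le]
    rintro _ ⟨i, rfl⟩
    exact hall _ (hv i)
  have h6 : Module.finrank (S k).K (Submodule.span (S k).K (Set.range e2)) ≤ d := by
    have := finrank_range_le_card (R := (S k).K) e2
    rwa [Fintype.card_fin] at this
  have : FiniteDimensional (S k).K (Submodule.span (S k).K (Set.range e2)) :=
    FiniteDimensional.span_of_finite _ (Set.finite_range _)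
  have h7 := Submodule.finrank_mono h5
  omega

end P199K
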