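import Vale.Agent.P199K.Chain

/-!
# P199: the limit division ring
-/

namespace P199K

open Polynomial

theorem isUnit_of_isAlgebraic {k A : Type*} [Field k] [Ring A] [IsDomain A] [Algebra k A] {a : A}
    (ha : IsAlgebraic k a) (h0 : a ≠ 0) : IsUnit a := by
  have hint : IsIntegral k a := ha.isIntegral
  have hc : (minpoly k a).coeff 0 ≠ 0 := minpoly.coeff_zero_ne_zero hint h0
  obtain ⟨c, hc'⟩ : ∃ c, c = (minpoly k a).coeff 0 := ⟨_, rfl⟩
  obtain ⟨b, hb⟩ : ∃ b, b = aeval a (minpoly k a).divX := ⟨_, rfl⟩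
  have h1 : a * b + algebraMap k A c = 0 := by
    have h2 := congrArg (aeval a) (X_mul_divX_add (minpoly k a))
    rw [minpoly.aeval, map_add, map_mul, aeval_X, aeval_C] at h2
    rw [hb, hc']
    exact h2
  have h2 : a * (b * algebraMap k A (-c⁻¹)) = 1 := by
    rw [← mul_assoc, eq_neg_of_add_eq_zero_left h1, ← map_neg, ← map_mul, neg_mul_neg,
      mul_inv_cancel₀ (hc' ▸ hc), map_one]
  have h3 : (b * algebraMap k A (-c⁻¹)) * a = 1 := by
    have h4 : a * ((b * algebraMap k A (-c⁻¹)) * a - 1) = 0 := by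
      rw [mul_sub, ← mul_assoc, h2, one_mul, mul_one, sub_self]
    exact sub_eq_zero.1 ((mul_eq_zero.1 h4).resolve_left h0)
  exact ⟨⟨a, _, h2, h3⟩, rfl⟩

variable {S : ℕ → Stage} (f : ∀ n, (S n).Hom (S (n + 1)))

instance dsK : DirectedSystem (fun n => (S n).K) (fun _ _ h => (tr f h).κ) where
  map_self n x := by
    show (tr f (le_refl n)).κ x = x
    rw [tr_self]; rfl
  map_map _ _ _ h h' x := by
    show (tr f h').κ ((tr f h).κ x) = (tr f (h.trans h')).κ x
    rw [← tr_tr f h h']; rfl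

instance dsR : DirectedSystem (fun n => (S n).R) (fun _ _ h => (tr f h).φ) where
  map_self n x := by
    show (tr f (le_refl n)).φ x = x
    rw [tr_self]; rfl
  map_map _ _ _ h h' x := by
    show (tr f h').φ ((tr f h).φ x) = (tr f (h.trans h')).φ x
    rw [← tr_tr f h h']; rfl

/-- the limit field -/
abbrev LK : Type := DirectLimit (fun n => (S n).K) (fun _ _ h => (tr f h).κ)

/-- the limit ring -/
abbrev LR : Type := DirectLimit (fun n => (S n).R) (fun _ _ h => (tr f h).φ)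

/-- the map to the limit field -/
noncomputable abbrev oK (n : ℕ) : (S n).K →+* LK f :=
  DirectLimit.Ring.of (fun n => (S n).K) (fun _ _ h => (tr f h).κ) n

/-- the map to the limit ring -/
noncomputable abbrev oR (n : ℕ) : (S n).R →+* LR f :=
  DirectLimit.Ring.of (fun n => (S n).R) (fun _ _ h => (tr f h).φ) n

theorem oK_tr {n m : ℕ} (h : n ≤ m) (c : (S n).K) : oK f m ((tr f h).κ c) = oK f n c :=
  DirectLimit.Ring.of_f (G := fun n => (S n).K) (f := fun _ _ h => (tr f h).κ) h c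

theorem oR_tr {n m : ℕ} (h : n ≤ m) (c : (S n).R) : oR f m ((tr f h).φ c) = oR f n c :=
  DirectLimit.Ring.of_f (G := fun n => (S n).R) (f := fun _ _ h => (tr f h).φ) h c

theorem exists_oK (z : LK f) : ∃ n c, z = oK f n c :=
  DirectLimit.exists_eq_mk _ z

theorem exists_oR (z : LR f) : ∃ n c, z = oR f n c :=
  DirectLimit.exists_eq_mk _ z

theorem oR_eq {n : ℕ} {a b : (S n).R} (h : oR f n a = oR f n b) :
    ∃ m, ∃ h : n ≤ m, (tr f h).φ a = (tr f h).φ b := by
  obtain ⟨m, h1, _, h3⟩ := Quotient.exact h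
  exact ⟨m, h1, h3⟩

theorem exists_oK_fam {ι : Type} [Finite ι] (z : ι → LK f) (N : ℕ) :
    ∃ n, N ≤ n ∧ ∃ c : ι → (S n).K, ∀ i, z i = oK f n (c i) := by
  choose n c hc using fun i => exists_oK f (z i)
  obtain ⟨M, hM⟩ := (Set.finite_range n).bddAbove
  refine ⟨max M N, le_max_right _ _, fun i =>
    (tr f ((hM ⟨i, rfl⟩).trans (le_max_left M N))).κ (c i), fun i => ?_⟩
  rw [oK_tr]
  exact hc i

theorem exists_oR_fam {ι : Type} [Finite ι] (z : ι → LR f) (N : ℕ) :
    ∃ n, N ≤ n ∧ ∃ c : ι → (S n).R, ∀ i, z i = oR f n (c i) := by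
  choose n c hc using fun i => exists_oR f (z i)
  obtain ⟨M, hM⟩ := (Set.finite_range n).bddAbove
  refine ⟨max M N, le_max_right _ _, fun i =>
    (tr f ((hM ⟨i, rfl⟩).trans (le_max_left M N))).φ (c i), fun i => ?_⟩
  rw [oR_tr]
  exact hc i

theorem oR_eq_fam {ι : Type} [Finite ι] {n : ℕ} {a b : ι → (S n).R}
    (h : ∀ i, oR f n (a i) = oR f n (b i)) :
    ∃ m, ∃ h : n ≤ m, ∀ i, (tr f h).φ (a i) = (tr f h).φ (b i) := by
  choose m h1 h2 using fun i => oR_eq f (h i)
  obtain ⟨M, hM⟩ := (Set.finite_range m).bddAbove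
  refine ⟨max M n, le_max_right _ _, fun i => ?_⟩
  have h3 : m i ≤ max M n := (hM ⟨i, rfl⟩).trans (le_max_left M n)
  rw [← tr_tr f (h1 i) h3]
  exact congrArg (tr f h3).φ (h2 i)

instance : NoZeroDivisors (LR f) where
  eq_zero_or_eq_zero_of_mul_eq_zero := by
    intro a b hab
    obtain ⟨n, -, c, hc⟩ := exists_oR_fam f ![a, b] 0
    have ha : a = oR f n (c 0) := hc 0
    have hb : b = oR f n (c 1) := hc 1
    rw [ha, hb, ← map_mul, ← map_zero (oR f n)] at hab
    obtain ⟨m, h, h1⟩ := oR_eq f hab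
    rw [map_mul, map_zero] at h1
    rcases mul_eq_zero.1 h1 with h2 | h2
    · left; rw [ha, ← oR_tr f h, h2, map_zero]
    · right; rw [hb, ← oR_tr f h, h2, map_zero]

instance : IsDomain (LR f) := NoZeroDivisors.to_isDomain _

/-- the structure map of the limit -/
noncomputable def lmap : LK f →+* LR f :=
  DirectLimit.Ring.lift (fun n => (S n).K) (fun _ _ h => (tr f h).κ) (LR f)
    (fun n => (oR f n).comp (algebraMap (S n).K (S n).R)) fun n m h c => by
      show oR f m (algebraMap _ _ ((tr f h).κ c)) = oR f n (algebraMap _ _ c)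
      rw [← (tr f h).comm, oR_tr]

theorem lmap_oK (n : ℕ) (c : (S n).K) : lmap f (oK f n c) = oR f n (algebraMap _ _ c) := rfl

noncomputable instance : Algebra (LK f) (LR f) :=
  (lmap f).toAlgebra' fun c z => by
    obtain ⟨n, -, c', hc⟩ := exists_oK_fam f ![c] 0
    obtain ⟨m, hm, z', hz⟩ := exists_oR_fam f ![z] n
    have h1 : c = oK f n (c' 0) := hc 0
    have h2 : z = oR f m (z' 0) := hz 0
    rw [h1, h2, ← oK_tr f hm, lmap_oK, ← map_mul, ← map_mul, Algebra.commutes]

theorem algebraMap_oK (n : ℕ) (c : (S n).K) :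
    algebraMap (LK f) (LR f) (oK f n c) = oR f n (algebraMap _ _ c) := rfl

end P199K
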