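import Vale.Agent.P199K.Stmt

/-!
# P199: the direct limit of a chain of stages
-/

namespace P199K

open Polynomial Cardinal

namespace Stage

/-- identity -/
def Hom.id (s : Stage) : s.Hom s := ⟨RingHom.id _, RingHom.id _, fun _ => rfl, rfl, rfl⟩

/-- composition -/
def Hom.comp {s t u : Stage} (g : t.Hom u) (f : s.Hom t) : s.Hom u :=
  ⟨g.κ.comp f.κ, g.φ.comp f.φ, fun c => by simp [f.comm, g.comm], by simp [f.hx, g.hx],
    by simp [f.hy, g.hy]⟩

theorem Hom.isAlgebraic {s t : Stage} (f : s.Hom t) {w : s.R} (hw : IsAlgebraic s.K w) :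
    IsAlgebraic t.K (f.φ w) := by
  obtain ⟨p, hp, h⟩ := hw
  refine ⟨p.map f.κ, (Polynomial.map_ne_zero_iff f.κ.injective).2 hp, ?_⟩
  have h1 : (aeval (f.φ w)) (p.map f.κ) = f.φ (aeval w p) := by
    rw [aeval_def, aeval_def, eval₂_map, hom_eval₂]
    congr 1
    ext c
    exact (f.comm c).symm
  rw [h1, h, map_zero]

theorem Hom.gen_mem {s t : Stage} (f : s.Hom t) {w : s.R} (hw : w ∈ s.gen) : f.φ w ∈ t.gen := by
  unfold gen at hw ⊢
  induction hw using Algebra.adjoin_induction with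
  | mem a ha =>
    rcases ha with rfl | ha
    · rw [f.hx]; exact Algebra.subset_adjoin (by simp)
    · rw [Set.mem_singleton_iff.1 ha, f.hy]; exact Algebra.subset_adjoin (by simp)
  | algebraMap c => rw [f.comm]; exact Subalgebra.algebraMap_mem _ _
  | add a b _ _ ha hb => rw [map_add]; exact add_mem ha hb
  | mul a b _ _ ha hb => rw [map_mul]; exact mul_mem ha hb

/-- a stage over a smaller field -/
abbrev restr (s : Stage) (F : Subfield s.K) : Stage where
  K := F
  R := s.R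
  aR := Algebra.compHom s.R F.subtype
  x := s.x
  y := s.y

theorem restr_algebraMap (s : Stage) (F : Subfield s.K) (c : F) :
    algebraMap (s.restr F).K (s.restr F).R c = algebraMap s.K s.R c := rfl

theorem restr_smul (s : Stage) (F : Subfield s.K) (c : (s.restr F).K) (r : (s.restr F).R) :
    c • r = ((show F from c : s.K)) • (show s.R from r) := rfl

theorem restr_isAlgebraic (s : Stage) (F : Subfield s.K) {w : s.R} {p : s.K[X]} (hp : p ≠ 0)
    (hw : aeval w p = 0) (hF : ∀ i, p.coeff i ∈ F) :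
    IsAlgebraic (s.restr F).K (show (s.restr F).R from w) := by
  obtain ⟨q, hq⟩ : ∃ q : F[X], q.map F.subtype = p := by
    rw [← Polynomial.mem_lifts, Polynomial.lifts_iff_coeff_lifts]
    intro i
    exact ⟨⟨p.coeff i, hF i⟩, rfl⟩
  have hq0 : q ≠ 0 := fun h => hp (by rw [← hq, h, Polynomial.map_zero])
  rw [← hq, aeval_def, eval₂_map] at hw
  exact ⟨q, hq0, hw⟩

theorem restr_large (s : Stage) (F : Subfield s.K) {m : ℕ} (h : s.Large m) :
    (s.restr F).Large m := by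
  obtain ⟨v, hv, hli⟩ := h
  refine ⟨v, hv, ?_⟩
  have h1 := Fintype.linearIndependent_iff.1 hli
  refine Fintype.linearIndependent_iff.2 fun c hc i => ?_
  exact Subtype.ext (h1 (fun i => ((show F from c i : s.K))) hc i)

end Stage

variable {P : Stage → Prop}

/-- a countable stage below a stage with the property `P` -/
def CStage (P : Stage → Prop) (s : Stage) : Prop :=
  Countable s.K ∧ ∃ t, P t ∧ Nonempty (s.Hom t)

theorem countable_closure {K : Type} [Field K] {s : Set K} (hs : s.Countable) :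
    Countable (Subfield.closure s) := by
  rw [← Cardinal.mk_le_aleph0_iff]
  refine (Subfield.cardinalMk_closure_le_max s).trans (max_le ?_ le_rfl)
  exact Cardinal.le_aleph0_iff_set_countable.2 hs

theorem CStage.countable_gen {s : Stage} (hs : CStage P s) : Countable s.gen := by
  obtain ⟨hF, -⟩ := hs
  rw [← Cardinal.mk_le_aleph0_iff]
  have h1 : #s.K ≤ ℵ₀ := Cardinal.mk_le_aleph0_iff.2 hF
  refine (Algebra.cardinalMk_adjoin_le _ _).trans ?_
  refine max_le (max_le h1 ?_) le_rfl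
  exact Cardinal.le_aleph0_iff_set_countable.2 (Set.Finite.countable (by simp))

theorem exists_cstage (h0 : ∃ s, P s) : ∃ s, CStage P s := by
  obtain ⟨s, hs⟩ := h0
  refine ⟨s.restr (Subfield.closure ∅), countable_closure Set.countable_empty, s, hs, ?_⟩
  exact ⟨⟨Subfield.subtype _, RingHom.id _, fun _ => rfl, rfl, rfl⟩⟩

theorem step (h1 : ∀ s, P s → ∀ w ∈ s.gen, ∃ t, P t ∧ ∃ f : s.Hom t, IsAlgebraic t.K (f.φ w))
    (h2 : ∀ s, P s → ∀ m, ∃ t, P t ∧ Nonempty (s.Hom t) ∧ t.Large m)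
    (s : Stage) (hs : CStage P s) (w : s.R) (hw : w ∈ s.gen) (m : ℕ) :
    ∃ t, CStage P t ∧ ∃ f : s.Hom t, IsAlgebraic t.K (f.φ w) ∧ t.Large m := by
  obtain ⟨hc0, t, ht, ⟨f0⟩⟩ := hs
  obtain ⟨t1, ht1, f1, hf1⟩ := h1 t ht (f0.φ w) (f0.gen_mem hw)
  obtain ⟨t2, ht2, ⟨f2⟩, hL⟩ := h2 t1 ht1 m
  have halg := f2.isAlgebraic hf1
  obtain ⟨p, hp, hpw⟩ := halg
  obtain ⟨g, hg⟩ : ∃ g, g = (f2.comp f1).comp f0 := ⟨_, rfl⟩
  have hgw : g.φ w = f2.φ (f1.φ (f0.φ w)) := by rw [hg]; rfl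
  obtain ⟨F2, hF2⟩ : ∃ F2, F2 = Subfield.closure (Set.range g.κ ∪ Set.range p.coeff) :=
    ⟨_, rfl⟩
  have hc : (Set.range g.κ ∪ Set.range p.coeff).Countable :=
    Set.Countable.union (Set.countable_range _) (Set.countable_range _)
  have hκ : ∀ c, g.κ c ∈ F2 := fun c => by
    rw [hF2]; exact Subfield.subset_closure (Or.inl ⟨c, rfl⟩)
  have hcf : ∀ i, p.coeff i ∈ F2 := fun i => by
    rw [hF2]; exact Subfield.subset_closure (Or.inr ⟨i, rfl⟩)
  refine ⟨t2.restr F2, ⟨hF2 ▸ countable_closure hc, t2, ht2,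
    ⟨⟨Subfield.subtype _, RingHom.id _, fun _ => rfl, rfl, rfl⟩⟩⟩,
    ⟨(g.κ).codRestrict F2 hκ, g.φ, fun c => g.comm c, g.hx, g.hy⟩, ?_, ?_⟩
  · rw [← hgw] at hpw
    exact t2.restr_isAlgebraic F2 hp hpw hcf
  · exact t2.restr_large F2 hL

end P199K
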