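import Vale.Agent.P199K.P3A
import Vale.Agent.P199K.Lagr
import Vale.Agent.P199K.ResLS

/-! # P199, section 9: GOODLIFT (helper51) -/

namespace Vale.Agent.P199K

section Dim

variable {F M Y : Type} [Field F] [AddCommGroup M] [Module F M] [AddCommGroup Y] [Module F Y]

/-- rank-nullity on a subspace -/
theorem p3_finrank_split (U : Submodule F M) [FiniteDimensional F U] (φ : M →ₗ[F] Y) :
    Module.finrank F U = Module.finrank F (U.map φ) +
      Module.finrank F (U ⊓ LinearMap.ker φ : Submodule F M) := by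
  have h := LinearMap.finrank_range_add_finrank_ker (φ.domRestrict U)
  rw [← h]
  congr 1
  · rw [LinearMap.range_domRestrict]
  · have e : (LinearMap.ker (φ.domRestrict U)).map U.subtype = U ⊓ LinearMap.ker φ := by
      ext x
      simp only [Submodule.mem_map, LinearMap.mem_ker, LinearMap.domRestrict_apply,
        Submodule.subtype_apply, Subtype.exists, exists_and_right, exists_eq_right,
        Submodule.mem_inf]
      constructor
      · rintro ⟨h1, h2⟩
        exact ⟨h1, h2⟩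
      · rintro ⟨h1, h2⟩
        exact ⟨h1, h2⟩
    rw [← e]
    exact (Submodule.equivMapOfInjective _ U.injective_subtype _).finrank_eq

theorem p3_finrank_map_inj (U : Submodule F M) (φ : M →ₗ[F] Y) (h : Function.Injective φ) :
    Module.finrank F (U.map φ) = Module.finrank F U :=
  (Submodule.equivMapOfInjective φ h U).finrank_eq.symm

end Dim

section GF

variable {F B σ k : Type} [Field F] [Ring B] [Algebra F B] [Fintype σ] [Fintype k] [DecidableEq k]

/-- the family of vectors whose combinations are `(f₁(η), f₂(e_i,η) + f₁(ζ_i))` -/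
noncomputable def gfam (f : NPS σ B) (e : k → σ → F) : σ ⊕ (σ × k) → Option k → B
  | Sum.inl γ => fun o => match o with
    | none => f [γ]
    | some i => ∑ γ', e i γ' • f [γ', γ]
  | Sum.inr (γ, i) => fun o => match o with
    | none => 0
    | some i' => if i' = i then f [γ] else 0

theorem gfam_sum_none (f : NPS σ B) (e : k → σ → F) (c : σ ⊕ (σ × k) → F) :
    ∑ x, c x • gfam f e x none = lin F f (fun γ => c (Sum.inl γ)) := by
  rw [Fintype.sum_sum_type]
  have : ∑ x : σ × k, c (Sum.inr x) • gfam f e (Sum.inr x) none = 0 :=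
    Finset.sum_eq_zero fun x _ => by simp [gfam]
  rw [this, add_zero]
  rfl

theorem gfam_sum_some (f : NPS σ B) (e : k → σ → F) (c : σ ⊕ (σ × k) → F) (i : k) :
    ∑ x, c x • gfam f e x (some i) = quad f (e i) (fun γ => c (Sum.inl γ))
      + lin F f (fun γ => c (Sum.inr (γ, i))) := by
  rw [Fintype.sum_sum_type]
  congr 1
  · unfold quad
    rw [Finset.sum_comm]
    refine Finset.sum_congr rfl fun γ _ => ?_
    show c (Sum.inl γ) • (∑ γ', e i γ' • f [γ', γ]) = _
    rw [Finset.smul_sum]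
    refine Finset.sum_congr rfl fun γ' _ => ?_
    rw [smul_smul, mul_comm]
  · rw [Fintype.sum_prod_type]
    show _ = ∑ γ, c (Sum.inr (γ, i)) • f [γ]
    refine Finset.sum_congr rfl fun γ _ => ?_
    rw [Finset.sum_eq_single i]
    · simp [gfam]
    · intro i' _ h
      simp [gfam, Ne.symm h]
    · intro h
      exact absurd (Finset.mem_univ _) h

theorem gfam_mem_span (f : NPS σ B) (e : k → σ → F) (u : Option k → B) :
    u ∈ Submodule.span F (Set.range (gfam f e)) ↔ ∃ (η : σ → F) (ζ : k → σ → F),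
      u none = lin F f η ∧ ∀ i, u (some i) = quad f (e i) η + lin F f (ζ i) := by
  rw [Submodule.mem_span_range_iff_exists_fun]
  constructor
  · rintro ⟨c, rfl⟩
    refine ⟨fun γ => c (Sum.inl γ), fun i γ => c (Sum.inr (γ, i)), ?_, fun i => ?_⟩
    · rw [Finset.sum_apply, ← gfam_sum_none f e c]
      rfl
    · rw [Finset.sum_apply, ← gfam_sum_some f e c]
      rfl
  · rintro ⟨η, ζ, h1, h2⟩
    refine ⟨fun x => match x with
      | Sum.inl γ => η γ
      | Sum.inr (γ, i) => ζ i γ, ?_⟩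
    funext o
    rw [Finset.sum_apply]
    cases o with
    | none =>
      rw [h1]
      exact gfam_sum_none f e _
    | some i =>
      rw [h2 i]
      exact gfam_sum_some f e _ i

/-- the subspace `0 × Ce^k` -/
noncomputable def ccs (k : Type) (Ce : Submodule F B) : Submodule F (Option k → B) where
  carrier := {u | u none = 0 ∧ ∀ i, u (some i) ∈ Ce}
  add_mem' := by
    rintro u v ⟨h1, h2⟩ ⟨h3, h4⟩
    exact ⟨by rw [Pi.add_apply, h1, h3, add_zero], fun i => Ce.add_mem (h2 i) (h4 i)⟩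
  zero_mem' := ⟨rfl, fun i => Ce.zero_mem⟩
  smul_mem' := by
    rintro c u ⟨h1, h2⟩
    exact ⟨by rw [Pi.smul_apply, h1, smul_zero], fun i => Ce.smul_mem c (h2 i)⟩

theorem finrank_ccs [FiniteDimensional F B] (Ce : Submodule F B) :
    Module.finrank F (ccs k Ce) = Fintype.card k * Module.finrank F Ce := by
  let ψ : (k → Ce) ≃ₗ[F] ccs k Ce :=
    { toFun := fun c => ⟨fun o => match o with
        | none => 0
        | some i => (c i : B), rfl, fun i => (c i).2⟩
      invFun := fun u => fun i => ⟨u.1 (some i), u.2.2 i⟩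
      map_add' := by
        intro c d
        ext o
        cases o <;> simp
      map_smul' := by
        intro a c
        ext o
        cases o <;> simp
      left_inv := by
        intro c
        rfl
      right_inv := by
        rintro ⟨u, h1, h2⟩
        ext o
        cases o
        · exact h1.symm
        · rfl }
  rw [← ψ.finrank_eq, Module.finrank_pi_fintype, Finset.sum_const, Finset.card_univ, smul_eq_mul]

theorem gfam_map (f : NPS σ B) (e : k → σ → F) :
    (Submodule.span F (Set.range (gfam f e))).map (LinearMap.proj (none : Option k)) =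
      LinearMap.range (lin F f) := by
  ext y
  simp only [Submodule.mem_map, LinearMap.mem_range]
  constructor
  · rintro ⟨u, hu, rfl⟩
    obtain ⟨η, ζ, h1, -⟩ := (gfam_mem_span f e u).1 hu
    exact ⟨η, h1.symm⟩
  · rintro ⟨η, rfl⟩
    exact ⟨fun o => match o with
      | none => lin F f η
      | some i => quad f (e i) η + lin F f 0, (gfam_mem_span f e _).2 ⟨η, fun _ => 0, rfl, fun i => rfl⟩,
      rfl⟩

variable [FiniteDimensional F B]

theorem gfam_ker_le (f : NPS σ B) (e : k → σ → F) (Ce : Submodule F B)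
    (hVC : LinearMap.range (lin F f) ≤ Ce)
    (hq : ∀ i η, lin F f η = 0 → quad f (e i) η ∈ Ce) :
    (Submodule.span F (Set.range (gfam f e)) ⊓ LinearMap.ker (LinearMap.proj (none : Option k)) :
      Submodule F (Option k → B)) ≤ ccs k Ce := by
  rintro u ⟨hu, hk⟩
  obtain ⟨η, ζ, h1, h2⟩ := (gfam_mem_span f e u).1 hu
  have hk' : u none = 0 := hk
  refine ⟨hk', fun i => ?_⟩
  rw [h2 i]
  exact Ce.add_mem (hq i η (by rw [← h1, hk'])) (hVC ⟨_, rfl⟩)

theorem gfam_upper (f : NPS σ B) (e : k → σ → F) (Ce : Submodule F B)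
    (hVC : LinearMap.range (lin F f) ≤ Ce)
    (hq : ∀ i η, lin F f η = 0 → quad f (e i) η ∈ Ce) :
    Module.finrank F (Submodule.span F (Set.range (gfam f e))) ≤
      Module.finrank F (LinearMap.range (lin F f)) + Fintype.card k * Module.finrank F Ce := by
  rw [p3_finrank_split (Submodule.span F (Set.range (gfam f e))) (LinearMap.proj (none : Option k)),
    gfam_map, ← finrank_ccs (k := k) Ce]
  exact Nat.add_le_add_left (Submodule.finrank_mono (gfam_ker_le f e Ce hVC hq)) _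

theorem gfam_lower (f : NPS σ B) (e : k → σ → F) (Ce : Submodule F B)
    (hon : ∀ c : k → B, (∀ i, c i ∈ Ce) → ∃ η : σ → F, lin F f η = 0 ∧
      ∀ i, quad f (e i) η - c i ∈ LinearMap.range (lin F f)) :
    Module.finrank F (LinearMap.range (lin F f)) + Fintype.card k * Module.finrank F Ce ≤
      Module.finrank F (Submodule.span F (Set.range (gfam f e))) := by
  rw [p3_finrank_split (Submodule.span F (Set.range (gfam f e))) (LinearMap.proj (none : Option k)),
    gfam_map, ← finrank_ccs (k := k) Ce]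
  refine Nat.add_le_add_left (Submodule.finrank_mono ?_) _
  rintro u ⟨h1, h2⟩
  refine ⟨?_, h1⟩
  obtain ⟨η, hη, h3⟩ := hon (fun i => u (some i)) h2
  choose ζ hζ using h3
  refine (gfam_mem_span f e u).2 ⟨η, fun i => - ζ i, by rw [h1, hη], fun i => ?_⟩
  rw [map_neg, hζ i]
  abel

theorem gfam_onto (f : NPS σ B) (e : k → σ → F) (Ce : Submodule F B)
    (hVC : LinearMap.range (lin F f) ≤ Ce)
    (hq : ∀ i η, lin F f η = 0 → quad f (e i) η ∈ Ce)
    (hrk : Module.finrank F (LinearMap.range (lin F f)) + Fintype.card k * Module.finrank F Ce ≤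
      Module.finrank F (Submodule.span F (Set.range (gfam f e)))) (c : k → B) (hc : ∀ i, c i ∈ Ce) :
    ∃ η : σ → F, lin F f η = 0 ∧ ∀ i, quad f (e i) η - c i ∈ LinearMap.range (lin F f) := by
  rw [p3_finrank_split (Submodule.span F (Set.range (gfam f e))) (LinearMap.proj (none : Option k)),
    gfam_map, ← finrank_ccs (k := k) Ce, Nat.add_le_add_iff_left] at hrk
  have h := Submodule.eq_of_le_of_finrank_le (gfam_ker_le f e Ce hVC hq) hrk
  have h1 : (fun o => match o with
      | none => 0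
      | some i => c i : Option k → B) ∈ ccs k Ce := ⟨rfl, hc⟩
  rw [← h] at h1
  obtain ⟨η, ζ, h2, h3⟩ := (gfam_mem_span f e _).1 h1.1
  refine ⟨η, h2.symm, fun i => ⟨- ζ i, ?_⟩⟩
  have h3i : c i = quad f (e i) η + lin F f (ζ i) := h3 i
  rw [map_neg, h3i]
  abel

end GF

section Good

variable {K₁ A₁ σ : Type} [Field K₁] [Ring A₁] [Algebra K₁ A₁] [FiniteDimensional K₁ A₁]
  [Fintype σ] [DecidableEq σ]

/-- residue of `gfam` -/
theorem gfam_res {k : Type} [Fintype k] [DecidableEq k] (g : NPS σ (LS A₁)) (gb : NPS σ A₁)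
    (hg : ∀ u, LS.Intg (g u)) (hgb : ∀ u, LS.coeff (g u) 0 = gb u)
    (e : k → σ → LS K₁) (h : k → σ → K₁) (he : ∀ i γ, LS.Intg (e i γ))
    (heh : ∀ i γ, LS.coeff (e i γ) 0 = h i γ) (x : σ ⊕ (σ × k)) (o : Option k) :
    LS.Intg (gfam g e x o) ∧ LS.coeff (gfam g e x o) 0 = gfam gb h x o := by
  match x, o with
  | Sum.inl γ, none => exact ⟨hg _, hgb _⟩
  | Sum.inl γ, some i =>
    refine ⟨LS.Intg.sum fun γ' _ => p3_intg_smul (he i γ') (hg _), ?_⟩
    show LS.coeff (∑ γ', e i γ' • g [γ', γ]) 0 = ∑ γ', h i γ' • gb [γ', γ]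
    rw [LS.coeff_sum]
    refine Finset.sum_congr rfl fun γ' _ => ?_
    rw [p3_coeff_smul_low _ _ _ (he i γ') (hg _), heh, hgb]
  | Sum.inr (γ, i), none => exact ⟨LS.Intg.zero, rfl⟩
  | Sum.inr (γ, i), some i' =>
    show LS.Intg (if i' = i then g [γ] else 0) ∧ LS.coeff (if i' = i then g [γ] else 0) 0
      = if i' = i then gb [γ] else 0
    split_ifs
    · exact ⟨hg _, hgb _⟩
    · exact ⟨LS.Intg.zero, rfl⟩

/-- lin of an integral series on integral vectors -/
theorem lin_res (g : NPS σ (LS A₁)) (gb : NPS σ A₁)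
    (hg : ∀ u, LS.Intg (g u)) (hgb : ∀ u, LS.coeff (g u) 0 = gb u) (x : σ → K₁)
    (hrk : Module.finrank (LS K₁) (LinearMap.range (lin (LS K₁) g)) ≤
      Module.finrank K₁ (LinearMap.range (lin K₁ gb))) (hx : lin K₁ gb x = 0) :
    ∃ y : σ → LS K₁, (∀ i, LS.Intg (y i)) ∧ (∀ i, LS.coeff (y i) 0 = x i) ∧ lin (LS K₁) g y = 0 := by
  have e1 : ∀ {F B : Type} [Field F] [Ring B] [Algebra F B] (f : NPS σ B),
      LinearMap.range (lin F f) = (Submodule.span F (Set.range (fun γ => fun _ : Unit => f [γ]))).map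
        (LinearMap.proj ()) := by
    intro F B _ _ _ f
    ext z
    simp only [LinearMap.mem_range, Submodule.mem_map, Submodule.mem_span_range_iff_exists_fun]
    constructor
    · rintro ⟨c, rfl⟩
      exact ⟨_, ⟨c, rfl⟩, by simp [lin]⟩
    · rintro ⟨_, ⟨c, rfl⟩, rfl⟩
      exact ⟨c, by simp [lin]⟩
  have hinj : ∀ {F B : Type} [Field F] [Ring B] [Algebra F B],
      Function.Injective (LinearMap.proj () : (Unit → B) →ₗ[F] B) := by
    intro F B _ _ _ a b hab
    funext i
    exact hab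
  rw [e1, e1, p3_finrank_map_inj _ _ hinj, p3_finrank_map_inj _ _ hinj]
    at hrk
  have e2 : (fun γ => fun _ : Unit => gb [γ]) = fun γ => fun a : Unit =>
      LS.coeff ((fun γ => fun _ : Unit => g [γ]) γ a) 0 := by
    funext γ a
    exact (hgb _).symm
  rw [e2] at hrk
  obtain ⟨y, h1, h2, h3⟩ := p3_lift_ker (fun γ => fun _ : Unit => g [γ]) (fun _ _ => hg _) hrk x (by
    intro a
    rw [← hx]
    exact Finset.sum_congr rfl fun γ _ => by rw [hgb])
  exact ⟨y, h1, h2, h3 ()⟩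

/-- GOODLIFT, integral form -/
theorem goodlift_int (g : NPS σ (LS A₁)) (gb : NPS σ A₁)
    (hg : ∀ u, LS.Intg (g u)) (hgb : ∀ u, LS.coeff (g u) 0 = gb u)
    (Ce : Submodule (LS K₁) (LS A₁)) (Cb : Submodule K₁ A₁)
    (hVC : LinearMap.range (lin (LS K₁) g) ≤ Ce)
    (hq : ∀ η η', lin (LS K₁) g η = 0 → lin (LS K₁) g η' = 0 → quad g η η' ∈ Ce)
    (hrk : Module.finrank (LS K₁) (LinearMap.range (lin (LS K₁) g)) ≤
      Module.finrank K₁ (LinearMap.range (lin K₁ gb)))
    (hC : Module.finrank (LS K₁) Ce ≤ Module.finrank K₁ Cb)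
    (h₁ h₂ : σ → K₁) (hgood : GoodPair gb (LinearMap.range (lin K₁ gb)) Cb h₁ h₂) :
    ∃ e₁ e₂, GoodPair g (LinearMap.range (lin (LS K₁) g)) Ce e₁ e₂ := by
  classical
  obtain ⟨e₁, he₁, hc₁, hk₁⟩ := lin_res g gb hg hgb h₁ hrk hgood.ker1
  -- isotropic lift of `h₂`
  have hup := gfam_upper g (fun _ : Fin 1 => e₁) Ce hVC (fun _ η hη => hq _ _ hk₁ hη)
  have hlow := gfam_lower gb (fun _ : Fin 1 => h₁) Cb (by
    intro c hc
    obtain ⟨η, h3, h4, -⟩ := hgood.onto (c 0) (hc 0) 0 Cb.zero_mem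
    exact ⟨η, h3, fun i => by rw [Subsingleton.elim i 0]; exact h4⟩)
  have hres := gfam_res g gb hg hgb (fun _ : Fin 1 => e₁) (fun _ => h₁) (fun _ => he₁) (fun _ => hc₁)
  obtain ⟨ζ, hζ⟩ := hgood.iso
  have e2 : (gfam gb (fun _ : Fin 1 => h₁)) = fun x => fun o =>
      LS.coeff (gfam g (fun _ : Fin 1 => e₁) x o) 0 := by
    funext x o
    exact ((hres x o).2).symm
  obtain ⟨y, hy1, hy2, hy3⟩ := p3_lift_ker (gfam g (fun _ : Fin 1 => e₁)) (fun x o => (hres x o).1)
    (by
      rw [← e2]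
      refine hup.trans (le_trans ?_ hlow)
      exact Nat.add_le_add hrk (Nat.mul_le_mul_left _ hC))
    (fun x => match x with
      | Sum.inl γ => h₂ γ
      | Sum.inr (γ, _) => - ζ γ) (by
      intro o
      have e3 : ∀ x, LS.coeff (gfam g (fun _ : Fin 1 => e₁) x o) 0 =
        gfam gb (fun _ : Fin 1 => h₁) x o := fun x => (hres x o).2
      simp only [e3]
      cases o with
      | none =>
        rw [gfam_sum_none]
        exact hgood.ker2
      | some i =>
        rw [gfam_sum_some]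
        show quad gb h₁ h₂ + lin K₁ gb (- ζ) = 0
        rw [map_neg, hζ, add_neg_cancel])
  obtain ⟨e₂, he₂⟩ : ∃ e₂ : σ → LS K₁, e₂ = fun γ => y (Sum.inl γ) := ⟨_, rfl⟩
  have hk₂ : lin (LS K₁) g e₂ = 0 := by
    rw [he₂, ← gfam_sum_none g (fun _ : Fin 1 => e₁)]
    exact hy3 none
  have hiso : quad g e₁ e₂ ∈ LinearMap.range (lin (LS K₁) g) := by
    have h5 := hy3 (some 0)
    rw [gfam_sum_some] at h5
    refine ⟨- fun γ => y (Sum.inr (γ, 0)), ?_⟩
    rw [map_neg, he₂]
    exact (eq_neg_of_add_eq_zero_left h5).symm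
  -- surjectivity
  have hq2 : ∀ i η, lin (LS K₁) g η = 0 → quad g ((![e₁, e₂] : Fin 2 → σ → LS K₁) i) η ∈ Ce := by
    intro i η hη
    match i with
    | 0 => exact hq _ _ hk₁ hη
    | 1 => exact hq _ _ hk₂ hη
  have hlow2 := gfam_lower gb (![h₁, h₂] : Fin 2 → σ → K₁) Cb (by
    intro c hc
    obtain ⟨η, h3, h4, h5⟩ := hgood.onto (c 0) (hc 0) (c 1) (hc 1)
    refine ⟨η, h3, fun i => ?_⟩
    match i with
    | 0 => exact h4
    | 1 => exact h5)
  have hres2 := gfam_res g gb hg hgb (![e₁, e₂] : Fin 2 → σ → LS K₁) (![h₁, h₂] : Fin 2 → σ → K₁)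
    (by
      intro i γ
      match i with
      | 0 => exact he₁ γ
      | 1 =>
        show LS.Intg (e₂ γ)
        rw [he₂]
        exact hy1 _)
    (by
      intro i γ
      match i with
      | 0 => exact hc₁ γ
      | 1 =>
        show LS.coeff (e₂ γ) 0 = h₂ γ
        rw [he₂]
        exact hy2 _)
  have e4 : (gfam gb (![h₁, h₂] : Fin 2 → σ → K₁)) = fun x => fun o =>
      LS.coeff (gfam g (![e₁, e₂] : Fin 2 → σ → LS K₁) x o) 0 := by
    funext x o
    exact ((hres2 x o).2).symm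
  have hrk2 := p3_rank_le (K₁ := K₁) (gfam g (![e₁, e₂] : Fin 2 → σ → LS K₁))
    (fun x o => (hres2 x o).1)
  rw [← e4] at hrk2
  have hrkfull := hlow2.trans hrk2
  have hfull : Module.finrank (LS K₁) (LinearMap.range (lin (LS K₁) g))
      + Fintype.card (Fin 2) * Module.finrank (LS K₁) Ce ≤
      Module.finrank (LS K₁) (Submodule.span (LS K₁)
        (Set.range (gfam g (![e₁, e₂] : Fin 2 → σ → LS K₁)))) :=
    le_trans (Nat.add_le_add hrk (Nat.mul_le_mul_left _ hC)) hrkfull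
  refine ⟨e₁, e₂, hk₁, hk₂, hiso, fun c₁ hc1 c₂ hc2 => ?_⟩
  obtain ⟨η, h7, h8⟩ := gfam_onto g (![e₁, e₂] : Fin 2 → σ → LS K₁) Ce hVC hq2 hfull
    (![c₁, c₂] : Fin 2 → LS A₁) (by
      intro i
      match i with
      | 0 => exact hc1
      | 1 => exact hc2)
  exact ⟨η, h7, h8 0, h8 1⟩

/-- scaling by a power of `t` -/
theorem goodpair_scale (g f' : NPS σ (LS A₁)) (m : ℤ) (hf : ∀ u, f' u = (LS.tp m : LS K₁) • g u)
    (Ce : Submodule (LS K₁) (LS A₁)) (e₁ e₂ : σ → LS K₁)
    (h : GoodPair g (LinearMap.range (lin (LS K₁) g)) Ce e₁ e₂) :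
    LinearMap.range (lin (LS K₁) f') = LinearMap.range (lin (LS K₁) g) ∧
    GoodPair f' (LinearMap.range (lin (LS K₁) f')) Ce e₁ e₂ := by
  have hl : ∀ δ, lin (LS K₁) f' δ = (LS.tp m : LS K₁) • lin (LS K₁) g δ := by
    intro δ
    unfold lin
    simp only [LinearMap.coe_mk, AddHom.coe_mk, Finset.smul_sum]
    refine Finset.sum_congr rfl fun γ _ => ?_
    rw [hf, smul_comm]
  have hq : ∀ δ δ' : σ → LS K₁, quad f' δ δ' = (LS.tp m : LS K₁) • quad g δ δ' := by
    intro δ δ'
    unfold quad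
    simp only [Finset.smul_sum]
    refine Finset.sum_congr rfl fun γ _ => Finset.sum_congr rfl fun γ' _ => ?_
    rw [hf, smul_comm]
  have hu : (LS.tp m : LS K₁) * LS.tp (-m) = 1 := LS.tp_mul_tp_neg m
  have hu' : (LS.tp (-m) : LS K₁) * LS.tp m = 1 := by rw [mul_comm]; exact hu
  have hne : ∀ x : LS A₁, (LS.tp m : LS K₁) • x = 0 → x = 0 := by
    intro x hx
    have := congrArg (fun z => (LS.tp (-m) : LS K₁) • z) hx
    simpa only [smul_smul, hu', one_smul, smul_zero] using this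
  have hr : LinearMap.range (lin (LS K₁) f') = LinearMap.range (lin (LS K₁) g) := by
    ext x
    constructor
    · rintro ⟨δ, rfl⟩
      rw [hl]
      exact Submodule.smul_mem _ _ ⟨δ, rfl⟩
    · rintro ⟨δ, rfl⟩
      refine ⟨(LS.tp (-m) : LS K₁) • δ, ?_⟩
      rw [map_smul, hl, smul_smul, hu', one_smul]
  refine ⟨hr, ⟨?_, ?_, ?_, ?_⟩⟩
  · rw [hl, h.ker1, smul_zero]
  · rw [hl, h.ker2, smul_zero]
  · rw [hr, hq]
    exact Submodule.smul_mem _ _ h.iso
  · intro c₁ h1 c₂ h2
    obtain ⟨η, h3, h4, h5⟩ := h.onto _ (Ce.smul_mem (LS.tp (-m)) h1) _ (Ce.smul_mem (LS.tp (-m)) h2)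
    refine ⟨η, by rw [hl, h3, smul_zero], ?_, ?_⟩
    · rw [hr, hq]
      have := Submodule.smul_mem (LinearMap.range (lin (LS K₁) g)) (LS.tp m) h4
      rwa [smul_sub, smul_smul, hu, one_smul] at this
    · rw [hr, hq]
      have := Submodule.smul_mem (LinearMap.range (lin (LS K₁) g)) (LS.tp m) h5
      rwa [smul_sub, smul_smul, hu, one_smul] at this

/-- GOODLIFT -/
theorem goodlift (f' : NPS σ (LS A₁)) (G : NPS σ (PowerSeries A₁)) (m : ℤ)
    (hf : ∀ u, f' u = (LS.tp m : LS K₁) • LS.ofPS (G u))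
    (Ce : Submodule (LS K₁) (LS A₁)) (Cb : Submodule K₁ A₁)
    (hVC : LinearMap.range (lin (LS K₁) f') ≤ Ce)
    (hq : ∀ η η', lin (LS K₁) f' η = 0 → lin (LS K₁) f' η' = 0 → quad f' η η' ∈ Ce)
    (hrk : Module.finrank (LS K₁) (LinearMap.range (lin (LS K₁) f')) ≤
      Module.finrank K₁ (LinearMap.range (lin K₁ (NPS.map PowerSeries.constantCoeff G))))
    (hC : Module.finrank (LS K₁) Ce ≤ Module.finrank K₁ Cb)
    (h₁ h₂ : σ → K₁)
    (hgood : GoodPair (NPS.map PowerSeries.constantCoeff G)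
      (LinearMap.range (lin K₁ (NPS.map PowerSeries.constantCoeff G))) Cb h₁ h₂) :
    ∃ e₁ e₂, GoodPair f' (LinearMap.range (lin (LS K₁) f')) Ce e₁ e₂ := by
  obtain ⟨g, hgdef⟩ : ∃ g : NPS σ (LS A₁), g = fun u => LS.ofPS (G u) := ⟨_, rfl⟩
  have hg : ∀ u, LS.Intg (g u) := fun u => by
    rw [hgdef]
    exact (LS.intg_iff _).2 ⟨G u, rfl⟩
  have hgb : ∀ u, LS.coeff (g u) 0 = NPS.map PowerSeries.constantCoeff G u := fun u => by
    rw [hgdef]
    have := LS.coeff_ofPS (G u) 0
    simpa using this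
  have hfg : ∀ u, f' u = (LS.tp m : LS K₁) • g u := fun u => by rw [hf, hgdef]
  have hu : (LS.tp m : LS K₁) * LS.tp (-m) = 1 := LS.tp_mul_tp_neg m
  have hu' : (LS.tp (-m) : LS K₁) * LS.tp m = 1 := by rw [mul_comm]; exact hu
  have hgf : ∀ u, g u = (LS.tp (-m) : LS K₁) • f' u := fun u => by
    rw [hfg, smul_smul, hu', one_smul]
  have hl : ∀ δ, lin (LS K₁) g δ = (LS.tp (-m) : LS K₁) • lin (LS K₁) f' δ := by
    intro δ
    unfold lin
    simp only [LinearMap.coe_mk, AddHom.coe_mk, Finset.smul_sum]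
    refine Finset.sum_congr rfl fun γ _ => ?_
    rw [hgf, smul_comm]
  have hl' : ∀ δ, lin (LS K₁) f' δ = (LS.tp m : LS K₁) • lin (LS K₁) g δ := by
    intro δ
    rw [hl, smul_smul, hu, one_smul]
  have hqq : ∀ δ δ' : σ → LS K₁, quad g δ δ' = (LS.tp (-m) : LS K₁) • quad f' δ δ' := by
    intro δ δ'
    unfold quad
    simp only [Finset.smul_sum]
    refine Finset.sum_congr rfl fun γ _ => Finset.sum_congr rfl fun γ' _ => ?_
    rw [hgf, smul_comm]
  have hr : LinearMap.range (lin (LS K₁) f') = LinearMap.range (lin (LS K₁) g) := by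
    ext x
    constructor
    · rintro ⟨δ, rfl⟩
      rw [hl']
      exact Submodule.smul_mem _ _ ⟨δ, rfl⟩
    · rintro ⟨δ, rfl⟩
      rw [hl]
      exact Submodule.smul_mem _ _ ⟨δ, rfl⟩
  obtain ⟨e₁, e₂, h⟩ := goodlift_int g (NPS.map PowerSeries.constantCoeff G) hg hgb Ce Cb
    (by rw [← hr]; exact hVC)
    (fun η η' h1 h2 => by
      rw [hqq]
      refine Ce.smul_mem _ (hq _ _ ?_ ?_)
      · rw [hl', h1, smul_zero]
      · rw [hl', h2, smul_zero])
    (by rw [← hr]; exact hrk) hC h₁ h₂ hgood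
  exact ⟨e₁, e₂, (goodpair_scale g f' m hfg Ce e₁ e₂ h).2⟩

/-- GOODLIFT in the form of section 9 -/
theorem goodlift_res (f' : NPS σ (LS A₁)) (gb : NPS σ A₁) (m : ℤ)
    (hi : ∀ u, LS.Intg (LS.tp (-m) * f' u)) (hgb : ∀ u, LS.coeff (LS.tp (-m) * f' u) 0 = gb u)
    (Ce : Submodule (LS K₁) (LS A₁))
    (hVC : LinearMap.range (lin (LS K₁) f') ≤ Ce)
    (hq : ∀ η η', lin (LS K₁) f' η = 0 → lin (LS K₁) f' η' = 0 → quad f' η η' ∈ Ce)
    (hrk : Module.finrank K₁ (LinearMap.range (lin K₁ gb)) =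
      Module.finrank (LS K₁) (LinearMap.range (lin (LS K₁) f')))
    (h₁ h₂ : σ → K₁) (hgood : GoodPair gb (LinearMap.range (lin K₁ gb)) (res Ce) h₁ h₂) :
    ∃ e₁ e₂, GoodPair f' (LinearMap.range (lin (LS K₁) f')) Ce e₁ e₂ := by
  choose G hG using fun u => (LS.intg_iff _).1 (hi u)
  have hu : (LS.tp m : LS K₁) * LS.tp (-m) = 1 := LS.tp_mul_tp_neg m
  have hmap : NPS.map PowerSeries.constantCoeff (G : NPS σ (PowerSeries A₁)) = gb := by
    ext u
    rw [← hgb u, ← hG u]
    have := LS.coeff_ofPS (G u) 0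
    show PowerSeries.constantCoeff (G u) = _
    simpa using this.symm
  have hC : Module.finrank (LS K₁) Ce ≤ Module.finrank K₁ (res Ce) := (finrank_res Ce).ge
  refine goodlift f' G m (fun u => ?_) Ce (res Ce) hVC hq (by rw [hmap]; exact hrk.ge) hC h₁ h₂
    (by rw [hmap]; exact hgood)
  rw [hG u]
  have h1 : (LS.tp (-m) : LS A₁) * f' u = (LS.tp (-m) : LS K₁) • f' u := by
    rw [LS.smul_def, LS.map_tp]
  rw [h1, smul_smul, hu, one_smul]

end Good

end Vale.Agent.P199K
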