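import Vale.Agent.P199K.ResOne
import Vale.Agent.P199K.ExpF

/-! # P199: facts `eh_nil_coeff`, `eh_cons_coeff`, `range_lin1`, `exists_theta` -/

open scoped TensorProduct LaurentSeries
open PowerSeries

namespace Vale.Agent.P199K

namespace Trip
variable {S : Stg} (w₀ : NPS (Fin 2) S.A)

/-- first order term of an expansion: `w(p) = w + t w₁(θ) + O(t²)`, `θ = p mod t²` -/
theorem eh_nil_coeff_proved (P : Trip S) (d : ExpD P.K P.A P.σ) (f : NPS P.σ P.A) :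
    LS.Intg (P.eh d f []) ∧ LS.coeff (P.eh d f []) 0 = d.ι (f []) ∧
    LS.coeff (P.eh d f []) 1 = lin1 d.ι d.j f (fun γ => PowerSeries.coeff 1 (d.p γ)) :=
  ⟨exp_int _ _ _ _ _ _ _ _, exp_nil_zero _ _ _ _ _ _ _, exp_nil_one _ _ _ _ _ _ _⟩

/-- linear part of an expansion: `w'([γβ]) = t (w([γ]) ε_β + O(t))` -/
theorem eh_cons_coeff_proved (P : Trip S) (d : ExpD P.K P.A P.σ) (f : NPS P.σ P.A) (γ : P.σ)
    (β : d.B) :
    (∀ n : ℤ, n < 1 → LS.coeff (P.eh d f [(γ, β)]) n = 0) ∧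
    LS.coeff (P.eh d f [(γ, β)]) 1 = d.ι (f [γ]) * d.j (d.ε β) :=
  ⟨fun n hn => exp_ord _ _ _ _ _ _ _ _ _ (by simpa using hn), exp_single_one _ _ _ _ _ _ _ _ _⟩

/-- `E₁^σ → V ⊠ E₁` is onto (any linear part) -/
theorem range_lin1_proved (P : Trip S) (d : ExpD P.K P.A P.σ) (f : NPS P.σ P.A) :
    LinearMap.range (lin1 d.ι d.j f) = bx d.ι d.j (LinearMap.range (lin P.K f)) := by
  apply le_antisymm
  · rintro _ ⟨θ, rfl⟩
    show ∑ γ, d.ι (f [γ]) * d.j (θ γ) ∈ _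
    refine Submodule.sum_mem _ fun γ _ => Submodule.subset_span ⟨θ γ, f [γ], ?_, rfl⟩
    refine ⟨Pi.single γ 1, ?_⟩
    show ∑ γ', (Pi.single γ (1 : P.K) : P.σ → P.K) γ' • f [γ'] = f [γ]
    rw [Finset.sum_eq_single γ]
    · rw [Pi.single_eq_same, one_smul]
    · intro b _ hb
      rw [Pi.single_eq_of_ne hb, zero_smul]
    · intro h
      exact absurd (Finset.mem_univ γ) h
  · refine Submodule.span_le.2 ?_
    rintro _ ⟨e, _, ⟨δ, rfl⟩, rfl⟩
    refine ⟨fun γ => d.κ (δ γ) • e, ?_⟩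
    show ∑ γ, d.ι (f [γ]) * d.j (d.κ (δ γ) • e) = d.ι (∑ γ, δ γ • f [γ]) * d.j e
    rw [map_sum, Finset.sum_mul]
    refine Finset.sum_congr rfl fun γ _ => ?_
    rw [map_smul, Algebra.smul_def (δ γ), map_mul, d.adm.ι_alg, ← Algebra.smul_def,
      Algebra.mul_smul_comm, Algebra.smul_mul_assoc]

/-- under R1, every `v ∈ V ⊠ E₁` is `u₁(θ)`: `f₁(θ) = λ_f v` -/
theorem exists_theta_proved (P : Trip S) (d : ExpD P.K P.A P.σ) (h : R1U P.K (P.Psi w₀)) (l : P.A)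
    (hl : l ∈ calL P.K (P.Psi w₀)) (h0 : l ≠ 0) (v : d.A₁)
    (hv : v ∈ bx d.ι d.j (Vl P.K (P.Psi w₀) l)) :
    ∃ θ : P.σ → d.E₁, lin1 d.ι d.j (ff P.K (P.Psi w₀)) θ = d.ι (lamf P.K (P.Psi w₀) l) * v := by
  have h1 := P.range_lin1_proved d (ff P.K (P.Psi w₀))
  have h2 : LinearMap.range (lin P.K (ff P.K (P.Psi w₀))) =
      (Vl P.K (P.Psi w₀) l).map (LinearMap.mulLeft P.K (lamf P.K (P.Psi w₀) l)) :=
    VfU_eq_proved (P.Psi w₀) l h hl h0
  rw [h2] at h1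
  have h3 : d.ι (lamf P.K (P.Psi w₀) l) * v ∈ bx d.ι d.j
      ((Vl P.K (P.Psi w₀) l).map (LinearMap.mulLeft P.K (lamf P.K (P.Psi w₀) l))) := by
    unfold bx at hv ⊢
    induction hv using Submodule.span_induction with
    | mem x hx =>
      obtain ⟨e, u, hu, rfl⟩ := hx
      refine Submodule.subset_span ⟨e, lamf P.K (P.Psi w₀) l * u, ⟨u, hu, rfl⟩, ?_⟩
      rw [map_mul, mul_assoc]
    | zero => rw [mul_zero]; exact Submodule.zero_mem _
    | add x y _ _ hx hy => rw [mul_add]; exact Submodule.add_mem _ hx hy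
    | smul c x _ hx => rw [Algebra.mul_smul_comm]; exact Submodule.smul_mem _ _ hx
  rw [← h1] at h3
  exact h3

end Trip

end Vale.Agent.P199K
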