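import Vale.Agent.P199K.ResAA
import Vale.Agent.P199K.ResS3

/-!
# P199, section 4: RES (a)-(d) (helper95)
-/

open scoped TensorProduct LaurentSeries
open PowerSeries

namespace Vale.Agent.P199K

open Module

/-- arithmetic of (E) -/
theorem ad_arith {n n1 m n' n1' f : ℕ} (hn : 0 < n) (hm : 0 < m) (hd1 : n1 ∣ n) (hd2 : n1' ∣ n')
    (hn' : n' = n * m) (h1 : n1 * (n * m) ≤ n * f) (h2 : f ≤ n1') (hq : n / n1 ≤ n' / n1') :
    n1' = n1 * m ∧ f = n1 * m := by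
  have hdim2 : n1 * m ≤ f := by
    refine Nat.le_of_mul_le_mul_left ?_ hn
    calc n * (n1 * m) = n1 * (n * m) := by ring
      _ ≤ _ := h1
  have hn1pos : 0 < n1 := Nat.pos_of_dvd_of_pos hd1 hn
  have hn1'pos : 0 < n1' := lt_of_lt_of_le (Nat.mul_pos hn1pos hm) (hdim2.trans h2)
  obtain ⟨q, hq1⟩ := hd1
  obtain ⟨q', hq2⟩ := hd2
  rw [hq1, hq2, Nat.mul_div_cancel_left _ hn1pos, Nat.mul_div_cancel_left _ hn1'pos] at hq
  have hqpos : 0 < q := by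
    rcases Nat.eq_zero_or_pos q with h | h
    · rw [h, mul_zero] at hq1
      omega
    · exact h
  have h3 : n1' ≤ n1 * m := by
    refine Nat.le_of_mul_le_mul_right ?_ hqpos
    calc n1' * q ≤ n1' * q' := Nat.mul_le_mul_left _ hq
      _ = n1 * m * q := by rw [← hq2, hn', hq1]; ring
  exact ⟨by omega, by omega⟩

namespace Trip
variable {S : Stg} (w₀ : NPS (Fin 2) S.A)

/-- lifting: `π_{bar L'}(w₁(θ)) ∈ bar calL'` -/
theorem res_calL_lift (P : Trip S) (d : ExpD P.K P.A P.σ) [FiniteDimensional d.K₁ d.A₁]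
    [CharZero d.K₁] (θ : P.σ → d.E₁) :
    ∃ y ∈ calL (LS d.K₁) (wx w₀ P d), LS.Intg y ∧
      LS.coeff y 0 = pr (resA (Lf (LS d.K₁) ((wx w₀ P d) []))) (lin1 d.ι d.j (P.Psi w₀) θ) := by
  classical
  let δ : P.σ × d.B → LS d.K₁ := fun s => LS.tp (-1) * LS.C (d.ε.repr (θ s.1) s.2)
  have hcoef : ∀ n : ℤ, LS.coeff (lin (LS d.K₁) (wx w₀ P d) δ) n
      = ∑ s : P.σ × d.B, (d.ε.repr (θ s.1) s.2) • LS.coeff ((wx w₀ P d) [s]) (n + 1) := by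
    intro n
    show LS.coeff (∑ s, δ s • (wx w₀ P d) [s]) n = _
    rw [LS.coeff_sum]
    refine Finset.sum_congr rfl fun s _ => ?_
    show LS.coeff ((LS.tp (-1) * LS.C (d.ε.repr (θ s.1) s.2) : LS d.K₁) • (wx w₀ P d) [s]) n = _
    rw [mul_smul, LS.coeff_tp_smul, LS.coeff_C_smul, sub_neg_eq_add]
  have hi : LS.Intg (lin (LS d.K₁) (wx w₀ P d) δ) := by
    intro n hn
    rw [hcoef]
    refine Finset.sum_eq_zero fun s _ => ?_
    have h2 : LS.coeff ((wx w₀ P d) [s]) (n + 1) = 0 :=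
      exp_ord d.ι (d.j : d.E₁ →+* d.A₁) (P.d_comm d) d.ε d.p d.hp (P.Psi w₀) [s] (n + 1)
        (by simpa using hn)
    rw [h2, smul_zero]
  have h0 : LS.coeff (lin (LS d.K₁) (wx w₀ P d) δ) 0 = lin1 d.ι d.j (P.Psi w₀) θ := by
    rw [hcoef, Fintype.sum_prod_type]
    show _ = ∑ γ, d.ι ((P.Psi w₀) [γ]) * d.j (θ γ)
    refine Finset.sum_congr rfl fun γ _ => ?_
    have h1 : ∀ β, LS.coeff ((wx w₀ P d) [(γ, β)]) (0 + 1)
        = d.ι ((P.Psi w₀) [γ]) * d.j (d.ε β) := fun β => by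
      rw [zero_add]
      exact exp_single_one d.ι (d.j : d.E₁ →+* d.A₁) (P.d_comm d) d.ε d.p d.hp (P.Psi w₀) γ β
    conv_rhs => rw [← d.ε.sum_repr (θ γ), map_sum, Finset.mul_sum]
    refine Finset.sum_congr rfl fun β _ => ?_
    rw [h1, map_smul, mul_smul_comm]
  refine ⟨pr (Lf (LS d.K₁) ((wx w₀ P d) [])) (lin (LS d.K₁) (wx w₀ P d) δ), ⟨δ, ?_⟩,
    intg_pr _ hi, ?_⟩
  · rw [LinearMap.comp_apply, proj_Lf]
  · rw [coeff_pr _ hi, h0]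

/-- (a): bar L' = Λ -/
theorem ad_resL (P : Trip S) (d : ExpD P.K P.A P.σ) [FiniteDimensional d.K₁ d.A₁] (hR : P.CR w₀)
    (C : d.A₁) (hC1 : C ∈ res (Subalgebra.toSubmodule (Lf (LS d.K₁) ((wx w₀ P d) []))))
    (hC3 : Module.finrank d.K₁ (LG d.K₁ d.ι (Lf P.K ((P.Psi w₀) [])) C) = P.nn w₀ * d.m) :
    res (Subalgebra.toSubmodule (Lf (LS d.K₁) ((wx w₀ P d) [])))
      = Subalgebra.toSubmodule (LG d.K₁ d.ι (Lf P.K ((P.Psi w₀) [])) C) ∧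
    (P.expand d).nn w₀ = P.nn w₀ * d.m := by
  have hΛle : LG d.K₁ d.ι (Lf P.K ((P.Psi w₀) [])) C ≤ resA (Lf (LS d.K₁) ((wx w₀ P d) [])) := by
    refine Algebra.adjoin_le ?_
    rintro x (⟨l, hl, rfl⟩ | hx)
    · exact ι_mem_res_proved w₀ P d l hl
    · rw [Set.mem_singleton_iff] at hx
      rw [hx]
      exact hC1
  have hnn_le : (P.expand d).nn w₀ ≤ P.nn w₀ * d.m := nn_expand_le_proved w₀ P d hR
  have hfrL : finrank d.K₁ (resA (Lf (LS d.K₁) ((wx w₀ P d) []))) = (P.expand d).nn w₀ :=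
    finrank_res _
  have hfr1 : finrank d.K₁ (LG d.K₁ d.ι (Lf P.K ((P.Psi w₀) [])) C)
      ≤ finrank d.K₁ (resA (Lf (LS d.K₁) ((wx w₀ P d) []))) :=
    Submodule.finrank_mono (Subalgebra.toSubmodule.monotone hΛle)
  refine ⟨?_, by omega⟩
  symm
  refine Submodule.eq_of_le_of_finrank_le (Subalgebra.toSubmodule.monotone hΛle) ?_
  show finrank d.K₁ (resA (Lf (LS d.K₁) ((wx w₀ P d) [])))
    ≤ finrank d.K₁ (LG d.K₁ d.ι (Lf P.K ((P.Psi w₀) [])) C)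
  omega

/-- `ρ' = ρ` -/
theorem ad_rho (P : Trip S) (d : ExpD P.K P.A P.σ) (hnn : (P.expand d).nn w₀ = P.nn w₀ * d.m) :
    (P.expand d).rho w₀ = P.rho w₀ := by
  have h1 := (P.expand d).nn_rho w₀
  rw [finrank_expand, ← P.nn_rho w₀, hnn] at h1
  have h2 : 0 < (P.nn w₀ * d.m) ^ 2 := by
    have h3 := d.adm.pos
    have h4 := nn_pos w₀ P
    positivity
  refine Nat.eq_of_mul_eq_mul_left h2 ?_
  rw [h1]
  ring

theorem ad_CR (P : Trip S) (d : ExpD P.K P.A P.σ) (hR : P.CR w₀)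
    (hnn : (P.expand d).nn w₀ = P.nn w₀ * d.m) (hN : (P.expand d).CN w₀) :
    (P.expand d).CR w₀ := by
  refine ⟨hN, fun Q hQ => ?_⟩
  rw [ad_rho w₀ P d hnn]
  exact hR.2 Q ((Reach.step P P d (Reach.refl P)).trans hQ)

theorem ad_CE (P : Trip S) (d : ExpD P.K P.A P.σ) (hE : P.CE w₀)
    (hnn : (P.expand d).nn w₀ = P.nn w₀ * d.m) (hn1 : (P.expand d).n1 w₀ = P.n1 w₀ * d.m)
    (hR : (P.expand d).CR w₀) : (P.expand d).CE w₀ := by
  refine ⟨hR, fun Q hQ hQR => ?_⟩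
  rw [hnn, hn1, Nat.mul_div_mul_right _ _ d.adm.pos]
  exact hE.2 Q ((Reach.step P P d (Reach.refl P)).trans hQ) hQR

/-- RES (a)-(d) -/
theorem RES_ad_proved (P : Trip S) (d : ExpD P.K P.A P.σ) (hE : P.CE w₀) (l : P.A)
    (hl : l ∈ calL P.K (P.Psi w₀)) (h0 : l ≠ 0) (C : d.A₁)
    (hC1 : C ∈ res (Subalgebra.toSubmodule (Lf (LS d.K₁) ((wx w₀ P d) []))))
    (hC2 : C ∈ bx d.ι d.j (Subalgebra.toSubmodule (Lf P.K ((P.Psi w₀) []))))
    (hC3 : Module.finrank d.K₁ (LG d.K₁ d.ι (Lf P.K ((P.Psi w₀) [])) C) = P.nn w₀ * d.m) :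
    P.RESad w₀ d l C := by
  have hfd : FiniteDimensional d.K₁ d.A₁ := d.adm.fdA
  have hcz : CharZero d.K₁ := charZero_of_injective_ringHom d.κ.injective
  have hLc : ∀ x ∈ Lf P.K ((P.Psi w₀) []), ∀ y ∈ Lf P.K ((P.Psi w₀) []), x * y = y * x :=
    fun x hx y hy => Lf_comm _ hx hy
  have hFL : Ff P.K (P.Psi w₀) ≤ Lf P.K ((P.Psi w₀) []) := Ff_le_Lf_proved (P.Psi w₀)
  have hVF : Vl P.K (P.Psi w₀) l ≤ Subalgebra.toSubmodule (Ff P.K (P.Psi w₀)) :=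
    Vl_le_Ff_proved (P.Psi w₀) l hl h0
  obtain ⟨hresL, hnn'⟩ := ad_resL w₀ P d hE.1 C hC1 hC3
  have hresL2 : resA (Lf (LS d.K₁) ((wx w₀ P d) []))
      = LG d.K₁ d.ι (Lf P.K ((P.Psi w₀) [])) C := Subalgebra.toSubmodule.injective hresL
  have hlift := aa_lift d.adm (P.Psi w₀) (wx w₀ P d) C hC2 hresL2 (res_calL_lift w₀ P d)
  have hexl := aa_exl d.adm (P.Psi w₀) (wx w₀ P d) C hlift l hl
  have hιl0 : d.ι l ≠ 0 := aa_ι_ne d.adm h0
  have hne : ∀ l' : LS d.A₁, LS.coeff l' 0 = d.ι l → l' ≠ 0 := by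
    rintro l' hl' rfl
    exact hιl0 (hl'.symm.trans (LS.coeff_zero 0))
  have hresV : ∀ l' ∈ calL (LS d.K₁) (wx w₀ P d), LS.Intg l' → LS.coeff l' 0 = d.ι l →
      VVr d.ι d.j (Lf P.K ((P.Psi w₀) [])) (Vl P.K (P.Psi w₀) l) C
        ≤ res (Vl (LS d.K₁) (wx w₀ P d) l') := fun l' _ hli hl0 =>
    aa_resV d.adm (P.Psi w₀) (wx w₀ P d) C hlift l hl h0 l' hli hl0
  obtain ⟨l', hl', hli, hl'r⟩ := hexl
  have hVV' : VVr d.ι d.j (Lf P.K ((P.Psi w₀) [])) (Vl P.K (P.Psi w₀) l) C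
      ≤ res (Subalgebra.toSubmodule (Ff (LS d.K₁) (wx w₀ P d))) :=
    (hresV l' hl' hli hl'r).trans
      (res_mono (Vl_le_Ff_proved (wx w₀ P d) l' hl' (hne l' hl'r)))
  have hFFle := aa_FFle d.adm (P.Psi w₀) (wx w₀ P d) C l hl h0 hVV'
  have hfrF' : finrank d.K₁ (resA (Ff (LS d.K₁) (wx w₀ P d))) = (P.expand d).n1 w₀ :=
    finrank_res _
  have hFFdim : finrank d.K₁ (FFr d.ι d.j (Lf P.K ((P.Psi w₀) [])) (Ff P.K (P.Psi w₀)) C)
      ≤ (P.expand d).n1 w₀ := by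
    rw [← hfrF']
    exact Submodule.finrank_mono (Subalgebra.toSubmodule.monotone hFFle)
  have hdim1 := lam_dim_le d.adm hFL hLc hC2
  rw [hC3] at hdim1
  have hCN' : (P.expand d).CN w₀ := by
    rw [CN_expand]
    intro hbot
    rw [hbot, Submodule.mem_bot] at hl'
    exact hne l' hl'r hl'
  have hCR' := ad_CR w₀ P d hE.1 hnn' hCN'
  have hd1 : P.n1 w₀ ∣ P.nn w₀ := finrank_dvd_of_le hFL
  have hd2 : finrank (LS d.K₁) (Ff (LS d.K₁) (wx w₀ P d))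
      ∣ finrank (LS d.K₁) (Lf (LS d.K₁) ((wx w₀ P d) [])) :=
    finrank_dvd_of_le (Ff_le_Lf_proved (wx w₀ P d))
  have hd2' : (P.expand d).n1 w₀ ∣ (P.expand d).nn w₀ := hd2
  obtain ⟨hn1', hfrFF⟩ := ad_arith (nn_pos w₀ P) d.adm.pos hd1 hd2'
    hnn' hdim1 hFFdim (hE.2 _ (Reach.step P P d (Reach.refl P)) hCR')
  have hresF : res (Subalgebra.toSubmodule (Ff (LS d.K₁) (wx w₀ P d)))
      = Subalgebra.toSubmodule (FFr d.ι d.j (Lf P.K ((P.Psi w₀) [])) (Ff P.K (P.Psi w₀)) C) := by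
    symm
    refine Submodule.eq_of_le_of_finrank_le (Subalgebra.toSubmodule.monotone hFFle) ?_
    exact (hfrF'.trans (hn1'.trans hfrFF.symm)).le
  have hFFbx : Subalgebra.toSubmodule
      (FFr d.ι d.j (Lf P.K ((P.Psi w₀) [])) (Ff P.K (P.Psi w₀)) C)
      ≤ bx d.ι d.j (Subalgebra.toSubmodule (Ff P.K (P.Psi w₀))) := by
    refine FFr_le_bx d.adm _ _ hFL hLc C hC2 (lam_mul_FF d.adm hC2) ?_
    rw [hC3, hfrFF]
    show P.nn w₀ * d.m * P.n1 w₀ = P.nn w₀ * (P.n1 w₀ * d.m)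
    ring
  have hFFeq : Subalgebra.toSubmodule
      (FFr d.ι d.j (Lf P.K ((P.Psi w₀) [])) (Ff P.K (P.Psi w₀)) C)
      = VVr d.ι d.j (Lf P.K ((P.Psi w₀) [])) (Subalgebra.toSubmodule (Ff P.K (P.Psi w₀))) C := by
    apply le_antisymm
    · intro x hx
      rw [lam_VV]
      exact ⟨x, hFFbx hx, pr_of_mem _ (lam_FF_le hx)⟩
    · exact lam_VV_le_FF le_rfl
  have hVp : ∀ k : ℕ, (VVr d.ι d.j (Lf P.K ((P.Psi w₀) [])) (Vl P.K (P.Psi w₀) l) C) ^ k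
      = Subalgebra.toSubmodule
        (FFr d.ι d.j (Lf P.K ((P.Psi w₀) [])) (Ff P.K (P.Psi w₀)) C) →
      (P.expand d).Vp w₀ k := fun k hk => by
    rw [Vp_expand]
    exact aa_Vp (P.Psi w₀) (wx w₀ P d) C l l' hl' (hne l' hl'r) (hresV l' hl' hli hl'r) hresF k hk
  exact
    { resL := hresL
      nn' := hnn'
      n1' := hn1'
      CR' := hCR'
      CE' := ad_CE w₀ P d hE hnn' hn1' hCR'
      resF := hresF
      finrankF := hfrFF
      exl := ⟨l', hl', hli, hl'r⟩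
      resV := hresV
      FF_le := hFFbx
      FF_eq := hFFeq
      LFF := lam_mul_FF d.adm hC2
      FF_le_LG := lam_FF_le
      ι_mem_FF := fun x hx => lam_ι_mem_FF hFL hx
      Vp' := hVp
      V2' := fun h2 => hVp 2 (lam_VV_sq hFL hVF
        ((VpU_iff_proved (P.Psi w₀) l hl h0 2).1 h2) hFFeq) }

end Trip

end Vale.Agent.P199K
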