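import Vale.Agent.P199K.ResDefs
import Vale.Agent.P199K.ResPr
import Vale.Agent.P199K.ExpF
import Vale.Agent.P199K.BxA

/-!
# P199, section 4: the residue algebra of `L'` (helper95)
-/

open scoped TensorProduct LaurentSeries
open PowerSeries

namespace Vale.Agent.P199K

namespace Trip
variable {S : Stg} (w₀ : NPS (Fin 2) S.A)

theorem eh_C (P : Trip S) (d : ExpD P.K P.A P.σ) (a : P.A) :
    P.eh d (NPS.C a) = NPS.C (LS.C (d.ι a)) :=
  (expHom_spec d.ι (d.j : d.E₁ →+* d.A₁) (P.d_comm d) d.ε d.p d.hp).1 a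

theorem eh_algebraMap (P : Trip S) (d : ExpD P.K P.A P.σ) (c : P.K) :
    P.eh d (algebraMap P.K (NPS P.σ P.A) c)
      = algebraMap (LS d.K₁) (NPS (P.σ × d.B) (LS d.A₁)) (LS.C (d.κ c)) := by
  rw [NPS.algebraMap_apply, eh_C, d.adm.ι_alg, NPS.algebraMap_apply, LS.algebraMap_C]

/-- the expansion commutes with polynomials -/
theorem eh_aeval (P : Trip S) (d : ExpD P.K P.A P.σ) (f : NPS P.σ P.A) (p : Polynomial P.K) :
    P.eh d (Polynomial.aeval f p)
      = Polynomial.aeval (P.eh d f) (p.map ((LS.C : d.K₁ →+* LS d.K₁).comp d.κ)) := by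
  induction p using Polynomial.induction_on' with
  | add p q hp hq => rw [map_add, map_add, hp, hq, Polynomial.map_add, map_add]
  | monomial n c =>
    rw [Polynomial.aeval_monomial, Polynomial.map_monomial, Polynomial.aeval_monomial, map_mul,
      map_pow, eh_algebraMap]
    rfl

/-- constant term of a polynomial in `w` -/
theorem aeval_nil' {K A σ : Type} [Field K] [Ring A] [Algebra K A] (f : NPS σ A)
    (p : Polynomial K) : (Polynomial.aeval f p) [] = Polynomial.aeval (f []) p := by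
  induction p using Polynomial.induction_on' with
  | add p q hp hq => rw [map_add, NPS.add_apply, hp, hq, map_add]
  | monomial n c =>
    have h1 : ∀ k : ℕ, (f ^ k) [] = (f []) ^ k := fun k => by
      induction k with
      | zero => rw [pow_zero, pow_zero]; rfl
      | succ k ih => rw [pow_succ, NPS.mul_nil, ih, pow_succ]
    rw [Polynomial.aeval_monomial, Polynomial.aeval_monomial, NPS.mul_nil, h1, NPS.algebraMap_apply,
      NPS.C_nil]

theorem eh_ff_mem_proved (P : Trip S) (d : ExpD P.K P.A P.σ) :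
    P.eh d (ff P.K (P.Psi w₀)) [] ∈ Lf (LS d.K₁) ((wx w₀ P d) []) := by
  rw [ff, eh_aeval, aeval_nil']
  exact Polynomial.aeval_mem_adjoin_singleton _ _

theorem wx_nil_intg (P : Trip S) (d : ExpD P.K P.A P.σ) : LS.Intg ((wx w₀ P d) []) :=
  exp_int d.ι (d.j : d.E₁ →+* d.A₁) (P.d_comm d) d.ε d.p d.hp (P.Psi w₀) []

theorem wx_nil_zero (P : Trip S) (d : ExpD P.K P.A P.σ) :
    LS.coeff ((wx w₀ P d) []) 0 = d.ι ((P.Psi w₀) []) :=
  exp_nil_zero d.ι (d.j : d.E₁ →+* d.A₁) (P.d_comm d) d.ε d.p d.hp (P.Psi w₀)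

theorem ι_mem_res_proved (P : Trip S) (d : ExpD P.K P.A P.σ) (x : P.A)
    (hx : x ∈ Lf P.K ((P.Psi w₀) [])) :
    d.ι x ∈ res (Subalgebra.toSubmodule (Lf (LS d.K₁) ((wx w₀ P d) []))) := by
  change d.ι x ∈ resA (Lf (LS d.K₁) ((wx w₀ P d) []))
  unfold Lf at hx
  induction hx using Algebra.adjoin_induction with
  | mem x hx =>
    rw [Set.mem_singleton_iff] at hx
    subst hx
    rw [← wx_nil_zero]
    exact coeff_mem_resA (Algebra.subset_adjoin rfl) (wx_nil_intg w₀ P d)
  | algebraMap c =>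
    rw [d.adm.ι_alg]
    exact Subalgebra.algebraMap_mem _ _
  | add x y _ _ hx hy => rw [map_add]; exact Subalgebra.add_mem _ hx hy
  | mul x y _ _ hx hy => rw [map_mul]; exact Subalgebra.mul_mem _ hx hy

theorem res_le_centralizer_proved (P : Trip S) (d : ExpD P.K P.A P.σ) (C : d.A₁)
    (hC : C ∈ res (Subalgebra.toSubmodule (Lf (LS d.K₁) ((wx w₀ P d) [])))) :
    C * d.ι ((P.Psi w₀) []) = d.ι ((P.Psi w₀) []) * C := by
  have hf : FiniteDimensional d.K₁ d.A₁ := d.adm.fdA
  have hcz : CharZero d.K₁ := charZero_of_injective_ringHom d.κ.injective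
  obtain ⟨y, hy, hyi, rfl⟩ := (mem_res _ _).1 hC
  have h1 : y * (wx w₀ P d) [] = (wx w₀ P d) [] * y :=
    Lf_comm _ hy (Algebra.subset_adjoin rfl)
  rw [← wx_nil_zero, ← LS.coeff_mul_zero hyi (wx_nil_intg w₀ P d),
    ← LS.coeff_mul_zero (wx_nil_intg w₀ P d) hyi, h1]

end Trip

end Vale.Agent.P199K
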