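import Vale.Agent.P199K.TripD
import Vale.Agent.P199K.LSApi

/-! # P199: the easy fields of `Trip.expand` -/

open scoped TensorProduct LaurentSeries
open PowerSeries

namespace Vale.Agent.P199K

namespace Trip

theorem tripA_C_mul_mono {A : Type} [Ring A] (a b : A) (k : ℤ) :
    LS.C a * LS.mono k b = LS.mono k (a * b) := by
  ext n
  rw [LS.coeff_C_mul, LS.coeff_mono, LS.coeff_mono]
  split_ifs
  · rfl
  · rw [mul_zero]

/-- an element all of whose coefficients commute with `a` commutes with `C a` -/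
theorem tripA_comm_C {A : Type} [Ring A] (a : A) (f : LS A)
    (h : ∀ n, LS.coeff f n * a = a * LS.coeff f n) : f * LS.C a = LS.C a * f := by
  ext n
  rw [LS.coeff_C_mul, LS.coeff_mul_C, h]

variable {S : Stg} (P : Trip S) (d : ExpD P.K P.A P.σ)

theorem compat_proved (c : S.K) : P.iA' d (algebraMap S.K S.A c) =
    algebraMap (LS d.K₁) (LS d.A₁) (P.iK' d c) := by
  show LS.C (d.ι (P.iA (algebraMap S.K S.A c))) =
    algebraMap (LS d.K₁) (LS d.A₁) (LS.C (d.κ (P.iK c)))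
  rw [P.compat, d.adm.ι_alg, LS.algebraMap_C]

theorem Psi_C_proved (a : S.A) : P.Psi' d (NPS.C a) = NPS.C (P.iA' d a) := by
  show P.eh d (P.Psi (NPS.C a)) = NPS.C (LS.C (d.ι (P.iA a)))
  rw [P.Psi_C]
  exact (expHom_spec d.ι (d.j : d.E₁ →+* d.A₁) (P.d_comm d) d.ε d.p d.hp).1 _

theorem Psi_X_proved (k : Fin 2) : P.Psi' d (NPS.X k) = NPS.C (P.Θ' d k)
    + ∑ γβ, NPS.C (P.Lc' d k γβ) * NPS.X γβ := by
  have hC : ∀ a, P.eh d (NPS.C a) = NPS.C (LS.C (d.ι a)) :=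
    (expHom_spec d.ι (d.j : d.E₁ →+* d.A₁) (P.d_comm d) d.ε d.p d.hp).1
  have hX : ∀ γ, P.eh d (NPS.X γ) =
      NPS.C (LS.ofPS (PowerSeries.map (d.j : d.E₁ →+* d.A₁) (d.p γ)))
        + ∑ β, NPS.C (LS.mono 1 ((d.j : d.E₁ →+* d.A₁) (d.ε β))) * NPS.X (γ, β) :=
    (expHom_spec d.ι (d.j : d.E₁ →+* d.A₁) (P.d_comm d) d.ε d.p d.hp).2.1
  show P.eh d (P.Psi (NPS.X k)) = _
  rw [P.Psi_X, map_add, map_sum, hC]
  have h1 : ∀ γ, P.eh d (NPS.C (P.Lc k γ) * NPS.X γ) =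
      NPS.C (LS.C (d.ι (P.Lc k γ)) *
        LS.ofPS (PowerSeries.map (d.j : d.E₁ →+* d.A₁) (d.p γ))) +
      ∑ β, NPS.C (P.Lc' d k (γ, β)) * NPS.X (γ, β) := by
    intro γ
    rw [map_mul, hC, hX, mul_add, map_mul, Finset.mul_sum]
    refine congrArg _ (Finset.sum_congr rfl fun β _ => ?_)
    rw [← mul_assoc, ← map_mul, tripA_C_mul_mono]
    rfl
  rw [Finset.sum_congr rfl fun γ _ => h1 γ, Finset.sum_add_distrib, ← add_assoc,
    Fintype.sum_prod_type]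
  unfold Θ'
  rw [map_add, map_sum]

theorem comm_Θ_proved (k : Fin 2) (a : S.A) :
    P.Θ' d k * P.iA' d a = P.iA' d a * P.Θ' d k := by
  show P.Θ' d k * LS.C (d.ι (P.iA a)) = LS.C (d.ι (P.iA a)) * P.Θ' d k
  unfold Θ'
  rw [add_mul, mul_add, Finset.sum_mul, Finset.mul_sum, ← map_mul, ← map_mul, ← map_mul,
    ← map_mul, P.comm_Θ]
  refine congrArg _ (Finset.sum_congr rfl fun γ _ => ?_)
  have h1 : LS.ofPS (PowerSeries.map (d.j : d.E₁ →+* d.A₁) (d.p γ)) * LS.C (d.ι (P.iA a)) =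
      LS.C (d.ι (P.iA a)) * LS.ofPS (PowerSeries.map (d.j : d.E₁ →+* d.A₁) (d.p γ)) := by
    refine tripA_comm_C _ _ fun n => ?_
    rcases lt_or_ge n 0 with hn | hn
    · rw [LS.coeff_ofPS_neg _ _ hn, zero_mul, mul_zero]
    · obtain ⟨n, rfl⟩ := Int.eq_ofNat_of_zero_le hn
      rw [LS.coeff_ofPS, PowerSeries.coeff_map]
      exact (P.d_comm d _ _).symm
  rw [mul_assoc, h1, ← mul_assoc, ← mul_assoc, ← map_mul, ← map_mul, ← map_mul, ← map_mul,
    P.comm_Lc]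

theorem comm_Lc_proved (k : Fin 2) (γβ : P.σ × d.B) (a : S.A) :
    P.Lc' d k γβ * P.iA' d a = P.iA' d a * P.Lc' d k γβ := by
  show LS.mono 1 (d.ι (P.Lc k γβ.1) * d.j (d.ε γβ.2)) * LS.C (d.ι (P.iA a)) =
    LS.C (d.ι (P.iA a)) * LS.mono 1 (d.ι (P.Lc k γβ.1) * d.j (d.ε γβ.2))
  refine tripA_comm_C _ _ fun n => ?_
  rw [LS.coeff_mono]
  split_ifs
  · rw [mul_assoc, ← d.adm.comm, ← mul_assoc, ← map_mul, P.comm_Lc, map_mul, mul_assoc]
  · rw [zero_mul, mul_zero]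

theorem card_σ_proved : Fintype.card (P.σ × d.B) * Module.finrank S.K S.A
    = 2 * Module.finrank (LS d.K₁) (LS d.A₁) := by
  have : FiniteDimensional d.K₁ d.A₁ := d.adm.fdA
  rw [LS.finrank_eq, d.adm.finrankA, Fintype.card_prod]
  have h1 : Fintype.card d.B = d.m ^ 2 := by
    rw [← d.adm.finE, Module.finrank_eq_card_basis d.ε]
  rw [h1]
  have h2 := P.card_σ
  calc Fintype.card P.σ * d.m ^ 2 * Module.finrank S.K S.A
      = d.m ^ 2 * (Fintype.card P.σ * Module.finrank S.K S.A) := by ring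
    _ = 2 * (d.m ^ 2 * Module.finrank P.K P.A) := by rw [h2]; ring

end Trip

end Vale.Agent.P199K
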