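import Vale.Agent.P199K.TripD
import Vale.Agent.P199K.Tr

/-! # P199: G2, generators of an expansion (helper30) -/

open scoped TensorProduct LaurentSeries

namespace Vale.Agent.P199K

namespace TG

section basic

variable {A K : Type} [Ring A] [Field K]

theorem hs_coeff_mul (f g : HahnSeries ℤ A) {a b : ℤ} (ha : ∀ n < a, f.coeff n = 0)
    (hb : ∀ n < b, g.coeff n = 0) (n : ℤ) :
    (f * g).coeff n = ∑ i ∈ Finset.Icc a (n - b), f.coeff i * g.coeff (n - i) := by
  classical
  rw [HahnSeries.coeff_mul]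
  refine Finset.sum_bij_ne_zero (fun ij _ _ => ij.1) ?_ ?_ ?_ ?_
  · intro ij hij hne
    simp only [Finset.mem_antidiagonal, HahnSeries.mem_support] at hij
    rw [Finset.mem_Icc]
    constructor
    · by_contra hlt
      exact hij.1 (ha _ (by omega))
    · by_contra hlt
      exact hij.2.1 (hb _ (by omega))
  · intro ij hij _ kl hkl _ h
    simp only [Finset.mem_antidiagonal, HahnSeries.mem_support] at hij hkl
    ext
    · exact h
    · omega
  · intro i hi hne
    refine ⟨(i, n - i), ?_, ?_, rfl⟩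
    · simp only [Finset.mem_antidiagonal, HahnSeries.mem_support]
      refine ⟨fun h0 => hne ?_, fun h0 => hne ?_, by omega⟩
      · rw [h0, zero_mul]
      · rw [h0, mul_zero]
    · exact hne
  · intro ij hij _
    simp only [Finset.mem_antidiagonal, HahnSeries.mem_support] at hij
    have : n - ij.1 = ij.2 := by omega
    rw [this]

theorem coeff_mul_of_bound (f g : LS A) {a b : ℤ} (ha : ∀ n < a, LS.coeff f n = 0)
    (hb : ∀ n < b, LS.coeff g n = 0) (n : ℤ) :
    LS.coeff (f * g) n = ∑ i ∈ Finset.Icc a (n - b), LS.coeff f i * LS.coeff g (n - i) :=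
  hs_coeff_mul f g ha hb n

theorem exists_bound (f : LS A) : ∃ N : ℤ, ∀ n < N, LS.coeff f n = 0 := by
  by_cases h : f = 0
  · exact ⟨0, fun n _ => by rw [h]; rfl⟩
  · refine ⟨HahnSeries.order (f : HahnSeries ℤ A), fun n hn => ?_⟩
    exact HahnSeries.coeff_eq_zero_of_lt_order hn

theorem intg_add {f g : LS A} (hf : LS.Intg f) (hg : LS.Intg g) : LS.Intg (f + g) := fun n hn => by
  rw [LS.coeff_add, hf n hn, hg n hn, add_zero]

theorem intg_mul {f g : LS A} (hf : LS.Intg f) (hg : LS.Intg g) : LS.Intg (f * g) := fun n hn => by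
  rw [coeff_mul_of_bound f g hf hg, Finset.Icc_eq_empty (by omega), Finset.sum_empty]

theorem coeff_mul_zero {f g : LS A} (hf : LS.Intg f) (hg : LS.Intg g) :
    LS.coeff (f * g) 0 = LS.coeff f 0 * LS.coeff g 0 := by
  rw [coeff_mul_of_bound f g hf hg]; simp

theorem coeff_mul_one {f g : LS A} (hf : LS.Intg f) (hg : LS.Intg g) :
    LS.coeff (f * g) 1 = LS.coeff f 0 * LS.coeff g 1 + LS.coeff f 1 * LS.coeff g 0 := by
  rw [coeff_mul_of_bound f g hf hg]
  have : Finset.Icc (0 : ℤ) (1 - 0) = {0, 1} := by decide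
  rw [this, Finset.sum_insert (by decide), Finset.sum_singleton]
  norm_num

theorem intg_C (a : A) : LS.Intg (LS.C a) := fun n hn => by
  rw [LS.coeff_C, if_neg (by omega)]

theorem coeff_C_zero (a : A) : LS.coeff (LS.C a) 0 = a := by rw [LS.coeff_C, if_pos rfl]

theorem coeff_C_one (a : A) : LS.coeff (LS.C a) 1 = 0 := by
  rw [LS.coeff_C, if_neg (by norm_num)]

theorem coeff_sum {ι : Type} (s : Finset ι) (f : ι → LS A) (n : ℤ) :
    LS.coeff (∑ i ∈ s, f i) n = ∑ i ∈ s, LS.coeff (f i) n := by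
  classical
  induction s using Finset.induction_on with
  | empty => simp
  | insert a s ha ih => rw [Finset.sum_insert ha, Finset.sum_insert ha, LS.coeff_add, ih]

theorem intg_one : LS.Intg (1 : LS A) := by
  have h := intg_C (1 : A)
  rwa [map_one] at h

/-- multiplication by `t^k` -/
theorem coeff_mono_smul [Algebra K A] (k : ℤ) (f : LS A) (n : ℤ) :
    LS.coeff ((LS.mono k 1 : LS K) • f) n = LS.coeff f (n - k) := by
  rw [Algebra.smul_def]
  obtain ⟨N, hN⟩ := exists_bound f
  have h1 : ∀ m < k, LS.coeff (algebraMap (LS K) (LS A) (LS.mono k 1)) m = 0 := by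
    intro m hm
    rw [LS.coeff_algebraMap, LS.coeff_mono, if_neg (by omega), map_zero]
  rw [coeff_mul_of_bound _ _ h1 hN]
  by_cases hk : k ≤ n - N
  · rw [Finset.sum_eq_single k]
    · rw [LS.coeff_algebraMap, LS.coeff_mono, if_pos rfl, map_one, one_mul]
    · intro i _ hi
      rw [LS.coeff_algebraMap, LS.coeff_mono, if_neg hi, map_zero, zero_mul]
    · intro h
      exact absurd (Finset.mem_Icc.2 ⟨le_rfl, hk⟩) h
  · rw [Finset.Icc_eq_empty hk, Finset.sum_empty, hN _ (by omega)]

theorem coeff_smul_low [Algebra K A] {g : LS K} {x : LS A} {n : ℤ}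
    (hg : ∀ m < n, LS.coeff g m = 0) (hx : LS.Intg x) :
    LS.coeff (g • x) n = LS.coeff g n • LS.coeff x 0 := by
  rw [Algebra.smul_def, coeff_mul_of_bound (a := n) (b := 0) _ _ (fun m hm => by
    rw [LS.coeff_algebraMap, hg m hm, map_zero]) hx]
  simp [Algebra.smul_def]

/-- lifts of independent vectors are independent -/
theorem lift_indep [Algebra K A] {ι : Type} [Fintype ι] {b : ι → A} {x : ι → LS A}
    (hb : LinearIndependent K b) (hx : ∀ i, LS.Intg (x i)) (hxb : ∀ i, LS.coeff (x i) 0 = b i) :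
    LinearIndependent (LS K) x := by
  rw [Fintype.linearIndependent_iff]
  intro g hg
  have step : ∀ n : ℤ, (∀ m < n, ∀ i, LS.coeff (g i) m = 0) → ∀ i, LS.coeff (g i) n = 0 := by
    intro n hn
    have h1 := congrArg (fun u => LS.coeff u n) hg
    simp only [coeff_sum, LS.coeff_zero] at h1
    have h2 : ∑ i, LS.coeff (g i) n • b i = 0 := by
      rw [← h1]
      refine Finset.sum_congr rfl fun i _ => ?_
      rw [coeff_smul_low (fun m hm => hn m hm i) (hx i), hxb i]
    exact Fintype.linearIndependent_iff.1 hb _ h2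
  choose N hN using fun i => exists_bound (g i)
  obtain ⟨M, hM⟩ : ∃ M : ℤ, ∀ i, M ≤ N i := by
    by_cases hι : Nonempty ι
    · obtain ⟨i, -, hi⟩ := Finset.exists_min_image Finset.univ N
        (Finset.univ_nonempty_iff.2 hι)
      exact ⟨N i, fun j => hi j (Finset.mem_univ j)⟩
    · exact ⟨0, fun i => absurd ⟨i⟩ hι⟩
  have all : ∀ k : ℕ, ∀ m < M + k, ∀ i, LS.coeff (g i) m = 0 := by
    intro k
    induction k with
    | zero =>
      intro m hm i
      exact hN i m (lt_of_lt_of_le (by simpa using hm) (hM i))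
    | succ k ih =>
      intro m hm i
      by_cases h : m < M + k
      · exact ih m h i
      · have : m = M + k := by push_cast at hm; omega
        rw [this]
        exact step _ (fun m' hm' => ih m' hm') i
  intro i
  ext n
  rw [LS.coeff_zero]
  exact all (n - M + 1).toNat n (by omega) i

end basic

section poly

variable {K A : Type} [Field K] [Ring A] [Algebra K A]

theorem pow_two {u v : A} (huv : u * v = v * u) (k : ℕ) :
    LS.Intg ((LS.C u + LS.mono 1 v) ^ k) ∧ LS.coeff ((LS.C u + LS.mono 1 v) ^ k) 0 = u ^ k ∧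
      LS.coeff ((LS.C u + LS.mono 1 v) ^ k) 1 = k • (u ^ (k - 1) * v) := by
  have h0 : LS.Intg (LS.C u + LS.mono 1 v) := intg_add (intg_C u) (fun n hn => by
    rw [LS.coeff_mono, if_neg (by omega)])
  have h1 : LS.coeff (LS.C u + LS.mono 1 v) 0 = u := by
    rw [LS.coeff_add, coeff_C_zero, LS.coeff_mono, if_neg (by norm_num), add_zero]
  have h2 : LS.coeff (LS.C u + LS.mono 1 v) 1 = v := by
    rw [LS.coeff_add, coeff_C_one, LS.coeff_mono, if_pos rfl, zero_add]
  induction k with
  | zero =>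
    rw [pow_zero]
    refine ⟨intg_one, ?_, ?_⟩
    · rw [pow_zero, ← map_one LS.C, coeff_C_zero]
    · rw [← map_one LS.C, coeff_C_one, zero_smul]
  | succ k ih =>
    obtain ⟨i1, i2, i3⟩ := ih
    rw [pow_succ (LS.C u + LS.mono 1 v)]
    refine ⟨intg_mul i1 h0, ?_, ?_⟩
    · rw [coeff_mul_zero i1 h0, i2, h1, pow_succ]
    · rw [coeff_mul_one i1 h0, i2, i3, h1, h2, Nat.add_sub_cancel]
      rw [add_smul, one_smul, add_comm]
      congr 1
      by_cases hk : k = 0
      · subst hk
        simp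
      · rw [smul_mul_assoc, mul_assoc, ← huv, ← mul_assoc, ← pow_succ,
          Nat.sub_add_cancel (by omega)]

/-- evaluation of a polynomial at `u + t v` -/
theorem eval_two {u v : A} (huv : u * v = v * u) (p : Polynomial K) :
    LS.Intg (Polynomial.aeval (LS.C u + LS.mono 1 v) (p.map (LS.C : K →+* LS K))) ∧
    LS.coeff (Polynomial.aeval (LS.C u + LS.mono 1 v) (p.map (LS.C : K →+* LS K))) 0 =
      Polynomial.aeval u p ∧
    LS.coeff (Polynomial.aeval (LS.C u + LS.mono 1 v) (p.map (LS.C : K →+* LS K))) 1 =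
      Polynomial.aeval u (Polynomial.derivative p) * v := by
  induction p using Polynomial.induction_on' with
  | add p q hp hq =>
    rw [Polynomial.map_add, map_add]
    refine ⟨intg_add hp.1 hq.1, ?_, ?_⟩
    · rw [LS.coeff_add, hp.2.1, hq.2.1, map_add]
    · rw [LS.coeff_add, hp.2.2, hq.2.2, map_add, map_add, add_mul]
  | monomial n a =>
    obtain ⟨i1, i2, i3⟩ := pow_two huv n
    have e : Polynomial.aeval (LS.C u + LS.mono 1 v)
        ((Polynomial.monomial n a).map (LS.C : K →+* LS K)) =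
        LS.C (algebraMap K A a) * (LS.C u + LS.mono 1 v) ^ n := by
      rw [Polynomial.map_monomial, Polynomial.aeval_monomial]
      congr 1
      ext m
      rw [LS.coeff_algebraMap, LS.coeff_C, LS.coeff_C]
      split_ifs <;> simp
    rw [e]
    refine ⟨intg_mul (intg_C _) i1, ?_, ?_⟩
    · rw [coeff_mul_zero (intg_C _) i1, coeff_C_zero, i2, Polynomial.aeval_monomial]
    · rw [coeff_mul_one (intg_C _) i1, coeff_C_zero, coeff_C_one, i3, zero_mul, add_zero,
        Polynomial.derivative_monomial, Polynomial.aeval_monomial]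
      rw [map_mul, mul_assoc, mul_assoc, nsmul_eq_mul, map_natCast]

end poly

section bar

variable {K A : Type} [Field K] [Ring A] [Algebra K A]

/-- residues of the integral elements of a subalgebra -/
def bar (B : Subalgebra (LS K) (LS A)) : Subalgebra K A where
  carrier := {a | ∃ x ∈ B, LS.Intg x ∧ LS.coeff x 0 = a}
  mul_mem' := by
    rintro a b ⟨x, hx, hi, rfl⟩ ⟨y, hy, hj, rfl⟩
    exact ⟨x * y, B.mul_mem hx hy, intg_mul hi hj, coeff_mul_zero hi hj⟩
  add_mem' := by
    rintro a b ⟨x, hx, hi, rfl⟩ ⟨y, hy, hj, rfl⟩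
    exact ⟨x + y, B.add_mem hx hy, intg_add hi hj, rfl⟩
  algebraMap_mem' c := by
    refine ⟨algebraMap (LS K) (LS A) (LS.C c), B.algebraMap_mem _, fun n hn => ?_, ?_⟩
    · rw [LS.coeff_algebraMap, LS.coeff_C, if_neg (by omega), map_zero]
    · rw [LS.coeff_algebraMap, LS.coeff_C, if_pos rfl]

theorem mem_bar {B : Subalgebra (LS K) (LS A)} {x : LS A} (hx : x ∈ B) (hi : LS.Intg x) :
    LS.coeff x 0 ∈ bar B := ⟨x, hx, hi, rfl⟩

theorem eq_top_of_bar [FiniteDimensional K A] {B : Subalgebra (LS K) (LS A)} (h : bar B = ⊤) :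
    B = ⊤ := by
  have hb : ∀ i, ∃ x ∈ B, LS.Intg x ∧ LS.coeff x 0 = Module.finBasis K A i := by
    intro i
    have : Module.finBasis K A i ∈ bar B := by rw [h]; exact Algebra.mem_top
    exact this
  choose x hx hi hc using hb
  have hli := lift_indep (Module.finBasis K A).linearIndependent hi hc
  have := fd_ls (K := K) (A := A)
  have hsp := hli.span_eq_top_of_card_eq_finrank' (by
    rw [Fintype.card_fin, finrank_ls])
  have h2 : Subalgebra.toSubmodule B = ⊤ := by
    rw [eq_top_iff, ← hsp, Submodule.span_le]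
    rintro _ ⟨i, rfl⟩
    exact hx i
  exact Algebra.toSubmodule_eq_top.1 h2

/-- the main point of G2 -/
theorem bar_gen {B : Subalgebra (LS K) (LS A)} {u v : A} (huv : u * v = v * u)
    (hB : LS.C u + LS.mono 1 v ∈ B) {p : Polynomial K} (hp : Polynomial.aeval u p = 0) :
    u ∈ bar B ∧ Polynomial.aeval u (Polynomial.derivative p) * v ∈ bar B := by
  constructor
  · obtain ⟨h1, h2, -⟩ := eval_two (K := K) huv Polynomial.X
    rw [Polynomial.map_X, Polynomial.aeval_X] at h1 h2
    rw [Polynomial.aeval_X] at h2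
    exact ⟨_, hB, h1, h2⟩
  · obtain ⟨h1, h2, h3⟩ := eval_two (K := K) huv p
    rw [hp] at h2
    set y := Polynomial.aeval (LS.C u + LS.mono 1 v) (p.map (LS.C : K →+* LS K)) with hy
    have hyB : y ∈ B := by
      have h4 : y ∈ Algebra.adjoin (LS K) {LS.C u + LS.mono 1 v} :=
        Polynomial.aeval_mem_adjoin_singleton _ _
      exact (Algebra.adjoin_le (Set.singleton_subset_iff.2 hB)) h4
    refine ⟨(LS.mono (-1) 1 : LS K) • y, B.smul_mem hyB _, fun n hn => ?_, ?_⟩
    · rw [coeff_mono_smul]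
      by_cases h5 : n = -1
      · rw [h5]
        exact h2
      · exact h1 _ (by omega)
    · rw [coeff_mono_smul, ← h3]
      norm_num

end bar

end TG

namespace Trip

variable {S : Stg} (P : Trip S) (d : ExpD P.K P.A P.σ)

theorem gen_proved : ∃ g₁ g₂ : LS d.A₁, (∀ a, g₁ * P.iA' d a = P.iA' d a * g₁) ∧
    (∀ a, g₂ * P.iA' d a = P.iA' d a * g₂) ∧
    Algebra.adjoin (LS d.K₁) (Set.range (P.iA' d) ∪ {g₁, g₂}) = ⊤ := by
  have : FiniteDimensional d.K₁ d.A₁ := d.adm.fdA
  have : FiniteDimensional d.K₁ d.E₁ := d.adm.fdE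
  have : CharZero d.K₁ := charZero_of_injective_ringHom d.κ.injective
  obtain ⟨g₁, g₂, hg₁, hg₂, hgen⟩ := P.gen
  obtain ⟨x, y, hxy⟩ := d.adm.gen2
  -- `j` is injective
  have hpos : 0 < Module.finrank P.K P.A := Module.finrank_pos
  have hj : Function.Injective d.j := by
    rw [injective_iff_map_eq_zero]
    intro e he
    have hb := (d.adm.bas _ (Module.finBasis P.K P.A)).1
    have h0 : (fun _ : Fin (Module.finrank P.K P.A) => e) = fun _ => 0 := by
      apply hb
      simp [he]
    exact congrFun h0 ⟨0, hpos⟩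
  have : IsDomain d.E₁ := hj.isDomain (d.j : d.E₁ →+* d.A₁)
  have hcomm : ∀ (a : P.A) (e : d.E₁), d.j e * d.ι a = d.ι a * d.j e := fun a e =>
    (d.adm.comm a e).symm
  have hιi : ∀ (g : P.A) (a : S.A), g * P.iA a = P.iA a * g →
      d.ι g * d.ι (P.iA a) = d.ι (P.iA a) * d.ι g := by
    intro g a h
    rw [← map_mul, h, map_mul]
  have hcm : ∀ (e : d.E₁) (g : P.A), (∀ a, g * P.iA a = P.iA a * g) → ∀ a,
      (LS.C (d.j e) + LS.mono 1 (d.ι g)) * P.iA' d a =
        P.iA' d a * (LS.C (d.j e) + LS.mono 1 (d.ι g)) := by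
    intro e g hg a
    have hA : P.iA' d a = LS.C (d.ι (P.iA a)) := rfl
    rw [hA, add_mul, mul_add]
    congr 1
    · rw [← map_mul, ← map_mul, hcomm]
    · ext n
      have h1 : LS.Intg (LS.mono 1 (d.ι g)) := fun n hn => by
        rw [LS.coeff_mono, if_neg (by omega)]
      have hb1 : ∀ m < (1 : ℤ), LS.coeff (LS.mono 1 (d.ι g)) m = 0 := fun m hm => by
        rw [LS.coeff_mono, if_neg (by omega)]
      rw [TG.coeff_mul_of_bound _ _ hb1 (TG.intg_C _), TG.coeff_mul_of_bound _ _ (TG.intg_C _) hb1]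
      by_cases hn : n = 1
      · subst hn
        simp [LS.coeff_mono, LS.coeff_C, hιi g a (hg a)]
      · rw [Finset.sum_eq_zero, Finset.sum_eq_zero]
        · intro i _
          rw [LS.coeff_C, LS.coeff_mono]
          split_ifs with h2 h3
          · omega
          all_goals simp
        · intro i _
          rw [LS.coeff_C, LS.coeff_mono]
          split_ifs with h2 h3
          · omega
          all_goals simp
  refine ⟨LS.C (d.j x) + LS.mono 1 (d.ι g₁), LS.C (d.j y) + LS.mono 1 (d.ι g₂),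
    hcm x g₁ hg₁, hcm y g₂ hg₂, ?_⟩
  set B := Algebra.adjoin (LS d.K₁) (Set.range (P.iA' d) ∪
    {LS.C (d.j x) + LS.mono 1 (d.ι g₁), LS.C (d.j y) + LS.mono 1 (d.ι g₂)}) with hB
  apply TG.eq_top_of_bar
  have hx1 := TG.bar_gen (K := d.K₁) (B := B) (hcomm g₁ x) (Algebra.subset_adjoin (by simp))
    (p := minpoly d.K₁ x) (by
      have := Polynomial.aeval_algHom_apply d.j x (minpoly d.K₁ x)
      rw [this, minpoly.aeval, map_zero])
  have hy1 := TG.bar_gen (K := d.K₁) (B := B) (hcomm g₂ y) (Algebra.subset_adjoin (by simp))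
    (p := minpoly d.K₁ y) (by
      have := Polynomial.aeval_algHom_apply d.j y (minpoly d.K₁ y)
      rw [this, minpoly.aeval, map_zero])
  -- `j E₁ ⊆ bar B`
  have hE : ∀ e : d.E₁, d.j e ∈ TG.bar B := by
    intro e
    have h1 : e ∈ Algebra.adjoin d.K₁ ({x, y} : Set d.E₁) := by rw [hxy]; exact Algebra.mem_top
    have h2 : Algebra.adjoin d.K₁ ({x, y} : Set d.E₁) ≤ (TG.bar B).comap d.j := by
      refine Algebra.adjoin_le ?_
      rintro z (rfl | rfl)
      · exact hx1.1
      · exact hy1.1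
    exact h2 h1
  have hinv : ∀ (e : d.E₁) (g : P.A),
      Polynomial.aeval (d.j e) (Polynomial.derivative (minpoly d.K₁ e)) * d.ι g ∈ TG.bar B →
      d.ι g ∈ TG.bar B := by
    intro e g h
    have h0 := aeval_derivative_minpoly_ne_zero (K := d.K₁) e
    obtain ⟨e', -, -, h2⟩ := exists_inv_mem (⊤ : Subalgebra d.K₁ d.E₁) Algebra.mem_top h0
    have h3 := (TG.bar B).mul_mem (hE e') h
    rw [Polynomial.aeval_algHom_apply, ← mul_assoc, ← map_mul, h2, map_one, one_mul] at h3
    exact h3
  have hG1 : d.ι g₁ ∈ TG.bar B := hinv x g₁ hx1.2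
  have hG2 : d.ι g₂ ∈ TG.bar B := hinv y g₂ hy1.2
  -- `ι A ⊆ bar B`
  have hA : ∀ a : P.A, d.ι a ∈ TG.bar B := by
    intro a
    have h1 : a ∈ Algebra.adjoin P.K (Set.range P.iA ∪ {g₁, g₂}) := by
      rw [hgen]; exact Algebra.mem_top
    induction h1 using Algebra.adjoin_induction with
    | mem z hz =>
      rcases hz with ⟨s, rfl⟩ | hz
      · have h2 : P.iA' d s ∈ B := Algebra.subset_adjoin (Or.inl ⟨s, rfl⟩)
        have h3 := TG.mem_bar h2 (TG.intg_C _)
        have h4 : LS.coeff (P.iA' d s) 0 = d.ι (P.iA s) := TG.coeff_C_zero _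
        rwa [h4] at h3
      · rcases hz with rfl | rfl
        · exact hG1
        · exact hG2
    | algebraMap r =>
      rw [d.adm.ι_alg]
      exact (TG.bar B).algebraMap_mem _
    | add x y _ _ hx hy =>
      rw [map_add]
      exact (TG.bar B).add_mem hx hy
    | mul x y _ _ hx hy =>
      rw [map_mul]
      exact (TG.bar B).mul_mem hx hy
  rw [eq_top_iff]
  intro z _
  obtain ⟨c, rfl⟩ := (d.adm.bas _ (Module.finBasis P.K P.A)).2 z
  exact (TG.bar B).sum_mem fun i _ => (TG.bar B).mul_mem (hA _) (hE _)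

end Trip

end Vale.Agent.P199K
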