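import Vale.Agent.P199K.TripD
import Vale.Agent.P199K.TripA
import Vale.Agent.P199K.Trip_gen

/-! # P199: expansions of triples (definitions: TripD.lean). The facts are proved in their own files,
which import TripD.lean, they are wired in here. -/

open scoped TensorProduct LaurentSeries
open PowerSeries

namespace Vale.Agent.P199K

namespace Trip

variable {S : Stg} (P : Trip S) (d : ExpD P.K P.A P.σ)

theorem compat' (c : S.K) : P.iA' d (algebraMap S.K S.A c) =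
    algebraMap (LS d.K₁) (LS d.A₁) (P.iK' d c) := P.compat_proved d c

theorem Psi_C' (a : S.A) : P.Psi' d (NPS.C a) = NPS.C (P.iA' d a) := P.Psi_C_proved d a

theorem Psi_X' (k : Fin 2) : P.Psi' d (NPS.X k) = NPS.C (P.Θ' d k)
    + ∑ γβ, NPS.C (P.Lc' d k γβ) * NPS.X γβ := P.Psi_X_proved d k

theorem comm_Θ' (k : Fin 2) (a : S.A) : P.Θ' d k * P.iA' d a = P.iA' d a * P.Θ' d k :=
  P.comm_Θ_proved d k a

theorem comm_Lc' (k : Fin 2) (γβ : P.σ × d.B) (a : S.A) :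
    P.Lc' d k γβ * P.iA' d a = P.iA' d a * P.Lc' d k γβ := P.comm_Lc_proved d k γβ a

theorem L_bij' (e : Fin 2 → LS d.A₁) (he : ∀ k a, e k * P.iA' d a = P.iA' d a * e k) :
    ∃! δ : P.σ × d.B → LS d.K₁, ∀ k, ∑ γβ, δ γβ • P.Lc' d k γβ = e k :=
  tripL_ls d.adm d.ε (fun a => P.iA a) P.Lc P.L_bij e he

theorem card_σ' : Fintype.card (P.σ × d.B) * Module.finrank S.K S.A
    = 2 * Module.finrank (LS d.K₁) (LS d.A₁) := P.card_σ_proved d

theorem gen' : ∃ g₁ g₂ : LS d.A₁, (∀ a, g₁ * P.iA' d a = P.iA' d a * g₁) ∧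
    (∀ a, g₂ * P.iA' d a = P.iA' d a * g₂) ∧
    Algebra.adjoin (LS d.K₁) (Set.range (P.iA' d) ∪ {g₁, g₂}) = ⊤ := P.gen_proved d

theorem CL' (G : Set (NPS (Fin 2) S.A)) (hG : ∀ (n : ℕ) (r : NPS (Fin 2) S.A), ∃ g ∈ G, NPS.Ord n (r - g))
    (n : ℕ) (φ : NPS (P.σ × d.B) (LS d.A₁) →ₗ[LS d.K₁] LS d.K₁)
    (h1 : ∀ f, NPS.Ord n f → φ f = 0) (h2 : ∀ g ∈ G, φ (P.Psi' d g) = 0) (r : NPS (Fin 2) S.A) :
    φ (P.Psi' d r) = 0 := by
  haveI : FiniteDimensional d.K₁ d.A₁ := d.adm.fdA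
  have hs := expHom_spec d.ι (d.j : d.E₁ →+* d.A₁) (P.d_comm d) d.ε d.p d.hp
  refine TripC.main d.κ d.ι d.adm.ι_alg (P.eh d) hs.1 hs.2.2.1 (P.Psi '' G) (P.Psi r) ?_ n φ h1 ?_
  · intro N ψ a1 a2
    exact P.CL G hG N ψ a1 (fun g hg => a2 _ ⟨g, hg, rfl⟩) r
  · rintro _ ⟨g, hg, rfl⟩
    exact h2 g hg

/-- the expansion of a triple -/
noncomputable def expand : Trip S :=
  haveI : FiniteDimensional d.K₁ d.A₁ := d.adm.fdA
  haveI : Algebra.IsCentral d.K₁ d.A₁ := d.adm.cenA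
  haveI : CharZero d.K₁ := charZero_of_injective_ringHom d.κ.injective
  haveI : HasRoots d.K₁ := roots_of_hom d.κ
  { K := LS d.K₁
    A := LS d.A₁
    σ := P.σ × d.B
    roots := roots_of_hom (LS.C : d.K₁ →+* LS d.K₁)
    fd := fd_ls
    cen := central_ls
    iK := P.iK' d
    iA := P.iA' d
    compat := P.compat' d
    Psi := P.Psi' d
    Psi_C := P.Psi_C' d
    Θ := P.Θ' d
    Lc := P.Lc' d
    Psi_X := P.Psi_X' d
    comm_Θ := P.comm_Θ' d
    comm_Lc := P.comm_Lc' d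
    L_bij := P.L_bij' d
    card_σ := P.card_σ' d
    gen := P.gen' d
    CL := P.CL' d }

/-- reachability: iterated expansions -/
inductive Reach {S : Stg} : Trip S → Trip S → Prop
  | refl (P : Trip S) : Reach P P
  | step (P Q : Trip S) (d : ExpD Q.K Q.A Q.σ) : Reach P Q → Reach P (Q.expand d)

theorem Reach.trans {P Q R : Trip S} (h : Reach P Q) (h' : Reach Q R) : Reach P R := by
  induction h' with
  | refl => exact h
  | step Q' d _ ih => exact Reach.step _ _ d ih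

end Trip

end Vale.Agent.P199K
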