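import Vale.Agent.P199K.ResL
import Vale.Agent.P199K.Trip

/-!
# P199, section 4: `n² ρ = dim A`, `n' ≤ n m` (helper95)
-/

open scoped TensorProduct LaurentSeries
open PowerSeries

namespace Vale.Agent.P199K

open Module

section

variable {K A : Type} [Field K] [Ring A] [IsDomain A] [Algebra K A] [Module.Finite K A]

/-- dimensions of subalgebras of a division algebra -/
theorem finrank_dvd_of_le {U V : Subalgebra K A} (h : U ≤ V) : finrank K U ∣ finrank K V := by
  set U' : Subalgebra K V := U.comap V.val with hU'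
  have h1 : finrank K U' = finrank K U := by
    refine LinearEquiv.finrank_eq
      { toFun := fun x => ⟨(x : V), x.2⟩
        invFun := fun x => ⟨⟨x, h x.2⟩, x.2⟩
        map_add' := fun _ _ => rfl
        map_smul' := fun _ _ => rfl
        left_inv := fun _ => rfl
        right_inv := fun _ => rfl }
  let _ : DivisionRing U' := divisionRingOfFiniteDimensional K U'
  have : Module.Finite U' V := Module.Finite.of_restrictScalars_finite K U' V
  rw [← h1]
  exact ⟨finrank U' V, (Module.finrank_mul_finrank K U' V).symm⟩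

variable [CharZero K] [Algebra.IsCentral K A]

theorem nn_sq_rho {σ : Type} (w : NPS σ A) : nnU K w ^ 2 * rhoU K w = finrank K A := by
  have h1 := dc_W (K := K) (w [])
  have h2 := finrank_dvd_of_le (Lf_le_Mf (K := K) (w []))
  unfold rhoU nnU
  rw [pow_two, mul_assoc, Nat.mul_div_cancel' h2, h1]

theorem nnU_pos {σ : Type} (w : NPS σ A) : 0 < nnU K w := finrank_pos_dom K _

end

namespace Trip
variable {S : Stg} (w₀ : NPS (Fin 2) S.A)

theorem nn_rho (P : Trip S) : P.nn w₀ ^ 2 * P.rho w₀ = finrank P.K P.A :=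
  nn_sq_rho (P.Psi w₀)

theorem nn_pos (P : Trip S) : 0 < P.nn w₀ := nnU_pos (P.Psi w₀)

theorem finrank_expand (P : Trip S) (d : ExpD P.K P.A P.σ) :
    finrank (P.expand d).K (P.expand d).A = d.m ^ 2 * finrank P.K P.A := by
  have hf : FiniteDimensional d.K₁ d.A₁ := d.adm.fdA
  show finrank (LS d.K₁) (LS d.A₁) = _
  rw [LS.finrank_eq, d.adm.finrankA]

theorem nn_expand_le_proved (P : Trip S) (d : ExpD P.K P.A P.σ) (h : P.CR w₀) :
    (P.expand d).nn w₀ ≤ P.nn w₀ * d.m := by
  have h1 := (P.expand d).nn_rho w₀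
  rw [finrank_expand, ← P.nn_rho w₀] at h1
  have h2 : P.rho w₀ ≤ (P.expand d).rho w₀ := h.2 _ (Reach.step P P d (Reach.refl P))
  have h3 : 0 < P.rho w₀ := by
    have h4 := P.nn_rho w₀
    have h5 : 0 < finrank P.K P.A := finrank_pos_dom P.K P.A
    rw [← h4] at h5
    rcases Nat.eq_zero_or_pos (P.rho w₀) with h6 | h6
    · rw [h6, mul_zero] at h5
      exact absurd h5 (lt_irrefl 0)
    · exact h6
  have h4 : (P.expand d).nn w₀ ^ 2 * P.rho w₀ ≤ (P.nn w₀ * d.m) ^ 2 * P.rho w₀ := by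
    calc (P.expand d).nn w₀ ^ 2 * P.rho w₀ ≤ (P.expand d).nn w₀ ^ 2 * (P.expand d).rho w₀ :=
          Nat.mul_le_mul_left _ h2
      _ = (P.nn w₀ * d.m) ^ 2 * P.rho w₀ := by rw [h1]; ring
  have h5 := Nat.le_of_mul_le_mul_right h4 h3
  exact (Nat.pow_le_pow_iff_left (by norm_num)).1 h5

theorem finrank_LG_le_proved (P : Trip S) (d : ExpD P.K P.A P.σ) (h : P.CR w₀) (C : d.A₁)
    (hC : C ∈ res (Subalgebra.toSubmodule (Lf (LS d.K₁) ((wx w₀ P d) [])))) :
    Module.finrank d.K₁ (LG d.K₁ d.ι (Lf P.K ((P.Psi w₀) [])) C) ≤ P.nn w₀ * d.m := by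
  have hf : FiniteDimensional d.K₁ d.A₁ := d.adm.fdA
  have h1 : LG d.K₁ d.ι (Lf P.K ((P.Psi w₀) [])) C ≤ resA (Lf (LS d.K₁) ((wx w₀ P d) [])) := by
    refine Algebra.adjoin_le ?_
    rintro x (⟨l, hl, rfl⟩ | hx)
    · exact ι_mem_res_proved w₀ P d l hl
    · rw [Set.mem_singleton_iff] at hx
      rw [hx]
      exact hC
  refine (Submodule.finrank_mono (Subalgebra.toSubmodule.monotone h1)).trans ?_
  rw [toSubmodule_resA, finrank_res]
  exact nn_expand_le_proved w₀ P d h

end Trip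

end Vale.Agent.P199K
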