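import Vale.Agent.P199K.ResDefs

/-! # P199, section 4: facts on one series (helper82) -/

open scoped TensorProduct LaurentSeries
open PowerSeries

namespace Vale.Agent.P199K

section One
variable {K A σ : Type} [Field K] [CharZero K] [Ring A] [IsDomain A] [Algebra K A] [FiniteDimensional K A]
  [Fintype σ] (w : NPS σ A) (l : A)

theorem calL_le_proved : calL K w ≤ Subalgebra.toSubmodule (Lf K (w [])) := by
  rintro x ⟨δ, rfl⟩
  rw [LinearMap.comp_apply, proj_Lf]
  exact pr_mem _ _

theorem Ff_le_Lf_proved : Ff K w ≤ Lf K (w []) :=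
  Algebra.adjoin_le fun _ hx => hx.1

theorem rone_mul_mem_calL {l x : A} (h : l * x ∈ calL K w) (hl : l ∈ calL K w) (h0 : l ≠ 0) :
    x ∈ Lf K (w []) := by
  obtain ⟨y, hy, -, hyl⟩ := exists_inv_mem (Lf K (w [])) (calL_le_proved w hl) h0
  have : x = y * (l * x) := by rw [← mul_assoc, hyl, one_mul]
  rw [this]
  exact (Lf K (w [])).mul_mem hy (calL_le_proved w h)

theorem Vl_le_Ff_proved (hl : l ∈ calL K w) (h0 : l ≠ 0) :
    Vl K w l ≤ Subalgebra.toSubmodule (Ff K w) := by
  intro x hx
  have hx' : l * x ∈ calL K w := hx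
  have hxL := rone_mul_mem_calL w hx' hl h0
  exact Algebra.subset_adjoin ⟨hxL, l * x, hx', l, hl, h0, Lf_comm _ hxL (calL_le_proved w hl)⟩

theorem rone_exists_Vl (hl : l ∈ calL K w) (h0 : l ≠ 0) {a : A} (ha : a ∈ calL K w) :
    ∃ x ∈ Vl K w l, l * x = a := by
  obtain ⟨y, hy, hly, -⟩ := exists_inv_mem (Lf K (w [])) (calL_le_proved w hl) h0
  have : l * (y * a) = a := by rw [← mul_assoc, hly, one_mul]
  refine ⟨y * a, ?_, this⟩
  show l * (y * a) ∈ calL K w
  rw [this]
  exact ha

theorem Ff_eq_adjoin_proved (hl : l ∈ calL K w) (h0 : l ≠ 0) :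
    Ff K w = Algebra.adjoin K (Vl K w l : Set A) := by
  apply le_antisymm
  · refine Algebra.adjoin_le ?_
    rintro x ⟨hxL, a, ha, b, hb, hb0, hxb⟩
    obtain ⟨a', ha', haa⟩ := rone_exists_Vl w l hl h0 ha
    obtain ⟨b', hb', hbb⟩ := rone_exists_Vl w l hl h0 hb
    have hb'0 : b' ≠ 0 := by
      rintro rfl
      rw [mul_zero] at hbb
      exact hb0 hbb.symm
    obtain ⟨c, hc, hbc, -⟩ := exists_inv_mem (Algebra.adjoin K (Vl K w l : Set A))
      (Algebra.subset_adjoin hb') hb'0
    have h1 : x * b' = a' := by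
      have h2 : l * (x * b') = l * a' := by
        rw [← mul_assoc, Lf_comm _ (calL_le_proved w hl) hxL, mul_assoc, hbb, hxb, haa]
      exact mul_left_cancel₀ h0 h2
    have h3 : x = a' * c := by rw [← h1, mul_assoc, hbc, mul_one]
    rw [h3]
    exact Subalgebra.mul_mem _ (Algebra.subset_adjoin ha') hc
  · exact Algebra.adjoin_le fun x hx => Vl_le_Ff_proved w l hl h0 hx

theorem calL_eq_proved (hl : l ∈ calL K w) (h0 : l ≠ 0) :
    calL K w = (Vl K w l).map (LinearMap.mulLeft K l) := by
  apply le_antisymm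
  · intro a ha
    obtain ⟨x, hx, hxa⟩ := rone_exists_Vl w l hl h0 ha
    exact ⟨x, hx, hxa⟩
  · rintro _ ⟨x, hx, rfl⟩
    exact hx

theorem rone_mulLeft_inj {l : A} (h0 : l ≠ 0) : Function.Injective (LinearMap.mulLeft K l) :=
  fun _ _ h => mul_left_cancel₀ h0 h

theorem rone_finrank_map {l : A} (h0 : l ≠ 0) (V : Submodule K A) :
    Module.finrank K (V.map (LinearMap.mulLeft K l)) = Module.finrank K V :=
  (Submodule.equivMapOfInjective _ (rone_mulLeft_inj h0) V).finrank_eq.symm

theorem finrank_Vl_proved (hl : l ∈ calL K w) (h0 : l ≠ 0) :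
    Module.finrank K (Vl K w l) = dLU K w := by
  unfold dLU
  conv_rhs => rw [calL_eq_proved w l hl h0]
  exact (rone_finrank_map h0 _).symm

theorem rone_pow_le (hl : l ∈ calL K w) (h0 : l ≠ 0) (k : ℕ) :
    (Vl K w l) ^ k ≤ Subalgebra.toSubmodule (Ff K w) := by
  induction k with
  | zero =>
    rw [pow_zero, Submodule.one_le]
    exact (Ff K w).one_mem
  | succ k ih =>
    rw [pow_succ]
    rw [Submodule.mul_le]
    intro a ha b hb
    exact (Ff K w).mul_mem (ih ha) (Vl_le_Ff_proved w l hl h0 hb)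

theorem rone_calL_pow (hl : l ∈ calL K w) (h0 : l ≠ 0) (k : ℕ) :
    (calL K w) ^ k = ((Vl K w l) ^ k).map (LinearMap.mulLeft K (l ^ k)) := by
  induction k with
  | zero =>
    rw [pow_zero, pow_zero, pow_zero]
    have : LinearMap.mulLeft K (1 : A) = LinearMap.id := by
      ext x; simp
    rw [this, Submodule.map_id]
  | succ k ih =>
    rw [pow_succ (calL K w), pow_succ (Vl K w l), ih]
    have hcomm : ∀ x ∈ Subalgebra.toSubmodule (Ff K w), ∀ y, l ^ k * x * (l * y) = l ^ (k + 1) * (x * y) := by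
      intro x hx y
      have := Lf_comm (K := K) (w []) (Ff_le_Lf_proved w hx) (calL_le_proved w hl)
      rw [pow_succ, mul_assoc, ← mul_assoc x, this]
      simp only [mul_assoc]
    apply le_antisymm
    · rw [Submodule.mul_le]
      rintro _ ⟨x, hx, rfl⟩ b hb
      obtain ⟨y, hy, rfl⟩ := rone_exists_Vl w l hl h0 hb
      refine ⟨x * y, Submodule.mul_mem_mul hx hy, ?_⟩
      exact (hcomm x (rone_pow_le w l hl h0 k hx) y).symm
    · rw [Submodule.map_le_iff_le_comap, Submodule.mul_le]
      intro x hx y hy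
      have : l ^ k * x * (l * y) ∈
          Submodule.map (LinearMap.mulLeft K (l ^ k)) (Vl K w l ^ k) * calL K w :=
        Submodule.mul_mem_mul ⟨x, hx, rfl⟩ hy
      rw [hcomm x (rone_pow_le w l hl h0 k hx) y] at this
      exact this

theorem VpU_iff_proved (hl : l ∈ calL K w) (h0 : l ≠ 0) (k : ℕ) :
    VpU K w k ↔ (Vl K w l) ^ k = Subalgebra.toSubmodule (Ff K w) := by
  unfold VpU n1U
  rw [rone_calL_pow w l hl h0, rone_finrank_map (pow_ne_zero _ h0)]
  constructor
  · intro h
    exact Submodule.eq_of_le_of_finrank_eq (rone_pow_le w l hl h0 k) h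
  · intro h
    rw [h]
    rfl

theorem dpW_ne_zero_proved : dpW K w ≠ 0 := aeval_derivative_minpoly_ne_zero _

/-- dimension of the orthogonal in a subalgebra -/
theorem rone_finrank_inf_perp (F : Subalgebra K A) (V : Submodule K A)
    (h : V ≤ Subalgebra.toSubmodule F) :
    Module.finrank K (Subalgebra.toSubmodule F ⊓ perp V : Submodule K A) + Module.finrank K V
      = Module.finrank K F := by
  have h1 := Submodule.finrank_sup_add_finrank_inf_eq (Subalgebra.toSubmodule F) (perp V)
  have h2 : Subalgebra.toSubmodule F ⊔ perp V = ⊤ := by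
    rw [eq_top_iff, ← (isCompl_perp F).sup_eq_top]
    exact sup_le_sup_left (perp_anti h) _
  have h3 := finrank_perp V
  rw [h2, finrank_top] at h1
  have h4 : Module.finrank K (Subalgebra.toSubmodule F) = Module.finrank K F := rfl
  rw [h4] at h1
  omega

theorem finrank_Zl_proved (hl : l ∈ calL K w) (h0 : l ≠ 0) :
    Module.finrank K (Zl K w l) + dLU K w = n1U K w := by
  rw [← finrank_Vl_proved w l hl h0]
  exact rone_finrank_inf_perp _ _ (Vl_le_Ff_proved w l hl h0)

/-- first order coefficient of a power -/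
theorem rone_pow_nil {R τ : Type} [Ring R] (w : NPS τ R) (n : ℕ) : (w ^ n) [] = w [] ^ n := by
  induction n with
  | zero => rw [pow_zero, pow_zero]; rfl
  | succ n ih => rw [pow_succ, pow_succ, NPS.mul_nil, ih]

theorem rone_pow_one {R τ : Type} [Ring R] (w : NPS τ R) (γ : τ) (n : ℕ) :
    (w ^ n) [γ] = gs (w []) (w [γ]) n := by
  induction n with
  | zero => simp [gs, NPS.one_def]
  | succ n ih =>
    rw [pow_succ, dens_mul_one, ih, rone_pow_nil]
    simp [gs]
    try abel

/-- first order coefficient of a polynomial -/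
theorem rone_aeval_one (γ : σ) (p : Polynomial K) :
    (Polynomial.aeval w p) [γ] = Dp p (w []) (w [γ]) := by
  induction p using Polynomial.induction_on' with
  | add p q hp hq => rw [map_add, NPS.add_apply, hp, hq, Dp_add]
  | monomial n c =>
    rw [Polynomial.aeval_monomial, NPS.algebraMap_apply, NPS.C_mul_apply, rone_pow_one,
      Dp_monomial, Algebra.smul_def]

/-- `f₁ = p_W'(W) ℓ` under R1 -/
theorem lin_ff_proved (h : R1U K w) (δ : σ → K) :
    lin K (ff K w) δ = dpW K w * proj (Subalgebra.toSubmodule (Lf K (w []))) (lin K w δ) := by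
  have h1 : ∀ γ, ff K w [γ] = dpW K w * pr (Mf K (w [])) (w [γ]) := by
    intro γ
    unfold ff
    rw [rone_aeval_one, Dp_eq _ _ _ (minpoly.aeval _ _)]
    rfl
  rw [← h δ, proj_Mf]
  unfold lin
  simp only [LinearMap.coe_mk, AddHom.coe_mk, h1, map_sum, map_smul, Finset.mul_sum, mul_smul_comm]

theorem VfU_eq_proved (h : R1U K w) (hl : l ∈ calL K w) (h0 : l ≠ 0) :
    VfU K w = (Vl K w l).map (LinearMap.mulLeft K (lamf K w l)) := by
  have h1 : VfU K w = (calL K w).map (LinearMap.mulLeft K (dpW K w)) := by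
    unfold VfU calL
    rw [← LinearMap.range_comp]
    congr 1
    refine LinearMap.ext fun δ => ?_
    exact lin_ff_proved w h δ
  rw [h1, calL_eq_proved w l hl h0, ← Submodule.map_comp]
  congr 1
  refine LinearMap.ext fun x => ?_
  exact (mul_assoc _ _ _).symm

theorem CeU_eq_proved (hl : l ∈ calL K w) (h0 : l ≠ 0) :
    CeU K w = (Subalgebra.toSubmodule (Ff K w)).map (LinearMap.mulLeft K (lamf K w l)) := by
  have hF : Subalgebra.toSubmodule (Ff K w) * calL K w
      = (Subalgebra.toSubmodule (Ff K w)).map (LinearMap.mulLeft K l) := by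
    apply le_antisymm
    · rw [Submodule.mul_le]
      intro x hx b hb
      obtain ⟨y, hy, rfl⟩ := rone_exists_Vl w l hl h0 hb
      refine ⟨x * y, (Ff K w).mul_mem hx (Vl_le_Ff_proved w l hl h0 hy), ?_⟩
      show l * (x * y) = x * (l * y)
      rw [← mul_assoc, ← mul_assoc, Lf_comm (K := K) (w []) (Ff_le_Lf_proved w hx) (calL_le_proved w hl)]
    · rintro _ ⟨x, hx, rfl⟩
      show l * x ∈ _
      rw [Lf_comm (K := K) (w []) (calL_le_proved w hl) (Ff_le_Lf_proved w hx)]
      exact Submodule.mul_mem_mul hx hl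
  unfold CeU
  rw [hF]
  apply le_antisymm
  · rw [Submodule.mul_le]
    rintro a ha _ ⟨x, hx, rfl⟩
    obtain ⟨c, rfl⟩ := Submodule.mem_span_singleton.1 ha
    refine ⟨c • x, (Ff K w).smul_mem hx c, ?_⟩
    show dpW K w * l * (c • x) = (c • dpW K w) * (l * x)
    rw [mul_smul_comm, smul_mul_assoc, mul_assoc]
  · rintro _ ⟨x, hx, rfl⟩
    show dpW K w * l * x ∈ _
    rw [mul_assoc]
    exact Submodule.mul_mem_mul (Submodule.mem_span_singleton_self _) ⟨x, hx, rfl⟩

end One

end Vale.Agent.P199K
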