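import Vale.Agent.P199K.ResDefs
import Vale.Agent.P199K.ResOne
import Vale.Agent.P199K.ResNN
import Vale.Agent.P199K.ResL
import Vale.Agent.P199K.BxA
import Vale.Agent.P199K.BxCent
import Vale.Agent.P199K.SymD2

/-! # P199, section 4: RES (e), (f) (helper85) -/

open scoped TensorProduct LaurentSeries
open PowerSeries

namespace Vale.Agent.P199K

section Tower
variable {K A K₁ E₁ A₁ : Type} [Field K] [Ring A] [IsDomain A] [Algebra K A] [FiniteDimensional K A]
  [Field K₁] [Ring E₁] [Ring A₁] [Algebra K₁ E₁] [Algebra K₁ A₁] [FiniteDimensional K₁ A₁]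

/-- `L` is spanned over a subfield `F` by `[L:F]` elements -/
theorem ef_exists_span (F L : Subalgebra K A) (hFL : F ≤ L) :
    ∃ (r : ℕ) (l : Fin r → A), Module.finrank K F * r = Module.finrank K L ∧ (∀ i, l i ∈ L) ∧
      ∀ x ∈ L, ∃ a : Fin r → A, (∀ i, a i ∈ F) ∧ x = ∑ i, a i * l i := by
  classical
  let i1 : DivisionRing F := divisionRingOfFiniteDimensional K F
  let i2 : Module F L := Module.compHom L (Subalgebra.inclusion hFL).toRingHom
  have i3 : IsScalarTower K F L := ⟨fun a b c => by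
    apply Subtype.ext
    show ((a • b : F) : A) * (c : A) = a • ((b : A) * (c : A))
    rw [Subalgebra.coe_smul, smul_mul_assoc]⟩
  have i4 : Module.Finite F L := Module.Finite.of_restrictScalars_finite K _ _
  let b := Module.finBasis F L
  refine ⟨Module.finrank F L, fun i => (b i : A), Module.finrank_mul_finrank K F L,
    fun i => (b i).2, fun x hx => ⟨fun i => ((b.repr ⟨x, hx⟩ i : F) : A), fun i => (b.repr ⟨x, hx⟩ i).2, ?_⟩⟩
  have h1 := congrArg (fun y : L => (y : A)) (b.sum_repr ⟨x, hx⟩)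
  simp only [AddSubmonoidClass.coe_finset_sum] at h1
  exact h1.symm

/-- `[L₁[G] : L₁] ≤ [F₁[G] : F₁]` -/
theorem ef_tower (ι : A →+* A₁) (F L : Subalgebra K A) (hFL : F ≤ L)
    (hL : ∀ a ∈ L, ∀ b ∈ L, a * b = b * a) (G : A₁) (hG : ∀ a ∈ L, ι a * G = G * ι a) :
    Module.finrank K₁ (LG K₁ ι L G) * Module.finrank K F
      ≤ Module.finrank K L * Module.finrank K₁ (LG K₁ ι F G) := by
  classical
  obtain ⟨r, l, hr, hl, hspan⟩ := ef_exists_span F L hFL
  let B := LG K₁ ι F G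
  let T : (Fin r → B) →ₗ[K₁] A₁ :=
    { toFun := fun β => ∑ i, ι (l i) * (β i : A₁)
      map_add' := fun x y => by
        simp only [Pi.add_apply, Subalgebra.coe_add, mul_add, Finset.sum_add_distrib]
      map_smul' := fun c x => by
        simp only [Pi.smul_apply, Subalgebra.coe_smul, RingHom.id_apply, Finset.smul_sum, mul_smul_comm] }
  have hmemB : ∀ a ∈ F, ι a ∈ B := fun a ha => Algebra.subset_adjoin (Or.inl ⟨a, ha, rfl⟩)
  have hGB : G ∈ B := Algebra.subset_adjoin (Or.inr rfl)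
  have hone : (1 : A₁) ∈ LinearMap.range T := by
    obtain ⟨a, ha, h1⟩ := hspan 1 L.one_mem
    refine ⟨fun i => ⟨ι (a i), hmemB _ (ha i)⟩, ?_⟩
    show ∑ i, ι (l i) * ι (a i) = 1
    rw [← map_one ι, h1, map_sum]
    refine Finset.sum_congr rfl fun i _ => ?_
    rw [← map_mul, hL _ (hl i) _ (hFL (ha i))]
  have hι : ∀ x ∈ L, ∀ y ∈ LinearMap.range T, ι x * y ∈ LinearMap.range T := by
    rintro x hx _ ⟨β, rfl⟩
    show ι x * ∑ i, ι (l i) * (β i : A₁) ∈ _
    rw [Finset.mul_sum]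
    refine Submodule.sum_mem _ fun i _ => ?_
    obtain ⟨a, ha, h1⟩ := hspan (x * l i) (L.mul_mem hx (hl i))
    refine ⟨fun k => ⟨ι (a k) * (β i : A₁), B.mul_mem (hmemB _ (ha k)) (β i).2⟩, ?_⟩
    show ∑ k, ι (l k) * (ι (a k) * (β i : A₁)) = ι x * (ι (l i) * (β i : A₁))
    rw [← mul_assoc, ← map_mul, h1, map_sum, Finset.sum_mul]
    refine Finset.sum_congr rfl fun k _ => ?_
    rw [← mul_assoc, ← map_mul, hL _ (hl k) _ (hFL (ha k))]
  have hGT : ∀ y ∈ LinearMap.range T, G * y ∈ LinearMap.range T := by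
    rintro _ ⟨β, rfl⟩
    refine ⟨fun i => ⟨G * (β i : A₁), B.mul_mem hGB (β i).2⟩, ?_⟩
    show ∑ i, ι (l i) * (G * (β i : A₁)) = G * ∑ i, ι (l i) * (β i : A₁)
    rw [Finset.mul_sum]
    refine Finset.sum_congr rfl fun i _ => ?_
    rw [← mul_assoc, hG _ (hl i), mul_assoc]
  have hall : ∀ x ∈ LG K₁ ι L G, ∀ y ∈ LinearMap.range T, x * y ∈ LinearMap.range T := by
    intro x hx
    unfold LG at hx
    induction hx using Algebra.adjoin_induction with
    | mem x hx =>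
      rcases hx with ⟨a, ha, rfl⟩ | hx
      · exact hι a ha
      · rw [Set.mem_singleton_iff] at hx; rw [hx]; exact hGT
    | algebraMap c =>
      intro y hy
      rw [← Algebra.smul_def]; exact Submodule.smul_mem _ c hy
    | add x y _ _ hx hy =>
      intro z hz
      rw [add_mul]; exact Submodule.add_mem _ (hx z hz) (hy z hz)
    | mul x y _ _ hx hy =>
      intro z hz
      rw [mul_assoc]; exact hx _ (hy z hz)
  have hle : Subalgebra.toSubmodule (LG K₁ ι L G) ≤ LinearMap.range T := by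
    intro x hx
    have := hall x hx 1 hone
    rwa [mul_one] at this
  have h1 : Module.finrank K₁ (LG K₁ ι L G) ≤ r * Module.finrank K₁ B := by
    calc Module.finrank K₁ (LG K₁ ι L G)
        ≤ Module.finrank K₁ (LinearMap.range T) :=
          Submodule.finrank_mono (s := Subalgebra.toSubmodule (LG K₁ ι L G)) hle
      _ ≤ Module.finrank K₁ (Fin r → B) := LinearMap.finrank_range_le T
      _ = r * Module.finrank K₁ B := by
          rw [Module.finrank_pi_fintype, Finset.sum_const, Finset.card_univ, Fintype.card_fin, smul_eq_mul]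
  calc Module.finrank K₁ (LG K₁ ι L G) * Module.finrank K F
      ≤ (r * Module.finrank K₁ B) * Module.finrank K F := Nat.mul_le_mul_right _ h1
    _ = (Module.finrank K F * r) * Module.finrank K₁ B := by ring
    _ = Module.finrank K L * Module.finrank K₁ B := by rw [hr]

end Tower

section EF
variable {K A K₁ E₁ A₁ : Type} [Field K] [CharZero K] [Ring A] [IsDomain A] [Algebra K A] [FiniteDimensional K A]
  [Field K₁] [CharZero K₁] [Ring E₁] [Ring A₁] [IsDomain A₁] [Algebra K₁ E₁] [Algebra K₁ A₁] [FiniteDimensional K₁ A₁]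
  {κ : K →+* K₁} {ι : A →+* A₁} {j : E₁ →ₐ[K₁] A₁} {m : ℕ}

/-- scaling by a nonzero element of `L` does not change `L₁[G]` -/
theorem ef_LG_scale (ι : A →+* A₁) (L : Subalgebra K A) (a : A) (ha : a ∈ L) (h0 : a ≠ 0) (G : A₁) :
    LG K₁ ι L (ι a * G) = LG K₁ ι L G := by
  obtain ⟨b, hb, _, hab⟩ := exists_inv_mem L ha h0
  refine le_antisymm ?_ ?_
  · refine Algebra.adjoin_le ?_
    rintro x (⟨l, hl, rfl⟩ | hx)
    · exact Algebra.subset_adjoin (Or.inl ⟨l, hl, rfl⟩)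
    · rw [Set.mem_singleton_iff] at hx
      subst hx
      exact Subalgebra.mul_mem _ (Algebra.subset_adjoin (Or.inl ⟨a, ha, rfl⟩))
        (Algebra.subset_adjoin (Or.inr rfl))
  · refine Algebra.adjoin_le ?_
    rintro x (⟨l, hl, rfl⟩ | hx)
    · exact Algebra.subset_adjoin (Or.inl ⟨l, hl, rfl⟩)
    · rw [Set.mem_singleton_iff] at hx
      subst hx
      have h3 : ι b * (ι a * x) ∈ LG K₁ ι L (ι a * x) :=
        Subalgebra.mul_mem _ (Algebra.subset_adjoin (Or.inl ⟨b, hb, rfl⟩))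
          (Algebra.subset_adjoin (Or.inr rfl))
      rwa [← mul_assoc, ← map_mul, hab, map_one, one_mul] at h3

omit [CharZero K] [CharZero K₁] [FiniteDimensional K₁ A₁] in
theorem ef_ι_ne (K : Type) {A A₁ : Type} [Field K] [Ring A] [IsDomain A] [Algebra K A] [FiniteDimensional K A]
    [Ring A₁] [IsDomain A₁] (ι : A →+* A₁) {l : A} (h0 : l ≠ 0) : ι l ≠ 0 := by
  obtain ⟨b, hb, _⟩ := exists_inv K h0
  intro h
  have h1 : ι l * ι b = 1 := by rw [← map_mul, hb, map_one]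
  rw [h, zero_mul] at h1
  exact zero_ne_one h1

/-- elements of `L ⊠ E₁` commute with `ι L` -/
theorem ef_comm (h : Adm κ ι j m) (L : Subalgebra K A) (hL : ∀ a ∈ L, ∀ b ∈ L, a * b = b * a) {G : A₁}
    (hG : G ∈ bx ι j (Subalgebra.toSubmodule L)) : ∀ a ∈ L, ι a * G = G * ι a := by
  intro a ha
  exact bx1A_comm_bxA h hL (ι a) (mem_bx1A.2 (ι_mem_bx1 ha)) G hG

/-- `L₁[G]` is commutative -/
theorem ef_LG_comm (h : Adm κ ι j m) (L : Subalgebra K A) (hL : ∀ a ∈ L, ∀ b ∈ L, a * b = b * a) {G : A₁}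
    (hG : G ∈ bx ι j (Subalgebra.toSubmodule L)) :
    ∀ x ∈ LG K₁ ι L G, ∀ y ∈ LG K₁ ι L G, x * y = y * x := by
  have hc := ef_comm h L hL hG
  have h1 : ∀ x ∈ LG K₁ ι L G, (∀ a ∈ L, x * ι a = ι a * x) ∧ x * G = G * x := by
    intro x hx
    unfold LG at hx
    induction hx using Algebra.adjoin_induction with
    | mem x hx =>
      rcases hx with ⟨a, ha, rfl⟩ | hx
      · exact ⟨fun b hb => by rw [← map_mul, ← map_mul, hL a ha b hb], hc a ha⟩
      · rw [Set.mem_singleton_iff] at hx; rw [hx]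
        exact ⟨fun b hb => (hc b hb).symm, rfl⟩
    | algebraMap c => exact ⟨fun b _ => Algebra.commutes _ _, Algebra.commutes _ _⟩
    | add x y _ _ hx hy =>
      exact ⟨fun b hb => by rw [add_mul, mul_add, hx.1 b hb, hy.1 b hb], by rw [add_mul, mul_add, hx.2, hy.2]⟩
    | mul x y _ _ hx hy =>
      exact ⟨fun b hb => by rw [mul_assoc, hy.1 b hb, ← mul_assoc, hx.1 b hb, mul_assoc],
        by rw [mul_assoc, hy.2, ← mul_assoc, hx.2, mul_assoc]⟩
  intro x hx y hy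
  unfold LG at hy
  induction hy using Algebra.adjoin_induction with
  | mem y hy =>
    rcases hy with ⟨a, ha, rfl⟩ | hy
    · exact (h1 x hx).1 a ha
    · rw [Set.mem_singleton_iff] at hy; rw [hy]; exact (h1 x hx).2
  | algebraMap c => exact (Algebra.commutes _ _).symm
  | add y z _ _ hy hz => rw [mul_add, add_mul, hy, hz]
  | mul y z _ _ hy hz => rw [← mul_assoc, hy, mul_assoc, hz, mul_assoc]

end EF

namespace Trip
variable {S : Stg} (w₀ : NPS (Fin 2) S.A)

/-- **RES (e)** -/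
theorem RES_e_proved (P : Trip S) (d : ExpD P.K P.A P.σ) (l : P.A)
    (hl : l ∈ calL P.K (P.Psi w₀)) (h0 : l ≠ 0) (G : d.A₁)
    (hG : G ∈ bx d.ι d.j (Subalgebra.toSubmodule (Ff P.K (P.Psi w₀)))) (C : d.A₁)
    (hC : C = d.ι (lamf P.K (P.Psi w₀) l) * G)
    (hC3 : Module.finrank d.K₁ (LG d.K₁ d.ι (Lf P.K ((P.Psi w₀) [])) C) = P.nn w₀ * d.m)
    (had : P.RESad w₀ d l C) :
    FFr d.ι d.j (Lf P.K ((P.Psi w₀) [])) (Ff P.K (P.Psi w₀)) C = LG d.K₁ d.ι (Ff P.K (P.Psi w₀)) G ∧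
    Subalgebra.toSubmodule (FFr d.ι d.j (Lf P.K ((P.Psi w₀) [])) (Ff P.K (P.Psi w₀)) C)
      = bx d.ι d.j (Subalgebra.toSubmodule (Ff P.K (P.Psi w₀)))
        ⊓ Subalgebra.toSubmodule (Subalgebra.centralizer d.K₁ {G}) ∧
    (∀ x ∈ bx d.ι d.j (Subalgebra.toSubmodule (Ff P.K (P.Psi w₀))),
      proj (Subalgebra.toSubmodule (LG d.K₁ d.ι (Lf P.K ((P.Psi w₀) [])) C)) x
        = proj (Subalgebra.toSubmodule (LG d.K₁ d.ι (Ff P.K (P.Psi w₀)) G)) x) ∧
    Subalgebra.toSubmodule (FFr d.ι d.j (Lf P.K ((P.Psi w₀) [])) (Ff P.K (P.Psi w₀)) C)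
        ⊓ perp (VVr d.ι d.j (Lf P.K ((P.Psi w₀) [])) (Vl P.K (P.Psi w₀) l) C)
      = Tlin d.ι d.j (Zl P.K (P.Psi w₀) l) G := by
  have i1 : FiniteDimensional d.K₁ d.A₁ := d.adm.fdA
  have i2 : CharZero d.K₁ := charZero_of_injective_ringHom d.κ.injective
  set w := P.Psi w₀ with hw
  set L := Lf P.K (w []) with hLdef
  set F := Ff P.K w with hFdef
  set FF := FFr d.ι d.j L F C with hFF
  have hFL : F ≤ L := Ff_le_Lf_proved w
  have hLc : ∀ a ∈ L, ∀ b ∈ L, a * b = b * a := fun a ha b hb => Lf_comm (w []) ha hb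
  have hFc : ∀ a ∈ F, ∀ b ∈ F, a * b = b * a := fun a ha b hb => hLc a (hFL ha) b (hFL hb)
  have hGL : G ∈ bx d.ι d.j (Subalgebra.toSubmodule L) := bx_mono hFL hG
  have hlam0 : lamf P.K w l ≠ 0 := mul_ne_zero (dpW_ne_zero_proved w) h0
  have hlamL : lamf P.K w l ∈ L := by
    refine Subalgebra.mul_mem _ ?_ (calL_le_proved w hl)
    exact Polynomial.aeval_mem_adjoin_singleton P.K (w [])
  have hLG : LG d.K₁ d.ι L C = LG d.K₁ d.ι L G := by
    rw [hC]; exact ef_LG_scale d.ι L _ hlamL hlam0 G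
  have hGLG : G ∈ LG d.K₁ d.ι L C := by
    rw [hLG]; exact Algebra.subset_adjoin (Or.inr rfl)
  have hcommL : ∀ a ∈ L, d.ι a * G = G * d.ι a := ef_comm d.adm L hLc hGL
  have hLGc := ef_LG_comm d.adm L hLc hGL
  have hprojC : proj (Subalgebra.toSubmodule (LG d.K₁ d.ι L C)) = pr (LG d.K₁ d.ι L C) := proj_eq_pr _
  -- `G ∈ 𝔉`
  have hGFF : G ∈ FF := by
    have h1 : proj (Subalgebra.toSubmodule (LG d.K₁ d.ι L C)) G = G := by
      rw [hprojC]; exact pr_of_mem _ hGLG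
    have h2 : proj (Subalgebra.toSubmodule (LG d.K₁ d.ι L C)) G ∈ FF :=
      Algebra.subset_adjoin ⟨G, hG, rfl⟩
    rwa [h1] at h2
  -- e1
  have hle : LG d.K₁ d.ι F G ≤ FF := by
    refine Algebra.adjoin_le ?_
    rintro x (⟨a, ha, rfl⟩ | hx)
    · exact had.ι_mem_FF a ha
    · rw [Set.mem_singleton_iff] at hx; rw [hx]; exact hGFF
  have htow := ef_tower (K₁ := d.K₁) d.ι F L hFL hLc G hcommL
  have hfin : Module.finrank d.K₁ FF ≤ Module.finrank d.K₁ (LG d.K₁ d.ι F G) := by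
    have h1 : Module.finrank d.K₁ FF = P.n1 w₀ * d.m := had.finrankF
    rw [h1]
    rw [← hLG, hC3] at htow
    have h2 : Module.finrank P.K F = P.n1 w₀ := rfl
    have h3 : Module.finrank P.K L = P.nn w₀ := rfl
    rw [h2, h3] at htow
    have h4 : 0 < P.nn w₀ := nnU_pos (P.Psi w₀)
    have h5 : P.nn w₀ * (P.n1 w₀ * d.m) ≤ P.nn w₀ * Module.finrank d.K₁ (LG d.K₁ d.ι F G) := by
      calc P.nn w₀ * (P.n1 w₀ * d.m) = P.nn w₀ * d.m * P.n1 w₀ := by ring
        _ ≤ _ := htow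
    exact Nat.le_of_mul_le_mul_left h5 h4
  have e1 : FF = LG d.K₁ d.ι F G := by
    have h1 : Subalgebra.toSubmodule (LG d.K₁ d.ι F G) = Subalgebra.toSubmodule FF :=
      Submodule.eq_of_le_of_finrank_le hle hfin
    exact (Subalgebra.toSubmodule_injective h1).symm
  have hFFLG : FF ≤ LG d.K₁ d.ι L C := had.FF_le_LG
  -- e2
  have e2 : Subalgebra.toSubmodule FF = bx d.ι d.j (Subalgebra.toSubmodule F)
      ⊓ Subalgebra.toSubmodule (Subalgebra.centralizer d.K₁ {G}) := by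
    apply le_antisymm
    · intro x hx
      refine Submodule.mem_inf.2 ⟨had.FF_le hx, ?_⟩
      show x ∈ Subalgebra.centralizer d.K₁ {G}
      refine mem_centralizer_singleton.2 ?_
      rw [hLG] at hFFLG hGLG
      exact (hLGc _ hGLG _ (hFFLG hx))
    · rintro y hy
      obtain ⟨hy1, hy2⟩ := Submodule.mem_inf.1 hy
      have hyG : y * G = G * y := by
        have h9 : y ∈ Subalgebra.centralizer d.K₁ {G} := hy2
        exact (mem_centralizer_singleton.1 h9).symm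
      refine d.adm.mem_of_comm F hFc FF had.FF_le ?_ ?_ ?_ hy1 ?_
      · intro x hx
        refine Submodule.span_induction (p := fun x _ => x ∈ FF) ?_ ?_ ?_ ?_ (mem_bx1A.1 hx)
        · rintro _ ⟨u, hu, rfl⟩; exact had.ι_mem_FF u hu
        · exact FF.zero_mem
        · intro a b _ _ ha hb; exact FF.add_mem ha hb
        · intro c a _ ha; exact FF.smul_mem ha c
      · intro x hx y hy
        rw [hLG] at hFFLG
        exact hLGc _ (hFFLG hx) _ (hFFLG hy)
      · exact had.finrankF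
      · intro x hx
        rw [e1] at hx
        have hyF := ef_comm d.adm F hFc hy1
        unfold LG at hx
        induction hx using Algebra.adjoin_induction with
        | mem x hx =>
          rcases hx with ⟨a, ha, rfl⟩ | hx
          · exact (hyF a ha).symm
          · rw [Set.mem_singleton_iff] at hx; rw [hx]
            exact hyG
        | algebraMap c => exact (Algebra.commutes _ _).symm
        | add x z _ _ hx hz => rw [mul_add, add_mul, hx, hz]
        | mul x z _ _ hx hz => rw [← mul_assoc, hx, mul_assoc, hz, mul_assoc]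
  -- e3
  have e3 : ∀ x ∈ bx d.ι d.j (Subalgebra.toSubmodule F),
      proj (Subalgebra.toSubmodule (LG d.K₁ d.ι L C)) x
        = proj (Subalgebra.toSubmodule (LG d.K₁ d.ι F G)) x := by
    intro x hx
    have h1 : proj (Subalgebra.toSubmodule (LG d.K₁ d.ι L C)) x ∈ LG d.K₁ d.ι F G := by
      rw [← e1]
      exact Algebra.subset_adjoin ⟨x, hx, rfl⟩
    rw [hprojC] at h1 ⊢
    rw [proj_eq_pr]
    have h2 : LG d.K₁ d.ι F G ≤ LG d.K₁ d.ι L C := by rw [← e1]; exact hFFLG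
    rw [← pr_pr h2 x, pr_of_mem _ h1]
  refine ⟨e1, e2, e3, ?_⟩
  -- e4
  have hVF : Vl P.K w l ≤ Subalgebra.toSubmodule F := Vl_le_Ff_proved w l hl h0
  have h1 : Subalgebra.toSubmodule FF ⊓ perp (VVr d.ι d.j L (Vl P.K w l) C)
      = Subalgebra.toSubmodule FF ⊓ perp (bx d.ι d.j (Vl P.K w l)) := by
    ext y
    simp only [Submodule.mem_inf]
    refine and_congr_right fun hy => ?_
    rw [mem_perp, mem_perp]
    constructor
    · intro h2 b hb
      have h3 := h2 _ ⟨b, hb, rfl⟩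
      rw [hprojC, tr_mul_comm, tr_mul_pr _ (hFFLG hy)] at h3
      rw [tr_mul_comm]; exact h3
    · rintro h2 _ ⟨b, hb, rfl⟩
      have h3 := h2 b hb
      rw [hprojC, tr_mul_comm, tr_mul_pr _ (hFFLG hy)]
      rw [tr_mul_comm]; exact h3
  rw [h1, e2]
  unfold Tlin Zl
  rw [← d.adm.bx_inf_perp F (Vl P.K w l) hVF]
  ext y
  simp only [Submodule.mem_inf]
  tauto

/-- **RES (f)** -/
theorem RES_f_proved (P : Trip S) (d : ExpD P.K P.A P.σ) (hK : P.CK w₀) (l : P.A)
    (hl : l ∈ calL P.K (P.Psi w₀)) (h0 : l ≠ 0) (G : d.A₁)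
    (hG : G ∈ bx d.ι d.j (Subalgebra.toSubmodule (Ff P.K (P.Psi w₀)))) (C : d.A₁)
    (hC : C = d.ι (lamf P.K (P.Psi w₀) l) * G)
    (hC3 : Module.finrank d.K₁ (LG d.K₁ d.ι (Lf P.K ((P.Psi w₀) [])) C) = P.nn w₀ * d.m)
    (hT : Tlin d.ι d.j (Zl P.K (P.Psi w₀) l) G = bx1 d.K₁ d.ι (Zl P.K (P.Psi w₀) l))
    (had : P.RESad w₀ d l C) :
    (∀ l' ∈ calL (LS d.K₁) (wx w₀ P d), LS.Intg l' → LS.coeff l' 0 = d.ι l →
      res (Vl (LS d.K₁) (wx w₀ P d) l') = VVr d.ι d.j (Lf P.K ((P.Psi w₀) [])) (Vl P.K (P.Psi w₀) l) C) ∧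
    VVr d.ι d.j (Lf P.K ((P.Psi w₀) [])) (Vl P.K (P.Psi w₀) l) C
      = Subalgebra.toSubmodule (FFr d.ι d.j (Lf P.K ((P.Psi w₀) [])) (Ff P.K (P.Psi w₀)) C)
        ⊓ perp (bx1 d.K₁ d.ι (Zl P.K (P.Psi w₀) l)) ∧
    (P.expand d).kap w₀ = P.kap w₀ ∧ (P.expand d).CK w₀ := by
  have i1 : FiniteDimensional d.K₁ d.A₁ := d.adm.fdA
  have i2 : CharZero d.K₁ := charZero_of_injective_ringHom d.κ.injective
  have i3 : FiniteDimensional (LS d.K₁) (LS d.A₁) := fd_ls
  obtain ⟨e1, e2, e3, e4⟩ := RES_e_proved w₀ P d l hl h0 G hG C hC hC3 had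
  set w := P.Psi w₀ with hw
  set L := Lf P.K (w []) with hLdef
  set F := Ff P.K w with hFdef
  set FF := FFr d.ι d.j L F C with hFF
  set VV := VVr d.ι d.j L (Vl P.K w l) C with hVV
  have hVF : Vl P.K w l ≤ Subalgebra.toSubmodule F := Vl_le_Ff_proved w l hl h0
  have hVVFF : VV ≤ Subalgebra.toSubmodule FF := by
    rintro _ ⟨x, hx, rfl⟩
    exact Algebra.subset_adjoin ⟨x, bx_mono hVF hx, rfl⟩
  have hZ : Module.finrank d.K₁ (bx1 d.K₁ d.ι (Zl P.K w l)) = Module.finrank P.K (Zl P.K w l) :=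
    d.adm.finrank_bx1 _
  have hZk : Module.finrank P.K (Zl P.K w l) + P.dL w₀ = P.n1 w₀ := finrank_Zl_proved w l hl h0
  have hFFd : Module.finrank d.K₁ (Subalgebra.toSubmodule FF) = P.n1 w₀ * d.m := had.finrankF
  have hm : 0 < d.m := d.adm.pos
  -- dimension of `VV`
  have h1 := finrank_inf_perp FF VV hVVFF
  rw [e4, hT, hZ, hFFd] at h1
  have hkap : P.kap w₀ = Module.finrank P.K (Zl P.K w l) := by
    unfold kap; omega
  rw [← hkap] at h1
  -- the expansion
  have hreach : Reach P (P.expand d) := Reach.step P P d (Reach.refl P)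
  have hmin := hK.2.2 (P.expand d) hreach had.CE' (had.V2' hK.2.1)
  obtain ⟨l', hl', hi', hr'⟩ := had.exl
  have hl'0 : l' ≠ 0 := by
    intro h
    rw [h] at hr'
    exact ef_ι_ne P.K d.ι h0 hr'.symm
  have hfinV : ∀ l' ∈ calL (LS d.K₁) (wx w₀ P d), l' ≠ 0 →
      Module.finrank d.K₁ (res (Vl (LS d.K₁) (wx w₀ P d) l')) = (P.expand d).dL w₀ := by
    intro l' hl' h0'
    rw [finrank_res]
    exact finrank_Vl_proved (K := LS d.K₁) (wx w₀ P d) l' hl' h0'
  have hle1 : Module.finrank d.K₁ VV ≤ (P.expand d).dL w₀ := by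
    rw [← hfinV l' hl' hl'0]
    exact Submodule.finrank_mono (had.resV l' hl' hi' hr')
  have hkap' : (P.expand d).kap w₀ = P.n1 w₀ * d.m - (P.expand d).dL w₀ := by
    unfold kap; rw [had.n1']
  have hle2 : (P.expand d).dL w₀ ≤ (P.expand d).n1 w₀ := by
    have h2 := finrank_Zl_proved (K := LS d.K₁) (wx w₀ P d) l' hl' hl'0
    show dLU (LS d.K₁) (wx w₀ P d) ≤ n1U (LS d.K₁) (wx w₀ P d)
    omega
  rw [had.n1'] at hle2
  rw [hkap'] at hmin
  have hdeq : (P.expand d).dL w₀ = Module.finrank d.K₁ VV := by omega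
  refine ⟨?_, ?_, ?_, ?_⟩
  · intro l' hl' hi' hr'
    have hl'0 : l' ≠ 0 := by
      intro h
      rw [h] at hr'
      exact ef_ι_ne P.K d.ι h0 hr'.symm
    refine (Submodule.eq_of_le_of_finrank_le (had.resV l' hl' hi' hr') ?_).symm
    rw [hfinV l' hl' hl'0, hdeq]
  · have hZFF : bx1 d.K₁ d.ι (Zl P.K w l) ≤ Subalgebra.toSubmodule FF := by
      rw [← hT, ← e4]; exact inf_le_left
    have h2 := finrank_inf_perp FF (bx1 d.K₁ d.ι (Zl P.K w l)) hZFF
    rw [hZ, hFFd, ← hkap] at h2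
    refine Submodule.eq_of_le_of_finrank_le ?_ (by omega)
    intro x hx
    refine Submodule.mem_inf.2 ⟨hVVFF hx, ?_⟩
    rw [mem_perp]
    intro z hz
    rw [← hT, ← e4] at hz
    have h3 := mem_perp.1 (Submodule.mem_inf.1 hz).2 x hx
    rw [tr_mul_comm]; exact h3
  · rw [hkap']; omega
  · refine ⟨had.CE', had.V2' hK.2.1, ?_⟩
    intro Q hQ hQE hQV
    have h3 := hK.2.2 Q (hreach.trans hQ) hQE hQV
    rw [hkap']; omega

end Trip

end Vale.Agent.P199K
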