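import Vale.Agent.P199K.Dens
import Vale.Agent.P199K.Inv
import Vale.Agent.P199K.Tr

/-! # P199, module VFCE: the linear part of `p_W(w)` under R1 -/

open scoped TensorProduct LaurentSeries
open Polynomial

namespace Vale.Agent.P199K

section lin
variable {K A σ : Type} [Field K] [Ring A] [Algebra K A]

theorem vfce_mul_single (f g : NPS σ A) (γ : σ) : (f * g) [γ] = f [] * g [γ] + f [γ] * g [] := by
  rw [NPS.mul_cons, NPS.mul_nil]
  rfl

theorem vfce_pow_nil (w : NPS σ A) (n : ℕ) : (w ^ n) [] = (w []) ^ n := by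
  induction n with
  | zero => rw [pow_zero, pow_zero]; rfl
  | succ n ih => rw [pow_succ, pow_succ, NPS.mul_nil, ih]

theorem vfce_pow_single (w : NPS σ A) (γ : σ) (n : ℕ) : (w ^ n) [γ] = gs (w []) (w [γ]) n := by
  induction n with
  | zero => rw [pow_zero]; rfl
  | succ n ih =>
    rw [pow_succ, vfce_mul_single, ih, vfce_pow_nil, gs, add_comm]

/-- the coefficient of `[γ]` in `p(w)` -/
theorem vfce_aeval_single (w : NPS σ A) (p : K[X]) (γ : σ) :
    (aeval w p) [γ] = Dp p (w []) (w [γ]) := by
  induction p using Polynomial.induction_on' with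
  | add p q hp hq => rw [map_add, NPS.add_apply, Dp_add, hp, hq]
  | monomial n c =>
    rw [aeval_monomial, NPS.algebraMap_apply, NPS.C_mul_apply, Dp_monomial, vfce_pow_single,
      ← Algebra.smul_def]

theorem vfce_Dp_smul_right (p : K[X]) (W y : A) (c : K) : Dp p W (c • y) = c • Dp p W y := by
  rw [Algebra.smul_def, Dp_mul_left p W y _ (Algebra.commutes c W).symm, ← Algebra.smul_def]

theorem vfce_Dp_sum_right {ι : Type} (s : Finset ι) (p : K[X]) (W : A) (y : ι → A) :
    Dp p W (∑ i ∈ s, y i) = ∑ i ∈ s, Dp p W (y i) := by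
  classical
  induction s using Finset.induction_on with
  | empty => rw [Finset.sum_empty, Finset.sum_empty, Dp_zero_right]
  | insert a s ha ih => rw [Finset.sum_insert ha, Finset.sum_insert ha, Dp_add_right, ih]

/-- the linear part of `p(w)` -/
theorem vfce_lin_aeval [Fintype σ] (w : NPS σ A) (p : K[X]) (δ : σ → K) :
    lin K (aeval w p) δ = Dp p (w []) (lin K w δ) := by
  show ∑ γ, δ γ • (aeval w p) [γ] = Dp p (w []) (∑ γ, δ γ • w [γ])
  rw [vfce_Dp_sum_right]
  refine Finset.sum_congr rfl fun γ _ => ?_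
  rw [vfce_Dp_smul_right, vfce_aeval_single]

end lin

section dom
variable {K A σ : Type} [Field K] [Ring A] [IsDomain A] [Algebra K A] [Module.Finite K A]
  [CharZero K] [Fintype σ]

/-- the linear part of `f = p_W(w)` -/
theorem vfce_lin_ff (w : NPS σ A) (δ : σ → K) : lin K (ff K w) δ =
    aeval (w []) (derivative (minpoly K (w []))) *
      proj (Subalgebra.toSubmodule (Mf K (w []))) (lin K w δ) := by
  unfold ff
  rw [vfce_lin_aeval, Dp_eq _ _ _ (minpoly.aeval K (w [])), proj_Mf]
  rfl

/-- the linear part of `f = p_W(w)` under R1 -/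
theorem vfce_lin_ff_of_R1 (w : NPS σ A) (h : R1U K w) (δ : σ → K) : lin K (ff K w) δ =
    aeval (w []) (derivative (minpoly K (w []))) *
      proj (Subalgebra.toSubmodule (Lf K (w []))) (lin K w δ) := by
  rw [vfce_lin_ff, h δ]

/-- `V_f = p_W'(W) calL` -/
theorem vfce_VfU_eq_map (w : NPS σ A) (h : R1U K w) : VfU K w =
    (calL K w).map (LinearMap.mulLeft K (aeval (w []) (derivative (minpoly K (w []))))) := by
  unfold VfU calL
  rw [← LinearMap.range_comp]
  congr 1
  refine LinearMap.ext fun δ => ?_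
  rw [vfce_lin_ff_of_R1 w h]
  rfl

theorem vfce_VfU_le_CeU_of_R1 (w : NPS σ A) (h : R1U K w) : VfU K w ≤ CeU K w := by
  rw [vfce_VfU_eq_map w h]
  rintro _ ⟨x, hx, rfl⟩
  unfold CeU
  rw [LinearMap.mulLeft_apply]
  refine Submodule.mul_mem_mul (Submodule.mem_span_singleton_self _) ?_
  have h1 : (1 : A) ∈ Subalgebra.toSubmodule (Ff K w) := (Ff K w).one_mem
  have h2 := Submodule.mul_mem_mul h1 hx
  rwa [one_mul] at h2

theorem vfce_finrank_VfU_of_R1 (w : NPS σ A) (h : R1U K w) :
    Module.finrank K (VfU K w) = dLU K w := by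
  rw [vfce_VfU_eq_map w h]
  have hinj : Function.Injective
      (LinearMap.mulLeft K (aeval (w []) (derivative (minpoly K (w []))))) := by
    intro a b hab
    rw [LinearMap.mulLeft_apply, LinearMap.mulLeft_apply] at hab
    exact mul_left_cancel₀ (aeval_derivative_minpoly_ne_zero (w [])) hab
  exact (LinearEquiv.finrank_eq (Submodule.equivMapOfInjective _ hinj (calL K w))).symm

end dom

end Vale.Agent.P199K
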