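import Vale.Agent.P199K.ResEF
import Vale.Agent.P199K.VfCe

/-! # P199, section 4: Euler argument (mem_res_V) (helper85) -/

open scoped TensorProduct LaurentSeries
open PowerSeries

namespace Vale.Agent.P199K

section RV
variable {K A : Type} [Field K] [CharZero K] [Ring A] [IsDomain A] [Algebra K A] [FiniteDimensional K A]

theorem rv_pr_gs (W y : A) (k : ℕ) : pr (Lf K W) (gs W y k) = gs W (pr (Lf K W) y) k := by
  have hW : W ∈ Lf K W := Algebra.subset_adjoin rfl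
  induction k with
  | zero => simp [gs]
  | succ k ih =>
    simp only [gs, map_add]
    rw [pr_mul_right _ hW, ih, pr_mul_left _ (Subalgebra.pow_mem _ hW k)]

theorem rv_pr_Dp (p : Polynomial K) (W y : A) :
    pr (Lf K W) (Dp p W y) = Polynomial.aeval W (Polynomial.derivative p) * pr (Lf K W) y := by
  have hc : W * pr (Lf K W) y = pr (Lf K W) y * W :=
    Lf_comm W (Algebra.subset_adjoin rfl) (pr_mem _ _)
  rw [← Dp_comm p W _ hc]
  induction p using Polynomial.induction_on' with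
  | add p q hp hq => rw [Dp_add, Dp_add, map_add, hp, hq]
  | monomial n c => rw [Dp_monomial, Dp_monomial, map_smul, rv_pr_gs]

end RV

section RV2
variable {A : Type} [Ring A] [IsDomain A]

/-- division of integral series -/
theorem rv_div {a g b : LS A} {α β : A} (ha : LS.Intg a) (ha0 : LS.coeff a 0 = α) (hα : α ≠ 0)
    (hab : a * g = b) (hb : LS.Intg b) (hb0 : LS.coeff b 0 = α * β) : LS.Intg g ∧ LS.coeff g 0 = β := by
  have hg : LS.Intg g := by
    by_cases h0 : g = 0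
    · rw [h0]; exact LS.Intg.zero
    · obtain ⟨n, g₀, h1, h2, h3⟩ := LS.exists_eq_tp_mul h0
      have hn : 0 ≤ n := by
        by_contra hn
        push Not at hn
        have h4 : LS.coeff b n = α * LS.coeff g₀ 0 := by
          rw [← hab, h1, ← mul_assoc, ← LS.tp_comm, mul_assoc, LS.coeff_tp_mul, sub_self,
            LS.coeff_mul_zero ha h2, ha0]
        rw [hb n hn] at h4
        exact (mul_ne_zero hα h3) h4.symm
      rw [h1]
      exact (LS.Intg.tp hn).mul h2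
  refine ⟨hg, ?_⟩
  have h1 : LS.coeff b 0 = α * LS.coeff g 0 := by
    rw [← hab, LS.coeff_mul_zero ha hg, ha0]
  rw [hb0] at h1
  exact (mul_left_cancel₀ hα h1).symm

end RV2

namespace Trip
variable {S : Stg} (w₀ : NPS (Fin 2) S.A)

/-- `λ_f G ∈ L ⊠ E₁` for `G ∈ F ⊠ E₁` -/
theorem ef_mem_bx_lamf (P : Trip S) (d : ExpD P.K P.A P.σ) (l : P.A)
    (hl : l ∈ calL P.K (P.Psi w₀)) (G : d.A₁)
    (hG : G ∈ bx d.ι d.j (Subalgebra.toSubmodule (Ff P.K (P.Psi w₀)))) (C : d.A₁)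
    (hC : C = d.ι (lamf P.K (P.Psi w₀) l) * G) :
    C ∈ bx d.ι d.j (Subalgebra.toSubmodule (Lf P.K ((P.Psi w₀) []))) := by
  have hlamL : lamf P.K (P.Psi w₀) l ∈ Lf P.K ((P.Psi w₀) []) := by
    refine Subalgebra.mul_mem _ ?_ (calL_le_proved (P.Psi w₀) hl)
    exact Polynomial.aeval_mem_adjoin_singleton P.K ((P.Psi w₀) [])
  subst hC
  refine Submodule.span_induction (p := fun x _ => d.ι (lamf P.K (P.Psi w₀) l) * x ∈
    bx d.ι d.j (Subalgebra.toSubmodule (Lf P.K ((P.Psi w₀) [])))) ?_ ?_ ?_ ?_ hG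
  · rintro _ ⟨e, u, hu, rfl⟩
    rw [← mul_assoc, ← map_mul]
    exact Submodule.subset_span ⟨e, _, Subalgebra.mul_mem _ hlamL (Ff_le_Lf_proved _ hu), rfl⟩
  · rw [mul_zero]; exact Submodule.zero_mem _
  · intro x y _ _ hx hy
    rw [mul_add]; exact Submodule.add_mem _ hx hy
  · intro c x _ hx
    rw [mul_smul_comm]; exact Submodule.smul_mem _ _ hx

/-- Euler: if `p_W(W') = t^ν (λ_f G + O(t))`, `ν ≥ 1`, then `G ∈ bar V'` -/
theorem mem_res_V_proved (P : Trip S) (d : ExpD P.K P.A P.σ)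
    (hch : ∃ δ : P.σ × d.B → LS d.K₁, ∀ f : NPS P.σ P.A,
      LS.ld (P.eh d f []) = lin (LS d.K₁) (P.eh d f) δ) (l : P.A)
    (_hl : l ∈ calL P.K (P.Psi w₀)) (h0 : l ≠ 0) (G : d.A₁) (ν : ℕ) (hν : 1 ≤ ν) (x : LS d.A₁)
    (hx : P.eh d (ff P.K (P.Psi w₀)) [] = LS.tp (ν : ℤ) * x) (hxi : LS.Intg x)
    (hx0 : LS.coeff x 0 = d.ι (lamf P.K (P.Psi w₀) l) * G) :
    ∀ l' ∈ calL (LS d.K₁) (wx w₀ P d), LS.Intg l' → LS.coeff l' 0 = d.ι l →
      G ∈ res (Vl (LS d.K₁) (wx w₀ P d) l') := by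
  intro l' hl' hi' hr'
  have i1 : FiniteDimensional d.K₁ d.A₁ := d.adm.fdA
  have i2 : CharZero d.K₁ := charZero_of_injective_ringHom d.κ.injective
  have i3 : FiniteDimensional (LS d.K₁) (LS d.A₁) := fd_ls
  obtain ⟨δ, hδ⟩ := hch
  set w := P.Psi w₀ with hw
  set w' := wx w₀ P d with hw'
  set W' := w' [] with hW'
  let p' := (minpoly P.K (w [])).map ((LS.C : d.K₁ →+* LS d.K₁).comp d.κ)
  have hff : P.eh d (ff P.K w) = Polynomial.aeval w' p' := P.eh_aeval d w _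
  have hW'i : LS.Intg W' := wx_nil_intg w₀ P d
  have hW'0 : LS.coeff W' 0 = d.ι (w []) := wx_nil_zero w₀ P d
  -- the derivative of the polynomial at `W'`
  set a := Polynomial.aeval W' (Polynomial.derivative p') with ha
  have hpoly : ∀ q : Polynomial P.K, LS.Intg (Polynomial.aeval W'
      (q.map ((LS.C : d.K₁ →+* LS d.K₁).comp d.κ))) ∧
      LS.coeff (Polynomial.aeval W' (q.map ((LS.C : d.K₁ →+* LS d.K₁).comp d.κ))) 0
        = d.ι (Polynomial.aeval (w []) q) := by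
    intro q
    induction q using Polynomial.induction_on' with
    | add p q hp hq =>
      rw [Polynomial.map_add, map_add, map_add, map_add]
      exact ⟨hp.1.add hq.1, by rw [LS.coeff_add, hp.2, hq.2]⟩
    | monomial n c =>
      rw [Polynomial.map_monomial, Polynomial.aeval_monomial, Polynomial.aeval_monomial]
      have h1 : algebraMap (LS d.K₁) (LS d.A₁) (((LS.C : d.K₁ →+* LS d.K₁).comp d.κ) c)
          = LS.C (algebraMap d.K₁ d.A₁ (d.κ c)) := LS.algebraMap_C _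
      rw [h1]
      refine ⟨(LS.Intg.C _).mul (hW'i.pow n), ?_⟩
      rw [LS.coeff_C_mul, LS.coeff_pow_zero hW'i, hW'0, map_mul, map_pow, d.adm.ι_alg]
  have hai : LS.Intg a := by
    have h1 := (hpoly (Polynomial.derivative (minpoly P.K (w [])))).1
    rw [← Polynomial.derivative_map] at h1
    exact h1
  have ha0 : LS.coeff a 0 = d.ι (dpW P.K w) := by
    have h1 := (hpoly (Polynomial.derivative (minpoly P.K (w [])))).2
    rw [← Polynomial.derivative_map] at h1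
    exact h1
  -- the chain rule
  have h1 : LS.ld (LS.tp (ν : ℤ) * x) = Dp p' W' (lin (LS d.K₁) w' δ) := by
    rw [← hx, hδ, hff, vfce_lin_aeval]
  have h2 : pr (Lf (LS d.K₁) W') (LS.ld (LS.tp (ν : ℤ) * x))
      = a * pr (Lf (LS d.K₁) W') (lin (LS d.K₁) w' δ) := by
    rw [h1, rv_pr_Dp]
  set c := pr (Lf (LS d.K₁) W') (lin (LS d.K₁) w' δ) with hc
  have hcL : c ∈ calL (LS d.K₁) w' := by
    refine ⟨δ, ?_⟩
    show proj (Subalgebra.toSubmodule (Lf (LS d.K₁) (w' []))) (lin (LS d.K₁) w' δ) = c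
    rw [proj_Lf]
  -- rescaling
  have hν0 : (ν : LS d.K₁) ≠ 0 := Nat.cast_ne_zero.2 (by omega)
  set z : LS d.A₁ := LS.tp (1 - (ν : ℤ)) * LS.ld (LS.tp (ν : ℤ) * x) with hz
  have hzc : ∀ n : ℤ, LS.coeff z n = (n + ν) • LS.coeff x n := by
    intro n
    have e1 : n - (1 - (ν : ℤ)) + 1 = n + ν := by ring
    have e2 : n + (ν : ℤ) - ν = n := by ring
    rw [hz, LS.coeff_tp_mul, LS.coeff_ld, LS.coeff_tp_mul, e1, e2]
  have hzi : LS.Intg z := fun n hn => by rw [hzc, hxi n hn, smul_zero]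
  have hz0 : LS.coeff z 0 = (ν : ℤ) • LS.coeff x 0 := by rw [hzc, zero_add]
  have hxL : x ∈ Lf (LS d.K₁) W' := by
    have h3 : P.eh d (ff P.K w) [] ∈ Lf (LS d.K₁) W' := eh_ff_mem_proved w₀ P d
    have h4 := Subalgebra.algebraMap_mem (Lf (LS d.K₁) W') (LS.tp (-(ν : ℤ)) : LS d.K₁)
    rw [LS.algebraMap_tp] at h4
    have h5 := Subalgebra.mul_mem _ h4 h3
    rw [hx, ← mul_assoc, ← LS.tp_add, neg_add_cancel, LS.tp_zero, one_mul] at h5
    exact h5
  have hx0mem : LS.coeff x 0 ∈ resA (Lf (LS d.K₁) W') := coeff_mem_resA hxL hxi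
  have htpL : (LS.tp (1 - (ν : ℤ)) : LS d.A₁) ∈ Lf (LS d.K₁) W' := by
    have h4 := Subalgebra.algebraMap_mem (Lf (LS d.K₁) W') (LS.tp (1 - (ν : ℤ)) : LS d.K₁)
    rwa [LS.algebraMap_tp] at h4
  have hprz : pr (Lf (LS d.K₁) W') z = a * (LS.tp (1 - (ν : ℤ)) * c) := by
    rw [hz, pr_mul_left _ htpL, h2, ← mul_assoc, ← mul_assoc, LS.tp_comm]
  have hprzi : LS.Intg (pr (Lf (LS d.K₁) W') z) := intg_pr _ hzi
  have hprz0 : LS.coeff (pr (Lf (LS d.K₁) W') z) 0 = (ν : ℤ) • LS.coeff x 0 := by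
    rw [coeff_pr _ hzi, hz0]
    exact pr_of_mem _ (Subalgebra.zsmul_mem _ hx0mem _)
  -- inverse of `l'`
  have hl'0 : l' ≠ 0 := by
    intro h
    rw [h] at hr'
    exact ef_ι_ne P.K d.ι h0 hr'.symm
  obtain ⟨b, hb1, hb2⟩ := exists_inv (LS d.K₁) hl'0
  set g : LS d.A₁ := b * ((ν : LS d.K₁)⁻¹ • (LS.tp (1 - (ν : ℤ)) * c)) with hg
  have hlg : l' * g = (ν : LS d.K₁)⁻¹ • (LS.tp (1 - (ν : ℤ)) * c) := by
    rw [hg, ← mul_assoc, hb1, one_mul]
  have hgV : g ∈ Vl (LS d.K₁) w' l' := by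
    rw [mem_Vl, hlg]
    refine Submodule.smul_mem _ _ ?_
    have h5 := Submodule.smul_mem (calL (LS d.K₁) w') (LS.tp (1 - (ν : ℤ)) : LS d.K₁) hcL
    rwa [Algebra.smul_def, LS.algebraMap_tp] at h5
  have hag : (a * l') * g = (ν : LS d.K₁)⁻¹ • pr (Lf (LS d.K₁) W') z := by
    rw [mul_assoc, hlg, mul_smul_comm, hprz]
  have hbi : LS.Intg ((ν : LS d.K₁)⁻¹ • pr (Lf (LS d.K₁) W') z) ∧
      LS.coeff ((ν : LS d.K₁)⁻¹ • pr (Lf (LS d.K₁) W') z) 0 = LS.coeff x 0 := by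
    have h6 : (ν : LS d.K₁)⁻¹ = LS.C ((ν : d.K₁)⁻¹) := by
      rw [map_inv₀, map_natCast]
    rw [h6]
    constructor
    · intro n hn
      rw [LS.coeff_C_smul, hprzi n hn, smul_zero]
    · rw [LS.coeff_C_smul, hprz0, natCast_zsmul, ← Nat.cast_smul_eq_nsmul d.K₁, smul_smul,
        inv_mul_cancel₀ (Nat.cast_ne_zero.2 (by omega)), one_smul]
  have hal : LS.Intg (a * l') := hai.mul hi'
  have hal0 : LS.coeff (a * l') 0 = d.ι (lamf P.K w l) := by
    rw [LS.coeff_mul_zero hai hi', ha0, hr', ← map_mul]; rfl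
  have hlam : d.ι (lamf P.K w l) ≠ 0 := ef_ι_ne P.K d.ι (mul_ne_zero (dpW_ne_zero_proved w) h0)
  obtain ⟨hgi, hg0⟩ := rv_div hal hal0 hlam hag hbi.1 (hbi.2.trans hx0)
  exact (mem_res _ _).2 ⟨g, hgV, hgi, hg0⟩

end Trip

end Vale.Agent.P199K
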