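import Vale.Agent.P199K.ResDefs
import Vale.Agent.P199K.ResOne
import Vale.Agent.P199K.ResS3
import Vale.Agent.P199K.ResL
import Vale.Agent.P199K.ResNN
import Vale.Agent.P199K.ChainR
import Vale.Agent.P199K.ResAD
import Vale.Agent.P199K.ResEF
import Vale.Agent.P199K.ResV

/-!
# P199, section 4: statement of RES and companions (helper95)

`P` is a triple, `d` the data of an expansion, `w = P.Psi w₀`, `w' = wx w₀ P d` the series of the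
expansion, `l ∈ calL` nonzero (the `λ` of the note).
-/

open scoped TensorProduct LaurentSeries
open PowerSeries

namespace Vale.Agent.P199K

/-! ## facts on one series -/
section One
variable {K A σ : Type} [Field K] [CharZero K] [Ring A] [IsDomain A] [Algebra K A] [FiniteDimensional K A]
  [Fintype σ] (w : NPS σ A) (l : A)

theorem calL_le : calL K w ≤ Subalgebra.toSubmodule (Lf K (w [])) := calL_le_proved w

theorem Ff_le_Lf : Ff K w ≤ Lf K (w []) := Ff_le_Lf_proved w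

theorem Vl_le_Ff (hl : l ∈ calL K w) (h0 : l ≠ 0) : Vl K w l ≤ Subalgebra.toSubmodule (Ff K w) := Vl_le_Ff_proved w l hl h0

theorem Ff_eq_adjoin (hl : l ∈ calL K w) (h0 : l ≠ 0) : Ff K w = Algebra.adjoin K (Vl K w l : Set A) := Ff_eq_adjoin_proved w l hl h0

theorem calL_eq (hl : l ∈ calL K w) (h0 : l ≠ 0) : calL K w = (Vl K w l).map (LinearMap.mulLeft K l) := calL_eq_proved w l hl h0

theorem finrank_Vl (hl : l ∈ calL K w) (h0 : l ≠ 0) : Module.finrank K (Vl K w l) = dLU K w := finrank_Vl_proved w l hl h0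

theorem VpU_iff (hl : l ∈ calL K w) (h0 : l ≠ 0) (k : ℕ) :
    VpU K w k ↔ (Vl K w l) ^ k = Subalgebra.toSubmodule (Ff K w) := VpU_iff_proved w l hl h0 k

theorem dpW_ne_zero : dpW K w ≠ 0 := dpW_ne_zero_proved w

/-- `κ = dim Z` -/
theorem finrank_Zl (hl : l ∈ calL K w) (h0 : l ≠ 0) :
    Module.finrank K (Zl K w l) + dLU K w = n1U K w := finrank_Zl_proved w l hl h0

/-- `f₁ = p_W'(W) ℓ` under R1 -/
theorem lin_ff (h : R1U K w) (δ : σ → K) :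
    lin K (ff K w) δ = dpW K w * proj (Subalgebra.toSubmodule (Lf K (w []))) (lin K w δ) := lin_ff_proved w h δ

theorem VfU_eq (h : R1U K w) (hl : l ∈ calL K w) (h0 : l ≠ 0) :
    VfU K w = (Vl K w l).map (LinearMap.mulLeft K (lamf K w l)) := VfU_eq_proved w l h hl h0

theorem CeU_eq (hl : l ∈ calL K w) (h0 : l ≠ 0) :
    CeU K w = (Subalgebra.toSubmodule (Ff K w)).map (LinearMap.mulLeft K (lamf K w l)) := CeU_eq_proved w l hl h0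

end One

namespace Trip
variable {S : Stg} (w₀ : NPS (Fin 2) S.A)

/-- first order term of an expansion: `w(p) = w + t w₁(θ) + O(t²)`, `θ = p mod t²` -/
theorem eh_nil_coeff (P : Trip S) (d : ExpD P.K P.A P.σ) (f : NPS P.σ P.A) :
    LS.Intg (P.eh d f []) ∧ LS.coeff (P.eh d f []) 0 = d.ι (f []) ∧
    LS.coeff (P.eh d f []) 1 = lin1 d.ι d.j f (fun γ => PowerSeries.coeff 1 (d.p γ)) := eh_nil_coeff_proved P d f

/-- linear part of an expansion: `w'([γβ]) = t (w([γ]) ε_β + O(t))` -/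
theorem eh_cons_coeff (P : Trip S) (d : ExpD P.K P.A P.σ) (f : NPS P.σ P.A) (γ : P.σ) (β : d.B) :
    (∀ n : ℤ, n < 1 → LS.coeff (P.eh d f [(γ, β)]) n = 0) ∧
    LS.coeff (P.eh d f [(γ, β)]) 1 = d.ι (f [γ]) * d.j (d.ε β) := eh_cons_coeff_proved P d f γ β

/-- `E₁^σ → V ⊠ E₁` is onto (any linear part) -/
theorem range_lin1 (P : Trip S) (d : ExpD P.K P.A P.σ) (f : NPS P.σ P.A) :
    LinearMap.range (lin1 d.ι d.j f) = bx d.ι d.j (LinearMap.range (lin P.K f)) := range_lin1_proved P d f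

/-- under R1, every `v ∈ V ⊠ E₁` is `u₁(θ)`: `f₁(θ) = λ_f v` -/
theorem exists_theta (P : Trip S) (d : ExpD P.K P.A P.σ) (h : R1U P.K (P.Psi w₀)) (l : P.A)
    (hl : l ∈ calL P.K (P.Psi w₀)) (h0 : l ≠ 0) (v : d.A₁) (hv : v ∈ bx d.ι d.j (Vl P.K (P.Psi w₀) l)) :
    ∃ θ : P.σ → d.E₁, lin1 d.ι d.j (ff P.K (P.Psi w₀)) θ = d.ι (lamf P.K (P.Psi w₀) l) * v := exists_theta_proved w₀ P d h l hl h0 v hv

/-- `n' ≤ n m` under (R) -/
theorem nn_expand_le (P : Trip S) (d : ExpD P.K P.A P.σ) (h : P.CR w₀) :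
    (P.expand d).nn w₀ ≤ P.nn w₀ * d.m := nn_expand_le_proved w₀ P d h

/-- `L ⊠ K₁` is in the residue algebra of `L'` -/
theorem ι_mem_res (P : Trip S) (d : ExpD P.K P.A P.σ) (x : P.A) (hx : x ∈ Lf P.K ((P.Psi w₀) [])) :
    d.ι x ∈ res (Subalgebra.toSubmodule (Lf (LS d.K₁) ((wx w₀ P d) []))) := ι_mem_res_proved w₀ P d x hx

/-- the polynomial `p_W(W')` is the value of the expansion of `f`, in `L'` -/
theorem eh_ff_mem (P : Trip S) (d : ExpD P.K P.A P.σ) :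
    P.eh d (ff P.K (P.Psi w₀)) [] ∈ Lf (LS d.K₁) ((wx w₀ P d) []) := eh_ff_mem_proved w₀ P d

/-- the residues of integral elements of `L'` commute with `W` -/
theorem res_le_centralizer (P : Trip S) (d : ExpD P.K P.A P.σ) (C : d.A₁)
    (hC : C ∈ res (Subalgebra.toSubmodule (Lf (LS d.K₁) ((wx w₀ P d) [])))) :
    C * d.ι ((P.Psi w₀) []) = d.ι ((P.Psi w₀) []) * C := res_le_centralizer_proved w₀ P d C hC

/-- **chain rule**: `d/dt f(p) = f^{(1)}_p(dp/dt)`; `δ` contains the coordinates of `t⁻¹ dp/dt` -/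
theorem chain_rule (P : Trip S) (d : ExpD P.K P.A P.σ) :
    ∃ δ : P.σ × d.B → LS d.K₁, ∀ f : NPS P.σ P.A,
      LS.ld (P.eh d f []) = lin (LS d.K₁) (P.eh d f) δ :=
  P.chain_rule_proved d

/-- Euler: if `p_W(W') = t^ν (λ_f G + O(t))`, `ν ≥ 1`, then `G ∈ bar V'` -/
theorem mem_res_V (P : Trip S) (d : ExpD P.K P.A P.σ) (l : P.A)
    (hl : l ∈ calL P.K (P.Psi w₀)) (h0 : l ≠ 0) (G : d.A₁) (ν : ℕ) (hν : 1 ≤ ν) (x : LS d.A₁)
    (hx : P.eh d (ff P.K (P.Psi w₀)) [] = LS.tp (ν : ℤ) * x) (hxi : LS.Intg x)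
    (hx0 : LS.coeff x 0 = d.ι (lamf P.K (P.Psi w₀) l) * G) :
    ∀ l' ∈ calL (LS d.K₁) (wx w₀ P d), LS.Intg l' → LS.coeff l' 0 = d.ι l →
      G ∈ res (Vl (LS d.K₁) (wx w₀ P d) l') :=
  mem_res_V_proved w₀ P d (P.chain_rule_proved d) l hl h0 G ν hν x hx hxi hx0

/-- `[L₁[C] : K₁] ≤ n m` for `C ∈ bar L'` under (R) -/
theorem finrank_LG_le (P : Trip S) (d : ExpD P.K P.A P.σ) (h : P.CR w₀) (C : d.A₁)
    (hC : C ∈ res (Subalgebra.toSubmodule (Lf (LS d.K₁) ((wx w₀ P d) [])))) :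
    Module.finrank d.K₁ (LG d.K₁ d.ι (Lf P.K ((P.Psi w₀) [])) C) ≤ P.nn w₀ * d.m := finrank_LG_le_proved w₀ P d h C hC

/-- **RES (a)-(d)** -/
theorem RES_ad (P : Trip S) (d : ExpD P.K P.A P.σ) (hE : P.CE w₀) (l : P.A)
    (hl : l ∈ calL P.K (P.Psi w₀)) (h0 : l ≠ 0) (C : d.A₁)
    (hC1 : C ∈ res (Subalgebra.toSubmodule (Lf (LS d.K₁) ((wx w₀ P d) []))))
    (hC2 : C ∈ bx d.ι d.j (Subalgebra.toSubmodule (Lf P.K ((P.Psi w₀) []))))
    (hC3 : Module.finrank d.K₁ (LG d.K₁ d.ι (Lf P.K ((P.Psi w₀) [])) C) = P.nn w₀ * d.m) :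
    P.RESad w₀ d l C := RES_ad_proved w₀ P d hE l hl h0 C hC1 hC2 hC3

/-- **RES (e)** -/
theorem RES_e (P : Trip S) (d : ExpD P.K P.A P.σ) (hE : P.CE w₀) (l : P.A)
    (hl : l ∈ calL P.K (P.Psi w₀)) (h0 : l ≠ 0) (G : d.A₁)
    (hG : G ∈ bx d.ι d.j (Subalgebra.toSubmodule (Ff P.K (P.Psi w₀)))) (C : d.A₁)
    (hC : C = d.ι (lamf P.K (P.Psi w₀) l) * G)
    (hC1 : C ∈ res (Subalgebra.toSubmodule (Lf (LS d.K₁) ((wx w₀ P d) []))))
    (hC3 : Module.finrank d.K₁ (LG d.K₁ d.ι (Lf P.K ((P.Psi w₀) [])) C) = P.nn w₀ * d.m) :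
    FFr d.ι d.j (Lf P.K ((P.Psi w₀) [])) (Ff P.K (P.Psi w₀)) C = LG d.K₁ d.ι (Ff P.K (P.Psi w₀)) G ∧
    Subalgebra.toSubmodule (FFr d.ι d.j (Lf P.K ((P.Psi w₀) [])) (Ff P.K (P.Psi w₀)) C)
      = bx d.ι d.j (Subalgebra.toSubmodule (Ff P.K (P.Psi w₀)))
        ⊓ Subalgebra.toSubmodule (Subalgebra.centralizer d.K₁ {G}) ∧
    (∀ x ∈ bx d.ι d.j (Subalgebra.toSubmodule (Ff P.K (P.Psi w₀))),
      proj (Subalgebra.toSubmodule (LG d.K₁ d.ι (Lf P.K ((P.Psi w₀) [])) C)) x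
        = proj (Subalgebra.toSubmodule (LG d.K₁ d.ι (Ff P.K (P.Psi w₀)) G)) x) ∧
    Subalgebra.toSubmodule (FFr d.ι d.j (Lf P.K ((P.Psi w₀) [])) (Ff P.K (P.Psi w₀)) C)
        ⊓ perp (VVr d.ι d.j (Lf P.K ((P.Psi w₀) [])) (Vl P.K (P.Psi w₀) l) C)
      = Tlin d.ι d.j (Zl P.K (P.Psi w₀) l) G :=
  RES_e_proved w₀ P d l hl h0 G hG C hC hC3
    (RES_ad w₀ P d hE l hl h0 C hC1 (ef_mem_bx_lamf w₀ P d l hl G hG C hC) hC3)

/-- **RES (f)** -/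
theorem RES_f (P : Trip S) (d : ExpD P.K P.A P.σ) (hK : P.CK w₀) (l : P.A)
    (hl : l ∈ calL P.K (P.Psi w₀)) (h0 : l ≠ 0) (G : d.A₁)
    (hG : G ∈ bx d.ι d.j (Subalgebra.toSubmodule (Ff P.K (P.Psi w₀)))) (C : d.A₁)
    (hC : C = d.ι (lamf P.K (P.Psi w₀) l) * G)
    (hC1 : C ∈ res (Subalgebra.toSubmodule (Lf (LS d.K₁) ((wx w₀ P d) []))))
    (hC3 : Module.finrank d.K₁ (LG d.K₁ d.ι (Lf P.K ((P.Psi w₀) [])) C) = P.nn w₀ * d.m)
    (hT : Tlin d.ι d.j (Zl P.K (P.Psi w₀) l) G = bx1 d.K₁ d.ι (Zl P.K (P.Psi w₀) l)) :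
    (∀ l' ∈ calL (LS d.K₁) (wx w₀ P d), LS.Intg l' → LS.coeff l' 0 = d.ι l →
      res (Vl (LS d.K₁) (wx w₀ P d) l') = VVr d.ι d.j (Lf P.K ((P.Psi w₀) [])) (Vl P.K (P.Psi w₀) l) C) ∧
    VVr d.ι d.j (Lf P.K ((P.Psi w₀) [])) (Vl P.K (P.Psi w₀) l) C
      = Subalgebra.toSubmodule (FFr d.ι d.j (Lf P.K ((P.Psi w₀) [])) (Ff P.K (P.Psi w₀)) C)
        ⊓ perp (bx1 d.K₁ d.ι (Zl P.K (P.Psi w₀) l)) ∧
    (P.expand d).kap w₀ = P.kap w₀ ∧ (P.expand d).CK w₀ :=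
  RES_f_proved w₀ P d hK l hl h0 G hG C hC hC3 hT
    (RES_ad w₀ P d hK.1 l hl h0 C hC1 (ef_mem_bx_lamf w₀ P d l hl G hG C hC) hC3)

end Trip

end Vale.Agent.P199K
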