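import Vale.Agent.P199K.P3DB
import Vale.Agent.P199K.BxA
import Vale.Agent.P199K.ResStmt

/-! # P199, section 9 (P3D, part C): the relation for `C(t)` -/

namespace Vale.Agent.P199K

open Module

theorem natDegree_minpoly_eq {K A : Type} [Field K] [Ring A] [Algebra K A] [Module.Finite K A]
    (x : A) : (minpoly K x).natDegree = finrank K (Lf K x) := by
  classical
  have hint : IsIntegral K x := Algebra.IsIntegral.isIntegral x
  apply le_antisymm
  · have h1 := linearIndependent_pow (K := K) x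
    have h2 : LinearIndependent K (fun i : Fin (minpoly K x).natDegree =>
        (⟨x ^ (i : ℕ), (Lf K x).pow_mem (Algebra.subset_adjoin rfl) _⟩ : Lf K x)) :=
      LinearIndependent.of_comp (Lf K x).val.toLinearMap h1
    have h3 := h2.fintype_card_le_finrank
    rwa [Fintype.card_fin] at h3
  · have h1 := Submodule.span_range_natDegree_eq_adjoin (minpoly.monic hint) (minpoly.aeval K x)
    have h3 : finrank K (Subalgebra.toSubmodule (Algebra.adjoin K {x}))
        ≤ (minpoly K x).natDegree := by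
      rw [← h1]
      refine (finrank_span_finset_le_card _).trans ?_
      exact Finset.card_image_le.trans (by rw [Finset.card_range])
    exact h3

theorem span_pow_Lf {K A : Type} [Field K] [Ring A] [Algebra K A] [Module.Finite K A]
    (x : A) (n : ℕ) (hn : n = finrank K (Lf K x)) {y : A} (hy : y ∈ Lf K x) :
    y ∈ Submodule.span K (Set.range fun i : Fin n => x ^ (i : ℕ)) := by
  classical
  have hint : IsIntegral K x := Algebra.IsIntegral.isIntegral x
  have h1 := Submodule.span_range_natDegree_eq_adjoin (minpoly.monic hint) (minpoly.aeval K x)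
  have h2 : y ∈ Subalgebra.toSubmodule (Algebra.adjoin K {x}) := hy
  rw [← h1] at h2
  refine Submodule.span_mono ?_ h2
  intro z hz
  rw [Finset.mem_coe, Finset.mem_image] at hz
  obtain ⟨i, hi, rfl⟩ := hz
  rw [Finset.mem_range, natDegree_minpoly_eq, ← hn] at hi
  exact ⟨⟨i, hi⟩, rfl⟩

section adm
variable {K A K₁ E₁ A₁ : Type} [Field K] [Ring A] [Algebra K A] [FiniteDimensional K A] [Field K₁]
  [Ring E₁] [Ring A₁] [IsDomain A₁] [Algebra K₁ E₁] [Algebra K₁ A₁] [FiniteDimensional K₁ A₁]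
  {κ : K →+* K₁} {ι : A →+* A₁} {j : E₁ →ₐ[K₁] A₁} {m : ℕ}

theorem LG_eq_adjoin_bx1A (L : Subalgebra K A) (C : A₁) :
    Algebra.adjoin K₁ ((bx1A K₁ ι L : Set A₁) ∪ {C}) = LG K₁ ι L C := by
  apply le_antisymm
  · refine Algebra.adjoin_le ?_
    rintro x (hx | hx)
    · have h1 : bx1 K₁ ι (Subalgebra.toSubmodule L) ≤ Subalgebra.toSubmodule (LG K₁ ι L C) := by
        rw [bx1, Submodule.span_le]
        rintro _ ⟨u, hu, rfl⟩
        exact Algebra.subset_adjoin (Or.inl ⟨u, hu, rfl⟩)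
      exact h1 hx
    · exact Algebra.subset_adjoin (Or.inr hx)
  · refine Algebra.adjoin_le ?_
    rintro x (⟨l, hl, rfl⟩ | hx)
    · exact Algebra.subset_adjoin (Or.inl (ι_mem_bx1 hl))
    · exact Algebra.subset_adjoin (Or.inr hx)

/-- the elements `ι(W)^i C^j`, `i < n`, `j < m` span `L₁[C]` -/
theorem span_WC (h : Adm κ ι j m) (W : A) (C : A₁) (hWC : C * ι W = ι W * C) (n M : ℕ)
    (hn : n = finrank K (Lf K W))
    (hfr : finrank K₁ (LG K₁ ι (Lf K W) C) = n * M) :
    (Function.Injective (powMap (bx1A K₁ ι (Lf K W)) C M)) ∧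
    ∀ x ∈ LG K₁ ι (Lf K W) C,
      x ∈ Submodule.span K₁ (Set.range fun ij : Fin n × Fin M => ι W ^ (ij.1 : ℕ) * C ^ (ij.2 : ℕ)) := by
  classical
  have hCL : ∀ l ∈ Lf K W, C * ι l = ι l * C := by
    intro l hl
    refine Algebra.adjoin_induction (p := fun l _ => C * ι l = ι l * C) ?_ ?_ ?_ ?_ hl
    · intro x hx
      rw [Set.mem_singleton_iff] at hx
      rw [hx, hWC]
    · intro r
      rw [h.ι_alg, Algebra.commutes]
    · intro a b _ _ ha hb
      rw [map_add, mul_add, add_mul, ha, hb]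
    · intro a b _ _ ha hb
      rw [map_mul, ← mul_assoc, ha, mul_assoc, hb, mul_assoc]
  have hC : ∀ x ∈ bx1A K₁ ι (Lf K W), C * x = x * C := by
    intro x hx
    refine Submodule.span_induction (p := fun x _ => C * x = x * C) ?_ ?_ ?_ ?_ (mem_bx1A.1 hx)
    · rintro _ ⟨u, hu, rfl⟩
      exact hCL u hu
    · rw [mul_zero, zero_mul]
    · intro a b _ _ ha hb
      rw [mul_add, add_mul, ha, hb]
    · intro c a _ ha
      rw [mul_smul_comm, smul_mul_assoc, ha]
  have hM : finrank K₁ (bx1A K₁ ι (Lf K W)) = n := by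
    rw [hn]
    exact h.finrank_bx1 (Subalgebra.toSubmodule (Lf K W))
  have hmain := powMap_main (bx1A K₁ ι (Lf K W)) C hC M (by rw [LG_eq_adjoin_bx1A, hfr, hM])
  refine ⟨hmain.1, fun x hx => ?_⟩
  rw [← LG_eq_adjoin_bx1A] at hx
  have hx' : x ∈ LinearMap.range (powMap (bx1A K₁ ι (Lf K W)) C M) := by
    rw [hmain.2]; exact hx
  obtain ⟨l, rfl⟩ := hx'
  rw [powMap_apply]
  refine Submodule.sum_mem _ fun jj _ => ?_
  have hl : ((l jj : bx1A K₁ ι (Lf K W)) : A₁) ∈ bx1 K₁ ι (Subalgebra.toSubmodule (Lf K W)) := (l jj).2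
  refine Submodule.span_induction (p := fun y _ => y * C ^ (jj : ℕ) ∈ Submodule.span K₁
    (Set.range fun ij : Fin n × Fin M => ι W ^ (ij.1 : ℕ) * C ^ (ij.2 : ℕ))) ?_ ?_ ?_ ?_ hl
  · rintro _ ⟨u, hu, rfl⟩
    refine Submodule.span_induction (p := fun u _ => ι u * C ^ (jj : ℕ) ∈ Submodule.span K₁
      (Set.range fun ij : Fin n × Fin M => ι W ^ (ij.1 : ℕ) * C ^ (ij.2 : ℕ))) ?_ ?_ ?_ ?_
      (span_pow_Lf W n hn hu)
    · rintro _ ⟨i, rfl⟩
      rw [map_pow]
      exact Submodule.subset_span ⟨(i, jj), rfl⟩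
    · rw [map_zero, zero_mul]; exact Submodule.zero_mem _
    · intro a b _ _ ha hb
      rw [map_add, add_mul]; exact Submodule.add_mem _ ha hb
    · intro c a _ ha
      rw [h.ι_smul, smul_mul_assoc]; exact Submodule.smul_mem _ _ ha
  · rw [zero_mul]; exact Submodule.zero_mem _
  · intro a b _ _ ha hb
    rw [add_mul]; exact Submodule.add_mem _ ha hb
  · intro c a _ ha
    rw [smul_mul_assoc]; exact Submodule.smul_mem _ _ ha

/-- the relation `C'^m = ∑ c_ij W'^i C'^j` with integral coefficients -/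
theorem exists_rel (h : Adm κ ι j m) (W : A) (W' C' : LS A₁) (hWi : LS.Intg W')
    (hW0 : LS.coeff W' 0 = ι W) (hC'L : C' ∈ Lf (LS K₁) W') (hCi : LS.Intg C')
    (hWC : LS.coeff C' 0 * ι W = ι W * LS.coeff C' 0) (n M : ℕ)
    (hn : n = finrank K (Lf K W))
    (hfr : finrank K₁ (LG K₁ ι (Lf K W) (LS.coeff C' 0)) = n * M)
    (hres : res (Subalgebra.toSubmodule (Lf (LS K₁) W'))
      ≤ Subalgebra.toSubmodule (LG K₁ ι (Lf K W) (LS.coeff C' 0))) :
    ∃ c : Fin n × Fin M → LS K₁, (∀ ij, LS.Intg (c ij)) ∧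
      C' ^ M = ∑ ij : Fin n × Fin M, c ij • (W' ^ (ij.1 : ℕ) * C' ^ (ij.2 : ℕ)) := by
  classical
  have hsp := (span_WC h W (LS.coeff C' 0) hWC n M hn hfr).2
  have hW'L : W' ∈ Lf (LS K₁) W' := Algebra.subset_adjoin rfl
  refine (rsLS K₁ A₁).exists_sum (U := Subalgebra.toSubmodule (Lf (LS K₁) W'))
    (fun ij : Fin n × Fin M => W' ^ (ij.1 : ℕ) * C' ^ (ij.2 : ℕ)) (fun ij => ?_) (fun ij => ?_) ?_ ?_ ?_
  · exact (Lf (LS K₁) W').mul_mem ((Lf (LS K₁) W').pow_mem hW'L _) ((Lf (LS K₁) W').pow_mem hC'L _)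
  · exact LS.Intg.mul (LS.Intg.pow hWi _) (LS.Intg.pow hCi _)
  · rw [rs_eq_res]
    intro x hx
    have h1 := hsp x (hres hx)
    refine Submodule.span_mono ?_ h1
    rintro _ ⟨ij, rfl⟩
    refine ⟨ij, ?_⟩
    simp only [rsLS_res]
    rw [LS.coeff_mul_zero (LS.Intg.pow hWi _) (LS.Intg.pow hCi _), LS.coeff_pow_zero hWi,
      LS.coeff_pow_zero hCi, hW0]
  · exact (Lf (LS K₁) W').pow_mem hC'L _
  · exact LS.Intg.pow hCi _

end adm

end Vale.Agent.P199K
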