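import Vale.Agent.P199K.P3C
import Vale.Agent.P199K.BxA
import Vale.Agent.P199K.P3B
import Vale.Agent.P199K.P3DC

/-! # P199, section 9 (P3D, part F): `D(λ y) = q'(C) λ π(y)` on `F ⊠ E₁` -/

namespace Vale.Agent.P199K

open Module

section ad
variable {K₁ A₁ : Type} [Field K₁] [CharZero K₁] [Ring A₁] [IsDomain A₁] [Algebra K₁ A₁]
  [FiniteDimensional K₁ A₁]

/-- commutators with `v` are orthogonal to any subalgebra commuting with `v` -/
theorem pr_comm_zero (M : Subalgebra K₁ A₁) (v : A₁) (hM : ∀ x ∈ M, x * v = v * x) (g : A₁) :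
    pr M (g * v - v * g) = 0 := by
  rw [pr_eq_zero_iff]
  intro u hu
  have h1 : trc K₁ (u * (g * v - v * g)) = 0 := by
    rw [mul_sub, map_sub, ← mul_assoc, ← mul_assoc, hM u hu, mul_assoc v u g, tr_mul_comm v (u * g),
      sub_self]
  exact h1

/-- elements of `R` orthogonal to the centralizer of `v` in `R` are commutators -/
theorem exists_comm_of_pr_eq_zero (R M : Subalgebra K₁ A₁) (v : A₁) (hv : v ∈ R)
    (hM : Subalgebra.toSubmodule M = Subalgebra.toSubmodule R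
      ⊓ Subalgebra.toSubmodule (Subalgebra.centralizer K₁ {v})) (y : A₁) (hy : y ∈ R)
    (h0 : pr M y = 0) : ∃ g ∈ R, y = g * v - v * g := by
  classical
  have hMR : ∀ x ∈ M, x ∈ R := fun x hx => by
    have h1 : x ∈ Subalgebra.toSubmodule M := hx
    rw [hM] at h1
    exact h1.1
  have hMv : ∀ x ∈ M, x * v = v * x := fun x hx => by
    have h1 : x ∈ Subalgebra.toSubmodule M := hx
    rw [hM] at h1
    exact ((mem_centralizer_singleton (K := K₁)).1 h1.2).symm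
  let φ : A₁ →ₗ[K₁] A₁ := LinearMap.mulRight K₁ v - LinearMap.mulLeft K₁ v
  have hφ : ∀ g, φ g = g * v - v * g := fun g => rfl
  have e1 := p3_finrank_split (Subalgebra.toSubmodule R) φ
  have e2 := p3_finrank_split (Subalgebra.toSubmodule R) (pr M)
  have k1 : (Subalgebra.toSubmodule R ⊓ LinearMap.ker φ : Submodule K₁ A₁) = Subalgebra.toSubmodule M := by
    rw [hM]
    ext x
    simp only [Submodule.mem_inf, LinearMap.mem_ker, hφ, Subalgebra.mem_toSubmodule]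
    rw [mem_centralizer_singleton, sub_eq_zero]
    exact and_congr_right fun _ => eq_comm
  have k2 : (Subalgebra.toSubmodule R).map (pr M) = Subalgebra.toSubmodule M := by
    apply le_antisymm
    · rintro _ ⟨x, _, rfl⟩
      exact pr_mem M x
    · intro x hx
      exact ⟨x, hMR x hx, pr_of_mem M hx⟩
  rw [k1] at e1
  rw [k2] at e2
  have hle : (Subalgebra.toSubmodule R).map φ ≤ Subalgebra.toSubmodule R ⊓ LinearMap.ker (pr M) := by
    rintro _ ⟨x, hx, rfl⟩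
    refine ⟨?_, ?_⟩
    · exact R.sub_mem (R.mul_mem hx hv) (R.mul_mem hv hx)
    · show pr M (φ x) = 0
      rw [hφ]
      exact pr_comm_zero M v hMv x
  have heq : (Subalgebra.toSubmodule R).map φ = Subalgebra.toSubmodule R ⊓ LinearMap.ker (pr M) := by
    refine Submodule.eq_of_le_of_finrank_eq hle ?_
    omega
  have hy' : y ∈ (Subalgebra.toSubmodule R).map φ := by
    rw [heq]
    exact ⟨hy, h0⟩
  obtain ⟨g, hg, rfl⟩ := hy'
  exact ⟨g, hg, hφ g⟩

end ad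

section D
variable {K A K₁ E₁ A₁ : Type} [Field K] [Ring A] [Algebra K A] [Field K₁] [CharZero K₁] [Ring E₁]
  [Ring A₁] [IsDomain A₁] [Algebra K₁ E₁] [Algebra K₁ A₁] [FiniteDimensional K₁ A₁]
  {κ : K →+* K₁} {ι : A →+* A₁} {j : E₁ →ₐ[K₁] A₁} {m : ℕ}

theorem Dstr (h : Adm κ ι j m) (L F : Subalgebra K A) (hL : ∀ x ∈ L, ∀ y ∈ L, x * y = y * x)
    (hFL : F ≤ L) (lam : A) (hlam : lam ∈ L) (v : A₁) (hv : v ∈ bx ι j (Subalgebra.toSubmodule F))
    (N : ℕ) (cc : ℕ → A₁) (hcc : ∀ i, cc i ∈ bx1A K₁ ι L) (hP : Pc N cc (ι lam * v) = 0)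
    (hM : Subalgebra.toSubmodule (LG K₁ ι F v) = bx ι j (Subalgebra.toSubmodule F)
      ⊓ Subalgebra.toSubmodule (Subalgebra.centralizer K₁ {v}))
    (y : A₁) (hy : y ∈ bx ι j (Subalgebra.toSubmodule F)) :
    Dc N cc (ι lam * v) (ι lam * y)
      = Pc' N cc (ι lam * v) * ι lam * pr (LG K₁ ι F v) y := by
  have hMR : ∀ x ∈ LG K₁ ι F v, x ∈ bxA h F := fun x hx => by
    have h1 : x ∈ Subalgebra.toSubmodule (LG K₁ ι F v) := hx
    rw [hM] at h1
    exact h1.1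
  have hMv : ∀ x ∈ LG K₁ ι F v, x * v = v * x := fun x hx => by
    have h1 : x ∈ Subalgebra.toSubmodule (LG K₁ ι F v) := hx
    rw [hM] at h1
    exact ((mem_centralizer_singleton (K := K₁)).1 h1.2).symm
  have hcomm : ∀ x ∈ bx1A K₁ ι L, ∀ z ∈ bxA h F, x * z = z * x := fun x hx z hz =>
    bx1A_comm_bxA h hL x hx z (bxA_mono h hFL hz)
  have hl1 : ι lam ∈ bx1A K₁ ι L := ι_mem_bx1 hlam
  have hy0 : pr (LG K₁ ι F v) y ∈ LG K₁ ι F v := pr_mem _ y
  obtain ⟨g, hg, hyg⟩ := exists_comm_of_pr_eq_zero (bxA h F) (LG K₁ ι F v) v hv hM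
    (y - pr (LG K₁ ι F v) y) (Subalgebra.sub_mem _ hy (hMR _ hy0))
    (by rw [map_sub, pr_of_mem _ hy0, sub_self])
  have e1 : ι lam * y = ι lam * pr (LG K₁ ι F v) y + (g * (ι lam * v) - (ι lam * v) * g) := by
    have h1 : y = pr (LG K₁ ι F v) y + (g * v - v * g) := by rw [← hyg]; abel
    conv_lhs => rw [h1]
    rw [mul_add, mul_sub, ← mul_assoc g, ← hcomm _ hl1 g hg, mul_assoc, mul_assoc (ι lam) v g]
  have e2 : (ι lam * v) * (ι lam * pr (LG K₁ ι F v) y) = (ι lam * pr (LG K₁ ι F v) y) * (ι lam * v) := by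
    have h1 := hcomm _ hl1 v hv
    have h2 := hcomm _ hl1 _ (hMR _ hy0)
    have h3 := hMv _ hy0
    calc (ι lam * v) * (ι lam * pr (LG K₁ ι F v) y)
        = ι lam * (v * ι lam) * pr (LG K₁ ι F v) y := by simp only [mul_assoc]
      _ = ι lam * (ι lam * v) * pr (LG K₁ ι F v) y := by rw [h1]
      _ = ι lam * ι lam * (v * pr (LG K₁ ι F v) y) := by simp only [mul_assoc]
      _ = ι lam * ι lam * (pr (LG K₁ ι F v) y * v) := by rw [h3]
      _ = ι lam * (ι lam * pr (LG K₁ ι F v) y) * v := by simp only [mul_assoc]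
      _ = ι lam * (pr (LG K₁ ι F v) y * ι lam) * v := by rw [h2]
      _ = (ι lam * pr (LG K₁ ι F v) y) * (ι lam * v) := by simp only [mul_assoc]
  rw [e1, Dc_add, Dc_bracket _ _ _ _ (fun i => hcomm _ (hcc i) g hg), hP, mul_zero, zero_mul,
    sub_self, add_zero, Dc_comm _ _ _ _ e2, mul_assoc]

/-- the quadratic part -/
theorem Qstr (h : Adm κ ι j m) (L F : Subalgebra K A) (hL : ∀ x ∈ L, ∀ y ∈ L, x * y = y * x)
    (hFL : F ≤ L) (lam : A) (hlam : lam ∈ L) (v : A₁) (hv : v ∈ bx ι j (Subalgebra.toSubmodule F))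
    (N : ℕ) (cc : ℕ → A₁) (hcc : ∀ i, cc i ∈ bx1A K₁ ι L) (hP : Pc N cc (ι lam * v) = 0)
    (hM : Subalgebra.toSubmodule (LG K₁ ι F v) = bx ι j (Subalgebra.toSubmodule F)
      ⊓ Subalgebra.toSubmodule (Subalgebra.centralizer K₁ {v}))
    (g b : A₁) (hg : g ∈ bx ι j (Subalgebra.toSubmodule F))
    (hb : b ∈ bx ι j (Subalgebra.toSubmodule F)) (hb0 : pr (LG K₁ ι F v) b = 0) :
    Qc N cc (ι lam * v) (ι lam * (g * v - v * g)) (ι lam * b)
      = - (Pc' N cc (ι lam * v) * ι lam * pr (LG K₁ ι F v) (g * b)) := by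
  have hcomm : ∀ x ∈ bx1A K₁ ι L, ∀ z ∈ bxA h F, x * z = z * x := fun x hx z hz =>
    bx1A_comm_bxA h hL x hx z (bxA_mono h hFL hz)
  have hl1 : ι lam ∈ bx1A K₁ ι L := ι_mem_bx1 hlam
  have e1 : ι lam * (g * v - v * g) = g * (ι lam * v) - (ι lam * v) * g := by
    rw [mul_sub, ← mul_assoc g, ← hcomm _ hl1 g hg, mul_assoc, mul_assoc (ι lam) v g]
  have e2 : g * (ι lam * b) = ι lam * (g * b) := by
    rw [← mul_assoc, ← hcomm _ hl1 g hg, mul_assoc]
  rw [e1, Qc_bracket _ _ _ _ _ (fun i => hcomm _ (hcc i) g hg), e2,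
    Dstr h L F hL hFL lam hlam v hv N cc hcc hP hM b hb, hb0, mul_zero, mul_zero, zero_sub,
    Dstr h L F hL hFL lam hlam v hv N cc hcc hP hM (g * b) ((bxA h F).mul_mem hg hb)]

/-- `μ ≠ 0` -/
theorem Pc'_ne_zero (M : Subalgebra K₁ A₁) (C : A₁) (N : ℕ) (hN : 0 < N)
    (hinj : Function.Injective (powMap M C N)) (cc : ℕ → A₁) (hcc : ∀ i, cc i ∈ M) (h1 : cc N = 1) :
    Pc' N cc C ≠ 0 := by
  intro h0
  have e1 : Pc' N cc C = powMap M C N (fun i => ((i : ℕ) + 1) • ⟨cc ((i : ℕ) + 1), hcc _⟩) := by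
    rw [powMap_apply, Pc', Finset.sum_range_succ', zero_smul, add_zero, Finset.sum_range]
    refine Finset.sum_congr rfl fun i _ => ?_
    rw [Nat.add_sub_cancel]
    simp [mul_assoc]
  rw [e1] at h0
  have h2 := (injective_iff_map_eq_zero _).1 hinj _ h0
  have h3 := congrArg (fun z : M => (z : A₁)) (congrFun h2 ⟨N - 1, by omega⟩)
  have h4 : N - 1 + 1 = N := by omega
  simp only [h4, h1, Pi.zero_apply] at h3
  have h5 : (N : A₁) = 0 := by simpa using h3
  have h6 : (algebraMap K₁ A₁) (N : K₁) = 0 := by rw [map_natCast]; exact h5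
  rw [map_eq_zero_iff _ (algebraMap K₁ A₁).injective] at h6
  exact (Nat.cast_ne_zero.2 (by omega)) h6

end D

end Vale.Agent.P199K
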