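import Vale.Agent.P199K.Trip

/-! # P199, module START: the trivial triple, constant terms, minimal choices -/

open scoped TensorProduct LaurentSeries
open PowerSeries

namespace Vale.Agent.P199K

theorem start_Psi_X {A : Type} [Ring A] (k : Fin 2) :
    (RingHom.id (NPS (Fin 2) A)) (NPS.X k) = NPS.C ((0 : Fin 2 → A) k) +
      ∑ γ, NPS.C (if γ = k then (1 : A) else 0) * NPS.X γ := by
  rw [Finset.sum_eq_single k]
  · simp
  · intro γ _ h
    simp [h]
  · intro h
    exact absurd (Finset.mem_univ k) h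

theorem start_L_bij {K A : Type} [Field K] [Ring A] [Algebra K A] [IsDomain A]
    [Algebra.IsCentral K A] (e : Fin 2 → A) (he : ∀ (k : Fin 2) (a : A), e k * a = a * e k) :
    ∃! δ : Fin 2 → K, ∀ k, ∑ γ, δ γ • (if γ = k then (1 : A) else 0) = e k := by
  have h1 : ∀ (δ : Fin 2 → K) (k : Fin 2), ∑ γ, δ γ • (if γ = k then (1 : A) else 0) =
      algebraMap K A (δ k) := by
    intro δ k
    rw [Finset.sum_eq_single k]
    · rw [if_pos rfl, Algebra.algebraMap_eq_smul_one]
    · intro γ _ h
      rw [if_neg h, smul_zero]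
    · intro h
      exact absurd (Finset.mem_univ k) h
  have h2 : ∀ k, ∃ c : K, algebraMap K A c = e k := by
    intro k
    have h3 : e k ∈ Subalgebra.center K A := by
      rw [Subalgebra.mem_center_iff]
      intro a
      exact (he k a).symm
    have h4 := Algebra.IsCentral.out (K := K) (D := A) h3
    exact Algebra.mem_bot.1 h4
  choose c hc using h2
  refine ⟨c, fun k => (h1 c k).trans (hc k), ?_⟩
  intro δ hδ
  funext k
  apply (algebraMap K A).injective
  rw [hc k, ← h1 δ k]
  exact hδ k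

theorem start_gen {K A : Type} [Field K] [Ring A] [Algebra K A] :
    ∃ g₁ g₂ : A, (∀ a, g₁ * (RingHom.id A) a = (RingHom.id A) a * g₁) ∧
      (∀ a, g₂ * (RingHom.id A) a = (RingHom.id A) a * g₂) ∧
      Algebra.adjoin K (Set.range (RingHom.id A) ∪ {g₁, g₂}) = ⊤ := by
  refine ⟨0, 0, by simp, by simp, ?_⟩
  rw [eq_top_iff]
  intro a _
  exact Algebra.subset_adjoin (Or.inl ⟨a, rfl⟩)

theorem start_CL {K A : Type} [Field K] [Ring A] [Algebra K A] (G : Set (NPS (Fin 2) A))
    (hG : ∀ (n : ℕ) (r : NPS (Fin 2) A), ∃ g ∈ G, NPS.Ord n (r - g)) (n : ℕ)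
    (φ : NPS (Fin 2) A →ₗ[K] K) (h1 : ∀ f, NPS.Ord n f → φ f = 0) (h2 : ∀ g ∈ G, φ g = 0)
    (r : NPS (Fin 2) A) : φ r = 0 := by
  obtain ⟨g, hg, hr⟩ := hG n r
  have h3 := h1 _ hr
  rw [map_sub, h2 g hg, sub_zero] at h3
  exact h3

/-- the constant term of `p(w)` -/
theorem start_aeval_nil {K A σ : Type} [Field K] [Ring A] [Algebra K A] (w : NPS σ A)
    (p : Polynomial K) : (Polynomial.aeval w p) [] = Polynomial.aeval (w []) p := by
  induction p using Polynomial.induction_on' with
  | add p q hp hq => rw [map_add, map_add, NPS.add_apply, hp, hq]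
  | monomial n a =>
    rw [Polynomial.aeval_monomial, Polynomial.aeval_monomial, NPS.mul_nil, NPS.algebraMap_apply,
      NPS.C_nil]
    congr 1
    induction n with
    | zero => rw [pow_zero, pow_zero]; rfl
    | succ n ih => rw [pow_succ, pow_succ, NPS.mul_nil, ih]

theorem start_ff_nil {K A σ : Type} [Field K] [Ring A] [Algebra K A] [Fintype σ] (w : NPS σ A) :
    ff K w [] = 0 := by
  unfold ff
  rw [start_aeval_nil, minpoly.aeval]

/-- substitution commutes with `p(·)` -/
theorem substHom_aeval {K A σ τ : Type} [Field K] [Ring A] [Algebra K A] [Fintype σ]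
    [DecidableEq σ] [Fintype τ] [DecidableEq τ] (b : σ → NPS τ K) (hb : ∀ γ, b γ [] = 0)
    (w : NPS σ A) (p : Polynomial K) :
    Polynomial.aeval (substHom (A := A) b hb w) p = substHom b hb (Polynomial.aeval w p) := by
  induction p using Polynomial.induction_on' with
  | add p q hp hq => rw [map_add, map_add, map_add, hp, hq]
  | monomial n a =>
    rw [Polynomial.aeval_monomial, Polynomial.aeval_monomial, map_mul, map_pow,
      NPS.algebraMap_apply, NPS.algebraMap_apply, (substHom_spec b hb).1]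

/-- minimal choice -/
theorem exists_min_nat {α : Type 1} (f : α → ℕ) (p : α → Prop) (h : ∃ a, p a) :
    ∃ a, p a ∧ ∀ b, p b → f a ≤ f b := by
  classical
  obtain ⟨a₀, h₀⟩ := h
  have hex : ∃ n, ∃ a, p a ∧ f a = n := ⟨f a₀, a₀, h₀, rfl⟩
  obtain ⟨a, ha, hf⟩ := Nat.find_spec hex
  refine ⟨a, ha, fun b hb => ?_⟩
  rw [hf]
  exact Nat.find_min' hex ⟨b, hb, rfl⟩

end Vale.Agent.P199K
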