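import Vale.Agent.P199K.ResStmt
import Vale.Agent.P199K.Adm
import Vale.Agent.P199K.SymC
import Vale.Agent.P199K.StartP

/-! # P199: expansions from symbol data, the residue `C` (helper44) -/

open scoped LaurentSeries
open PowerSeries

namespace Vale.Agent.P199K

/-! ## expansion data from symbol data -/
section SymExp
variable {K A σ : Type} [Field K] [Ring A] [Algebra K A] {m : ℕ}

/-- expansion data from symbol data and one Laurent step -/
@[reducible] noncomputable def ExpD.sym1 (D : SymD K A m) (p : σ → PowerSeries (LS D.E₁))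
    (hp : ∀ γ, PowerSeries.constantCoeff (p γ) = 0) : ExpD K A σ where
  m := m
  K₁ := LS D.K₁
  E₁ := LS D.E₁
  A₁ := LS D.A₁
  B := Fin (Module.finrank D.K₁ D.E₁)
  κ := (LS.C : D.K₁ →+* LS D.K₁).comp D.κ
  ι := (LS.C : D.A₁ →+* LS D.A₁).comp D.ι
  j := lsj D.j
  adm := Adm.ls D.κ D.ι D.j m D.sym.toAdm
  ε := haveI := D.sym.fdE; lsBasis (Module.finBasis D.K₁ D.E₁)
  p := p
  hp := hp

/-- expansion data from symbol data and two Laurent steps -/
@[reducible] noncomputable def ExpD.sym2 (D : SymD K A m) (p : σ → PowerSeries (LS (LS D.E₁)))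
    (hp : ∀ γ, PowerSeries.constantCoeff (p γ) = 0) : ExpD K A σ where
  m := m
  K₁ := LS (LS D.K₁)
  E₁ := LS (LS D.E₁)
  A₁ := LS (LS D.A₁)
  B := Fin (Module.finrank D.K₁ D.E₁)
  κ := (LS.C : LS D.K₁ →+* LS (LS D.K₁)).comp ((LS.C : D.K₁ →+* LS D.K₁).comp D.κ)
  ι := (LS.C : LS D.A₁ →+* LS (LS D.A₁)).comp ((LS.C : D.A₁ →+* LS D.A₁).comp D.ι)
  j := lsj (lsj D.j)
  adm := Adm.ls _ _ _ m (Adm.ls D.κ D.ι D.j m D.sym.toAdm)
  ε := haveI := D.sym.fdE; lsBasis (lsBasis (Module.finBasis D.K₁ D.E₁))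
  p := p
  hp := hp

end SymExp

/-! ## `L₁[G]` -/
section LGs
variable {K A K₁ A₁ : Type} [Field K] [Ring A] [Algebra K A] [Field K₁] [Ring A₁] [Algebra K₁ A₁]

theorem ι_mem_LG (ι : A →+* A₁) (L : Subalgebra K A) (G : A₁) {a : A} (ha : a ∈ L) :
    ι a ∈ LG K₁ ι L G :=
  Algebra.subset_adjoin (Or.inl ⟨a, ha, rfl⟩)

theorem G_mem_LG (ι : A →+* A₁) (L : Subalgebra K A) (G : A₁) : G ∈ LG K₁ ι L G :=
  Algebra.subset_adjoin (Or.inr rfl)

theorem LG_le (ι : A →+* A₁) (L : Subalgebra K A) (G : A₁) (U : Subalgebra K₁ A₁)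
    (h1 : ∀ a ∈ L, ι a ∈ U) (h2 : G ∈ U) : LG K₁ ι L G ≤ U := by
  refine Algebra.adjoin_le ?_
  rintro x (⟨a, ha, rfl⟩ | hx)
  · exact h1 a ha
  · rw [Set.mem_singleton_iff] at hx
    rw [hx]
    exact h2

/-- multiplying the generator by a unit of `L` does not change `L₁[G]` -/
theorem LG_unit_mul (ι : A →+* A₁) (L : Subalgebra K A) (G : A₁) {a b : A} (ha : a ∈ L) (hb : b ∈ L)
    (hba : b * a = 1) : LG K₁ ι L (ι a * G) = LG K₁ ι L G := by
  apply le_antisymm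
  · refine LG_le ι L _ _ (fun c hc => ι_mem_LG ι L G hc) ?_
    exact mul_mem (ι_mem_LG ι L G ha) (G_mem_LG ι L G)
  · refine LG_le ι L _ _ (fun c hc => ι_mem_LG ι L _ hc) ?_
    have h1 : G = ι b * (ι a * G) := by
      rw [← mul_assoc, ← map_mul, hba, map_one, one_mul]
    have h2 : ι b * (ι a * G) ∈ LG K₁ ι L (ι a * G) :=
      mul_mem (ι_mem_LG ι L _ hb) (G_mem_LG ι L _)
    rwa [← h1] at h2

theorem LG_mul [IsDomain A] [FiniteDimensional K A] (ι : A →+* A₁) (L : Subalgebra K A) (G : A₁) {a : A}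
    (ha : a ∈ L) (h0 : a ≠ 0) : LG K₁ ι L (ι a * G) = LG K₁ ι L G := by
  obtain ⟨b, hb, _, hba⟩ := exists_inv_mem L ha h0
  exact LG_unit_mul ι L G ha hb hba

end LGs

section One
variable {K A σ : Type} [Field K] [CharZero K] [Ring A] [IsDomain A] [Algebra K A] [FiniteDimensional K A]
  [Fintype σ] (w : NPS σ A) (l : A)

omit [CharZero K] [IsDomain A] [FiniteDimensional K A] [Fintype σ] in
theorem dpW_mem_Lf : dpW K w ∈ Lf K (w []) := by
  unfold dpW Lf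
  exact Polynomial.aeval_mem_adjoin_singleton K _

theorem lamf_mem_Lf (hl : l ∈ calL K w) : lamf K w l ∈ Lf K (w []) :=
  mul_mem (dpW_mem_Lf w) (calL_le w hl)

theorem lamf_ne_zero (h0 : l ≠ 0) : lamf K w l ≠ 0 :=
  mul_ne_zero (dpW_ne_zero w) h0

theorem LG_lamf {K₁ A₁ : Type} [Field K₁] [Ring A₁] [Algebra K₁ A₁] (ι : A →+* A₁) (hl : l ∈ calL K w)
    (h0 : l ≠ 0) (G : A₁) : LG K₁ ι (Lf K (w [])) (ι (lamf K w l) * G) = LG K₁ ι (Lf K (w [])) G :=
  LG_mul ι _ G (lamf_mem_Lf w l hl) (lamf_ne_zero w l h0)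

end One

namespace Trip
variable {S : Stg} (w₀ : NPS (Fin 2) S.A)

/-- if `p = t θ + O(t²)` and `f₁(θ) = λ_f G`, then `λ_f G ∈ bar L'` -/
theorem resC_mem (P : Trip S) (d : ExpD P.K P.A P.σ) (C : d.A₁)
    (h : lin1 d.ι d.j (ff P.K (P.Psi w₀)) (fun γ => PowerSeries.coeff 1 (d.p γ)) = C) :
    C ∈ res (Subalgebra.toSubmodule (Lf (LS d.K₁) ((wx w₀ P d) []))) := by
  obtain ⟨hi, h0, h1⟩ := P.eh_nil_coeff d (ff P.K (P.Psi w₀))
  rw [h] at h1
  rw [start_ff_nil, map_zero] at h0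
  rw [mem_res]
  refine ⟨(LS.tp (-1) : LS d.K₁) • P.eh d (ff P.K (P.Psi w₀)) [], ?_, ?_, ?_⟩
  · exact Submodule.smul_mem _ _ (P.eh_ff_mem w₀ d)
  · intro n hn
    rw [LS.coeff_tp_smul]
    by_cases h2 : n - -1 < 0
    · exact hi _ h2
    · have h3 : n - -1 = 0 := by omega
      rw [h3]; exact h0
  · rw [LS.coeff_tp_smul]
    have h3 : (0 : ℤ) - -1 = 1 := by norm_num
    rw [h3]; exact h1

end Trip

end Vale.Agent.P199K
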