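import Vale.Agent.P199K.P3DE
import Vale.Agent.P199K.P3DF
import Vale.Agent.P199K.LM
import Vale.Agent.P199K.StepC
import Vale.Agent.P199K.VfCe

/-! # P199, section 9 (P3D, part G): the good pair at `P₃` -/

open scoped TensorProduct LaurentSeries
open PowerSeries

namespace Vale.Agent.P199K

open Module

theorem c0_mem {K₁ A₁ : Type} [Field K₁] [Ring A₁] [Algebra K₁ A₁] (M : Subalgebra K₁ A₁)
    {n m : ℕ} (c : Fin n × Fin m → LS K₁) (W : A₁) (hW : W ∈ M) (i : ℕ) : c0 c W i ∈ M := by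
  unfold c0
  split_ifs with h1 h2
  · refine M.neg_mem (M.sum_mem fun i _ => M.smul_mem ?_ _)
    exact M.pow_mem hW _
  · exact M.one_mem
  · exact M.zero_mem

theorem c0_top {K₁ A₁ : Type} [Field K₁] [Ring A₁] [Algebra K₁ A₁]
    {n m : ℕ} (c : Fin n × Fin m → LS K₁) (W : A₁) : c0 c W m = 1 := by
  unfold c0
  rw [dif_neg (lt_irrefl _), if_pos rfl]

section res
variable {K A K₁ E₁ A₁ τ : Type} [Field K] [Ring A] [Algebra K A] [Field K₁] [CharZero K₁] [Ring E₁]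
  [Ring A₁] [IsDomain A₁] [Algebra K₁ E₁] [Algebra K₁ A₁] [FiniteDimensional K₁ A₁] [Fintype τ]
  {κ : K →+* K₁} {ι : A →+* A₁} {j : E₁ →ₐ[K₁] A₁} {m : ℕ}

theorem p3g_lin_res (h : Adm κ ι j m) (L F : Subalgebra K A) (hL : ∀ x ∈ L, ∀ y ∈ L, x * y = y * x)
    (hFL : F ≤ L) (lam : A) (hlam : lam ∈ L) (v : A₁) (hv : v ∈ bx ι j (Subalgebra.toSubmodule F))
    (N : ℕ) (cc : ℕ → A₁) (hcc : ∀ i, cc i ∈ bx1A K₁ ι L) (hP : Pc N cc (ι lam * v) = 0)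
    (hM : Subalgebra.toSubmodule (LG K₁ ι F v) = bx ι j (Subalgebra.toSubmodule F)
      ⊓ Subalgebra.toSubmodule (Subalgebra.centralizer K₁ {v}))
    (V : Submodule K A) (hVF : V ≤ Subalgebra.toSubmodule F) (G : NPS τ A₁) (hG0 : G [] = ι lam * v)
    (δ : τ → K₁) (u : A₁) (hu : u ∈ bx ι j V) (hδ : lin K₁ G δ = ι lam * u) :
    lin K₁ (serC N cc G) δ = Pc' N cc (ι lam * v) * ι lam * pr (LG K₁ ι F v) u := by
  rw [lin_serC, hG0, hδ, Dstr h L F hL hFL lam hlam v hv N cc hcc hP hM u (bx_mono hVF hu)]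

theorem p3g_range_res (h : Adm κ ι j m) (L F : Subalgebra K A) (hL : ∀ x ∈ L, ∀ y ∈ L, x * y = y * x)
    (hFL : F ≤ L) (lam : A) (hlam : lam ∈ L) (v : A₁) (hv : v ∈ bx ι j (Subalgebra.toSubmodule F))
    (N : ℕ) (cc : ℕ → A₁) (hcc : ∀ i, cc i ∈ bx1A K₁ ι L) (hP : Pc N cc (ι lam * v) = 0)
    (hM : Subalgebra.toSubmodule (LG K₁ ι F v) = bx ι j (Subalgebra.toSubmodule F)
      ⊓ Subalgebra.toSubmodule (Subalgebra.centralizer K₁ {v}))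
    (V : Submodule K A) (hVF : V ≤ Subalgebra.toSubmodule F) (G : NPS τ A₁) (hG0 : G [] = ι lam * v)
    (hl1 : ∀ δ : τ → K₁, ∃ u ∈ bx ι j V, lin K₁ G δ = ι lam * u)
    (hl2 : ∀ u ∈ bx ι j V, ∃ δ : τ → K₁, lin K₁ G δ = ι lam * u) :
    LinearMap.range (lin K₁ (serC N cc G))
      = ((bx ι j V).map (pr (LG K₁ ι F v))).map (LinearMap.mulLeft K₁ (Pc' N cc (ι lam * v) * ι lam)) := by
  apply le_antisymm
  · rintro _ ⟨δ, rfl⟩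
    obtain ⟨u, hu, hδ⟩ := hl1 δ
    rw [p3g_lin_res h L F hL hFL lam hlam v hv N cc hcc hP hM V hVF G hG0 δ u hu hδ]
    exact ⟨_, ⟨u, hu, rfl⟩, rfl⟩
  · rintro _ ⟨_, ⟨u, hu, rfl⟩, rfl⟩
    obtain ⟨δ, hδ⟩ := hl2 u hu
    exact ⟨δ, p3g_lin_res h L F hL hFL lam hlam v hv N cc hcc hP hM V hVF G hG0 δ u hu hδ⟩

theorem goodpair_abs (h : Adm κ ι j m) (L F : Subalgebra K A) (hL : ∀ x ∈ L, ∀ y ∈ L, x * y = y * x)
    (hFL : F ≤ L) (lam : A) (hlam : lam ∈ L) (v : A₁) (hv : v ∈ bx ι j (Subalgebra.toSubmodule F))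
    (N : ℕ) (cc : ℕ → A₁) (hcc : ∀ i, cc i ∈ bx1A K₁ ι L) (hP : Pc N cc (ι lam * v) = 0)
    (hM : Subalgebra.toSubmodule (LG K₁ ι F v) = bx ι j (Subalgebra.toSubmodule F)
      ⊓ Subalgebra.toSubmodule (Subalgebra.centralizer K₁ {v}))
    (V : Submodule K A) (hVF : V ≤ Subalgebra.toSubmodule F) (G : NPS τ A₁) (hG0 : G [] = ι lam * v)
    (hG2 : ∀ x y, G [x, y] = 0)
    (hl1 : ∀ δ : τ → K₁, ∃ u ∈ bx ι j V, lin K₁ G δ = ι lam * u)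
    (hl2 : ∀ u ∈ bx ι j V, ∃ δ : τ → K₁, lin K₁ G δ = ι lam * u)
    (hgood : LinGood K₁ ι j F V v) (Ce : Submodule K₁ A₁)
    (hCe : ∀ x ∈ Ce, ∃ y ∈ LG K₁ ι F v, x = Pc' N cc (ι lam * v) * ι lam * y) :
    ∃ e₁ e₂, GoodPair (serC N cc G) (LinearMap.range (lin K₁ (serC N cc G))) Ce e₁ e₂ := by
  have hMv : ∀ x ∈ LG K₁ ι F v, x * v = v * x := fun x hx => by
    have h1 : x ∈ Subalgebra.toSubmodule (LG K₁ ι F v) := hx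
    rw [hM] at h1
    exact ((mem_centralizer_singleton (K := K₁)).1 h1.2).symm
  have hlin := fun δ u hu hδ => p3g_lin_res h L F hL hFL lam hlam v hv N cc hcc hP hM V hVF G hG0 δ u hu hδ
  have hran := p3g_range_res h L F hL hFL lam hlam v hv N cc hcc hP hM V hVF G hG0 hl1 hl2
  obtain ⟨a₁, a₂, g₁, g₂, ha₁, ha₂, hg₁, hg₂, e₁, e₂, hiso, honto⟩ := hgood
  have hp₁ : pr (LG K₁ ι F v) a₁ = 0 := by rw [e₁]; exact pr_comm_zero _ v hMv g₁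
  have hp₂ : pr (LG K₁ ι F v) a₂ = 0 := by rw [e₂]; exact pr_comm_zero _ v hMv g₂
  obtain ⟨δ₁, hδ₁⟩ := hl2 a₁ ha₁
  obtain ⟨δ₂, hδ₂⟩ := hl2 a₂ ha₂
  have hquad : ∀ (g a b : A₁) (δ δ' : τ → K₁), g ∈ bx ι j (Subalgebra.toSubmodule F) →
      a = g * v - v * g → b ∈ bx ι j V → pr (LG K₁ ι F v) b = 0 → lin K₁ G δ = ι lam * a →
      lin K₁ G δ' = ι lam * b → quad (serC N cc G) δ δ'
        = - (Pc' N cc (ι lam * v) * ι lam * pr (LG K₁ ι F v) (g * b)) := by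
    intro g a b δ δ' hg ha hb hb0 hδ hδ'
    rw [quad_serC N cc G hG2, hG0, hδ, hδ', ha]
    exact Qstr h L F hL hFL lam hlam v hv N cc hcc hP hM g b hg (bx_mono hVF hb) hb0
  refine ⟨δ₁, δ₂, ?_, ?_, ?_, ?_⟩
  · rw [hlin δ₁ a₁ ha₁ hδ₁, hp₁, mul_zero]
  · rw [hlin δ₂ a₂ ha₂ hδ₂, hp₂, mul_zero]
  · rw [hquad g₁ a₁ a₂ δ₁ δ₂ hg₁ e₁ ha₂ hp₂ hδ₁ hδ₂, hran]
    exact Submodule.neg_mem _ ⟨_, hiso, rfl⟩
  · intro c₁ hc₁ c₂ hc₂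
    obtain ⟨y₁, hy₁, rfl⟩ := hCe c₁ hc₁
    obtain ⟨y₂, hy₂, rfl⟩ := hCe c₂ hc₂
    obtain ⟨b, hb, hb0, h1, h2⟩ := honto (-y₁) (Subalgebra.neg_mem _ hy₁) (-y₂) (Subalgebra.neg_mem _ hy₂)
    obtain ⟨δ, hδ⟩ := hl2 b hb
    refine ⟨δ, by rw [hlin δ b hb hδ, hb0, mul_zero], ?_, ?_⟩
    · rw [hquad g₁ a₁ b δ₁ δ hg₁ e₁ hb hb0 hδ₁ hδ, hran]
      have e3 : -(Pc' N cc (ι lam * v) * ι lam * pr (LG K₁ ι F v) (g₁ * b))
          - Pc' N cc (ι lam * v) * ι lam * y₁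
          = -(Pc' N cc (ι lam * v) * ι lam * (pr (LG K₁ ι F v) (g₁ * b) - -y₁)) := by
        rw [sub_neg_eq_add, mul_add]; abel
      rw [e3]
      exact Submodule.neg_mem _ ⟨_, h1, rfl⟩
    · rw [hquad g₂ a₂ b δ₂ δ hg₂ e₂ hb hb0 hδ₂ hδ, hran]
      have e3 : -(Pc' N cc (ι lam * v) * ι lam * pr (LG K₁ ι F v) (g₂ * b))
          - Pc' N cc (ι lam * v) * ι lam * y₂
          = -(Pc' N cc (ι lam * v) * ι lam * (pr (LG K₁ ι F v) (g₂ * b) - -y₂)) := by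
        rw [sub_neg_eq_add, mul_add]; abel
      rw [e3]
      exact Submodule.neg_mem _ ⟨_, h2, rfl⟩

omit [CharZero K₁] [IsDomain A₁] [FiniteDimensional K₁ A₁] in
theorem p3g_bx_scale (V : Submodule K A) (lam : A) (x : A₁)
    (hx : x ∈ bx ι j (V.map (LinearMap.mulLeft K lam))) : ∃ u ∈ bx ι j V, x = ι lam * u := by
  refine Submodule.span_induction (p := fun x _ => ∃ u ∈ bx ι j V, x = ι lam * u) ?_ ?_ ?_ ?_ hx
  · rintro x ⟨e, _, ⟨a, ha, rfl⟩, rfl⟩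
    refine ⟨ι a * j e, mul_mem_bx ha e, ?_⟩
    rw [LinearMap.mulLeft_apply, map_mul, mul_assoc]
  · exact ⟨0, Submodule.zero_mem _, by rw [mul_zero]⟩
  · rintro _ _ _ _ ⟨a, ha, rfl⟩ ⟨b, hb, rfl⟩
    exact ⟨a + b, Submodule.add_mem _ ha hb, by rw [mul_add]⟩
  · rintro c _ _ ⟨a, ha, rfl⟩
    exact ⟨c • a, Submodule.smul_mem _ c ha, by rw [mul_smul_comm]⟩

omit [CharZero K₁] [IsDomain A₁] [FiniteDimensional K₁ A₁] in
theorem p3g_lin_red (g : NPS τ (LS A₁)) (gb : NPS τ A₁) (hg : Red g gb) (δ : τ → K₁) :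
    LS.Intg (lin (LS K₁) g (fun x => LS.C (δ x))) ∧
      LS.coeff (lin (LS K₁) g (fun x => LS.C (δ x))) 0 = lin K₁ gb δ := by
  have e1 : ∀ x, LS.Intg ((LS.C (δ x) : LS K₁) • g [x]) ∧
      LS.coeff ((LS.C (δ x) : LS K₁) • g [x]) 0 = δ x • gb [x] := by
    intro x
    refine ⟨(rsLS K₁ A₁).smul_mem _ (LS.Intg.C _) (g [x]) (hg [x]).1, ?_⟩
    rw [LS.coeff_C_smul, (hg [x]).2]
  refine ⟨LS.Intg.sum (fun x _ => (e1 x).1), ?_⟩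
  show LS.coeff (∑ x, (LS.C (δ x) : LS K₁) • g [x]) 0 = ∑ x, δ x • gb [x]
  rw [LS.coeff_sum]
  exact Finset.sum_congr rfl fun x _ => (e1 x).2

theorem p3g_finrank_mulLeft (μ : A₁) (hμ : μ ≠ 0) (U : Submodule K₁ A₁) :
    finrank K₁ (U.map (LinearMap.mulLeft K₁ μ)) = finrank K₁ U := by
  refine p3_finrank_map_inj U (LinearMap.mulLeft K₁ μ) fun a b hab => ?_
  rw [LinearMap.mulLeft_apply, LinearMap.mulLeft_apply] at hab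
  exact mul_left_cancel₀ hμ hab

theorem p3g_res_CeU (w' : NPS τ (LS A₁)) (hR1 : R1U (LS K₁) w') (l' : LS A₁)
    (hl' : l' ∈ calL (LS K₁) w') (h0' : l' ≠ 0) (FF : Subalgebra K₁ A₁)
    (hFF : res (Subalgebra.toSubmodule (Ff (LS K₁) w')) = Subalgebra.toSubmodule FF)
    (μ : A₁) (hμ0 : μ ≠ 0) (hμ : μ ∈ res (VfU (LS K₁) w')) :
    res (CeU (LS K₁) w') = (Subalgebra.toSubmodule FF).map (LinearMap.mulLeft K₁ μ) := by
  have : FiniteDimensional (LS K₁) (LS A₁) := fd_ls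
  obtain ⟨X, hX, hXi, hX0⟩ := (mem_res _ _).1 hμ
  have hXC : X ∈ CeU (LS K₁) w' := vfce_VfU_le_CeU_of_R1 w' hR1 hX
  have hCe := CeU_eq (K := LS K₁) w' l' hl' h0'
  have hle : (Subalgebra.toSubmodule FF).map (LinearMap.mulLeft K₁ μ) ≤ res (CeU (LS K₁) w') := by
    rintro _ ⟨y, hy, rfl⟩
    have hy1 : y ∈ res (Subalgebra.toSubmodule (Ff (LS K₁) w')) := by rw [hFF]; exact hy
    obtain ⟨y', hy', hyi, hy0⟩ := (mem_res _ _).1 hy1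
    rw [mem_res]
    refine ⟨X * y', ?_, LS.Intg.mul hXi hyi, ?_⟩
    · rw [hCe] at hXC ⊢
      obtain ⟨f1, hf1, hf2⟩ := hXC
      refine ⟨f1 * y', (Ff (LS K₁) w').mul_mem hf1 hy', ?_⟩
      rw [← hf2, LinearMap.mulLeft_apply, LinearMap.mulLeft_apply, mul_assoc]
    · rw [LS.coeff_mul_zero hXi hyi, hX0, hy0, LinearMap.mulLeft_apply]
  refine (Submodule.eq_of_le_of_finrank_eq hle ?_).symm
  rw [p3g_finrank_mulLeft μ hμ0, ← hFF, finrank_res, finrank_res, hCe]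
  refine (p3_finrank_map_inj _ (LinearMap.mulLeft (LS K₁) (lamf (LS K₁) w' l')) fun a b hab => ?_).symm
  rw [LinearMap.mulLeft_apply, LinearMap.mulLeft_apply] at hab
  exact mul_left_cancel₀ (lamf_ne_zero w' l' h0') hab

end res

namespace Trip
variable {S : Stg} (w₀ : NPS (Fin 2) S.A)

/-- the residue of `t^{-m} p_{W'}(w')` -/
theorem p3_series (P : Trip S) (d : ExpD P.K P.A P.σ) [FiniteDimensional d.K₁ d.A₁] (C : d.A₁)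
    (hC : lin1 d.ι d.j (ff P.K (P.Psi w₀)) (fun γ => PowerSeries.coeff 1 (d.p γ)) = C)
    (hC2 : C * d.ι (P.Psi w₀ []) = d.ι (P.Psi w₀ []) * C)
    (hn' : finrank (LS d.K₁) (Lf (LS d.K₁) (wx w₀ P d [])) = finrank P.K (Lf P.K (P.Psi w₀ [])) * d.m)
    (hfr : finrank d.K₁ (LG d.K₁ d.ι (Lf P.K (P.Psi w₀ [])) C) = finrank P.K (Lf P.K (P.Psi w₀ [])) * d.m)
    (hres : res (Subalgebra.toSubmodule (Lf (LS d.K₁) (wx w₀ P d [])))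
      ≤ Subalgebra.toSubmodule (LG d.K₁ d.ι (Lf P.K (P.Psi w₀ [])) C)) :
    ∃ cc : ℕ → d.A₁, (∀ i, cc i ∈ bx1A d.K₁ d.ι (Lf P.K (P.Psi w₀ []))) ∧ cc d.m = 1 ∧
      Red ((LS.tp (-(d.m : ℤ)) : LS d.K₁) • ff (LS d.K₁) (wx w₀ P d)) (serC d.m cc (Gb w₀ P d)) := by
  obtain ⟨hi, h00, h1⟩ := P.eh_nil_coeff d (ff P.K (P.Psi w₀))
  have hF := red_Fs w₀ P d []
  have hF0 : LS.coeff (Fs w₀ P d []) 0 = C := by rw [hF.2]; exact hC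
  have hFL : Fs w₀ P d [] ∈ Lf (LS d.K₁) (wx w₀ P d []) := Subalgebra.smul_mem _ (P.eh_ff_mem w₀ d) _
  have hw := red_wx w₀ P d []
  obtain ⟨c, hc, hrel⟩ := exists_rel d.adm (P.Psi w₀ []) (wx w₀ P d []) (Fs w₀ P d []) hw.1 hw.2 hFL hF.1
    (by rw [hF0]; exact hC2) (finrank P.K (Lf P.K (P.Psi w₀ []))) d.m rfl (by rw [hF0]; exact hfr)
    (by rw [hF0]; exact hres)
  have hff := ff_wx w₀ P d _ d.m rfl hn' c hrel
  refine ⟨c0 c (d.ι (P.Psi w₀ [])), c0_mem _ c _ (ι_mem_bx1 (Algebra.subset_adjoin rfl)),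
    c0_top c _, ?_⟩
  · rw [hff, smul_smul]
    have h2 : (LS.tp (-(d.m : ℤ)) : LS d.K₁) * LS.tp (d.m : ℤ) = 1 := by
      have := LS.tp_mul_tp_neg (A := d.K₁) (-(d.m : ℤ))
      rwa [neg_neg] at this
    rw [h2, one_smul]
    exact red_main c hc (d.ι (P.Psi w₀ [])) (wx w₀ P d) (Fs w₀ P d) (Gb w₀ P d) (red_wx w₀ P d)
      (red_Fs w₀ P d)

/-- linear part of `Gb` -/
theorem lin_Gb (P : Trip S) (d : ExpD P.K P.A P.σ) (δ : P.σ × d.B → d.K₁) :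
    lin d.K₁ (Gb w₀ P d) δ
      = lin1 d.ι d.j (ff P.K (P.Psi w₀)) (fun γ => ∑ β, δ (γ, β) • d.ε β) := by
  show ∑ x : P.σ × d.B, δ x • Gb w₀ P d [x]
    = ∑ γ, d.ι (ff P.K (P.Psi w₀) [γ]) * d.j (∑ β, δ (γ, β) • d.ε β)
  rw [Fintype.sum_prod_type]
  refine Finset.sum_congr rfl fun γ _ => ?_
  rw [map_sum, Finset.mul_sum]
  refine Finset.sum_congr rfl fun β _ => ?_
  rw [map_smul, mul_smul_comm]
  rfl

theorem lin_Gb_range (P : Trip S) (d : ExpD P.K P.A P.σ) (θ : P.σ → d.E₁) :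
    ∃ δ : P.σ × d.B → d.K₁, lin d.K₁ (Gb w₀ P d) δ = lin1 d.ι d.j (ff P.K (P.Psi w₀)) θ := by
  refine ⟨fun x => d.ε.repr (θ x.1) x.2, ?_⟩
  rw [lin_Gb]
  congr 1
  funext γ
  exact d.ε.sum_repr (θ γ)

theorem lin_Gb_mem (P : Trip S) (d : ExpD P.K P.A P.σ) (hR1 : R1U P.K (P.Psi w₀)) (l : P.A)
    (hl : l ∈ calL P.K (P.Psi w₀)) (h0 : l ≠ 0) (δ : P.σ × d.B → d.K₁) :
    ∃ u ∈ bx d.ι d.j (Vl P.K (P.Psi w₀) l), lin d.K₁ (Gb w₀ P d) δ = d.ι (lamf P.K (P.Psi w₀) l) * u := by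
  rw [lin_Gb]
  have h1 : lin1 d.ι d.j (ff P.K (P.Psi w₀)) (fun γ => ∑ β, δ (γ, β) • d.ε β)
      ∈ LinearMap.range (lin1 d.ι d.j (ff P.K (P.Psi w₀))) := ⟨_, rfl⟩
  rw [P.range_lin1 d] at h1
  have h2 : LinearMap.range (lin P.K (ff P.K (P.Psi w₀)))
      = (Vl P.K (P.Psi w₀) l).map (LinearMap.mulLeft P.K (lamf P.K (P.Psi w₀) l)) :=
    VfU_eq (P.Psi w₀) l hR1 hl h0
  rw [h2] at h1
  exact p3g_bx_scale _ _ _ h1

theorem p3_goodpair_proved (P : Trip S) (d : ExpD P.K P.A P.σ) [CharZero d.K₁]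
    [FiniteDimensional d.K₁ d.A₁] (hR1 : R1U P.K (P.Psi w₀)) (hR1' : R1U (LS d.K₁) (wx w₀ P d))
    (hPC : PropC (ff (LS d.K₁) (wx w₀ P d)) (VfU (LS d.K₁) (wx w₀ P d)) (CeU (LS d.K₁) (wx w₀ P d)))
    (hK : P.CK w₀) (l : P.A) (hl : l ∈ calL P.K (P.Psi w₀)) (h0 : l ≠ 0) (G : d.A₁)
    (hG : G ∈ bx d.ι d.j (Subalgebra.toSubmodule (Ff P.K (P.Psi w₀))))
    (hθ : lin1 d.ι d.j (ff P.K (P.Psi w₀)) (fun γ => PowerSeries.coeff 1 (d.p γ))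
      = d.ι (lamf P.K (P.Psi w₀) l) * G)
    (hC3 : Module.finrank d.K₁ (LG d.K₁ d.ι (Lf P.K ((P.Psi w₀) []))
      (d.ι (lamf P.K (P.Psi w₀) l) * G)) = P.nn w₀ * d.m)
    (hT : Tlin d.ι d.j (Zl P.K (P.Psi w₀) l) G = bx1 d.K₁ d.ι (Zl P.K (P.Psi w₀) l))
    (hgood : LinGood d.K₁ d.ι d.j (Ff P.K (P.Psi w₀)) (Vl P.K (P.Psi w₀) l) G) :
    ∃ e₁ e₂, GoodPair (ff (LS d.K₁) (wx w₀ P d)) (VfU (LS d.K₁) (wx w₀ P d))
      (CeU (LS d.K₁) (wx w₀ P d)) e₁ e₂ := by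
  have hFD : FiniteDimensional (LS d.K₁) (LS d.A₁) := fd_ls
  have hLc : ∀ x ∈ Lf P.K (P.Psi w₀ []), ∀ y ∈ Lf P.K (P.Psi w₀ []), x * y = y * x :=
    fun x hx y hy => Lf_comm (P.Psi w₀ []) hx hy
  have hFL := Ff_le_Lf (K := P.K) (P.Psi w₀)
  have hlam := lamf_mem_Lf (K := P.K) (P.Psi w₀) l hl
  have hVF := Vl_le_Ff (K := P.K) (P.Psi w₀) l hl h0
  have hC1 := resC_mem w₀ P d _ hθ
  have hC2 : d.ι (lamf P.K (P.Psi w₀) l) * G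
      ∈ bx d.ι d.j (Subalgebra.toSubmodule (Lf P.K ((P.Psi w₀) []))) :=
    (bxA d.adm (Lf P.K ((P.Psi w₀) []))).mul_mem (bx1A_le_bxA d.adm _ (ι_mem_bx1 hlam))
      (bxA_mono d.adm hFL hG)
  have R := RES_ad w₀ P d hK.1 l hl h0 _ hC1 hC2 hC3
  obtain ⟨re1, re2, re3, _⟩ := RES_e w₀ P d hK.1 l hl h0 G hG _ rfl hC1 hC3
  obtain ⟨rf1, _, _, _⟩ := RES_f w₀ P d hK l hl h0 G hG _ rfl hC1 hC3 hT
  obtain ⟨l', hl', hl'i, hl'0⟩ := R.exl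
  have hl1ne : ∀ a : P.A, a ≠ 0 → d.ι a ≠ 0 := by
    intro a ha hia
    obtain ⟨b, hb, _⟩ := exists_inv P.K ha
    have h1 : d.ι a * d.ι b = 1 := by rw [← map_mul, hb, map_one]
    rw [hia, zero_mul] at h1
    exact zero_ne_one h1
  have hl'ne : l' ≠ 0 := by
    rintro rfl
    rw [LS.coeff_zero] at hl'0
    exact hl1ne l h0 hl'0.symm
  have hWm : d.ι (P.Psi w₀ []) ∈ bx1A d.K₁ d.ι (Lf P.K (P.Psi w₀ [])) :=
    ι_mem_bx1 (Algebra.subset_adjoin rfl)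
  have hC2' := bx1A_comm_bxA d.adm hLc _ hWm _ hC2
  obtain ⟨cc, hcc, hccm, hRed⟩ := p3_series w₀ P d _ hθ hC2'.symm R.nn' hC3 R.resL.le
  have hGb0 : Gb w₀ P d [] = d.ι (lamf P.K (P.Psi w₀) l) * G := hθ
  have hP : Pc d.m cc (d.ι (lamf P.K (P.Psi w₀) l) * G) = 0 := by
    have h1 := (hRed []).2
    rw [NPS.smul_apply, ff_nil, smul_zero, LS.coeff_zero, serC_nil, hGb0] at h1
    exact h1.symm
  have hinj := (span_WC d.adm (P.Psi w₀ []) _ hC2'.symm _ d.m rfl hC3).1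
  have hμ1 := Pc'_ne_zero _ _ d.m d.adm.pos hinj cc hcc hccm
  have hμ0 : Pc' d.m cc (d.ι (lamf P.K (P.Psi w₀) l) * G) * d.ι (lamf P.K (P.Psi w₀) l) ≠ 0 :=
    mul_ne_zero hμ1 (hl1ne _ (lamf_ne_zero _ l h0))
  have hM : Subalgebra.toSubmodule (LG d.K₁ d.ι (Ff P.K (P.Psi w₀)) G)
      = bx d.ι d.j (Subalgebra.toSubmodule (Ff P.K (P.Psi w₀)))
        ⊓ Subalgebra.toSubmodule (Subalgebra.centralizer d.K₁ {G}) := by rw [← re1]; exact re2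
  have hgl1 := lin_Gb_mem w₀ P d hR1 l hl h0
  have hgl2 : ∀ u ∈ bx d.ι d.j (Vl P.K (P.Psi w₀) l), ∃ δ : P.σ × d.B → d.K₁,
      lin d.K₁ (Gb w₀ P d) δ = d.ι (lamf P.K (P.Psi w₀) l) * u := by
    intro u hu
    obtain ⟨θ, hθ'⟩ := P.exists_theta w₀ d hR1 l hl h0 u hu
    obtain ⟨δ, hδ⟩ := lin_Gb_range w₀ P d θ
    exact ⟨δ, hδ.trans hθ'⟩
  have hran := p3g_range_res d.adm _ _ hLc hFL _ hlam G hG d.m cc hcc hP hM _ hVF (Gb w₀ P d) hGb0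
    hgl1 hgl2
  -- `μ` is a residue of `VfU`
  have hμ : Pc' d.m cc (d.ι (lamf P.K (P.Psi w₀) l) * G) * d.ι (lamf P.K (P.Psi w₀) l)
      ∈ res (VfU (LS d.K₁) (wx w₀ P d)) := by
    obtain ⟨δ, hδ⟩ := hgl2 (1 : d.A₁) (by
      have h1 := mul_mem_bx (ι := d.ι) (j := d.j) (one_mem_Vl (P.Psi w₀) l hl) (1 : d.E₁)
      rwa [map_one, map_one, mul_one] at h1)
    have h2 := p3g_lin_res d.adm _ _ hLc hFL _ hlam G hG d.m cc hcc hP hM _ hVF (Gb w₀ P d) hGb0 δ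
      (1 : d.A₁) (by
      have h1 := mul_mem_bx (ι := d.ι) (j := d.j) (one_mem_Vl (P.Psi w₀) l hl) (1 : d.E₁)
      rwa [map_one, map_one, mul_one] at h1) hδ
    rw [pr_of_mem _ (Subalgebra.one_mem _), mul_one] at h2
    have h3 := p3g_lin_red _ _ hRed δ
    rw [h2] at h3
    rw [mem_res]
    refine ⟨_, ?_, h3.1, h3.2⟩
    have h4 : lin (LS d.K₁) ((LS.tp (-(d.m : ℤ)) : LS d.K₁) • ff (LS d.K₁) (wx w₀ P d))
        (fun x => LS.C (δ x)) = (LS.tp (-(d.m : ℤ)) : LS d.K₁) •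
          lin (LS d.K₁) (ff (LS d.K₁) (wx w₀ P d)) (fun x => LS.C (δ x)) := by
      show ∑ x, (LS.C (δ x) : LS d.K₁) • ((LS.tp (-(d.m : ℤ)) : LS d.K₁) • ff (LS d.K₁) (wx w₀ P d)) [x]
        = (LS.tp (-(d.m : ℤ)) : LS d.K₁) • ∑ x, (LS.C (δ x) : LS d.K₁) • ff (LS d.K₁) (wx w₀ P d) [x]
      rw [Finset.smul_sum]
      refine Finset.sum_congr rfl fun x _ => ?_
      rw [NPS.smul_apply, smul_comm]
    rw [h4]
    exact Submodule.smul_mem _ _ ⟨_, rfl⟩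
  have hCe := p3g_res_CeU (wx w₀ P d) hR1' l' hl' hl'ne _ R.resF _ hμ0 hμ
  -- the rank
  have hrk : finrank d.K₁ (LinearMap.range (lin d.K₁ (serC d.m cc (Gb w₀ P d))))
      = finrank (LS d.K₁) (LinearMap.range (lin (LS d.K₁) (ff (LS d.K₁) (wx w₀ P d)))) := by
    have h1 : finrank (LS d.K₁) (LinearMap.range (lin (LS d.K₁) (ff (LS d.K₁) (wx w₀ P d))))
        = dLU (LS d.K₁) (wx w₀ P d) := vfce_finrank_VfU_of_R1 (wx w₀ P d) hR1'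
    have h2 : VVr d.ι d.j (Lf P.K ((P.Psi w₀) [])) (Vl P.K (P.Psi w₀) l)
        (d.ι (lamf P.K (P.Psi w₀) l) * G)
        = (bx d.ι d.j (Vl P.K (P.Psi w₀) l)).map (pr (LG d.K₁ d.ι (Ff P.K (P.Psi w₀)) G)) := by
      have h3 : ∀ x ∈ bx d.ι d.j (Vl P.K (P.Psi w₀) l),
          proj (Subalgebra.toSubmodule (LG d.K₁ d.ι (Lf P.K ((P.Psi w₀) []))
            (d.ι (lamf P.K (P.Psi w₀) l) * G))) x = pr (LG d.K₁ d.ι (Ff P.K (P.Psi w₀)) G) x := by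
        intro x hx
        rw [re3 x (bx_mono hVF hx), proj_eq_pr]
      apply le_antisymm
      · rintro _ ⟨x, hx, rfl⟩
        exact ⟨x, hx, (h3 x hx).symm⟩
      · rintro _ ⟨x, hx, rfl⟩
        exact ⟨x, hx, h3 x hx⟩
    rw [h1, hran, p3g_finrank_mulLeft _ hμ0, ← h2, ← rf1 l' hl' hl'i hl'0, finrank_res,
      finrank_Vl (K := LS d.K₁) (wx w₀ P d) l' hl' hl'ne]
  obtain ⟨δ₁, δ₂, hg⟩ := goodpair_abs d.adm _ _ hLc hFL _ hlam G hG d.m cc hcc hP hM _ hVF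
    (Gb w₀ P d) hGb0 (fun _ _ => rfl) hgl1 hgl2 hgood (res (CeU (LS d.K₁) (wx w₀ P d))) (by
      intro x hx
      rw [hCe] at hx
      obtain ⟨y, hy, rfl⟩ := hx
      rw [re1] at hy
      exact ⟨y, hy, rfl⟩)
  have hVC := vfce_VfU_le_CeU_of_R1 (wx w₀ P d) hR1'
  have hsm : ∀ u, (LS.tp (-(d.m : ℤ)) : LS d.A₁) * ff (LS d.K₁) (wx w₀ P d) u
      = ((LS.tp (-(d.m : ℤ)) : LS d.K₁) • ff (LS d.K₁) (wx w₀ P d)) u := fun u => by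
    rw [NPS.smul_apply, LS.smul_def, LS.map_tp]
  exact goodlift_res (ff (LS d.K₁) (wx w₀ P d)) (serC d.m cc (Gb w₀ P d)) d.m
    (fun u => by rw [hsm]; exact (hRed u).1) (fun u => by rw [hsm]; exact (hRed u).2)
    (CeU (LS d.K₁) (wx w₀ P d)) hVC
    (fun η η' h1 h2 => (propC_two _ (ff_nil _) _ _ hVC hPC η η' h1 h2).1) hrk δ₁ δ₂ hg

end Trip

end Vale.Agent.P199K
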