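import Vale.Agent.P199K.LSFin
import Vale.Agent.P199K.LSApi
import Vale.Agent.P199K.Trip
import Vale.Agent.P199K.Dens

/-! # P199, section 9: generation of the base point (helper51) -/

open PowerSeries

namespace Vale.Agent.P199K

section GenPoly

variable {K₁ A₁ : Type} [Field K₁] [Ring A₁] [Algebra K₁ A₁]

/-- evaluation of a polynomial at `t` -/
noncomputable def gp_incl (A₁ : Type) [Ring A₁] : Polynomial A₁ →+* LS A₁ :=
  Polynomial.eval₂RingHom' (LS.C : A₁ →+* LS A₁) (LS.tp 1)
    (fun a => show Commute (LS.C a) (LS.tp 1) from (LS.tp_comm 1 (LS.C a)).symm)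

/-- evaluation of a polynomial at `1` -/
noncomputable def gp_ev (A₁ : Type) [Ring A₁] : Polynomial A₁ →+* A₁ :=
  Polynomial.eval₂RingHom' (RingHom.id A₁) 1 (fun a => Commute.one_right a)

theorem gp_tp_pow (n : ℕ) : (LS.tp 1 : LS A₁) ^ n = LS.tp n := by
  induction n with
  | zero => rw [pow_zero]; exact LS.tp_zero.symm
  | succ n ih => rw [pow_succ, ih, ← LS.tp_add]; push_cast; rfl

theorem gp_incl_coeff (r : Polynomial A₁) (n : ℤ) :
    LS.coeff (gp_incl A₁ r) n = if 0 ≤ n then r.coeff n.toNat else 0 := by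
  unfold gp_incl
  rw [Polynomial.eval₂RingHom'_apply, Polynomial.eval₂_eq_sum, Polynomial.sum, LS.coeff_sum]
  have h1 : ∀ i : ℕ, LS.coeff (LS.C (r.coeff i) * (LS.tp 1 : LS A₁) ^ i) n
      = if n = i then r.coeff i else 0 := fun i => by
    rw [gp_tp_pow, LS.coeff_C_mul, LS.coeff_tp]
    split_ifs <;> simp
  simp only [h1]
  split_ifs with hn
  · obtain ⟨k, rfl⟩ : ∃ k : ℕ, n = k := ⟨n.toNat, by omega⟩
    rw [Int.toNat_natCast]
    by_cases hk : r.coeff k = 0
    · rw [hk]
      refine Finset.sum_eq_zero fun i hi => ?_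
      rw [if_neg]
      intro h
      have : k = i := by exact_mod_cast h
      subst this
      exact (Polynomial.mem_support_iff.1 hi) hk
    · rw [Finset.sum_eq_single k]
      · rw [if_pos rfl]
      · intro i _ hi
        rw [if_neg]
        intro h
        exact hi (by exact_mod_cast h.symm)
      · intro h
        exact absurd (Polynomial.mem_support_iff.2 hk) h
  · refine Finset.sum_eq_zero fun i _ => ?_
    rw [if_neg]
    omega

theorem gp_ev_apply (r : Polynomial A₁) : gp_ev A₁ r = ∑ n ∈ r.support, r.coeff n := by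
  unfold gp_ev
  rw [Polynomial.eval₂RingHom'_apply, Polynomial.eval₂_eq_sum, Polynomial.sum]
  simp

/-- coordinate polynomial -/
noncomputable def gp_crd (φ : A₁ →ₗ[K₁] K₁) (r : Polynomial A₁) : Polynomial K₁ :=
  ∑ n ∈ r.support, Polynomial.monomial n (φ (r.coeff n))

theorem gp_crd_coeff (φ : A₁ →ₗ[K₁] K₁) (r : Polynomial A₁) (n : ℕ) :
    (gp_crd φ r).coeff n = φ (r.coeff n) := by
  unfold gp_crd
  rw [Polynomial.finsetSum_coeff]
  simp only [Polynomial.coeff_monomial]
  by_cases hn : r.coeff n = 0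
  · rw [hn, map_zero]
    refine Finset.sum_eq_zero fun i hi => ?_
    rw [if_neg]
    rintro rfl
    exact (Polynomial.mem_support_iff.1 hi) hn
  · rw [Finset.sum_eq_single n]
    · rw [if_pos rfl]
    · intro i _ hi
      rw [if_neg hi]
    · intro h
      exact absurd (Polynomial.mem_support_iff.2 hn) h

theorem gp_crd_eval (φ : A₁ →ₗ[K₁] K₁) (r : Polynomial A₁) :
    (gp_crd φ r).eval 1 = φ (gp_ev A₁ r) := by
  rw [gp_ev_apply, map_sum]
  unfold gp_crd
  rw [Polynomial.eval_finsetSum]
  simp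

theorem gp_incl_injective : Function.Injective (gp_incl K₁) := by
  intro r s h
  ext n
  have := congrArg (fun z => LS.coeff z (n : ℤ)) h
  simpa [gp_incl_coeff] using this

variable [FiniteDimensional K₁ A₁]

/-- GENPOLY -/
theorem gen_poly (s : Set A₁) (a b c : Fin 2 → A₁)
    (h : Algebra.adjoin K₁ (s ∪ {a 0 + b 0 + c 0, a 1 + b 1 + c 1}) = ⊤) (P : Fin 2 → LS A₁)
    (hP : ∀ k, P k = LS.C (a k) + LS.mono 1 (b k) + LS.mono 2 (c k)) :
    Algebra.adjoin (LS K₁) (LS.C '' s ∪ {P 0, P 1}) = ⊤ := by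
  classical
  obtain ⟨p, hp⟩ : ∃ p : Fin 2 → Polynomial A₁, p = fun k => Polynomial.C (a k)
      + Polynomial.C (b k) * Polynomial.X + Polynomial.C (c k) * Polynomial.X ^ 2 := ⟨_, rfl⟩
  have hpev : ∀ k, gp_ev A₁ (p k) = a k + b k + c k := by
    intro k
    rw [hp]
    simp [gp_ev, Polynomial.eval₂RingHom'_apply]
  have hpin : ∀ k, gp_incl A₁ (p k) = P k := by
    intro k
    rw [hp, hP]
    simp only [map_add, map_mul, map_pow]
    have h1 : ∀ x : A₁, gp_incl A₁ (Polynomial.C x) = LS.C x := fun x => by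
      simp [gp_incl, Polynomial.eval₂RingHom'_apply]
    have h2 : gp_incl A₁ Polynomial.X = LS.tp 1 := by
      simp [gp_incl, Polynomial.eval₂RingHom'_apply]
    rw [h1, h1, h1, h2, gp_tp_pow]
    congr 1
    · congr 1
      ext n
      rw [LS.coeff_C_mul, LS.coeff_tp, LS.coeff_mono]
      split_ifs <;> simp
    · ext n
      rw [LS.coeff_C_mul, LS.coeff_tp, LS.coeff_mono]
      push_cast
      split_ifs <;> simp
  obtain ⟨M, hM⟩ : ∃ M : Submonoid (Polynomial A₁), M =
      Submonoid.closure (Polynomial.C '' s ∪ {p 0, p 1}) := ⟨_, rfl⟩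
  -- the images at `1` span
  have hspan : Submodule.span K₁ ((gp_ev A₁) '' (M : Set (Polynomial A₁))) = ⊤ := by
    have h1 : (gp_ev A₁) '' (M : Set (Polynomial A₁)) =
        (Submonoid.closure (s ∪ {a 0 + b 0 + c 0, a 1 + b 1 + c 1}) : Set A₁) := by
      have h2 := MonoidHom.map_mclosure (gp_ev A₁ : Polynomial A₁ →* A₁)
        (Polynomial.C '' s ∪ {p 0, p 1})
      have h3 : (gp_ev A₁ : Polynomial A₁ →* A₁) '' (Polynomial.C '' s ∪ {p 0, p 1}) =
          s ∪ {a 0 + b 0 + c 0, a 1 + b 1 + c 1} := by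
        rw [Set.image_union, Set.image_pair, ← hpev 0, ← hpev 1, Set.image_image]
        congr 1
        have : (fun x => (gp_ev A₁ : Polynomial A₁ →* A₁) (Polynomial.C x)) = fun x => x := by
          funext x
          simp [gp_ev]
        rw [this, Set.image_id']
      rw [h3, ← hM] at h2
      rw [← h2]
      rfl
    rw [h1, ← Algebra.adjoin_eq_span, h]
    rfl
  obtain ⟨β, hβ1, hβ2, hβ3⟩ := exists_linearIndependent K₁ ((gp_ev A₁) '' (M : Set (Polynomial A₁)))
  rw [hspan] at hβ2
  have : β.Finite := hβ3.setFinite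
  have : Fintype β := this.fintype
  have hch : ∀ x : β, ∃ r ∈ M, gp_ev A₁ r = (x : A₁) := fun x => hβ1 x.2
  choose r hrM hrev using hch
  let B : Module.Basis β K₁ A₁ := Module.Basis.mk hβ3 (by rw [Subtype.range_coe, hβ2])
  have hB : ∀ x : β, B x = (x : A₁) := fun x => by simp [B]
  -- the coordinate matrix
  let Mat : Matrix β β (Polynomial K₁) := fun x l => gp_crd (B.coord l) (r x)
  have hdet : Mat.det ≠ 0 := by
    intro h0
    have h1 : (Mat.map (Polynomial.eval (1 : K₁))) = 1 := by
      ext x l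
      rw [Matrix.map_apply, Matrix.one_apply]
      show (gp_crd (B.coord l) (r x)).eval 1 = _
      rw [gp_crd_eval, hrev, ← hB x, Module.Basis.coord_apply, Module.Basis.repr_self,
        Finsupp.single_apply]
    have h2 := RingHom.map_det (Polynomial.evalRingHom (1 : K₁)) Mat
    rw [h0, map_zero] at h2
    have h3 : (Polynomial.evalRingHom (1 : K₁)).mapMatrix Mat = 1 := h1
    rw [h3, Matrix.det_one] at h2
    exact zero_ne_one h2
  have hdet' : (Mat.map (gp_incl K₁)).det ≠ 0 := by
    have h2 := RingHom.map_det (gp_incl K₁) Mat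
    have h3 : (gp_incl K₁).mapMatrix Mat = Mat.map (gp_incl K₁) := rfl
    rw [h3] at h2
    rw [← h2]
    intro h0
    exact hdet (gp_incl_injective (by rw [h0, map_zero]))
  have hexp : ∀ x, gp_incl A₁ (r x) = ∑ l, gp_incl K₁ (Mat x l) • (LS.C (B l) : LS A₁) := by
    intro x
    ext n
    rw [LS.coeff_sum]
    simp only [LS.coeff_smul_C, gp_incl_coeff]
    split_ifs
    · show _ = ∑ l, (gp_crd (B.coord l) (r x)).coeff n.toNat • B l
      simp only [gp_crd_coeff]
      exact (B.sum_repr _).symm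
    · simp
  have hli : LinearIndependent (LS K₁) (fun x : β => gp_incl A₁ (r x)) := by
    rw [Fintype.linearIndependent_iff]
    intro cc hcc
    have h1 : ∀ l, ∑ x, cc x * gp_incl K₁ (Mat x l) = 0 := by
      have h2 := Fintype.linearIndependent_iff.1 (LS.basis B).linearIndependent
        (fun l => ∑ x, cc x * gp_incl K₁ (Mat x l)) (by
          rw [← hcc]
          simp only [hexp, Finset.smul_sum, Finset.sum_smul, smul_smul, LS.basis_apply]
          exact Finset.sum_comm)
      exact h2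
    have h3 : Matrix.vecMul cc (Mat.map (gp_incl K₁)) = 0 := by
      funext l
      exact h1 l
    have h4 := Matrix.eq_zero_of_vecMul_eq_zero hdet' h3
    intro x
    rw [h4]
    rfl
  have hcard : Fintype.card β = Module.finrank (LS K₁) (LS A₁) := by
    rw [LS.finrank_eq, Module.finrank_eq_card_basis B]
  have htop := hli.span_eq_top_of_card_eq_finrank' hcard
  rw [eq_top_iff]
  intro z _
  have hz : z ∈ Submodule.span (LS K₁) (Set.range (fun x : β => gp_incl A₁ (r x))) := by
    rw [htop]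
    trivial
  have hle : Submodule.span (LS K₁) (Set.range (fun x : β => gp_incl A₁ (r x))) ≤
      Subalgebra.toSubmodule (Algebra.adjoin (LS K₁) (LS.C '' s ∪ {P 0, P 1})) := by
    rw [Submodule.span_le]
    rintro _ ⟨x, rfl⟩
    have h5 : ∀ q ∈ M, gp_incl A₁ q ∈ Algebra.adjoin (LS K₁) (LS.C '' s ∪ {P 0, P 1}) := by
      intro q hq
      rw [hM] at hq
      induction hq using Submonoid.closure_induction with
      | mem q hq =>
        rcases hq with ⟨y, hy, rfl⟩ | hq
        · refine Algebra.subset_adjoin (Or.inl ⟨y, hy, ?_⟩)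
          simp [gp_incl, Polynomial.eval₂RingHom'_apply]
        · rcases hq with rfl | hq
          · rw [hpin]
            exact Algebra.subset_adjoin (Or.inr (Or.inl rfl))
          · rw [Set.mem_singleton_iff.1 hq, hpin]
            exact Algebra.subset_adjoin (Or.inr (Or.inr rfl))
      | one => rw [map_one]; exact one_mem _
      | mul q q' _ _ h6 h7 => rw [map_mul]; exact mul_mem h6 h7
    exact h5 _ (hrM x)
  exact hle hz

end GenPoly

namespace Trip

variable {S : Stg} (P : Trip S) (d : ExpD P.K P.A P.σ)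

/-- GENTHETA: the second order term `θ'` can be chosen such that the base point of the expansion
with `p = t θ + t² θ'` generates.  `g` generates `A₁` together with `A₀` (from `Trip.gen` of an
intermediate expansion). -/
theorem gen_theta (g : Fin 2 → d.A₁) (hg : ∀ k a, g k * d.ι (P.iA a) = d.ι (P.iA a) * g k)
    (hgen : Algebra.adjoin d.K₁ (Set.range (fun a => d.ι (P.iA a)) ∪ {g 0, g 1}) = ⊤)
    (θ : P.σ → d.E₁) :
    ∃ θ' : P.σ → d.E₁, (∀ γ, d.p γ = PowerSeries.X * PowerSeries.C (θ γ)
        + PowerSeries.X ^ 2 * PowerSeries.C (θ' γ)) → (P.expand d).GenΘ := by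
  have hfd : FiniteDimensional d.K₁ d.A₁ := d.adm.fdA
  obtain ⟨c, hc, -⟩ := tripL_bij d.adm (fun a => P.iA a) P.Lc P.L_bij
    (fun k => g k - d.ι (P.Θ k)) (by
      intro k x
      rw [sub_mul, mul_sub, hg, ← map_mul, P.comm_Θ, map_mul])
  refine ⟨fun γ => c γ - θ γ, fun hp => ?_⟩
  have hΘ : ∀ k, P.Θ' d k = LS.C (d.ι (P.Θ k)) + LS.mono 1 (∑ γ, d.ι (P.Lc k γ) * d.j (θ γ))
      + LS.mono 2 (∑ γ, d.ι (P.Lc k γ) * d.j (c γ - θ γ)) := by
    intro k
    unfold Θ'
    rw [add_assoc]
    congr 1
    ext n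
    rw [LS.coeff_sum, LS.coeff_add, LS.coeff_mono, LS.coeff_mono]
    have h1 : ∀ γ, LS.coeff (LS.C (d.ι (P.Lc k γ)) * LS.ofPS (PowerSeries.map (d.j : d.E₁ →+* d.A₁)
        (d.p γ))) n = (if n = 1 then d.ι (P.Lc k γ) * d.j (θ γ) else 0)
          + (if n = 2 then d.ι (P.Lc k γ) * d.j (c γ - θ γ) else 0) := by
      intro γ
      rw [LS.coeff_C_mul]
      by_cases hn : n < 0
      · rw [LS.coeff_ofPS_neg _ _ hn, if_neg (by omega), if_neg (by omega), mul_zero, add_zero]
      · obtain ⟨i, rfl⟩ : ∃ i : ℕ, n = i := ⟨n.toNat, by omega⟩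
        rw [LS.coeff_ofPS, PowerSeries.coeff_map, hp, map_add, ← pow_one (PowerSeries.X : PowerSeries d.E₁),
          ← pow_mul, PowerSeries.coeff_X_pow_mul', PowerSeries.coeff_X_pow_mul',
          PowerSeries.coeff_C, PowerSeries.coeff_C]
        by_cases h1 : i = 1
        · subst h1
          simp
        · by_cases h2 : i = 2
          · subst h2
            simp
          · have h3 : ¬ ((i : ℤ) = 1) := by exact_mod_cast h1
            have h4 : ¬ ((i : ℤ) = 2) := by exact_mod_cast h2
            rw [if_neg h3, if_neg h4]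
            by_cases h5 : i = 0
            · subst h5
              simp
            · have h6 : i - 1 ≠ 0 := by omega
              have h7 : i - 2 ≠ 0 := by omega
              simp [h6, h7]
    simp only [h1]
    rw [Finset.sum_add_distrib]
    congr 1
    · split_ifs
      · rfl
      · simp
    · split_ifs
      · rfl
      · simp
  have h := gen_poly (K₁ := d.K₁) (Set.range (fun a => d.ι (P.iA a))) (fun k => d.ι (P.Θ k))
    (fun k => ∑ γ, d.ι (P.Lc k γ) * d.j (θ γ)) (fun k => ∑ γ, d.ι (P.Lc k γ) * d.j (c γ - θ γ)) (by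
      have h2 : ∀ k, d.ι (P.Θ k) + ∑ γ, d.ι (P.Lc k γ) * d.j (θ γ)
          + ∑ γ, d.ι (P.Lc k γ) * d.j (c γ - θ γ) = g k := by
        intro k
        have h3 := hc k
        simp only [map_sub, mul_sub, Finset.sum_sub_distrib]
        rw [h3]
        abel
      rw [h2, h2]
      exact hgen) (P.Θ' d) hΘ
  have h4 : (LS.C : d.A₁ →+* LS d.A₁) '' (Set.range (fun a => d.ι (P.iA a))) = Set.range (P.iA' d) := by
    rw [← Set.range_comp]
    rfl
  rw [h4] at h
  exact h

end Trip

end Vale.Agent.P199K
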