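import Vale.Agent.P199K.VfCe
import Vale.Agent.P199K.TrDC
import Vale.Agent.P199K.P3E

/-! # P199, section 9: dimension inequality, generation in explicit form (helper51) -/

namespace Vale.Agent.P199K

section
variable {K A σ : Type} [Field K] [CharZero K] [Ring A] [IsDomain A] [Algebra K A]
  [FiniteDimensional K A] [Fintype σ]

theorem p3_dL_le_nn (w : NPS σ A) : dLU K w ≤ nnU K w := by
  unfold dLU nnU
  have h : calL K w ≤ Subalgebra.toSubmodule (Lf K (w [])) := by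
    unfold calL
    rintro _ ⟨x, rfl⟩
    rw [LinearMap.comp_apply, proj_eq_pr]
    exact pr_mem _ _
  exact Submodule.finrank_mono h

theorem p3_nn_sq_le [Algebra.IsCentral K A] (w : NPS σ A) : nnU K w ^ 2 ≤ Module.finrank K A := by
  unfold nnU
  rw [← dc_W (w []), sq]
  refine Nat.mul_le_mul_left _ ?_
  have h : Subalgebra.toSubmodule (Lf K (w [])) ≤ Subalgebra.toSubmodule (Mf K (w [])) :=
    Lf_le_Mf (w [])
  exact Submodule.finrank_mono h

theorem p3_hdim_arith {v n N m D : ℕ} (h1 : v ≤ n) (h2 : n ^ 2 ≤ D) (h3 : N < m) (h4 : m ^ 2 ≤ D) :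
    v * N < D := by
  by_contra hcon
  rw [not_lt] at hcon
  have h5 : D ≤ n * N := hcon.trans (Nat.mul_le_mul_right _ h1)
  rcases Nat.eq_zero_or_pos n with hn | hn
  · subst hn
    have : 0 < m ^ 2 := Nat.pow_pos (by omega)
    omega
  · have h6 : n ≤ N := by
      have : n * n ≤ n * N := by
        rw [← sq]
        exact h2.trans h5
      exact Nat.le_of_mul_le_mul_left this hn
    have h7 : n * N < m ^ 2 := by nlinarith
    omega

end

/-- hdim -/
theorem Trip.hdim {S : Stg} (w₀ : NPS (Fin 2) S.A) (Q : Trip S) (hR : R1U Q.K (Q.Psi w₀)) (m : ℕ)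
    (hm : Module.finrank S.K S.A < m) (hD : m ^ 2 ≤ Module.finrank Q.K Q.A) :
    Module.finrank Q.K (VfU Q.K (Q.Psi w₀)) * Module.finrank S.K S.A < Module.finrank Q.K Q.A := by
  refine p3_hdim_arith ?_ (p3_nn_sq_le (Q.Psi w₀)) hm hD
  rw [vfce_finrank_VfU_of_R1 _ hR]
  exact p3_dL_le_nn _

/-- size of an expansion -/
theorem Trip.p3_finrank_expand {S : Stg} (P : Trip S) (d : ExpD P.K P.A P.σ) :
    d.m ^ 2 ≤ Module.finrank (P.expand d).K (P.expand d).A := by
  have h : Module.finrank (P.expand d).K (P.expand d).A = Module.finrank (LS d.K₁) (LS d.A₁) := rfl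
  have hfd : FiniteDimensional d.K₁ d.A₁ := d.adm.fdA
  rw [h, LS.finrank_eq, d.adm.finrankA]
  exact Nat.le_mul_of_pos_right _ Module.finrank_pos

/-- P3F in the form of the assembly -/
theorem Trip.p3_hdim_of_R1 {S : Stg} (w₀ : NPS (Fin 2) S.A) (P : Trip S) (d : ExpD P.K P.A P.σ)
    (hR : R1U (P.expand d).K ((P.expand d).Psi w₀)) (hm : Module.finrank S.K S.A < d.m) :
    Module.finrank (P.expand d).K (VfU (P.expand d).K ((P.expand d).Psi w₀)) *
      Module.finrank S.K S.A < Module.finrank (P.expand d).K (P.expand d).A :=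
  Trip.hdim w₀ (P.expand d) hR d.m hm (P.p3_finrank_expand d)

/-- generation of the base point, explicit form -/
theorem p3_gentheta_proved {K₁ A₁ : Type} [Field K₁] [Ring A₁] [Algebra K₁ A₁] [FiniteDimensional K₁ A₁]
    (R : Set A₁) (a0 a1 a2 b0 b1 b2 : A₁)
    (h : Algebra.adjoin K₁ (R ∪ {a0 + a1 + a2, b0 + b1 + b2}) = ⊤) :
    Algebra.adjoin (LS K₁) (LS.C '' R ∪ {LS.C a0 + LS.tp 1 * LS.C a1 + LS.tp 2 * LS.C a2,
      LS.C b0 + LS.tp 1 * LS.C b1 + LS.tp 2 * LS.C b2}) = ⊤ := by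
  have hm : ∀ (n : ℤ) (x : A₁), LS.tp n * LS.C x = LS.mono n x := by
    intro n x
    ext k
    rw [LS.coeff_mul_C, LS.coeff_tp, LS.coeff_mono]
    split_ifs <;> simp
  refine gen_poly (K₁ := K₁) R ![a0, b0] ![a1, b1] ![a2, b2] h
    ![LS.C a0 + LS.tp 1 * LS.C a1 + LS.tp 2 * LS.C a2,
      LS.C b0 + LS.tp 1 * LS.C b1 + LS.tp 2 * LS.C b2] ?_
  intro k
  match k with
  | 0 =>
    show LS.C a0 + LS.tp 1 * LS.C a1 + LS.tp 2 * LS.C a2 = LS.C a0 + LS.mono 1 a1 + LS.mono 2 a2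
    rw [hm, hm]
  | 1 =>
    show LS.C b0 + LS.tp 1 * LS.C b1 + LS.tp 2 * LS.C b2 = LS.C b0 + LS.mono 1 b1 + LS.mono 2 b2
    rw [hm, hm]

end Vale.Agent.P199K
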