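import Vale.Agent.P199K.ResStmt
import Vale.Agent.P199K.ResPr
import Vale.Agent.P199K.ExpF
import Vale.Agent.P199K.TrDC

/-! # P199, module R1 (helper58): under (R), the projections of the linear part to `M` and `L` agree

Expansion along `p = t δ` with trivial admissible data: `p_W(W') = t (f₁(δ) + O(t))` is in `L'`,
`bar L' = L` by (R), so `f₁(δ) = p_W'(W) π_M(w₁(δ))` is in `L`. -/

open scoped TensorProduct LaurentSeries
open PowerSeries

namespace Vale.Agent.P199K

section lin
variable {K A σ : Type} [Field K] [Ring A] [Algebra K A]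

theorem r1p_mul_single (f g : NPS σ A) (γ : σ) : (f * g) [γ] = f [] * g [γ] + f [γ] * g [] := by
  rw [NPS.mul_cons, NPS.mul_nil]
  rfl

theorem r1p_pow_nil (w : NPS σ A) (n : ℕ) : (w ^ n) [] = (w []) ^ n := by
  induction n with
  | zero => rw [pow_zero, pow_zero]; rfl
  | succ n ih => rw [pow_succ, pow_succ, NPS.mul_nil, ih]

theorem r1p_pow_single (w : NPS σ A) (γ : σ) (n : ℕ) : (w ^ n) [γ] = gs (w []) (w [γ]) n := by
  induction n with
  | zero => rw [pow_zero]; rfl
  | succ n ih =>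
    rw [pow_succ, r1p_mul_single, ih, r1p_pow_nil, gs, add_comm]

/-- the coefficient of `[γ]` in `p(w)` -/
theorem r1p_aeval_single (w : NPS σ A) (p : Polynomial K) (γ : σ) :
    (Polynomial.aeval w p) [γ] = Dp p (w []) (w [γ]) := by
  induction p using Polynomial.induction_on' with
  | add p q hp hq => rw [map_add, NPS.add_apply, Dp_add, hp, hq]
  | monomial n c =>
    rw [Polynomial.aeval_monomial, NPS.algebraMap_apply, NPS.C_mul_apply, Dp_monomial,
      r1p_pow_single, ← Algebra.smul_def]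

theorem r1p_Dp_smul_right (p : Polynomial K) (W y : A) (c : K) :
    Dp p W (c • y) = c • Dp p W y := by
  rw [Algebra.smul_def, Dp_mul_left p W y _ (Algebra.commutes c W).symm, ← Algebra.smul_def]

theorem r1p_Dp_sum_right {ι : Type} (s : Finset ι) (p : Polynomial K) (W : A) (y : ι → A) :
    Dp p W (∑ i ∈ s, y i) = ∑ i ∈ s, Dp p W (y i) := by
  classical
  induction s using Finset.induction_on with
  | empty => rw [Finset.sum_empty, Finset.sum_empty, Dp_zero_right]
  | insert a s ha ih => rw [Finset.sum_insert ha, Finset.sum_insert ha, Dp_add_right, ih]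

/-- the linear part of `p(w)` -/
theorem r1p_lin_aeval [Fintype σ] (w : NPS σ A) (p : Polynomial K) (δ : σ → K) :
    lin K (Polynomial.aeval w p) δ = Dp p (w []) (lin K w δ) := by
  show ∑ γ, δ γ • (Polynomial.aeval w p) [γ] = Dp p (w []) (∑ γ, δ γ • w [γ])
  rw [r1p_Dp_sum_right]
  refine Finset.sum_congr rfl fun γ _ => ?_
  rw [r1p_Dp_smul_right, r1p_aeval_single]

/-- the constant term of `p(w)` -/
theorem r1p_aeval_nil (w : NPS σ A) (p : Polynomial K) :
    (Polynomial.aeval w p) [] = Polynomial.aeval (w []) p := by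
  induction p using Polynomial.induction_on' with
  | add p q hp hq => rw [map_add, map_add, NPS.add_apply, hp, hq]
  | monomial n a =>
    rw [Polynomial.aeval_monomial, Polynomial.aeval_monomial, NPS.mul_nil, NPS.algebraMap_apply,
      NPS.C_nil, r1p_pow_nil]

theorem r1p_ff_nil (w : NPS σ A) : ff K w [] = 0 := by
  unfold ff
  rw [r1p_aeval_nil, minpoly.aeval]

end lin

section dom
variable {K A σ : Type} [Field K] [Ring A] [IsDomain A] [Algebra K A] [Module.Finite K A]
  [CharZero K] [Fintype σ]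

/-- the linear part of `f = p_W(w)` -/
theorem r1p_lin_ff (w : NPS σ A) (δ : σ → K) : lin K (ff K w) δ =
    Polynomial.aeval (w []) (Polynomial.derivative (minpoly K (w []))) *
      pr (Mf K (w [])) (lin K w δ) := by
  unfold ff
  rw [r1p_lin_aeval, Dp_eq _ _ _ (minpoly.aeval K (w []))]
  rfl

/-- if the linear part of `f` is in `L`, the projections to `M` and `L` agree -/
theorem r1p_of_mem (w : NPS σ A) (δ : σ → K) (h : lin K (ff K w) δ ∈ Lf K (w [])) :
    proj (Subalgebra.toSubmodule (Mf K (w []))) (lin K w δ)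
      = proj (Subalgebra.toSubmodule (Lf K (w []))) (lin K w δ) := by
  rw [proj_Mf, proj_Lf]
  rw [r1p_lin_ff] at h
  set a := Polynomial.aeval (w []) (Polynomial.derivative (minpoly K (w []))) with ha
  have ha0 : a ≠ 0 := aeval_derivative_minpoly_ne_zero (w [])
  have haL : a ∈ Lf K (w []) := by
    have h1 : a ∈ Algebra.adjoin K {w []} := Polynomial.aeval_mem_adjoin_singleton K (w [])
    exact h1
  obtain ⟨b, hb, _, hba⟩ := exists_inv_mem (Lf K (w [])) haL ha0
  have h2 : pr (Mf K (w [])) (lin K w δ) ∈ Lf K (w []) := by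
    have h3 := (Lf K (w [])).mul_mem hb h
    rw [← mul_assoc, hba, one_mul] at h3
    exact h3
  have h4 := pr_pr (Lf_le_Mf (K := K) (w [])) (lin K w δ)
  rw [pr_of_mem _ h2] at h4
  exact h4

end dom

namespace Trip
variable {S : Stg} (w₀ : NPS (Fin 2) S.A)

/-- the expansion data: trivial admissible data, `p = t δ` -/
@[reducible] noncomputable def r1d (P : Trip S) (δ : P.σ → P.K) : ExpD P.K P.A P.σ where
  m := 1
  K₁ := P.K
  E₁ := P.K
  A₁ := P.A
  B := Fin 1
  κ := RingHom.id P.K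
  ι := RingHom.id P.A
  j := Algebra.ofId P.K P.A
  adm := Adm.triv
  ε := Module.Basis.singleton (Fin 1) P.K
  p := fun γ => PowerSeries.C (δ γ) * PowerSeries.X
  hp := fun γ => by rw [map_mul, PowerSeries.constantCoeff_X, mul_zero]

/-- the coefficient of `t` of the expansion of `f` along `t δ` is the linear part -/
theorem r1p_coeff_one (P : Trip S) (δ : P.σ → P.K) (f : NPS P.σ P.A) :
    LS.coeff (P.eh (P.r1d δ) f []) 1 = lin P.K f δ := by
  have h := exp_nil_one (P.r1d δ).ι ((P.r1d δ).j : (P.r1d δ).E₁ →+* (P.r1d δ).A₁)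
    (P.d_comm (P.r1d δ)) (P.r1d δ).ε (P.r1d δ).p (P.r1d δ).hp f
  refine h.trans ?_
  show ∑ γ, f [γ] * (Algebra.ofId P.K P.A) (PowerSeries.coeff 1 (PowerSeries.C (δ γ) * PowerSeries.X))
    = ∑ γ, δ γ • f [γ]
  refine Finset.sum_congr rfl fun γ _ => ?_
  rw [PowerSeries.coeff_C_mul, PowerSeries.coeff_one_X, mul_one, Algebra.ofId_apply,
    ← Algebra.commutes, ← Algebra.smul_def]

theorem r1p_mem (P : Trip S) (h : P.CR w₀) (δ : P.σ → P.K) :
    lin P.K (ff P.K (P.Psi w₀)) δ ∈ Lf P.K ((P.Psi w₀) []) := by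
  have hfd2 : FiniteDimensional (LS P.K) (LS P.A) := fd_ls
  set L' : Subalgebra (LS P.K) (LS P.A) := Lf (LS P.K) ((wx w₀ P (P.r1d δ)) []) with hL'
  -- the residue algebra is `L`
  have h1 : (P.expand (P.r1d δ)).nn w₀ ≤ P.nn w₀ * (P.r1d δ).m := nn_expand_le w₀ P (P.r1d δ) h
  have h2 : Module.finrank (LS P.K) L' ≤ Module.finrank P.K (Lf P.K ((P.Psi w₀) [])) := by
    have h3 : (P.expand (P.r1d δ)).nn w₀ = Module.finrank (LS P.K) L' := rfl
    have h4 : P.nn w₀ * (P.r1d δ).m = Module.finrank P.K (Lf P.K ((P.Psi w₀) [])) := mul_one _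
    rw [h3, h4] at h1
    exact h1
  have hle : Subalgebra.toSubmodule (Lf P.K ((P.Psi w₀) [])) ≤ res (Subalgebra.toSubmodule L') :=
    fun x hx => ι_mem_res w₀ P (P.r1d δ) x hx
  have h5 : Module.finrank P.K (res (Subalgebra.toSubmodule L'))
      = Module.finrank (LS P.K) L' := finrank_res _
  have heq : Subalgebra.toSubmodule (Lf P.K ((P.Psi w₀) [])) = res (Subalgebra.toSubmodule L') := by
    refine Submodule.eq_of_le_of_finrank_le hle ?_
    rw [h5]
    exact h2
  -- the element `t⁻¹ p_W(W')`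
  set f' : LS P.A := P.eh (P.r1d δ) (ff P.K (P.Psi w₀)) [] with hf'
  have hmem : f' ∈ L' := eh_ff_mem w₀ P (P.r1d δ)
  have hi : LS.Intg f' := exp_int _ _ _ _ _ _ _ _
  have h0 : LS.coeff f' 0 = 0 := by
    have h6 : LS.coeff f' 0 = ff P.K (P.Psi w₀) [] := exp_nil_zero _ _ _ _ _ _ _
    rw [h6, r1p_ff_nil]
  have h7 : LS.coeff f' 1 = lin P.K (ff P.K (P.Psi w₀)) δ := r1p_coeff_one P δ _
  have h8 : (LS.tp (-1) : LS P.A) * f' ∈ L' := by
    have h9 : (LS.tp (-1) : LS P.A) ∈ L' := by
      rw [← LS.algebraMap_tp (K := P.K) (A := P.A)]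
      exact L'.algebraMap_mem _
    exact L'.mul_mem h9 hmem
  have h10 : lin P.K (ff P.K (P.Psi w₀)) δ ∈ res (Subalgebra.toSubmodule L') := by
    rw [mem_res]
    refine ⟨(LS.tp (-1) : LS P.A) * f', h8, ?_, ?_⟩
    · intro n hn
      rw [LS.coeff_tp_mul]
      rcases eq_or_lt_of_le (show n + 1 ≤ 0 by omega) with h11 | h11
      · have h12 : n - -1 = 0 := by omega
        rw [h12]
        exact h0
      · exact hi _ (by omega)
    · rw [LS.coeff_tp_mul]
      have h12 : (0 : ℤ) - -1 = 1 := by norm_num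
      rw [h12]
      exact h7
  rw [← heq] at h10
  exact h10

/-- **R1** -/
theorem R1_of_CR_proved (P : Trip S) (h : P.CR w₀) : R1U P.K (P.Psi w₀) :=
  fun δ => r1p_of_mem (P.Psi w₀) δ (r1p_mem w₀ P h δ)

end Trip

end Vale.Agent.P199K
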