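import Vale.Agent.P199K.S7Stmt
import Vale.Agent.P199K.R1P

/-! # P199, section 7, step 1 (helper30): `E u ∈ L` -/

open scoped LaurentSeries
open PowerSeries

namespace Vale.Agent.P199K

namespace S7M5

theorem XY_ne {K A : Type} [Field K] [Ring A] [Algebra K A] {m : ℕ} (hm : m.Prime)
    (D : SymD K A m) : D.X * D.Y ≠ D.Y * D.X := by
  intro h
  have hN : Nontrivial D.E₁ := by
    by_contra hne
    rw [not_nontrivial_iff_subsingleton] at hne
    have h5 : Module.finrank D.K₁ D.E₁ = 0 := Module.finrank_zero_of_subsingleton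
    rw [D.sym.finE] at h5
    have := D.sym.pos
    exact absurd h5 (by positivity)
  have h1 := D.sym.YX
  rw [← h] at h1
  have h2 : (1 - D.κ D.ζ) • (D.X * D.Y) = 0 := by
    rw [sub_smul, one_smul, ← h1, sub_self]
  have h3 : 1 - D.κ D.ζ ≠ 0 := by
    intro h4
    have h5 : D.κ D.ζ = 1 := (sub_eq_zero.1 h4).symm
    exact D.sym.κζ.ne_one hm.one_lt h5
  have h4 : D.X * D.Y = 0 := (smul_eq_zero.1 h2).resolve_left h3
  exact (D.sym.isUnit_X.mul D.sym.isUnit_Y).ne_zero h4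

variable {S : Stg} (w₀ : NPS (Fin 2) S.A)

theorem key (P : Trip S) (hK : P.CK w₀) (l : P.A) (hl : l ∈ calL P.K (P.Psi w₀)) (h0 : l ≠ 0)
    (ν : ℕ) (hν : 1 ≤ ν) (b : P.σ → NPS (Fin 2) P.K) (hb : ∀ γ, b γ [] = 0)
    (hO : NPS.Ord ν (substHom b hb (ff P.K (P.Psi w₀)))) (E : List (Fin 2) → P.A)
    (hE : ∀ u, substHom b hb (ff P.K (P.Psi w₀)) u = lamf P.K (P.Psi w₀) l * E u)
    {m : ℕ} (hm : m.Prime) (D : SymD P.K P.A m) (g g' : D.E₁) (hg : g * g' ≠ g' * g)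
    (β : Fin 2 → D.E₁) (a : P.A)
    (ha : a ∈ perp (Subalgebra.toSubmodule (Lf P.K ((P.Psi w₀) [])))) :
    trc D.K₁ (evh D.ι D.j E β ν * (D.ι a * D.j g)) = 0 := by
  have hR := Trip.R1_of_CR_proved w₀ P hK.1.1
  have : CharZero D.K₁ := charZero_of_injective_ringHom D.κ.injective
  set e₀ : D.A₁ := evh D.ι D.j E β ν with he₀
  let d0 : ExpD P.K P.A P.σ := ExpD.sym1 D (fun _ => 0) (fun _ => map_zero _)
  -- the argument `θ`
  have hv : d0.j (LS.tp (-1) * LS.C g) = (LS.tp (-1) * LS.C (D.j g) : LS D.A₁) := by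
    have h1 : lsj D.j (LS.tp (-1) * LS.C g) = lsj D.j (LS.tp (-1)) * lsj D.j (LS.C g) := map_mul _ _ _
    have h2 : lsj D.j (LS.tp (-1)) = LS.tp (-1) := LS.map_tp (D.j : D.E₁ →+* D.A₁) (-1)
    have h3 : lsj D.j (LS.C g) = LS.C (D.j g) := LS.map_C (D.j : D.E₁ →+* D.A₁) g
    rw [h2, h3] at h1
    exact h1
  obtain ⟨θ, hθ⟩ := P.exists_theta w₀ d0 hR l hl h0 (d0.ι 1 * d0.j (LS.tp (-1) * LS.C g))
    (mul_mem_bx (one_mem_Vl (P.Psi w₀) l hl) _)
  rw [map_one, one_mul, hv] at hθ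
  -- the expansion
  let β' : Fin 2 → LS D.E₁ := fun k => LS.C (β k)
  have hp : ∀ γ, PowerSeries.constantCoeff (bev d0.κ (b γ) β' +
      PowerSeries.C (θ γ) * PowerSeries.X ^ ν : PowerSeries (LS D.E₁)) = 0 := by
    intro γ
    have h1 : PowerSeries.constantCoeff (bev d0.κ (b γ) β' : PowerSeries (LS D.E₁)) = 0 :=
      bev_const d0.κ (b γ) (hb γ) β'
    rw [map_add, h1, map_mul, map_pow, PowerSeries.constantCoeff_X, zero_pow (by omega), mul_zero,
      add_zero]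
  let d : ExpD P.K P.A P.σ := ExpD.sym1 D _ hp
  obtain ⟨x, hx1, hx2, hx3⟩ := P.s7_eval d ν hν b hb β' θ (fun γ => rfl) (ff P.K (P.Psi w₀)) hO
  set lam := lamf P.K (P.Psi w₀) l with hlam
  -- the residue
  let G : LS D.A₁ := LS.C e₀ + LS.tp (-1) * LS.C (D.j g)
  have hC : LS.coeff x 0 = d.ι lam * G := by
    have h1 : evh d.ι d.j (substHom b hb (ff P.K (P.Psi w₀))) β' ν
        = d.ι lam * evh d.ι d.j E β' ν :=
      s7_evh_mul d.ι d.j _ E lam ν (fun u _ => hE u) β'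
    have h2 : evh d.ι d.j E β' ν = LS.C e₀ := s7_evh_C D.ι D.j E β ν
    rw [hx3, h1, h2]
    show d.ι lam * LS.C e₀ + lin1 d0.ι d0.j (ff P.K (P.Psi w₀)) θ = _
    rw [hθ]
    show d.ι lam * LS.C e₀ + d.ι lam * (LS.tp (-1) * LS.C (D.j g)) = _
    rw [← mul_add]
  have hxL : x ∈ Lf (LS d.K₁) ((Trip.wx w₀ P d) []) := by
    have h1 := P.eh_ff_mem w₀ d
    rw [hx1] at h1
    have h2 : x = (LS.tp (-(ν : ℤ)) : LS d.K₁) • (LS.tp (ν : ℤ) * x) := by
      rw [LS.smul_def, LS.map_tp, ← mul_assoc, ← LS.tp_add, neg_add_cancel, LS.tp_zero, one_mul]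
    rw [h2]
    exact Subalgebra.smul_mem _ h1 _
  have hCres : LS.coeff x 0 ∈ res (Subalgebra.toSubmodule (Lf (LS d.K₁) ((Trip.wx w₀ P d) []))) :=
    (mem_res _ _).2 ⟨x, hxL, hx2, rfl⟩
  have hle := P.finrank_LG_le w₀ d hK.1.1 _ hCres
  rw [hC, LG_lamf (P.Psi w₀) l d.ι hl h0 G] at hle
  -- the algebra `U`
  let U : Subalgebra (LS D.K₁) (LS D.A₁) :=
    LG (LS D.K₁) ((LS.C : D.A₁ →+* LS D.A₁).comp D.ι) (Lf P.K ((P.Psi w₀) [])) G
  have hleU : Module.finrank (LS D.K₁) U ≤ P.nn w₀ * m := hle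
  have hGU : G ∈ U := G_mem_LG _ _ _
  have hx : LS.C (D.j g) + LS.tp 1 * LS.C e₀ ∈ U := by
    have h1 : LS.C (D.j g) + LS.tp 1 * LS.C e₀ = (LS.tp 1 : LS D.K₁) • G := by
      rw [LS.smul_def, LS.map_tp, mul_add, ← mul_assoc, ← LS.tp_add, add_neg_cancel, LS.tp_zero,
        one_mul, add_comm]
    rw [h1]
    exact Subalgebra.smul_mem _ hGU _
  have hdeg : Module.finrank D.K₁ (LG D.K₁ D.ι (Lf P.K ((P.Psi w₀) [])) (D.j g))
      = Module.finrank P.K (Lf P.K ((P.Psi w₀) [])) * m :=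
    s7_deg_prime D.sym.toAdm hm _ (fun a ha b hb => Lf_comm _ ha hb) g g' hg
  have hsub : Subalgebra.toSubmodule (LG D.K₁ D.ι (Lf P.K ((P.Psi w₀) [])) (D.j g))
      ≤ res (Subalgebra.toSubmodule U) := by
    have h1 : LG D.K₁ D.ι (Lf P.K ((P.Psi w₀) [])) (D.j g) ≤ resA U := by
      refine LG_le D.ι _ _ _ ?_ ?_
      · intro a' ha'
        exact mem_resA.2 ⟨LS.C (D.ι a'), ι_mem_LG _ _ _ ha', LS.Intg.C _, LS.coeff_C_zero _⟩
      · refine mem_resA.2 ⟨_, hx, ?_, ?_⟩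
        · exact LS.Intg.add (LS.Intg.C _) (LS.Intg.mul (LS.Intg.tp (by norm_num)) (LS.Intg.C _))
        · rw [LS.coeff_add, LS.coeff_C_zero, LS.coeff_tp_mul, LS.coeff_C, if_neg (by norm_num),
            add_zero]
    exact h1
  have hres : res (Subalgebra.toSubmodule U)
      = Subalgebra.toSubmodule (LG D.K₁ D.ι (Lf P.K ((P.Psi w₀) [])) (D.j g)) := by
    refine (Submodule.eq_of_le_of_finrank_le hsub ?_).symm
    rw [finrank_res]
    have h1 : Module.finrank D.K₁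
        (Subalgebra.toSubmodule (LG D.K₁ D.ι (Lf P.K ((P.Psi w₀) [])) (D.j g)))
        = Module.finrank P.K (Lf P.K ((P.Psi w₀) [])) * m := hdeg
    rw [h1]
    exact hleU
  exact s7_first D.sym.toAdm _ g e₀ U hres hx a ha

end S7M5

/-- **M5: step 1**, `E u ∈ L` -/
theorem Trip.s7_step1_proved {S : Stg} (w₀ : NPS (Fin 2) S.A) (P : Trip S) (hK : P.CK w₀) (l : P.A)
    (hl : l ∈ calL P.K (P.Psi w₀)) (h0 : l ≠ 0)
    (ν : ℕ) (hν : 1 ≤ ν) (b : P.σ → NPS (Fin 2) P.K) (hb : ∀ γ, b γ [] = 0)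
    (hO : NPS.Ord ν (substHom b hb (ff P.K (P.Psi w₀)))) (E : List (Fin 2) → P.A)
    (hE : ∀ u, substHom b hb (ff P.K (P.Psi w₀)) u = lamf P.K (P.Psi w₀) l * E u)
    {m : ℕ} (hm : m.Prime) (hνm : ν < m) (D : SymD P.K P.A m) (u : List (Fin 2)) (hu : u.length = ν) :
    E u ∈ Lf P.K ((P.Psi w₀) []) := by
  have key := fun (g g' : D.E₁) (hg : g * g' ≠ g' * g) (β : Fin 2 → D.E₁) (a : P.A)
      (ha : a ∈ perp (Subalgebra.toSubmodule (Lf P.K ((P.Psi w₀) [])))) =>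
    S7M5.key w₀ P hK l hl h0 ν hν b hb hO E hE hm D g g' hg β a ha
  have h1 : E u ∈ perp (perp (Subalgebra.toSubmodule (Lf P.K ((P.Psi w₀) [])))) := by
    intro a ha
    show trc P.K (a * E u) = 0
    rw [tr_mul_comm]
    refine s7_evh_tr D.sym E ν hνm.le a ?_ u hu
    intro β e
    by_cases he : ∃ e', e * e' ≠ e' * e
    · obtain ⟨e', he'⟩ := he
      exact key e e' he' β a ha
    · have he2 : ∀ e', e * e' = e' * e := fun e' => by
        by_contra h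
        exact he ⟨e', h⟩
      have hXY := S7M5.XY_ne hm D
      have h2 := key D.X D.Y hXY β a ha
      have h3 := key (e + D.X) D.Y (by
        rw [add_mul, mul_add, he2]
        intro h
        exact hXY (add_left_cancel h)) β a ha
      rw [map_add, mul_add, mul_add, map_add, h2, add_zero] at h3
      exact h3
  rw [perp_perp] at h1
  exact h1

end Vale.Agent.P199K
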