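import Vale.Agent.P199K.S7Stmt
import Vale.Agent.P199K.R1P
import Vale.Agent.P199K.LMApi

/-! # P199, section 7, M6: step 2, `E u ∈ F` (helper94) -/

open scoped LaurentSeries
open PowerSeries

namespace Vale.Agent.P199K

section Aux
variable {K A K₁ E₁ A₁ : Type} [Field K] [Ring A] [Algebra K A] [Field K₁] [Ring E₁] [Ring A₁]
  [Algebra K₁ E₁] [Algebra K₁ A₁]

/-- multiplying the generator by a nonzero scalar does not change `L₁[G]` -/
theorem m6_LG_smul (ι : A →+* A₁) (L : Subalgebra K A) (G : A₁) {c : K₁} (hc : c ≠ 0) :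
    LG K₁ ι L (c • G) = LG K₁ ι L G := by
  apply le_antisymm
  · refine LG_le ι L _ _ (fun a ha => ι_mem_LG ι L G ha) ?_
    exact Subalgebra.smul_mem _ (G_mem_LG ι L G) c
  · refine LG_le ι L _ _ (fun a ha => ι_mem_LG ι L _ ha) ?_
    have h1 : c⁻¹ • (c • G) ∈ LG K₁ ι L (c • G) := Subalgebra.smul_mem _ (G_mem_LG ι L _) _
    rwa [smul_smul, inv_mul_cancel₀ hc, one_smul] at h1

theorem m6_evh_mem {σ : Type} [Fintype σ] (ι : A →+* A₁) (j : E₁ →ₐ[K₁] A₁) (E : List σ → A) (n : ℕ)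
    (U : Submodule K A) (hU : ∀ u : List σ, u.length = n → E u ∈ U) (β : σ → E₁) :
    evh ι j E β n ∈ bx ι j U := by
  unfold evh
  exact Submodule.sum_mem _ fun u _ => mem_bx_of ι j (hU _ (List.length_ofFn)) _

theorem m6_tp_ne_zero (n : ℤ) : (LS.tp n : LS K₁) ≠ 0 := fun h => by
  have h1 := LS.tp_mul_tp_neg (A := K₁) n
  rw [h, zero_mul] at h1
  exact zero_ne_one h1

end Aux

namespace Trip
variable {S : Stg} (w₀ : NPS (Fin 2) S.A)

/-- M6: step 2, `E u ∈ F` -/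
theorem s7_step2_proved (P : Trip S) (hK : P.CK w₀) (l : P.A) (hl : l ∈ calL P.K (P.Psi w₀)) (h0 : l ≠ 0)
    (ν : ℕ) (hν : 1 ≤ ν) (b : P.σ → NPS (Fin 2) P.K) (hb : ∀ γ, b γ [] = 0)
    (hO : NPS.Ord ν (substHom b hb (ff P.K (P.Psi w₀)))) (E : List (Fin 2) → P.A)
    (hE : ∀ u, substHom b hb (ff P.K (P.Psi w₀)) u = lamf P.K (P.Psi w₀) l * E u)
    {m : ℕ} (hm : m.Prime) (hνm : ν < m) (D : SymD P.K P.A m)
    (hL : ∀ u : List (Fin 2), u.length = ν → E u ∈ Lf P.K ((P.Psi w₀) []))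
    (u : List (Fin 2)) (hu : u.length = ν) : E u ∈ Ff P.K (P.Psi w₀) := by
  have : CharZero D.K₁ := charZero_of_injective_ringHom D.κ.injective
  refine s7_evh_mem D.sym E ν hνm.le (Subalgebra.toSubmodule (Ff P.K (P.Psi w₀))) ?_ u hu
  intro β
  have hCE : P.CE w₀ := hK.1
  have hCR : P.CR w₀ := hCE.1
  have hR1 : R1U P.K (P.Psi w₀) := R1_of_CR_proved w₀ P hCR
  -- the element `v = ε⁻¹ X`
  let ι' : P.A →+* LS D.A₁ := (LS.C : D.A₁ →+* LS D.A₁).comp D.ι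
  let j' : LS D.E₁ →ₐ[LS D.K₁] LS D.A₁ := lsj D.j
  let v : LS D.A₁ := LS.mono (-1) (D.j D.X)
  have hv : ∀ U : Submodule P.K P.A, (1 : P.A) ∈ U → v ∈ bx ι' j' U := by
    intro U hU
    have h2 := mem_bx_of ι' j' hU (LS.mono (-1) D.X)
    rw [map_one, one_mul] at h2
    have h3 : j' (LS.mono (-1) D.X) = v := lsj_mono D.j (-1) D.X
    rwa [h3] at h2
  obtain ⟨η, hη⟩ : ∃ η : P.σ → LS D.E₁, lin1 ι' j' (ff P.K (P.Psi w₀)) η
      = ι' (lamf P.K (P.Psi w₀) l) * v :=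
    exists_theta w₀ P (ExpD.sym1 D (fun _ => 0) (fun _ => map_zero _)) hR1 l hl h0 v
      (hv _ (one_mem_Vl _ _ hl))
  let κ' : P.K →+* LS D.K₁ := (LS.C : D.K₁ →+* LS D.K₁).comp D.κ
  let β' : Fin 2 → LS D.E₁ := fun k => LS.C (β k)
  let p : P.σ → PowerSeries (LS D.E₁) := fun γ =>
    bev κ' (b γ) β' + PowerSeries.C (η γ) * PowerSeries.X ^ ν
  have hp : ∀ γ, PowerSeries.constantCoeff (p γ) = 0 := by
    intro γ
    show PowerSeries.constantCoeff (bev κ' (b γ) β' + PowerSeries.C (η γ) * PowerSeries.X ^ ν) = 0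
    rw [map_add, bev_const κ' (b γ) (hb γ) β', map_mul, map_pow, PowerSeries.constantCoeff_X,
      zero_pow (by omega), mul_zero, add_zero]
  let d : ExpD P.K P.A P.σ := ExpD.sym1 D p hp
  obtain ⟨x, hx, hxi, hx0⟩ := s7_eval P d ν hν b hb β' η (fun _ => rfl) (ff P.K (P.Psi w₀)) hO
  -- `G`
  let a : D.A₁ := evh D.ι D.j E β ν
  have hev : evh ι' j' E β' ν = LS.C a := s7_evh_C D.ι D.j E β ν
  let G : LS D.A₁ := LS.C a + v
  have hx0' : LS.coeff x 0 = ι' (lamf P.K (P.Psi w₀) l) * G := by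
    have h1 : LS.coeff x 0 = evh ι' j' (substHom b hb (ff P.K (P.Psi w₀))) β' ν
      + lin1 ι' j' (ff P.K (P.Psi w₀)) η := hx0
    rw [h1, hη, s7_evh_mul ι' j' _ E _ ν (fun u _ => hE u) β', hev]
    exact (mul_add _ _ _).symm
  have hcm : ∀ a e, ι' a * j' e = j' e * ι' a := lsj_comm D.ι D.j D.sym.comm
  have hGL : G ∈ bx ι' j' (Subalgebra.toSubmodule (Lf P.K ((P.Psi w₀) []))) := by
    refine Submodule.add_mem _ ?_ (hv _ (Subalgebra.one_mem _))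
    rw [← hev]
    exact m6_evh_mem ι' j' E ν _ hL β'
  -- `C = λ_f G` is in the residue of `L'`
  have hC1 : ι' (lamf P.K (P.Psi w₀) l) * G ∈
      res (Subalgebra.toSubmodule (Lf (LS d.K₁) ((wx w₀ P d) []))) := by
    rw [mem_res]
    refine ⟨x, ?_, hxi, hx0'⟩
    have h1 := P.eh_ff_mem w₀ d
    have h2 : x = (LS.tp (-(ν : ℤ)) : LS d.K₁) • P.eh d (ff P.K (P.Psi w₀)) [] := by
      rw [hx, LS.smul_def, LS.map_tp, ← mul_assoc, ← LS.tp_add, neg_add_cancel, LS.tp_zero, one_mul]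
    rw [h2]
    exact Submodule.smul_mem _ _ h1
  have hC2 : ι' (lamf P.K (P.Psi w₀) l) * G ∈
      bx ι' j' (Subalgebra.toSubmodule (Lf P.K ((P.Psi w₀) []))) := by
    have h1 := mem_bx_of ι' j' (U := Subalgebra.toSubmodule (Lf P.K ((P.Psi w₀) [])))
      (lamf_mem_Lf (P.Psi w₀) l hl) 1
    rw [map_one, mul_one] at h1
    exact mul_mem_bx_l ι' j' hcm (fun u hu v hv => Subalgebra.mul_mem _ hu hv) h1 hGL
  -- the degree of `C`
  have hC3 : Module.finrank (LS D.K₁) (LG (LS D.K₁) ι' (Lf P.K ((P.Psi w₀) []))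
      (ι' (lamf P.K (P.Psi w₀) l) * G)) = P.nn w₀ * m := by
    rw [LG_lamf (P.Psi w₀) l ι' hl h0 G,
      ← m6_LG_smul ι' _ G (m6_tp_ne_zero (K₁ := D.K₁) 1)]
    refine deg_of_res' D.sym (Lf P.K ((P.Psi w₀) [])) (fun a ha b hb => Lf_comm _ ha hb) _
      (Submodule.smul_mem _ _ hGL) ?_ ?_
    · intro n hn
      rw [LS.coeff_tp_smul]
      show LS.coeff (LS.C a + v) (n - 1) = 0
      rw [LS.coeff_add, LS.coeff_C, LS.coeff_mono, if_neg (by omega), if_neg (by omega), add_zero]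
    · rw [LS.coeff_tp_smul]
      show LS.coeff (LS.C a + v) (0 - 1) = _
      rw [LS.coeff_add, LS.coeff_C, LS.coeff_mono, if_neg (by omega), if_pos (by omega), zero_add]
  have hRes : P.RESad w₀ d l (ι' (lamf P.K (P.Psi w₀) l) * G) :=
    RES_ad w₀ P d hCE l hl h0 _ hC1 hC2 hC3
  obtain ⟨l', hl', hl'i, hl'0⟩ := hRes.exl
  have hG1 : G ∈ res (Vl (LS d.K₁) (wx w₀ P d) l') :=
    mem_res_V w₀ P d l hl h0 G ν hν x hx hxi hx0' l' hl' hl'i hl'0
  have hne : l' ≠ 0 := by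
    rintro rfl
    rw [LS.coeff_zero] at hl'0
    exact h0 ((injective_iff_map_eq_zero _).1 (pi_inj d.adm) _ hl'0.symm)
  have hV : Vl (LS d.K₁) (wx w₀ P d) l' ≤ Subalgebra.toSubmodule (Ff (LS d.K₁) (wx w₀ P d)) :=
    Vl_le_Ff (wx w₀ P d) l' hl' hne
  have hG2 : G ∈ bx ι' j' (Subalgebra.toSubmodule (Ff P.K (P.Psi w₀))) := by
    refine hRes.FF_le ?_
    rw [← hRes.resF]
    exact res_mono hV hG1
  have hG3 := coeff_mem_bx D.ι D.j hG2 0
  have hG4 : LS.coeff G 0 = a := by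
    show LS.coeff (LS.C a + v) 0 = a
    rw [LS.coeff_add, LS.coeff_C, LS.coeff_mono, if_pos rfl, if_neg (by omega), add_zero]
  rwa [hG4] at hG3

end Trip

end Vale.Agent.P199K
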