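import Vale.Agent.P199K.PI
import Vale.Agent.P199K.CNP
import Vale.Agent.P199K.LMApi

/-!
# P199, section 7, module M2 (helper70): evaluations and traces
-/

open scoped LaurentSeries
open PowerSeries

namespace Vale.Agent.P199K

section S7a
variable {K A K₁ E₁ A₁ : Type} [Field K] [Ring A] [Algebra K A] [Field K₁] [Ring E₁] [Ring A₁]
  [Algebra K₁ E₁] [Algebra K₁ A₁]

theorem bev_const_proved (κ : K →+* K₁) (b : NPS (Fin 2) K) (hb : b [] = 0) (β : Fin 2 → E₁) :
    PowerSeries.constantCoeff (PowerSeries.mk (fun n => ∑ u : Fin n → Fin 2,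
      κ (b (List.ofFn u)) • ((List.ofFn u).map β).prod)) = 0 := by
  rw [← PowerSeries.coeff_zero_eq_constantCoeff_apply, PowerSeries.coeff_mk]
  apply Finset.sum_eq_zero
  intro u _
  rw [List.ofFn_zero, hb, map_zero, zero_smul]

/-- evaluation after a left multiplication -/
theorem s7_evh_mul_proved {σ : Type} [Fintype σ] (ι : A →+* A₁) (j : E₁ →ₐ[K₁] A₁) (g E : List σ → A)
    (a : A) (n : ℕ) (h : ∀ u, u.length = n → g u = a * E u) (β : σ → E₁) :
    evh ι j g β n = ι a * evh ι j E β n := by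
  unfold evh
  rw [Finset.mul_sum]
  apply Finset.sum_congr rfl
  intro u _
  rw [h _ (List.length_ofFn), map_mul, mul_assoc]

/-- evaluations at constant arguments -/
theorem s7_evh_C_proved {σ : Type} [Fintype σ] (ι : A →+* A₁) (j : E₁ →ₐ[K₁] A₁) (g : List σ → A)
    (β : σ → E₁) (n : ℕ) : evh ((LS.C : A₁ →+* LS A₁).comp ι) (lsj j) g (fun k => LS.C (β k)) n
      = LS.C (evh ι j g β n) := by
  unfold evh
  rw [map_sum]
  apply Finset.sum_congr rfl
  intro u _
  have e1 : (LS.C (((List.ofFn u).map β).prod) : LS E₁)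
      = ((List.ofFn u).map (fun k => LS.C (β k))).prod := by
    rw [map_list_prod, List.map_map]
    rfl
  rw [map_mul, RingHom.comp_apply, ← lsj_C, e1]

/-- `T(ι a · j e) = κ(T a) T(e)` -/
theorem s7_trc_mul_proved [FiniteDimensional K A]
    {κ : K →+* K₁} {ι : A →+* A₁} {j : E₁ →ₐ[K₁] A₁} {m : ℕ} (h : Adm κ ι j m) (a : A) (e : E₁) :
    trc K₁ (ι a * j e) = κ (trc K a) * trc K₁ e := h.trc_mul_cn a e

/-- PI1 for traces -/
theorem s7_evh_tr_proved {σ : Type} [Fintype σ] [CharZero K] [IsDomain A] [IsDomain A₁]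
    [FiniteDimensional K A]
    [FiniteDimensional K₁ A₁] {κ : K →+* K₁} {ι : A →+* A₁} {j : E₁ →ₐ[K₁] A₁} {m : ℕ}
    {X Y : E₁} {ζ : K} {x y : K₁} (h : SymAdm κ ι j m X Y ζ x y) (E : List σ → A) (n : ℕ) (hn : n ≤ m)
    (a : A) (hT : ∀ (β : σ → E₁) (e : E₁), trc K₁ (evh ι j E β n * (ι a * j e)) = 0)
    (u : List σ) (hu : u.length = n) : trc K (E u * a) = 0 := by
  have hc0 : CharZero K₁ := charZero_of_injective_ringHom κ.injective
  have key : ∀ β : σ → E₁, evh ι j (fun u => trc K (E u * a) • (1 : A)) β n = 0 := by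
    intro β
    set z : E₁ := ∑ u : Fin n → σ, κ (trc K (E (List.ofFn u) * a)) • ((List.ofFn u).map β).prod
      with hz
    have h1 : evh ι j (fun u => trc K (E u * a) • (1 : A)) β n = j z := by
      unfold evh
      rw [hz, map_sum]
      apply Finset.sum_congr rfl
      intro u _
      rw [h.toAdm.admf_smul, map_one, smul_mul_assoc, one_mul, map_smul]
    rw [h1]
    refine tr_nondeg j.range ⟨z, rfl⟩ ?_
    rintro _ ⟨e, rfl⟩
    have h2 : trc K₁ (j e * j z) = κ (trc K (1 : A)) * trc K₁ (z * e) := by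
      rw [tr_mul_comm, ← map_mul, ← one_mul (j (z * e)), ← map_one ι, h.toAdm.trc_mul_cn]
    have h3 : trc K₁ (z * e) = 0 := by
      rw [← hT β e]
      unfold evh
      rw [hz, Finset.sum_mul, Finset.sum_mul, map_sum, map_sum]
      apply Finset.sum_congr rfl
      intro u _
      rw [smul_mul_assoc, map_smul, smul_eq_mul, ← h.toAdm.trc_mul_cn]
      congr 1
      rw [map_mul, map_mul, mul_assoc, mul_assoc, ← mul_assoc (j _) (ι a), ← h.comm a, mul_assoc]
    show trc K₁ (j e * j z) = 0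
    rw [h2, h3, mul_zero]
  have h4 := PI1 h (fun u => trc K (E u * a) • (1 : A)) n hn key u hu
  rcases smul_eq_zero.1 h4 with h5 | h5
  · exact h5
  · exact absurd h5 one_ne_zero

/-- PI1 for subspaces -/
theorem s7_evh_mem_proved {σ : Type} [Fintype σ] [CharZero K] [IsDomain A] [IsDomain A₁]
    [FiniteDimensional K A]
    [FiniteDimensional K₁ A₁] {κ : K →+* K₁} {ι : A →+* A₁} {j : E₁ →ₐ[K₁] A₁} {m : ℕ}
    {X Y : E₁} {ζ : K} {x y : K₁} (h : SymAdm κ ι j m X Y ζ x y) (E : List σ → A) (n : ℕ) (hn : n ≤ m)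
    (U : Submodule K A) (hU : ∀ β : σ → E₁, evh ι j E β n ∈ bx ι j U)
    (u : List σ) (hu : u.length = n) : E u ∈ U := by
  rw [← perp_perp U]
  rw [mem_perp]
  intro a ha
  rw [tr_mul_comm]
  refine s7_evh_tr_proved h E n hn a ?_ u hu
  intro β e
  have h1 : ∀ z ∈ bx ι j U, trc K₁ (z * (ι a * j e)) = 0 := by
    intro z hz
    refine Submodule.span_induction (p := fun z _ => trc K₁ (z * (ι a * j e)) = 0)
      ?_ ?_ ?_ ?_ hz
    · rintro _ ⟨e', v, hv, rfl⟩
      have h2 : ι v * j e' * (ι a * j e) = ι (v * a) * j (e' * e) := by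
        rw [map_mul, map_mul, mul_assoc, mul_assoc, ← mul_assoc (j _) (ι a), ← h.comm a, mul_assoc]
      rw [h2, h.toAdm.trc_mul_cn, mem_perp.1 ha v hv, map_zero, zero_mul]
    · rw [zero_mul, map_zero]
    · intro x y _ _ hx hy
      rw [add_mul, map_add, hx, hy, add_zero]
    · intro c x _ hx
      rw [smul_mul_assoc, map_smul, hx, smul_zero]
  exact h1 _ (hU β)

end S7a

end Vale.Agent.P199K
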