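import Vale.Agent.P199K.SymC
import Vale.Agent.P199K.TrDC

/-! # P199, section 7, M3: degree of `L₁[h]` for `m` prime (helper36) -/

open scoped LaurentSeries
open PowerSeries

namespace Vale.Agent.P199K

open Module

section S7M3

variable {K A K₁ E₁ A₁ : Type} [Field K] [Ring A] [Algebra K A]
  [FiniteDimensional K A] [Field K₁] [Ring E₁] [Ring A₁] [Algebra K₁ E₁]
  [Algebra K₁ A₁]

theorem s7m3_inj [Nontrivial A] {κ : K →+* K₁} {ι : A →+* A₁} {j : E₁ →ₐ[K₁] A₁} {m : ℕ}
    (h : Adm κ ι j m) : Function.Injective j := by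
  classical
  rw [injective_iff_map_eq_zero]
  intro x hx
  let b := finBasis K A
  have hpos : 0 < finrank K A := finrank_pos
  let i0 : Fin (finrank K A) := ⟨0, hpos⟩
  have h1 := (h.bas _ b).1 (a₁ := Pi.single i0 x) (a₂ := 0) (by
    show ∑ i, ι (b i) * j (Pi.single (M := fun _ => E₁) i0 x i) = ∑ i, ι (b i) * j 0
    refine Finset.sum_congr rfl fun i _ => ?_
    by_cases hi : i = i0
    · subst hi
      rw [Pi.single_eq_same, hx, map_zero]
    · rw [Pi.single_eq_of_ne hi, map_zero])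
  have h2 := congrFun h1 i0
  simpa using h2

theorem s7m3_finrank {κ : K →+* K₁} {ι : A →+* A₁} {j : E₁ →ₐ[K₁] A₁} {m : ℕ}
    (h : Adm κ ι j m) (L : Subalgebra K A) (g : E₁) :
    finrank K₁ (LG K₁ ι L (j g)) = finrank K L * finrank K₁ (Algebra.adjoin K₁ {g}) := by
  classical
  have := h.fdE
  set B := Algebra.adjoin K₁ {g} with hB
  obtain ⟨s, b, hb, hb'⟩ := exists_adapted (Subalgebra.toSubmodule L)
  obtain ⟨s', e, he, he'⟩ := exists_adapted (Subalgebra.toSubmodule B)
  let fam : Fin (finrank K (Subalgebra.toSubmodule L)) × Fin (finrank K₁ (Subalgebra.toSubmodule B))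
      → A₁ := fun p => h.bs b e (Sum.inl p.1, Sum.inl p.2)
  have hfam : ∀ p, fam p = ι (b (Sum.inl p.1)) * j (e (Sum.inl p.2)) := fun p => h.bs_apply b e _
  have hind : LinearIndependent K₁ fam := by
    refine (h.bs b e).linearIndependent.comp
      (fun p : Fin (finrank K (Subalgebra.toSubmodule L)) × Fin (finrank K₁ (Subalgebra.toSubmodule B)) =>
        ((Sum.inl p.1 : Fin (finrank K (Subalgebra.toSubmodule L)) ⊕ Fin s),
          (Sum.inl p.2 : Fin (finrank K₁ (Subalgebra.toSubmodule B)) ⊕ Fin s'))) ?_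
    rintro ⟨a, c⟩ ⟨a', c'⟩ hh
    simp only [Prod.mk.injEq, Sum.inl.injEq] at hh
    exact Prod.ext hh.1 hh.2
  set Q := Submodule.span K₁ (Set.range fam) with hQ
  have hQm : ∀ l ∈ L, ∀ x ∈ B, ι l * j x ∈ Q := by
    intro l hl x hx
    have hl' : l ∈ Subalgebra.toSubmodule L := hl
    have hx' : x ∈ Subalgebra.toSubmodule B := hx
    rw [h.tmul_eq b e l x]
    refine Submodule.sum_mem _ fun p _ => ?_
    obtain ⟨i | i, k | k⟩ := p
    · exact Submodule.smul_mem _ _ (Submodule.subset_span ⟨(i, k), rfl⟩)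
    · rw [(he' x).1 hx' k, mul_zero, zero_smul]
      exact Submodule.zero_mem _
    · rw [(hb' l).1 hl' i, map_zero, zero_mul, zero_smul]
      exact Submodule.zero_mem _
    · rw [(hb' l).1 hl' i, map_zero, zero_mul, zero_smul]
      exact Submodule.zero_mem _
  have hQmul : ∀ x ∈ Q, ∀ y ∈ Q, x * y ∈ Q := by
    intro x hx y hy
    refine Submodule.span_induction (p := fun x _ => x * y ∈ Q) ?_ ?_ ?_ ?_ hx
    · rintro _ ⟨p, rfl⟩
      refine Submodule.span_induction (p := fun y _ => fam p * y ∈ Q) ?_ ?_ ?_ ?_ hy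
      · rintro _ ⟨p', rfl⟩
        rw [hfam, hfam]
        have h1 : ι (b (Sum.inl p.1)) * j (e (Sum.inl p.2)) * (ι (b (Sum.inl p'.1)) * j (e (Sum.inl p'.2)))
            = ι (b (Sum.inl p.1) * b (Sum.inl p'.1)) * j (e (Sum.inl p.2) * e (Sum.inl p'.2)) := by
          rw [map_mul, map_mul, mul_assoc, ← mul_assoc (j _), ← h.comm, mul_assoc, mul_assoc]
        rw [h1]
        exact hQm _ (L.mul_mem (hb _) (hb _)) _ (B.mul_mem (he _) (he _))
      · rw [mul_zero]; exact Submodule.zero_mem _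
      · intro x y _ _ hx hy
        rw [mul_add]; exact Submodule.add_mem _ hx hy
      · intro c x _ hx
        rw [mul_smul_comm]; exact Submodule.smul_mem _ _ hx
    · rw [zero_mul]; exact Submodule.zero_mem _
    · intro x y _ _ hx hy
      rw [add_mul]; exact Submodule.add_mem _ hx hy
    · intro c x _ hx
      rw [smul_mul_assoc]; exact Submodule.smul_mem _ _ hx
  have hQ1 : (1 : A₁) ∈ Q := by
    have := hQm 1 L.one_mem 1 B.one_mem
    rwa [map_one, map_one, mul_one] at this
  have hLQ : Subalgebra.toSubmodule (LG K₁ ι L (j g)) = Q := by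
    apply le_antisymm
    · intro x hx
      refine Algebra.adjoin_induction (p := fun x _ => x ∈ Q) ?_ ?_ ?_ ?_ hx
      · rintro x (⟨l, hl, rfl⟩ | hx)
        · have := hQm l hl 1 B.one_mem
          rwa [map_one, mul_one] at this
        · rw [Set.mem_singleton_iff] at hx
          have := hQm 1 L.one_mem g (Algebra.subset_adjoin rfl)
          rw [map_one, one_mul] at this
          rw [hx]
          exact this
      · intro c
        rw [Algebra.algebraMap_eq_smul_one]
        exact Submodule.smul_mem _ _ hQ1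
      · intro x y _ _ hx hy
        exact Submodule.add_mem _ hx hy
      · intro x y _ _ hx hy
        exact hQmul x hx y hy
    · rw [hQ, Submodule.span_le]
      rintro _ ⟨p, rfl⟩
      rw [SetLike.mem_coe, hfam]
      refine (LG K₁ ι L (j g)).mul_mem (Algebra.subset_adjoin (Or.inl ⟨_, hb _, rfl⟩)) ?_
      have h1 : ∀ x ∈ B, j x ∈ LG K₁ ι L (j g) := by
        intro x hx
        have h2 : B ≤ (LG K₁ ι L (j g)).comap j := by
          refine Algebra.adjoin_le ?_
          rintro _ rfl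
          exact Algebra.subset_adjoin (Or.inr rfl)
        exact h2 hx
      exact h1 _ (he _)
  have h1 : finrank K₁ (LG K₁ ι L (j g)) = finrank K₁ (Subalgebra.toSubmodule (LG K₁ ι L (j g))) := rfl
  rw [h1, hLQ, hQ, finrank_span_eq_card hind, Fintype.card_prod, Fintype.card_fin, Fintype.card_fin]
  rfl

/-- M3: `[L₁[h] : K₁] = n m` for `h` not central, `m` prime -/
theorem s7_deg_prime_proved [CharZero K] [IsDomain A] [CharZero K₁] [IsDomain A₁]
    [FiniteDimensional K₁ A₁] {κ : K →+* K₁} {ι : A →+* A₁} {j : E₁ →ₐ[K₁] A₁} {m : ℕ}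
    (h : Adm κ ι j m)
    (hp : m.Prime) (L : Subalgebra K A) (hL : ∀ a ∈ L, ∀ b ∈ L, a * b = b * a) (g g' : E₁)
    (hg : g * g' ≠ g' * g) :
    Module.finrank K₁ (LG K₁ ι L (j g)) = Module.finrank K L * m := by
  have := h.fdE
  have := h.cenE
  have hinj := s7m3_inj h
  have : IsDomain E₁ := hinj.isDomain (j : E₁ →+* A₁)
  rw [s7m3_finrank h L g]
  congr 1
  have h1 := dc_W (K := K₁) g
  rw [h.finE] at h1
  have hLf : finrank K₁ (Lf K₁ g) = finrank K₁ (Algebra.adjoin K₁ {g}) := rfl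
  rw [hLf] at h1
  have hdvd : finrank K₁ (Algebra.adjoin K₁ {g}) ∣ m ^ 2 := ⟨_, h1.symm⟩
  rw [Nat.dvd_prime_pow hp] at hdvd
  obtain ⟨k, hk, hk'⟩ := hdvd
  have hle : finrank K₁ (Lf K₁ g) ≤ finrank K₁ (Mf K₁ g) := by
    have h2 : Subalgebra.toSubmodule (Lf K₁ g) ≤ Subalgebra.toSubmodule (Mf K₁ g) := Lf_le_Mf g
    exact Submodule.finrank_mono h2
  rw [hLf] at hle
  interval_cases k
  · -- degree one: `g` central
    exfalso
    rw [pow_zero] at hk'
    have h3 : Algebra.adjoin K₁ {g} = ⊥ := Subalgebra.eq_bot_of_finrank_one hk'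
    have h4 : g ∈ (⊥ : Subalgebra K₁ E₁) := by
      rw [← h3]
      exact Algebra.subset_adjoin rfl
    obtain ⟨c, rfl⟩ := Algebra.mem_bot.1 h4
    exact hg (Algebra.commutes c g')
  · rw [hk', pow_one]
  · exfalso
    rw [hk'] at h1 hle
    have hm := hp.two_le
    have h5 : 4 ≤ m ^ 2 := by nlinarith
    have h6 : m ^ 2 * finrank K₁ (Mf K₁ g) = m ^ 2 * 1 := by rw [h1, mul_one]
    have h7 := Nat.eq_of_mul_eq_mul_left (by omega : 0 < m ^ 2) h6
    omega

end S7M3

end Vale.Agent.P199K
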