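import Vale.Agent.P199K.StepC
import Vale.Agent.P199K.PI
import Vale.Agent.P199K.BxA
import Vale.Agent.P199K.ResLS
import Vale.Agent.P199K.ResPr
import Vale.Agent.P199K.LMApi

/-!
# P199, section 7: first order perturbation (helper46)
-/

open scoped LaurentSeries
open PowerSeries

namespace Vale.Agent.P199K

section M4a

variable {K A : Type} [Field K] [Ring A] [Algebra K A]

theorem m4_intg (w e : A) : LS.Intg (LS.C w + LS.tp 1 * LS.C e) :=
  (LS.Intg.C w).add ((LS.Intg.tp (by norm_num)).mul (LS.Intg.C e))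

theorem m4_coeff_zero (w e : A) : LS.coeff (LS.C w + LS.tp 1 * LS.C e) 0 = w := by
  rw [LS.coeff_add, LS.coeff_tp_mul, LS.coeff_C, LS.coeff_C, if_pos rfl, if_neg (by norm_num),
    add_zero]

theorem m4_coeff_one (w e : A) : LS.coeff (LS.C w + LS.tp 1 * LS.C e) 1 = e := by
  rw [LS.coeff_add, LS.coeff_tp_mul, LS.coeff_C, LS.coeff_C, if_neg (by norm_num), zero_add,
    if_pos (by norm_num)]

theorem m4_pow_one (w e : A) (n : ℕ) :
    LS.coeff ((LS.C w + LS.tp 1 * LS.C e) ^ n) 1 = gs w e n := by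
  induction n with
  | zero => rw [pow_zero, LS.coeff_one, if_neg (by norm_num)]; rfl
  | succ n ih =>
    rw [pow_succ, LS.coeff_mul_one ((m4_intg w e).pow n) (m4_intg w e), ih, m4_coeff_one,
      m4_coeff_zero, LS.coeff_pow_zero (m4_intg w e), m4_coeff_zero, gs, add_comm]

theorem m4_aeval_intg (w e : A) (p : Polynomial K) :
    LS.Intg (Polynomial.aeval (LS.C w + LS.tp 1 * LS.C e) (p.map (LS.C : K →+* LS K))) := by
  induction p using Polynomial.induction_on' with
  | add p q hp hq => rw [Polynomial.map_add, map_add]; exact hp.add hq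
  | monomial n c =>
    rw [Polynomial.map_monomial, Polynomial.aeval_monomial, LS.algebraMap_C]
    exact (LS.Intg.C _).mul ((m4_intg w e).pow n)

theorem m4_aeval_zero (w e : A) (p : Polynomial K) :
    LS.coeff (Polynomial.aeval (LS.C w + LS.tp 1 * LS.C e) (p.map (LS.C : K →+* LS K))) 0 =
      Polynomial.aeval w p := by
  induction p using Polynomial.induction_on' with
  | add p q hp hq => rw [Polynomial.map_add, map_add, map_add, LS.coeff_add, hp, hq]
  | monomial n c =>
    rw [Polynomial.map_monomial, Polynomial.aeval_monomial, LS.algebraMap_C, LS.coeff_C_mul,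
      LS.coeff_pow_zero (m4_intg w e), m4_coeff_zero, Polynomial.aeval_monomial]

theorem m4_aeval_one (w e : A) (p : Polynomial K) :
    LS.coeff (Polynomial.aeval (LS.C w + LS.tp 1 * LS.C e) (p.map (LS.C : K →+* LS K))) 1 =
      Dp p w e := by
  induction p using Polynomial.induction_on' with
  | add p q hp hq => rw [Polynomial.map_add, map_add, LS.coeff_add, hp, hq, Dp_add]
  | monomial n c =>
    rw [Polynomial.map_monomial, Polynomial.aeval_monomial, LS.algebraMap_C, LS.coeff_C_mul,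
      m4_pow_one, Dp_monomial, Algebra.smul_def]

/-- `D_p(e)` lies in the residue space if `p(w) = 0` -/
theorem m4_Dp_mem (w e : A) (U : Subalgebra (LS K) (LS A))
    (hx : LS.C w + LS.tp 1 * LS.C e ∈ U) (p : Polynomial K) (hp : Polynomial.aeval w p = 0) :
    Dp p w e ∈ res (Subalgebra.toSubmodule U) := by
  rw [mem_res]
  set z := Polynomial.aeval (LS.C w + LS.tp 1 * LS.C e) (p.map (LS.C : K →+* LS K)) with hz
  have hzU : z ∈ U := by
    have h1 : Algebra.adjoin (LS K) {LS.C w + LS.tp 1 * LS.C e} ≤ U :=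
      Algebra.adjoin_le (by rintro _ rfl; exact hx)
    exact h1 (Polynomial.aeval_mem_adjoin_singleton _ _)
  refine ⟨(LS.tp (-1) : LS K) • z, U.smul_mem hzU _, ?_, ?_⟩
  · intro n hn
    rw [LS.coeff_tp_smul]
    rcases lt_or_eq_of_le (show n - -1 ≤ 0 by omega) with h1 | h1
    · exact m4_aeval_intg w e p _ h1
    · rw [h1, hz, m4_aeval_zero, hp]
  · rw [LS.coeff_tp_smul, show (0 : ℤ) - -1 = 1 by norm_num, hz, m4_aeval_one]

end M4a

section M4b
variable {K A K₁ E₁ A₁ : Type} [Field K] [CharZero K] [Ring A] [IsDomain A] [Algebra K A]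
  [FiniteDimensional K A] [Field K₁] [CharZero K₁] [Ring E₁] [Ring A₁] [IsDomain A₁] [Algebra K₁ E₁]
  [Algebra K₁ A₁] [FiniteDimensional K₁ A₁]

/-- M4: if `U` is an algebra with residue `L₁[h]` and `h + ε e ∈ U` then `T(e ι(a) j(h)) = 0` for `a ⊥ L`
(`p_h(h + ε e) = ε (D_{p_h}(e) + O(ε))`, so `D_{p_h}(e) = p_h'(h) π_{C(h)}(e) ∈ L₁[h]`). -/
theorem s7_first_proved {κ : K →+* K₁} {ι : A →+* A₁} {j : E₁ →ₐ[K₁] A₁} {m : ℕ} (h : Adm κ ι j m)
    (L : Subalgebra K A) (g : E₁) (e₀ : A₁) (U : Subalgebra (LS K₁) (LS A₁))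
    (hU : res (Subalgebra.toSubmodule U) = Subalgebra.toSubmodule (LG K₁ ι L (j g)))
    (hx : LS.C (j g) + LS.tp 1 * LS.C e₀ ∈ U) (a : A) (ha : a ∈ perp (Subalgebra.toSubmodule L)) :
    trc K₁ (e₀ * (ι a * j g)) = 0 := by
  have h1 : Dp (minpoly K₁ (j g)) (j g) e₀ ∈ LG K₁ ι L (j g) := by
    have := m4_Dp_mem (K := K₁) (j g) e₀ U hx (minpoly K₁ (j g)) (minpoly.aeval K₁ (j g))
    rw [hU] at this
    exact this
  rw [Dp_eq _ _ _ (minpoly.aeval K₁ (j g))] at h1
  set C := Subalgebra.centralizer K₁ ({j g} : Set A₁) with hC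
  have hG := self_mem_LG K₁ ι L (j g)
  have h2 : Polynomial.aeval (j g) (Polynomial.derivative (minpoly K₁ (j g))) ∈
      LG K₁ ι L (j g) := by
    have h3 : Algebra.adjoin K₁ {j g} ≤ LG K₁ ι L (j g) :=
      Algebra.adjoin_le (by rintro _ rfl; exact hG)
    exact h3 (Polynomial.aeval_mem_adjoin_singleton _ _)
  obtain ⟨y, hy, _, hy2⟩ := exists_inv_mem (LG K₁ ι L (j g)) h2
    (aeval_derivative_minpoly_ne_zero (K := K₁) (j g))
  have h3 : pr C e₀ ∈ LG K₁ ι L (j g) := by
    have := (LG K₁ ι L (j g)).mul_mem hy h1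
    rwa [← mul_assoc, hy2, one_mul] at this
  have hjb : j g ∈ bx ι j (Subalgebra.toSubmodule L) := by
    have := mem_bx_of ι j (U := Subalgebra.toSubmodule L) L.one_mem g
    rwa [map_one, one_mul] at this
  have h4 : pr C e₀ ∈ bx ι j (Subalgebra.toSubmodule L) := LG_le_bx ι j h.comm L (j g) hjb h3
  have h5 : ι a * j g ∈ C := by
    rw [hC, mem_centralizer_singleton, ← mul_assoc, ← h.comm]
  rw [tr_mul_comm, ← tr_mul_pr C h5, tr_mul_comm]
  refine Submodule.span_induction (p := fun u _ => trc K₁ (u * (ι a * j g)) = 0) ?_ ?_ ?_ ?_ h4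
  · rintro _ ⟨f, v, hv, rfl⟩
    have h6 : ι v * j f * (ι a * j g) = ι (v * a) * j (f * g) := by
      rw [mul_assoc, ← mul_assoc (j f), ← h.comm, mul_assoc, ← map_mul, ← mul_assoc, ← map_mul]
    rw [h6, h.trc_mul, mem_perp.1 ha v hv, map_zero, zero_mul]
  · rw [zero_mul, map_zero]
  · intro x y _ _ hx hy
    rw [add_mul, map_add, hx, hy, add_zero]
  · intro c x _ hx
    rw [smul_mul_assoc, map_smul, hx, smul_zero]

end M4b

end Vale.Agent.P199K
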