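import Vale.Agent.P199K.S7Def
import Vale.Agent.P199K.StepC
import Vale.Agent.P199K.EvalP
import Vale.Agent.P199K.PI
import Vale.Agent.P199K.BxA
import Vale.Agent.P199K.ResLS
import Vale.Agent.P199K.ResPr
import Vale.Agent.P199K.S7M2
import Vale.Agent.P199K.S7M3
import Vale.Agent.P199K.S7M4

/-!
# P199, section 7: errors are traceless, exact statements (helper99)

`err u = (f(b(s))) u`, `|u| = ν`, `err u = λ_f E u`.
* step 1: `E u ∈ L`; step 2: `E u ∈ F`; step 3: `∑_s T(z E(rot^s u)) = 0` for `z ∈ Z`; end: `PropC`.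
-/

open scoped LaurentSeries
open PowerSeries

namespace Vale.Agent.P199K

/-! ## M2: evaluations and traces -/
section S7a
variable {K A K₁ E₁ A₁ : Type} [Field K] [Ring A] [Algebra K A] [Field K₁] [Ring E₁] [Ring A₁]
  [Algebra K₁ E₁] [Algebra K₁ A₁]

theorem bev_const (κ : K →+* K₁) (b : NPS (Fin 2) K) (hb : b [] = 0) (β : Fin 2 → E₁) :
    PowerSeries.constantCoeff (bev κ b β) = 0 := bev_const_proved κ b hb β

/-- evaluation after a left multiplication -/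
theorem s7_evh_mul {σ : Type} [Fintype σ] (ι : A →+* A₁) (j : E₁ →ₐ[K₁] A₁) (g E : List σ → A) (a : A)
    (n : ℕ) (h : ∀ u, u.length = n → g u = a * E u) (β : σ → E₁) :
    evh ι j g β n = ι a * evh ι j E β n := s7_evh_mul_proved ι j g E a n h β

/-- evaluations at constant arguments -/
theorem s7_evh_C {σ : Type} [Fintype σ] (ι : A →+* A₁) (j : E₁ →ₐ[K₁] A₁) (g : List σ → A) (β : σ → E₁)
    (n : ℕ) : evh ((LS.C : A₁ →+* LS A₁).comp ι) (lsj j) g (fun k => LS.C (β k)) n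
      = LS.C (evh ι j g β n) := s7_evh_C_proved ι j g β n

/-- `T(ι a · j e) = κ(T a) T(e)` -/
theorem s7_trc_mul [CharZero K] [IsDomain A] [FiniteDimensional K A] [IsDomain A₁] [FiniteDimensional K₁ A₁]
    {κ : K →+* K₁} {ι : A →+* A₁} {j : E₁ →ₐ[K₁] A₁} {m : ℕ} (h : Adm κ ι j m) (a : A) (e : E₁) :
    trc K₁ (ι a * j e) = κ (trc K a) * trc K₁ e := s7_trc_mul_proved h a e

/-- PI1 for traces -/
theorem s7_evh_tr {σ : Type} [Fintype σ] [CharZero K] [IsDomain A] [IsDomain A₁] [FiniteDimensional K A]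
    [FiniteDimensional K₁ A₁] {κ : K →+* K₁} {ι : A →+* A₁} {j : E₁ →ₐ[K₁] A₁} {m : ℕ}
    {X Y : E₁} {ζ : K} {x y : K₁} (h : SymAdm κ ι j m X Y ζ x y) (E : List σ → A) (n : ℕ) (hn : n ≤ m)
    (a : A) (hT : ∀ (β : σ → E₁) (e : E₁), trc K₁ (evh ι j E β n * (ι a * j e)) = 0)
    (u : List σ) (hu : u.length = n) : trc K (E u * a) = 0 := s7_evh_tr_proved h E n hn a hT u hu

/-- PI1 for subspaces -/
theorem s7_evh_mem {σ : Type} [Fintype σ] [CharZero K] [IsDomain A] [IsDomain A₁] [FiniteDimensional K A]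
    [FiniteDimensional K₁ A₁] {κ : K →+* K₁} {ι : A →+* A₁} {j : E₁ →ₐ[K₁] A₁} {m : ℕ}
    {X Y : E₁} {ζ : K} {x y : K₁} (h : SymAdm κ ι j m X Y ζ x y) (E : List σ → A) (n : ℕ) (hn : n ≤ m)
    (U : Submodule K A) (hU : ∀ β : σ → E₁, evh ι j E β n ∈ bx ι j U)
    (u : List σ) (hu : u.length = n) : E u ∈ U := s7_evh_mem_proved h E n hn U hU u hu

end S7a

/-! ## M3, M4: degree and first order perturbation -/
section S7b
variable {K A K₁ E₁ A₁ : Type} [Field K] [CharZero K] [Ring A] [IsDomain A] [Algebra K A]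
  [FiniteDimensional K A] [Field K₁] [CharZero K₁] [Ring E₁] [Ring A₁] [IsDomain A₁] [Algebra K₁ E₁]
  [Algebra K₁ A₁] [FiniteDimensional K₁ A₁]

/-- M3: `[L₁[h] : K₁] = n m` for `h` not central, `m` prime -/
theorem s7_deg_prime {κ : K →+* K₁} {ι : A →+* A₁} {j : E₁ →ₐ[K₁] A₁} {m : ℕ} (h : Adm κ ι j m)
    (hp : m.Prime) (L : Subalgebra K A) (hL : ∀ a ∈ L, ∀ b ∈ L, a * b = b * a) (g g' : E₁)
    (hg : g * g' ≠ g' * g) :
    Module.finrank K₁ (LG K₁ ι L (j g)) = Module.finrank K L * m := s7_deg_prime_proved h hp L hL g g' hg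

/-- M4: if `U` is an algebra with residue `L₁[h]` and `h + ε e ∈ U` then `T(e ι(a) j(h)) = 0` for `a ⊥ L`
(`p_h(h + ε e) = ε (D_{p_h}(e) + O(ε))`, so `D_{p_h}(e) = p_h'(h) π_{C(h)}(e) ∈ L₁[h]`). -/
theorem s7_first {κ : K →+* K₁} {ι : A →+* A₁} {j : E₁ →ₐ[K₁] A₁} {m : ℕ} (h : Adm κ ι j m)
    (L : Subalgebra K A) (g : E₁) (e₀ : A₁) (U : Subalgebra (LS K₁) (LS A₁))
    (hU : res (Subalgebra.toSubmodule U) = Subalgebra.toSubmodule (LG K₁ ι L (j g)))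
    (hx : LS.C (j g) + LS.tp 1 * LS.C e₀ ∈ U) (a : A) (ha : a ∈ perp (Subalgebra.toSubmodule L)) :
    trc K₁ (e₀ * (ι a * j g)) = 0 := s7_first_proved h L g e₀ U hU hx a ha

end S7b

namespace Trip
variable {S : Stg} (w₀ : NPS (Fin 2) S.A)

/-- M1 (helper2, EvalP): evaluation of `f` at `b(tβ) + t^ν η` -/
theorem s7_eval (P : Trip S) (d : ExpD P.K P.A P.σ) (ν : ℕ) (hν : 1 ≤ ν) (b : P.σ → NPS (Fin 2) P.K)
    (hb : ∀ γ, b γ [] = 0) (β : Fin 2 → d.E₁) (η : P.σ → d.E₁)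
    (hp : ∀ γ, d.p γ = bev d.κ (b γ) β + PowerSeries.C (η γ) * PowerSeries.X ^ ν)
    (f : NPS P.σ P.A) (hf : NPS.Ord ν (substHom b hb f)) :
    ∃ x : LS d.A₁, P.eh d f [] = LS.tp (ν : ℤ) * x ∧ LS.Intg x ∧
      LS.coeff x 0 = evh d.ι d.j (substHom b hb f) β ν + lin1 d.ι d.j f η := by
  exact P.s7_eval_proved d ν hν b hb β η hp f hf

end Trip

end Vale.Agent.P199K
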