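import Vale.Agent.P199K.S7Gen
import Vale.Agent.P199K.LM
import Vale.Agent.P199K.R1P
import Vale.Agent.P199K.S7Stmt

/-! # P199, section 7, step 3: the errors are traceless (helper44) -/

open scoped LaurentSeries
open PowerSeries

namespace Vale.Agent.P199K

namespace Trip
variable {S : Stg} (w₀ : NPS (Fin 2) S.A)

/-- M7: step 3, `T(z E(β)) = 0` for `z ∈ Z` -/
theorem s7_step3_proved (P : Trip S) (hK : P.CK w₀) (l : P.A) (hl : l ∈ calL P.K (P.Psi w₀)) (h0 : l ≠ 0)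
    (ν : ℕ) (hν : 1 ≤ ν) (b : P.σ → NPS (Fin 2) P.K) (hb : ∀ γ, b γ [] = 0)
    (hord : NPS.Ord ν (substHom b hb (ff P.K (P.Psi w₀)))) (E : List (Fin 2) → P.A)
    (hE : ∀ u, substHom b hb (ff P.K (P.Psi w₀)) u = lamf P.K (P.Psi w₀) l * E u)
    {m : ℕ} (hmp : m.Prime) (hνm : ν < m) (hdm : P.dL w₀ < m) (D : SymD P.K P.A m)
    (hEF : ∀ u : List (Fin 2), u.length = ν → E u ∈ Ff P.K (P.Psi w₀))
    (z : P.A) (hz : z ∈ Zl P.K (P.Psi w₀) l) (β : Fin 2 → D.E₁) :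
    trc D.K₁ (D.ι z * evh D.ι D.j E β ν) = 0 := by
  classical
  have hR1 : R1U P.K (P.Psi w₀) := R1_of_CR_proved w₀ P hK.1.1
  have hm : Module.finrank P.K (Vl P.K (P.Psi w₀) l) < m := by
    rw [finrank_Vl (P.Psi w₀) l hl h0]; exact hdm
  set w := P.Psi w₀ with hw
  have h1V : (1 : P.A) ∈ Vl P.K w l := one_mem_Vl w l hl
  have hVF : Vl P.K w l ≤ Subalgebra.toSubmodule (Ff P.K w) := Vl_le_Ff w l hl h0
  have hVV : Vl P.K w l * Vl P.K w l = Subalgebra.toSubmodule (Ff P.K w) := by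
    rw [← pow_two]; exact (VpU_iff w l hl h0 2).1 hK.2.1
  have hLc : ∀ a ∈ Lf P.K (w []), ∀ b ∈ Lf P.K (w []), a * b = b * a := fun a ha b hb => Lf_comm _ ha hb
  have hFL : Subalgebra.toSubmodule (Ff P.K w) ≤ Subalgebra.toSubmodule (Lf P.K (w [])) :=
    fun x hx => Ff_le_Lf w hx
  have hFc : ∀ a ∈ Ff P.K w, ∀ b ∈ Ff P.K w, a * b = b * a := fun a ha b hb =>
    hLc a (hFL ha) b (hFL hb)
  have : CharZero D.K₁ := charZero_of_injective_ringHom D.κ.injective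
  have := D.sym.fdE
  let v := Module.finBasis P.K (Vl P.K w l)
  obtain ⟨V1, hV1⟩ : ∃ V1 : LS D.A₁, V1 = vv D.ι D.j D.X D.Y (fun l' => (v l' : P.A)) := ⟨_, rfl⟩
  have hV1V : V1 ∈ bx (LS.C.comp D.ι) (lsj D.j) (Vl P.K w l) := by
    rw [hV1]; exact vv_mem D.ι D.j D.sym.comm D.X D.Y (Vl P.K w l) h1V v
  have hV1i : LS.Intg V1 := by
    intro n hn
    rw [hV1]
    unfold vv
    rw [LS.coeff_add, LS.coeff_C, LS.coeff_mono, if_neg (by omega), if_neg (by omega), add_zero]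
  have hV10 : LS.coeff V1 0 = D.j D.X := by
    rw [hV1]
    unfold vv
    rw [LS.coeff_add, LS.coeff_C, LS.coeff_mono, if_pos rfl, if_neg (by omega), add_zero]
  obtain ⟨Eb, hEb⟩ : ∃ Eb : D.A₁, Eb = evh D.ι D.j E β ν := ⟨_, rfl⟩
  have hEbF : Eb ∈ bx D.ι D.j (Subalgebra.toSubmodule (Ff P.K w)) := by
    rw [hEb]; exact c3_evh_mem D.ι D.j _ E β ν hEF
  obtain ⟨G1, hG1⟩ : ∃ G1 : LS (LS D.A₁), G1 = LS.tp (-1) * LS.C V1 := ⟨_, rfl⟩
  have hG1V : G1 ∈ bx (LS.C.comp (LS.C.comp D.ι)) (lsj (lsj D.j)) (Vl P.K w l) := by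
    rw [hG1, ← c3_tp_smul (K₁ := LS D.K₁)]
    exact Submodule.smul_mem _ _ (c3_C_mem_bx hV1V)
  obtain ⟨G, hG⟩ : ∃ G : LS (LS D.A₁), G = LS.C (LS.C Eb) + G1 := ⟨_, rfl⟩
  have hGF : G ∈ bx (LS.C.comp (LS.C.comp D.ι)) (lsj (lsj D.j)) (Subalgebra.toSubmodule (Ff P.K w)) := by
    rw [hG]
    exact Submodule.add_mem _ (c3_C_mem_bx (c3_C_mem_bx hEbF)) (bx_mono hVF hG1V)
  have hGL := bx_mono hFL hGF
  obtain ⟨η, hη⟩ := P.exists_theta w₀ (ExpD.sym2 D (fun _ => 0) (fun _ => map_zero _)) hR1 l hl h0 G1 hG1V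
  have hp : ∀ γ, PowerSeries.constantCoeff (bev ((LS.C : LS D.K₁ →+* LS (LS D.K₁)).comp
      ((LS.C : D.K₁ →+* LS D.K₁).comp D.κ)) (b γ) (fun i => (LS.C (LS.C (β i)) : LS (LS D.E₁)))
      + PowerSeries.C (η γ) * PowerSeries.X ^ ν) = 0 := by
    intro γ
    rw [map_add, bev_const _ _ (hb γ), map_mul, map_pow, PowerSeries.constantCoeff_X,
      zero_pow (by omega), mul_zero, add_zero]
  let d : ExpD P.K P.A P.σ := ExpD.sym2 D (fun γ => bev ((LS.C : LS D.K₁ →+* LS (LS D.K₁)).comp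
      ((LS.C : D.K₁ →+* LS D.K₁).comp D.κ)) (b γ) (fun i => (LS.C (LS.C (β i)) : LS (LS D.E₁)))
      + PowerSeries.C (η γ) * PowerSeries.X ^ ν) hp
  obtain ⟨x, hx', hxi, hx0⟩ := P.s7_eval d ν hν b hb (fun i => (LS.C (LS.C (β i)) : LS (LS D.E₁))) η
    (fun γ => rfl) (ff P.K w) hord
  have hx0' : LS.coeff x 0 = d.ι (lamf P.K w l) * G := by
    rw [hx0]
    have e1 : evh d.ι d.j (substHom b hb (ff P.K w)) (fun i => (LS.C (LS.C (β i)) : LS (LS D.E₁))) ν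
        = d.ι (lamf P.K w l) * LS.C (LS.C Eb) := by
      rw [c3_evh_mul d.ι d.j E (substHom b hb (ff P.K w)) (lamf P.K w l) _ ν (fun u _ => (hE u).symm)]
      congr 1
      have e2 := c3_evh_C (LS.C.comp D.ι) (lsj D.j) E (fun i => LS.C (β i)) ν
      rw [c3_evh_C D.ι D.j E β ν, ← hEb] at e2
      exact e2
    have e3 : lin1 d.ι d.j (ff P.K w) η = d.ι (lamf P.K w l) * G1 := hη
    rw [e1, e3, hG, mul_add]
  have hC1 : d.ι (lamf P.K w l) * G ∈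
      res (Subalgebra.toSubmodule (Lf (LS d.K₁) ((wx w₀ P d) []))) := by
    refine (mem_res _ _).2 ⟨x, ?_, hxi, hx0'⟩
    have h1 := P.eh_ff_mem w₀ d
    have h2 := Submodule.smul_mem (Subalgebra.toSubmodule (Lf (LS d.K₁) ((wx w₀ P d) [])))
      (LS.tp (-(ν : ℤ)) : LS d.K₁) h1
    have h3 : (LS.tp (-(ν : ℤ)) : LS d.K₁) • (P.eh d (ff P.K w) []) = x := by
      rw [hx']
      apply LS.ext
      intro n
      rw [LS.coeff_tp_smul, LS.coeff_tp_mul]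
      congr 1
      omega
    rwa [h3] at h2
  have hlL := lamf_mem_Lf w l hl
  have hC2 : d.ι (lamf P.K w l) * G ∈ bx d.ι d.j (Subalgebra.toSubmodule (Lf P.K (w []))) := by
    have h1 : d.ι (lamf P.K w l) * G ∈
        bx d.ι d.j (Subalgebra.toSubmodule (Lf P.K (w [])) * Subalgebra.toSubmodule (Lf P.K (w []))) := by
      refine d.adm.bx_mul ?_ hGL
      have := mul_mem_bx (j := d.j) (ι := d.ι) (U := Subalgebra.toSubmodule (Lf P.K (w []))) hlL (1 : d.E₁)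
      rwa [map_one, mul_one] at this
    refine bx_mono ?_ h1
    rw [Submodule.mul_le]
    exact fun a ha b hb => (Lf P.K (w [])).mul_mem ha hb
  have hGi : LS.Intg (LS.tp 1 * G) := by
    intro n hn
    rw [LS.coeff_tp_mul, hG, LS.coeff_add, hG1, LS.coeff_tp_mul, LS.coeff_C, LS.coeff_C,
      if_neg (by omega), if_neg (by omega), add_zero]
  have hG0 : LS.coeff (LS.tp 1 * G) 0 = V1 := by
    rw [LS.coeff_tp_mul, hG, LS.coeff_add, hG1, LS.coeff_tp_mul, LS.coeff_C, LS.coeff_C,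
      if_neg (by omega), if_pos (by omega), zero_add]
  have hC3 : Module.finrank d.K₁ (LG d.K₁ d.ι (Lf P.K (w [])) (d.ι (lamf P.K w l) * G)) = P.nn w₀ * d.m := by
    apply le_antisymm
    · exact P.finrank_LG_le w₀ d hK.1.1 _ hC1
    · rw [LG_lamf w l d.ι hl h0 G]
      have h1 : LG d.K₁ d.ι (Lf P.K (w [])) G
          = LG (LS (LS D.K₁)) ((LS.C : LS D.A₁ →+* LS (LS D.A₁)).comp (LS.C.comp D.ι)) (Lf P.K (w []))
            (LS.tp 1 * G) := by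
        rw [← c3_tp_smul (K₁ := LS D.K₁)]
        refine (c3_LG_smul _ _ G (LS.tp 1 : LS (LS D.K₁)) ?_).symm
        intro h
        have h2 := congrArg (fun x => LS.coeff x 1) h
        beta_reduce at h2
        rw [LS.coeff_tp, if_pos rfl] at h2
        exact one_ne_zero h2
      have h2 := c3_finrank_LG_le (K₁ := LS D.K₁) (LS.C.comp D.ι) (Lf P.K (w [])) (LS.tp 1 * G) hGi
      rw [hG0, deg_of_res D.sym (Lf P.K (w [])) hLc V1 (bx_mono hFL (bx_mono hVF hV1V)) hV1i hV10] at h2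
      rw [h1]
      exact h2
  have hT : Tlin d.ι d.j (Zl P.K w l) G = bx1 d.K₁ d.ι (Zl P.K w l) :=
    c3_Tlin (Adm.ls D.κ D.ι D.j m D.sym.toAdm) (Ff P.K w) hFc (Zl P.K w l) inf_le_left G hGF V1 hGi hG0
      (fun y hy hc => by
        rw [hV1] at hc
        exact LM3 D.sym hmp (Ff P.K w) hFc (Vl P.K w l) h1V hVF v hm hVV y hy hc)
  obtain ⟨l', hl', hl'i, hl'0⟩ := (P.RES_ad w₀ d hK.1 l hl h0 _ hC1 hC2 hC3).exl
  obtain ⟨f1, f2, -⟩ := P.RES_f w₀ d hK l hl h0 G hGF _ rfl hC1 hC3 hT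
  have hGV := P.mem_res_V w₀ d l hl h0 G ν hν x hx' hxi hx0' l' hl' hl'i hl'0
  rw [f1 l' hl' hl'i hl'0, f2] at hGV
  have h3 := (mem_perp.1 hGV.2) (d.ι z) (ι_mem_bx1 hz)
  have h4 := congrArg (fun y => LS.coeff (LS.coeff y 0) 0) h3
  beta_reduce at h4
  rw [coeff_trc, coeff_trc] at h4
  have h5 : LS.coeff (LS.coeff (d.ι z * G) 0) 0 = D.ι z * Eb := by
    show LS.coeff (LS.coeff (LS.C (LS.C (D.ι z)) * G) 0) 0 = D.ι z * Eb
    rw [LS.coeff_C_mul, LS.coeff_C_mul, hG, LS.coeff_add, hG1, LS.coeff_tp_mul, LS.coeff_C, LS.coeff_C,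
      if_pos rfl, if_neg (by omega), add_zero, LS.coeff_C_zero]
  rw [h5] at h4
  rw [← hEb]
  exact h4

end Trip

end Vale.Agent.P199K
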