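import Vale.Agent.P199K.S7Stmt
import Vale.Agent.P199K.R1P
import Vale.Agent.P199K.CNP
import Vale.Agent.P199K.S7M5
import Vale.Agent.P199K.S7M6
import Vale.Agent.P199K.S7M7

/-! # P199, section 7, module S7M8: averaging and the end (helper99) -/

open scoped LaurentSeries
open PowerSeries

namespace Vale.Agent.P199K

section avg
variable {K A : Type} [Field K] [CharZero K] [Ring A] [Algebra K A]

/-- telescoping with weights -/
theorem s7_tele (a : ℕ → A) (n : ℕ) (hn : 1 ≤ n) (ha : a n = a 0) :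
    a 0 - (∑ i ∈ Finset.range n, ((i : K) / n) • a (i + 1) - ∑ i ∈ Finset.range n, ((i : K) / n) • a i)
      = (1 / (n : K)) • ∑ i ∈ Finset.range n, a i := by
  have hn0 : (n : K) ≠ 0 := Nat.cast_ne_zero.2 (by omega)
  have h1 : ∑ i ∈ Finset.range n, ((((i + 1 : ℕ) : K) / n) • a (i + 1) - ((i : K) / n) • a i)
      = ((n : K) / n) • a n - (((0 : ℕ) : K) / n) • a 0 :=
    Finset.sum_range_sub (fun i => ((i : K) / n) • a i) n
  rw [Finset.sum_sub_distrib] at h1
  have h2 : ∑ i ∈ Finset.range n, (((i + 1 : ℕ) : K) / n) • a (i + 1)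
      = ∑ i ∈ Finset.range n, ((i : K) / n) • a (i + 1)
        + (1 / (n : K)) • ∑ i ∈ Finset.range n, a (i + 1) := by
    rw [Finset.smul_sum, ← Finset.sum_add_distrib]
    refine Finset.sum_congr rfl (fun i _ => ?_)
    rw [← add_smul]
    congr 1
    push_cast
    ring
  have h3 : ∑ i ∈ Finset.range n, a (i + 1) = ∑ i ∈ Finset.range n, a i := by
    have h4 := Finset.sum_range_succ' a n
    have h5 := Finset.sum_range_succ a n
    rw [h5, ha] at h4
    exact (add_right_cancel h4).symm
  rw [h2, h3, div_self hn0, one_smul, ha, Nat.cast_zero, zero_div, zero_smul, sub_zero] at h1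
  rw [← h1]
  abel

/-- averaging over rotations -/
theorem s7_avg (g : List (Fin 2) → A) (n : ℕ) (hn : 1 ≤ n) (Vf Ce : Submodule K A)
    (h1 : ∀ u : List (Fin 2), u.length = n → g u ∈ Ce)
    (h2 : ∀ u : List (Fin 2), u.length = n → ∑ s ∈ Finset.range n, g (u.rotate s) ∈ Vf) :
    ∃ c : List (Fin 2) → A, (∀ u, c u ∈ Ce) ∧
      ∀ u : List (Fin 2), u.length = n → g u - (c u - c (u.rotate (n - 1))) ∈ Vf := by
  classical
  refine ⟨fun u => if u.length = n then
    ∑ i ∈ Finset.range n, ((i : K) / n) • g (u.rotate (i + 1)) else 0, ?_, ?_⟩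
  · intro u
    by_cases hu : u.length = n
    · simp only [if_pos hu]
      refine Submodule.sum_mem _ (fun i _ => Submodule.smul_mem _ _ (h1 _ ?_))
      rw [List.length_rotate, hu]
    · simp only [if_neg hu]
      exact Submodule.zero_mem _
  · intro u hu
    have hr : (u.rotate (n - 1)).length = n := by rw [List.length_rotate, hu]
    simp only [if_pos hu, if_pos hr]
    have h3 : ∀ i ∈ Finset.range n, ((i : K) / n) • g ((u.rotate (n - 1)).rotate (i + 1))
        = ((i : K) / n) • g (u.rotate i) := by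
      intro i _
      rw [List.rotate_rotate]
      have h4 : n - 1 + (i + 1) = n + i := by omega
      rw [h4, ← List.rotate_rotate]
      have h5 : u.rotate n = u := by
        conv_lhs => rw [← hu]
        exact List.rotate_length u
      rw [h5]
    rw [Finset.sum_congr rfl h3]
    have h6 := s7_tele (K := K) (fun i => g (u.rotate i)) n hn (by
      show g (u.rotate n) = g (u.rotate 0)
      have h5 : u.rotate n = u := by
        conv_lhs => rw [← hu]
        exact List.rotate_length u
      rw [h5, List.rotate_zero])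
    have h7 : g u = g (u.rotate 0) := by rw [List.rotate_zero]
    rw [h7, h6]
    exact Submodule.smul_mem _ _ (h2 u hu)

end avg

section dual
variable {K A : Type} [Field K] [CharZero K] [Ring A] [IsDomain A] [Algebra K A] [FiniteDimensional K A]

/-- `V ≤ F`, `x ∈ F` orthogonal to `F ∩ V^⊥` is in `V` -/
theorem s7_mem_of_perp (F : Subalgebra K A) (V : Submodule K A) (hVF : V ≤ Subalgebra.toSubmodule F)
    (x : A) (hx : x ∈ F)
    (h : ∀ z ∈ Subalgebra.toSubmodule F ⊓ perp V, trc K (z * x) = 0) : x ∈ V := by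
  have h1 : perp (perp (Subalgebra.toSubmodule F) ⊔ V) ≤ Subalgebra.toSubmodule F ⊓ perp V := by
    refine le_inf ?_ ?_
    · have h2 := perp_anti (le_sup_left : perp (Subalgebra.toSubmodule F) ≤
        perp (Subalgebra.toSubmodule F) ⊔ V)
      rwa [perp_perp] at h2
    · exact perp_anti le_sup_right
  have h3 : x ∈ perp (perp (perp (Subalgebra.toSubmodule F) ⊔ V)) := fun z hz => h z (h1 hz)
  rw [perp_perp] at h3
  obtain ⟨f, hf, v, hv, hfv⟩ := Submodule.mem_sup.1 h3
  have h4 : f ∈ Subalgebra.toSubmodule F := by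
    have h5 : f = x - v := by rw [← hfv]; abel
    rw [h5]
    exact Submodule.sub_mem _ hx (hVF hv)
  have h6 : f = 0 := tr_nondeg F h4 (fun y hy => hf y hy)
  rw [← hfv, h6, zero_add]
  exact hv

end dual

namespace Trip
variable {S : Stg} (w₀ : NPS (Fin 2) S.A)

/-- **property (c)** -/
theorem propC_of_CK_final (P : Trip S) (h : P.CK w₀) :
    PropC (ff P.K (P.Psi w₀)) (VfU P.K (P.Psi w₀)) (CeU P.K (P.Psi w₀)) := by
  intro ν b hb hν hO
  have hR1 : R1U P.K (P.Psi w₀) := R1_of_CR_proved w₀ P h.1.1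
  obtain ⟨l, hl, h0⟩ := (Submodule.ne_bot_iff _).1 h.1.1.1
  have hlam : lamf P.K (P.Psi w₀) l ≠ 0 := lamf_ne_zero _ _ h0
  obtain ⟨y, _, hy1, _⟩ := exists_inv_mem (⊤ : Subalgebra P.K P.A)
    (x := lamf P.K (P.Psi w₀) l) Algebra.mem_top hlam
  obtain ⟨E, hEd⟩ : ∃ E : List (Fin 2) → P.A,
      E = fun u => y * substHom b hb (ff P.K (P.Psi w₀)) u := ⟨_, rfl⟩
  have hE : ∀ u, substHom b hb (ff P.K (P.Psi w₀)) u = lamf P.K (P.Psi w₀) l * E u := by
    intro u
    rw [hEd]
    show _ = lamf P.K (P.Psi w₀) l * (y * _)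
    rw [← mul_assoc, hy1, one_mul]
  obtain ⟨m, hm1, hm⟩ := Nat.exists_infinite_primes (ν + P.dL w₀ + 1)
  obtain ⟨D⟩ := exists_symD P.K P.A m hm.pos
  have hL : ∀ u : List (Fin 2), u.length = ν → E u ∈ Lf P.K ((P.Psi w₀) []) :=
    s7_step1_proved w₀ P h l hl h0 ν hν b hb hO E hE hm (by omega) D
  have hF : ∀ u : List (Fin 2), u.length = ν → E u ∈ Ff P.K (P.Psi w₀) :=
    s7_step2_proved w₀ P h l hl h0 ν hν b hb hO E hE hm (by omega) D hL
  -- the sum over the rotations is in `V`
  have hV : ∀ u : List (Fin 2), u.length = ν →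
      ∑ s ∈ Finset.range ν, E (u.rotate s) ∈ Vl P.K (P.Psi w₀) l := by
    intro u hu
    have hsum : ∑ s ∈ Finset.range ν, E (u.rotate s) ∈ Ff P.K (P.Psi w₀) := by
      refine Subalgebra.sum_mem _ (fun s _ => hF _ ?_)
      rw [List.length_rotate, hu]
    refine s7_mem_of_perp (Ff P.K (P.Psi w₀)) _ (Vl_le_Ff _ l hl h0) _ hsum ?_
    intro z hz
    have hE1 : IsDomain D.E₁ := by
      have hj : Function.Injective D.j := by
        rw [injective_iff_map_eq_zero]
        intro e he
        have hb := (D.sym.toAdm.bas _ (Module.finBasis P.K P.A)).1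
        have h0 : (fun _ : Fin (Module.finrank P.K P.A) => e) = fun _ => 0 := by
          apply hb
          simp [he]
        exact congrFun h0 ⟨0, Module.finrank_pos⟩
      exact hj.isDomain (D.j : D.E₁ →+* D.A₁)
    have h2 := PI2 D.sym (fun u : List (Fin 2) => trc P.K (z * E u)) ν hν (by omega) (fun β => ?_) u hu
    · rw [Finset.mul_sum, map_sum]
      exact h2
    · have h3 := s7_step3_proved w₀ P h l hl h0 ν hν b hb hO E hE hm (by omega) (by omega) D hF z hz β
      unfold evh at h3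
      rw [Finset.mul_sum, map_sum] at h3
      rw [← h3]
      refine Finset.sum_congr rfl (fun v _ => ?_)
      rw [← mul_assoc, ← map_mul, D.sym.toAdm.trc_mul_cn]
  refine s7_avg _ ν hν _ _ ?_ ?_
  · intro u hu
    rw [CeU_eq _ l hl h0, hE u]
    exact ⟨E u, hF u hu, rfl⟩
  · intro u hu
    rw [VfU_eq _ l hR1 hl h0]
    refine ⟨∑ s ∈ Finset.range ν, E (u.rotate s), hV u hu, ?_⟩
    rw [LinearMap.mulLeft_apply, Finset.mul_sum]
    exact Finset.sum_congr rfl (fun s _ => (hE _).symm)

end Trip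

end Vale.Agent.P199K
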