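import Vale.Agent.P199K.StepC
import Vale.Agent.P199K.P3E
import Vale.Agent.P199K.P3F
import Vale.Agent.P199K.P3DG
import Vale.Agent.P199K.LM2P
import Vale.Agent.P199K.S7M8
import Vale.Agent.P199K.R1P
import Vale.Agent.P199K.Trip

/-! # P199, section 9: assembly, the base point `P₃` -/

open scoped LaurentSeries
open PowerSeries

namespace Vale.Agent.P199K

namespace Trip

variable {S : Stg}

/-- generation of the base point, for given second order terms -/
theorem p3g_gen (P : Trip S) (d : ExpD P.K P.A P.σ) (g : Fin 2 → d.A₁)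
    (hgen : Algebra.adjoin d.K₁ (Set.range (fun a => d.ι (P.iA a)) ∪ {g 0, g 1}) = ⊤)
    (θ c : P.σ → d.E₁)
    (hc : ∀ k, ∑ γ, d.ι (P.Lc k γ) * d.j (c γ) = g k - d.ι (P.Θ k))
    (hp : ∀ γ, d.p γ = PowerSeries.X * PowerSeries.C (θ γ)
        + PowerSeries.X ^ 2 * PowerSeries.C (c γ - θ γ)) : (P.expand d).GenΘ := by
  have hfd : FiniteDimensional d.K₁ d.A₁ := d.adm.fdA
  have hΘ : ∀ k, P.Θ' d k = LS.C (d.ι (P.Θ k)) + LS.mono 1 (∑ γ, d.ι (P.Lc k γ) * d.j (θ γ))
      + LS.mono 2 (∑ γ, d.ι (P.Lc k γ) * d.j (c γ - θ γ)) := by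
    intro k
    unfold Θ'
    rw [add_assoc]
    congr 1
    ext n
    rw [LS.coeff_sum, LS.coeff_add, LS.coeff_mono, LS.coeff_mono]
    have h1 : ∀ γ, LS.coeff (LS.C (d.ι (P.Lc k γ)) * LS.ofPS (PowerSeries.map (d.j : d.E₁ →+* d.A₁)
        (d.p γ))) n = (if n = 1 then d.ι (P.Lc k γ) * d.j (θ γ) else 0)
          + (if n = 2 then d.ι (P.Lc k γ) * d.j (c γ - θ γ) else 0) := by
      intro γ
      rw [LS.coeff_C_mul]
      by_cases hn : n < 0
      · rw [LS.coeff_ofPS_neg _ _ hn, if_neg (by omega), if_neg (by omega), mul_zero, add_zero]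
      · obtain ⟨i, rfl⟩ : ∃ i : ℕ, n = i := ⟨n.toNat, by omega⟩
        rw [LS.coeff_ofPS, PowerSeries.coeff_map, hp, map_add,
          ← pow_one (PowerSeries.X : PowerSeries d.E₁),
          ← pow_mul, PowerSeries.coeff_X_pow_mul', PowerSeries.coeff_X_pow_mul',
          PowerSeries.coeff_C, PowerSeries.coeff_C]
        by_cases h1 : i = 1
        · subst h1
          simp
        · by_cases h2 : i = 2
          · subst h2
            simp
          · have h3 : ¬ ((i : ℤ) = 1) := by exact_mod_cast h1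
            have h4 : ¬ ((i : ℤ) = 2) := by exact_mod_cast h2
            rw [if_neg h3, if_neg h4]
            by_cases h5 : i = 0
            · subst h5
              simp
            · have h6 : i - 1 ≠ 0 := by omega
              have h7 : i - 2 ≠ 0 := by omega
              simp [h6, h7]
    simp only [h1]
    rw [Finset.sum_add_distrib]
    congr 1
    · split_ifs
      · rfl
      · simp
    · split_ifs
      · rfl
      · simp
  have h := gen_poly (K₁ := d.K₁) (Set.range (fun a => d.ι (P.iA a))) (fun k => d.ι (P.Θ k))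
    (fun k => ∑ γ, d.ι (P.Lc k γ) * d.j (θ γ)) (fun k => ∑ γ, d.ι (P.Lc k γ) * d.j (c γ - θ γ)) (by
      have h2 : ∀ k, d.ι (P.Θ k) + ∑ γ, d.ι (P.Lc k γ) * d.j (θ γ)
          + ∑ γ, d.ι (P.Lc k γ) * d.j (c γ - θ γ) = g k := by
        intro k
        have h3 := hc k
        simp only [map_sub, mul_sub, Finset.sum_sub_distrib]
        rw [h3]
        abel
      rw [h2, h2]
      exact hgen) (P.Θ' d) hΘ
  have h4 : (LS.C : d.A₁ →+* LS d.A₁) '' (Set.range (fun a => d.ι (P.iA a))) = Set.range (P.iA' d) := by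
    rw [← Set.range_comp]
    rfl
  rw [h4] at h
  exact h

/-- expansion data from symbol data without Laurent step -/
@[reducible] noncomputable def p3g_sym0 {K A σ : Type} [Field K] [Ring A] [Algebra K A] {m : ℕ}
    (D : SymD K A m) : ExpD K A σ where
  m := m
  K₁ := D.K₁
  E₁ := D.E₁
  A₁ := D.A₁
  B := Fin (Module.finrank D.K₁ D.E₁)
  κ := D.κ
  ι := D.ι
  j := D.j
  adm := D.sym.toAdm
  ε := haveI := D.sym.fdE; Module.finBasis D.K₁ D.E₁
  p := fun _ => 0
  hp := fun _ => map_zero _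

variable (w₀ : NPS (Fin 2) S.A)

/-- section 9 -/
theorem exists_P3_proved (P : Trip S) (h : P.CK w₀) : ∃ Q, Reach P Q ∧ Q.CK w₀ ∧ Q.GenΘ ∧
    (∃ e₁ e₂, GoodPair (ff Q.K (Q.Psi w₀)) (VfU Q.K (Q.Psi w₀)) (CeU Q.K (Q.Psi w₀)) e₁ e₂) ∧
    Module.finrank Q.K (VfU Q.K (Q.Psi w₀)) * Module.finrank S.K S.A < Module.finrank Q.K Q.A := by
  classical
  obtain ⟨l, hl, h0⟩ : ∃ l ∈ calL P.K (P.Psi w₀), l ≠ 0 :=
    (Submodule.ne_bot_iff _).1 h.1.1.1
  set w := P.Psi w₀ with hw
  set V := Vl P.K w l with hVdef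
  set F := Ff P.K w with hFdef
  set q := Module.finrank P.K V with hq
  have hR1 : R1U P.K w := R1_of_CR_proved w₀ P h.1.1
  obtain ⟨m, hm, hmp⟩ := Nat.exists_infinite_primes (2 * q + 7 + Module.finrank S.K S.A + 1)
  obtain ⟨D⟩ := exists_symD P.K P.A m hmp.pos
  have hcz : CharZero D.K₁ := charZero_of_injective_ringHom D.κ.injective
  let v : Module.Basis (Fin q) P.K V := Module.finBasis P.K V
  let G : LS D.A₁ := vv D.ι D.j D.X D.Y (fun l => (v l : P.A))
  have h1V : (1 : P.A) ∈ V := one_mem_Vl w l hl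
  have hVF : V ≤ Subalgebra.toSubmodule F := Vl_le_Ff w l hl h0
  have hFL : F ≤ Lf P.K (w []) := Ff_le_Lf w
  have hLc : ∀ a ∈ Lf P.K (w []), ∀ b ∈ Lf P.K (w []), a * b = b * a :=
    fun a ha b hb => Lf_comm (w []) ha hb
  have hFc : ∀ a ∈ F, ∀ b ∈ F, a * b = b * a := fun a ha b hb => hLc a (hFL ha) b (hFL hb)
  have hGV : G ∈ bx (LS.C.comp D.ι) (lsj D.j) V :=
    vv_mem D.ι D.j D.sym.comm D.X D.Y V h1V v
  have hbx : ∀ {U U' : Submodule P.K P.A}, U ≤ U' →
      bx (LS.C.comp D.ι) (lsj D.j) U ≤ bx (LS.C.comp D.ι) (lsj D.j) U' := by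
    intro U U' h
    refine Submodule.span_mono ?_
    rintro x ⟨e, u, hu, rfl⟩
    exact ⟨e, u, h hu, rfl⟩
  have hGF : G ∈ bx (LS.C.comp D.ι) (lsj D.j) (Subalgebra.toSubmodule F) := hbx hVF hGV
  have hGL : G ∈ bx (LS.C.comp D.ι) (lsj D.j) (Subalgebra.toSubmodule (Lf P.K (w []))) :=
    hbx hFL hGF
  have hGi : LS.Intg G := by
    show LS.Intg (LS.C _ + LS.mono 1 _)
    refine LS.Intg.add (LS.Intg.C _) (fun n hn => ?_)
    rw [LS.coeff_mono, if_neg (by omega)]
  have hG0 : LS.coeff G 0 = D.j D.X := by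
    show LS.coeff (LS.C _ + LS.mono 1 _) 0 = _
    rw [LS.coeff_add, LS.coeff_C_zero, LS.coeff_mono, if_neg (by omega), add_zero]
  have hdeg := deg_of_res D.sym (Lf P.K (w [])) hLc G hGL hGi hG0
  -- first order term
  let d0 : ExpD P.K P.A P.σ := ExpD.sym1 D (fun _ => 0) (fun _ => map_zero _)
  obtain ⟨θ, hθ⟩ := exists_theta w₀ P d0 hR1 l hl h0 G hGV
  -- second order term
  obtain ⟨g₁, g₂, hg₁, hg₂, hgen⟩ := P.gen' (p3g_sym0 D)
  obtain ⟨c, hc, -⟩ := tripL_bij d0.adm (fun a => P.iA a) P.Lc P.L_bij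
    (fun k => ![g₁, g₂] k - d0.ι (P.Θ k)) (by
      intro k x
      have h1 : ![g₁, g₂] k * d0.ι (P.iA x) = d0.ι (P.iA x) * ![g₁, g₂] k := by
        fin_cases k
        · exact hg₁ x
        · exact hg₂ x
      rw [sub_mul, mul_sub, h1, ← map_mul, P.comm_Θ, map_mul])
  let p : P.σ → PowerSeries (LS D.E₁) := fun γ => PowerSeries.X * PowerSeries.C (θ γ)
    + PowerSeries.X ^ 2 * PowerSeries.C (c γ - θ γ)
  have hp0 : ∀ γ, PowerSeries.constantCoeff (p γ) = 0 := by
    intro γ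
    show PowerSeries.constantCoeff (PowerSeries.X * PowerSeries.C (θ γ)
      + PowerSeries.X ^ 2 * PowerSeries.C (c γ - θ γ)) = 0
    simp
  let d : ExpD P.K P.A P.σ := ExpD.sym1 D p hp0
  have hp1 : (fun γ => PowerSeries.coeff 1 (d.p γ)) = θ := by
    funext γ
    show PowerSeries.coeff 1 (PowerSeries.X * PowerSeries.C (θ γ)
      + PowerSeries.X ^ 2 * PowerSeries.C (c γ - θ γ)) = θ γ
    rw [map_add, ← pow_one (PowerSeries.X : PowerSeries (LS D.E₁)), ← pow_mul,
      PowerSeries.coeff_X_pow_mul', PowerSeries.coeff_X_pow_mul']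
    simp
  have hθ' : lin1 d.ι d.j (ff P.K w) (fun γ => PowerSeries.coeff 1 (d.p γ))
      = d.ι (lamf P.K w l) * G := by
    rw [hp1]
    exact hθ
  have hC1 := resC_mem w₀ P d _ hθ'
  have hC3 : Module.finrank d.K₁ (LG d.K₁ d.ι (Lf P.K (w [])) (d.ι (lamf P.K w l) * G))
      = P.nn w₀ * d.m := by
    rw [LG_lamf w l d.ι hl h0 G]
    exact hdeg
  have hV2 : V ^ 2 = Subalgebra.toSubmodule F := (VpU_iff w l hl h0 2).1 h.2.1
  have hVV : V * V = Subalgebra.toSubmodule F := by rw [← hV2, sq]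
  have hT : Tlin d.ι d.j (Zl P.K w l) G = bx1 d.K₁ d.ι (Zl P.K w l) := by
    refine le_antisymm ?_ ?_
    · intro z hz
      obtain ⟨hz1, hz2⟩ := hz
      refine LM3 D.sym hmp F hFc V h1V hVF v (by omega) hVV z hz1 ?_
      exact ((mem_centralizer_singleton (K := d.K₁) (W := G) (x := z)).1 hz2).symm
    · refine Submodule.span_le.2 ?_
      rintro _ ⟨u, hu, rfl⟩
      refine ⟨Submodule.subset_span ⟨1, u, hu, ?_⟩, ?_⟩
      · rw [map_one, mul_one]
      · refine (mem_centralizer_singleton (K := d.K₁) (W := G) (x := d.ι u)).2 ?_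
        have huF : u ∈ F := hu.1
        have h2 : ∀ x ∈ bx (K₁ := d.K₁) d.ι d.j (Subalgebra.toSubmodule F),
            x * d.ι u = d.ι u * x := by
          intro x hx
          unfold bx at hx
          induction hx using Submodule.span_induction with
          | mem x hx =>
            obtain ⟨e, a, ha, rfl⟩ := hx
            rw [mul_assoc, ← d.adm.comm, ← mul_assoc, ← mul_assoc, ← map_mul, ← map_mul,
              hFc a ha u huF]
          | zero => rw [zero_mul, mul_zero]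
          | add x y _ _ hx hy => rw [add_mul, mul_add, hx, hy]
          | smul c x _ hx => rw [smul_mul_assoc, mul_smul_comm, hx]
        exact h2 G hGF
  have hres := RES_f w₀ P d h l hl h0 G hGF _ rfl hC1 hC3 hT
  have hfd : FiniteDimensional D.K₁ D.A₁ := D.sym.toAdm.fdA
  have hgood : LinGood (LS D.K₁) ((LS.C : D.A₁ →+* LS D.A₁).comp D.ι) (lsj D.j) F V G :=
    LM2_proved D.sym hmp F hFc V h1V hVF v (by omega) hVV
  refine ⟨P.expand d, Reach.step P P d (Reach.refl P), hres.2.2.2, ?_, ?_, ?_⟩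
  · refine P.p3g_gen d ![g₁, g₂] ?_ θ c hc (fun γ => rfl)
    exact hgen
  · have i1 : CharZero d.K₁ := charZero_of_injective_ringHom d.κ.injective
    have i2 : FiniteDimensional d.K₁ d.A₁ := d.adm.fdA
    exact p3_goodpair_proved w₀ P d hR1 (R1_of_CR_proved w₀ (P.expand d) hres.2.2.2.1.1)
      (propC_of_CK_final w₀ (P.expand d) hres.2.2.2) h l hl h0 G hGF hθ' hC3 hT hgood
  · exact p3_hdim_of_R1 w₀ P d (R1_of_CR_proved w₀ (P.expand d) hres.2.2.2.1.1)
      (show Module.finrank S.K S.A < m by omega)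

end Trip

end Vale.Agent.P199K
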