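import Vale.Agent.P199K.ResStmt
import Vale.Agent.P199K.LM
import Vale.Agent.P199K.Adm
import Vale.Agent.P199K.StartP

/-! # P199: `V² = F` is reachable (exists_V2) -/

open scoped TensorProduct LaurentSeries
open PowerSeries

namespace Vale.Agent.P199K

section Gen
variable {K A : Type} [Field K] [Ring A] [IsDomain A] [Algebra K A] [FiniteDimensional K A]

/-- powers of a generating subspace containing `1` fill the algebra -/
theorem v2_exists_pow (V : Submodule K A) (h1 : (1 : A) ∈ V) (F : Subalgebra K A)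
    (hF : F = Algebra.adjoin K (V : Set A)) :
    ∃ k, ∀ n, k ≤ n → V ^ n = Subalgebra.toSubmodule F := by
  have hle : (1 : Submodule K A) ≤ V := by
    rw [Submodule.one_le]; exact h1
  have hmono : Monotone (fun n : ℕ => V ^ n) := by
    refine monotone_nat_of_le_succ (fun n => ?_)
    calc V ^ n = V ^ n * 1 := (mul_one _).symm
      _ ≤ V ^ n * V := mul_le_mul' le_rfl hle
      _ = V ^ (n + 1) := (pow_succ V n).symm
  have hVF : ∀ n, V ^ n ≤ Subalgebra.toSubmodule F := by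
    intro n
    induction n with
    | zero =>
      rw [pow_zero, Submodule.one_le]; exact F.one_mem
    | succ n ih =>
      rw [pow_succ]
      refine Submodule.mul_le.2 (fun a ha b hb => ?_)
      refine F.mul_mem (ih ha) ?_
      rw [hF]; exact Algebra.subset_adjoin hb
  obtain ⟨k, hk⟩ := monotone_stabilizes_iff_noetherian.2 (inferInstance : IsNoetherian K A)
    ⟨fun n => V ^ n, hmono⟩
  have hk' : ∀ n, k ≤ n → V ^ k = V ^ n := hk
  refine ⟨k, fun n hn => ?_⟩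
  rw [← hk' n hn]
  refine le_antisymm (hVF k) ?_
  -- `V ^ k` is a subalgebra containing `V`
  have hmul : V ^ k * V ^ k ≤ V ^ k := by
    rw [← pow_add, ← hk' (k + k) (by omega)]
  have hVk : V ≤ V ^ k := by
    calc V = V ^ 1 := (pow_one V).symm
      _ ≤ V ^ (k + 1) := hmono (by omega)
      _ = V ^ k := (hk' (k + 1) (by omega)).symm
  have h1k : (1 : A) ∈ V ^ k := hVk h1
  let B : Subalgebra K A :=
    { carrier := (V ^ k : Submodule K A)
      mul_mem' := fun {a b} ha hb => hmul (Submodule.mul_mem_mul ha hb)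
      add_mem' := fun {a b} ha hb => (V ^ k).add_mem ha hb
      algebraMap_mem' := fun r => by
        rw [Algebra.algebraMap_eq_smul_one]; exact (V ^ k).smul_mem r h1k }
  have hB : F ≤ B := by
    rw [hF]
    exact Algebra.adjoin_le (fun a ha => hVk ha)
  intro a ha
  exact hB ha

end Gen

section LGfacts
variable {K A K₁ A₁ : Type} [Field K] [Ring A] [IsDomain A] [Algebra K A] [FiniteDimensional K A]
  [Field K₁] [Ring A₁] [Algebra K₁ A₁]

/-- scaling by a unit of `L` does not change `L₁[G]` -/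
theorem v2_LG_scale (ι : A →+* A₁) (L : Subalgebra K A) (a : A) (ha : a ∈ L) (h0 : a ≠ 0) (G : A₁) :
    LG K₁ ι L (ι a * G) = LG K₁ ι L G := by
  obtain ⟨b, hb, hab⟩ : ∃ b ∈ L, b * a = 1 := by
    obtain ⟨b, hb, h1, h2⟩ := exists_inv_mem L ha h0
    exact ⟨b, hb, by first | exact h1 | exact h2⟩
  refine le_antisymm ?_ ?_
  · refine Algebra.adjoin_le ?_
    rintro x (⟨l, hl, rfl⟩ | hx)
    · exact Algebra.subset_adjoin (Or.inl ⟨l, hl, rfl⟩)
    · rw [Set.mem_singleton_iff] at hx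
      subst hx
      exact Subalgebra.mul_mem _ (Algebra.subset_adjoin (Or.inl ⟨a, ha, rfl⟩))
        (Algebra.subset_adjoin (Or.inr rfl))
  · refine Algebra.adjoin_le ?_
    rintro x (⟨l, hl, rfl⟩ | hx)
    · exact Algebra.subset_adjoin (Or.inl ⟨l, hl, rfl⟩)
    · rw [Set.mem_singleton_iff] at hx
      subst hx
      have h3 : ι b * (ι a * x) ∈ LG K₁ ι L (ι a * x) :=
        Subalgebra.mul_mem _ (Algebra.subset_adjoin (Or.inl ⟨b, hb, rfl⟩))
          (Algebra.subset_adjoin (Or.inr rfl))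
      rwa [← mul_assoc, ← map_mul, hab, map_one, one_mul] at h3

end LGfacts

section Ext
variable {K A : Type} [Field K] [CharZero K] [Ring A] [IsDomain A] [Algebra K A] [FiniteDimensional K A]

/-- expansion data over `LS` of symbol data -/
noncomputable def symExp {m : ℕ} (D : SymD K A m) {σ : Type} (p : σ → PowerSeries (LS D.E₁))
    (hp : ∀ γ, PowerSeries.constantCoeff (p γ) = 0) : ExpD K A σ :=
  haveI : FiniteDimensional D.K₁ D.E₁ := D.sym.fdE
  haveI : FiniteDimensional (LS D.K₁) (LS D.E₁) := fd_ls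
  { m := m
    K₁ := LS D.K₁
    E₁ := LS D.E₁
    A₁ := LS D.A₁
    B := Fin (Module.finrank (LS D.K₁) (LS D.E₁))
    κ := LS.C.comp D.κ
    ι := LS.C.comp D.ι
    j := lsj D.j
    adm := Adm.ls D.κ D.ι D.j m D.sym.toAdm
    ε := Module.finBasis (LS D.K₁) (LS D.E₁)
    p := p
    hp := hp }

end Ext

namespace Trip
variable {S : Stg} (w₀ : NPS (Fin 2) S.A)

/-- halving the exponent -/
theorem v2_step (hR : ∀ P : Trip S, P.CR w₀ → R1U P.K (P.Psi w₀))
    (P : Trip S) (hE : P.CE w₀) (i : ℕ) (hi : 2 ≤ i) (hV : P.Vp w₀ (2 * i)) :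
    ∃ Q, Reach P Q ∧ Q.CE w₀ ∧ Q.Vp w₀ i := by
  classical
  obtain ⟨l, hl, h0⟩ : ∃ l ∈ calL P.K (P.Psi w₀), l ≠ 0 :=
    (Submodule.ne_bot_iff _).1 hE.1.1
  set w := P.Psi w₀ with hw
  set V := Vl P.K w l with hVdef
  set F := Ff P.K w with hFdef
  set q := Module.finrank P.K V with hq
  have hR1 : R1U P.K w := hR P hE.1
  obtain ⟨m, hm, hmp⟩ := Nat.exists_infinite_primes (q + 3)
  obtain ⟨D⟩ := exists_symD P.K P.A m hmp.pos
  have : CharZero D.K₁ := charZero_of_injective_ringHom D.κ.injective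
  let v : Module.Basis (Fin q) P.K V := Module.finBasis P.K V
  let G : LS D.A₁ := vv D.ι D.j D.X D.Y (fun l => (v l : P.A))
  have h1V : (1 : P.A) ∈ V := one_mem_Vl w l hl
  have hVF : V ≤ Subalgebra.toSubmodule F := Vl_le_Ff w l hl h0
  have hFL : F ≤ Lf P.K (w []) := Ff_le_Lf w
  have hLc : ∀ a ∈ Lf P.K (w []), ∀ b ∈ Lf P.K (w []), a * b = b * a :=
    fun a ha b hb => Lf_comm (w []) ha hb
  have hFc : ∀ a ∈ F, ∀ b ∈ F, a * b = b * a := fun a ha b hb => hLc a (hFL ha) b (hFL hb)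
  have hGV : G ∈ bx (LS.C.comp D.ι) (lsj D.j) V :=
    vv_mem D.ι D.j D.sym.comm D.X D.Y V h1V v
  -- data with p = 0
  let d0 : ExpD P.K P.A P.σ := symExp D (fun _ => 0) (fun _ => by simp)
  obtain ⟨θ, hθ⟩ := exists_theta w₀ P d0 hR1 l hl h0 G hGV
  let p : P.σ → PowerSeries (LS D.E₁) := fun γ => PowerSeries.monomial 1 (θ γ)
  let d : ExpD P.K P.A P.σ := symExp D p (fun γ => by
    show PowerSeries.constantCoeff (PowerSeries.monomial 1 (θ γ)) = 0
    rw [← PowerSeries.coeff_zero_eq_constantCoeff_apply, PowerSeries.coeff_monomial, if_neg (by omega)])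
  have hlam0 : lamf P.K w l ≠ 0 := mul_ne_zero (dpW_ne_zero w) h0
  have hlamL : lamf P.K w l ∈ Lf P.K (w []) := by
    refine Subalgebra.mul_mem _ ?_ (calL_le w hl)
    exact Polynomial.aeval_mem_adjoin_singleton P.K (w [])
  obtain ⟨e1, e2, e3⟩ := eh_nil_coeff P d (ff P.K (P.Psi w₀))
  have hp1 : (fun γ => PowerSeries.coeff 1 (d.p γ)) = θ := by
    funext γ
    show PowerSeries.coeff 1 (PowerSeries.monomial 1 (θ γ)) = θ γ
    rw [PowerSeries.coeff_monomial, if_pos rfl]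
  rw [hp1] at e3
  let G' : d.A₁ := G
  set C : d.A₁ := d.ι (lamf P.K w l) * G' with hC
  have e3' : LS.coeff (P.eh d (ff P.K (P.Psi w₀)) []) 1 = C := by rw [e3]; exact hθ
  have e2' : LS.coeff (P.eh d (ff P.K (P.Psi w₀)) []) 0 = 0 := by
    rw [e2, start_ff_nil]; exact map_zero _
  have hC1 : C ∈ res (Subalgebra.toSubmodule (Lf (LS d.K₁) ((wx w₀ P d) []))) := by
    refine (mem_res _ _).2 ⟨LS.tp (-1) * P.eh d (ff P.K (P.Psi w₀)) [], ?_, ?_, ?_⟩
    · have h1 := eh_ff_mem w₀ P d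
      have h2 := Subalgebra.algebraMap_mem (Lf (LS d.K₁) ((wx w₀ P d) [])) (LS.tp (-1) : LS d.K₁)
      rw [LS.algebraMap_tp] at h2
      exact Subalgebra.mul_mem _ h2 h1
    · intro n hn
      rw [LS.coeff_tp_mul]
      by_cases h3 : n = -1
      · subst h3
        rw [show (-1 : ℤ) - -1 = 0 by norm_num, e2']
      · exact e1 _ (by omega)
    · rw [LS.coeff_tp_mul, show (0 : ℤ) - -1 = 1 by norm_num, e3']
  have hbx : ∀ {U U' : Submodule P.K P.A}, U ≤ U' →
      bx (LS.C.comp D.ι) (lsj D.j) U ≤ bx (LS.C.comp D.ι) (lsj D.j) U' := by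
    intro U U' h
    refine Submodule.span_mono ?_
    rintro x ⟨e, u, hu, rfl⟩
    exact ⟨e, u, h hu, rfl⟩
  have hGF : G ∈ bx (LS.C.comp D.ι) (lsj D.j) (Subalgebra.toSubmodule F) := hbx hVF hGV
  have hGL : G ∈ bx (LS.C.comp D.ι) (lsj D.j) (Subalgebra.toSubmodule (Lf P.K (w []))) := hbx hFL hGF
  have hGi : LS.Intg G := by
    show LS.Intg (LS.C _ + LS.mono 1 _)
    refine LS.Intg.add (LS.Intg.C _) (fun n hn => ?_)
    rw [LS.coeff_mono, if_neg (by omega)]
  have hG0 : LS.coeff G 0 = D.j D.X := by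
    show LS.coeff (LS.C _ + LS.mono 1 _) 0 = _
    rw [LS.coeff_add, LS.coeff_C_zero, LS.coeff_mono, if_neg (by omega), add_zero]
  have hdeg := deg_of_res D.sym (Lf P.K (w [])) hLc G hGL hGi hG0
  have hC3 : Module.finrank d.K₁ (LG d.K₁ d.ι (Lf P.K ((P.Psi w₀) [])) C) = P.nn w₀ * d.m := by
    have h1 := v2_LG_scale (K₁ := d.K₁) d.ι (Lf P.K (w [])) (lamf P.K w l) hlamL hlam0 G'
    rw [hC]
    have h2 : LG d.K₁ d.ι (Lf P.K ((P.Psi w₀) [])) (d.ι (lamf P.K w l) * G')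
      = LG d.K₁ d.ι (Lf P.K ((P.Psi w₀) [])) G' := h1
    rw [h2]
    exact hdeg
  have hC2 : C ∈ bx d.ι d.j (Subalgebra.toSubmodule (Lf P.K ((P.Psi w₀) []))) := by
    have h1 : ∀ g ∈ bx d.ι d.j (Subalgebra.toSubmodule (Lf P.K (w []))),
        d.ι (lamf P.K w l) * g ∈ bx d.ι d.j (Subalgebra.toSubmodule (Lf P.K (w []))) := by
      intro g hg
      refine Submodule.span_induction ?_ ?_ ?_ ?_ hg
      · rintro _ ⟨e, u, hu, rfl⟩
        refine Submodule.subset_span ⟨e, lamf P.K w l * u, Subalgebra.mul_mem _ hlamL hu, ?_⟩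
        rw [map_mul, mul_assoc]
      · rw [mul_zero]; exact Submodule.zero_mem _
      · intro a b _ _ ha hb
        rw [mul_add]; exact Submodule.add_mem _ ha hb
      · intro c a _ ha
        rw [mul_smul_comm]; exact Submodule.smul_mem _ c ha
    exact h1 _ hGL
  have hres := RES_ad w₀ P d hE l hl h0 C hC1 hC2 hC3
  obtain ⟨r1, r2, r3, r4⟩ := RES_e w₀ P d hE l hl h0 G' hGF C hC hC1 hC3
  refine ⟨P.expand d, Reach.step P P d (Reach.refl P), hres.CE', hres.Vp' i ?_⟩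
  have hVV : VVr d.ι d.j (Lf P.K ((P.Psi w₀) [])) (Vl P.K (P.Psi w₀) l) C
      = Submodule.map (pr (LG (LS D.K₁) ((LS.C : D.A₁ →+* LS D.A₁).comp D.ι) F G))
        (bx (LS.C.comp D.ι) (lsj D.j) V) := by
    have h1 : ∀ g ∈ bx (LS.C.comp D.ι) (lsj D.j) V,
        proj (Subalgebra.toSubmodule (LG d.K₁ d.ι (Lf P.K ((P.Psi w₀) [])) C)) g
          = pr (LG (LS D.K₁) ((LS.C : D.A₁ →+* LS D.A₁).comp D.ι) F G) g := by
      intro g hg
      have h2 := r3 g (hbx hVF hg)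
      have i1 : FiniteDimensional d.K₁ d.A₁ := d.adm.fdA
      have i2 : CharZero d.K₁ := charZero_of_injective_ringHom d.κ.injective
      rw [h2, proj_eq_pr]
      rfl
    ext a
    constructor
    · rintro ⟨g, hg, rfl⟩
      exact ⟨g, hg, (h1 g hg).symm⟩
    · rintro ⟨g, hg, rfl⟩
      exact ⟨g, hg, h1 g hg⟩
  rw [hVV, r1]
  exact LM1 D.sym hmp F hFc V h1V hVF v (by omega) (by omega) i hi ((VpU_iff w l hl h0 _).1 hV)

/-- `V² = F` is reachable -/
theorem exists_V2_proved (hR : ∀ P : Trip S, P.CR w₀ → R1U P.K (P.Psi w₀))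
    (P : Trip S) (hE : P.CE w₀) : ∃ Q, Reach P Q ∧ Q.CE w₀ ∧ Q.Vp w₀ 2 := by
  have key : ∀ s : ℕ, 1 ≤ s → ∀ P : Trip S, P.CE w₀ → P.Vp w₀ (2 ^ s) →
      ∃ Q, Reach P Q ∧ Q.CE w₀ ∧ Q.Vp w₀ 2 := by
    intro s
    induction s with
    | zero => intro h; omega
    | succ s ih =>
      intro _ P hE hV
      by_cases hs : s = 0
      · subst hs
        exact ⟨P, Reach.refl P, hE, by simpa using hV⟩
      · obtain ⟨Q, h1, h2, h3⟩ := v2_step w₀ hR P hE (2 ^ s) (by
          calc 2 = 2 ^ 1 := rfl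
            _ ≤ 2 ^ s := Nat.pow_le_pow_right (by norm_num) (by omega)) (by
          rw [← pow_succ']; exact hV)
        obtain ⟨Q', h4, h5, h6⟩ := ih (by omega) Q h2 h3
        exact ⟨Q', h1.trans h4, h5, h6⟩
  obtain ⟨l, hl, h0⟩ : ∃ l ∈ calL P.K (P.Psi w₀), l ≠ 0 :=
    (Submodule.ne_bot_iff _).1 hE.1.1
  obtain ⟨k, hk⟩ := v2_exists_pow (Vl P.K (P.Psi w₀) l) (one_mem_Vl _ l hl) (Ff P.K (P.Psi w₀))
    (Ff_eq_adjoin _ l hl h0)
  refine key (k + 1) (by omega) P hE ?_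
  refine (VpU_iff (P.Psi w₀) l hl h0 _).2 (hk _ ?_)
  have := (Nat.lt_two_pow_self (n := k + 1))
  omega

end Trip

end Vale.Agent.P199K
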