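import Vale.Agent.P199K.CNP
import Vale.Agent.P199K.Dens
import Vale.Agent.P199K.StartP
import Vale.Agent.P199K.VfCe
import Vale.Agent.P199K.V2P
import Vale.Agent.P199K.LemN
import Vale.Agent.P199K.R1P
import Vale.Agent.P199K.S7M8
import Vale.Agent.P199K.P3G

/-! # P199: the main step -/

open scoped TensorProduct LaurentSeries
open PowerSeries

namespace Vale.Agent.P199K

namespace Trip
variable {S : Stg} (w₀ : NPS (Fin 2) S.A)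

/-- the trivial triple over `S` -/
noncomputable def start (S : Stg) : Trip S where
  K := S.K
  A := S.A
  σ := Fin 2
  iK := RingHom.id _
  iA := RingHom.id _
  compat := fun _ => rfl
  Psi := RingHom.id _
  Psi_C := fun _ => rfl
  Θ := 0
  Lc := fun k γ => if γ = k then 1 else 0
  Psi_X := start_Psi_X
  comm_Θ := by intro k a; simp
  comm_Lc := by intro k γ a; by_cases h : γ = k <;> simp [h]
  L_bij := start_L_bij
  card_σ := by simp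
  gen := start_gen
  CL := start_CL

/-- Lemma N -/
theorem lemmaN (P : Trip S) (h : ∀ Q, Reach P Q → ¬ Q.CN w₀) : ff P.K (P.Psi w₀) = 0 :=
  lemmaN_proved w₀ P h

/-- expansions of `N`-triples are `N`-triples -/
theorem CN_reach (P Q : Trip S) (h : P.CN w₀) (hr : Reach P Q) : Q.CN w₀ :=
  CN_reach_proved w₀ P Q h hr

theorem exists_CR (P : Trip S) (h : P.CN w₀) : ∃ Q, Reach P Q ∧ Q.CR w₀ := by
  obtain ⟨Q, hQ, hmin⟩ := exists_min_nat (fun Q : Trip S => Q.rho w₀) (fun Q => Reach P Q)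
    ⟨P, Reach.refl P⟩
  exact ⟨Q, hQ, CN_reach w₀ P Q h hQ, fun Q' hQ' => hmin Q' (hQ.trans hQ')⟩

theorem exists_CE (P : Trip S) (h : P.CR w₀) : ∃ Q, Reach P Q ∧ Q.CE w₀ := by
  obtain ⟨Q, hQ, hmin⟩ := exists_min_nat (fun Q : Trip S => Q.nn w₀ / Q.n1 w₀)
    (fun Q => Reach P Q ∧ Q.CR w₀) ⟨P, Reach.refl P, h⟩
  exact ⟨Q, hQ.1, hQ.2, fun Q' hQ' h' => hmin Q' ⟨hQ.1.trans hQ', h'⟩⟩

/-- R1 -/
theorem R1_of_CR (P : Trip S) (h : P.CR w₀) : R1U P.K (P.Psi w₀) :=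
  R1_of_CR_proved w₀ P h

/-- LM1, iterated -/
theorem exists_V2 (P : Trip S) (h : P.CE w₀) : ∃ Q, Reach P Q ∧ Q.CE w₀ ∧ Q.Vp w₀ 2 :=
  exists_V2_proved w₀ (fun P h => R1_of_CR w₀ P h) P h

theorem exists_CK (P : Trip S) (h : P.CE w₀) (h2 : P.Vp w₀ 2) : ∃ Q, Reach P Q ∧ Q.CK w₀ := by
  obtain ⟨Q, hQ, hmin⟩ := exists_min_nat (fun Q : Trip S => Q.kap w₀)
    (fun Q => Reach P Q ∧ Q.CE w₀ ∧ Q.Vp w₀ 2) ⟨P, Reach.refl P, h, h2⟩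
  exact ⟨Q, hQ.1, hQ.2.1, hQ.2.2, fun Q' hQ' h1' h2' => hmin Q' ⟨hQ.1.trans hQ', h1', h2'⟩⟩

/-- section 7 -/
theorem propC_of_CK (P : Trip S) (h : P.CK w₀) :
    PropC (ff P.K (P.Psi w₀)) (VfU P.K (P.Psi w₀)) (CeU P.K (P.Psi w₀)) :=
  propC_of_CK_final w₀ P h

theorem VfU_le_CeU (P : Trip S) (h : P.CR w₀) : VfU P.K (P.Psi w₀) ≤ CeU P.K (P.Psi w₀) :=
  vfce_VfU_le_CeU_of_R1 _ (R1_of_CR w₀ P h)

theorem finrank_VfU (P : Trip S) (h : P.CR w₀) :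
    Module.finrank P.K (VfU P.K (P.Psi w₀)) = P.dL w₀ :=
  vfce_finrank_VfU_of_R1 _ (R1_of_CR w₀ P h)

/-- section 9 -/
theorem exists_P3 (P : Trip S) (h : P.CK w₀) : ∃ Q, Reach P Q ∧ Q.CK w₀ ∧ Q.GenΘ ∧
    (∃ e₁ e₂, GoodPair (ff Q.K (Q.Psi w₀)) (VfU Q.K (Q.Psi w₀)) (CeU Q.K (Q.Psi w₀)) e₁ e₂) ∧
    Module.finrank Q.K (VfU Q.K (Q.Psi w₀)) * Module.finrank S.K S.A < Module.finrank Q.K Q.A :=
  exists_P3_proved w₀ P h

end Trip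

/-- **Main step.** -/
theorem main_step (S : Stg) (w₀ : NPS (Fin 2) S.A) :
    ∃ (S' : Stg) (iK : S.K →+* S'.K) (Φ : NPS (Fin 2) S.A →+* NPS (Fin 2) S'.A),
      (∀ c, Φ (algebraMap S.K _ c) = algebraMap S'.K _ (iK c)) ∧ Φ S.x = S'.x ∧ Φ S.y = S'.y ∧
      IsAlgebraic S'.K (Φ w₀) := by
  classical
  by_cases hN : ∃ Q, Trip.Reach (Trip.start S) Q ∧ Q.CN w₀
  · obtain ⟨Q0, _, hQ0⟩ := hN
    obtain ⟨Q1, _, hQ1⟩ := Trip.exists_CR w₀ Q0 hQ0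
    obtain ⟨Q2, _, hQ2⟩ := Trip.exists_CE w₀ Q1 hQ1
    obtain ⟨Q3, _, hQ3, hV3⟩ := Trip.exists_V2 w₀ Q2 hQ2
    obtain ⟨Q4, _, hQ4⟩ := Trip.exists_CK w₀ Q3 hQ3 hV3
    obtain ⟨Q, _, hQ, hgen, hgood, hdim⟩ := Trip.exists_P3 w₀ Q4 hQ4
    have hC := Trip.propC_of_CK w₀ Q hQ
    have hVC := Trip.VfU_le_CeU w₀ Q hQ.1.1
    obtain ⟨e₁, e₂, hg, hind⟩ := Trip.exists_pair Q w₀ hVC hC hgood hgen hdim
    obtain ⟨b, hb, h1, h2, hz⟩ := lagrange (ff Q.K (Q.Psi w₀)) (start_ff_nil _) (CeU Q.K (Q.Psi w₀)) hVC hC e₁ e₂ hg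
    have hd := Trip.density Q e₁ e₂ b hb h1 h2 hgen hind
    refine ⟨{ K := Q.K, A := Q.A, x := _, y := _, dense := hd }, Q.iK,
      (substHom b hb).comp Q.Psi, ?_, rfl, rfl, ?_⟩
    · intro c
      simp only [NPS.algebraMap_apply, RingHom.comp_apply]
      rw [Q.Psi_C, (substHom_spec b hb).1, Q.compat]
    · refine ⟨minpoly Q.K ((Q.Psi w₀) []), ?_, ?_⟩
      · exact minpoly.ne_zero (Algebra.IsIntegral.isIntegral _)
      · exact (substHom_aeval b hb (Q.Psi w₀) _).trans hz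
  · push Not at hN
    have h := Trip.lemmaN w₀ (Trip.start S) hN
    refine ⟨S, RingHom.id _, RingHom.id _, fun _ => rfl, rfl, rfl, ?_⟩
    refine ⟨minpoly S.K (w₀ []), minpoly.ne_zero (Algebra.IsIntegral.isIntegral _), ?_⟩
    exact h

end Vale.Agent.P199K
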