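import Vale.Agent.P199K.Tr

/-! # P199, section 9 (P3C): first and second order coefficients of `∑ c_j G^j` -/

open scoped TensorProduct LaurentSeries
open PowerSeries

namespace Vale.Agent.P199K

section gs2
variable {R : Type} [Ring R]

/-- `∑_{i+k+l=j-2} v^i a v^k b v^l` -/
def gs2 (v a b : R) : ℕ → R
  | 0 => 0
  | j + 1 => gs2 v a b j * v + gs v a j * b

theorem gs_bracket2 (v g : R) (j : ℕ) : gs v (g * v - v * g) j = g * v ^ j - v ^ j * g := by
  induction j with
  | zero => simp [gs]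
  | succ j ih =>
    simp only [gs, ih, pow_succ, sub_mul, mul_sub]
    simp only [← mul_assoc]
    abel

theorem gs2_bracket (v g b : R) (j : ℕ) :
    gs2 v (g * v - v * g) b j = g * gs v b j - gs v (g * b) j := by
  induction j with
  | zero => simp [gs, gs2]
  | succ j ih =>
    simp only [gs, gs2, ih, gs_bracket2, sub_mul, mul_add]
    simp only [← mul_assoc]
    abel

theorem gs2_add_left (v a a' b : R) (j : ℕ) : gs2 v (a + a') b j = gs2 v a b j + gs2 v a' b j := by
  induction j with
  | zero => simp [gs2]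
  | succ j ih => simp only [gs2, ih, gs_add, add_mul]; abel

theorem gs2_add_right (v a b b' : R) (j : ℕ) : gs2 v a (b + b') j = gs2 v a b j + gs2 v a b' j := by
  induction j with
  | zero => simp [gs2]
  | succ j ih => simp only [gs2, ih, add_mul, mul_add]; abel

theorem gs2_zero_left (v b : R) (j : ℕ) : gs2 v 0 b j = 0 := by
  induction j with
  | zero => simp [gs2]
  | succ j ih => simp [gs2, ih, gs_zero_right]

theorem gs2_zero_right (v a : R) (j : ℕ) : gs2 v a 0 j = 0 := by
  induction j with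
  | zero => simp [gs2]
  | succ j ih => simp [gs2, ih]

theorem gs_smulK {K A : Type} [Field K] [Ring A] [Algebra K A] (v a : A) (c : K) (j : ℕ) :
    gs v (c • a) j = c • gs v a j := by
  induction j with
  | zero => simp [gs]
  | succ j ih => simp only [gs, ih, smul_add, smul_mul_assoc, mul_smul_comm]

theorem gs2_smulK_left {K A : Type} [Field K] [Ring A] [Algebra K A] (v a b : A) (c : K) (j : ℕ) :
    gs2 v (c • a) b j = c • gs2 v a b j := by
  induction j with
  | zero => simp [gs2]
  | succ j ih => simp only [gs2, ih, gs_smulK, smul_add, smul_mul_assoc]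

theorem gs2_smulK_right {K A : Type} [Field K] [Ring A] [Algebra K A] (v a b : A) (c : K) (j : ℕ) :
    gs2 v a (c • b) j = c • gs2 v a b j := by
  induction j with
  | zero => simp [gs2]
  | succ j ih => simp only [gs2, ih, smul_add, smul_mul_assoc, mul_smul_comm]

/-! ### powers of a noncommutative power series -/

variable {σ : Type}

theorem mul_one_coeff (f g : NPS σ R) (x : σ) : (f * g) [x] = f [] * g [x] + f [x] * g [] := rfl

theorem mul_two_coeff (f g : NPS σ R) (x y : σ) :
    (f * g) [x, y] = f [] * g [x, y] + (f [x] * g [y] + f [x, y] * g []) := rfl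

theorem pow_nil_coeff (G : NPS σ R) (j : ℕ) : (G ^ j) [] = G [] ^ j := by
  induction j with
  | zero => simp [NPS.one_def]
  | succ j ih => rw [pow_succ, NPS.mul_nil, ih, pow_succ]

theorem pow_one_coeff (G : NPS σ R) (j : ℕ) (x : σ) : (G ^ j) [x] = gs (G []) (G [x]) j := by
  induction j with
  | zero => simp [NPS.one_def, gs]
  | succ j ih => rw [pow_succ, mul_one_coeff, ih, pow_nil_coeff, gs, add_comm]

theorem pow_two_coeff (G : NPS σ R) (j : ℕ) (x y : σ) :
    (G ^ j) [x, y] = gs2 (G []) (G [x]) (G [y]) j + gs (G []) (G [x, y]) j := by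
  induction j with
  | zero => simp [NPS.one_def, gs, gs2]
  | succ j ih =>
    rw [pow_succ, mul_two_coeff, ih, pow_nil_coeff, pow_one_coeff, gs2, gs, add_mul]
    abel

/-! ### polynomials with coefficients `c : ℕ → R` on the left -/

/-- `∑_j c_j ∑_{i+k=j-1} v^i a v^k` -/
def Dc (N : ℕ) (c : ℕ → R) (v a : R) : R := ∑ j ∈ Finset.range (N + 1), c j * gs v a j

/-- `∑_j c_j ∑_{i+k+l=j-2} v^i a v^k b v^l` -/
def Qc (N : ℕ) (c : ℕ → R) (v a b : R) : R := ∑ j ∈ Finset.range (N + 1), c j * gs2 v a b j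

/-- `∑_j c_j v^j` -/
def Pc (N : ℕ) (c : ℕ → R) (v : R) : R := ∑ j ∈ Finset.range (N + 1), c j * v ^ j

theorem Dc_bracket (N : ℕ) (c : ℕ → R) (v g : R) (hc : ∀ j, c j * g = g * c j) :
    Dc N c v (g * v - v * g) = g * Pc N c v - Pc N c v * g := by
  unfold Dc Pc
  rw [Finset.mul_sum, Finset.sum_mul, ← Finset.sum_sub_distrib]
  refine Finset.sum_congr rfl fun j _ => ?_
  rw [gs_bracket2, mul_sub, ← mul_assoc, ← mul_assoc, ← mul_assoc, hc j]

theorem Qc_bracket (N : ℕ) (c : ℕ → R) (v g b : R) (hc : ∀ j, c j * g = g * c j) :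
    Qc N c v (g * v - v * g) b = g * Dc N c v b - Dc N c v (g * b) := by
  unfold Qc Dc
  rw [Finset.mul_sum, ← Finset.sum_sub_distrib]
  refine Finset.sum_congr rfl fun j _ => ?_
  rw [gs2_bracket, mul_sub, ← mul_assoc, ← mul_assoc, hc j]

theorem Dc_add (N : ℕ) (c : ℕ → R) (v a b : R) : Dc N c v (a + b) = Dc N c v a + Dc N c v b := by
  unfold Dc
  rw [← Finset.sum_add_distrib]
  exact Finset.sum_congr rfl fun j _ => by rw [gs_add, mul_add]

theorem Dc_zero (N : ℕ) (c : ℕ → R) (v : R) : Dc N c v 0 = 0 := by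
  unfold Dc
  exact Finset.sum_eq_zero fun j _ => by rw [gs_zero_right, mul_zero]

/-- the derivative `∑_j j c_j v^(j-1)` -/
def Pc' (N : ℕ) (c : ℕ → R) (v : R) : R := ∑ j ∈ Finset.range (N + 1), (j : ℕ) • (c j * v ^ (j - 1))

theorem Dc_comm (N : ℕ) (c : ℕ → R) (v y : R) (h : v * y = y * v) :
    Dc N c v y = Pc' N c v * y := by
  unfold Dc Pc'
  rw [Finset.sum_mul]
  refine Finset.sum_congr rfl fun j _ => ?_
  cases j with
  | zero => simp [gs]
  | succ j =>
    rw [gs_comm v y h j, Nat.add_sub_cancel, smul_mul_assoc, mul_smul_comm, mul_assoc]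

variable {K A : Type} [Field K] [Ring A] [Algebra K A]

theorem Dc_smulK (N : ℕ) (c : ℕ → A) (v a : A) (k : K) : Dc N c v (k • a) = k • Dc N c v a := by
  unfold Dc
  rw [Finset.smul_sum]
  exact Finset.sum_congr rfl fun j _ => by rw [gs_smulK, mul_smul_comm]

/-- `Dc` as a linear map -/
noncomputable def DcL (K : Type) {A : Type} [Field K] [Ring A] [Algebra K A] (N : ℕ) (c : ℕ → A)
    (v : A) : A →ₗ[K] A where
  toFun := Dc N c v
  map_add' := Dc_add N c v
  map_smul' k a := Dc_smulK N c v a k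

@[simp] theorem DcL_apply (N : ℕ) (c : ℕ → A) (v a : A) : DcL K N c v a = Dc N c v a := rfl

/-- `Qc` as a bilinear map -/
noncomputable def QcL (K : Type) {A : Type} [Field K] [Ring A] [Algebra K A] (N : ℕ) (c : ℕ → A)
    (v : A) : A →ₗ[K] A →ₗ[K] A :=
  LinearMap.mk₂ K (Qc N c v)
    (fun a a' b => by
      unfold Qc
      rw [← Finset.sum_add_distrib]
      exact Finset.sum_congr rfl fun j _ => by rw [gs2_add_left, mul_add])
    (fun k a b => by
      unfold Qc
      rw [Finset.smul_sum]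
      exact Finset.sum_congr rfl fun j _ => by rw [gs2_smulK_left, mul_smul_comm])
    (fun a b b' => by
      unfold Qc
      rw [← Finset.sum_add_distrib]
      exact Finset.sum_congr rfl fun j _ => by rw [gs2_add_right, mul_add])
    (fun k a b => by
      unfold Qc
      rw [Finset.smul_sum]
      exact Finset.sum_congr rfl fun j _ => by rw [gs2_smulK_right, mul_smul_comm])

@[simp] theorem QcL_apply (N : ℕ) (c : ℕ → A) (v a b : A) : QcL K N c v a b = Qc N c v a b := rfl

/-- the series `∑_j c_j G^j` -/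
def serC (N : ℕ) (c : ℕ → A) (G : NPS σ A) : NPS σ A :=
  ∑ j ∈ Finset.range (N + 1), NPS.C (c j) * G ^ j

theorem nps_sum_apply {ι : Type} (s : Finset ι) (F : ι → NPS σ R) (u : List σ) :
    (∑ i ∈ s, F i) u = ∑ i ∈ s, F i u := by
  classical
  induction s using Finset.induction_on with
  | empty => simp
  | insert a s ha ih => rw [Finset.sum_insert ha, Finset.sum_insert ha, NPS.add_apply, ih]

theorem serC_nil (N : ℕ) (c : ℕ → A) (G : NPS σ A) : serC N c G [] = Pc N c (G []) := by
  unfold serC Pc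
  rw [nps_sum_apply]
  exact Finset.sum_congr rfl fun j _ => by rw [NPS.C_mul_apply, pow_nil_coeff]

theorem serC_one (N : ℕ) (c : ℕ → A) (G : NPS σ A) (x : σ) :
    serC N c G [x] = Dc N c (G []) (G [x]) := by
  unfold serC Dc
  rw [nps_sum_apply]
  exact Finset.sum_congr rfl fun j _ => by rw [NPS.C_mul_apply, pow_one_coeff]

theorem serC_two (N : ℕ) (c : ℕ → A) (G : NPS σ A) (x y : σ) :
    serC N c G [x, y] = Qc N c (G []) (G [x]) (G [y]) + Dc N c (G []) (G [x, y]) := by
  unfold serC Dc Qc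
  rw [nps_sum_apply, ← Finset.sum_add_distrib]
  exact Finset.sum_congr rfl fun j _ => by rw [NPS.C_mul_apply, pow_two_coeff, mul_add]

variable [Fintype σ]

theorem lin_serC (N : ℕ) (c : ℕ → A) (G : NPS σ A) (δ : σ → K) :
    lin K (serC N c G) δ = Dc N c (G []) (lin K G δ) := by
  show ∑ γ, δ γ • serC N c G [γ] = DcL K N c (G []) (∑ γ, δ γ • G [γ])
  rw [map_sum]
  exact Finset.sum_congr rfl fun γ _ => by rw [map_smul, serC_one, DcL_apply]

theorem quad_serC (N : ℕ) (c : ℕ → A) (G : NPS σ A) (hG : ∀ x y, G [x, y] = 0) (δ δ' : σ → K) :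
    quad (serC N c G) δ δ' = Qc N c (G []) (lin K G δ) (lin K G δ') := by
  show ∑ γ, ∑ γ', (δ γ * δ' γ') • serC N c G [γ, γ']
    = QcL K N c (G []) (∑ γ, δ γ • G [γ]) (∑ γ, δ' γ • G [γ])
  rw [map_sum (QcL K N c (G [])), LinearMap.sum_apply]
  refine Finset.sum_congr rfl fun γ _ => ?_
  rw [map_smul, LinearMap.smul_apply, map_sum, Finset.smul_sum]
  refine Finset.sum_congr rfl fun γ' _ => ?_
  rw [map_smul, QcL_apply, serC_two, hG, Dc_zero, add_zero, smul_smul]

end gs2

end Vale.Agent.P199K
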