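import Vale.Agent.P199K.Tr

/-! # P199, section 9 (P3D, part A): powers of `C` over a subalgebra `M` commuting with `C` -/

namespace Vale.Agent.P199K

section POWB
variable {K A : Type} [Field K] [Ring A] [Algebra K A]

/-- `(l_j) ↦ ∑_{j<k} l_j C^j` -/
noncomputable def powMap (M : Subalgebra K A) (C : A) (k : ℕ) : (Fin k → M) →ₗ[K] A where
  toFun l := ∑ j : Fin k, (l j : A) * C ^ (j : ℕ)
  map_add' a b := by
    rw [← Finset.sum_add_distrib]
    exact Finset.sum_congr rfl fun j _ => by rw [Pi.add_apply, Subalgebra.coe_add, add_mul]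
  map_smul' c a := by
    rw [RingHom.id_apply, Finset.smul_sum]
    exact Finset.sum_congr rfl fun j _ => by
      rw [Pi.smul_apply, Subalgebra.coe_smul, smul_mul_assoc]

theorem powMap_apply (M : Subalgebra K A) (C : A) (k : ℕ) (l : Fin k → M) :
    powMap M C k l = ∑ j : Fin k, (l j : A) * C ^ (j : ℕ) := rfl

theorem powMap_succ (M : Subalgebra K A) (C : A) (k : ℕ) (l : Fin (k + 1) → M) :
    powMap M C (k + 1) l = powMap M C k (fun j => l j.castSucc) + (l (Fin.last k) : A) * C ^ k := by
  rw [powMap_apply, powMap_apply, Fin.sum_univ_castSucc]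
  rfl

theorem mul_powMap (M : Subalgebra K A) (C : A) (k : ℕ) (l : Fin k → M) (u : M) :
    (u : A) * powMap M C k l = powMap M C k (fun j => u * l j) := by
  rw [powMap_apply, powMap_apply, Finset.mul_sum]
  exact Finset.sum_congr rfl fun j _ => by rw [Subalgebra.coe_mul, mul_assoc]

theorem powMap_inj [IsDomain A] [Module.Finite K A] (M : Subalgebra K A) (C : A) (k : ℕ)
    (h : ∀ r < k, C ^ r ∉ LinearMap.range (powMap M C r)) :
    Function.Injective (powMap M C k) := by
  induction k with
  | zero => intro a b _; exact Subsingleton.elim _ _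
  | succ k ih =>
    rw [injective_iff_map_eq_zero]
    intro l hl
    rw [powMap_succ] at hl
    have h0 : l (Fin.last k) = 0 := by
      by_contra hne
      have hne' : ((l (Fin.last k) : M) : A) ≠ 0 := fun h' => hne (Subtype.ext h')
      obtain ⟨u, hu, hu1⟩ := exists_inv_mem M (l (Fin.last k)).2 hne'
      apply h k (Nat.lt_succ_self k)
      have h1 := congrArg (fun z => u * z) hl
      simp only [mul_add, mul_zero, ← mul_assoc, hu1.2, one_mul] at h1
      refine ⟨-(fun j => ⟨u, hu⟩ * l j.castSucc), ?_⟩
      rw [map_neg, ← mul_powMap]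
      exact (eq_neg_of_add_eq_zero_right h1).symm
    rw [h0] at hl
    have h2 := (injective_iff_map_eq_zero _).1 (ih fun r hr => h r (Nat.lt_succ_of_lt hr))
      (fun j => l j.castSucc) (by simpa using hl)
    funext j
    refine Fin.lastCases h0 (fun j => congrFun h2 j) j

/-- right multipliers of a subspace -/
def rstab (R : Submodule K A) : Subalgebra K A where
  carrier := {x : A | ∀ y ∈ R, y * x ∈ R}
  mul_mem' := fun {a b} ha hb y hy => by rw [← mul_assoc]; exact hb _ (ha y hy)
  add_mem' := fun {a b} ha hb y hy => by rw [mul_add]; exact Submodule.add_mem _ (ha y hy) (hb y hy)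
  algebraMap_mem' := fun c y hy => by
    rw [← Algebra.commutes, ← Algebra.smul_def]; exact Submodule.smul_mem _ _ hy

theorem exists_powMap_mem [IsDomain A] [Module.Finite K A] (M : Subalgebra K A) (C : A) :
    ∃ k : ℕ, C ^ k ∈ LinearMap.range (powMap M C k) := by
  by_contra hno
  push Not at hno
  have h1 := powMap_inj M C (Module.finrank K A + 1) fun r _ => hno r
  have h2 := LinearMap.finrank_le_finrank_of_injective h1
  rw [Module.finrank_pi_fintype, Finset.sum_const, Finset.card_univ, Fintype.card_fin,
    smul_eq_mul] at h2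
  have h3 : 0 < Module.finrank K M := Module.finrank_pos
  nlinarith

theorem powMap_range_eq [IsDomain A] (M : Subalgebra K A) (C : A)
    (hC : ∀ x ∈ M, C * x = x * C) (k : ℕ) (hk : C ^ k ∈ LinearMap.range (powMap M C k)) :
    LinearMap.range (powMap M C k)
      = Subalgebra.toSubmodule (Algebra.adjoin K ((M : Set A) ∪ {C})) := by
  classical
  have hCk : ∀ (i : ℕ) (x : A), x ∈ M → C ^ i * x = x * C ^ i := fun i x hx =>
    (Commute.pow_left (show Commute C x from hC x hx) i).eq
  apply le_antisymm
  · rintro _ ⟨l, rfl⟩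
    rw [powMap_apply]
    refine Submodule.sum_mem _ fun j _ => ?_
    have ha : ((l j : M) : A) ∈ Algebra.adjoin K ((M : Set A) ∪ {C}) :=
      Algebra.subset_adjoin (Or.inl (l j).2)
    have hb : C ∈ Algebra.adjoin K ((M : Set A) ∪ {C}) := Algebra.subset_adjoin (Or.inr rfl)
    exact (Algebra.adjoin K ((M : Set A) ∪ {C})).mul_mem ha
      ((Algebra.adjoin K ((M : Set A) ∪ {C})).pow_mem hb _)
  · have hkpos : 0 < k := by
      rcases Nat.eq_zero_or_pos k with h | h
      · subst h
        obtain ⟨l, hl⟩ := hk
        rw [powMap_apply, Fin.sum_univ_zero, pow_zero] at hl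
        exact absurd hl zero_ne_one
      · exact h
    -- elementary members
    have hmem : ∀ (x : M) (i : ℕ), i < k → (x : A) * C ^ i ∈ LinearMap.range (powMap M C k) := by
      intro x i hi
      refine ⟨Pi.single ⟨i, hi⟩ x, ?_⟩
      rw [powMap_apply, Finset.sum_eq_single ⟨i, hi⟩]
      · rw [Pi.single_eq_same]
      · intro j _ hj
        rw [Pi.single_eq_of_ne hj]
        simp
      · intro h
        exact absurd (Finset.mem_univ _) h
    have hM : ∀ (x : M) (y : A), y ∈ LinearMap.range (powMap M C k) →
        (x : A) * y ∈ LinearMap.range (powMap M C k) := by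
      rintro x _ ⟨l, rfl⟩
      exact ⟨_, (mul_powMap M C k l x).symm⟩
    have hright : ∀ y ∈ LinearMap.range (powMap M C k), ∀ x ∈ M,
        y * x ∈ LinearMap.range (powMap M C k) := by
      rintro _ ⟨l, rfl⟩ x hx
      rw [powMap_apply, Finset.sum_mul]
      refine Submodule.sum_mem _ fun j _ => ?_
      rw [mul_assoc, hCk _ x hx, ← mul_assoc]
      exact hmem ⟨_, M.mul_mem (l j).2 hx⟩ j j.2
    have hrC : ∀ y ∈ LinearMap.range (powMap M C k), y * C ∈ LinearMap.range (powMap M C k) := by
      rintro _ ⟨l, rfl⟩
      rw [powMap_apply, Finset.sum_mul]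
      refine Submodule.sum_mem _ fun j _ => ?_
      rw [mul_assoc, ← pow_succ]
      rcases Nat.lt_or_ge ((j : ℕ) + 1) k with h | h
      · exact hmem (l j) _ h
      · have h' : (j : ℕ) + 1 = k := le_antisymm j.2 h
        rw [h']
        exact hM (l j) _ hk
    have hS : Algebra.adjoin K ((M : Set A) ∪ {C}) ≤ rstab (LinearMap.range (powMap M C k)) := by
      refine Algebra.adjoin_le ?_
      rintro x (hx | hx)
      · exact fun y hy => hright y hy x hx
      · rw [Set.mem_singleton_iff] at hx
        subst hx
        exact fun y hy => hrC y hy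
    intro x hx
    have h1 := hS hx (1 : A) (by simpa using hmem 1 0 hkpos)
    rwa [one_mul] at h1

/-- **POWB**: if `[M[C]:M] = m` then `1, C, .., C^(m-1)` is a basis of `M[C]` over `M` -/
theorem powMap_main [IsDomain A] [Module.Finite K A] (M : Subalgebra K A) (C : A)
    (hC : ∀ x ∈ M, C * x = x * C) (m : ℕ)
    (hm : Module.finrank K (Algebra.adjoin K ((M : Set A) ∪ {C}) : Subalgebra K A)
      = Module.finrank K M * m) :
    Function.Injective (powMap M C m) ∧ LinearMap.range (powMap M C m)
      = Subalgebra.toSubmodule (Algebra.adjoin K ((M : Set A) ∪ {C})) := by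
  classical
  have hex := exists_powMap_mem M C
  have h1 := Nat.find_spec hex
  have h2 := powMap_inj M C (Nat.find hex) fun r hr => Nat.find_min hex hr
  have h3 := powMap_range_eq M C hC _ h1
  have h4 : Module.finrank K (LinearMap.range (powMap M C (Nat.find hex)))
      = Nat.find hex * Module.finrank K M := by
    rw [LinearMap.finrank_range_of_inj h2, Module.finrank_pi_fintype, Finset.sum_const,
      Finset.card_univ, Fintype.card_fin, smul_eq_mul]
  rw [h3] at h4
  have h5 : Module.finrank K (Subalgebra.toSubmodule (Algebra.adjoin K ((M : Set A) ∪ {C})))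
      = Module.finrank K M * m := hm
  have hpos : 0 < Module.finrank K M := Module.finrank_pos
  have h6 : Nat.find hex = m := by
    rw [h5, mul_comm] at h4
    exact (Nat.eq_of_mul_eq_mul_right hpos h4).symm
  rw [h6] at h2 h3
  exact ⟨h2, h3⟩

end POWB

end Vale.Agent.P199K
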