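import Vale.Agent.P199K.P3DA
import Vale.Agent.P199K.P3C
import Vale.Agent.P199K.ResLS

/-! # P199, section 9 (P3D, part B): the minimal polynomial of `W'` and residues of series -/

open Polynomial in
theorem Vale.Agent.P199K.hpoly_monic {K : Type} [Field K] (P : K[X]) (hP : P.Monic) (n m : ℕ)
    (hn : P.natDegree = n) (c : Fin n × Fin m → K) :
    (P ^ m - ∑ ij : Fin n × Fin m, C (c ij) * X ^ (ij.1 : ℕ) * P ^ (ij.2 : ℕ)).Monic ∧
    (P ^ m - ∑ ij : Fin n × Fin m, C (c ij) * X ^ (ij.1 : ℕ) * P ^ (ij.2 : ℕ)).natDegree = n * m := by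
  have hPd : P.degree = (n : WithBot ℕ) := by rw [Polynomial.degree_eq_natDegree hP.ne_zero, hn]
  have hd : (P ^ m).degree = ((n * m : ℕ) : WithBot ℕ) := by
    rw [Polynomial.degree_pow, hPd, nsmul_eq_mul]
    push_cast
    rw [mul_comm]
  have hlt : (∑ ij : Fin n × Fin m, C (c ij) * X ^ (ij.1 : ℕ) * P ^ (ij.2 : ℕ)).degree
      < (P ^ m).degree := by
    rw [hd]
    refine lt_of_le_of_lt (Polynomial.degree_sum_le _ _) ?_
    rw [Finset.sup_lt_iff (WithBot.bot_lt_coe _)]
    rintro ⟨i, j⟩ _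
    refine lt_of_le_of_lt (Polynomial.degree_mul_le _ _) ?_
    refine lt_of_le_of_lt (add_le_add (Polynomial.degree_mul_le _ _) le_rfl) ?_
    refine lt_of_le_of_lt (add_le_add (add_le_add Polynomial.degree_C_le le_rfl) le_rfl) ?_
    rw [Polynomial.degree_X_pow, Polynomial.degree_pow, hPd, zero_add, nsmul_eq_mul]
    have h1 : (i : ℕ) + (j : ℕ) * n < n * m := by
      have hi := i.2
      have hj := j.2
      nlinarith
    exact_mod_cast h1
  constructor
  · exact (hP.pow m).sub_of_left hlt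
  · have h1 := Polynomial.degree_sub_eq_left_of_degree_lt hlt
    rw [hd] at h1
    exact Polynomial.natDegree_eq_of_degree_eq_some h1

namespace Vale.Agent.P199K

open Polynomial in
theorem minpoly_eq_of_finrank {K A : Type} [Field K] [Ring A] [Algebra K A] [Module.Finite K A]
    (x : A) (N : ℕ) (hN : Module.finrank K (Algebra.adjoin K {x} : Subalgebra K A) = N)
    (H : K[X]) (hH : H.Monic) (hd : H.natDegree = N) (h0 : aeval x H = 0) : minpoly K x = H := by
  classical
  have hint : IsIntegral K x := Algebra.IsIntegral.isIntegral x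
  have h1 := Submodule.span_range_natDegree_eq_adjoin (minpoly.monic hint) (minpoly.aeval K x)
  have h2 : Module.finrank K (Algebra.adjoin K {x} : Subalgebra K A) ≤ (minpoly K x).natDegree := by
    have h3 : Module.finrank K (Subalgebra.toSubmodule (Algebra.adjoin K {x}))
        ≤ (minpoly K x).natDegree := by
      rw [← h1]
      refine (finrank_span_finset_le_card _).trans ?_
      exact Finset.card_image_le.trans (by rw [Finset.card_range])
    exact h3
  have h4 : minpoly K x ∣ H := minpoly.dvd K x h0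
  exact (Polynomial.eq_of_monic_of_dvd_of_natDegree_le (minpoly.monic hint) hH h4
    (by rw [hd, ← hN]; exact h2)).symm

section Red
variable {σ A : Type} [Ring A]

/-- `f` is integral with residue `g` -/
def Red (f : NPS σ (LS A)) (g : NPS σ A) : Prop := ∀ u, LS.Intg (f u) ∧ LS.coeff (f u) 0 = g u

theorem Red.add {f f' : NPS σ (LS A)} {g g' : NPS σ A} (h : Red f g) (h' : Red f' g') :
    Red (f + f') (g + g') := fun u =>
  ⟨LS.Intg.add (h u).1 (h' u).1, by rw [NPS.add_apply, NPS.add_apply, LS.coeff_add, (h u).2, (h' u).2]⟩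

theorem Red.sub {f f' : NPS σ (LS A)} {g g' : NPS σ A} (h : Red f g) (h' : Red f' g') :
    Red (f - f') (g - g') := fun u =>
  ⟨LS.Intg.sub (h u).1 (h' u).1, by rw [NPS.sub_apply, NPS.sub_apply, LS.coeff_sub, (h u).2, (h' u).2]⟩

theorem Red.zero : Red (0 : NPS σ (LS A)) 0 := fun _ => ⟨LS.Intg.zero, rfl⟩

theorem Red.mul {f f' : NPS σ (LS A)} {g g' : NPS σ A} (h : Red f g) (h' : Red f' g') :
    Red (f * f') (g * g') := by
  intro u
  induction u generalizing f g with
  | nil =>
    rw [NPS.mul_nil, NPS.mul_nil]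
    exact ⟨LS.Intg.mul (h _).1 (h' _).1, by rw [LS.coeff_mul_zero (h _).1 (h' _).1, (h _).2, (h' _).2]⟩
  | cons x u ih =>
    have hd : Red (NPS.dl x f) (NPS.dl x g) := fun v => h (x :: v)
    have h1 := ih hd
    rw [NPS.mul_cons, NPS.mul_cons]
    exact ⟨LS.Intg.add (LS.Intg.mul (h _).1 (h' _).1) h1.1,
      by rw [LS.coeff_add, LS.coeff_mul_zero (h _).1 (h' _).1, (h _).2, (h' _).2, h1.2]⟩

theorem Red.C {x : LS A} (hx : LS.Intg x) : Red (NPS.C x : NPS σ (LS A)) (NPS.C (LS.coeff x 0)) := by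
  intro u
  cases u with
  | nil => exact ⟨hx, rfl⟩
  | cons _ _ => exact ⟨LS.Intg.zero, rfl⟩

theorem Red.pow {f : NPS σ (LS A)} {g : NPS σ A} (h : Red f g) (k : ℕ) : Red (f ^ k) (g ^ k) := by
  induction k with
  | zero =>
    rw [pow_zero, pow_zero]
    have h1 := Red.C (σ := σ) (LS.Intg.one (A := A))
    rwa [LS.coeff_one, if_pos rfl, map_one, map_one] at h1
  | succ k ih => rw [pow_succ, pow_succ]; exact ih.mul h

theorem Red.sum {ι : Type} (s : Finset ι) {f : ι → NPS σ (LS A)} {g : ι → NPS σ A}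
    (h : ∀ i ∈ s, Red (f i) (g i)) : Red (∑ i ∈ s, f i) (∑ i ∈ s, g i) := by
  classical
  induction s using Finset.induction_on with
  | empty => rw [Finset.sum_empty, Finset.sum_empty]; exact Red.zero
  | insert a s ha ih =>
    rw [Finset.sum_insert ha, Finset.sum_insert ha]
    exact (h a (Finset.mem_insert_self a s)).add (ih fun i hi => h i (Finset.mem_insert_of_mem hi))

end Red

end Vale.Agent.P199K
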