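import Vale.Agent.P199K.P3DC
import Vale.Agent.P199K.MainAux

/-! # P199, section 9 (P3D, part D): `t^{-m} p_{W'}(w')` -/

namespace Vale.Agent.P199K

open Module

open Polynomial in
theorem eval_hpoly {K B : Type} [Field K] [Ring B] [Algebra K B] {n M : ℕ} (P : K[X]) (x y : B) (t : K)
    (hP : aeval x P = t • y) (c : Fin n × Fin M → K) :
    aeval x (P ^ M - ∑ ij : Fin n × Fin M, C (t ^ (M - (ij.2 : ℕ)) * c ij) * X ^ (ij.1 : ℕ) * P ^ (ij.2 : ℕ))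
      = t ^ M • (y ^ M - ∑ ij : Fin n × Fin M, c ij • (x ^ (ij.1 : ℕ) * y ^ (ij.2 : ℕ))) := by
  rw [map_sub, map_pow, hP, _root_.smul_pow, smul_sub, map_sum, Finset.smul_sum]
  congr 1
  refine Finset.sum_congr rfl fun ij _ => ?_
  rw [map_mul, map_mul, map_pow, map_pow, hP, aeval_C, aeval_X, _root_.smul_pow, mul_smul_comm, smul_smul,
    ← Algebra.smul_def, smul_mul_assoc, smul_smul]
  congr 1
  have h1 : t ^ M = t ^ (ij.2 : ℕ) * t ^ (M - (ij.2 : ℕ)) := by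
    rw [← pow_add]
    congr 1
    have := ij.2.2
    omega
  rw [h1]
  ring

namespace Trip
variable {S : Stg} (w₀ : NPS (Fin 2) S.A)

open Polynomial in
theorem p3_eh_aeval (P : Trip S) (d : ExpD P.K P.A P.σ) (w : NPS P.σ P.A) (p : P.K[X]) :
    P.eh d (aeval w p) = aeval (P.eh d w) (p.map ((LS.C : d.K₁ →+* LS d.K₁).comp d.κ)) := by
  rw [aeval_def, aeval_def, hom_eval₂, eval₂_map]
  congr 1
  refine RingHom.ext fun c => ?_
  show P.eh d (NPS.C (algebraMap P.K P.A c)) = NPS.C (algebraMap (LS d.K₁) (LS d.A₁) (LS.C (d.κ c)))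
  have h1 : P.eh d (NPS.C (algebraMap P.K P.A c)) = NPS.C (LS.C (d.ι (algebraMap P.K P.A c))) :=
    (expHom_spec d.ι (d.j : d.E₁ →+* d.A₁) (P.d_comm d) d.ε d.p d.hp).1 _
  rw [h1, d.adm.ι_alg, LS.algebraMap_C]

/-- `F' = t⁻¹ p_W(w')` -/
noncomputable def Fs (P : Trip S) (d : ExpD P.K P.A P.σ) : NPS (P.σ × d.B) (LS d.A₁) :=
  (LS.tp (-1) : LS d.K₁) • P.eh d (ff P.K (P.Psi w₀))

theorem tp_smul_Fs (P : Trip S) (d : ExpD P.K P.A P.σ) :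
    (LS.tp 1 : LS d.K₁) • Fs w₀ P d = P.eh d (ff P.K (P.Psi w₀)) := by
  rw [Fs, smul_smul, LS.tp_mul_tp_neg, one_smul]

theorem LS_tp_pow {A : Type} [Ring A] (n : ℕ) : (LS.tp 1 : LS A) ^ n = LS.tp n := tp_one_pow n

/-- the identity `p_{W'}(w') = t^M (F'^M - ∑ c_ij w'^i F'^j)` -/
theorem ff_wx (P : Trip S) (d : ExpD P.K P.A P.σ) (n M : ℕ)
    (hn : n = finrank P.K (Lf P.K (P.Psi w₀ [])))
    (hn' : finrank (LS d.K₁) (Lf (LS d.K₁) (wx w₀ P d [])) = n * M)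
    (c : Fin n × Fin M → LS d.K₁)
    (hc : (Fs w₀ P d []) ^ M = ∑ ij : Fin n × Fin M,
      c ij • ((wx w₀ P d []) ^ (ij.1 : ℕ) * (Fs w₀ P d []) ^ (ij.2 : ℕ))) :
    ff (LS d.K₁) (wx w₀ P d) = (LS.tp (M : ℤ) : LS d.K₁) • ((Fs w₀ P d) ^ M
      - ∑ ij : Fin n × Fin M,
        c ij • ((wx w₀ P d) ^ (ij.1 : ℕ) * (Fs w₀ P d) ^ (ij.2 : ℕ))) := by
  classical
  have : FiniteDimensional d.K₁ d.A₁ := d.adm.fdA
  have : FiniteDimensional (LS d.K₁) (LS d.A₁) := fd_ls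
  have hmon : (minpoly P.K (P.Psi w₀ [])).Monic :=
    minpoly.monic (Algebra.IsIntegral.isIntegral _)
  obtain ⟨hH1, hH2⟩ := hpoly_monic
    ((minpoly P.K (P.Psi w₀ [])).map ((LS.C : d.K₁ →+* LS d.K₁).comp d.κ)) (hmon.map _) n M
    (by rw [Polynomial.natDegree_map, natDegree_minpoly_eq, hn])
    (fun ij => (LS.tp 1 : LS d.K₁) ^ (M - (ij.2 : ℕ)) * c ij)
  have hB : Polynomial.aeval (wx w₀ P d)
      ((minpoly P.K (P.Psi w₀ [])).map ((LS.C : d.K₁ →+* LS d.K₁).comp d.κ))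
      = (LS.tp 1 : LS d.K₁) • Fs w₀ P d := by
    rw [tp_smul_Fs, ff, p3_eh_aeval]
  have hA : Polynomial.aeval (wx w₀ P d [])
      ((minpoly P.K (P.Psi w₀ [])).map ((LS.C : d.K₁ →+* LS d.K₁).comp d.κ))
      = (LS.tp 1 : LS d.K₁) • Fs w₀ P d [] := by
    have h1 := Polynomial.aeval_algHom_apply (nilHom (LS d.K₁) (A := LS d.A₁) (σ := P.σ × d.B))
      (wx w₀ P d) ((minpoly P.K (P.Psi w₀ [])).map ((LS.C : d.K₁ →+* LS d.K₁).comp d.κ))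
    rw [hB] at h1
    exact h1
  have h0 := eval_hpoly _ _ _ _ hA c
  rw [hc, sub_self, smul_zero] at h0
  have hmin := minpoly_eq_of_finrank (wx w₀ P d []) (n * M) hn' _ hH1 hH2 h0
  rw [ff, hmin, eval_hpoly _ _ _ _ hB c, LS_tp_pow]

end Trip

end Vale.Agent.P199K
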