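import Vale.Agent.P199K.P3DD
import Vale.Agent.P199K.ResS3

/-! # P199, section 9 (P3D, part E): the residue of `t^{-m} p_{W'}(w')` -/

namespace Vale.Agent.P199K

open Module

section gen
variable {K₁ A₁ τ : Type} [Field K₁] [Ring A₁] [Algebra K₁ A₁]

theorem Red.smul {f : NPS τ (LS A₁)} {g : NPS τ A₁} (h : Red f g) {c : LS K₁} (hc : LS.Intg c) :
    Red (c • f) ((LS.coeff c 0) • g) := by
  intro u
  rw [NPS.smul_apply, NPS.smul_apply]
  refine ⟨(rsLS K₁ A₁).smul_mem c hc (f u) (h u).1, ?_⟩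
  have h1 := (rsLS K₁ A₁).res_smul c hc (f u) (h u).1
  rw [rsLS_res, rfLS_res, rsLS_res, (h u).2] at h1
  exact h1

/-- the coefficients of the residue polynomial -/
noncomputable def c0 {n M : ℕ} (c : Fin n × Fin M → LS K₁) (W : A₁) (j : ℕ) : A₁ :=
  if h : j < M then -∑ i : Fin n, (LS.coeff (c (i, ⟨j, h⟩)) 0) • W ^ (i : ℕ) else
    if j = M then 1 else 0

theorem serC_c0 {n M : ℕ} (c : Fin n × Fin M → LS K₁) (W : A₁) (G : NPS τ A₁) :
    serC M (c0 c W) G = G ^ M - ∑ ij : Fin n × Fin M,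
      (LS.coeff (c ij) 0) • ((NPS.C W : NPS τ A₁) ^ (ij.1 : ℕ) * G ^ (ij.2 : ℕ)) := by
  classical
  unfold serC
  rw [Finset.sum_range_succ]
  have h1 : c0 c W M = 1 := by
    unfold c0
    rw [dif_neg (lt_irrefl M), if_pos rfl]
  rw [h1, map_one, one_mul, add_comm, sub_eq_add_neg]
  congr 1
  rw [Finset.sum_range, Fintype.sum_prod_type_right, ← Finset.sum_neg_distrib]
  refine Finset.sum_congr rfl fun jj _ => ?_
  have h2 : c0 c W (jj : ℕ) = -∑ i : Fin n, (LS.coeff (c (i, jj)) 0) • W ^ (i : ℕ) := by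
    unfold c0
    rw [dif_pos jj.2]
  rw [h2, map_neg, neg_mul, map_sum, Finset.sum_mul]
  congr 1
  refine Finset.sum_congr rfl fun i _ => ?_
  rw [Algebra.smul_def, map_mul, map_pow, Algebra.smul_def, NPS.algebraMap_apply, mul_assoc]

theorem red_main {n M : ℕ} (c : Fin n × Fin M → LS K₁) (hc : ∀ ij, LS.Intg (c ij)) (W : A₁)
    (w' F' : NPS τ (LS A₁)) (G : NPS τ A₁) (hw : Red w' (NPS.C W)) (hF : Red F' G) :
    Red (F' ^ M - ∑ ij : Fin n × Fin M, c ij • (w' ^ (ij.1 : ℕ) * F' ^ (ij.2 : ℕ)))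
      (serC M (c0 c W) G) := by
  rw [serC_c0]
  exact (hF.pow M).sub (Red.sum _ fun ij _ => ((hw.pow _).mul (hF.pow _)).smul (hc ij))

end gen

namespace Trip
variable {S : Stg} (w₀ : NPS (Fin 2) S.A)

/-- the residue of `t⁻¹ p_W(w')`: an affine series -/
noncomputable def Gb (P : Trip S) (d : ExpD P.K P.A P.σ) : NPS (P.σ × d.B) d.A₁ := fun u =>
  match u with
  | [] => lin1 d.ι d.j (ff P.K (P.Psi w₀)) (fun γ => PowerSeries.coeff 1 (d.p γ))
  | [(γ, β)] => d.ι (ff P.K (P.Psi w₀) [γ]) * d.j (d.ε β)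
  | _ => 0

theorem red_Fs (P : Trip S) (d : ExpD P.K P.A P.σ) : Red (Fs w₀ P d) (Gb w₀ P d) := by
  intro u
  rw [Fs, NPS.smul_apply]
  constructor
  · intro n hn
    rw [LS.coeff_tp_smul]
    match u with
    | [] =>
      rcases lt_or_eq_of_le (show n - -1 ≤ 0 by omega) with h | h
      · exact (eh_nil_coeff P d _).1 _ h
      · rw [h, (eh_nil_coeff P d _).2.1, ff_nil, map_zero]
    | x :: v =>
      exact exp_ord _ _ _ _ _ _ _ _ _ (by rw [List.length_cons]; push_cast; omega)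
  · rw [LS.coeff_tp_smul]
    match u with
    | [] => exact (eh_nil_coeff P d _).2.2
    | [(γ, β)] => exact (eh_cons_coeff P d _ γ β).2
    | x :: y :: v =>
      exact exp_ord _ _ _ _ _ _ _ _ _ (by rw [List.length_cons, List.length_cons]; push_cast; omega)

theorem red_wx (P : Trip S) (d : ExpD P.K P.A P.σ) :
    Red (wx w₀ P d) (NPS.C (d.ι (P.Psi w₀ []))) := by
  intro u
  match u with
  | [] => exact ⟨(eh_nil_coeff P d _).1, (eh_nil_coeff P d _).2.1⟩
  | x :: v =>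
    refine ⟨fun n hn => exp_ord _ _ _ _ _ _ _ _ _ (by rw [List.length_cons]; push_cast; omega), ?_⟩
    exact exp_ord _ _ _ _ _ _ _ _ _ (by rw [List.length_cons]; push_cast; omega)

end Trip

end Vale.Agent.P199K
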