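import Vale.Agent.P199K.P3C
import Vale.Agent.P199K.Lagr
import Vale.Agent.P199K.ResStmt
import Vale.Agent.P199K.SymD2
import Vale.Agent.P199K.ResLS
import Vale.Agent.P199K.StepC
import Vale.Agent.P199K.LM
import Vale.Agent.P199K.VfCe

/-! # P199, section 9: from the residue series to the good pair (helper51) -/

open PowerSeries

namespace Vale.Agent.P199K

section Abs

variable {K₁ A₁ : Type} [Field K₁] [CharZero K₁] [Ring A₁] [IsDomain A₁] [Algebra K₁ A₁]
  [FiniteDimensional K₁ A₁]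

/-- elements of `BF` orthogonal to the centraliser `FF` of `v` in `BF` are brackets with elements of `BF` -/
theorem p3r_bracket (BF FF : Subalgebra K₁ A₁) (v : A₁) (hv : v ∈ BF) (hFB : FF ≤ BF)
    (hcen : ∀ x ∈ BF, x * v = v * x → x ∈ FF) (a : A₁) (ha : a ∈ BF) (h0 : pr FF a = 0) :
    ∃ g ∈ BF, a = g * v - v * g := by
  have h1 : pr (Subalgebra.centralizer K₁ {v}) a = 0 := by
    rw [pr_eq_zero_iff]
    intro u hu
    have hu' : u ∈ Subalgebra.centralizer K₁ {v} := hu
    rw [mem_centralizer_singleton] at hu'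
    have h2 : trc K₁ (u * a) = trc K₁ (pr BF u * a) := by
      have h3 := tr_mul_pr BF ha u
      rw [tr_mul_comm u a, tr_mul_comm (pr BF u) a, h3]
    have h4 : pr BF u ∈ FF := by
      refine hcen _ (pr_mem _ _) ?_
      rw [← pr_mul_right BF hv, ← pr_mul_left BF hv, hu']
    rw [h2]
    have h5 := (pr_eq_zero_iff FF).1 h0
    exact h5 _ h4
  obtain ⟨g, hg⟩ := exists_ad_of_pr_eq_zero h1
  refine ⟨- pr BF g, BF.neg_mem (pr_mem _ _), ?_⟩
  have h6 : pr BF a = a := pr_of_mem BF ha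
  have h7 : pr BF a = v * pr BF g - pr BF g * v := by
    rw [← hg, ad_apply, map_sub, pr_mul_left BF hv, pr_mul_right BF hv]
  rw [← h6, h7]
  noncomm_ring

variable (N : ℕ) (c : ℕ → A₁) (BF FF : Subalgebra K₁ A₁) (v lam : A₁) (hv : v ∈ FF) (hFB : FF ≤ BF)
  (hcen : ∀ x ∈ BF, x * v = v * x → x ∈ FF) (hcom : ∀ x ∈ FF, x * v = v * x)
  (hlam : ∀ x ∈ BF, lam * x = x * lam) (hc : ∀ j, ∀ x ∈ BF, c j * x = x * c j)
  (hP : Pc N c (lam * v) = 0)

include hv hFB hcen hcom hlam hc hP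

theorem p3r_lin (a : A₁) (ha : a ∈ BF) :
    Dc N c (lam * v) (lam * a) = Pc' N c (lam * v) * lam * pr FF a := by
  have h1 : lam * a = lam * pr FF a + lam * (a - pr FF a) := by rw [← mul_add]; congr 1; abel
  have h2 : pr FF (a - pr FF a) = 0 := by
    rw [map_sub, pr_of_mem FF (pr_mem FF a), sub_self]
  obtain ⟨g, hg, h3⟩ := p3r_bracket BF FF v (hFB hv) hFB hcen (a - pr FF a)
    (BF.sub_mem ha (hFB (pr_mem _ _))) h2
  have h4 : lam * (a - pr FF a) = g * (lam * v) - (lam * v) * g := by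
    rw [h3, mul_sub, ← mul_assoc, ← mul_assoc, ← mul_assoc, hlam g hg]
  rw [h1, Dc_add, h4, Dc_bracket N c _ g (fun j => hc j g hg), hP, mul_zero, zero_mul, sub_zero,
    add_zero, Dc_comm, mul_assoc]
  have h5 := hcom _ (pr_mem FF a)
  have h6 := hlam _ (hFB (pr_mem FF a))
  have h7 := hlam _ (hFB hv)
  calc lam * v * (lam * pr FF a) = lam * (v * lam) * pr FF a := by noncomm_ring
    _ = lam * (lam * v) * pr FF a := by rw [h7]
    _ = lam * lam * (v * pr FF a) := by noncomm_ring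
    _ = lam * lam * (pr FF a * v) := by rw [h5]
    _ = lam * (lam * pr FF a) * v := by noncomm_ring
    _ = lam * (pr FF a * lam) * v := by rw [h6]
    _ = lam * pr FF a * (lam * v) := by noncomm_ring

theorem p3r_quad (g b : A₁) (hg : g ∈ BF) (hb : b ∈ BF) (hb0 : pr FF b = 0) :
    Qc N c (lam * v) (lam * (g * v - v * g)) (lam * b) =
      - (Pc' N c (lam * v) * lam * pr FF (g * b)) := by
  have h4 : lam * (g * v - v * g) = g * (lam * v) - (lam * v) * g := by
    rw [mul_sub, ← mul_assoc, ← mul_assoc, ← mul_assoc, hlam g hg]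
  rw [h4, Qc_bracket N c _ g _ (fun j => hc j g hg),
    p3r_lin N c BF FF v lam hv hFB hcen hcom hlam hc hP b hb, hb0, mul_zero, mul_zero, zero_sub]
  have h5 : g * (lam * b) = lam * (g * b) := by
    rw [← mul_assoc, ← hlam g hg, mul_assoc]
  rw [h5, p3r_lin N c BF FF v lam hv hFB hcen hcom hlam hc hP (g * b) (BF.mul_mem hg hb)]

end Abs

section Small

variable {K A K₁ E₁ A₁ : Type} [Field K] [Ring A] [Algebra K A] [Field K₁] [Ring E₁] [Ring A₁]
  [Algebra K₁ E₁] [Algebra K₁ A₁] {κ : K →+* K₁} {ι : A →+* A₁} {j : E₁ →ₐ[K₁] A₁} {m : ℕ}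

theorem p3r_bx1_bx_comm (h : Adm κ ι j m) {U V : Submodule K A}
    (hUV : ∀ a ∈ U, ∀ b ∈ V, a * b = b * a) {u v : A₁}
    (hu : u ∈ bx1 K₁ ι U) (hv : v ∈ bx ι j V) : u * v = v * u := by
  refine Submodule.span_induction (p := fun u _ => u * v = v * u) ?_ ?_ ?_ ?_ hu
  · rintro x ⟨a, ha, rfl⟩
    refine Submodule.span_induction (p := fun v _ => ι a * v = v * ι a) ?_ ?_ ?_ ?_ hv
    · rintro x ⟨e, b, hb, rfl⟩
      rw [← mul_assoc, ← map_mul, hUV a ha b hb, map_mul, mul_assoc, h.comm, mul_assoc]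
    · rw [zero_mul, mul_zero]
    · intro x y _ _ hx hy
      rw [add_mul, mul_add, hx, hy]
    · intro c x _ hx
      rw [smul_mul_assoc, mul_smul_comm, hx]
  · rw [zero_mul, mul_zero]
  · intro x y _ _ hx hy
    rw [add_mul, mul_add, hx, hy]
  · intro c x _ hx
    rw [smul_mul_assoc, mul_smul_comm, hx]

theorem p3r_mem_bx_map {V : Submodule K A} (a : A) {x : A₁}
    (hx : x ∈ bx ι j (V.map (LinearMap.mulLeft K a))) : ∃ y ∈ bx ι j V, x = ι a * y := by
  refine Submodule.span_induction (p := fun x _ => ∃ y ∈ bx ι j V, x = ι a * y) ?_ ?_ ?_ ?_ hx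
  · rintro x ⟨e, b, ⟨b', hb', rfl⟩, rfl⟩
    refine ⟨ι b' * j e, mul_mem_bx hb' e, ?_⟩
    rw [LinearMap.mulLeft_apply, map_mul, mul_assoc]
  · exact ⟨0, Submodule.zero_mem _, by rw [mul_zero]⟩
  · rintro x y _ _ ⟨x', hx', rfl⟩ ⟨y', hy', rfl⟩
    exact ⟨x' + y', Submodule.add_mem _ hx' hy', by rw [mul_add]⟩
  · rintro c x _ ⟨x', hx', rfl⟩
    exact ⟨c • x', Submodule.smul_mem _ _ hx', by rw [mul_smul_comm]⟩

theorem p3r_intg_of_mul [IsDomain A₁] {x z : LS A₁} (hx : LS.Intg x) (hx0 : LS.coeff x 0 ≠ 0)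
    (hxz : LS.Intg (x * z)) : LS.Intg z := by
  by_cases hz : z = 0
  · rw [hz]
    exact LS.Intg.zero
  · obtain ⟨n, g, hzg, hg, hg0⟩ := LS.exists_eq_tp_mul hz
    have h1 : x * z = LS.tp n * (x * g) := by
      rw [hzg, ← mul_assoc, ← LS.tp_comm, mul_assoc]
    have h2 : LS.coeff (x * z) n ≠ 0 := by
      rw [h1, LS.coeff_tp_mul, sub_self, LS.coeff_mul_zero hx hg]
      exact mul_ne_zero hx0 hg0
    have h3 : 0 ≤ n := by
      by_contra hcon
      exact h2 (hxz n (by omega))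
    rw [hzg]
    exact (LS.Intg.tp h3).mul hg

/-- separability: `q'(C) ≠ 0` -/
theorem p3r_deriv_ne_zero [CharZero K₁] [IsDomain A₁] [FiniteDimensional K A]
    [FiniteDimensional K₁ A₁] (h : Adm κ ι j m) (L : Subalgebra K A)
    (hL : ∀ a ∈ L, ∀ b ∈ L, a * b = b * a) (C : A₁) (c : ℕ → A₁)
    (hc : ∀ i, c i ∈ bx1 K₁ ι (Subalgebra.toSubmodule L)) (hcm : c m = 1)
    (hCL : ∀ x ∈ bx1 K₁ ι (Subalgebra.toSubmodule L), C * x = x * C)
    (hdim : Module.finrank K₁ (LG K₁ ι L C) = Module.finrank K L * m) :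
    Pc' m c C ≠ 0 := by
  intro h0
  have hm := h.pos
  have hnt : Nontrivial A := ι.domain_nontrivial
  have hLpos : 0 < Module.finrank K L := Module.finrank_pos
  obtain ⟨k, rfl⟩ : ∃ k, m = k + 1 := ⟨m - 1, by omega⟩
  -- `C ^ k` is a combination of lower powers
  let Φ : (Fin k → bx1 K₁ ι (Subalgebra.toSubmodule L)) →ₗ[K₁] A₁ :=
    { toFun := fun a => ∑ i, (a i : A₁) * C ^ (i : ℕ)
      map_add' := by
        intro a b
        simp only [Pi.add_apply, Submodule.coe_add, add_mul, Finset.sum_add_distrib]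
      map_smul' := by
        intro r a
        simp only [Pi.smul_apply, Submodule.coe_smul, smul_mul_assoc, Finset.smul_sum,
          RingHom.id_apply] }
  have hrow : ∀ a : Fin k → bx1 K₁ ι (Subalgebra.toSubmodule L), Φ a = ∑ i, (a i : A₁) * C ^ (i : ℕ) :=
    fun a => rfl
  have hCk : C ^ k ∈ LinearMap.range Φ := by
    have h1 : ((k + 1 : ℕ) : K₁) • C ^ k = - ∑ i ∈ Finset.range k, ((i + 1 : ℕ) • (c (i + 1) * C ^ i)) := by
      have h2 : Pc' (k + 1) c C = ∑ i ∈ Finset.range k, ((i + 1 : ℕ) • (c (i + 1) * C ^ i))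
          + (k + 1 : ℕ) • C ^ k := by
        unfold Pc'
        rw [Finset.sum_range_succ', Finset.sum_range_succ]
        simp only [zero_smul, add_zero, Nat.add_sub_cancel, hcm, one_mul]
      rw [h2] at h0
      rw [Nat.cast_smul_eq_nsmul]
      exact eq_neg_of_add_eq_zero_right h0
    have hne : ((k + 1 : ℕ) : K₁) ≠ 0 := by exact_mod_cast Nat.succ_ne_zero k
    have h3 : C ^ k = ((k + 1 : ℕ) : K₁)⁻¹ • (- ∑ i ∈ Finset.range k,
        ((i + 1 : ℕ) • (c (i + 1) * C ^ i))) := by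
      rw [← h1, smul_smul, inv_mul_cancel₀ hne, one_smul]
    rw [h3]
    refine Submodule.smul_mem _ _ (Submodule.neg_mem _ ?_)
    refine ⟨fun i => ⟨((i : ℕ) + 1 : ℕ) • c ((i : ℕ) + 1), ?_⟩, ?_⟩
    · exact Submodule.smul_of_tower_mem _ _ (hc _)
    · rw [hrow, Finset.sum_range]
      exact Finset.sum_congr rfl fun i _ => by rw [smul_mul_assoc]
  have hbasic : ∀ i : ℕ, i ≤ k → ∀ x ∈ bx1 K₁ ι (Subalgebra.toSubmodule L),
      x * C ^ i ∈ LinearMap.range Φ := by
    intro i hi x hx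
    rcases Nat.lt_or_ge i k with hik | hik
    · refine ⟨Pi.single ⟨i, hik⟩ ⟨x, hx⟩, ?_⟩
      rw [hrow, Finset.sum_eq_single ⟨i, hik⟩]
      · rw [Pi.single_eq_same]
      · intro b _ hb
        rw [Pi.single_eq_of_ne hb]
        simp
      · intro hcon
        exact absurd (Finset.mem_univ _) hcon
    · obtain rfl : i = k := le_antisymm hi hik
      obtain ⟨a, ha⟩ := hCk
      rw [← ha, hrow, Finset.mul_sum]
      refine ⟨fun l => ⟨x * (a l : A₁), ?_⟩, ?_⟩
      · have := bx1_mul hx (a l).2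
        exact bx1_mono (Subalgebra.mul_toSubmodule_le L L |>.trans_eq (by rw [sup_idem])) this
      · rw [hrow]
        exact Finset.sum_congr rfl fun l _ => by rw [mul_assoc]
  have hone : (1 : A₁) ∈ bx1 K₁ ι (Subalgebra.toSubmodule L) := by
    rw [← map_one ι]
    exact ι_mem_bx1 L.one_mem
  -- `LG` preserves the range
  have hpres : ∀ x ∈ LG K₁ ι L C, ∀ y ∈ LinearMap.range Φ, x * y ∈ LinearMap.range Φ := by
    intro x hx
    unfold LG at hx
    induction hx using Algebra.adjoin_induction with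
    | mem x hx =>
      rintro _ ⟨a, rfl⟩
      rw [hrow, Finset.mul_sum]
      refine Submodule.sum_mem _ fun i _ => ?_
      rcases hx with ⟨l, hl, rfl⟩ | hx
      · rw [← mul_assoc]
        refine hbasic i i.2.le _ ?_
        exact bx1_mono (Subalgebra.mul_toSubmodule_le L L |>.trans_eq (by rw [sup_idem]))
          (bx1_mul (ι_mem_bx1 hl) (a i).2)
      · rw [Set.mem_singleton_iff.1 hx, ← mul_assoc, hCL _ (a i).2, mul_assoc, ← pow_succ']
        exact hbasic (i + 1) i.2 _ (a i).2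
    | algebraMap r =>
      intro y hy
      rw [← Algebra.smul_def]
      exact Submodule.smul_mem _ _ hy
    | add x x' _ _ hx hx' =>
      intro y hy
      rw [add_mul]
      exact Submodule.add_mem _ (hx y hy) (hx' y hy)
    | mul x x' _ _ hx hx' =>
      intro y hy
      rw [mul_assoc]
      exact hx _ (hx' y hy)
  have hsub : Subalgebra.toSubmodule (LG K₁ ι L C) ≤ LinearMap.range Φ := by
    intro x hx
    have h4 : (1 : A₁) ∈ LinearMap.range Φ := by
      have := hbasic 0 (Nat.zero_le _) 1 hone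
      rwa [pow_zero, mul_one] at this
    have := hpres x hx 1 h4
    rwa [mul_one] at this
  have h5 : Module.finrank K₁ (LG K₁ ι L C) ≤ k * Module.finrank K L := by
    have h6 : Module.finrank K₁ (LG K₁ ι L C) ≤ Module.finrank K₁ (LinearMap.range Φ) :=
      Submodule.finrank_mono hsub
    have h7 := LinearMap.finrank_range_le Φ
    have h8 : Module.finrank K₁ (Fin k → bx1 K₁ ι (Subalgebra.toSubmodule L))
        = k * Module.finrank K L := by
      rw [Module.finrank_pi_fintype, Finset.sum_const, Finset.card_univ, Fintype.card_fin,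
        smul_eq_mul, h.finrank_bx1]
      rfl
    omega
  rw [hdim] at h5
  nlinarith

end Small

end Vale.Agent.P199K
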