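import Vale.Agent.P199K.TrDC

/-!
# P199: linearly disjoint commutative subalgebras and the trace form (S4)
-/

namespace Vale.Agent.P199K

open Module

/-- the trace of an endomorphism of a power -/
theorem prd_trace_pi {K M B : Type} [Field K] [AddCommGroup M] [Module K M] [Module.Finite K M]
    [Fintype B] [DecidableEq B] (N : (B → M) →ₗ[K] (B → M)) :
    LinearMap.trace K (B → M) N =
      ∑ b, LinearMap.trace K M (LinearMap.proj b ∘ₗ N ∘ₗ LinearMap.single K (fun _ => M) b) := by
  classical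
  let e := finBasis K M
  rw [LinearMap.trace_eq_matrix_trace K (Pi.basis fun _ : B => e), Matrix.trace, Fintype.sum_sigma]
  refine Finset.sum_congr rfl fun b _ => ?_
  rw [LinearMap.trace_eq_matrix_trace K e, Matrix.trace]
  refine Finset.sum_congr rfl fun i _ => ?_
  rw [Matrix.diag_apply, Matrix.diag_apply, LinearMap.toMatrix_apply, LinearMap.toMatrix_apply,
    Pi.basis_repr, Pi.basis_apply]
  rfl

/-- for `z ∈ G`, there is `t ∈ F` with `[Λ:K] T(z l) = [L:K] T(t l)` for all `l ∈ L` -/
theorem prd_main {K A : Type} [Field K] [Ring A] [IsDomain A] [Algebra K A] [Module.Finite K A]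
    [CharZero K] (F L G Λ : Subalgebra K A) (hc : ∀ x ∈ Λ, ∀ y ∈ Λ, x * y = y * x) (hFL : F ≤ L)
    (hFG : F ≤ G) (hL : L ≤ Λ) (hG : G ≤ Λ)
    (hm : Subalgebra.toSubmodule Λ = Subalgebra.toSubmodule L * Subalgebra.toSubmodule G)
    (hd : finrank K Λ * finrank K F = finrank K L * finrank K G) {z : A} (hz : z ∈ G) :
    ∃ t ∈ F, ∀ l ∈ L, (finrank K Λ : K) * trc K (z * l) = (finrank K L : K) * trc K (t * l) := by
  classical
  let _ : DivisionRing L := divisionRingOfFiniteDimensional K L
  have : Module.Finite L A := Module.Finite.of_restrictScalars_finite K L A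
  obtain ⟨b, hbG, hspan, hli⟩ := exists_linearIndependent L (G : Set A)
  have : Fintype b := hli.setFinite.fintype
  have hsm : ∀ (l : L) (x : A), l • x = (l : A) * x := fun l x => rfl
  -- the linear map `(b → L) → Λ`
  have hbΛ : ∀ c : b, (c : A) ∈ Λ := fun c => hG (hbG c.2)
  let Ψ : (b → L) →ₗ[K] Λ :=
    { toFun := fun y => ⟨∑ c, (y c : A) * (c : A),
        Λ.sum_mem fun c _ => Λ.mul_mem (hL (y c).2) (hbΛ c)⟩
      map_add' := fun y y' => by
        refine Subtype.ext ?_
        show ∑ c, ((y c + y' c : L) : A) * (c : A) = _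
        push_cast
        rw [← Finset.sum_add_distrib]
        exact Finset.sum_congr rfl fun c _ => add_mul _ _ _
      map_smul' := fun k y => by
        refine Subtype.ext ?_
        show ∑ c, ((k • y c : L) : A) * (c : A) = k • ∑ c, (y c : A) * (c : A)
        rw [Finset.smul_sum]
        exact Finset.sum_congr rfl fun c _ => smul_mul_assoc _ _ _ }
  have hΨ : ∀ y, (Ψ y : A) = ∑ c, (y c : A) * (c : A) := fun y => rfl
  have hinj0 : ∀ y : b → L, ∑ c, (y c : A) * (c : A) = 0 → y = 0 := by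
    intro y hy
    exact funext fun c => Fintype.linearIndependent_iff.1 hli y hy c
  have hinj : Function.Injective Ψ := by
    rw [injective_iff_map_eq_zero]
    intro y hy
    refine hinj0 y ?_
    rw [← hΨ, hy]
    rfl
  have hsurj : Function.Surjective Ψ := by
    rintro ⟨x, hx⟩
    have h1 : x ∈ Submodule.span L b := by
      rw [hspan]
      have h2 : x ∈ Subalgebra.toSubmodule L * Subalgebra.toSubmodule G := by
        rw [← hm]
        exact hx
      refine Submodule.mul_induction_on h2 ?_ ?_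
      · intro l hl g hg
        exact Submodule.smul_mem _ (⟨l, hl⟩ : L) (Submodule.subset_span hg)
      · intro x y hx hy
        exact Submodule.add_mem _ hx hy
    have h3 : b = Set.range (Subtype.val : b → A) := Subtype.range_coe.symm
    rw [h3, Submodule.mem_span_range_iff_exists_fun] at h1
    obtain ⟨y, hy⟩ := h1
    exact ⟨y, Subtype.ext hy⟩
  let Φ : (b → L) ≃ₗ[K] Λ := LinearEquiv.ofBijective Ψ ⟨hinj, hsurj⟩
  have hΦ : ∀ y, (Φ y : A) = ∑ c, (y c : A) * (c : A) := fun y => rfl
  have hcard : Fintype.card b * finrank K L = finrank K Λ := by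
    rw [← Φ.finrank_eq, Module.finrank_pi_fintype]
    simp
  -- the linear map `(b → F) → G`
  let ΨF : (b → F) →ₗ[K] G :=
    { toFun := fun y => ⟨∑ c, (y c : A) * (c : A),
        G.sum_mem fun c _ => G.mul_mem (hFG (y c).2) (hbG c.2)⟩
      map_add' := fun y y' => by
        refine Subtype.ext ?_
        show ∑ c, ((y c + y' c : F) : A) * (c : A) = _
        push_cast
        rw [← Finset.sum_add_distrib]
        exact Finset.sum_congr rfl fun c _ => add_mul _ _ _
      map_smul' := fun k y => by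
        refine Subtype.ext ?_
        show ∑ c, ((k • y c : F) : A) * (c : A) = k • ∑ c, (y c : A) * (c : A)
        rw [Finset.smul_sum]
        exact Finset.sum_congr rfl fun c _ => smul_mul_assoc _ _ _ }
  have hΨF : ∀ y, (ΨF y : A) = ∑ c, (y c : A) * (c : A) := fun y => rfl
  have hinjF : Function.Injective ΨF := by
    rw [injective_iff_map_eq_zero]
    intro y hy
    have h1 := hinj0 (fun c => ⟨(y c : A), hFL (y c).2⟩) (by
      show ∑ c, (y c : A) * (c : A) = 0
      rw [← hΨF, hy]
      rfl)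
    funext c
    have h2 := congrArg Subtype.val (congrFun h1 c)
    exact Subtype.ext h2
  have hsurjF : Function.Surjective ΨF := by
    have hdim : finrank K (b → F) = finrank K G := by
      have hL0 : 0 < finrank K L := finrank_pos
      have h1 : finrank K (b → F) = Fintype.card b * finrank K F := by
        rw [Module.finrank_pi_fintype]
        simp
      rw [h1]
      have h2 : finrank K L * (Fintype.card b * finrank K F) = finrank K L * finrank K G := by
        rw [← hd, ← hcard]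
        ring
      exact Nat.eq_of_mul_eq_mul_left hL0 h2
    exact (LinearMap.injective_iff_surjective_of_finrank_eq_finrank hdim).1 hinjF
  -- the matrix of multiplication by `z`
  have hcoef : ∀ c : b, ∃ m : b → F, z * (c : A) = ∑ c', (m c' : A) * (c' : A) := by
    intro c
    obtain ⟨m, hm'⟩ := hsurjF ⟨z * c, G.mul_mem hz (hbG c.2)⟩
    exact ⟨m, (congrArg Subtype.val hm').symm⟩
  choose M hM using hcoef
  have hcL : ∀ x ∈ L, ∀ y ∈ L, x * y = y * x := fun x hx y hy => hc x (hL hx) y (hL hy)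
  refine ⟨∑ c, (M c c : A), F.sum_mem fun c _ => (M c c).2, fun l hl => ?_⟩
  -- multiplication by `z l` on `Λ`
  have hzΛ : z ∈ Λ := hG hz
  have hlΛ : l ∈ Λ := hL hl
  let mF : b → b → L := fun c c' => ⟨(M c c' : A), hFL (M c c').2⟩
  let N : (b → L) →ₗ[K] (b → L) := LinearMap.pi fun c' =>
    ∑ c, (LinearMap.mulLeft K ((⟨l, hl⟩ : L) * mF c c')) ∘ₗ LinearMap.proj c
  have hN : ∀ y c', N y c' = ∑ c, ((⟨l, hl⟩ : L) * mF c c') * y c := by
    intro y c'
    show (∑ c, (LinearMap.mulLeft K ((⟨l, hl⟩ : L) * mF c c')) ∘ₗ LinearMap.proj c) y = _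
    rw [LinearMap.sum_apply]
    rfl
  have hconj : Φ.conj N = LinearMap.mulLeft K ((⟨z, hzΛ⟩ : Λ) * ⟨l, hlΛ⟩) := by
    refine LinearMap.ext fun x => ?_
    obtain ⟨y, rfl⟩ := Φ.surjective x
    rw [LinearEquiv.conj_apply_apply, LinearEquiv.symm_apply_apply]
    refine Subtype.ext ?_
    rw [hΦ]
    show _ = z * l * (Φ y : A)
    rw [hΦ, Finset.mul_sum]
    have h1 : ∀ c : b, z * l * ((y c : A) * (c : A)) =
        ∑ c', (l * (M c c' : A) * (y c : A)) * (c' : A) := by
      intro c
      have h2 : z * l * ((y c : A) * (c : A)) = l * (y c : A) * (z * (c : A)) := by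
        have h3 : z * (l * (y c : A)) = (l * (y c : A)) * z :=
          hc _ hzΛ _ (Λ.mul_mem hlΛ (hL (y c).2))
        calc z * l * ((y c : A) * (c : A)) = z * (l * (y c : A)) * (c : A) := by
              simp only [mul_assoc]
          _ = l * (y c : A) * (z * (c : A)) := by rw [h3]; simp only [mul_assoc]
      rw [h2, hM, Finset.mul_sum]
      refine Finset.sum_congr rfl fun c' _ => ?_
      have h4 : (y c : A) * (M c c' : A) = (M c c' : A) * (y c : A) :=
        hcL _ (y c).2 _ (hFL (M c c').2)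
      calc l * (y c : A) * ((M c c' : A) * (c' : A))
          = l * ((y c : A) * (M c c' : A)) * (c' : A) := by simp only [mul_assoc]
        _ = (l * (M c c' : A) * (y c : A)) * (c' : A) := by rw [h4]; simp only [mul_assoc]
    rw [Finset.sum_congr rfl fun c _ => h1 c, Finset.sum_comm]
    refine Finset.sum_congr rfl fun c' _ => ?_
    rw [← Finset.sum_mul, hN]
    congr 1
    have h5 : ∀ (s : Finset b) (f : b → L), ((∑ c ∈ s, f c : L) : A) = ∑ c ∈ s, (f c : A) :=
      fun s f => map_sum (L.subtype) f s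
    rw [h5]
    rfl
  have htr : trc K ((⟨z, hzΛ⟩ : Λ) * ⟨l, hlΛ⟩) = trc K ((⟨l, hl⟩ : L) * ∑ c, mF c c) := by
    rw [tr_apply, ← hconj, LinearMap.trace_conj', prd_trace_pi, Finset.mul_sum, map_sum]
    refine Finset.sum_congr rfl fun c _ => ?_
    rw [tr_apply]
    congr 1
    refine LinearMap.ext fun y => ?_
    show N (Pi.single c y) c = (⟨l, hl⟩ * mF c c) * y
    rw [hN, Finset.sum_eq_single c]
    · rw [Pi.single_eq_same]
    · intro c' _ hne
      rw [Pi.single_eq_of_ne hne, mul_zero]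
    · intro h
      exact absurd (Finset.mem_univ c) h
  have h1 := tr_subalgebra Λ ((⟨z, hzΛ⟩ : Λ) * ⟨l, hlΛ⟩)
  have h2 := tr_subalgebra L ((⟨l, hl⟩ : L) * ∑ c, mF c c)
  have h3 : (((⟨z, hzΛ⟩ : Λ) * ⟨l, hlΛ⟩ : Λ) : A) = z * l := rfl
  have h4 : (((⟨l, hl⟩ : L) * ∑ c, mF c c : L) : A) = l * ∑ c, (M c c : A) := by
    rw [Subalgebra.coe_mul]
    congr 1
    exact map_sum (L.subtype) (fun c => mF c c) Finset.univ
  rw [h3] at h1
  rw [h4] at h2
  rw [h1, htr, ← h2, tr_mul_comm]

/-- (S4) `Λ = L ⊗_F G` commutative: for `z ∈ G`, `l ∈ L`, `T(z l) = T(z π_F(l))`.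
Proof idea: `T = c Tr_{Λ/K}` on `Λ` (tr_subalgebra); `Tr_{Λ/F}(z l) = Tr_{G/F}(z) Tr_{L/F}(l)`
(matrices in an `F`-basis `l_a g_b` of `Λ`), `Tr_{L/F}(l) = [L:F] π_F(l)`. -/
theorem tr_disj {K A : Type} [Field K] [Ring A] [IsDomain A] [Algebra K A] [Module.Finite K A]
    [CharZero K] (F L G Λ : Subalgebra K A) (hc : ∀ x ∈ Λ, ∀ y ∈ Λ, x * y = y * x) (hFL : F ≤ L)
    (hFG : F ≤ G) (hL : L ≤ Λ) (hG : G ≤ Λ)
    (hm : Subalgebra.toSubmodule Λ = Subalgebra.toSubmodule L * Subalgebra.toSubmodule G)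
    (hd : finrank K Λ * finrank K F = finrank K L * finrank K G) {z l : A} (hz : z ∈ G)
    (hl : l ∈ L) : trc K (z * l) = trc K (z * pr F l) := by
  obtain ⟨t, ht, h⟩ := prd_main F L G Λ hc hFL hFG hL hG hm hd hz
  have h1 := h l hl
  have h2 := h (pr F l) (hFL (pr_mem F l))
  rw [tr_mul_pr F ht] at h2
  have h0 : (finrank K Λ : K) ≠ 0 := Nat.cast_ne_zero.2 (finrank_pos (R := K) (M := Λ)).ne'
  exact mul_left_cancel₀ h0 (h1.trans h2.symm)

end Vale.Agent.P199K
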