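import Mathlib

/-!
# P199, section 3: residue spaces (helper95)

`RF K F`: `F` is a complete discretely valued field with coefficient field `K` and uniformizer `t`
(`F = K((t))`). `RS D X Y`: the `F`-vector space `X` carries a lattice with residue space `Y`.
-/

namespace Vale.Agent.P199K

/-- `F` is a complete discretely valued field with coefficient field `K` and uniformizer `t`. -/
structure RF (K F : Type*) [Field K] [Field F] where
  C : K →+* F
  t : F
  t_ne : t ≠ 0
  int : Subring F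
  C_mem : ∀ a, C a ∈ int
  t_mem : t ∈ int
  res : F → K
  res_add : ∀ x ∈ int, ∀ y ∈ int, res (x + y) = res x + res y
  res_mul : ∀ x ∈ int, ∀ y ∈ int, res (x * y) = res x * res y
  res_C : ∀ a, res (C a) = a
  res_t : res t = 0
  div : ∀ x ∈ int, res x = 0 → ∃ y ∈ int, x = t * y
  exh : ∀ x, ∃ n : ℕ, t ^ n * x ∈ int
  complete : ∀ a : ℕ → K, ∃ c : ℕ → F, ∀ n, c n ∈ int ∧ c n = C (a n) + t * c (n + 1)

namespace RF

variable {K F : Type*} [Field K] [Field F] (D : RF K F)

theorem one_mem : (1 : F) ∈ D.int := D.int.one_mem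

theorem res_one : D.res 1 = 1 := by
  have h := D.res_C 1
  rwa [map_one] at h

theorem res_zero : D.res 0 = 0 := by
  have h := D.res_C 0
  rwa [map_zero] at h

theorem pow_mem (n : ℕ) : D.t ^ n ∈ D.int := D.int.pow_mem D.t_mem n

theorem t_pow_ne (n : ℕ) : D.t ^ n ≠ 0 := pow_ne_zero n D.t_ne

theorem sep {c : F} (h : ∀ n : ℕ, ∃ y ∈ D.int, c = D.t ^ n * y) : c = 0 := by
  by_contra hc
  obtain ⟨n, hn⟩ := D.exh c⁻¹
  obtain ⟨y, hy, hcy⟩ := h (n + 1)
  have h1 : (1 : F) = D.t * ((D.t ^ n * c⁻¹) * y) := by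
    apply mul_left_cancel₀ (D.t_pow_ne n)
    calc D.t ^ n * 1 = (D.t ^ n * c⁻¹) * c := by
          rw [mul_assoc, inv_mul_cancel₀ hc]
      _ = (D.t ^ n * c⁻¹) * (D.t ^ (n + 1) * y) := by rw [← hcy]
      _ = D.t ^ n * (D.t * ((D.t ^ n * c⁻¹) * y)) := by ring
  have h2 := D.res_mul _ D.t_mem _ (D.int.mul_mem hn hy)
  rw [← h1, D.res_one, D.res_t, zero_mul] at h2
  exact one_ne_zero h2

end RF

/-- The vector space `X` over `F` carries a lattice `int` with residue space `Y`. -/
structure RS {K F : Type*} [Field K] [Field F] (D : RF K F) (X Y : Type*) [AddCommGroup X]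
    [Module F X] [AddCommGroup Y] [Module K Y] where
  int : AddSubgroup X
  smul_mem : ∀ c ∈ D.int, ∀ x ∈ int, c • x ∈ int
  res : X → Y
  res_add : ∀ x ∈ int, ∀ y ∈ int, res (x + y) = res x + res y
  res_smul : ∀ c ∈ D.int, ∀ x ∈ int, res (c • x) = D.res c • res x
  div : ∀ x ∈ int, res x = 0 → ∃ y ∈ int, x = D.t • y
  exh : ∀ x, ∃ n : ℕ, D.t ^ n • x ∈ int
  sep : ∀ x, (∀ n : ℕ, ∃ y ∈ int, x = D.t ^ n • y) → x = 0
  surj : ∀ y, ∃ x ∈ int, res x = y

namespace RS

variable {K F : Type*} [Field K] [Field F] {D : RF K F} {X Y : Type*} [AddCommGroup X]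
  [Module F X] [AddCommGroup Y] [Module K Y] (R : RS D X Y)

theorem res_zero : R.res 0 = 0 := by
  have h := R.res_add 0 R.int.zero_mem 0 R.int.zero_mem
  rw [add_zero] at h
  exact left_eq_add.1 h

theorem res_neg {x : X} (hx : x ∈ R.int) : R.res (-x) = - R.res x := by
  have h := R.res_add x hx (-x) (R.int.neg_mem hx)
  rw [add_neg_cancel, R.res_zero] at h
  exact eq_neg_of_add_eq_zero_right h.symm

theorem res_sub {x y : X} (hx : x ∈ R.int) (hy : y ∈ R.int) :
    R.res (x - y) = R.res x - R.res y := by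
  rw [sub_eq_add_neg, R.res_add x hx _ (R.int.neg_mem hy), R.res_neg hy, sub_eq_add_neg]

theorem sum_mem {ι : Type*} (s : Finset ι) (x : ι → X) (hx : ∀ i ∈ s, x i ∈ R.int) :
    ∑ i ∈ s, x i ∈ R.int := AddSubgroup.sum_mem _ hx

theorem res_sum {ι : Type*} (s : Finset ι) (x : ι → X) (hx : ∀ i ∈ s, x i ∈ R.int) :
    R.res (∑ i ∈ s, x i) = ∑ i ∈ s, R.res (x i) := by
  classical
  induction s using Finset.induction_on with
  | empty => rw [Finset.sum_empty, Finset.sum_empty, R.res_zero]
  | insert a s ha ih =>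
    rw [Finset.sum_insert ha, Finset.sum_insert ha,
      R.res_add _ (hx a (Finset.mem_insert_self a s)) _
        (R.sum_mem s x fun i hi => hx i (Finset.mem_insert_of_mem hi)),
      ih fun i hi => hx i (Finset.mem_insert_of_mem hi)]

theorem smul_t_mem {x : X} (hx : x ∈ R.int) : D.t • x ∈ R.int := R.smul_mem _ D.t_mem x hx

theorem res_t_smul {x : X} (hx : x ∈ R.int) : R.res (D.t • x) = 0 := by
  rw [R.res_smul _ D.t_mem x hx, D.res_t, zero_smul]

/-- The residue space of a subspace. -/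
def rs (U : Submodule F X) : Submodule K Y where
  carrier := {y | ∃ x ∈ U, x ∈ R.int ∧ R.res x = y}
  add_mem' := by
    rintro _ _ ⟨x, hx, hxi, rfl⟩ ⟨y, hy, hyi, rfl⟩
    exact ⟨x + y, U.add_mem hx hy, R.int.add_mem hxi hyi, R.res_add x hxi y hyi⟩
  zero_mem' := ⟨0, U.zero_mem, R.int.zero_mem, R.res_zero⟩
  smul_mem' := by
    rintro a _ ⟨x, hx, hxi, rfl⟩
    refine ⟨D.C a • x, U.smul_mem _ hx, R.smul_mem _ (D.C_mem a) x hxi, ?_⟩
    rw [R.res_smul _ (D.C_mem a) x hxi, D.res_C]

theorem mem_rs {U : Submodule F X} {y : Y} :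
    y ∈ R.rs U ↔ ∃ x ∈ U, x ∈ R.int ∧ R.res x = y := Iff.rfl

theorem res_mem_rs {U : Submodule F X} {x : X} (hx : x ∈ U) (hxi : x ∈ R.int) :
    R.res x ∈ R.rs U := ⟨x, hx, hxi, rfl⟩

theorem rs_mono {U V : Submodule F X} (h : U ≤ V) : R.rs U ≤ R.rs V := by
  rintro _ ⟨x, hx, hxi, rfl⟩
  exact ⟨x, h hx, hxi, rfl⟩

theorem rs_top : R.rs (⊤ : Submodule F X) = ⊤ := by
  rw [eq_top_iff]
  intro y _
  obtain ⟨x, hx, rfl⟩ := R.surj y
  exact ⟨x, trivial, hx, rfl⟩

/-- Independence of lifts: if `∑ c_i u_i` is integral, then the `c_i` are integral. -/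
theorem int_of_sum {ι : Type*} [Fintype ι] (u : ι → X) (hu : ∀ i, u i ∈ R.int)
    (hli : LinearIndependent K fun i => R.res (u i)) (c : ι → F)
    (hc : ∑ i, c i • u i ∈ R.int) : ∀ i, c i ∈ D.int := by
  classical
  -- a power of `t` clearing all denominators
  have hex : ∃ N : ℕ, ∀ i, D.t ^ N * c i ∈ D.int := by
    choose n hn using fun i => D.exh (c i)
    refine ⟨∑ i, n i, fun i => ?_⟩
    rw [← Finset.add_sum_erase _ _ (Finset.mem_univ i), pow_add, mul_comm (D.t ^ n i), mul_assoc]
    exact D.int.mul_mem (D.pow_mem _) (hn i)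
  have hmin := Nat.find_spec hex
  rcases Nat.eq_zero_or_pos (Nat.find hex) with h0 | hpos
  · intro i
    have := hmin i
    rwa [h0, pow_zero, one_mul] at this
  · exfalso
    obtain ⟨N, hN⟩ : ∃ N, Nat.find hex = N + 1 := ⟨Nat.find hex - 1, by omega⟩
    rw [hN] at hmin
    have h1 : ∑ i, D.res (D.t ^ (N + 1) * c i) • R.res (u i) = 0 := by
      have h2 : R.res (∑ i, (D.t ^ (N + 1) * c i) • u i) =
          ∑ i, D.res (D.t ^ (N + 1) * c i) • R.res (u i) := by
        rw [R.res_sum _ _ fun i _ => R.smul_mem _ (hmin i) _ (hu i)]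
        exact Finset.sum_congr rfl fun i _ => R.res_smul _ (hmin i) _ (hu i)
      rw [← h2]
      have h3 : ∑ i, (D.t ^ (N + 1) * c i) • u i = D.t • (D.t ^ N • ∑ i, c i • u i) := by
        rw [smul_smul, ← pow_succ', Finset.smul_sum]
        exact Finset.sum_congr rfl fun i _ => by rw [smul_smul]
      rw [h3]
      exact R.res_t_smul (R.smul_mem _ (D.pow_mem N) _ hc)
    have h4 := Fintype.linearIndependent_iff.1 hli _ h1
    have h5 : ∀ i, D.t ^ N * c i ∈ D.int := by
      intro i
      obtain ⟨y, hy, hy2⟩ := D.div _ (hmin i) (h4 i)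
      have : D.t ^ N * c i = y := by
        apply mul_left_cancel₀ D.t_ne
        rw [← hy2, pow_succ']
        ring
      rw [this]
      exact hy
    have h6 := Nat.find_min' hex h5
    omega

/-- Lifts of independent vectors are independent. -/
theorem li_of_res {ι : Type*} (u : ι → X) (hu : ∀ i, u i ∈ R.int)
    (hli : LinearIndependent K fun i => R.res (u i)) : LinearIndependent F u := by
  classical
  rw [linearIndependent_iff_finset_linearIndependent]
  intro s
  rw [Fintype.linearIndependent_iff]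
  intro c hc i
  have hli' : LinearIndependent K fun i : s => R.res (u i) :=
    hli.comp _ Subtype.val_injective
  refine D.sep fun n => ?_
  have h1 := R.int_of_sum (fun i : s => u i) (fun i => hu i) hli' (fun i => (D.t ^ n)⁻¹ * c i) (by
    have h2 : ∑ i : s, ((D.t ^ n)⁻¹ * c i) • u i = (D.t ^ n)⁻¹ • ∑ i : s, c i • u i := by
      rw [Finset.smul_sum]
      exact Finset.sum_congr rfl fun i _ => by rw [smul_smul]
    have h3 : ∑ i : s, c i • u i = 0 := hc
    rw [h2, h3, smul_zero]
    exact R.int.zero_mem) i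
  exact ⟨_, h1, by rw [mul_inv_cancel_left₀ (D.t_pow_ne n)]⟩

/-- Spanning: integral elements of `U` are integral combinations of elements whose residues
span the residue space. -/
theorem exists_sum {ι : Type*} [Fintype ι] {U : Submodule F X} (u : ι → X) (huU : ∀ i, u i ∈ U)
    (hu : ∀ i, u i ∈ R.int) (hs : R.rs U ≤ Submodule.span K (Set.range fun i => R.res (u i)))
    {x : X} (hxU : x ∈ U) (hx : x ∈ R.int) :
    ∃ c : ι → F, (∀ i, c i ∈ D.int) ∧ x = ∑ i, c i • u i := by
  classical
  have step : ∀ z : {z : X // z ∈ U ∧ z ∈ R.int}, ∃ (z' : {z : X // z ∈ U ∧ z ∈ R.int})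
      (a : ι → K), (z : X) = ∑ i, D.C (a i) • u i + D.t • (z' : X) := by
    rintro ⟨z, hzU, hz⟩
    have h1 := hs (R.res_mem_rs hzU hz)
    rw [Submodule.mem_span_range_iff_exists_fun] at h1
    obtain ⟨a, ha⟩ := h1
    have hmem : ∑ i, D.C (a i) • u i ∈ R.int :=
      R.sum_mem _ _ fun i _ => R.smul_mem _ (D.C_mem _) _ (hu i)
    have h2 : R.res (z - ∑ i, D.C (a i) • u i) = 0 := by
      rw [R.res_sub hz hmem, R.res_sum _ _ fun i _ => R.smul_mem _ (D.C_mem _) _ (hu i), ← ha,
        sub_eq_zero]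
      exact Finset.sum_congr rfl fun i _ => by
        rw [R.res_smul _ (D.C_mem _) _ (hu i), D.res_C]
    obtain ⟨y, hy, hy2⟩ := R.div _ (R.int.sub_mem hz hmem) h2
    refine ⟨⟨y, ?_, hy⟩, a, ?_⟩
    · have h3 : y = D.t⁻¹ • (z - ∑ i, D.C (a i) • u i) := by
        rw [hy2, smul_smul, inv_mul_cancel₀ D.t_ne, one_smul]
      rw [h3]
      exact U.smul_mem _ (U.sub_mem hzU (U.sum_mem fun i _ => U.smul_mem _ (huU i)))
    · show z = ∑ i, D.C (a i) • u i + D.t • y
      rw [← hy2]
      abel
  choose nx dg hnx using step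
  obtain ⟨z, hz0, hzs⟩ : ∃ z : ℕ → {z : X // z ∈ U ∧ z ∈ R.int},
      z 0 = ⟨x, hxU, hx⟩ ∧ ∀ n, z (n + 1) = nx (z n) :=
    ⟨fun n => Nat.rec ⟨x, hxU, hx⟩ (fun _ y => nx y) n, rfl, fun _ => rfl⟩
  have hz : ∀ n, (z n : X) = ∑ i, D.C (dg (z n) i) • u i + D.t • (z (n + 1) : X) := fun n => by
    rw [hzs]
    exact hnx (z n)
  choose c hc using fun i => D.complete (fun n => dg (z n) i)
  refine ⟨fun i => c i 0, fun i => (hc i 0).1, ?_⟩
  rw [← sub_eq_zero]
  refine R.sep _ fun N => ⟨(z N : X) - ∑ i, c i N • u i, R.int.sub_mem (z N).2.2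
    (R.sum_mem _ _ fun i _ => R.smul_mem _ (hc i N).1 _ (hu i)), ?_⟩
  induction N with
  | zero =>
    rw [pow_zero, one_smul, hz0]
  | succ N ih =>
    rw [ih, pow_succ, mul_smul]
    congr 1
    have h1 : ∑ i, c i N • u i = ∑ i, D.C (dg (z N) i) • u i + D.t • ∑ i, c i (N + 1) • u i := by
      rw [Finset.smul_sum, ← Finset.sum_add_distrib]
      refine Finset.sum_congr rfl fun i _ => ?_
      conv_lhs => rw [(hc i N).2]
      rw [add_smul, mul_smul]
    rw [h1, hz N, smul_sub]
    abel

/-- A basis of `U` lifting a basis of the residue space. -/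
theorem exists_basis [Module.Finite K Y] (U : Submodule F X) :
    ∃ u : Fin (Module.finrank K (R.rs U)) → X, (∀ i, u i ∈ U) ∧ (∀ i, u i ∈ R.int) ∧
      (LinearIndependent K fun i => R.res (u i)) ∧
      R.rs U = Submodule.span K (Set.range fun i => R.res (u i)) ∧
      LinearIndependent F u ∧ U = Submodule.span F (Set.range u) := by
  let b := Module.finBasis K (R.rs U)
  choose u huU hui hur using fun i => (b i).2
  have hli : LinearIndependent K fun i => R.res (u i) := by
    have h1 : (fun i => R.res (u i)) = fun i => ((b i : R.rs U) : Y) := funext hur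
    rw [h1]
    exact b.linearIndependent.map' (R.rs U).subtype (Submodule.ker_subtype _)
  have hsp : R.rs U = Submodule.span K (Set.range fun i => R.res (u i)) := by
    have h1 : (fun i => R.res (u i)) = fun i => ((b i : R.rs U) : Y) := funext hur
    rw [h1]
    have h2 := congrArg (Submodule.map (R.rs U).subtype) b.span_eq
    rw [Submodule.map_span, Submodule.map_top, Submodule.range_subtype, ← Set.range_comp] at h2
    exact h2.symm
  refine ⟨u, huU, hui, hli, hsp, R.li_of_res u hui hli, le_antisymm (fun x hx => ?_) ?_⟩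
  · obtain ⟨n, hn⟩ := R.exh x
    obtain ⟨c, -, hc⟩ := R.exists_sum u huU hui hsp.le (U.smul_mem _ hx) hn
    have h3 : x = ∑ i, ((D.t ^ n)⁻¹ * c i) • u i := by
      have h4 : x = (D.t ^ n)⁻¹ • (D.t ^ n • x) := by
        rw [smul_smul, inv_mul_cancel₀ (D.t_pow_ne n), one_smul]
      rw [h4, hc, Finset.smul_sum]
      exact Finset.sum_congr rfl fun i _ => by rw [smul_smul]
    rw [h3]
    exact Submodule.sum_mem _ fun i _ =>
      Submodule.smul_mem _ _ (Submodule.subset_span (Set.mem_range_self i))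
  · rw [Submodule.span_le]
    rintro _ ⟨i, rfl⟩
    exact huU i

/-- (r1) -/
theorem finrank_rs [Module.Finite K Y] (U : Submodule F X) :
    Module.finrank K (R.rs U) = Module.finrank F U := by
  obtain ⟨u, -, -, -, -, hli, hsp⟩ := R.exists_basis U
  conv_rhs => rw [hsp]
  rw [finrank_span_eq_card hli, Fintype.card_fin]

include R in
theorem finite_of_rs [Module.Finite K Y] : Module.Finite F X := by
  obtain ⟨u, -, -, -, -, -, hsp⟩ := R.exists_basis (⊤ : Submodule F X)
  refine ⟨?_⟩
  rw [hsp]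
  exact Submodule.fg_span (Set.finite_range u)

/-- If the residue spaces agree, the spaces agree. -/
theorem eq_of_rs_le [Module.Finite K Y] {U V : Submodule F X} (h : U ≤ V)
    (h' : R.rs V ≤ R.rs U) : U = V := by
  have := R.finite_of_rs
  refine Submodule.eq_of_le_of_finrank_le h ?_
  rw [← R.finrank_rs, ← R.finrank_rs]
  exact Submodule.finrank_mono h'

/-- The field as a residue space over itself. -/
def self (D : RF K F) : RS D F K where
  int := D.int.toAddSubgroup
  smul_mem := fun _ hc _ hx => D.int.mul_mem hc hx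
  res := D.res
  res_add := D.res_add
  res_smul := fun c hc x hx => D.res_mul c hc x hx
  div := D.div
  exh := D.exh
  sep := fun _ h => D.sep h
  surj := fun y => ⟨D.C y, D.C_mem y, D.res_C y⟩

/-- Finite products of residue spaces. -/
def pi (R : RS D X Y) (ι : Type*) [Finite ι] : RS D (ι → X) (ι → Y) where
  int := AddSubgroup.pi Set.univ fun _ => R.int
  smul_mem := fun c hc x hx i _ => R.smul_mem c hc _ (hx i trivial)
  res := fun x i => R.res (x i)
  res_add := fun x hx y hy => funext fun i => R.res_add _ (hx i trivial) _ (hy i trivial)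
  res_smul := fun c hc x hx => funext fun i => R.res_smul c hc _ (hx i trivial)
  div := fun x hx h => by
    choose y hy hxy using fun i => R.div (x i) (hx i trivial) (congrFun h i)
    exact ⟨y, fun i _ => hy i, funext hxy⟩
  exh := fun x => by
    classical
    have := Fintype.ofFinite ι
    choose n hn using fun i => R.exh (x i)
    refine ⟨∑ i, n i, fun i _ => ?_⟩
    show D.t ^ (∑ i, n i) • x i ∈ R.int
    rw [← Finset.add_sum_erase _ _ (Finset.mem_univ i), add_comm, pow_add, mul_smul]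
    exact R.smul_mem _ (D.pow_mem _) _ (hn i)
  sep := fun x h => funext fun i => R.sep _ fun n => by
    obtain ⟨y, hy, hxy⟩ := h n
    exact ⟨y i, hy i trivial, congrFun hxy i⟩
  surj := fun y => by
    choose x hx hxy using fun i => R.surj (y i)
    exact ⟨x, fun i _ => hx i, funext hxy⟩

theorem mem_pi_int {R : RS D X Y} {ι : Type*} [Finite ι] {x : ι → X} :
    x ∈ (R.pi ι).int ↔ ∀ i, x i ∈ R.int := by
  constructor
  · intro h i
    exact h i trivial
  · intro h i _
    exact h i

end RS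

end Vale.Agent.P199K
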