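import Vale.Agent.P199K.ResLam

/-!
# P199, section 4: RES (a)-(d), part without triples (helper95)

`w` a series over `A`, `w'` a series over `LS A₁` such that the residues of `calL'` contain the
`π_{Λ}(w₁(θ))`.
-/

open scoped TensorProduct LaurentSeries
open PowerSeries

namespace Vale.Agent.P199K

open Module

/-- inverse of an integral element with nonzero residue -/
theorem LS.inv_intg {A : Type} [Ring A] [IsDomain A] {x y : LS A} (hx : LS.Intg x)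
    (h0 : LS.coeff x 0 ≠ 0) (hxy : x * y = 1) : LS.Intg y ∧ LS.coeff x 0 * LS.coeff y 0 = 1 := by
  have hy : y ≠ 0 := by
    rintro rfl
    rw [mul_zero] at hxy
    exact zero_ne_one hxy
  obtain ⟨n, g, hg, hgi, hg0⟩ := LS.exists_eq_tp_mul hy
  have h1 : LS.tp n * (x * g) = 1 := by
    rw [← mul_assoc, LS.tp_comm, mul_assoc, ← hg, hxy]
  have h2 : n = 0 := by
    by_contra hn
    have h3 := congrArg (fun z => LS.coeff z n) h1
    simp only [LS.coeff_tp_mul, sub_self, LS.coeff_one, if_neg hn] at h3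
    rw [LS.coeff_mul_zero hx hgi] at h3
    exact mul_ne_zero h0 hg0 h3
  subst h2
  rw [LS.tp_zero, one_mul] at hg
  subst hg
  refine ⟨hgi, ?_⟩
  rw [← LS.coeff_mul_zero hx hgi, hxy, LS.coeff_one, if_pos rfl]

section aa

variable {K A σ K₁ E₁ A₁ τ : Type} [Field K] [Ring A] [Algebra K A] [Field K₁] [Ring E₁]
  [Ring A₁] [Algebra K₁ E₁] [Algebra K₁ A₁] [Fintype σ] [Fintype τ]
  {κ : K →+* K₁} {ι : A →+* A₁} {j : E₁ →ₐ[K₁] A₁} {m : ℕ}
  [FiniteDimensional K A] [CharZero K] [IsDomain A] [FiniteDimensional K₁ A₁] [CharZero K₁]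
  [IsDomain A₁]

/-- the range of `lin1` is the box of the range of `lin` -/
theorem aa_range (h : Adm κ ι j m) (w : NPS σ A) {b : A₁}
    (hb : b ∈ bx ι j (LinearMap.range (lin K w))) : ∃ θ : σ → E₁, lin1 ι j w θ = b := by
  have h1 : bx ι j (LinearMap.range (lin K w)) ≤ LinearMap.range (lin1 ι j w) := by
    refine Submodule.span_le.2 ?_
    rintro _ ⟨e, _, ⟨δ, rfl⟩, rfl⟩
    refine ⟨fun γ => κ (δ γ) • e, ?_⟩
    show ∑ γ, ι (w [γ]) * j (κ (δ γ) • e) = ι (∑ γ, δ γ • w [γ]) * j e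
    rw [map_sum, Finset.sum_mul]
    refine Finset.sum_congr rfl fun γ _ => ?_
    rw [map_smul, Algebra.smul_def (δ γ), map_mul, h.ι_alg, ← Algebra.smul_def,
      Algebra.mul_smul_comm, Algebra.smul_mul_assoc]
  exact h1 hb

theorem aa_ι_ne (h : Adm κ ι j m) {l : A} (h0 : l ≠ 0) : ι l ≠ 0 := by
  obtain ⟨il, hil, -⟩ := exists_inv K h0
  intro h1
  have h2 := congrArg ι hil
  rw [map_mul, h1, zero_mul, map_one] at h2
  exact zero_ne_one h2

/-- lifting of `π_Λ(calL ⊠ E₁)` -/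
theorem aa_lift (h : Adm κ ι j m) (w : NPS σ A) (w' : NPS τ (LS A₁)) (C : A₁)
    (hC : C ∈ bx ι j (Subalgebra.toSubmodule (Lf K (w []))))
    (hΛ : resA (Lf (LS K₁) (w' [])) = LG K₁ ι (Lf K (w [])) C)
    (hlift : ∀ θ : σ → E₁, ∃ y ∈ calL (LS K₁) w', LS.Intg y ∧
      LS.coeff y 0 = pr (resA (Lf (LS K₁) (w' []))) (lin1 ι j w θ))
    (b : A₁) (hb : b ∈ bx ι j (calL K w)) :
    ∃ y ∈ calL (LS K₁) w', LS.Intg y ∧ LS.coeff y 0 = pr (LG K₁ ι (Lf K (w [])) C) b := by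
  have h1 : ∃ b' ∈ bx ι j (LinearMap.range (lin K w)),
      pr (LG K₁ ι (Lf K (w [])) C) b' = pr (LG K₁ ι (Lf K (w [])) C) b := by
    refine Submodule.span_induction (p := fun b _ => ∃ b' ∈ bx ι j (LinearMap.range (lin K w)),
      pr (LG K₁ ι (Lf K (w [])) C) b' = pr (LG K₁ ι (Lf K (w [])) C) b) ?_ ?_ ?_ ?_ hb
    · rintro _ ⟨e, u, ⟨δ, rfl⟩, rfl⟩
      refine ⟨ι (lin K w δ) * j e, mul_mem_bx (LinearMap.mem_range_self _ δ) e, ?_⟩
      rw [LinearMap.comp_apply, proj_Lf]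
      exact (lam_pr h hC (lin K w δ) e).symm
    · exact ⟨0, Submodule.zero_mem _, rfl⟩
    · rintro x y _ _ ⟨x', hx', hx⟩ ⟨y', hy', hy⟩
      exact ⟨x' + y', Submodule.add_mem _ hx' hy', by rw [map_add, map_add, hx, hy]⟩
    · rintro c x _ ⟨x', hx', hx⟩
      exact ⟨c • x', Submodule.smul_mem _ _ hx', by rw [map_smul, map_smul, hx]⟩
  obtain ⟨b', hb', hbb⟩ := h1
  obtain ⟨θ, rfl⟩ := aa_range h w hb'
  obtain ⟨y, hy, hyi, hy0⟩ := hlift θ
  exact ⟨y, hy, hyi, by rw [hy0, hΛ, hbb]⟩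

theorem aa_exl (h : Adm κ ι j m) (w : NPS σ A) (w' : NPS τ (LS A₁)) (C : A₁)
    (hlift : ∀ b ∈ bx ι j (calL K w), ∃ y ∈ calL (LS K₁) w', LS.Intg y ∧
      LS.coeff y 0 = pr (LG K₁ ι (Lf K (w [])) C) b) (l : A) (hl : l ∈ calL K w) :
    ∃ l' ∈ calL (LS K₁) w', LS.Intg l' ∧ LS.coeff l' 0 = ι l := by
  obtain ⟨y, hy, hyi, hy0⟩ := hlift (ι l) (bx1_le_bx _ (ι_mem_bx1 hl))
  refine ⟨y, hy, hyi, ?_⟩
  rw [hy0, pr_of_mem _ (lam_ι_mem (calL_le_proved w hl))]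

/-- (b) -/
theorem aa_resV (h : Adm κ ι j m) (w : NPS σ A) (w' : NPS τ (LS A₁)) (C : A₁)
    (hlift : ∀ b ∈ bx ι j (calL K w), ∃ y ∈ calL (LS K₁) w', LS.Intg y ∧
      LS.coeff y 0 = pr (LG K₁ ι (Lf K (w [])) C) b) (l : A) (hl : l ∈ calL K w) (h0 : l ≠ 0)
    (l' : LS A₁) (hli : LS.Intg l') (hl0 : LS.coeff l' 0 = ι l) :
    VVr ι j (Lf K (w [])) (Vl K w l) C ≤ res (Vl (LS K₁) w' l') := by
  intro x hx
  rw [lam_VV] at hx
  obtain ⟨b, hb, rfl⟩ := hx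
  have hb' : ι l * b ∈ bx ι j (calL K w) := by
    refine Submodule.span_induction (p := fun b _ => ι l * b ∈ bx ι j (calL K w))
      ?_ ?_ ?_ ?_ hb
    · rintro _ ⟨e, u, hu, rfl⟩
      have hu' : l * u ∈ calL K w := hu
      rw [← mul_assoc, ← map_mul]
      exact mul_mem_bx hu' e
    · rw [mul_zero]
      exact Submodule.zero_mem _
    · intro x y _ _ hx hy
      rw [mul_add]
      exact Submodule.add_mem _ hx hy
    · intro c x _ hx
      rw [mul_smul_comm]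
      exact Submodule.smul_mem _ _ hx
  obtain ⟨z, hz, hzi, hz0⟩ := hlift _ hb'
  rw [pr_mul_left _ (lam_ι_mem (calL_le_proved w hl))] at hz0
  have hιl0 : ι l ≠ 0 := aa_ι_ne h h0
  have hl'0 : l' ≠ 0 := by
    rintro rfl
    exact hιl0 (hl0.symm.trans (LS.coeff_zero 0))
  obtain ⟨u, hu1, hu2⟩ := exists_inv (LS K₁) hl'0
  obtain ⟨hui, hu0⟩ := LS.inv_intg hli (by rw [hl0]; exact hιl0) hu1
  obtain ⟨-, hu0'⟩ := LS.inv_intg hui (by
    intro h1
    rw [h1, mul_zero] at hu0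
    exact zero_ne_one hu0) hu2
  refine (mem_res _ _).2 ⟨u * z, ?_, LS.Intg.mul hui hzi, ?_⟩
  · rw [mem_Vl, ← mul_assoc, hu1, one_mul]
    exact hz
  · rw [LS.coeff_mul_zero hui hzi, hz0, ← mul_assoc, ← hl0, hu0', one_mul]

/-- `𝔉 ≤ bar F'` -/
theorem aa_FFle (h : Adm κ ι j m) (w : NPS σ A) (w' : NPS τ (LS A₁)) (C : A₁)
    (l : A) (hl : l ∈ calL K w) (h0 : l ≠ 0)
    (hVV : VVr ι j (Lf K (w [])) (Vl K w l) C
      ≤ res (Subalgebra.toSubmodule (Ff (LS K₁) w'))) :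
    FFr ι j (Lf K (w [])) (Ff K w) C ≤ resA (Ff (LS K₁) w') := by
  have hFL : Ff K w ≤ Lf K (w []) := Ff_le_Lf_proved w
  have hVL : Vl K w l ≤ Subalgebra.toSubmodule (Lf K (w [])) := (Vl_le_Ff_proved w l hl h0).trans hFL
  have hιF : ∀ x ∈ Ff K w, ι x ∈ resA (Ff (LS K₁) w') := by
    intro x hx
    rw [Ff_eq_adjoin_proved w l hl h0] at hx
    induction hx using Algebra.adjoin_induction with
    | mem x hx => exact hVV (lam_ι_mem_VV hVL hx)
    | algebraMap c =>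
      rw [h.ι_alg]
      exact Subalgebra.algebraMap_mem _ _
    | add x y _ _ hx hy => rw [map_add]; exact Subalgebra.add_mem _ hx hy
    | mul x y _ _ hx hy => rw [map_mul]; exact Subalgebra.mul_mem _ hx hy
  refine Algebra.adjoin_le ?_
  rintro _ ⟨x, hx, rfl⟩
  rw [proj_eq_pr]
  refine Submodule.span_induction (p := fun x _ => pr (LG K₁ ι (Lf K (w [])) C) x
    ∈ resA (Ff (LS K₁) w')) ?_ ?_ ?_ ?_ hx
  · rintro _ ⟨e, u, hu, rfl⟩
    rw [pr_mul_left _ (lam_ι_mem (hFL hu))]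
    refine Subalgebra.mul_mem _ (hιF u hu) (hVV ?_)
    rw [lam_VV]
    refine ⟨j e, ?_, rfl⟩
    have h2 : j e = ι 1 * j e := by rw [map_one, one_mul]
    rw [h2]
    exact mul_mem_bx (one_mem_Vl w l hl) e
  · rw [map_zero]
    exact Subalgebra.zero_mem _
  · intro a b _ _ ha hb
    rw [map_add]
    exact Subalgebra.add_mem _ ha hb
  · intro c a _ ha
    rw [map_smul]
    exact Subalgebra.smul_mem _ ha _

/-- (d) -/
theorem aa_Vp (w : NPS σ A) (w' : NPS τ (LS A₁)) (C : A₁)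
    (l : A) (l' : LS A₁) (hl' : l' ∈ calL (LS K₁) w') (hl'0 : l' ≠ 0)
    (hresV : VVr ι j (Lf K (w [])) (Vl K w l) C ≤ res (Vl (LS K₁) w' l'))
    (hresF : res (Subalgebra.toSubmodule (Ff (LS K₁) w'))
      = Subalgebra.toSubmodule (FFr ι j (Lf K (w [])) (Ff K w) C)) (k : ℕ)
    (hk : (VVr ι j (Lf K (w [])) (Vl K w l) C) ^ k
      = Subalgebra.toSubmodule (FFr ι j (Lf K (w [])) (Ff K w) C)) :
    VpU (LS K₁) w' k := by
  rw [VpU_iff_proved w' l' hl' hl'0]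
  have hVF' : Vl (LS K₁) w' l' ≤ Subalgebra.toSubmodule (Ff (LS K₁) w') :=
    Vl_le_Ff_proved w' l' hl' hl'0
  have hle : (Vl (LS K₁) w' l') ^ k ≤ Subalgebra.toSubmodule (Ff (LS K₁) w') := by
    clear hk
    induction k with
    | zero =>
      rw [pow_zero, Submodule.one_le]
      exact (Ff (LS K₁) w').one_mem
    | succ k ih =>
      rw [pow_succ, Submodule.mul_le]
      intro a ha b hb
      exact (Ff (LS K₁) w').mul_mem (ih ha) (hVF' hb)
  refine eq_of_res_le hle ?_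
  rw [hresF, ← hk]
  refine le_trans ?_ (res_pow_le _ _)
  exact pow_le_pow_left' hresV k

end aa

end Vale.Agent.P199K
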