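import Vale.Agent.P199K.Inv
import Vale.Agent.P199K.Tr
import Vale.Agent.P199K.Dens
import Vale.Agent.P199K.LSApi

/-!
# P199, section 4: definitions for RES (helper95)

`P` is a triple, `d` the data of an expansion, `w = P.Psi w₀`, `w' = wx w₀ P d` the series of the
expansion, `l ∈ calL` nonzero (the `λ` of the note).
-/

open scoped TensorProduct LaurentSeries
open PowerSeries

namespace Vale.Agent.P199K

section U
variable (K : Type) {A σ : Type} [Field K] [Ring A] [Algebra K A] [Fintype σ] (w : NPS σ A)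

/-- `V = λ⁻¹ calL` -/
noncomputable def Vl (l : A) : Submodule K A := (calL K w).comap (LinearMap.mulLeft K l)

/-- `Z = {z ∈ F : T(z V) = 0}` -/
noncomputable def Zl (l : A) : Submodule K A := Subalgebra.toSubmodule (Ff K w) ⊓ perp (Vl K w l)

/-- `p_W'(W)` -/
noncomputable def dpW : A := Polynomial.aeval (w []) (Polynomial.derivative (minpoly K (w [])))

/-- `λ_f = p_W'(W) λ` -/
noncomputable def lamf (l : A) : A := dpW K w * l

end U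

section U1
variable {K A σ K₁ E₁ A₁ : Type} [Field K] [Ring A] [Algebra K A] [Fintype σ] [Field K₁] [Ring E₁] [Ring A₁]
  [Algebra K₁ E₁] [Algebra K₁ A₁]

/-- `θ ↦ ∑ w([γ]) θ_γ`, `E₁^σ → A₁` (extension of the linear part of `w`) -/
noncomputable def lin1 (ι : A →+* A₁) (j : E₁ →ₐ[K₁] A₁) (w : NPS σ A) : (σ → E₁) →ₗ[K₁] A₁ where
  toFun θ := ∑ γ, ι (w [γ]) * j (θ γ)
  map_add' a b := by simp [mul_add, Finset.sum_add_distrib]
  map_smul' c a := by simp [Finset.smul_sum]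

/-- `𝔉`, the algebra generated by `π_{L_C}(F ⊠ E₁)` -/
noncomputable def FFr (ι : A →+* A₁) (j : E₁ →ₐ[K₁] A₁) (L F : Subalgebra K A) (C : A₁) :
    Subalgebra K₁ A₁ :=
  Algebra.adjoin K₁ ((proj (Subalgebra.toSubmodule (LG K₁ ι L C))) ''
    (bx ι j (Subalgebra.toSubmodule F) : Set A₁))

/-- `π_{L_C}(V ⊠ E₁)` -/
noncomputable def VVr (ι : A →+* A₁) (j : E₁ →ₐ[K₁] A₁) (L : Subalgebra K A) (V : Submodule K A) (C : A₁) :
    Submodule K₁ A₁ :=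
  (bx ι j V).map (proj (Subalgebra.toSubmodule (LG K₁ ι L C)))

/-- `T_lin(G) = {y ∈ Z ⊠ E₁ : y G = G y}` -/
noncomputable def Tlin (ι : A →+* A₁) (j : E₁ →ₐ[K₁] A₁) (Z : Submodule K A) (G : A₁) :
    Submodule K₁ A₁ :=
  bx ι j Z ⊓ Subalgebra.toSubmodule (Subalgebra.centralizer K₁ {G})

end U1

/-! ## derivative -/

/-- `d/dt` on `LS A` -/
noncomputable def LS.ld {A : Type} [Ring A] (x : LS A) : LS A :=
  LS.mk (fun n => (n + 1) • x.coeff (n + 1)) ((LS.exists_bound x).choose - 1) (fun n hn => by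
    rw [(LS.exists_bound x).choose_spec (n + 1) (by omega), smul_zero])

@[simp] theorem LS.coeff_ld {A : Type} [Ring A] (x : LS A) (n : ℤ) :
    (LS.ld x).coeff n = (n + 1) • x.coeff (n + 1) := rfl

section One
variable {K A σ : Type} [Field K] [Ring A] [Algebra K A] [Fintype σ] (w : NPS σ A) (l : A)

theorem mem_Vl (x : A) : x ∈ Vl K w l ↔ l * x ∈ calL K w := Iff.rfl

theorem one_mem_Vl (hl : l ∈ calL K w) : (1 : A) ∈ Vl K w l := by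
  rw [mem_Vl, mul_one]; exact hl

end One

namespace Trip
variable {S : Stg} (w₀ : NPS (Fin 2) S.A)

/-- the conclusions (a) to (d) of RES -/
structure RESad (P : Trip S) (d : ExpD P.K P.A P.σ) (l : P.A) (C : d.A₁) : Prop where
  /-- `bar L' = L_C` -/
  resL : res (Subalgebra.toSubmodule (Lf (LS d.K₁) ((wx w₀ P d) [])))
    = Subalgebra.toSubmodule (LG d.K₁ d.ι (Lf P.K ((P.Psi w₀) [])) C)
  nn' : (P.expand d).nn w₀ = P.nn w₀ * d.m
  n1' : (P.expand d).n1 w₀ = P.n1 w₀ * d.m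
  CR' : (P.expand d).CR w₀
  CE' : (P.expand d).CE w₀
  /-- `bar F' = 𝔉` -/
  resF : res (Subalgebra.toSubmodule (Ff (LS d.K₁) (wx w₀ P d)))
    = Subalgebra.toSubmodule (FFr d.ι d.j (Lf P.K ((P.Psi w₀) [])) (Ff P.K (P.Psi w₀)) C)
  finrankF : Module.finrank d.K₁ (FFr d.ι d.j (Lf P.K ((P.Psi w₀) [])) (Ff P.K (P.Psi w₀)) C)
    = P.n1 w₀ * d.m
  /-- existence of `λ'` -/
  exl : ∃ l' ∈ calL (LS d.K₁) (wx w₀ P d), LS.Intg l' ∧ LS.coeff l' 0 = d.ι l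
  /-- (b), for every `λ'` with residue `λ` -/
  resV : ∀ l' ∈ calL (LS d.K₁) (wx w₀ P d), LS.Intg l' → LS.coeff l' 0 = d.ι l →
    VVr d.ι d.j (Lf P.K ((P.Psi w₀) [])) (Vl P.K (P.Psi w₀) l) C ≤ res (Vl (LS d.K₁) (wx w₀ P d) l')
  /-- (c) -/
  FF_le : Subalgebra.toSubmodule (FFr d.ι d.j (Lf P.K ((P.Psi w₀) [])) (Ff P.K (P.Psi w₀)) C)
    ≤ bx d.ι d.j (Subalgebra.toSubmodule (Ff P.K (P.Psi w₀)))
  FF_eq : Subalgebra.toSubmodule (FFr d.ι d.j (Lf P.K ((P.Psi w₀) [])) (Ff P.K (P.Psi w₀)) C)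
    = VVr d.ι d.j (Lf P.K ((P.Psi w₀) [])) (Subalgebra.toSubmodule (Ff P.K (P.Psi w₀))) C
  LFF : Subalgebra.toSubmodule (LG d.K₁ d.ι (Lf P.K ((P.Psi w₀) [])) C)
    = bx1 d.K₁ d.ι (Subalgebra.toSubmodule (Lf P.K ((P.Psi w₀) [])))
      * Subalgebra.toSubmodule (FFr d.ι d.j (Lf P.K ((P.Psi w₀) [])) (Ff P.K (P.Psi w₀)) C)
  FF_le_LG : FFr d.ι d.j (Lf P.K ((P.Psi w₀) [])) (Ff P.K (P.Psi w₀)) C
    ≤ LG d.K₁ d.ι (Lf P.K ((P.Psi w₀) [])) C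
  ι_mem_FF : ∀ x ∈ Ff P.K (P.Psi w₀),
    d.ι x ∈ FFr d.ι d.j (Lf P.K ((P.Psi w₀) [])) (Ff P.K (P.Psi w₀)) C
  /-- (d) -/
  Vp' : ∀ k : ℕ, (VVr d.ι d.j (Lf P.K ((P.Psi w₀) [])) (Vl P.K (P.Psi w₀) l) C) ^ k
      = Subalgebra.toSubmodule (FFr d.ι d.j (Lf P.K ((P.Psi w₀) [])) (Ff P.K (P.Psi w₀)) C) →
    (P.expand d).Vp w₀ k
  V2' : P.Vp w₀ 2 → (P.expand d).Vp w₀ 2

end Trip

end Vale.Agent.P199K
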