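import Vale.Agent.P199K.BxA
import Vale.Agent.P199K.PrDisj
import Vale.Agent.P199K.ResDefs

/-!
# P199, section 4: RES (c): `𝔉 ⊆ F ⊠ E₁`
-/

namespace Vale.Agent.P199K

open Module

variable {K A K₁ E₁ A₁ : Type} [Field K] [Ring A] [Algebra K A] [Field K₁] [Ring E₁]
  [Ring A₁] [Algebra K₁ E₁] [Algebra K₁ A₁]
  {κ : K →+* K₁} {ι : A →+* A₁} {j : E₁ →ₐ[K₁] A₁} {m : ℕ}

theorem rff_bx1A_le_LG (L : Subalgebra K A) (C : A₁) : bx1A K₁ ι L ≤ LG K₁ ι L C := by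
  intro x hx
  have h1 : bx1 K₁ ι (Subalgebra.toSubmodule L) ≤ Subalgebra.toSubmodule (LG K₁ ι L C) := by
    refine Submodule.span_le.2 ?_
    rintro _ ⟨u, hu, rfl⟩
    exact Algebra.subset_adjoin (Or.inl ⟨u, hu, rfl⟩)
  exact h1 (mem_bx1A.1 hx)

/-- `L₁[C]` is commutative if `C ∈ L ⊠ E₁`, `L` commutative -/
theorem rff_LG_comm (h : Adm κ ι j m) (L : Subalgebra K A) (hL : ∀ x ∈ L, ∀ y ∈ L, x * y = y * x)
    (C : A₁) (hC : C ∈ bx ι j (Subalgebra.toSubmodule L)) :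
    ∀ x ∈ LG K₁ ι L C, ∀ y ∈ LG K₁ ι L C, x * y = y * x := by
  have hg : ∀ x ∈ ({x | ∃ l ∈ L, x = ι l} ∪ {C} : Set A₁),
      ∀ y ∈ ({x | ∃ l ∈ L, x = ι l} ∪ {C} : Set A₁), Commute x y := by
    rintro x (⟨a, ha, rfl⟩ | rfl) y (⟨b, hb, rfl⟩ | rfl)
    · show ι a * ι b = ι b * ι a
      rw [← map_mul, ← map_mul, hL a ha b hb]
    · exact bx1A_comm_bxA h hL _ (ι_mem_bx1 ha) _ hC
    · exact (bx1A_comm_bxA h hL _ (ι_mem_bx1 hb) _ hC).symm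
    · exact Commute.refl _
  intro x hx y hy
  have h1 : ∀ a ∈ ({x | ∃ l ∈ L, x = ι l} ∪ {C} : Set A₁), Commute a y := fun a ha =>
    Algebra.commute_of_mem_adjoin_of_forall_mem_commute hy (hg a ha)
  exact (Algebra.commute_of_mem_adjoin_of_forall_mem_commute hx fun a ha => (h1 a ha).symm).symm.eq

theorem rff_LG_le_bxA (h : Adm κ ι j m) (L : Subalgebra K A) (C : A₁)
    (hC : C ∈ bx ι j (Subalgebra.toSubmodule L)) : LG K₁ ι L C ≤ bxA h L := by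
  refine Algebra.adjoin_le ?_
  rintro x (⟨a, ha, rfl⟩ | rfl)
  · exact bx1_le_bx _ (ι_mem_bx1 ha)
  · exact hC

variable [FiniteDimensional K A] [CharZero K] [IsDomain A] [FiniteDimensional K₁ A₁] [CharZero K₁]
  [IsDomain A₁]

theorem rff_FFr_le_LG (L F : Subalgebra K A) (C : A₁) : FFr ι j L F C ≤ LG K₁ ι L C := by
  refine Algebra.adjoin_le ?_
  rintro _ ⟨y, _, rfl⟩
  rw [proj_eq_pr]
  exact pr_mem _ _

theorem rff_bx1A_le_FFr (L F : Subalgebra K A) (hFL : F ≤ L) (C : A₁) :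
    bx1A K₁ ι F ≤ FFr ι j L F C := by
  intro x hx
  have h1 : bx1 K₁ ι (Subalgebra.toSubmodule F) ≤ Subalgebra.toSubmodule (FFr ι j L F C) := by
    refine Submodule.span_le.2 ?_
    rintro _ ⟨u, hu, rfl⟩
    refine Algebra.subset_adjoin ⟨ι u, bx1_le_bx _ (ι_mem_bx1 hu), ?_⟩
    rw [proj_eq_pr]
    exact pr_of_mem _ (Algebra.subset_adjoin (Or.inl ⟨u, hFL hu, rfl⟩))
  exact h1 (mem_bx1A.1 hx)

/-- RES (c). Proof: `y ∈ 𝔉`, `y' = π_{F ⊠ E₁}(y)`; for `l ∈ L`, `x ∈ F ⊠ E₁`: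
`T(y ι l x) = T(y ι l π_{LG} x) = T(z ι l)`, `z = π_{LG}(x) y ∈ 𝔉`, `= T(z ι(π_F l))` by `tr_disj`
(with `F₁ ≤ L₁, 𝔉 ≤ LG`) `= T(y ι(π_F l) x)`; the same for `y'` (as `π_{F ⊠ E₁}(ι l) = ι(π_F l)`);
so `y - y' ∈ L ⊠ E₁` is orthogonal to `L ⊠ E₁ = L₁ (F ⊠ E₁)`, `y = y'`. -/
theorem FFr_le_bx (h : Adm κ ι j m) (L F : Subalgebra K A) (hFL : F ≤ L)
    (hL : ∀ x ∈ L, ∀ y ∈ L, x * y = y * x) (C : A₁)
    (hC : C ∈ bx ι j (Subalgebra.toSubmodule L))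
    (hm : Subalgebra.toSubmodule (LG K₁ ι L C)
      = bx1 K₁ ι (Subalgebra.toSubmodule L) * Subalgebra.toSubmodule (FFr ι j L F C))
    (hd : finrank K₁ (LG K₁ ι L C) * finrank K F = finrank K L * finrank K₁ (FFr ι j L F C)) :
    Subalgebra.toSubmodule (FFr ι j L F C) ≤ bx ι j (Subalgebra.toSubmodule F) := by
  have hcomm := rff_LG_comm h L hL C hC
  have hFFL := rff_FFr_le_LG (ι := ι) (j := j) L F C
  have hF1 : finrank K₁ (bx1A K₁ ι F) = finrank K F := h.finrank_bx1 (Subalgebra.toSubmodule F)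
  have hL1 : finrank K₁ (bx1A K₁ ι L) = finrank K L := h.finrank_bx1 (Subalgebra.toSubmodule L)
  intro y hy
  have hy' : y ∈ FFr ι j L F C := hy
  have hyLG : y ∈ LG K₁ ι L C := hFFL hy'
  have key : ∀ l ∈ L, ∀ e : E₁, trc K₁ (y * ι l * j e) = trc K₁ (pr (bxA h F) y * ι l * j e) := by
    intro l hl e
    have hje : j e ∈ bx ι j (Subalgebra.toSubmodule F) := by
      have := mul_mem_bx (ι := ι) (j := j) (U := Subalgebra.toSubmodule F) F.one_mem e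
      rwa [map_one, one_mul] at this
    have hιl : ∀ a ∈ L, ι a ∈ LG K₁ ι L C := fun a ha => Algebra.subset_adjoin (Or.inl ⟨a, ha, rfl⟩)
    have hz : pr (LG K₁ ι L C) (j e) * y ∈ FFr ι j L F C := by
      refine (FFr ι j L F C).mul_mem (Algebra.subset_adjoin ⟨j e, hje, ?_⟩) hy'
      rw [proj_eq_pr]
    have hpl : pr F l ∈ L := hFL (pr_mem F l)
    -- `T(y ι a x) = T(π(x) y ι a)` for `a ∈ L`
    have e1 : ∀ a ∈ L, trc K₁ (y * ι a * j e) = trc K₁ (pr (LG K₁ ι L C) (j e) * y * ι a) := by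
      intro a ha
      rw [← tr_mul_pr (LG K₁ ι L C) ((LG K₁ ι L C).mul_mem hyLG (hιl a ha)), tr_mul_comm, mul_assoc]
    have e2 := tr_disj (bx1A K₁ ι F) (bx1A K₁ ι L) (FFr ι j L F C) (LG K₁ ι L C) hcomm
      (bx1A_mono hFL) (rff_bx1A_le_FFr L F hFL C) (rff_bx1A_le_LG L C) hFFL
      (by rw [hm, toSubmodule_bx1A]) (by rw [hF1, hL1, hd]) hz (ι_mem_bx1 hl : ι l ∈ bx1A K₁ ι L)
    rw [h.pr_bx1A] at e2
    rw [e1 l hl, e2, ← e1 _ hpl]
    -- the other side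
    have hιpl : ι (pr F l) * j e ∈ bxA h F := mul_mem_bx (pr_mem F l) e
    have e3 : trc K₁ (y * ι (pr F l) * j e) = trc K₁ (pr (bxA h F) y * ι (pr F l) * j e) := by
      rw [mul_assoc, tr_mul_comm, ← tr_mul_pr (bxA h F) hιpl, tr_mul_comm, ← mul_assoc]
    rw [e3]
    have hxy : j e * pr (bxA h F) y ∈ bxA h F := (bxA h F).mul_mem hje (pr_mem _ _)
    rw [tr_mul_comm, tr_mul_comm _ (j e), ← mul_assoc, ← mul_assoc, ← tr_mul_pr (bxA h F) hxy (ι l),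
      h.pr_bxA_ι]
  have hpy : pr (bxA h F) y ∈ bxA h L := bxA_mono h hFL (pr_mem _ _)
  have hyL : y ∈ bxA h L := rff_LG_le_bxA h L C hC hyLG
  have h0 : y - pr (bxA h F) y = 0 := by
    refine tr_nondeg (bxA h L) ((bxA h L).sub_mem hyL hpy) fun v hv => ?_
    refine Submodule.span_induction (p := fun v _ => trc K₁ (v * (y - pr (bxA h F) y)) = 0)
      ?_ ?_ ?_ ?_ (mem_bxA.1 hv)
    · rintro _ ⟨e, l, hl, rfl⟩
      rw [tr_mul_comm, sub_mul, map_sub, ← mul_assoc, ← mul_assoc, key l hl e, sub_self]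
    · rw [zero_mul, map_zero]
    · intro a b _ _ ha hb
      rw [add_mul, map_add, ha, hb, add_zero]
    · intro c a _ ha
      rw [smul_mul_assoc, map_smul, ha, smul_zero]
  rw [sub_eq_zero.1 h0]
  exact pr_mem (bxA h F) y

end Vale.Agent.P199K
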