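import Vale.Agent.P199K.ResFF
import Vale.Agent.P199K.ResNN
import Vale.Agent.P199K.ResOne

/-!
# P199, section 4: the algebra `Λ = L₁[C]`, projections of boxes onto it (helper95)
-/

open scoped TensorProduct LaurentSeries
open PowerSeries

namespace Vale.Agent.P199K

open Module

section gen

/-- the algebra generated by a commutative set is commutative -/
theorem adjoin_comm_of {K A : Type} [Field K] [Ring A] [Algebra K A] {s : Set A}
    (h : ∀ x ∈ s, ∀ y ∈ s, x * y = y * x) :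
    ∀ x ∈ Algebra.adjoin K s, ∀ y ∈ Algebra.adjoin K s, x * y = y * x := by
  have h1 : ∀ y ∈ Algebra.adjoin K s, ∀ x ∈ s, x * y = y * x := by
    intro y hy x hx
    have h2 : Algebra.adjoin K s ≤ Subalgebra.centralizer K {x} := by
      refine Algebra.adjoin_le fun z hz => ?_
      exact mem_centralizer_singleton.2 (h x hx z hz)
    exact mem_centralizer_singleton.1 (h2 hy)
  intro x hx y hy
  have h2 : Algebra.adjoin K s ≤ Subalgebra.centralizer K {y} := by
    refine Algebra.adjoin_le fun z hz => ?_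
    exact mem_centralizer_singleton.2 (h1 y hy z hz).symm
  exact (mem_centralizer_singleton.1 (h2 hx)).symm

/-- relative bases -/
theorem exists_rel_basis {K A : Type} [Field K] [Ring A] [IsDomain A] [Algebra K A]
    [Module.Finite K A] {U V : Subalgebra K A} (h : U ≤ V) :
    ∃ (r : ℕ) (v : Fin r → A), (∀ i, v i ∈ V) ∧
      (∀ x ∈ V, ∃ c : Fin r → A, (∀ i, c i ∈ U) ∧ x = ∑ i, c i * v i) ∧
      finrank K U * r = finrank K V := by
  set U' : Subalgebra K V := U.comap V.val with hU'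
  have h1 : finrank K U' = finrank K U := by
    refine LinearEquiv.finrank_eq
      { toFun := fun x => ⟨(x : V), x.2⟩
        invFun := fun x => ⟨⟨x, h x.2⟩, x.2⟩
        map_add' := fun _ _ => rfl
        map_smul' := fun _ _ => rfl
        left_inv := fun _ => rfl
        right_inv := fun _ => rfl }
  let _ : DivisionRing U' := divisionRingOfFiniteDimensional K U'
  have : Module.Finite U' V := Module.Finite.of_restrictScalars_finite K U' V
  set b := Module.finBasis U' V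
  refine ⟨finrank U' V, fun i => (b i : A), fun i => (b i).2, fun x hx => ?_, ?_⟩
  · refine ⟨fun i => ((b.repr ⟨x, hx⟩ i : V) : A), fun i => (b.repr ⟨x, hx⟩ i).2, ?_⟩
    have h2 := congrArg (Subtype.val) (b.sum_repr ⟨x, hx⟩)
    push_cast at h2
    exact h2.symm
  · rw [← h1]
    exact Module.finrank_mul_finrank K U' V

end gen

section lam

variable {K A K₁ E₁ A₁ : Type} [Field K] [Ring A] [Algebra K A] [Field K₁] [Ring E₁]
  [Ring A₁] [Algebra K₁ E₁] [Algebra K₁ A₁]
  {κ : K →+* K₁} {ι : A →+* A₁} {j : E₁ →ₐ[K₁] A₁} {m : ℕ}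

theorem lam_ι_mem {L : Subalgebra K A} {C : A₁} {x : A} (hx : x ∈ L) : ι x ∈ LG K₁ ι L C :=
  Algebra.subset_adjoin (Or.inl ⟨x, hx, rfl⟩)

theorem lam_C_mem {L : Subalgebra K A} {C : A₁} : C ∈ LG K₁ ι L C :=
  Algebra.subset_adjoin (Or.inr rfl)

theorem lam_bx1_le {L : Subalgebra K A} {C : A₁} :
    bx1 K₁ ι (Subalgebra.toSubmodule L) ≤ Subalgebra.toSubmodule (LG K₁ ι L C) := by
  refine Submodule.span_le.2 ?_
  rintro _ ⟨u, hu, rfl⟩
  exact lam_ι_mem hu

theorem lam_le_bxA (h : Adm κ ι j m) {L : Subalgebra K A} {C : A₁}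
    (hC : C ∈ bx ι j (Subalgebra.toSubmodule L)) : LG K₁ ι L C ≤ h.bxA L := by
  refine Algebra.adjoin_le ?_
  rintro x (⟨l, hl, rfl⟩ | hx)
  · exact bx1_le_bx _ (ι_mem_bx1 hl)
  · rw [Set.mem_singleton_iff] at hx
    rw [hx]
    exact hC

theorem lam_comm (h : Adm κ ι j m) {L : Subalgebra K A} (hL : ∀ x ∈ L, ∀ y ∈ L, x * y = y * x)
    {C : A₁} (hC : C ∈ bx ι j (Subalgebra.toSubmodule L)) :
    ∀ x ∈ LG K₁ ι L C, ∀ y ∈ LG K₁ ι L C, x * y = y * x := by
  have h1 : ∀ l ∈ L, ι l * C = C * ι l := fun l hl =>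
    bx1A_comm_bxA h hL (ι l) (ι_mem_bx1 hl) C hC
  refine adjoin_comm_of ?_
  rintro x (⟨l, hl, rfl⟩ | hx) y (⟨l', hl', rfl⟩ | hy)
  · rw [← map_mul, ← map_mul, hL l hl l' hl']
  · rw [Set.mem_singleton_iff] at hy
    rw [hy]
    exact h1 l hl
  · rw [Set.mem_singleton_iff] at hx
    rw [hx]
    exact (h1 l' hl').symm
  · rw [Set.mem_singleton_iff] at hx hy
    rw [hx, hy]

variable [FiniteDimensional K A] [CharZero K] [IsDomain A] [FiniteDimensional K₁ A₁] [CharZero K₁]
  [IsDomain A₁]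

/-- the projection of `ι a * j e` depends only on `π_L(a)` -/
theorem lam_pr (h : Adm κ ι j m) {L : Subalgebra K A} {C : A₁}
    (hC : C ∈ bx ι j (Subalgebra.toSubmodule L)) (a : A) (e : E₁) :
    pr (LG K₁ ι L C) (ι (pr L a) * j e) = pr (LG K₁ ι L C) (ι a * j e) := by
  rw [← h.pr_bxA L a e, pr_pr (lam_le_bxA h hC)]

theorem lam_FF_le {L F : Subalgebra K A} {C : A₁} : FFr ι j L F C ≤ LG K₁ ι L C := by
  refine Algebra.adjoin_le ?_
  rintro _ ⟨x, _, rfl⟩
  rw [proj_eq_pr]
  exact pr_mem _ _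

theorem lam_pr_mem_FF {L F : Subalgebra K A} {C : A₁} {x : A₁}
    (hx : x ∈ bx ι j (Subalgebra.toSubmodule F)) : pr (LG K₁ ι L C) x ∈ FFr ι j L F C := by
  rw [← proj_eq_pr]
  exact Algebra.subset_adjoin ⟨x, hx, rfl⟩

theorem lam_VV {L : Subalgebra K A} {V : Submodule K A} {C : A₁} :
    VVr ι j L V C = (bx ι j V).map (pr (LG K₁ ι L C)) := by
  unfold VVr
  rw [proj_eq_pr]

theorem lam_VV_le_FF {L F : Subalgebra K A} {V : Submodule K A} (hV : V ≤ Subalgebra.toSubmodule F)
    {C : A₁} : VVr ι j L V C ≤ Subalgebra.toSubmodule (FFr ι j L F C) := by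
  rw [lam_VV]
  rintro _ ⟨x, hx, rfl⟩
  exact lam_pr_mem_FF (bx_mono hV hx)

theorem lam_ι_mem_VV {L : Subalgebra K A} {V : Submodule K A} (hV : V ≤ Subalgebra.toSubmodule L)
    {C : A₁} {v : A} (hv : v ∈ V) : ι v ∈ VVr ι j L V C := by
  rw [lam_VV]
  refine ⟨ι v, bx1_le_bx _ (ι_mem_bx1 hv), ?_⟩
  exact pr_of_mem _ (lam_ι_mem (hV hv))

theorem lam_ι_mem_FF {L F : Subalgebra K A} (hF : F ≤ L) {C : A₁} {x : A} (hx : x ∈ F) :
    ι x ∈ FFr ι j L F C := by
  have h1 := lam_pr_mem_FF (K₁ := K₁) (ι := ι) (j := j) (L := L) (F := F) (C := C) (x := ι x)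
    (bx1_le_bx _ (ι_mem_bx1 hx))
  rwa [pr_of_mem _ (lam_ι_mem (hF hx))] at h1

/-- `Λ = L₁ 𝔉` -/
theorem lam_mul_FF (h : Adm κ ι j m) {L F : Subalgebra K A} {C : A₁}
    (hC : C ∈ bx ι j (Subalgebra.toSubmodule L)) :
    Subalgebra.toSubmodule (LG K₁ ι L C) =
      bx1 K₁ ι (Subalgebra.toSubmodule L) * Subalgebra.toSubmodule (FFr ι j L F C) := by
  apply le_antisymm
  · have h1 : ∀ y ∈ bx ι j (Subalgebra.toSubmodule L), pr (LG K₁ ι L C) y ∈
        bx1 K₁ ι (Subalgebra.toSubmodule L) * Subalgebra.toSubmodule (FFr ι j L F C) := by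
      intro y hy
      refine Submodule.span_induction (p := fun y _ => pr (LG K₁ ι L C) y ∈
        bx1 K₁ ι (Subalgebra.toSubmodule L) * Subalgebra.toSubmodule (FFr ι j L F C)) ?_ ?_ ?_ ?_ hy
      · rintro _ ⟨e, l, hl, rfl⟩
        rw [pr_mul_left _ (lam_ι_mem hl)]
        refine Submodule.mul_mem_mul (ι_mem_bx1 hl) ?_
        have h2 : j e = ι 1 * j e := by rw [map_one, one_mul]
        rw [h2]
        exact lam_pr_mem_FF (mul_mem_bx F.one_mem e)
      · rw [map_zero]
        exact Submodule.zero_mem _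
      · intro a b _ _ ha hb
        rw [map_add]
        exact Submodule.add_mem _ ha hb
      · intro c a _ ha
        rw [map_smul]
        exact Submodule.smul_mem _ _ ha
    intro y hy
    have h2 := h1 y (lam_le_bxA h hC hy)
    rwa [pr_of_mem _ hy] at h2
  · rw [Submodule.mul_le]
    intro a ha b hb
    exact (LG K₁ ι L C).mul_mem (lam_bx1_le ha) (lam_FF_le hb)

/-- `[Λ : L₁] ≤ [𝔉 : F₁]` -/
theorem lam_dim_le (h : Adm κ ι j m) {L F : Subalgebra K A} (hF : F ≤ L)
    (hL : ∀ x ∈ L, ∀ y ∈ L, x * y = y * x) {C : A₁}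
    (hC : C ∈ bx ι j (Subalgebra.toSubmodule L)) :
    finrank K F * finrank K₁ (LG K₁ ι L C) ≤ finrank K L * finrank K₁ (FFr ι j L F C) := by
  classical
  obtain ⟨r, v, hv, hsp, hr⟩ := exists_rel_basis hF
  let T : (Fin r → FFr ι j L F C) →ₗ[K₁] A₁ :=
    { toFun := fun z => ∑ i, ι (v i) * (z i : A₁)
      map_add' := fun x y => by
        rw [← Finset.sum_add_distrib]
        refine Finset.sum_congr rfl fun i _ => ?_
        rw [Pi.add_apply, Subalgebra.coe_add, mul_add]
      map_smul' := fun c x => by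
        rw [RingHom.id_apply, Finset.smul_sum]
        refine Finset.sum_congr rfl fun i _ => ?_
        rw [Pi.smul_apply, Subalgebra.coe_smul, mul_smul_comm] }
  have hT : ∀ z, T z = ∑ i, ι (v i) * (z i : A₁) := fun _ => rfl
  have h1 : Subalgebra.toSubmodule (LG K₁ ι L C) ≤ LinearMap.range T := by
    rw [lam_mul_FF (F := F) h hC, Submodule.mul_le]
    intro a ha b hb
    refine Submodule.span_induction (p := fun a _ => a * b ∈ LinearMap.range T) ?_ ?_ ?_ ?_ ha
    · rintro _ ⟨l, hl, rfl⟩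
      obtain ⟨c, hc, rfl⟩ := hsp l hl
      refine ⟨fun i => ⟨ι (c i) * b, (FFr ι j L F C).mul_mem (lam_ι_mem_FF hF (hc i)) hb⟩, ?_⟩
      rw [hT, map_sum, Finset.sum_mul]
      refine Finset.sum_congr rfl fun i _ => ?_
      show ι (v i) * (ι (c i) * b) = ι (c i * v i) * b
      rw [← mul_assoc, ← map_mul, hL (v i) (hv i) (c i) (hF (hc i))]
    · rw [zero_mul]
      exact Submodule.zero_mem _
    · intro x y _ _ hx hy
      rw [add_mul]
      exact Submodule.add_mem _ hx hy
    · intro c x _ hx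
      rw [smul_mul_assoc]
      exact Submodule.smul_mem _ _ hx
  have h2 : finrank K₁ (LG K₁ ι L C) ≤ r * finrank K₁ (FFr ι j L F C) := by
    refine (Submodule.finrank_mono h1).trans ?_
    refine (LinearMap.finrank_range_le T).trans ?_
    rw [Module.finrank_pi_fintype, Finset.sum_const, Finset.card_univ, Fintype.card_fin,
      smul_eq_mul]
  calc finrank K F * finrank K₁ (LG K₁ ι L C) ≤ finrank K F * (r * finrank K₁ (FFr ι j L F C)) :=
        Nat.mul_le_mul_left _ h2
    _ = finrank K L * finrank K₁ (FFr ι j L F C) := by rw [← hr]; ring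

/-- powers of `π(V ⊠ E₁)` -/
theorem lam_VV_sq {L F : Subalgebra K A} (hF : F ≤ L) {V : Submodule K A}
    (hV : V ≤ Subalgebra.toSubmodule F) (hV2 : V ^ 2 = Subalgebra.toSubmodule F) {C : A₁}
    (hFF : Subalgebra.toSubmodule (FFr ι j L F C) = VVr ι j L (Subalgebra.toSubmodule F) C) :
    (VVr ι j L V C) ^ 2 = Subalgebra.toSubmodule (FFr ι j L F C) := by
  have hVL : V ≤ Subalgebra.toSubmodule L := hV.trans hF
  apply le_antisymm
  · rw [pow_two, Submodule.mul_le]
    intro a ha b hb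
    exact (FFr ι j L F C).mul_mem (lam_VV_le_FF hV ha) (lam_VV_le_FF hV hb)
  · rw [hFF, lam_VV (V := Subalgebra.toSubmodule F)]
    rintro _ ⟨x, hx, rfl⟩
    refine Submodule.span_induction (p := fun x _ => pr (LG K₁ ι L C) x ∈ (VVr ι j L V C) ^ 2)
      ?_ ?_ ?_ ?_ hx
    · rintro _ ⟨e, u, hu, rfl⟩
      rw [← hV2, pow_two] at hu
      refine Submodule.mul_induction_on hu ?_ ?_
      · intro a ha b hb
        rw [ι.map_mul, mul_assoc, pr_mul_left _ (lam_ι_mem (hVL ha)), pow_two]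
        refine Submodule.mul_mem_mul (lam_ι_mem_VV hVL ha) ?_
        rw [lam_VV]
        exact ⟨_, mul_mem_bx hb e, rfl⟩
      · intro a b ha hb
        rw [map_add, add_mul, map_add]
        exact Submodule.add_mem _ ha hb
    · rw [map_zero]
      exact Submodule.zero_mem _
    · intro a b _ _ ha hb
      rw [map_add]
      exact Submodule.add_mem _ ha hb
    · intro c a _ ha
      rw [map_smul]
      exact Submodule.smul_mem _ _ ha

end lam

end Vale.Agent.P199K
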