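import Vale.Agent.P199K.Defs

/-! # P199, section 7: the substitution `b(tβ)` -/

namespace Vale.Agent.P199K

variable {K K₁ E₁ : Type} [Field K] [Field K₁] [Ring E₁] [Algebra K₁ E₁]

/-- `b(tβ)` -/
noncomputable def bev (κ : K →+* K₁) (b : NPS (Fin 2) K) (β : Fin 2 → E₁) : PowerSeries E₁ :=
  PowerSeries.mk (fun n => ∑ u : Fin n → Fin 2, κ (b (List.ofFn u)) • ((List.ofFn u).map β).prod)

end Vale.Agent.P199K
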