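import Vale.Agent.P199K.StepC
import Vale.Agent.P199K.LM0P
import Vale.Agent.P199K.BxA
import Vale.Agent.P199K.PI

/-! # P199, section 7: generic lemmas on `L₁[G]`, `T_lin(G)`, evaluations (helper44) -/

open scoped LaurentSeries
open PowerSeries

namespace Vale.Agent.P199K

section C3aux
variable {K A K₁ E₁ A₁ : Type} [Field K] [CharZero K] [Ring A] [IsDomain A] [Algebra K A]
  [FiniteDimensional K A] [Field K₁] [CharZero K₁] [Ring E₁] [Ring A₁] [IsDomain A₁] [Algebra K₁ E₁]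
  [Algebra K₁ A₁] [FiniteDimensional K₁ A₁]

omit [CharZero K] [IsDomain A] [FiniteDimensional K A] [CharZero K₁] [IsDomain A₁]
  [FiniteDimensional K₁ A₁] in
/-- residues of `L₁[G]` -/
theorem c3_LG_le_resA (ι : A →+* A₁) (L : Subalgebra K A) (G : LS A₁) (hi : LS.Intg G) :
    LG K₁ ι L (LS.coeff G 0) ≤ resA (LG (LS K₁) ((LS.C : A₁ →+* LS A₁).comp ι) L G) := by
  refine LG_le ι L _ _ (fun a ha => ?_) (coeff_mem_resA (G_mem_LG _ L G) hi)
  rw [mem_resA]
  exact ⟨LS.C (ι a), ι_mem_LG ((LS.C : A₁ →+* LS A₁).comp ι) L G ha, LS.Intg.C _, LS.coeff_C_zero _⟩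

omit [CharZero K] [IsDomain A] [FiniteDimensional K A] [CharZero K₁] [IsDomain A₁] in
theorem c3_finrank_LG_le (ι : A →+* A₁) (L : Subalgebra K A) (G : LS A₁) (hi : LS.Intg G) :
    Module.finrank K₁ (LG K₁ ι L (LS.coeff G 0))
      ≤ Module.finrank (LS K₁) (LG (LS K₁) ((LS.C : A₁ →+* LS A₁).comp ι) L G) := by
  have h1 := finrank_res (Subalgebra.toSubmodule (LG (LS K₁) ((LS.C : A₁ →+* LS A₁).comp ι) L G))
  have h3 : Subalgebra.toSubmodule (LG K₁ ι L (LS.coeff G 0)) ≤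
      res (Subalgebra.toSubmodule (LG (LS K₁) ((LS.C : A₁ →+* LS A₁).comp ι) L G)) :=
    c3_LG_le_resA ι L G hi
  have h2 := Submodule.finrank_mono h3
  rw [h1] at h2
  exact h2

omit [CharZero K] [IsDomain A] [FiniteDimensional K A] [CharZero K₁] [IsDomain A₁]
  [FiniteDimensional K₁ A₁] in
/-- scalars do not change `L₁[G]` -/
theorem c3_LG_smul (ι : A →+* A₁) (L : Subalgebra K A) (G : A₁) (c : K₁) (hc : c ≠ 0) :
    LG K₁ ι L (c • G) = LG K₁ ι L G := by
  apply le_antisymm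
  · exact LG_le ι L _ _ (fun a ha => ι_mem_LG ι L G ha) (Subalgebra.smul_mem _ (G_mem_LG ι L G) c)
  · refine LG_le ι L _ _ (fun a ha => ι_mem_LG ι L _ ha) ?_
    have h1 : G = c⁻¹ • (c • G) := by rw [smul_smul, inv_mul_cancel₀ hc, one_smul]
    have h2 := Subalgebra.smul_mem _ (G_mem_LG ι L (c • G)) c⁻¹
    rwa [← h1] at h2

omit [CharZero K₁] [CharZero K] [IsDomain A] [IsDomain A₁] in
/-- `T_lin(G) = Z₁` from the residue of `t G` -/
theorem c3_Tlin {κ : K →+* K₁} {ι : A →+* A₁} {j : E₁ →ₐ[K₁] A₁} {m : ℕ} (h : Adm κ ι j m)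
    (F : Subalgebra K A) (hF : ∀ a ∈ F, ∀ b ∈ F, a * b = b * a) (Z : Submodule K A)
    (hZF : Z ≤ Subalgebra.toSubmodule F) (G : LS A₁)
    (hG : G ∈ bx (LS.C.comp ι) (lsj j) (Subalgebra.toSubmodule F)) (v : A₁)
    (hi : LS.Intg (LS.tp 1 * G)) (h0 : LS.coeff (LS.tp 1 * G) 0 = v)
    (hv : ∀ z ∈ bx ι j Z, z * v = v * z → z ∈ bx1 K₁ ι Z) :
    Tlin (LS.C.comp ι) (lsj j) Z G = bx1 (LS K₁) ((LS.C : A₁ →+* LS A₁).comp ι) Z := by
  have hA := Adm.ls κ ι j m h
  have hle : bx1 (LS K₁) ((LS.C : A₁ →+* LS A₁).comp ι) Z ≤ Tlin (LS.C.comp ι) (lsj j) Z G := by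
    intro y hy
    refine ⟨bx1_le_bx Z hy, ?_⟩
    refine (Subalgebra.mem_centralizer_iff (LS K₁)).2 ?_
    intro g hg
    rw [Set.mem_singleton_iff] at hg
    subst hg
    exact (bx1A_comm_bxA hA hF y (mem_bx1A.2 (bx1_mono hZF hy)) g (mem_bxA.2 hG)).symm
  refine (Submodule.eq_of_le_of_finrank_le hle ?_).symm
  have h1 : res (Tlin (LS.C.comp ι) (lsj j) Z G) ≤ bx1 K₁ ι Z := by
    intro a ha
    obtain ⟨y, hy, hyi, rfl⟩ := (mem_res _ _).1 ha
    refine hv _ (h.coeff_mem_bx hy.1 0) ?_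
    have hc : G * y = y * G := ((Subalgebra.mem_centralizer_iff (LS K₁)).1 hy.2) G rfl
    have hc' : y * (LS.tp 1 * G) = (LS.tp 1 * G) * y := by
      rw [mul_assoc, hc, ← mul_assoc, ← LS.tp_comm, mul_assoc]
    have h2 := congrArg (fun x => LS.coeff x 0) hc'
    beta_reduce at h2
    rw [LS.coeff_mul_zero hyi hi, LS.coeff_mul_zero hi hyi, h0] at h2
    exact h2
  rw [← finrank_res (Tlin (LS.C.comp ι) (lsj j) Z G), hA.finrank_bx1, ← h.finrank_bx1]
  exact Submodule.finrank_mono h1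

omit [CharZero K] [IsDomain A] [FiniteDimensional K A] [CharZero K₁] [IsDomain A₁]
  [FiniteDimensional K₁ A₁] in
theorem c3_C_mem_bx {ι : A →+* A₁} {j : E₁ →ₐ[K₁] A₁} {U : Submodule K A} {x : A₁}
    (hx : x ∈ bx ι j U) : (LS.C x : LS A₁) ∈ bx (LS.C.comp ι) (lsj j) U := by
  refine Submodule.span_induction (p := fun x _ => (LS.C x : LS A₁) ∈ bx (LS.C.comp ι) (lsj j) U)
    ?_ ?_ ?_ ?_ hx
  · rintro _ ⟨e, a, ha, rfl⟩
    have h1 : (LS.C (ι a * j e) : LS A₁) = (LS.C.comp ι) a * lsj j (LS.C e) := by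
      apply LS.ext
      intro n
      rw [RingHom.comp_apply, LS.coeff_C_mul, lsj_coeff, LS.coeff_C, LS.coeff_C]
      split_ifs
      · rfl
      · rw [map_zero, mul_zero]
    rw [h1]
    exact mul_mem_bx ha _
  · rw [map_zero]; exact Submodule.zero_mem _
  · intro a b _ _ ha hb
    rw [map_add]; exact Submodule.add_mem _ ha hb
  · intro c a _ ha
    have h1 : (LS.C (c • a) : LS A₁) = (LS.C c : LS K₁) • LS.C a := by
      apply LS.ext
      intro n
      rw [LS.coeff_C_smul, LS.coeff_C, LS.coeff_C]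
      split_ifs
      · rfl
      · rw [smul_zero]
    rw [h1]; exact Submodule.smul_mem _ _ ha

omit [CharZero K] [IsDomain A] [FiniteDimensional K A] [CharZero K₁] [IsDomain A₁]
  [FiniteDimensional K₁ A₁] in
theorem c3_tp_smul (k : ℤ) (x : LS A₁) : (LS.tp k : LS K₁) • x = LS.tp k * x := by
  apply LS.ext
  intro n
  rw [LS.coeff_tp_smul, LS.coeff_tp_mul]

omit [CharZero K] [IsDomain A] [FiniteDimensional K A] [CharZero K₁] [IsDomain A₁]
  [FiniteDimensional K₁ A₁] in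
theorem c3_evh_mem {σ : Type} [Fintype σ] (ι : A →+* A₁) (j : E₁ →ₐ[K₁] A₁) (U : Submodule K A)
    (g : List σ → A) (β : σ → E₁) (n : ℕ) (hg : ∀ u : List σ, u.length = n → g u ∈ U) :
    evh ι j g β n ∈ bx ι j U := by
  unfold evh
  exact Submodule.sum_mem _ fun u _ => mul_mem_bx (hg _ (List.length_ofFn)) _

omit [CharZero K] [IsDomain A] [FiniteDimensional K A] [CharZero K₁] [IsDomain A₁]
  [FiniteDimensional K₁ A₁] in
/-- evaluation at constants -/
theorem c3_evh_C {σ : Type} [Fintype σ] (ι : A →+* A₁) (j : E₁ →ₐ[K₁] A₁) (g : List σ → A)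
    (β : σ → E₁) (n : ℕ) :
    evh ((LS.C : A₁ →+* LS A₁).comp ι) (lsj j) g (fun i => LS.C (β i)) n = LS.C (evh ι j g β n) := by
  unfold evh
  rw [map_sum]
  refine Finset.sum_congr rfl fun u _ => ?_
  have h1 : ((List.ofFn u).map (fun i => (LS.C (β i) : LS E₁))).prod = LS.C ((List.ofFn u).map β).prod := by
    rw [map_list_prod, List.map_map]
    rfl
  have h2 : ∀ e : E₁, lsj j (LS.C e) = LS.C (j e) := by
    intro e
    apply LS.ext
    intro n
    rw [lsj_coeff, LS.coeff_C, LS.coeff_C]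
    split_ifs
    · rfl
    · rw [map_zero]
  rw [h1, h2, map_mul]
  rfl

omit [CharZero K] [IsDomain A] [FiniteDimensional K A] [CharZero K₁] [IsDomain A₁]
  [FiniteDimensional K₁ A₁] in
theorem c3_evh_mul {σ : Type} [Fintype σ] (ι : A →+* A₁) (j : E₁ →ₐ[K₁] A₁) (g g' : List σ → A)
    (a : A) (β : σ → E₁) (n : ℕ) (h : ∀ u : List σ, u.length = n → a * g u = g' u) :
    evh ι j g' β n = ι a * evh ι j g β n := by
  unfold evh
  rw [Finset.mul_sum]
  refine Finset.sum_congr rfl fun u _ => ?_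
  rw [← h _ List.length_ofFn, map_mul, mul_assoc]

omit [CharZero K] [CharZero K₁] [FiniteDimensional K₁ A₁] in
theorem c3_domE {κ : K →+* K₁} {ι : A →+* A₁} {j : E₁ →ₐ[K₁] A₁} {m : ℕ} (h : Adm κ ι j m) :
    IsDomain E₁ := by
  have hinj : Function.Injective j := by
    intro a b hab
    have h1 := (h.bas _ (Module.finBasis K A)).1
    have h2 : (fun _ : Fin (Module.finrank K A) => a) = (fun _ => b) := by
      apply h1
      beta_reduce
      rw [hab]
    exact congrFun h2 ⟨0, Module.finrank_pos⟩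
  exact Function.Injective.isDomain (j : E₁ →+* A₁) hinj

end C3aux

end Vale.Agent.P199K
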