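import Mathlib

/-!
# P199: Kurosh's problem for division rings

`KuroshCounterexample`: there are a field `k` and a division ring `D`, generated as a `k`-algebra
by two elements and algebraic over `k`, which is of infinite dimension over `k` and over its centre.
-/

namespace P199K

/-- A stage: a domain `R` over a central field `K` with two marked elements. -/
structure Stage where
  K : Type
  R : Type
  [fK : Field K]
  [rR : Ring R]
  [dR : IsDomain R]
  [aR : Algebra K R]
  x : R
  y : R

attribute [instance] Stage.fK Stage.rR Stage.dR Stage.aR

/-- morphisms of stages -/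
structure Stage.Hom (s t : Stage) where
  κ : s.K →+* t.K
  φ : s.R →+* t.R
  comm : ∀ c, φ (algebraMap s.K s.R c) = algebraMap t.K t.R (κ c)
  hx : φ s.x = t.x
  hy : φ s.y = t.y

/-- the subalgebra generated by the marked elements -/
def Stage.gen (s : Stage) : Subalgebra s.K s.R := Algebra.adjoin s.K {s.x, s.y}

/-- the subalgebra generated by the marked elements has dimension at least `m` -/
def Stage.Large (s : Stage) (m : ℕ) : Prop :=
  ∃ v : Fin m → s.R, (∀ i, v i ∈ Submonoid.closure {s.x, s.y}) ∧ LinearIndependent s.K v

/-- negative answer to Kurosh's problem for division rings -/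
def KuroshCounterexample : Prop :=
  ∃ (k D : Type) (_ : Field k) (_ : DivisionRing D) (_ : Algebra k D),
    (∃ x y : D, Algebra.adjoin k {x, y} = ⊤) ∧ Algebra.IsAlgebraic k D ∧
    ¬ Module.Finite k D ∧ ¬ Module.Finite (Subring.center D) D

end P199K
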