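import Vale.Agent.P199K.Defs

/-! # P199: the general substitution construction -/

open scoped TensorProduct LaurentSeries
open PowerSeries

namespace Vale.Agent.P199K

namespace NPS

theorem sg_dl_C {σ A : Type} [Ring A] (a : A) (x : σ) : dl x (C a : NPS σ A) = 0 := rfl

theorem sg_dl_add {σ A : Type} [Ring A] (x : σ) (f g : NPS σ A) : dl x (f + g) = dl x f + dl x g := rfl

theorem sg_dl_sub {σ A : Type} [Ring A] (x : σ) (f g : NPS σ A) : dl x (f - g) = dl x f - dl x g := rfl

theorem sg_dl_zero {σ A : Type} [Ring A] (x : σ) : dl x (0 : NPS σ A) = 0 := rfl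

theorem sg_dl_mul {σ A : Type} [Ring A] (x : σ) (f g : NPS σ A) :
    dl x (f * g) = C (f []) * dl x g + dl x f * g := by
  ext v
  rw [add_apply, C_mul_apply]
  rfl

theorem sg_dl_C_mul {σ A : Type} [Ring A] (x : σ) (a : A) (g : NPS σ A) :
    dl x (C a * g) = C a * dl x g := by
  ext v
  rw [C_mul_apply, dl_apply, C_mul_apply, dl_apply]

theorem sg_dl_X {σ A : Type} [Ring A] [DecidableEq σ] (x y : σ) :
    dl x (X y : NPS σ A) = if x = y then 1 else 0 := by
  ext u
  by_cases h : x = y
  · subst h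
    rw [if_pos rfl]
    cases u with
    | nil => simp [X, one_def]
    | cons z u => simp [X, one_def]
  · rw [if_neg h]
    simp [X, h]

theorem sg_X_nil {σ A : Type} [Ring A] [DecidableEq σ] (y : σ) : (X y : NPS σ A) [] = 0 := by
  simp [X]

theorem sg_X_mul_nil {σ A : Type} [Ring A] [DecidableEq σ] (y : σ) (h : NPS σ A) :
    (X y * h : NPS σ A) [] = 0 := by
  rw [mul_nil, sg_X_nil, zero_mul]

theorem sg_X_mul_cons {σ A : Type} [Ring A] [DecidableEq σ] (y : σ) (h : NPS σ A) (x : σ)
    (u : List σ) : (X y * h : NPS σ A) (x :: u) = if x = y then h u else 0 := by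
  rw [mul_cons, sg_X_nil, zero_mul, zero_add, sg_dl_X]
  split_ifs with hxy
  · rw [one_mul]
  · rw [zero_mul]; rfl

/-- expansion in the first letter -/
theorem sg_eq {σ A : Type} [Fintype σ] [DecidableEq σ] [Ring A] (f : NPS σ A) :
    f = C (f []) + ∑ γ, X γ * dl γ f := by
  ext u
  have hsum : ∀ (F : σ → NPS σ A) (u : List σ), (∑ γ, F γ) u = ∑ γ, F γ u := by
    intro F u
    exact Finset.sum_apply u _ _
  rw [add_apply, hsum]
  cases u with
  | nil => simp [sg_X_mul_nil]
  | cons x u => simp [sg_X_mul_cons]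

/-- General substitution into a complete filtered ring. -/
theorem exists_sub_gen {σ A R : Type} [Fintype σ] [DecidableEq σ] [Ring A] [Ring R]
    (Z : ℕ → AddSubgroup R) (hZ0 : Z 0 = ⊤) (hmono : ∀ n, Z (n + 1) ≤ Z n)
    (hsep : ∀ r, (∀ n, r ∈ Z n) → r = 0)
    (hcomp : ∀ s : ℕ → R, (∀ n, s (n + 1) - s n ∈ Z n) → ∃ r, ∀ n, r - s n ∈ Z n)
    (j : A →+* R) (y : σ → R) (hy : ∀ γ n r, r ∈ Z n → y γ * r ∈ Z (n + 1))
    (hc : ∀ γ a, y γ * j a = j a * y γ) :
    ∃ φ : NPS σ A →+* R, (∀ a, φ (C a) = j a) ∧ (∀ γ, φ (X γ) = y γ) ∧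
      (∀ n f, Ord n f → φ f ∈ Z n) ∧ (∀ f, φ f = j (f []) + ∑ γ, y γ * φ (dl γ f)) := by
  classical
  let s : ℕ → NPS σ A → R := fun n => Nat.rec (fun _ => 0)
    (fun _ F f => j (f []) + ∑ γ, y γ * F (dl γ f)) n
  have s0 : ∀ f, s 0 f = 0 := fun _ => rfl
  have s1 : ∀ n f, s (n + 1) f = j (f []) + ∑ γ, y γ * s n (dl γ f) := fun _ _ => rfl
  have hs : ∀ n f, s (n + 1) f - s n f ∈ Z n := by
    intro n
    induction n with
    | zero => intro f; rw [hZ0]; trivial
    | succ n ih =>
      intro f
      rw [s1 (n + 1), s1 n, add_sub_add_left_eq_sub, ← Finset.sum_sub_distrib]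
      refine sum_mem fun γ _ => ?_
      rw [← mul_sub]
      exact hy γ n _ (ih _)
  choose ph hph using fun f => hcomp (fun n => s n f) (fun n => hs n f)
  have hE : ∀ f, ph f = j (f []) + ∑ γ, y γ * ph (dl γ f) := by
    intro f
    rw [← sub_eq_zero]
    refine hsep _ fun n => ?_
    have h1 := hph f (n + 1)
    have h2 : ph f - (j (f []) + ∑ γ, y γ * ph (dl γ f))
        = (ph f - s (n + 1) f) - ∑ γ, y γ * (ph (dl γ f) - s n (dl γ f)) := by
      rw [s1 n]
      simp only [mul_sub, Finset.sum_sub_distrib]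
      abel
    rw [h2]
    refine hmono n (sub_mem h1 (sum_mem fun γ _ => ?_))
    exact hy γ n _ (hph _ n)
  have hadd : ∀ f g, ph (f + g) = ph f + ph g := by
    intro f g
    rw [← sub_eq_zero]
    refine hsep _ fun n => ?_
    induction n generalizing f g with
    | zero => rw [hZ0]; trivial
    | succ n ih =>
      rw [hE (f + g), hE f, hE g]
      have : j ((f + g) []) + ∑ γ, y γ * ph (dl γ (f + g)) - (j (f []) + ∑ γ, y γ * ph (dl γ f)
          + (j (g []) + ∑ γ, y γ * ph (dl γ g)))
          = ∑ γ, y γ * (ph (dl γ f + dl γ g) - (ph (dl γ f) + ph (dl γ g))) := by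
        simp only [mul_sub, mul_add, Finset.sum_sub_distrib, Finset.sum_add_distrib, add_apply,
          map_add, sg_dl_add]
        abel
      rw [this]
      exact sum_mem fun γ _ => hy γ n _ (ih _ _)
  have hCmul : ∀ a f, ph (C a * f) = j a * ph f := by
    intro a f
    rw [← sub_eq_zero]
    refine hsep _ fun n => ?_
    induction n generalizing f with
    | zero => rw [hZ0]; trivial
    | succ n ih =>
      rw [hE (C a * f), hE f]
      have : j ((C a * f : NPS σ A) []) + ∑ γ, y γ * ph (dl γ (C a * f))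
          - j a * (j (f []) + ∑ γ, y γ * ph (dl γ f))
          = ∑ γ, y γ * (ph (C a * dl γ f) - j a * ph (dl γ f)) := by
        rw [C_mul_apply, map_mul, mul_add, Finset.mul_sum]
        simp only [mul_sub, Finset.sum_sub_distrib, sg_dl_C_mul, ← mul_assoc, hc]
        abel
      rw [this]
      exact sum_mem fun γ _ => hy γ n _ (ih _)
  have hmul : ∀ f g, ph (f * g) = ph f * ph g := by
    intro f g
    rw [← sub_eq_zero]
    refine hsep _ fun n => ?_
    induction n generalizing f g with
    | zero => rw [hZ0]; trivial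
    | succ n ih =>
      have h1 : ph (f * g) - ph f * ph g
          = ∑ γ, y γ * (ph (dl γ f * g) - ph (dl γ f) * ph g) := by
        rw [hE (f * g), mul_nil, map_mul]
        conv_lhs => rw [hE f, add_mul]
        conv_lhs => enter [2, 1]; rw [hE g]
        rw [mul_add, Finset.sum_mul, Finset.mul_sum]
        simp only [mul_sub, Finset.sum_sub_distrib, sg_dl_mul, hadd, hCmul, mul_add,
          Finset.sum_add_distrib, ← mul_assoc, hc]
        abel
      rw [h1]
      exact sum_mem fun γ _ => hy γ n _ (ih _ _)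
  have hphC : ∀ a, ph (C a) = j a := by
    intro a
    have h0 : ph 0 = 0 := by
      have := hadd 0 0
      rw [add_zero] at this
      exact (add_eq_left.1 this.symm)
    rw [hE (C a)]
    simp [sg_dl_C, h0]
  have h0 : ph 0 = 0 := by
    have := hphC 0
    rwa [map_zero, map_zero] at this
  refine ⟨{ toFun := ph, map_one' := ?_, map_mul' := hmul, map_zero' := h0, map_add' := hadd },
    hphC, ?_, ?_, hE⟩
  · have := hphC 1
    rwa [map_one, map_one] at this
  · intro γ
    show ph (X γ) = y γ
    rw [hE (X γ), sg_X_nil, map_zero, zero_add, Finset.sum_eq_single γ]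
    · rw [sg_dl_X, if_pos rfl]
      have := hphC 1
      rw [map_one, map_one] at this
      rw [this, mul_one]
    · intro β _ hβ
      rw [sg_dl_X, if_neg hβ, h0, mul_zero]
    · intro h
      exact absurd (Finset.mem_univ _) h
  · intro n
    show ∀ f, Ord n f → ph f ∈ Z n
    induction n with
    | zero => intro f _; rw [hZ0]; trivial
    | succ n ih =>
      intro f hf
      rw [hE f, hf [] (by simp), map_zero, zero_add]
      refine sum_mem fun γ _ => hy γ n _ (ih _ ?_)
      intro u hu
      exact hf (γ :: u) (by simpa using hu)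

end NPS

end Vale.Agent.P199K
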