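import Vale.Agent.P199K.AdmD
import Vale.Agent.P199K.SubGen

/-! # P199: substitution into noncommutative power series (statements) -/

open scoped TensorProduct LaurentSeries
open PowerSeries

namespace Vale.Agent.P199K

namespace NPS

theorem sg_sum_apply {σ A ι : Type} [Ring A] (s : Finset ι) (F : ι → NPS σ A) (u : List σ) :
    (∑ γ ∈ s, F γ) u = ∑ γ ∈ s, F γ u := Finset.sum_apply u _ _

/-- power series all of whose coefficients below `n` vanish -/
def sg_ZP (B : Type) [Ring B] (n : ℕ) : AddSubgroup (PowerSeries B) where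
  carrier := {f | ∀ m < n, PowerSeries.coeff m f = 0}
  add_mem' := by
    intro a b ha hb m hm
    rw [map_add, ha m hm, hb m hm, add_zero]
  zero_mem' := fun m _ => by rw [map_zero]
  neg_mem' := by
    intro a ha m hm
    rw [map_neg, ha m hm, neg_zero]

theorem sg_ZP_zero (B : Type) [Ring B] : sg_ZP B 0 = ⊤ := by
  ext f
  exact ⟨fun _ => trivial, fun _ m hm => absurd hm (Nat.not_lt_zero m)⟩

theorem sg_ZP_mono (B : Type) [Ring B] (n : ℕ) : sg_ZP B (n + 1) ≤ sg_ZP B n :=
  fun _ hf m hm => hf m (Nat.lt_succ_of_lt hm)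

theorem sg_ZP_sep (B : Type) [Ring B] (r : PowerSeries B) (h : ∀ n, r ∈ sg_ZP B n) : r = 0 := by
  ext m
  rw [h (m + 1) m (Nat.lt_succ_self m), map_zero]

theorem sg_ZP_comp (B : Type) [Ring B] (s : ℕ → PowerSeries B)
    (h : ∀ n, s (n + 1) - s n ∈ sg_ZP B n) : ∃ r, ∀ n, r - s n ∈ sg_ZP B n := by
  refine ⟨PowerSeries.mk fun m => PowerSeries.coeff m (s (m + 1)), fun n m hm => ?_⟩
  rw [map_sub, PowerSeries.coeff_mk]
  have key : ∀ k, PowerSeries.coeff m (s (m + 1 + k)) = PowerSeries.coeff m (s (m + 1)) := by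
    intro k
    induction k with
    | zero => rfl
    | succ k ih =>
      have := h (m + 1 + k) m (by omega)
      rw [map_sub, sub_eq_zero] at this
      rw [← ih, ← this]
      rfl
  obtain ⟨k, rfl⟩ := Nat.exists_eq_add_of_lt hm
  have := key k
  rw [show m + k + 1 = m + 1 + k by omega, this, sub_self]

theorem sg_ZP_mul {B : Type} [Ring B] {y r : PowerSeries B} (hy : PowerSeries.constantCoeff y = 0)
    {n : ℕ} (hr : r ∈ sg_ZP B n) : y * r ∈ sg_ZP B (n + 1) := by
  intro m hm
  rw [PowerSeries.coeff_mul]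
  refine Finset.sum_eq_zero fun ij hij => ?_
  rw [Finset.HasAntidiagonal.mem_antidiagonal] at hij
  rcases Nat.eq_zero_or_pos ij.1 with h0 | h0
  · rw [h0, PowerSeries.coeff_zero_eq_constantCoeff, hy, zero_mul]
  · rw [hr ij.2 (by omega), mul_zero]

/-- General substitution: `C a ↦ j a`, `X γ ↦ y γ ∈ t B[[t]]`, the `y γ` commuting with the image of `j`.
Construction: `coeff k` of `φ f` by strong recursion on `k`:
`φ f = j (f []) + ∑ γ, y γ * φ (dl γ f)`; multiplicativity from
`dl γ (f * g) = f [] • dl γ g + dl γ f * g`. -/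
theorem exists_sub {σ A B : Type} [Fintype σ] [DecidableEq σ] [Ring A] [Ring B] (j : A →+* B)
    (y : σ → PowerSeries B) (hy : ∀ γ, PowerSeries.constantCoeff (y γ) = 0)
    (hc : ∀ γ a, y γ * PowerSeries.C (j a) = PowerSeries.C (j a) * y γ) :
    ∃ φ : NPS σ A →+* PowerSeries B,
      (∀ a, φ (NPS.C a) = PowerSeries.C (j a)) ∧ (∀ γ, φ (NPS.X γ) = y γ) ∧
      (∀ n f, NPS.Ord n f → PowerSeries.X ^ n ∣ φ f) ∧
      (∀ f, φ f = PowerSeries.C (j (f [])) + ∑ γ, y γ * φ (dl γ f)) := by
  classical
  obtain ⟨φ, h1, h2, h3, h4⟩ := exists_sub_gen (σ := σ) (sg_ZP B) (sg_ZP_zero B) (sg_ZP_mono B)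
    (sg_ZP_sep B) (sg_ZP_comp B) ((PowerSeries.C : B →+* PowerSeries B).comp j) y
    (fun γ n r hr => sg_ZP_mul (hy γ) hr) hc
  refine ⟨φ, h1, h2, ?_, h4⟩
  intro n f hf
  exact PowerSeries.X_pow_dvd_iff.2 fun m hm => h3 n f hf m hm

/-- density of polynomials: every power series is congruent mod order `n` to an element of the subring
generated by constants and variables -/
theorem exists_poly {σ A : Type} [Fintype σ] [DecidableEq σ] [Ring A] (n : ℕ) (f : NPS σ A) :
    ∃ g ∈ Subring.closure (Set.range (NPS.C : A → NPS σ A) ∪ Set.range (NPS.X : σ → NPS σ A)),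
      NPS.Ord n (f - g) := by
  classical
  induction n generalizing f with
  | zero => exact ⟨0, Subring.zero_mem _, fun u hu => absurd hu (by simp)⟩
  | succ n ih =>
    choose g hg hgo using fun γ => ih (dl γ f)
    refine ⟨C (f []) + ∑ γ, X γ * g γ, ?_, ?_⟩
    · refine Subring.add_mem _ (Subring.subset_closure (Or.inl ⟨_, rfl⟩))
        (Subring.sum_mem _ fun γ _ => Subring.mul_mem _ (Subring.subset_closure (Or.inr ⟨γ, rfl⟩)) (hg γ))
    · have h : f - (C (f []) + ∑ γ, X γ * g γ) = ∑ γ, X γ * (dl γ f - g γ) := by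
        conv_lhs => enter [1]; rw [sg_eq f]
        simp only [mul_sub, Finset.sum_sub_distrib]
        abel
      rw [h]
      intro u hu
      rw [sg_sum_apply]
      refine Finset.sum_eq_zero fun γ _ => ?_
      cases u with
      | nil => exact sg_X_mul_nil _ _
      | cons x u =>
        rw [sg_X_mul_cons]
        split_ifs with hx
        · exact hgo γ u (by simpa using hu)
        · rfl

/-- expansion in the first letter -/
theorem eq_C_add_sum {σ A : Type} [Fintype σ] [DecidableEq σ] [Ring A] (f : NPS σ A) :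
    f = NPS.C (f []) + ∑ γ, NPS.X γ * dl γ f := sg_eq f

end NPS

section Flip
variable {τ R : Type} [Ring R]

namespace NPS

/-- `R<<τ>>[[t]] → R[[t]]<<τ>>` -/
noncomputable def sg_flipF (F : PowerSeries (NPS τ R)) : NPS τ (PowerSeries R) :=
  fun u => PowerSeries.mk fun k => (PowerSeries.coeff k F : NPS τ R) u

theorem sg_flipF_coeff (F : PowerSeries (NPS τ R)) (u : List τ) (k : ℕ) :
    PowerSeries.coeff k (sg_flipF F u) = (PowerSeries.coeff k F : NPS τ R) u := by
  rw [sg_flipF, PowerSeries.coeff_mk]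

theorem sg_flipF_mul (u : List τ) (F G : PowerSeries (NPS τ R)) :
    sg_flipF (F * G) u = (sg_flipF F * sg_flipF G) u := by
  classical
  induction u generalizing F with
  | nil =>
    ext k
    rw [sg_flipF_coeff, mul_nil, PowerSeries.coeff_mul, PowerSeries.coeff_mul, sg_sum_apply]
    refine Finset.sum_congr rfl fun ij _ => ?_
    rw [mul_nil, sg_flipF_coeff, sg_flipF_coeff]
  | cons x u ih =>
    ext k
    have h1 : dl x (sg_flipF F)
        = sg_flipF (PowerSeries.mk fun k => dl x (PowerSeries.coeff k F : NPS τ R)) := by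
      ext v k
      rw [dl_apply, sg_flipF_coeff, sg_flipF_coeff, PowerSeries.coeff_mk, dl_apply]
    rw [sg_flipF_coeff, mul_cons, h1, ← ih, map_add, sg_flipF_coeff, PowerSeries.coeff_mul,
      PowerSeries.coeff_mul, PowerSeries.coeff_mul, sg_sum_apply, sg_sum_apply,
      ← Finset.sum_add_distrib]
    refine Finset.sum_congr rfl fun ij _ => ?_
    rw [mul_cons, sg_flipF_coeff, sg_flipF_coeff, PowerSeries.coeff_mk]

/-- `R<<τ>>[[t]] → R[[t]]<<τ>>` as a ring hom -/
noncomputable def sg_flip : PowerSeries (NPS τ R) →+* NPS τ (PowerSeries R) where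
  toFun := sg_flipF
  map_one' := by
    ext u k
    rw [sg_flipF_coeff, PowerSeries.coeff_one]
    cases u with
    | nil =>
      show _ = PowerSeries.coeff k (1 : PowerSeries R)
      rw [PowerSeries.coeff_one]
      split_ifs <;> rfl
    | cons x u =>
      show _ = PowerSeries.coeff k (0 : PowerSeries R)
      rw [map_zero]
      split_ifs <;> rfl
  map_zero' := by
    ext u k
    rw [sg_flipF_coeff, map_zero]
    show (0 : R) = PowerSeries.coeff k (0 : PowerSeries R)
    rw [map_zero]
  map_add' F G := by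
    ext u k
    rw [sg_flipF_coeff, map_add, add_apply, add_apply, map_add, sg_flipF_coeff, sg_flipF_coeff]
  map_mul' F G := by
    ext u : 1
    exact sg_flipF_mul u F G

theorem sg_flip_coeff (F : PowerSeries (NPS τ R)) (u : List τ) (k : ℕ) :
    PowerSeries.coeff k (sg_flip F u) = (PowerSeries.coeff k F : NPS τ R) u :=
  sg_flipF_coeff F u k

theorem sg_supp_mul (u : List τ) (i j : ℕ) (f g : NPS τ R) (hf : ∀ v : List τ, i < v.length → f v = 0)
    (hg : ∀ v : List τ, j < v.length → g v = 0) (h : i + j < u.length) : (f * g) u = 0 := by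
  induction u generalizing i f with
  | nil => simp at h
  | cons x u ih =>
    rw [List.length_cons] at h
    rw [mul_cons, hg (x :: u) (by rw [List.length_cons]; omega), mul_zero, zero_add]
    rcases Nat.eq_zero_or_pos i with hi | hi
    · have : dl x f = 0 := by
        ext v
        exact hf (x :: v) (by rw [List.length_cons]; omega)
      rw [this, zero_mul]; rfl
    · exact ih (i - 1) (dl x f) (fun v hv => hf (x :: v) (by rw [List.length_cons]; omega))
        (by omega)

theorem sg_mul_C_apply (f : NPS τ R) (a : R) (u : List τ) : (f * C a : NPS τ R) u = f u * a := by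
  induction u generalizing f with
  | nil => rfl
  | cons x u ih => rw [mul_cons, C_cons, mul_zero, zero_add, ih]; rfl

theorem sg_Ord_mul (u : List τ) (m n : ℕ) (f g : NPS τ R) (hf : Ord m f) (hg : Ord n g)
    (h : u.length < m + n) : (f * g) u = 0 := by
  induction u generalizing m f with
  | nil =>
    rw [mul_nil]
    rw [List.length_nil] at h
    rcases Nat.eq_zero_or_pos m with hm | hm
    · rw [hg [] (by rw [List.length_nil]; omega), mul_zero]
    · rw [hf [] (by rw [List.length_nil]; omega), zero_mul]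
  | cons x u ih =>
    rw [mul_cons]
    rw [List.length_cons] at h
    rcases Nat.eq_zero_or_pos m with hm | hm
    · rw [hg (x :: u) (by rw [List.length_cons]; omega), mul_zero, zero_add]
      exact ih 0 (dl x f) (fun v hv => absurd hv (Nat.not_lt_zero _)) (by omega)
    · rw [hf [] (by rw [List.length_nil]; omega), zero_mul, zero_add]
      exact ih (m - 1) (dl x f) (fun v hv => hf (x :: v) (by rw [List.length_cons]; omega))
        (by omega)

/-- the subgroup of series of order at least `n` -/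
def sg_ZN (τ R : Type) [Ring R] (n : ℕ) : AddSubgroup (NPS τ R) where
  carrier := {f | Ord n f}
  add_mem' := by
    intro a b ha hb u hu
    rw [add_apply, ha u hu, hb u hu, add_zero]
  zero_mem' := fun u _ => rfl
  neg_mem' := by
    intro a ha u hu
    rw [neg_apply, ha u hu, neg_zero]

end NPS

end Flip

section Exp
variable {A σ E₁ A₁ B : Type} [Ring A] [Fintype σ] [DecidableEq σ] [Ring E₁] [Ring A₁]
  [Fintype B] [DecidableEq B]

/-- the expansion homomorphism (existence): `C a ↦ ι a`, `b_γ ↦ j p_γ + t ∑_β j ε_β b'_{γβ}`. -/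
theorem exists_expHom (ι : A →+* A₁) (j : E₁ →+* A₁) (hc : ∀ a e, ι a * j e = j e * ι a)
    (ε : B → E₁) (p : σ → PowerSeries E₁) (hp : ∀ γ, PowerSeries.constantCoeff (p γ) = 0) :
    ∃ φ : NPS σ A →+* NPS (σ × B) (LS A₁),
      (∀ a : A, φ (NPS.C a) = NPS.C (LS.C (ι a))) ∧
      (∀ γ, φ (NPS.X γ) = NPS.C (LS.ofPS (PowerSeries.map j (p γ)))
        + ∑ β, NPS.C (LS.mono 1 (j (ε β))) * NPS.X (γ, β)) ∧
      (∀ n f, NPS.Ord n f → ∀ u, ∃ q : PowerSeries A₁, φ f u = LS.ofPS (PowerSeries.X ^ n * q)) ∧
      (∀ f u, ∃ q : PowerSeries A₁, φ f u = LS.ofPS (PowerSeries.X ^ u.length * q)) := by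
  classical
  -- the linear form `N γ = ∑_β ε_β b'_{γβ}`
  let N : σ → NPS (σ × B) A₁ := fun γ => ∑ β, NPS.C (j (ε β)) * NPS.X (γ, β)
  let y : σ → PowerSeries (NPS (σ × B) A₁) := fun γ =>
    PowerSeries.map (NPS.C : A₁ →+* NPS (σ × B) A₁) (PowerSeries.map j (p γ))
      + PowerSeries.X * PowerSeries.C (N γ)
  let j' : A →+* NPS (σ × B) A₁ := (NPS.C : A₁ →+* NPS (σ × B) A₁).comp ι
  have hj : ∀ a, j' a = NPS.C (ι a) := fun a => rfl
  have hyc : ∀ γ i, (PowerSeries.coeff i (y γ) : NPS (σ × B) A₁)
      = NPS.C (j (PowerSeries.coeff i (p γ))) + if i = 1 then N γ else 0 := by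
    intro γ i
    have h1 : (PowerSeries.coeff i (PowerSeries.X * PowerSeries.C (N γ))
        : NPS (σ × B) A₁) = if i = 1 then N γ else 0 := by
      cases i with
      | zero => rw [PowerSeries.coeff_zero_X_mul, if_neg (by norm_num)]
      | succ i =>
        rw [PowerSeries.coeff_succ_X_mul, PowerSeries.coeff_C]
        by_cases hi : i = 0
        · rw [if_pos hi, if_pos (by omega)]
        · rw [if_neg hi, if_neg (by omega)]
    rw [show y γ = PowerSeries.map (NPS.C : A₁ →+* NPS (σ × B) A₁) (PowerSeries.map j (p γ))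
      + PowerSeries.X * PowerSeries.C (N γ) from rfl, map_add, h1, PowerSeries.coeff_map,
      PowerSeries.coeff_map]
  have hNu : ∀ γ u, (N γ) u = ∑ β, j (ε β) * (NPS.X (γ, β) : NPS (σ × B) A₁) u := by
    intro γ u
    rw [show N γ = ∑ β, NPS.C (j (ε β)) * NPS.X (γ, β) from rfl, NPS.sg_sum_apply]
    refine Finset.sum_congr rfl fun β _ => ?_
    rw [NPS.C_mul_apply]
  have hcomm : ∀ γ a, y γ * PowerSeries.C (j' a) = PowerSeries.C (j' a) * y γ := by
    intro γ a
    ext i : 1
    rw [PowerSeries.coeff_mul_C, PowerSeries.coeff_C_mul, hyc, hj]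
    have h1 : (NPS.C (j (PowerSeries.coeff i (p γ))) : NPS (σ × B) A₁)
        * NPS.C (ι a) = NPS.C (ι a) * NPS.C (j (PowerSeries.coeff i (p γ))) := by
      rw [← map_mul, ← map_mul, hc]
    have h2 : N γ * NPS.C (ι a) = NPS.C (ι a) * N γ := by
      ext u
      rw [NPS.sg_mul_C_apply, NPS.C_mul_apply, hNu, Finset.sum_mul, Finset.mul_sum]
      refine Finset.sum_congr rfl fun β _ => ?_
      by_cases hu : u = [(γ, β)]
      · rw [show (NPS.X (γ, β) : NPS (σ × B) A₁) u = 1 from if_pos hu, mul_one, hc]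
      · rw [show (NPS.X (γ, β) : NPS (σ × B) A₁) u = 0 from if_neg hu, mul_zero,
          mul_zero, zero_mul]
    by_cases hi : i = 1
    · rw [if_pos hi, add_mul, mul_add, h1, h2]
    · rw [if_neg hi, add_zero, h1]
  have hy0 : ∀ γ, PowerSeries.constantCoeff (y γ) = 0 := by
    intro γ
    rw [← PowerSeries.coeff_zero_eq_constantCoeff_apply, hyc, if_neg (by norm_num), add_zero,
      PowerSeries.coeff_zero_eq_constantCoeff_apply, hp, map_zero, map_zero]
  obtain ⟨ψ, p1, p2, p3, p4⟩ := NPS.exists_sub j' y hy0 hcomm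
  have hdeg : ∀ m f u, m < u.length → (PowerSeries.coeff m (ψ f) : NPS (σ × B) A₁) u = 0 := by
    intro m
    induction m using Nat.strong_induction_on with
    | _ m ih =>
      intro f u hu
      rw [p4 f, map_add, map_sum, NPS.add_apply, NPS.sg_sum_apply]
      have h1 : (PowerSeries.coeff m (PowerSeries.C (j' (f []))) : NPS (σ × B) A₁) u = 0 := by
        rw [PowerSeries.coeff_C]
        split_ifs with hm
        · rw [hj]
          cases u with
          | nil => simp at hu
          | cons x u => rfl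
        · rfl
      rw [h1, zero_add]
      refine Finset.sum_eq_zero fun γ _ => ?_
      rw [PowerSeries.coeff_mul, NPS.sg_sum_apply]
      refine Finset.sum_eq_zero fun ab hab => ?_
      rw [Finset.HasAntidiagonal.mem_antidiagonal] at hab
      rcases Nat.eq_zero_or_pos ab.1 with h0 | h0
      · rw [h0, PowerSeries.coeff_zero_eq_constantCoeff_apply, hy0, zero_mul]; rfl
      · refine NPS.sg_supp_mul u ab.1 ab.2 _ _ ?_ (fun v hv => ih ab.2 (by omega) _ v hv) (by omega)
        intro v hv
        rw [hyc, NPS.add_apply]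
        have hv1 : (NPS.C (j (PowerSeries.coeff ab.1 (p γ))) : NPS (σ × B) A₁) v = 0 := by
          cases v with
          | nil => simp at hv
          | cons x v => rfl
        rw [hv1, zero_add]
        split_ifs with hi
        · rw [hNu]
          refine Finset.sum_eq_zero fun β _ => ?_
          have : v ≠ [(γ, β)] := by
            intro h
            rw [h, List.length_singleton] at hv
            omega
          rw [show (NPS.X (γ, β) : NPS (σ × B) A₁) v = 0 from if_neg this, mul_zero]
        · rfl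
  refine ⟨(NPS.map (LS.ofPS (A := A₁))).comp (NPS.sg_flip.comp ψ), ?_, ?_, ?_, ?_⟩
  · intro a
    ext u : 1
    rw [RingHom.comp_apply, RingHom.comp_apply, NPS.map_apply, p1, hj]
    have hf : NPS.sg_flip (PowerSeries.C (NPS.C (ι a)) : PowerSeries (NPS (σ × B) A₁)) u
        = (NPS.C (PowerSeries.C (ι a)) : NPS (σ × B) (PowerSeries A₁)) u := by
      ext k
      rw [NPS.sg_flip_coeff, PowerSeries.coeff_C]
      cases u with
      | nil =>
        rw [NPS.C_nil, PowerSeries.coeff_C]
        split_ifs <;> rfl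
      | cons x u =>
        rw [NPS.C_cons, map_zero]
        split_ifs <;> rfl
    rw [hf]
    cases u with
    | nil => rw [NPS.C_nil, NPS.C_nil]; exact HahnSeries.ofPowerSeries_C _
    | cons x u => rw [NPS.C_cons, NPS.C_cons, map_zero]
  · intro γ
    ext u : 1
    rw [RingHom.comp_apply, RingHom.comp_apply, NPS.map_apply, p2, NPS.add_apply,
      NPS.sg_sum_apply]
    have hf : NPS.sg_flip (y γ) u
        = (NPS.C (PowerSeries.map j (p γ)) : NPS (σ × B) (PowerSeries A₁)) u
        + PowerSeries.X * PowerSeries.C (N γ u) := by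
      ext k
      rw [NPS.sg_flip_coeff, hyc, NPS.add_apply, map_add]
      congr 1
      · cases u with
        | nil => rw [NPS.C_nil, NPS.C_nil, PowerSeries.coeff_map]
        | cons x u => rw [NPS.C_cons, NPS.C_cons, map_zero]
      · cases k with
        | zero => rw [PowerSeries.coeff_zero_X_mul, if_neg (by norm_num)]; rfl
        | succ k =>
          rw [PowerSeries.coeff_succ_X_mul, PowerSeries.coeff_C]
          by_cases hk : k = 0
          · rw [if_pos hk, if_pos (by omega)]
          · rw [if_neg hk, if_neg (by omega)]; rfl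
    rw [hf, map_add]
    congr 1
    · cases u with
      | nil => rfl
      | cons x u => rw [NPS.C_cons, NPS.C_cons, map_zero]
    · rw [hNu, map_mul]
      rw [show (LS.ofPS (PowerSeries.X : PowerSeries A₁) : LS A₁) = LS.mono 1 1 from
          HahnSeries.ofPowerSeries_X,
        show (LS.ofPS (PowerSeries.C (∑ β, j (ε β) * (NPS.X (γ, β) : NPS (σ × B) A₁) u)) : LS A₁)
          = LS.C (∑ β, j (ε β) * (NPS.X (γ, β) : NPS (σ × B) A₁) u) from
          HahnSeries.ofPowerSeries_C _,
        map_sum, Finset.mul_sum]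
      refine Finset.sum_congr rfl fun β _ => ?_
      rw [NPS.C_mul_apply]
      by_cases hu : u = [(γ, β)]
      · rw [show (NPS.X (γ, β) : NPS (σ × B) A₁) u = 1 from if_pos hu,
          show (NPS.X (γ, β) : NPS (σ × B) (LS A₁)) u = 1 from if_pos hu, mul_one, mul_one]
        show (HahnSeries.single (1 : ℤ) (1 : A₁) : HahnSeries ℤ A₁)
          * HahnSeries.single (0 : ℤ) (j (ε β)) = HahnSeries.single (1 : ℤ) (j (ε β))
        rw [HahnSeries.single_mul_single, one_mul, add_zero]
      · rw [show (NPS.X (γ, β) : NPS (σ × B) A₁) u = 0 from if_neg hu,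
          show (NPS.X (γ, β) : NPS (σ × B) (LS A₁)) u = 0 from if_neg hu, mul_zero, mul_zero,
          map_zero, mul_zero]
  · intro n f hf u
    have h1 : (PowerSeries.X : PowerSeries A₁) ^ n ∣ NPS.sg_flip (ψ f) u := by
      rw [PowerSeries.X_pow_dvd_iff]
      intro m hm
      rw [NPS.sg_flip_coeff, PowerSeries.X_pow_dvd_iff.1 (p3 n f hf) m hm]
      rfl
    obtain ⟨q, hq⟩ := h1
    exact ⟨q, by rw [RingHom.comp_apply, RingHom.comp_apply, NPS.map_apply, hq]⟩
  · intro f u
    have h1 : (PowerSeries.X : PowerSeries A₁) ^ u.length ∣ NPS.sg_flip (ψ f) u := by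
      rw [PowerSeries.X_pow_dvd_iff]
      intro m hm
      rw [NPS.sg_flip_coeff, hdeg m f u hm]
    obtain ⟨q, hq⟩ := h1
    exact ⟨q, by rw [RingHom.comp_apply, RingHom.comp_apply, NPS.map_apply, hq]⟩

/-- the expansion homomorphism `A<<σ>> → A'<<σ × B>>`, `A' = A₁((t))` -/
noncomputable def expHom (ι : A →+* A₁) (j : E₁ →+* A₁) (hc : ∀ a e, ι a * j e = j e * ι a)
    (ε : B → E₁) (p : σ → PowerSeries E₁) (hp : ∀ γ, PowerSeries.constantCoeff (p γ) = 0) :
    NPS σ A →+* NPS (σ × B) (LS A₁) :=
  (exists_expHom ι j hc ε p hp).choose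

theorem expHom_spec (ι : A →+* A₁) (j : E₁ →+* A₁) (hc : ∀ a e, ι a * j e = j e * ι a)
    (ε : B → E₁) (p : σ → PowerSeries E₁) (hp : ∀ γ, PowerSeries.constantCoeff (p γ) = 0) :
      (∀ a : A, expHom ι j hc ε p hp (NPS.C a) = NPS.C (LS.C (ι a))) ∧
      (∀ γ, expHom ι j hc ε p hp (NPS.X γ) = NPS.C (LS.ofPS (PowerSeries.map j (p γ)))
        + ∑ β, NPS.C (LS.mono 1 (j (ε β))) * NPS.X (γ, β)) ∧
      (∀ n f, NPS.Ord n f → ∀ u, ∃ q : PowerSeries A₁,
        expHom ι j hc ε p hp f u = LS.ofPS (PowerSeries.X ^ n * q)) ∧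
      (∀ f u, ∃ q : PowerSeries A₁, expHom ι j hc ε p hp f u = LS.ofPS (PowerSeries.X ^ u.length * q)) :=
  (exists_expHom ι j hc ε p hp).choose_spec

end Exp

/-- substitution `b_γ ↦ b_γ(s)` (series with coefficients in the central field `K`, no constant term) -/
theorem exists_subst {K A σ τ : Type} [Field K] [Ring A] [Algebra K A] [Fintype σ] [DecidableEq σ]
    [Fintype τ] [DecidableEq τ] (b : σ → NPS τ K) (hb : ∀ γ, b γ [] = 0) :
    ∃ φ : NPS σ A →+* NPS τ A,
      (∀ a : A, φ (NPS.C a) = NPS.C a) ∧ (∀ γ, φ (NPS.X γ) = NPS.map (algebraMap K A) (b γ)) ∧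
      (∀ n f, NPS.Ord n f → NPS.Ord n (φ f)) := by
  classical
  obtain ⟨φ, h1, h2, h3, h4⟩ := NPS.exists_sub_gen (σ := σ) (A := A) (R := NPS τ A) (NPS.sg_ZN τ A)
    (by
      ext f
      exact ⟨fun _ => trivial, fun _ u hu => absurd hu (Nat.not_lt_zero _)⟩)
    (fun n f hf u hu => hf u (Nat.lt_succ_of_lt hu))
    (fun r h => by
      ext u
      exact h (u.length + 1) u (Nat.lt_succ_self _))
    (fun s h => by
      refine ⟨fun u => s (u.length + 1) u, fun n u hu => ?_⟩
      have key : ∀ k, s (u.length + 1 + k) u = s (u.length + 1) u := by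
        intro k
        induction k with
        | zero => rfl
        | succ k ih =>
          have := h (u.length + 1 + k) u (by omega)
          rw [NPS.sub_apply, sub_eq_zero] at this
          rw [← ih, ← this]
          rfl
      obtain ⟨k, hk⟩ := Nat.exists_eq_add_of_lt hu
      have := key k
      rw [show u.length + 1 + k = n by omega] at this
      show s (u.length + 1) u - s n u = 0
      rw [this, sub_self])
    NPS.C (fun γ => NPS.map (algebraMap K A) (b γ))
    (fun γ n r hr u hu => NPS.sg_Ord_mul u 1 n _ _ (fun v hv => by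
      have hv0 : v = [] := by
        rw [← List.length_eq_zero_iff]; omega
      rw [hv0, NPS.map_apply, hb, map_zero]) hr (by omega))
    (fun γ a => by
      ext u
      rw [NPS.sg_mul_C_apply, NPS.C_mul_apply, NPS.map_apply, Algebra.commutes])
  exact ⟨φ, h1, h2, fun n f hf => h3 n f hf⟩

noncomputable def substHom {K A σ τ : Type} [Field K] [Ring A] [Algebra K A] [Fintype σ] [DecidableEq σ]
    [Fintype τ] [DecidableEq τ] (b : σ → NPS τ K) (hb : ∀ γ, b γ [] = 0) : NPS σ A →+* NPS τ A :=
  (exists_subst (A := A) b hb).choose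

theorem substHom_spec {K A σ τ : Type} [Field K] [Ring A] [Algebra K A] [Fintype σ] [DecidableEq σ]
    [Fintype τ] [DecidableEq τ] (b : σ → NPS τ K) (hb : ∀ γ, b γ [] = 0) :
      (∀ a : A, substHom b hb (NPS.C a) = NPS.C a) ∧
      (∀ γ, substHom (A := A) b hb (NPS.X γ) = NPS.map (algebraMap K A) (b γ)) ∧
      (∀ n f, NPS.Ord n f → NPS.Ord n (substHom (A := A) b hb f)) :=
  (exists_subst (A := A) b hb).choose_spec

end Vale.Agent.P199K
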