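import Vale.Agent.P199K.AdmD

/-!
# P199: the symbol algebra as a subring of a Hahn series ring over matrices (helper27)
-/

namespace Vale.Agent.P199K

open Matrix

/-- exponents of `X^i Y^j`, ordered lexicographically -/
abbrev Gam : Type := ℤ ×ₗ ℤ

namespace Gam
/-- exponent pair -/
def mk (i j : ℤ) : Gam := toLex (i, j)
/-- first exponent -/
def fs (g : Gam) : ℤ := (ofLex g).1
/-- second exponent -/
def sn (g : Gam) : ℤ := (ofLex g).2

@[simp] theorem fs_mk (i j : ℤ) : fs (mk i j) = i := rfl
@[simp] theorem sn_mk (i j : ℤ) : sn (mk i j) = j := rfl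
@[simp] theorem fs_add (g h : Gam) : fs (g + h) = fs g + fs h := rfl
@[simp] theorem sn_add (g h : Gam) : sn (g + h) = sn g + sn h := rfl
@[simp] theorem fs_zero : fs (0 : Gam) = 0 := rfl
@[simp] theorem sn_zero : sn (0 : Gam) = 0 := rfl
@[simp] theorem fs_sub (g h : Gam) : fs (g - h) = fs g - fs h := rfl
@[simp] theorem sn_sub (g h : Gam) : sn (g - h) = sn g - sn h := rfl
theorem ext' {g h : Gam} (h1 : fs g = fs h) (h2 : sn g = sn h) : g = h := by
  have : (ofLex g) = (ofLex h) := Prod.ext h1 h2
  exact this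
end Gam

section Mat

variable {m : ℕ} [NeZero m] {K : Type} [Field K] (ψ : AddChar (ZMod m) K)
variable {B : Type} [Ring B] [Algebra K B]

/-- the matrix of `X^i Y^j` -/
def UU (B : Type) [Ring B] [Algebra K B] (g : Gam) : Matrix (ZMod m) (ZMod m) B :=
  Matrix.of fun k l => if l = k + (g.sn : ZMod m) then algebraMap K B (ψ ((g.fs : ZMod m) * k)) else 0

theorem UU_apply (g : Gam) (k l : ZMod m) : UU ψ B g k l =
    if l = k + (g.sn : ZMod m) then algebraMap K B (ψ ((g.fs : ZMod m) * k)) else 0 := rfl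

theorem UU_mul (g h : Gam) : UU ψ B g * UU ψ B h
    = algebraMap K B (ψ ((h.fs : ZMod m) * (g.sn : ZMod m))) • UU ψ B (g + h) := by
  ext k l
  rw [Matrix.mul_apply, Matrix.smul_apply, smul_eq_mul]
  simp only [UU_apply, Gam.fs_add, Gam.sn_add, Int.cast_add]
  rw [Finset.sum_eq_single (k + (g.sn : ZMod m))]
  · rw [if_pos rfl]
    by_cases hl : l = k + (g.sn : ZMod m) + (h.sn : ZMod m)
    · rw [if_pos hl, if_pos (by rw [hl]; ring), ← (algebraMap K B).map_mul,
        ← (algebraMap K B).map_mul, ← ψ.map_add_eq_mul, ← ψ.map_add_eq_mul]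
      congr 2; ring
    · rw [if_neg hl, if_neg (by rw [← add_assoc]; exact hl), mul_zero, mul_zero]
  · intro b _ hb
    rw [if_neg hb, zero_mul]
  · intro h'; exact absurd (Finset.mem_univ _) h'

theorem UU_zero : UU ψ B (0 : Gam) = 1 := by
  ext k l
  rw [UU_apply]
  simp only [Gam.sn_zero, Gam.fs_zero, Int.cast_zero, add_zero, zero_mul, AddChar.map_zero_eq_one,
    map_one, Matrix.one_apply, eq_comm]

/-- coefficient extraction: the entry `(0, j)` -/
theorem UU_apply_zero (g : Gam) : UU ψ B g 0 (g.sn : ZMod m) = 1 := by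
  rw [UU_apply, zero_add, if_pos rfl, mul_zero, AddChar.map_zero_eq_one, map_one]

theorem smul_UU_mul (a b : B) (g h : Gam) : (a • UU ψ B g) * (b • UU ψ B h)
    = (a * b * algebraMap K B (ψ ((h.fs : ZMod m) * (g.sn : ZMod m)))) • UU ψ B (g + h) := by
  have : UU ψ B g * (b • UU ψ B h) = b • (UU ψ B g * UU ψ B h) := by
    ext k l
    rw [Matrix.mul_apply, Matrix.smul_apply, Matrix.mul_apply, Finset.smul_sum]
    refine Finset.sum_congr rfl fun s _ => ?_
    rw [Matrix.smul_apply, smul_eq_mul, smul_eq_mul, ← mul_assoc, ← mul_assoc, UU_apply]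
    split
    · rw [Algebra.commutes]
    · rw [zero_mul, mul_zero]
  rw [smul_mul_assoc, this, UU_mul, smul_smul, smul_smul, mul_assoc]

theorem smul_UU_eq_zero_iff (a : B) (g : Gam) : a • UU ψ B g = 0 ↔ a = 0 := by
  constructor
  · intro h
    have := congrFun (congrFun h 0) (g.sn : ZMod m)
    rwa [Matrix.smul_apply, UU_apply_zero, smul_eq_mul, mul_one, Matrix.zero_apply] at this
  · rintro rfl; rw [zero_smul]

end Mat

section Ring

variable {m : ℕ} [NeZero m] {K : Type} [Field K] (ψ : AddChar (ZMod m) K)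

/-- the underlying subring -/
noncomputable def symSub (B : Type) [Ring B] [Algebra K B] :
    Subring (HahnSeries Gam (Matrix (ZMod m) (ZMod m) B)) where
  carrier := {f | ∀ g, ∃ b : B, f.coeff g = b • UU ψ B g}
  mul_mem' := by
    intro f f' hf hf' g
    rw [HahnSeries.coeff_mul]
    choose c hc using hf
    choose c' hc' using hf'
    refine ⟨∑ ij ∈ Finset.antidiagonal f.isPWO_support f'.isPWO_support g,
      c ij.1 * c' ij.2 * algebraMap K B (ψ ((ij.2.fs : ZMod m) * (ij.1.sn : ZMod m))), ?_⟩
    rw [Finset.sum_smul]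
    refine Finset.sum_congr rfl fun ij hij => ?_
    rw [hc, hc', smul_UU_mul]
    simp only [Finset.mem_antidiagonal] at hij
    rw [hij.2.2]
  one_mem' := by
    intro g
    by_cases h : g = 0
    · subst h
      exact ⟨1, by rw [one_smul, UU_zero]; exact HahnSeries.coeff_single_same _ _⟩
    · exact ⟨0, by rw [zero_smul]; exact HahnSeries.coeff_single_of_ne h⟩
  add_mem' := by
    intro f f' hf hf' g
    obtain ⟨c, hc⟩ := hf g
    obtain ⟨c', hc'⟩ := hf' g
    exact ⟨c + c', by rw [HahnSeries.coeff_add, hc, hc', add_smul]⟩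
  zero_mem' := fun g => ⟨0, by rw [zero_smul]; rfl⟩
  neg_mem' := by
    intro f hf g
    obtain ⟨c, hc⟩ := hf g
    exact ⟨-c, by rw [HahnSeries.coeff_neg, hc, neg_smul]⟩

/-- the symbol algebra `B((X))((Y,σ))` -/
def Sym (B : Type) [Ring B] [Algebra K B] : Type := ↥(symSub ψ B)

namespace Sym

variable {B : Type} [Ring B] [Algebra K B]

noncomputable instance : Ring (Sym ψ B) := inferInstanceAs (Ring ↥(symSub ψ B))

variable {ψ}

/-- the underlying Hahn series -/
def val (f : Sym ψ B) : HahnSeries Gam (Matrix (ZMod m) (ZMod m) B) := Subtype.val f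

/-- the coefficient of `X^i Y^j` -/
def co (f : Sym ψ B) (g : Gam) : B := (val f).coeff g 0 (g.sn : ZMod m)

theorem val_coeff (f : Sym ψ B) (g : Gam) : (val f).coeff g = co f g • UU ψ B g := by
  obtain ⟨b, hb⟩ := Subtype.prop f g
  have : co f g = b := by
    unfold co
    have : (val f).coeff g = b • UU ψ B g := hb
    rw [this, Matrix.smul_apply, UU_apply_zero, smul_eq_mul, mul_one]
  rw [this]; exact hb

theorem val_injective : Function.Injective (val : Sym ψ B → _) := Subtype.val_injective

theorem ext {f f' : Sym ψ B} (h : ∀ g, co f g = co f' g) : f = f' := by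
  apply val_injective
  ext1
  funext g
  rw [val_coeff, val_coeff, h]

@[simp] theorem val_zero : val (0 : Sym ψ B) = 0 := rfl
@[simp] theorem val_one : val (1 : Sym ψ B) = 1 := rfl
@[simp] theorem val_add (f f' : Sym ψ B) : val (f + f') = val f + val f' := rfl
@[simp] theorem val_mul (f f' : Sym ψ B) : val (f * f') = val f * val f' := rfl
@[simp] theorem val_neg (f : Sym ψ B) : val (-f) = -val f := rfl

@[simp] theorem co_zero (g : Gam) : co (0 : Sym ψ B) g = 0 := rfl
@[simp] theorem co_add (f f' : Sym ψ B) (g : Gam) : co (f + f') g = co f g + co f' g := by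
  unfold co; rw [val_add, HahnSeries.coeff_add]; rfl
@[simp] theorem co_neg (f : Sym ψ B) (g : Gam) : co (-f) g = -co f g := by
  unfold co; rw [val_neg, HahnSeries.coeff_neg]; rfl
@[simp] theorem co_sub (f f' : Sym ψ B) (g : Gam) : co (f - f') g = co f g - co f' g := by
  rw [sub_eq_add_neg, co_add, co_neg, sub_eq_add_neg]

theorem co_sum {ι : Type} (s : Finset ι) (f : ι → Sym ψ B) (g : Gam) :
    co (∑ i ∈ s, f i) g = ∑ i ∈ s, co (f i) g := by
  classical
  induction s using Finset.induction_on with
  | empty => simp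
  | insert a s ha ih => rw [Finset.sum_insert ha, Finset.sum_insert ha, co_add, ih]

theorem eq_zero_iff (f : Sym ψ B) : f = 0 ↔ ∀ g, co f g = 0 :=
  ⟨fun h g => by rw [h]; rfl, fun h => ext fun g => by rw [h, co_zero]⟩

/-- a series with given coefficients -/
def mk (f : HahnSeries Gam B) : Sym ψ B :=
  ⟨{ coeff := fun g => f.coeff g • UU ψ B g
     isPWO_support' := f.isPWO_support.mono fun g hg => by
      intro h0
      exact hg (by simp only [h0, zero_smul]) },
    fun g => ⟨f.coeff g, rfl⟩⟩

@[simp] theorem co_mk (f : HahnSeries Gam B) (g : Gam) : co (mk f : Sym ψ B) g = f.coeff g := by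
  change ((f.coeff g • UU ψ B g) : Matrix _ _ B) 0 (g.sn : ZMod m) = _
  rw [Matrix.smul_apply, UU_apply_zero, smul_eq_mul, mul_one]

/-- the coefficients as a Hahn series -/
def hs (f : Sym ψ B) : HahnSeries Gam B where
  coeff := co f
  isPWO_support' := (val f).isPWO_support.mono fun g hg h0 => hg (by
    unfold co; rw [h0]; rfl)

@[simp] theorem hs_coeff (f : Sym ψ B) (g : Gam) : (hs f).coeff g = co f g := rfl

theorem mk_hs (f : Sym ψ B) : mk (hs f) = f := ext fun g => by rw [co_mk]; rfl

/-- monomials -/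
noncomputable def mon (g : Gam) (b : B) : Sym ψ B := mk (HahnSeries.single g b)

theorem co_mon_same (g : Gam) (b : B) : co (mon g b : Sym ψ B) g = b := by
  unfold mon; rw [co_mk, HahnSeries.coeff_single_same]

theorem co_mon_of_ne {g h : Gam} (b : B) (hne : h ≠ g) : co (mon g b : Sym ψ B) h = 0 := by
  unfold mon; rw [co_mk, HahnSeries.coeff_single_of_ne hne]

theorem val_mon (g : Gam) (b : B) : val (mon g b : Sym ψ B) = HahnSeries.single g (b • UU ψ B g) := by
  ext1
  funext h
  rw [val_coeff]
  by_cases hh : h = g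
  · subst hh; rw [co_mon_same, HahnSeries.coeff_single_same]
  · rw [co_mon_of_ne b hh, HahnSeries.coeff_single_of_ne hh, zero_smul]

theorem co_mon_mul (g : Gam) (b : B) (f : Sym ψ B) (h : Gam) :
    co (mon g b * f) h = b * co f (h - g) *
      algebraMap K B (ψ (((h - g).fs : ZMod m) * (g.sn : ZMod m))) := by
  change (val (mon g b * f)).coeff h 0 (h.sn : ZMod m) = _
  rw [val_mul, val_mon, HahnSeries.coeff_single_mul, val_coeff, smul_UU_mul, Matrix.smul_apply,
    add_sub_cancel, UU_apply_zero, smul_eq_mul, mul_one]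

theorem co_mul_mon (g : Gam) (b : B) (f : Sym ψ B) (h : Gam) :
    co (f * mon g b) h = co f (h - g) * b *
      algebraMap K B (ψ ((g.fs : ZMod m) * ((h - g).sn : ZMod m))) := by
  change (val (f * mon g b)).coeff h 0 (h.sn : ZMod m) = _
  rw [val_mul, val_mon, HahnSeries.coeff_mul_single, val_coeff, smul_UU_mul, Matrix.smul_apply,
    sub_add_cancel, UU_apply_zero, smul_eq_mul, mul_one]

theorem mon_mul_mon (g h : Gam) (a b : B) : (mon g a * mon h b : Sym ψ B)
    = mon (g + h) (a * b * algebraMap K B (ψ ((h.fs : ZMod m) * (g.sn : ZMod m)))) := by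
  apply val_injective
  rw [val_mul, val_mon, val_mon, val_mon, HahnSeries.single_mul_single, smul_UU_mul]

theorem mon_zero_one : (mon 0 1 : Sym ψ B) = 1 := by
  apply val_injective
  rw [val_mon, UU_zero, one_smul]; rfl

theorem mon_add (g : Gam) (a b : B) : (mon g (a + b) : Sym ψ B) = mon g a + mon g b := by
  apply val_injective
  rw [val_add, val_mon, val_mon, val_mon, add_smul, HahnSeries.single_add]

instance [IsDomain B] : IsDomain (Sym ψ B) := by
  have : Nontrivial (Sym ψ B) := ⟨⟨1, 0, fun h => by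
    have := congrArg (fun f => co f 0) h
    simp only [← mon_zero_one, co_mon_same, co_zero] at this
    exact one_ne_zero this⟩⟩
  have : NoZeroDivisors (Sym ψ B) := ⟨fun {f f'} h => by
    by_contra hne
    push Not at hne
    obtain ⟨h1, h2⟩ := hne
    have h1' : val f ≠ 0 := fun h0 => h1 (val_injective h0)
    have h2' : val f' ≠ 0 := fun h0 => h2 (val_injective h0)
    have h3 := HahnSeries.coeff_mul_order_add_order (val f) (val f')
    rw [← val_mul, h, val_zero, HahnSeries.coeff_zero] at h3
    have h4 : (val f).leadingCoeff = co f (val f).order • UU ψ B (val f).order := by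
      rw [HahnSeries.leadingCoeff_eq]; exact val_coeff _ _
    have h5 : (val f').leadingCoeff = co f' (val f').order • UU ψ B (val f').order := by
      rw [HahnSeries.leadingCoeff_eq]; exact val_coeff _ _
    have h6 : (val f).leadingCoeff ≠ 0 := HahnSeries.leadingCoeff_ne_zero.2 h1'
    have h7 : (val f').leadingCoeff ≠ 0 := HahnSeries.leadingCoeff_ne_zero.2 h2'
    rw [h4, Ne, smul_UU_eq_zero_iff] at h6
    rw [h5, Ne, smul_UU_eq_zero_iff] at h7
    rw [h4, h5, smul_UU_mul, eq_comm, smul_UU_eq_zero_iff] at h3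
    have h8 : algebraMap K B (ψ (((val f').order.fs : ZMod m) * ((val f).order.sn : ZMod m))) ≠ 0 := by
      intro h0
      have hu : IsUnit (ψ (((val f').order.fs : ZMod m) * ((val f).order.sn : ZMod m))) :=
        ψ.val_isUnit _
      exact (hu.map (algebraMap K B)).ne_zero h0
    exact (mul_ne_zero (mul_ne_zero h6 h7) h8) h3⟩
  exact NoZeroDivisors.to_isDomain _

end Sym

end Ring

end Vale.Agent.P199K
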