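import Vale.Agent.P199K.Sym

/-!
# P199: the symbol algebra over its centre `K((x))((y))` (helper27)
-/

namespace Vale.Agent.P199K

open Matrix

/-! ### Hahn series preliminaries -/

section Pre

theorem isPWO_preimage {Γ Γ' : Type} [Preorder Γ] [Preorder Γ'] {s : Set Γ'} (hs : s.IsPWO)
    (f : Γ → Γ') (hf : ∀ a b, f a ≤ f b → a ≤ b) : (f ⁻¹' s).IsPWO := by
  intro u
  obtain ⟨a, b, hab, h⟩ := hs fun n => ⟨f (u n).1, (u n).2⟩
  exact ⟨a, b, hab, hf _ _ h⟩

/-- coefficientwise ring hom on Hahn series -/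
noncomputable def hsHom {R S : Type} [Ring R] [Ring S] (f : R →+* S) :
    HahnSeries Gam R →+* HahnSeries Gam S where
  toFun x := x.map f
  map_one' := by
    ext n
    by_cases h : n = 0
    · subst h
      rw [HahnSeries.map_coeff]
      change f ((HahnSeries.single (0 : Gam) (1 : R)).coeff 0)
        = (HahnSeries.single (0 : Gam) (1 : S)).coeff 0
      rw [HahnSeries.coeff_single_same, HahnSeries.coeff_single_same, map_one]
    · rw [HahnSeries.map_coeff]
      change f ((HahnSeries.single (0 : Gam) (1 : R)).coeff n)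
        = (HahnSeries.single (0 : Gam) (1 : S)).coeff n
      rw [HahnSeries.coeff_single_of_ne h, HahnSeries.coeff_single_of_ne h, map_zero]
  map_zero' := by ext n; simp
  map_add' x y := by ext n; simp
  map_mul' x y := by exact HahnSeries.map_mul (f : R →ₙ+* S)

@[simp] theorem hsHom_coeff {R S : Type} [Ring R] [Ring S] (f : R →+* S) (x : HahnSeries Gam R)
    (g : Gam) : (hsHom f x).coeff g = f (x.coeff g) := rfl

theorem hs_comm {R : Type} [Ring R] (x y : HahnSeries Gam R)
    (h : ∀ a b, x.coeff a * y.coeff b = y.coeff b * x.coeff a) : x * y = y * x := by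
  ext n
  rw [HahnSeries.coeff_mul, HahnSeries.coeff_mul]
  refine Finset.sum_bij (fun ij _ => ij.swap) ?_ ?_ ?_ ?_
  · intro ij h
    simp only [Finset.mem_antidiagonal, Prod.fst_swap, Prod.snd_swap] at h ⊢
    exact ⟨h.2.1, h.1, by rw [add_comm]; exact h.2.2⟩
  · intro a _ b _ h
    exact Prod.swap_injective h
  · intro b h
    refine ⟨b.swap, ?_, Prod.swap_swap b⟩
    simp only [Finset.mem_antidiagonal, Prod.fst_swap, Prod.snd_swap] at h ⊢
    exact ⟨h.2.1, h.1, by rw [add_comm]; exact h.2.2⟩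
  · intro ij _
    exact h _ _

end Pre

/-- multiplication by `m` on exponents -/
def mulG (m : ℕ) : Gam →+ Gam := nsmulAddMonoidHom m

theorem mulG_apply (m : ℕ) (g : Gam) : mulG m g = m • g := rfl

theorem mulG_le {m : ℕ} [NeZero m] (g h : Gam) : mulG m g ≤ mulG m h ↔ g ≤ h :=
  smul_le_smul_iff_of_pos_left (NeZero.pos m)

theorem mulG_inj {m : ℕ} [NeZero m] : Function.Injective (mulG m) := fun g h hgh =>
  le_antisymm ((mulG_le g h).1 hgh.le) ((mulG_le h g).1 hgh.ge)

@[simp] theorem fs_nsmul (m : ℕ) (g : Gam) : (m • g).fs = m * g.fs := by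
  induction m with
  | zero => simp
  | succ k ih => rw [succ_nsmul, Gam.fs_add, ih]; push_cast; ring

@[simp] theorem sn_nsmul (m : ℕ) (g : Gam) : (m • g).sn = m * g.sn := by
  induction m with
  | zero => simp
  | succ k ih => rw [succ_nsmul, Gam.sn_add, ih]; push_cast; ring

/-- `K((x))((y))` -/
def Kxy (K : Type) [Field K] : Type := HahnSeries Gam K

noncomputable instance (K : Type) [Field K] : Field (Kxy K) :=
  inferInstanceAs (Field (HahnSeries Gam K))

section Alg

variable {m : ℕ} [NeZero m] {K : Type} [Field K] {ψ : AddChar (ZMod m) K}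
variable {B : Type} [Ring B] [Algebra K B]

theorem UU_nsmul (g : Gam) : UU ψ B (m • g) = 1 := by
  ext k l
  rw [UU_apply]
  simp only [sn_nsmul, fs_nsmul, Int.cast_mul, Int.cast_natCast, CharP.cast_eq_zero, zero_mul,
    add_zero, AddChar.map_zero_eq_one, map_one, Matrix.one_apply, eq_comm]

/-- the embedding of the centre, into Hahn series over matrices -/
noncomputable def cenHom (m : ℕ) [NeZero m] (K B : Type) [Field K] [Ring B] [Algebra K B] :
    Kxy K →+* HahnSeries Gam (Matrix (ZMod m) (ZMod m) B) :=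
  (hsHom (algebraMap K (Matrix (ZMod m) (ZMod m) B))).comp
    (HahnSeries.embDomainRingHom (mulG m) mulG_inj mulG_le : HahnSeries Gam K →+* HahnSeries Gam K)

theorem embD_same (c : HahnSeries Gam K) (g : Gam) :
    ((HahnSeries.embDomainRingHom (mulG m) mulG_inj mulG_le : HahnSeries Gam K →+* HahnSeries Gam K)
      c).coeff (m • g) = c.coeff g :=
  HahnSeries.embDomain_coeff (f := (⟨⟨mulG m, mulG_inj⟩, mulG_le _ _⟩ : Gam ↪o Gam)) (x := c) (a := g)

theorem embD_of_ne (c : HahnSeries Gam K) (h : Gam) (hh : ∀ g, m • g ≠ h) :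
    ((HahnSeries.embDomainRingHom (mulG m) mulG_inj mulG_le : HahnSeries Gam K →+* HahnSeries Gam K)
      c).coeff h = 0 :=
  HahnSeries.embDomain_of_notMem_range (f := (⟨⟨mulG m, mulG_inj⟩, mulG_le _ _⟩ : Gam ↪o Gam))
    (x := c) (by rintro ⟨g, hg⟩; exact hh g hg)

theorem cenHom_coeff_same (c : Kxy K) (g : Gam) :
    (cenHom m K B c).coeff (m • g) = algebraMap K _ (HahnSeries.coeff (Γ := Gam) c g) :=
  congrArg (algebraMap K _) (embD_same c g)

theorem cenHom_coeff_of_ne (c : Kxy K) (h : Gam) (hh : ∀ g, m • g ≠ h) :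
    (cenHom m K B c).coeff h = 0 :=
  (congrArg (algebraMap K (Matrix (ZMod m) (ZMod m) B)) (embD_of_ne c h hh)).trans (map_zero _)

theorem cenHom_mem (c : Kxy K) : cenHom m K B c ∈ symSub ψ B := by
  intro h
  by_cases hh : ∃ g, m • g = h
  · obtain ⟨g, rfl⟩ := hh
    refine ⟨algebraMap K B (HahnSeries.coeff (Γ := Gam) c g), ?_⟩
    rw [cenHom_coeff_same, UU_nsmul]
    ext k l
    rw [Matrix.smul_apply, smul_eq_mul, Matrix.algebraMap_matrix_apply, Matrix.one_apply]
    split <;> simp
  · push Not at hh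
    exact ⟨0, by rw [cenHom_coeff_of_ne _ _ hh, zero_smul]⟩

namespace Sym

/-- the embedding of the centre -/
noncomputable def algH : Kxy K →+* Sym ψ B := (cenHom m K B).codRestrict (symSub ψ B) cenHom_mem

theorem val_algH (c : Kxy K) : val (algH c : Sym ψ B) = cenHom m K B c := rfl

noncomputable instance : Algebra (Kxy K) (Sym ψ B) :=
  (algH : Kxy K →+* Sym ψ B).toAlgebra' (by
    intro c x
    apply val_injective
    rw [val_mul, val_mul, val_algH]
    refine hs_comm _ _ fun a b => ?_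
    by_cases hh : ∃ g, m • g = a
    · obtain ⟨g, rfl⟩ := hh
      rw [cenHom_coeff_same]; exact Algebra.commutes _ _
    · push Not at hh
      rw [cenHom_coeff_of_ne _ _ hh, zero_mul, mul_zero])

theorem co_algebraMap_same (c : Kxy K) (g : Gam) :
    co (algebraMap (Kxy K) (Sym ψ B) c) (m • g)
      = algebraMap K B (HahnSeries.coeff (Γ := Gam) c g) := by
  change (cenHom m K B c).coeff (m • g) 0 (((m • g).sn : ℤ) : ZMod m) = _
  rw [cenHom_coeff_same, sn_nsmul, Matrix.algebraMap_matrix_apply]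
  simp

theorem co_algebraMap_of_ne (c : Kxy K) (h : Gam) (hh : ∀ g, m • g ≠ h) :
    co (algebraMap (Kxy K) (Sym ψ B) c) h = 0 := by
  change (cenHom m K B c).coeff h 0 _ = _
  rw [cenHom_coeff_of_ne _ _ hh]; rfl

/-- coefficients of `c • mon g0 b` -/
theorem co_smul_mon (c : Kxy K) (g0 : Gam) (b : B) (g : Gam) :
    co (c • (mon g0 b : Sym ψ B)) (m • g + g0) = algebraMap K B (HahnSeries.coeff (Γ := Gam) c g) * b := by
  rw [Algebra.smul_def, co_mul_mon, add_sub_cancel_right, co_algebraMap_same, sn_nsmul]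
  simp

theorem co_smul_mon_of_ne (c : Kxy K) (g0 : Gam) (b : B) (h : Gam) (hh : ∀ g, m • g + g0 ≠ h) :
    co (c • (mon g0 b : Sym ψ B)) h = 0 := by
  rw [Algebra.smul_def, co_mul_mon, co_algebraMap_of_ne, zero_mul, zero_mul]
  intro g hg
  exact hh g (by rw [hg, sub_add_cancel])

end Sym

end Alg

end Vale.Agent.P199K
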