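import Vale.Agent.P199K.SymAlg

/-!
# P199: basis, centre and functoriality of the symbol algebra (helper27)
-/

namespace Vale.Agent.P199K

open Matrix

namespace Sym

section Basis

variable {m : ℕ} [NeZero m] {K : Type} [Field K] {ψ : AddChar (ZMod m) K}

/-- exponent pair of `X^i Y^j` -/
def pr2 (p : Fin m × Fin m) : Gam := Gam.mk (p.1 : ℕ) (p.2 : ℕ)

theorem decomp (h : Gam) : ∃ (g : Gam) (p : Fin m × Fin m), m • g + pr2 p = h := by
  have hm : (0 : ℤ) < m := by exact_mod_cast NeZero.pos m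
  refine ⟨Gam.mk (h.fs / m) (h.sn / m), (⟨(h.fs % m).toNat, ?_⟩, ⟨(h.sn % m).toNat, ?_⟩), ?_⟩
  · have h1 := Int.emod_nonneg h.fs hm.ne'
    have h2 := Int.emod_lt_of_pos h.fs hm
    omega
  · have h1 := Int.emod_nonneg h.sn hm.ne'
    have h2 := Int.emod_lt_of_pos h.sn hm
    omega
  · apply Gam.ext'
    · rw [Gam.fs_add, fs_nsmul, Gam.fs_mk]
      unfold pr2
      rw [Gam.fs_mk]
      simp only
      rw [Int.toNat_of_nonneg (Int.emod_nonneg h.fs hm.ne')]
      exact Int.mul_ediv_add_emod _ _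
    · rw [Gam.sn_add, sn_nsmul, Gam.sn_mk]
      unfold pr2
      rw [Gam.sn_mk]
      simp only
      rw [Int.toNat_of_nonneg (Int.emod_nonneg h.sn hm.ne')]
      exact Int.mul_ediv_add_emod _ _

omit [NeZero m] in
theorem aux_eq {a b : ℤ} {i j : ℕ} (hi : i < m) (hj : j < m) (h : (m : ℤ) * a + i = m * b + j) :
    i = j := by
  have h1 : ((m : ℤ) * a + i) % m = i := by
    rw [Int.add_comm, Int.add_mul_emod_self_left]
    exact Int.emod_eq_of_lt (by positivity) (by exact_mod_cast hi)
  have h2 : ((m : ℤ) * b + j) % m = j := by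
    rw [Int.add_comm, Int.add_mul_emod_self_left]
    exact Int.emod_eq_of_lt (by positivity) (by exact_mod_cast hj)
  rw [h, h2] at h1
  exact_mod_cast h1.symm

theorem decomp_unique {g g' : Gam} {p p' : Fin m × Fin m} (h : m • g + pr2 p = m • g' + pr2 p') :
    p = p' := by
  have h1 := congrArg Gam.fs h
  have h2 := congrArg Gam.sn h
  rw [Gam.fs_add, Gam.fs_add, fs_nsmul, fs_nsmul] at h1
  rw [Gam.sn_add, Gam.sn_add, sn_nsmul, sn_nsmul] at h2
  have e1 := aux_eq p.1.2 p'.1.2 h1
  have e2 := aux_eq p.2.2 p'.2.2 h2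
  exact Prod.ext (Fin.ext e1) (Fin.ext e2)

/-- the component of `f` at `X^i Y^j`, as an element of the centre -/
noncomputable def comp (f : Sym ψ K) (p : Fin m × Fin m) : Kxy K :=
  ({ coeff := fun g => co f (m • g + pr2 p)
     isPWO_support' := by
      refine isPWO_preimage (hs f).isPWO_support (fun g => m • g + pr2 p) fun a b hab => ?_
      exact (mulG_le (m := m) a b).1 (le_of_add_le_add_right hab) } : HahnSeries Gam K)

theorem comp_coeff (f : Sym ψ K) (p : Fin m × Fin m) (g : Gam) :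
    HahnSeries.coeff (Γ := Gam) (comp f p) g = co f (m • g + pr2 p) := rfl

theorem co_sum_comp (c : Fin m × Fin m → Kxy K) (g : Gam) (p : Fin m × Fin m) :
    co (∑ q, c q • (mon (pr2 q) 1 : Sym ψ K)) (m • g + pr2 p)
      = HahnSeries.coeff (Γ := Gam) (c p) g := by
  rw [co_sum, Finset.sum_eq_single p]
  · rw [co_smul_mon, mul_one]; rfl
  · intro q _ hq
    rw [co_smul_mon_of_ne]
    intro g' hg'
    exact hq (decomp_unique hg')
  · intro h; exact absurd (Finset.mem_univ _) h

theorem sum_comp (f : Sym ψ K) : ∑ p, comp f p • (mon (pr2 p) 1 : Sym ψ K) = f := by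
  apply ext
  intro h
  obtain ⟨g, p, rfl⟩ := decomp (m := m) h
  rw [co_sum_comp, comp_coeff]

theorem kxy_ext {c c' : Kxy K}
    (h : ∀ g, HahnSeries.coeff (Γ := Gam) c g = HahnSeries.coeff (Γ := Gam) c' g) : c = c' :=
  HahnSeries.ext (funext h)

theorem li : LinearIndependent (Kxy K) (fun p : Fin m × Fin m => (mon (pr2 p) 1 : Sym ψ K)) := by
  rw [Fintype.linearIndependent_iff]
  intro c hc p
  apply kxy_ext
  intro g
  rw [← co_sum_comp (ψ := ψ) c g p, hc]; rfl

/-- the basis `X^i Y^j` -/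
noncomputable def bas : Module.Basis (Fin m × Fin m) (Kxy K) (Sym ψ K) :=
  Module.Basis.mk li (by
    intro f _
    rw [← sum_comp f]
    exact Submodule.sum_mem _ fun p _ => Submodule.smul_mem _ _ (Submodule.subset_span ⟨p, rfl⟩))

theorem bas_apply (p : Fin m × Fin m) : (bas p : Sym ψ K) = mon (pr2 p) 1 := by
  simp [bas]

theorem finrank_sym : Module.finrank (Kxy K) (Sym ψ K) = m ^ 2 := by
  rw [Module.finrank_eq_card_basis bas, Fintype.card_prod, Fintype.card_fin, sq]

theorem finite_sym : Module.Finite (Kxy K) (Sym ψ K) := Module.Finite.of_basis bas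

end Basis

section XY

variable {m : ℕ} [NeZero m] {K : Type} [Field K] {ψ : AddChar (ZMod m) K}

/-- the generator `X` -/
noncomputable def XX : Sym ψ K := mon (Gam.mk 1 0) 1
/-- the generator `Y` -/
noncomputable def YY : Sym ψ K := mon (Gam.mk 0 1) 1

theorem XX_pow (i : ℕ) : (XX : Sym ψ K) ^ i = mon (Gam.mk i 0) 1 := by
  induction i with
  | zero => rw [pow_zero, ← mon_zero_one]; rfl
  | succ k ih =>
    rw [pow_succ, ih, XX, mon_mul_mon]
    simp only [Gam.sn_mk, Int.cast_zero, mul_zero, AddChar.map_zero_eq_one, map_one, mul_one]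
    congr 1

theorem YY_pow (i : ℕ) : (YY : Sym ψ K) ^ i = mon (Gam.mk 0 i) 1 := by
  induction i with
  | zero => rw [pow_zero, ← mon_zero_one]; rfl
  | succ k ih =>
    rw [pow_succ, ih, YY, mon_mul_mon]
    simp only [Gam.fs_mk, Int.cast_zero, zero_mul, AddChar.map_zero_eq_one, map_one, mul_one]
    congr 1

theorem XX_pow_mul_YY_pow (p : Fin m × Fin m) :
    (XX : Sym ψ K) ^ (p.1 : ℕ) * YY ^ (p.2 : ℕ) = mon (pr2 p) 1 := by
  rw [XX_pow, YY_pow, mon_mul_mon]
  simp only [Gam.fs_mk, Int.cast_zero, zero_mul, AddChar.map_zero_eq_one, map_one, mul_one]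
  congr 1
  apply Gam.ext' <;> simp [pr2]

theorem indep : LinearIndependent (Kxy K)
    (fun p : Fin m × Fin m => (XX : Sym ψ K) ^ (p.1 : ℕ) * YY ^ (p.2 : ℕ)) := by
  have : (fun p : Fin m × Fin m => (XX : Sym ψ K) ^ (p.1 : ℕ) * YY ^ (p.2 : ℕ))
      = fun p => mon (pr2 p) 1 := funext XX_pow_mul_YY_pow
  rw [this]; exact li

/-- a monomial of the centre -/
noncomputable def ksingle (g : Gam) (a : K) : Kxy K := (HahnSeries.single g a : HahnSeries Gam K)

theorem ksingle_same (g : Gam) (a : K) : HahnSeries.coeff (Γ := Gam) (ksingle g a) g = a :=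
  HahnSeries.coeff_single_same _ _

theorem ksingle_of_ne {g h : Gam} (a : K) (hh : h ≠ g) :
    HahnSeries.coeff (Γ := Gam) (ksingle g a) h = 0 := HahnSeries.coeff_single_of_ne hh

/-- the element `x` of the centre -/
noncomputable def xx (K : Type) [Field K] : Kxy K := ksingle (Gam.mk 1 0) 1
/-- the element `y` of the centre -/
noncomputable def yy (K : Type) [Field K] : Kxy K := ksingle (Gam.mk 0 1) 1

theorem xx_ne : xx K ≠ 0 := fun h => by
  have h1 : HahnSeries.coeff (Γ := Gam) (xx K) (Gam.mk 1 0) = 1 := ksingle_same _ _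
  rw [h] at h1
  exact zero_ne_one h1

theorem yy_ne : yy K ≠ 0 := fun h => by
  have h1 : HahnSeries.coeff (Γ := Gam) (yy K) (Gam.mk 0 1) = 1 := ksingle_same _ _
  rw [h] at h1
  exact zero_ne_one h1

theorem algebraMap_single (g : Gam) (a : K) :
    algebraMap (Kxy K) (Sym ψ K) (ksingle g a) = mon (m • g) a := by
  apply ext
  intro h
  by_cases hh : ∃ g', m • g' = h
  · obtain ⟨g', rfl⟩ := hh
    rw [co_algebraMap_same]
    by_cases hg : g' = g
    · subst hg
      rw [co_mon_same, ksingle_same]; rfl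
    · have hne : m • g' ≠ m • g := fun h0 => hg (mulG_inj (m := m) h0)
      rw [co_mon_of_ne _ hne, ksingle_of_ne _ hg, map_zero]
  · push Not at hh
    rw [co_algebraMap_of_ne _ _ hh, co_mon_of_ne _ (fun h0 => hh g h0.symm)]

theorem XX_m : (XX : Sym ψ K) ^ m = algebraMap (Kxy K) (Sym ψ K) (xx K) := by
  unfold xx
  rw [XX_pow, algebraMap_single]
  congr 1
  apply Gam.ext'
  · rw [fs_nsmul, Gam.fs_mk, Gam.fs_mk, mul_one]
  · rw [sn_nsmul, Gam.sn_mk, Gam.sn_mk, mul_zero]

theorem YY_m : (YY : Sym ψ K) ^ m = algebraMap (Kxy K) (Sym ψ K) (yy K) := by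
  unfold yy
  rw [YY_pow, algebraMap_single]
  congr 1
  apply Gam.ext'
  · rw [fs_nsmul, Gam.fs_mk, Gam.fs_mk, mul_zero]
  · rw [sn_nsmul, Gam.sn_mk, Gam.sn_mk, mul_one]

/-- constants of `K` in the centre -/
noncomputable def kap0 (K : Type) [Field K] : K →+* Kxy K := (HahnSeries.C : K →+* HahnSeries Gam K)

theorem kap0_smul (c : K) (f : Sym ψ K) (g : Gam) : co (kap0 K c • f) g = c * co f g := by
  have h1 : algebraMap (Kxy K) (Sym ψ K) (kap0 K c) = mon 0 c := by
    have := algebraMap_single (ψ := ψ) (0 : Gam) c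
    rw [nsmul_zero] at this
    exact this
  rw [Algebra.smul_def, h1, co_mon_mul]
  simp

theorem YX_rel : (YY : Sym ψ K) * XX = kap0 K (ψ 1) • (XX * YY) := by
  apply ext
  intro g
  rw [kap0_smul, XX, YY, mon_mul_mon, mon_mul_mon]
  have e : Gam.mk 0 1 + Gam.mk 1 0 = Gam.mk 1 0 + Gam.mk 0 1 := add_comm _ _
  rw [e]
  simp only [Gam.fs_mk, Gam.sn_mk, Int.cast_one, Int.cast_zero, mul_one, one_mul, mul_zero,
    AddChar.map_zero_eq_one, map_one]
  by_cases hg : g = Gam.mk 1 0 + Gam.mk 0 1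
  · subst hg; rw [co_mon_same, co_mon_same, mul_one]; rfl
  · rw [co_mon_of_ne _ hg, co_mon_of_ne _ hg, mul_zero]

end XY

section Central

variable {m : ℕ} [NeZero m] {K : Type} [Field K] {ψ : AddChar (ZMod m) K}

theorem central (hψ : ∀ a, ψ a = 1 → a = 0) : Algebra.IsCentral (Kxy K) (Sym ψ K) := by
  refine ⟨fun f hf => ?_⟩
  rw [Subalgebra.mem_center_iff] at hf
  have hX := hf XX
  have hY := hf YY
  have h1 : ∀ g, co f g ≠ 0 → ((g.sn : ℤ) : ZMod m) = 0 := by
    intro g hg
    have := congrArg (fun u => co u (g + Gam.mk 1 0)) hX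
    simp only [XX, co_mon_mul, co_mul_mon, add_sub_cancel_right, Gam.sn_mk, Gam.fs_mk, Int.cast_zero,
      mul_zero, AddChar.map_zero_eq_one, map_one, mul_one, one_mul, Int.cast_one] at this
    refine hψ _ ?_
    have h2 : co f g * ψ ((g.sn : ℤ) : ZMod m) = co f g * 1 := by rw [mul_one]; exact this.symm
    exact mul_left_cancel₀ hg h2
  have h2 : ∀ g, co f g ≠ 0 → ((g.fs : ℤ) : ZMod m) = 0 := by
    intro g hg
    have := congrArg (fun u => co u (g + Gam.mk 0 1)) hY
    simp only [YY, co_mon_mul, co_mul_mon, add_sub_cancel_right, Gam.sn_mk, Gam.fs_mk, Int.cast_zero,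
      zero_mul, AddChar.map_zero_eq_one, map_one, mul_one, one_mul, Int.cast_one] at this
    refine hψ _ ?_
    have h2 : co f g * ψ ((g.fs : ℤ) : ZMod m) = co f g * 1 := by rw [mul_one]; exact this
    exact mul_left_cancel₀ hg h2
  refine ⟨comp f (⟨0, NeZero.pos m⟩, ⟨0, NeZero.pos m⟩), ?_⟩
  have hp : pr2 ((⟨0, NeZero.pos m⟩, ⟨0, NeZero.pos m⟩) : Fin m × Fin m) = 0 := by
    apply Gam.ext' <;> simp [pr2]
  apply ext
  intro h
  change co (algebraMap (Kxy K) (Sym ψ K) _) h = _
  by_cases hh : ∃ g, m • g = h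
  · obtain ⟨g, rfl⟩ := hh
    rw [co_algebraMap_same, comp_coeff, hp, add_zero]; rfl
  · push Not at hh
    rw [co_algebraMap_of_ne _ _ hh]
    by_contra hne
    have e1 := h1 h (fun h0 => hne h0.symm)
    have e2 := h2 h (fun h0 => hne h0.symm)
    rw [ZMod.intCast_zmod_eq_zero_iff_dvd] at e1 e2
    obtain ⟨a, ha⟩ := e1
    obtain ⟨b, hb⟩ := e2
    refine hh (Gam.mk b a) ?_
    apply Gam.ext'
    · rw [fs_nsmul, Gam.fs_mk, hb]
    · rw [sn_nsmul, Gam.sn_mk, ha]

theorem gen2 : Algebra.adjoin (Kxy K) {(XX : Sym ψ K), YY} = ⊤ := by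
  rw [eq_top_iff]
  intro f _
  rw [← sum_comp f]
  refine Subalgebra.sum_mem _ fun p _ => Subalgebra.smul_mem _ ?_ _
  rw [← XX_pow_mul_YY_pow]
  exact Subalgebra.mul_mem _ (Subalgebra.pow_mem _ (Algebra.subset_adjoin (by simp)) _)
    (Subalgebra.pow_mem _ (Algebra.subset_adjoin (by simp)) _)

end Central

section Functor

variable {m : ℕ} [NeZero m] {K : Type} [Field K] {ψ : AddChar (ZMod m) K}
variable {A : Type} [Ring A] [Algebra K A]

theorem map_UU (g : Gam) : (algebraMap K A).mapMatrix (UU ψ K g) = UU ψ A g := by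
  ext k l
  rw [RingHom.mapMatrix_apply, Matrix.map_apply, UU_apply, UU_apply]
  split
  · rfl
  · rw [map_zero]

theorem jmem (f : Sym ψ K) : hsHom (algebraMap K A).mapMatrix (val f) ∈ symSub ψ A := by
  intro g
  refine ⟨algebraMap K A (co f g), ?_⟩
  rw [hsHom_coeff, val_coeff, ← map_UU (A := A)]
  ext k l
  rw [RingHom.mapMatrix_apply, RingHom.mapMatrix_apply, Matrix.map_apply, Matrix.smul_apply,
    Matrix.smul_apply, Matrix.map_apply, smul_eq_mul, smul_eq_mul, map_mul]

/-- the ring hom underlying `E₁ → A₁` -/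
noncomputable def jring (A : Type) [Ring A] [Algebra K A] : Sym ψ K →+* Sym ψ A :=
  ((hsHom (algebraMap K A).mapMatrix).comp (symSub ψ K).subtype).codRestrict (symSub ψ A)
    (fun f => jmem f)

theorem val_jring (f : Sym ψ K) : val (jring A f) = hsHom (algebraMap K A).mapMatrix (val f) := rfl

@[simp] theorem co_jring (f : Sym ψ K) (g : Gam) : co (jring A f) g = algebraMap K A (co f g) := rfl

/-- the hom `E₁ → A₁` -/
noncomputable def jalg (A : Type) [Ring A] [Algebra K A] : Sym ψ K →ₐ[Kxy K] Sym ψ A :=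
  { jring A with
    commutes' := by
      intro c
      apply ext
      intro h
      change co (jring A _) h = _
      rw [co_jring]
      by_cases hh : ∃ g, m • g = h
      · obtain ⟨g, rfl⟩ := hh
        rw [co_algebraMap_same, co_algebraMap_same]; rfl
      · push Not at hh
        rw [co_algebraMap_of_ne _ _ hh, co_algebraMap_of_ne _ _ hh, map_zero] }

@[simp] theorem co_jalg (f : Sym ψ K) (g : Gam) : co (jalg A f) g = algebraMap K A (co f g) := rfl

/-- the hom `A → A₁` -/
noncomputable def iot (ψ : AddChar (ZMod m) K) (A : Type) [Ring A] [Algebra K A] : A →+* Sym ψ A where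
  toFun a := mon 0 a
  map_one' := mon_zero_one
  map_mul' a b := by
    rw [mon_mul_mon]
    simp
  map_zero' := by
    apply val_injective
    rw [val_mon, zero_smul, HahnSeries.single_eq_zero]; rfl
  map_add' a b := mon_add 0 a b

theorem iot_apply (a : A) : iot ψ A a = mon 0 a := rfl

theorem co_iot_mul (a : A) (f : Sym ψ A) (g : Gam) : co (iot ψ A a * f) g = a * co f g := by
  rw [iot_apply, co_mon_mul]; simp

theorem co_mul_iot (a : A) (f : Sym ψ A) (g : Gam) : co (f * iot ψ A a) g = co f g * a := by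
  rw [iot_apply, co_mul_mon]; simp

theorem iot_alg (c : K) : iot ψ A (algebraMap K A c) = algebraMap (Kxy K) (Sym ψ A) (kap0 K c) := by
  apply ext
  intro h
  by_cases hh : ∃ g, m • g = h
  · obtain ⟨g, rfl⟩ := hh
    rw [co_algebraMap_same, iot_apply]
    by_cases hg : g = 0
    · subst hg
      rw [nsmul_zero, co_mon_same]
      congr 1
      exact (HahnSeries.coeff_single_same _ _).symm
    · have hne : m • g ≠ 0 := fun h0 => hg (mulG_inj (m := m) (by
        rw [mulG_apply, mulG_apply, nsmul_zero]; exact h0))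
      rw [co_mon_of_ne _ hne]
      have : HahnSeries.coeff (Γ := Gam) (kap0 K c) g = 0 := HahnSeries.coeff_single_of_ne hg
      rw [this, map_zero]
  · push Not at hh
    rw [co_algebraMap_of_ne _ _ hh, iot_apply, co_mon_of_ne]
    intro h0
    exact hh 0 (by rw [nsmul_zero, h0])

theorem iot_comm (a : A) (e : Sym ψ K) : iot ψ A a * jalg A e = jalg A e * iot ψ A a := by
  apply ext
  intro g
  rw [co_iot_mul, co_mul_iot, co_jalg, Algebra.commutes]

theorem bas_bij (n : ℕ) (b : Module.Basis (Fin n) K A) :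
    Function.Bijective (fun c : Fin n → Sym ψ K => ∑ i, iot ψ A (b i) * jalg A (c i)) := by
  have key : ∀ (c : Fin n → Sym ψ K) (g : Gam), co (∑ i, iot ψ A (b i) * jalg A (c i)) g
      = ∑ i, co (c i) g • b i := by
    intro c g
    rw [co_sum]
    refine Finset.sum_congr rfl fun i _ => ?_
    rw [co_iot_mul, co_jalg, Algebra.smul_def, Algebra.commutes]
  constructor
  · intro c c' h
    funext i
    apply ext
    intro g
    have h1 := congrArg (fun u => co u g) h
    simp only [key] at h1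
    have h2 : ∑ i, (co (c i) g - co (c' i) g) • b i = 0 := by
      simp only [sub_smul, Finset.sum_sub_distrib, h1, sub_self]
    exact sub_eq_zero.1 (Fintype.linearIndependent_iff.1 b.linearIndependent _ h2 i)
  · intro f
    refine ⟨fun i => mk
      { coeff := fun g => b.repr (co f g) i
        isPWO_support' := (hs f).isPWO_support.mono fun g hg h0 => hg (by
          have h0' : co f g = 0 := h0
          simp only [h0', map_zero]; rfl) }, ?_⟩
    apply ext
    intro g
    rw [key]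
    simp only [co_mk]
    exact b.sum_repr _

end Functor

end Sym

/-- the concrete symbol data are admissible -/
theorem Sym.symAdm {m : ℕ} [NeZero m] {K : Type} [Field K] {A : Type} [Ring A] [Algebra K A]
    {ζ : K} (hζ : IsPrimitiveRoot ζ m) :
    SymAdm (Sym.kap0 K) (Sym.iot (AddChar.zmodChar m hζ.pow_eq_one) A) (Sym.jalg A) m
      Sym.XX Sym.YY ζ (Sym.xx K) (Sym.yy K) where
  ι_alg := Sym.iot_alg
  comm := Sym.iot_comm
  bas := Sym.bas_bij
  finE := Sym.finrank_sym
  pos := NeZero.pos m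
  fdE := Sym.finite_sym
  cenE := Sym.central (by
    intro a ha
    rw [AddChar.zmodChar_apply] at ha
    have := (hζ.pow_eq_one_iff_dvd _).1 ha
    have h1 : a.val = 0 := Nat.eq_zero_of_dvd_of_lt this (ZMod.val_lt a)
    exact (ZMod.val_eq_zero a).1 h1)
  gen2 := ⟨_, _, Sym.gen2⟩
  prim := hζ
  x0 := Sym.xx_ne
  y0 := Sym.yy_ne
  Xm := Sym.XX_m
  Ym := Sym.YY_m
  YX := by
    rw [Sym.YX_rel]
    congr 2
    rw [AddChar.zmodChar_apply]
    rcases Nat.lt_or_ge 1 m with h1 | h1
    · have : Fact (1 < m) := ⟨h1⟩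
      rw [ZMod.val_one, pow_one]
    · have hm1 : m = 1 := le_antisymm h1 (NeZero.pos m)
      subst hm1
      have h2 : ζ = 1 := by simpa using hζ.pow_eq_one
      rw [h2, one_pow]
  indep := Sym.indep

end Vale.Agent.P199K
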