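import Vale.Agent.P199K.LSer

/-! # P199: the continuity property of expansions (module TRIPC) -/

open scoped LaurentSeries
open PowerSeries

namespace Vale.Agent.P199K

namespace TripC

section Basic

variable {A : Type} [Ring A]

theorem exists_bound (f : LS A) : ∃ N : ℤ, ∀ n < N, LS.coeff f n = 0 := by
  by_cases h : f = 0
  · exact ⟨0, fun n _ => by rw [h]; rfl⟩
  · refine ⟨HahnSeries.order (f : HahnSeries ℤ A), fun n hn => ?_⟩
    exact HahnSeries.coeff_eq_zero_of_lt_order hn

theorem hs_single_mul (k n : ℤ) (a : A) (f : HahnSeries ℤ A) :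
    (HahnSeries.single k a * f).coeff n = a * f.coeff (n - k) := HahnSeries.coeff_single_mul

theorem hs_mul_single (k n : ℤ) (a : A) (f : HahnSeries ℤ A) :
    (f * HahnSeries.single k a).coeff n = f.coeff (n - k) * a := HahnSeries.coeff_mul_single

theorem hs_mul_bound (f g : HahnSeries ℤ A) {a b : ℤ} (ha : ∀ n < a, f.coeff n = 0)
    (hb : ∀ n < b, g.coeff n = 0) (n : ℤ) (hn : n < a + b) : (f * g).coeff n = 0 := by
  rw [HahnSeries.coeff_mul]
  refine Finset.sum_eq_zero fun ij hij => ?_
  simp only [Finset.mem_antidiagonal, HahnSeries.mem_support] at hij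
  exfalso
  rcases lt_or_ge ij.1 a with h | h
  · exact hij.1 (ha _ h)
  · exact hij.2.1 (hb _ (by omega))

theorem coeff_mul_bound (f g : LS A) {a b : ℤ} (ha : ∀ n < a, LS.coeff f n = 0)
    (hb : ∀ n < b, LS.coeff g n = 0) (n : ℤ) (hn : n < a + b) : LS.coeff (f * g) n = 0 :=
  hs_mul_bound f g ha hb n hn

theorem coeff_mono_mul (k : ℤ) (f : LS A) (n : ℤ) :
    LS.coeff (LS.mono k 1 * f) n = LS.coeff f (n - k) := by
  have := hs_single_mul k n 1 f
  rw [one_mul] at this
  exact this

theorem coeff_C_mul (a : A) (f : LS A) (n : ℤ) :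
    LS.coeff (LS.C a * f) n = a * LS.coeff f n := by
  have := hs_single_mul 0 n a f
  rw [sub_zero] at this
  exact this

theorem coeff_mul_C (a : A) (f : LS A) (n : ℤ) :
    LS.coeff (f * LS.C a) n = LS.coeff f n * a := by
  have := hs_mul_single 0 n a f
  rw [sub_zero] at this
  exact this

theorem coeff_sum {ι : Type} (s : Finset ι) (f : ι → LS A) (n : ℤ) :
    LS.coeff (∑ i ∈ s, f i) n = ∑ i ∈ s, LS.coeff (f i) n := by
  classical
  induction s using Finset.induction_on with
  | empty => simp
  | insert a s ha ih => rw [Finset.sum_insert ha, Finset.sum_insert ha, LS.coeff_add, ih]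

theorem ofPS_X_pow (n : ℕ) : LS.ofPS (PowerSeries.X ^ n : PowerSeries A) = LS.mono (n : ℤ) 1 := by
  exact HahnSeries.ofPowerSeries_X_pow (Γ := ℤ) n

end Basic

section Alg

variable {K A : Type} [Field K] [Ring A] [Algebra K A]

theorem algebraMap_C (c : K) : algebraMap (LS K) (LS A) (LS.C c) = LS.C (algebraMap K A c) := by
  ext n
  rw [LS.coeff_algebraMap, LS.coeff_C, LS.coeff_C]
  split_ifs
  · rfl
  · exact map_zero _

theorem algebraMap_mono (k : ℤ) : algebraMap (LS K) (LS A) (LS.mono k 1) = LS.mono k 1 := by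
  ext n
  rw [LS.coeff_algebraMap, LS.coeff_mono, LS.coeff_mono]
  split_ifs
  · exact map_one _
  · exact map_zero _

theorem coeff_smul_C (c : LS K) (a : A) (n : ℤ) :
    LS.coeff (c • (LS.C a : LS A)) n = LS.coeff c n • a := by
  rw [Algebra.smul_def, coeff_mul_C, LS.coeff_algebraMap, Algebra.smul_def]

/-- an `LS K`-linear functional on `LS A` is bounded on the integral elements -/
theorem bound_functional [FiniteDimensional K A] (ψ : LS A →ₗ[LS K] LS K) :
    ∃ M : ℤ, ∀ a : LS A, LS.Intg a → ∀ k < M, LS.coeff (ψ a) k = 0 := by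
  classical
  set b := Module.finBasis K A with hb
  choose N hN using fun i => exists_bound (ψ (LS.C (b i)))
  obtain ⟨M, hM⟩ := (Finset.univ.image fun i => - N i).exists_le
  refine ⟨-M, fun a ha k hk => ?_⟩
  let ai : Fin (Module.finrank K A) → LS K := fun i => HahnSeries.map (a : HahnSeries ℤ A) (b.coord i)
  have hai : ∀ i n, LS.coeff (ai i) n = b.coord i (LS.coeff a n) := fun i n => rfl
  have hdec : a = ∑ i, ai i • (LS.C (b i) : LS A) := by
    ext n
    rw [coeff_sum]
    simp only [coeff_smul_C, hai]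
    exact (b.sum_repr _).symm
  rw [hdec, map_sum, coeff_sum]
  refine Finset.sum_eq_zero fun i _ => ?_
  rw [map_smul, smul_eq_mul]
  refine coeff_mul_bound _ _ (a := 0) (b := N i) ?_ (hN i) k ?_
  · intro n hn
    rw [hai, ha n hn, map_zero]
  · have := hM (- N i) (Finset.mem_image_of_mem (fun i => - N i) (Finset.mem_univ i))
    omega

variable {τ : Type}

open Classical in
/-- the series with a single term -/
noncomputable def sg (K : Type) [Field K] [Algebra K A] (u : List τ) :
    LS A →ₗ[LS K] NPS τ (LS A) where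
  toFun a := (fun v => if v = u then a else 0 : NPS τ (LS A))
  map_add' a b := by
    ext1 v
    show (if v = u then a + b else 0) = (if v = u then a else 0) + (if v = u then b else 0)
    split_ifs <;> simp
  map_smul' c a := by
    ext1 v
    show (if v = u then c • a else 0) = c • (if v = u then a else 0)
    split_ifs <;> simp

theorem bound_nps [FiniteDimensional K A] [Finite τ] (n : ℕ)
    (φ : NPS τ (LS A) →ₗ[LS K] LS K) (h1 : ∀ f, NPS.Ord n f → φ f = 0) :
    ∃ M : ℤ, ∀ F : NPS τ (LS A), (∀ u, LS.Intg (F u)) → ∀ k < M, LS.coeff (φ F) k = 0 := by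
  classical
  have hfin : {l : List τ | l.length < n}.Finite := List.finite_length_lt τ n
  set W := hfin.toFinset with hW
  have hWm : ∀ u : List τ, u ∈ W ↔ u.length < n := fun u => by
    rw [hW, Set.Finite.mem_toFinset]; rfl
  choose M hM using fun u : List τ => bound_functional (φ.comp (sg K u))
  obtain ⟨m, hm⟩ := (W.image fun u => - M u).exists_le
  refine ⟨-m, fun F hF k hk => ?_⟩
  have hdec : φ F = ∑ u ∈ W, φ (sg K u (F u)) := by
    have h2 : φ (F - ∑ u ∈ W, sg K u (F u)) = 0 := by
      refine h1 _ fun v hv => ?_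
      have hs : (∑ u ∈ W, sg K u (F u)) v = ∑ u ∈ W, (sg K u (F u)) v := by
        exact Finset.sum_apply (M := fun _ : List τ => LS A) v W (fun u => sg K u (F u))
      rw [NPS.sub_apply, hs]
      have h3 : ∑ u ∈ W, (sg K u (F u)) v = F v := by
        rw [Finset.sum_eq_single v]
        · show (if v = v then F v else 0) = F v
          rw [if_pos rfl]
        · intro u _ huv
          show (if v = u then F u else 0) = 0
          rw [if_neg (Ne.symm huv)]
        · intro hvW
          exact absurd ((hWm v).2 hv) hvW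
      rw [h3, sub_self]
    rw [map_sub, sub_eq_zero] at h2
    rw [h2, map_sum]
  rw [hdec, coeff_sum]
  refine Finset.sum_eq_zero fun u hu => ?_
  have h4 := hm (- M u) (Finset.mem_image_of_mem (fun u => - M u) hu)
  exact hM u (F u) (hF u) k (by omega)

end Alg

/-- the continuity property of expansions -/
theorem main {K A σ K₁ A₁ τ : Type} [Field K] [Ring A] [Algebra K A] [Field K₁] [Ring A₁]
    [Algebra K₁ A₁] [FiniteDimensional K₁ A₁] [Finite τ] (κ : K →+* K₁) (ι : A →+* A₁)
    (hι : ∀ c, ι (algebraMap K A c) = algebraMap K₁ A₁ (κ c))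
    (eh : NPS σ A →+* NPS τ (LS A₁)) (hC : ∀ a : A, eh (NPS.C a) = NPS.C (LS.C (ι a)))
    (hord : ∀ n f, NPS.Ord n f → ∀ u, ∃ q : PowerSeries A₁, eh f u = LS.ofPS (PowerSeries.X ^ n * q))
    (T : Set (NPS σ A)) (r0 : NPS σ A)
    (hCL : ∀ (n : ℕ) (φ : NPS σ A →ₗ[K] K), (∀ f, NPS.Ord n f → φ f = 0) → (∀ g ∈ T, φ g = 0) →
      φ r0 = 0)
    (n : ℕ) (φ : NPS τ (LS A₁) →ₗ[LS K₁] LS K₁)
    (h1 : ∀ f, NPS.Ord n f → φ f = 0) (h2 : ∀ g ∈ T, φ (eh g) = 0) : φ (eh r0) = 0 := by
  obtain ⟨M, hM⟩ := bound_nps n φ h1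
  ext k
  rw [LS.coeff_zero]
  let _ : Module K K₁ := Module.compHom K₁ κ
  rw [← Module.forall_dual_apply_eq_zero_iff K]
  intro lam
  -- the functional
  let ψ : NPS σ A →ₗ[K] K :=
    { toFun := fun f => lam (LS.coeff (φ (eh f)) k)
      map_add' := fun f g => by
        rw [map_add, map_add, LS.coeff_add, map_add]
      map_smul' := fun c f => by
        have e1 : eh (c • f) = (LS.C (κ c) : LS K₁) • eh f := by
          rw [Algebra.smul_def, NPS.algebraMap_apply, map_mul, hC, hι, Algebra.smul_def,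
            NPS.algebraMap_apply, algebraMap_C]
        rw [e1, map_smul, smul_eq_mul, coeff_C_mul, RingHom.id_apply]
        exact lam.map_smul c _ }
  refine hCL (k - M + 1).toNat ψ ?_ ?_
  · intro f hf
    show lam (LS.coeff (φ (eh f)) k) = 0
    have : LS.coeff (φ (eh f)) k = 0 := by
      choose q hq using hord _ f hf
      let F' : NPS τ (LS A₁) := fun u => LS.ofPS (q u)
      have e2 : eh f = (LS.mono (((k - M + 1).toNat : ℕ) : ℤ) 1 : LS K₁) • F' := by
        ext1 u
        rw [NPS.smul_apply, hq u, map_mul, ofPS_X_pow, Algebra.smul_def, algebraMap_mono]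
      rw [e2, map_smul, smul_eq_mul, coeff_mono_mul]
      refine hM F' (fun u => (LS.intg_iff _).2 ⟨q u, rfl⟩) _ ?_
      have := Int.self_le_toNat (k - M + 1)
      omega
    rw [this, map_zero]
  · intro g hg
    show lam (LS.coeff (φ (eh g)) k) = 0
    rw [h2 g hg, LS.coeff_zero, map_zero]

end TripC

end Vale.Agent.P199K
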