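import Vale.Agent.P199K.Adm

/-! # P199: bijectivity of `L` for admissible data -/

open scoped LaurentSeries
open PowerSeries

namespace Vale.Agent.P199K

section TripL

variable {K A K₁ E₁ A₁ : Type} [Field K] [Ring A] [Algebra K A] [FiniteDimensional K A] [Field K₁]
  [Ring E₁] [Ring A₁] [Algebra K₁ E₁] [Algebra K₁ A₁]

/-- coordinates of the elements of `A₁` with respect to a `K`-basis of `E₁` -/
theorem tripL_coord {κ : K →+* K₁} {ι : A →+* A₁} {j : E₁ →ₐ[K₁] A₁} {m : ℕ} (h : Adm κ ι j m) :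
    ∃ (U : Type) (f : U → E₁) (rep : E₁ → U → K) (coord : U → A₁ →+ A),
      (∀ c, {u | rep c u ≠ 0}.Finite) ∧
      (∀ (s : Finset U) (d : U → K), (∀ u ∉ s, d u = 0) →
        rep (∑ u ∈ s, κ (d u) • f u) = d) ∧
      (∀ c c', (∀ u, rep c u = rep c' u) → c = c') ∧
      (∀ u a c, coord u (ι a * j c) = rep c u • a) ∧
      (∀ u x e, coord u (ι x * e) = x * coord u e) ∧
      (∀ u x e, coord u (e * ι x) = coord u e * x) ∧
      (∀ e e', (∀ u, coord u e = coord u e') → e = e') ∧
      (∀ e, {u | coord u e ≠ 0}.Finite) := by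
  classical
  let _ : Module K E₁ := Module.compHom E₁ κ
  have hsm : ∀ (r : K) (x : E₁), r • x = κ r • x := fun _ _ => rfl
  let f := Module.Basis.ofVectorSpace K E₁
  let b := Module.finBasis K A
  have hbij := h.bas _ b
  let Φ : (Fin (Module.finrank K A) → E₁) → A₁ := fun c => ∑ i, ι (b i) * j (c i)
  have hΦadd : ∀ c c', Φ (c + c') = Φ c + Φ c' := by
    intro c c'
    show ∑ i, ι (b i) * j (c i + c' i) = _
    rw [← Finset.sum_add_distrib]
    exact Finset.sum_congr rfl fun i _ => by rw [map_add, mul_add]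
  let Ψ : A₁ → (Fin (Module.finrank K A) → E₁) := (Equiv.ofBijective Φ hbij).symm
  have hΦΨ : ∀ e, Φ (Ψ e) = e := fun e => (Equiv.ofBijective Φ hbij).apply_symm_apply e
  have hΨΦ : ∀ c, Ψ (Φ c) = c := fun c => (Equiv.ofBijective Φ hbij).symm_apply_apply c
  have hΨadd : ∀ e e', Ψ (e + e') = Ψ e + Ψ e' := by
    intro e e'
    apply hbij.1
    show Φ _ = Φ _
    rw [hΦadd, hΦΨ, hΦΨ, hΦΨ]
  let coord : (Module.Basis.ofVectorSpaceIndex K E₁) → A₁ →+ A := fun u =>
    AddMonoidHom.mk' (fun e => ∑ i, (f.repr (Ψ e i) u) • b i) (by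
      intro e e'
      rw [← Finset.sum_add_distrib]
      refine Finset.sum_congr rfl fun i _ => ?_
      rw [hΨadd, Pi.add_apply, map_add, Finsupp.add_apply, add_smul])
  have hcoord : ∀ u e, coord u e = ∑ i, (f.repr (Ψ e i) u) • b i := fun _ _ => rfl
  -- coordinates of `ι a * j c`
  have h4 : ∀ u a c, coord u (ι a * j c) = f.repr c u • a := by
    intro u a c
    have h1 : ι a * j c = Φ (fun i => (b.repr a i) • c) := by
      show _ = ∑ i, ι (b i) * j ((b.repr a i) • c)
      have h2 : ι a = ∑ i, algebraMap K₁ A₁ (κ (b.repr a i)) * ι (b i) := by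
        conv_lhs => rw [← b.sum_repr a]
        rw [map_sum]
        refine Finset.sum_congr rfl fun i _ => ?_
        rw [Algebra.smul_def, map_mul, h.ι_alg]
      rw [h2, Finset.sum_mul]
      refine Finset.sum_congr rfl fun i _ => ?_
      rw [hsm, map_smul, Algebra.smul_def, ← mul_assoc, Algebra.commutes]
    rw [hcoord, h1, hΨΦ]
    have h3 : ∀ i, f.repr ((b.repr a i) • c) u • b i = f.repr c u • ((b.repr a i) • b i) := by
      intro i
      rw [map_smul, Finsupp.smul_apply, smul_eq_mul, mul_comm, mul_smul]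
    rw [Finset.sum_congr rfl fun i _ => h3 i, ← Finset.smul_sum, b.sum_repr]
  have h5 : ∀ u x e, coord u (ι x * e) = x * coord u e := by
    intro u x e
    have h1 : ι x * e = ∑ i, ι (x * b i) * j (Ψ e i) := by
      conv_lhs => rw [← hΦΨ e]
      show ι x * ∑ i, ι (b i) * j (Ψ e i) = _
      rw [Finset.mul_sum]
      exact Finset.sum_congr rfl fun i _ => by rw [map_mul, mul_assoc]
    rw [h1, map_sum, hcoord, Finset.mul_sum]
    exact Finset.sum_congr rfl fun i _ => by rw [h4, mul_smul_comm]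
  have h6 : ∀ u x e, coord u (e * ι x) = coord u e * x := by
    intro u x e
    have h1 : e * ι x = ∑ i, ι (b i * x) * j (Ψ e i) := by
      conv_lhs => rw [← hΦΨ e]
      show (∑ i, ι (b i) * j (Ψ e i)) * ι x = _
      rw [Finset.sum_mul]
      refine Finset.sum_congr rfl fun i _ => ?_
      rw [map_mul, mul_assoc, mul_assoc, h.comm]
    rw [h1, map_sum, hcoord, Finset.sum_mul]
    exact Finset.sum_congr rfl fun i _ => by rw [h4, smul_mul_assoc]
  have h7 : ∀ e e', (∀ u, coord u e = coord u e') → e = e' := by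
    intro e e' hu
    have h1 : Ψ e = Ψ e' := by
      funext i
      apply f.repr.injective
      ext u
      have h2 := hu u
      rw [hcoord, hcoord] at h2
      have h3 : ∑ i, (f.repr (Ψ e i) u - f.repr (Ψ e' i) u) • b i = 0 := by
        simp only [sub_smul, Finset.sum_sub_distrib]
        rw [h2, sub_self]
      have h8 := Fintype.linearIndependent_iff.1 b.linearIndependent _ h3 i
      exact sub_eq_zero.1 h8
    rw [← hΦΨ e, ← hΦΨ e', h1]
  refine ⟨Module.Basis.ofVectorSpaceIndex K E₁, f, fun c u => f.repr c u, coord, ?_, ?_, ?_, h4, h5,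
    h6, h7, ?_⟩
  · intro c
    refine (f.repr c).support.finite_toSet.subset fun u hu => ?_
    simpa using hu
  · intro s d hd
    funext u
    have h1 : (∑ u ∈ s, κ (d u) • f u) = ∑ u ∈ s, d u • f u := rfl
    show f.repr (∑ u ∈ s, κ (d u) • f u) u = d u
    rw [h1, map_sum, Finsupp.finsetSum_apply]
    have h2 : ∀ v ∈ s, (f.repr (d v • f v)) u = if v = u then d v else 0 := by
      intro v _
      rw [map_smul, Finsupp.smul_apply, Module.Basis.repr_self, Finsupp.single_apply, smul_eq_mul]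
      split_ifs <;> simp
    rw [Finset.sum_congr rfl h2, Finset.sum_ite_eq' s u]
    split_ifs with hu
    · rfl
    · exact (hd u hu).symm
  · intro c c' hc
    apply f.repr.injective
    ext u
    exact hc u
  · intro e
    refine (Set.finite_iUnion fun i => (f.repr (Ψ e i)).support.finite_toSet).subset fun u hu => ?_
    rw [Set.mem_ofPred_eq, hcoord] at hu
    by_contra hcon
    apply hu
    refine Finset.sum_eq_zero fun i _ => ?_
    have h1 : f.repr (Ψ e i) u = 0 := by
      by_contra h2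
      exact hcon (Set.mem_iUnion.2 ⟨i, by simpa using h2⟩)
    rw [h1, zero_smul]

/-- bijectivity at the level of `A₁` -/
theorem tripL_bij {κ : K →+* K₁} {ι : A →+* A₁} {j : E₁ →ₐ[K₁] A₁} {m : ℕ} (h : Adm κ ι j m)
    {σ X : Type} [Fintype σ] (i₀ : X → A) (Lc : Fin 2 → σ → A)
    (hL : ∀ e : Fin 2 → A, (∀ k x, e k * i₀ x = i₀ x * e k) →
      ∃! δ : σ → K, ∀ k, ∑ γ, δ γ • Lc k γ = e k)
    (e : Fin 2 → A₁) (he : ∀ k x, e k * ι (i₀ x) = ι (i₀ x) * e k) :
    ∃! c : σ → E₁, ∀ k, ∑ γ, ι (Lc k γ) * j (c γ) = e k := by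
  classical
  obtain ⟨U, f, rep, coord, -, hrep, hinj, h4, h5, h6, h7, hfin⟩ := tripL_coord h
  have hsum : ∀ (c : σ → E₁) k u, coord u (∑ γ, ι (Lc k γ) * j (c γ))
      = ∑ γ, rep (c γ) u • Lc k γ := by
    intro c k u
    rw [map_sum]
    exact Finset.sum_congr rfl fun γ _ => h4 _ _ _
  have hco : ∀ u k x, coord u (e k) * i₀ x = i₀ x * coord u (e k) := by
    intro u k x
    rw [← h5, ← h6, he]
  have hex : ∀ u, ∃! δ : σ → K, ∀ k, ∑ γ, δ γ • Lc k γ = coord u (e k) := fun u =>
    hL (fun k => coord u (e k)) (fun k x => hco u k x)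
  choose d hd hdu using hex
  -- the support
  let s : Finset U := (hfin (e 0)).toFinset ∪ (hfin (e 1)).toFinset
  have hs : ∀ u ∉ s, ∀ k, coord u (e k) = 0 := by
    intro u hu k
    simp only [s, Finset.mem_union, Set.Finite.mem_toFinset, Set.mem_ofPred_eq, not_or,
      not_not] at hu
    fin_cases k
    · exact hu.1
    · exact hu.2
  have hd0 : ∀ u ∉ s, ∀ γ, d u γ = 0 := by
    intro u hu γ
    have h1 : (fun _ : σ => (0 : K)) = d u := hdu u _ (fun k => by
      simp only [zero_smul, Finset.sum_const_zero]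
      exact (hs u hu k).symm)
    exact (congrFun h1 γ).symm
  refine ⟨fun γ => ∑ u ∈ s, κ (d u γ) • f u, ?_, ?_⟩
  · intro k
    apply h7
    intro u
    rw [hsum, ← hd u k]
    refine Finset.sum_congr rfl fun γ _ => ?_
    have h1 := hrep s (fun u => d u γ) (fun u hu => hd0 u hu γ)
    rw [show rep (∑ u ∈ s, κ (d u γ) • f u) u = d u γ from congrFun h1 u]
  · intro c hc
    funext γ
    apply hinj
    intro u
    have h1 := hrep s (fun u => d u γ) (fun u hu => hd0 u hu γ)
    rw [show rep (∑ u ∈ s, κ (d u γ) • f u) u = d u γ from congrFun h1 u]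
    have h2 : (fun γ => rep (c γ) u) = d u := hdu u _ (fun k => by
      show ∑ γ, rep (c γ) u • Lc k γ = _
      rw [← hsum, hc k])
    exact congrFun h2 γ

/-- bijectivity at the level of `LS A₁` -/
theorem tripL_ls {κ : K →+* K₁} {ι : A →+* A₁} {j : E₁ →ₐ[K₁] A₁} {m : ℕ} (h : Adm κ ι j m)
    {σ X B : Type} [Fintype σ] [Fintype B] (ε : Module.Basis B K₁ E₁) (i₀ : X → A)
    (Lc : Fin 2 → σ → A)
    (hL : ∀ e : Fin 2 → A, (∀ k x, e k * i₀ x = i₀ x * e k) →
      ∃! δ : σ → K, ∀ k, ∑ γ, δ γ • Lc k γ = e k)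
    (e : Fin 2 → LS A₁) (he : ∀ k x, e k * LS.C (ι (i₀ x)) = LS.C (ι (i₀ x)) * e k) :
    ∃! δ : σ × B → LS K₁, ∀ k, ∑ γβ, δ γβ • LS.mono 1 (ι (Lc k γβ.1) * j (ε γβ.2)) = e k := by
  classical
  -- coefficients
  have hcC : ∀ (a : A₁) (f : LS A₁) (n : ℤ), LS.coeff (LS.C a * f) n = a * LS.coeff f n := by
    intro a f n
    have := HahnSeries.coeff_single_mul (Γ' := ℤ) (r := a) (x := f) (a := n) (b := 0)
    rw [sub_zero] at this
    exact this
  have hCc : ∀ (a : A₁) (f : LS A₁) (n : ℤ), LS.coeff (f * LS.C a) n = LS.coeff f n * a := by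
    intro a f n
    have := HahnSeries.coeff_mul_single (Γ' := ℤ) (r := a) (x := f) (a := n) (b := 0)
    rw [sub_zero] at this
    exact this
  have hsm : ∀ (c : LS K₁) (a : A₁) (n : ℤ),
      LS.coeff (c • LS.mono 1 a) n = LS.coeff c (n - 1) • a := by
    intro c a n
    rw [Algebra.smul_def, Algebra.smul_def]
    exact HahnSeries.coeff_mul_single (Γ' := ℤ) (r := a)
      (x := (algebraMap (LS K₁) (LS A₁) c : HahnSeries ℤ A₁)) (a := n) (b := 1)
  have hsum : ∀ {T : Type} (s : Finset T) (f : T → LS A₁) (n : ℤ),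
      LS.coeff (∑ t ∈ s, f t) n = ∑ t ∈ s, LS.coeff (f t) n := by
    intro T s f n
    induction s using Finset.induction_on with
    | empty => simp
    | insert a s ha ih => rw [Finset.sum_insert ha, Finset.sum_insert ha, LS.coeff_add, ih]
  -- the equation in terms of coefficients
  have hprod : ∀ (g : σ × B → K₁) (k : Fin 2),
      ∑ γβ : σ × B, g γβ • (ι (Lc k γβ.1) * j (ε γβ.2))
        = ∑ γ, ι (Lc k γ) * j (∑ β, g (γ, β) • ε β) := by
    intro g k
    rw [Fintype.sum_prod_type]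
    refine Finset.sum_congr rfl fun γ _ => ?_
    rw [map_sum, Finset.mul_sum]
    refine Finset.sum_congr rfl fun β _ => ?_
    rw [map_smul, mul_smul_comm]
  have heq : ∀ (δ : σ × B → LS K₁) (k : Fin 2),
      (∑ γβ, δ γβ • LS.mono 1 (ι (Lc k γβ.1) * j (ε γβ.2)) = e k) ↔
        ∀ n, ∑ γ, ι (Lc k γ) * j (∑ β, LS.coeff (δ (γ, β)) (n - 1) • ε β) = LS.coeff (e k) n := by
    intro δ k
    have h1 : ∀ n, LS.coeff (∑ γβ, δ γβ • LS.mono 1 (ι (Lc k γβ.1) * j (ε γβ.2))) n
        = ∑ γ, ι (Lc k γ) * j (∑ β, LS.coeff (δ (γ, β)) (n - 1) • ε β) := by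
      intro n
      rw [hsum, ← hprod (fun γβ => LS.coeff (δ γβ) (n - 1)) k]
      exact Finset.sum_congr rfl fun γβ _ => hsm _ _ _
    constructor
    · intro h2 n
      rw [← h1, h2]
    · intro h2
      ext n
      rw [h1, h2]
  have hex : ∀ n : ℤ, ∃! c : σ → E₁, ∀ k, ∑ γ, ι (Lc k γ) * j (c γ) = LS.coeff (e k) n := by
    intro n
    refine tripL_bij h i₀ Lc hL (fun k => LS.coeff (e k) n) ?_
    intro k x
    have h1 := congrArg (fun y => LS.coeff y n) (he k x)
    simp only [hcC, hCc] at h1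
    exact h1
  choose c hc hcu using hex
  -- boundedness
  have hbd : ∀ f : LS A₁, ∃ N : ℤ, ∀ n < N, LS.coeff f n = 0 := by
    intro f
    by_cases hf : f = 0
    · exact ⟨0, fun n _ => by rw [hf]; rfl⟩
    · exact ⟨HahnSeries.order (f : HahnSeries ℤ A₁), fun n hn =>
        HahnSeries.coeff_eq_zero_of_lt_order hn⟩
  obtain ⟨N0, hN0⟩ := hbd (e 0)
  obtain ⟨N1, hN1⟩ := hbd (e 1)
  have hc0 : ∀ n < min N0 N1, ∀ γ, c n γ = 0 := by
    intro n hn γ
    have h1 : (fun _ : σ => (0 : E₁)) = c n := hcu n _ (fun k => by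
      simp only [map_zero, mul_zero, Finset.sum_const_zero]
      fin_cases k
      · exact (hN0 n (lt_of_lt_of_le hn (min_le_left _ _))).symm
      · exact (hN1 n (lt_of_lt_of_le hn (min_le_right _ _))).symm)
    exact (congrFun h1 γ).symm
  let D : σ × B → LS K₁ := fun γβ =>
    (HahnSeries.ofSuppBddBelow (fun n : ℤ => ε.repr (c (n + 1) γβ.1) γβ.2)
      ⟨min N0 N1 - 1, fun n hn => by
        by_contra hlt
        apply hn
        show ε.repr (c (n + 1) γβ.1) γβ.2 = 0
        rw [hc0 (n + 1) (by omega)]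
        simp⟩ : HahnSeries ℤ K₁)
  have hD : ∀ γ β n, LS.coeff (D (γ, β)) n = ε.repr (c (n + 1) γ) β := fun _ _ _ => rfl
  refine ⟨D, ?_, ?_⟩
  · intro k
    rw [heq]
    intro n
    rw [← hc n k]
    refine Finset.sum_congr rfl fun γ _ => ?_
    simp only [hD, sub_add_cancel]
    rw [ε.sum_repr]
  · intro δ hδ
    funext γβ
    obtain ⟨γ, β⟩ := γβ
    ext n
    rw [hD]
    have h1 : (fun γ => ∑ β, LS.coeff (δ (γ, β)) (n + 1 - 1) • ε β) = c (n + 1) :=
      hcu (n + 1) _ (fun k => (heq δ k).1 (hδ k) (n + 1))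
    rw [← congrFun h1 γ, add_sub_cancel_right]
    simp [map_sum, Finsupp.single_apply]

end TripL

end Vale.Agent.P199K
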