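import Vale.Agent.P199K.Subst
import Vale.Agent.P199K.TripLAux
import Vale.Agent.P199K.TripC

/-! # P199: stages, triples, data of expansions (definitions only) -/

open scoped TensorProduct LaurentSeries
open PowerSeries

namespace Vale.Agent.P199K

/-- `K<x,y>` is dense in `A<<a_1,a_2>>` -/
def DenseXY (K : Type) {A : Type} [Field K] [Ring A] [Algebra K A] (x y : NPS (Fin 2) A) : Prop :=
  ∀ (n : ℕ) (r : NPS (Fin 2) A), ∃ g ∈ Algebra.adjoin K {x, y}, NPS.Ord n (r - g)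

/-- a stage -/
structure Stg where
  K : Type
  A : Type
  [fK : Field K]
  [cz : CharZero K]
  [roots : HasRoots K]
  [rA : Ring A]
  [dom : IsDomain A]
  [alg : Algebra K A]
  [fd : FiniteDimensional K A]
  [cen : Algebra.IsCentral K A]
  x : NPS (Fin 2) A
  y : NPS (Fin 2) A
  dense : DenseXY K x y

attribute [instance] Stg.fK Stg.cz Stg.roots Stg.rA Stg.dom Stg.alg Stg.fd Stg.cen

/-- data of an expansion -/
structure ExpD (K A σ : Type) [Field K] [Ring A] [Algebra K A] where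
  m : ℕ
  K₁ : Type
  E₁ : Type
  A₁ : Type
  B : Type
  [fK₁ : Field K₁]
  [rE₁ : Ring E₁]
  [rA₁ : Ring A₁]
  [algE : Algebra K₁ E₁]
  [algA : Algebra K₁ A₁]
  [domA : IsDomain A₁]
  [fB : Fintype B]
  [dB : DecidableEq B]
  κ : K →+* K₁
  ι : A →+* A₁
  j : E₁ →ₐ[K₁] A₁
  adm : Adm κ ι j m
  ε : Module.Basis B K₁ E₁
  p : σ → PowerSeries E₁
  hp : ∀ γ, PowerSeries.constantCoeff (p γ) = 0

attribute [instance] ExpD.fK₁ ExpD.rE₁ ExpD.rA₁ ExpD.algE ExpD.algA ExpD.domA ExpD.fB ExpD.dB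

/-- a triple over the stage `S` (the series `w₀` is not part of the data) -/
structure Trip (S : Stg) where
  K : Type
  A : Type
  σ : Type
  [fK : Field K]
  [cz : CharZero K]
  [roots : HasRoots K]
  [rA : Ring A]
  [dom : IsDomain A]
  [alg : Algebra K A]
  [fd : FiniteDimensional K A]
  [cen : Algebra.IsCentral K A]
  [fσ : Fintype σ]
  [dσ : DecidableEq σ]
  iK : S.K →+* K
  iA : S.A →+* A
  compat : ∀ c : S.K, iA (algebraMap S.K S.A c) = algebraMap K A (iK c)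
  Psi : NPS (Fin 2) S.A →+* NPS σ A
  Psi_C : ∀ a, Psi (NPS.C a) = NPS.C (iA a)
  Θ : Fin 2 → A
  Lc : Fin 2 → σ → A
  Psi_X : ∀ k, Psi (NPS.X k) = NPS.C (Θ k) + ∑ γ, NPS.C (Lc k γ) * NPS.X γ
  comm_Θ : ∀ k a, Θ k * iA a = iA a * Θ k
  comm_Lc : ∀ k γ a, Lc k γ * iA a = iA a * Lc k γ
  L_bij : ∀ e : Fin 2 → A, (∀ k a, e k * iA a = iA a * e k) →
    ∃! δ : σ → K, ∀ k, ∑ γ, δ γ • Lc k γ = e k
  card_σ : Fintype.card σ * Module.finrank S.K S.A = 2 * Module.finrank K A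
  gen : ∃ g₁ g₂ : A, (∀ a, g₁ * iA a = iA a * g₁) ∧ (∀ a, g₂ * iA a = iA a * g₂) ∧
    Algebra.adjoin K (Set.range iA ∪ {g₁, g₂}) = ⊤
  CL : ∀ G : Set (NPS (Fin 2) S.A), (∀ (n : ℕ) (r : NPS (Fin 2) S.A), ∃ g ∈ G, NPS.Ord n (r - g)) →
    ∀ (n : ℕ) (φ : NPS σ A →ₗ[K] K), (∀ f, NPS.Ord n f → φ f = 0) → (∀ g ∈ G, φ (Psi g) = 0) →
      ∀ r, φ (Psi r) = 0

attribute [instance] Trip.fK Trip.cz Trip.roots Trip.rA Trip.dom Trip.alg Trip.fd Trip.cen Trip.fσ Trip.dσ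

namespace Trip

variable {S : Stg} (P : Trip S) (d : ExpD P.K P.A P.σ)

theorem d_comm (a : P.A) (e : d.E₁) : d.ι a * (d.j : d.E₁ →+* d.A₁) e = (d.j : d.E₁ →+* d.A₁) e * d.ι a :=
  d.adm.comm a e

noncomputable def iK' : S.K →+* LS d.K₁ := (LS.C : d.K₁ →+* LS d.K₁).comp (d.κ.comp P.iK)

noncomputable def iA' : S.A →+* LS d.A₁ := (LS.C : d.A₁ →+* LS d.A₁).comp (d.ι.comp P.iA)

/-- the expansion hom of the data `d` -/
noncomputable def eh : NPS P.σ P.A →+* NPS (P.σ × d.B) (LS d.A₁) :=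
  expHom d.ι (d.j : d.E₁ →+* d.A₁) (P.d_comm d) d.ε d.p d.hp

noncomputable def Psi' : NPS (Fin 2) S.A →+* NPS (P.σ × d.B) (LS d.A₁) := (P.eh d).comp P.Psi

noncomputable def Θ' (k : Fin 2) : LS d.A₁ :=
  LS.C (d.ι (P.Θ k)) + ∑ γ, LS.C (d.ι (P.Lc k γ)) * LS.ofPS (PowerSeries.map (d.j : d.E₁ →+* d.A₁) (d.p γ))

noncomputable def Lc' (k : Fin 2) (γβ : P.σ × d.B) : LS d.A₁ :=
  LS.mono 1 (d.ι (P.Lc k γβ.1) * d.j (d.ε γβ.2))

end Trip

end Vale.Agent.P199K
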